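import Crest.Agent.R100.HaarAvg_403
import Mathlib.Topology.Instances.AddCircle.Defs
import Mathlib.MeasureTheory.Integral.IntervalIntegral.Periodic

/-!
Domination of the modulated Hilbert kernel by averages of dyadic model operators.
-/
set_option autoImplicit false
open MeasureTheory Set Filter Topology intervalIntegral
open scoped ENNReal

namespace Crest.Agent.R100.Haar403

/-- modulation -/
noncomputable def mdl (θ : ℝ) (F : ℝ → ℂ) (y : ℝ) : ℂ := F y * ee θ y

lemma measurable_mdl {θ : ℝ} {F : ℝ → ℂ} (hF : Measurable F) : Measurable (mdl θ F) :=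
  hF.mul (continuous_ee θ).measurable

lemma norm_mdl (θ : ℝ) (F : ℝ → ℂ) (y : ℝ) : ‖mdl θ F y‖ = ‖F y‖ := by
  unfold mdl; rw [norm_mul, norm_ee, mul_one]

/-- the dyadic average dominates the kernel operator -/
theorem enorm_K_le {g : ℝ → ℂ} (hg : Measurable g) {B : ℝ} (hB : ∀ y, ‖g y‖ ≤ B) (m : ℕ) (x : ℝ) :
    ‖∫ y, (K m (x - y) : ℂ) * g y‖ₑ ≤
      16 * ∫⁻ ρ in Ioc (1 / 2 : ℝ) 1, ∫⁻ σ in Ioc (0 : ℝ) 1, ‖H m (dil ρ σ g) (x / ρ - σ)‖ₑ := by
  rw [← avg_H hg hB m x, enorm_mul, intervalIntegral.integral_of_le (by norm_num)]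
  have h8 : ‖(-8 : ℂ)‖ₑ = 8 := by
    rw [enorm_neg]
    rw [← ofReal_norm]
    simp
  rw [h8]
  calc 8 * ‖∫ ρ in Ioc (1 / 2 : ℝ) 1, (ρ : ℂ)⁻¹ * ∫ σ in (0 : ℝ)..1, H m (dil ρ σ g) (x / ρ - σ)‖ₑ
      ≤ 8 * ∫⁻ ρ in Ioc (1 / 2 : ℝ) 1,
          ‖(ρ : ℂ)⁻¹ * ∫ σ in (0 : ℝ)..1, H m (dil ρ σ g) (x / ρ - σ)‖ₑ := by
        gcongr
        exact enorm_integral_le_lintegral_enorm _
    _ ≤ 8 * ∫⁻ ρ in Ioc (1 / 2 : ℝ) 1,
          2 * ∫⁻ σ in Ioc (0 : ℝ) 1, ‖H m (dil ρ σ g) (x / ρ - σ)‖ₑ := by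
        refine mul_le_mul_right ?_ _
        refine setLIntegral_mono' measurableSet_Ioc fun ρ hρ => ?_
        rw [enorm_mul]
        refine mul_le_mul' ?_ ?_
        · have hρ0 : 0 < ρ := by linarith [hρ.1]
          rw [← ofReal_norm, norm_inv, Complex.norm_real, Real.norm_of_nonneg hρ0.le]
          calc ENNReal.ofReal ρ⁻¹ ≤ ENNReal.ofReal 2 := by
                apply ENNReal.ofReal_le_ofReal
                rw [inv_le_comm₀ hρ0 (by norm_num)]
                linarith [hρ.1]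
            _ = 2 := by simp
        · rw [intervalIntegral.integral_of_le zero_le_one]
          exact enorm_integral_le_lintegral_enorm _
    _ = 16 * ∫⁻ ρ in Ioc (1 / 2 : ℝ) 1, ∫⁻ σ in Ioc (0 : ℝ) 1,
          ‖H m (dil ρ σ g) (x / ρ - σ)‖ₑ := by
        rw [lintegral_const_mul' _ _ (by norm_num), ← mul_assoc]
        norm_num

/-- measurability of the model in all parameters -/
lemma measurable_H_param {G : ℝ → ℝ → ℂ} (hG : Measurable (Function.uncurry G)) {B : ℝ}
    (hB : ∀ x y, ‖G x y‖ ≤ B) (m : ℕ) :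
    Measurable fun p : (ℝ × ℝ) × ℝ => H m (dil p.1.2 p.2 (G p.1.1)) (p.1.1 / p.1.2 - p.2) := by
  unfold H
  refine Finset.measurable_sum _ fun k _ => ?_
  have hGm : ∀ x, Measurable (G x) := fun x => hG.comp (measurable_const.prodMk measurable_id)
  have e : ∀ p : (ℝ × ℝ) × ℝ, (sg (2 ^ (k + 1) * (p.1.1 / p.1.2 - p.2)) : ℂ) *
      D k (dil p.1.2 p.2 (G p.1.1)) (p.1.1 / p.1.2 - p.2) =
      (2 : ℂ) ^ k * ∫ y, (q (2 ^ k * (p.1.1 / p.1.2 - p.2)) (2 ^ k * y) : ℂ) *
        dil p.1.2 p.2 (G p.1.1) y := fun p =>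
    scale_eq (locInt_of_bdd (measurable_dil (hGm _)) (fun y => hB _ _)) k _
  simp_rw [e]
  refine Measurable.const_mul ?_ _
  have h1 : Measurable fun z : ((ℝ × ℝ) × ℝ) × ℝ =>
      (q (2 ^ k * (z.1.1.1 / z.1.1.2 - z.1.2)) (2 ^ k * z.2) : ℂ) *
        dil z.1.1.2 z.1.2 (G z.1.1.1) z.2 := by
    refine (Complex.measurable_ofReal.comp (measurable_q.comp (Measurable.prodMk ?_ ?_))).mul ?_
    · fun_prop
    · fun_prop
    · unfold dil
      have e1 : Measurable fun z : ((ℝ × ℝ) × ℝ) × ℝ => z.1.1.1 := by fun_prop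
      have e2 : Measurable fun z : ((ℝ × ℝ) × ℝ) × ℝ => z.1.1.2 * (z.1.2 + z.2) := by fun_prop
      exact hG.comp (e1.prodMk e2)
  exact h1.stronglyMeasurable.integral_prod_right.measurable

lemma locInt_K_mul {g : ℝ → ℂ} (hg : Measurable g) {B : ℝ} (hB : ∀ y, ‖g y‖ ≤ B) (m : ℕ) (x : ℝ) :
    Integrable (fun y => (K m (x - y) : ℂ) * g y) := by
  unfold K
  have h1 : ∀ k, Integrable (fun y => (Kk k (x - y) : ℂ) * g y) := by
    intro k
    have := (integrable_Ag hg hB k x).integral_prod_right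
    refine this.congr (ae_of_all _ fun y => ?_)
    simp only
    rw [MeasureTheory.integral_mul_const]
    congr 1
    unfold Kk
    rw [← intervalIntegral.integral_of_le (by norm_num)]
    exact intervalIntegral.integral_ofReal
  have h2 : (fun y => (((-8 : ℝ) * ∑ k ∈ Finset.range m, Kk k (x - y) : ℝ) : ℂ) * g y) =
      fun y => -8 * ∑ k ∈ Finset.range m, (Kk k (x - y) : ℂ) * g y := by
    ext y
    rw [← Finset.sum_mul]; push_cast; ring
  rw [h2]
  exact (integrable_finsetSum _ fun k _ => h1 k).const_mul _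

lemma measurable_Kk (k : ℕ) : Measurable (Kk k) := by
  unfold Kk
  simp_rw [intervalIntegral.integral_of_le (show (1 / 2 : ℝ) ≤ 1 by norm_num)]
  have h1 : Measurable fun p : ℝ × ℝ => 2 ^ k * (p.2 ^ 2)⁻¹ * A (2 ^ k * p.1 / p.2) := by
    refine ((measurable_snd.pow_const 2).inv.const_mul _).mul (measurable_A.comp ?_)
    exact (measurable_fst.const_mul _).div measurable_snd
  exact h1.stronglyMeasurable.integral_prod_right'.measurable

lemma measurable_K (m : ℕ) : Measurable (K m) := by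
  unfold K
  exact (Finset.measurable_sum _ fun k _ => measurable_Kk k).const_mul _

/-- the error kernel -/
noncomputable def Rk (m : ℕ) (M t : ℝ) : ℝ :=
  Real.sin (M * t) * ((if |t| ≤ 1 / 2 then t⁻¹ else 0) - K m t)

lemma abs_Rk_le (m : ℕ) {M : ℝ} (hM : 0 ≤ M) (t : ℝ) :
    |Rk m M t| ≤ (if |t| < 1 then 16 else 0) + (if |t| < (2 ^ m)⁻¹ then 9 * M else 0) := by
  unfold Rk
  rcases eq_or_ne t 0 with rfl | ht
  · simp; positivity
  have hm := two_pow_pos' m
  have htpos : 0 < |t| := abs_pos.mpr ht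
  rw [abs_mul]
  by_cases h1 : 1 ≤ |t|
  · rw [K_eq_zero m h1, if_neg (by linarith), if_neg (by linarith)]
    simp
    have : ¬ |t| < (2 ^ m)⁻¹ := by
      push Not
      exact (inv_le_one_of_one_le₀ (one_le_two_pow' m)).trans h1
    rw [if_neg this]
  push Not at h1
  rw [if_pos h1]
  by_cases h2 : |t| < (2 ^ m)⁻¹
  · rw [if_pos h2]
    have h3 : |Real.sin (M * t)| ≤ M * |t| := by
      refine Real.abs_sin_le_abs.trans ?_
      rw [abs_mul, abs_of_nonneg hM]
    have h4 : |(if |t| ≤ 1 / 2 then t⁻¹ else 0) - K m t| ≤ 9 * |t|⁻¹ := by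
      refine (abs_sub _ _).trans ?_
      have h5 := abs_K_le m ht
      have h6 : |(if |t| ≤ 1 / 2 then t⁻¹ else 0)| ≤ |t|⁻¹ := by
        split_ifs
        · rw [abs_inv]
        · simp
      linarith
    calc |Real.sin (M * t)| * |(if |t| ≤ 1 / 2 then t⁻¹ else 0) - K m t|
        ≤ (M * |t|) * (9 * |t|⁻¹) := by gcongr
      _ = 9 * M := by field_simp
      _ ≤ 16 + 9 * M := by linarith
  · rw [if_neg h2, add_zero]
    push Not at h2
    have h2' : 1 ≤ 2 ^ m * |t| := by
      rw [inv_le_iff_one_le_mul₀ hm] at h2; linarith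
    have h3 : |Real.sin (M * t)| ≤ 1 := Real.abs_sin_le_one _
    have h4 : |(if |t| ≤ 1 / 2 then t⁻¹ else 0) - K m t| ≤ 16 := by
      split_ifs with h5
      · rw [abs_sub_comm]; linarith [abs_K_sub_le m h2' h1.le]
      · push Not at h5
        rw [zero_sub, abs_neg]
        refine (abs_K_le m ht).trans ?_
        have : |t|⁻¹ ≤ 2 := by
          rw [inv_le_comm₀ htpos (by norm_num)]; linarith
        linarith
    calc |Real.sin (M * t)| * |(if |t| ≤ 1 / 2 then t⁻¹ else 0) - K m t| ≤ 1 * 16 := by gcongr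
      _ = 16 := by norm_num

lemma measurable_Rk (m : ℕ) (M : ℝ) : Measurable (Rk m M) := by
  unfold Rk
  refine (Real.measurable_sin.comp (measurable_const_mul M)).mul (Measurable.sub ?_ (measurable_K m))
  exact Measurable.ite (measurableSet_le (continuous_abs.measurable) measurable_const)
    measurable_inv measurable_const

lemma integrable_Rk_bound (m : ℕ) (M : ℝ) : Integrable fun t : ℝ =>
    ((if |t| < 1 then 16 else 0) + (if |t| < (2 ^ m)⁻¹ then 9 * M else 0) : ℝ) := by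
  have h : ∀ a c : ℝ, Integrable fun t : ℝ => (if |t| < a then c else 0 : ℝ) := by
    intro a c
    have e : (fun t : ℝ => (if |t| < a then c else 0 : ℝ)) = (Ioo (-a) a).indicator fun _ => c := by
      ext t
      by_cases ht : |t| < a
      · rw [if_pos ht, indicator_of_mem (show t ∈ Ioo (-a) a from abs_lt.mp ht)]
      · rw [if_neg ht, indicator_of_notMem (show t ∉ Ioo (-a) a from fun h => ht (abs_lt.mpr h))]
    rw [e]
    exact (integrable_indicator_iff measurableSet_Ioo).mpr (integrableOn_const (by simp))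
  exact (h 1 16).add (h _ _)

lemma integral_ite_abs {a : ℝ} (ha : 0 ≤ a) (f : ℝ → ℝ) :
    ∫ t : ℝ, (if |t| < a then f t else 0 : ℝ) = ∫ t in (-a)..a, f t := by
  have e : (fun t : ℝ => (if |t| < a then f t else 0 : ℝ)) = (Ioo (-a) a).indicator f := by
    ext t
    by_cases ht : |t| < a
    · rw [if_pos ht, indicator_of_mem (show t ∈ Ioo (-a) a from abs_lt.mp ht)]
    · rw [if_neg ht, indicator_of_notMem (show t ∉ Ioo (-a) a from fun h => ht (abs_lt.mpr h))]
  rw [e, MeasureTheory.integral_indicator measurableSet_Ioo, ← integral_Ioc_eq_integral_Ioo,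
    ← intervalIntegral.integral_of_le (by linarith)]

/-- the error term -/
lemma norm_error_le {F : ℝ → ℂ} (hF : Measurable F) {B : ℝ} (hB : ∀ y, ‖F y‖ ≤ B) (m : ℕ) {M : ℝ}
    (hM : 0 ≤ M) (x : ℝ) :
    ‖∫ t, (Rk m M t : ℂ) * F (x - t)‖ ≤
      16 * (∫ t in (-1 : ℝ)..1, ‖F (x - t)‖) + 18 * M * B * (2 ^ m)⁻¹ := by
  have hB0 : 0 ≤ B := (norm_nonneg _).trans (hB 0)
  have hm := two_pow_pos' m
  have hFm : Measurable fun t => F (x - t) := hF.comp (measurable_const.sub measurable_id)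
  have h1 : Integrable fun t : ℝ => (if |t| < 1 then 16 * ‖F (x - t)‖ else 0 : ℝ) := by
    have e : (fun t : ℝ => (if |t| < 1 then 16 * ‖F (x - t)‖ else 0 : ℝ)) =
        (Ioo (-1 : ℝ) 1).indicator fun t => 16 * ‖F (x - t)‖ := by
      ext t
      by_cases ht : |t| < 1
      · rw [if_pos ht, indicator_of_mem (show t ∈ Ioo (-1 : ℝ) 1 from abs_lt.mp ht)]
      · rw [if_neg ht, indicator_of_notMem (show t ∉ Ioo (-1 : ℝ) 1 from
          fun h => ht (abs_lt.mpr h))]
    rw [e]
    refine (integrable_indicator_iff measurableSet_Ioo).mpr ?_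
    exact Measure.integrableOn_of_bounded (M := 16 * B) (by simp)
      (hFm.norm.const_mul 16).aestronglyMeasurable (ae_of_all _ fun t => by
        rw [Real.norm_of_nonneg (by positivity)]; have := hB (x - t); linarith)
  have h2 : Integrable fun t : ℝ => (if |t| < (2 ^ m)⁻¹ then 9 * M * B else 0 : ℝ) := by
    have := (integrable_Rk_bound m (M * B)).sub (integrable_Rk_bound m 0)
    refine this.congr (ae_of_all _ fun t => ?_)
    simp only [Pi.sub_apply]
    split_ifs <;> ring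
  calc ‖∫ t, (Rk m M t : ℂ) * F (x - t)‖
      ≤ ∫ t, ((if |t| < 1 then 16 * ‖F (x - t)‖ else 0) +
          (if |t| < (2 ^ m)⁻¹ then 9 * M * B else 0) : ℝ) := by
        refine norm_integral_le_of_norm_le (h1.add h2) (ae_of_all _ fun t => ?_)
        rw [norm_mul, Complex.norm_real, Real.norm_eq_abs]
        have h3 := abs_Rk_le m hM t
        calc |Rk m M t| * ‖F (x - t)‖
            ≤ ((if |t| < 1 then 16 else 0) + (if |t| < (2 ^ m)⁻¹ then 9 * M else 0)) *
              ‖F (x - t)‖ := by gcongr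
          _ ≤ _ := by
              rw [add_mul]
              gcongr
              · split_ifs
                · exact le_rfl
                · simp
              · split_ifs
                · have := hB (x - t); gcongr
                · simp
    _ = 16 * (∫ t in (-1 : ℝ)..1, ‖F (x - t)‖) + 18 * M * B * (2 ^ m)⁻¹ := by
        rw [MeasureTheory.integral_add h1 h2, integral_ite_abs zero_le_one
          (fun t => 16 * ‖F (x - t)‖), integral_ite_abs (inv_nonneg.mpr hm.le)
          (fun _ => 9 * M * B), intervalIntegral.integral_const_mul]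
        simp only [intervalIntegral.integral_const, smul_eq_mul]
        ring

/-- the modulated truncated Hilbert kernel is dominated by averages of the dyadic model. -/
theorem enorm_sinInt_le {F : ℝ → ℂ} (hF : Measurable F) {B : ℝ} (hB : ∀ y, ‖F y‖ ≤ B) (m : ℕ)
    {θ : ℝ} (hθ : 0 ≤ θ) (x : ℝ) :
    ‖∫ t in (-(1 / 2) : ℝ)..(1 / 2), ((Real.sin (2 * Real.pi * θ * t) * t⁻¹ : ℝ) : ℂ) * F (x - t)‖ₑ ≤
      8 * ((∫⁻ ρ in Ioc (1 / 2 : ℝ) 1, ∫⁻ σ in Ioc (0 : ℝ) 1,
          ‖H m (dil ρ σ (mdl (-θ) F)) (x / ρ - σ)‖ₑ) +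
        (∫⁻ ρ in Ioc (1 / 2 : ℝ) 1, ∫⁻ σ in Ioc (0 : ℝ) 1,
          ‖H m (dil ρ σ (mdl θ F)) (x / ρ - σ)‖ₑ)) +
      ENNReal.ofReal (16 * (∫ t in (-1 : ℝ)..1, ‖F (x - t)‖) +
        18 * (2 * Real.pi * θ) * B * (2 ^ m)⁻¹) := by
  set M : ℝ := 2 * Real.pi * θ with hM
  have hM0 : 0 ≤ M := by positivity
  have hFm : Measurable fun t => F (x - t) := hF.comp (measurable_const.sub measurable_id)
  have hb1 : ∀ y, ‖mdl (-θ) F y‖ ≤ B := fun y => by rw [norm_mdl]; exact hB y
  have hb2 : ∀ y, ‖mdl θ F y‖ ≤ B := fun y => by rw [norm_mdl]; exact hB y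
  have hI1 := locInt_K_mul (measurable_mdl (θ := -θ) hF) hb1 m x
  have hI2 := locInt_K_mul (measurable_mdl (θ := θ) hF) hb2 m x
  -- sine in terms of characters
  have hsin : ∀ y : ℝ, ((Real.sin (M * (x - y)) : ℝ) : ℂ) * F y =
      (2 * Complex.I)⁻¹ * (ee θ x * mdl (-θ) F y) - (2 * Complex.I)⁻¹ * (ee (-θ) x * mdl θ F y) := by
    intro y
    unfold mdl ee
    have e1 : Complex.exp (2 * Real.pi * Complex.I * θ * x) *
        Complex.exp (2 * Real.pi * Complex.I * ((-θ : ℝ) : ℂ) * y) =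
        Complex.exp (((M * (x - y) : ℝ) : ℂ) * Complex.I) := by
      rw [← Complex.exp_add]; congr 1; rw [hM]; push_cast; ring
    have e2 : Complex.exp (2 * Real.pi * Complex.I * ((-θ : ℝ) : ℂ) * x) *
        Complex.exp (2 * Real.pi * Complex.I * θ * y) =
        Complex.exp (-((M * (x - y) : ℝ) : ℂ) * Complex.I) := by
      rw [← Complex.exp_add]; congr 1; rw [hM]; push_cast; ring
    rw [Complex.ofReal_sin, Complex.sin]
    calc (Complex.exp (-((M * (x - y) : ℝ) : ℂ) * Complex.I) -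
          Complex.exp (((M * (x - y) : ℝ) : ℂ) * Complex.I)) * Complex.I / 2 * F y
        = (2 * Complex.I)⁻¹ * (Complex.exp (((M * (x - y) : ℝ) : ℂ) * Complex.I) * F y) -
          (2 * Complex.I)⁻¹ * (Complex.exp (-((M * (x - y) : ℝ) : ℂ) * Complex.I) * F y) := by
          have hI : (Complex.I)⁻¹ = -Complex.I := Complex.inv_I
          rw [mul_inv, hI]; ring
      _ = _ := by rw [← e1, ← e2]; ring
  -- the main kernel integral
  have hmainint : Integrable fun t : ℝ => ((Real.sin (M * t) * K m t : ℝ) : ℂ) * F (x - t) := by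
    have h1 : Integrable fun y : ℝ => ((Real.sin (M * (x - y)) * K m (x - y) : ℝ) : ℂ) * F y := by
      have := ((hI1.const_mul (ee θ x)).const_mul (2 * Complex.I)⁻¹).sub
        ((hI2.const_mul (ee (-θ) x)).const_mul (2 * Complex.I)⁻¹)
      refine this.congr (ae_of_all _ fun y => ?_)
      simp only [Pi.sub_apply]
      rw [Complex.ofReal_mul, mul_right_comm, hsin y]
      ring
    have h2 := h1.comp_sub_left x
    refine h2.congr (ae_of_all _ fun t => ?_)
    simp
  have hmain : ∫ t : ℝ, ((Real.sin (M * t) * K m t : ℝ) : ℂ) * F (x - t) =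
      (2 * Complex.I)⁻¹ * (ee θ x * ∫ y, (K m (x - y) : ℂ) * mdl (-θ) F y) -
      (2 * Complex.I)⁻¹ * (ee (-θ) x * ∫ y, (K m (x - y) : ℂ) * mdl θ F y) := by
    have h1 := MeasureTheory.integral_sub_left_eq_self
      (fun y : ℝ => ((Real.sin (M * (x - y)) * K m (x - y) : ℝ) : ℂ) * F y) volume x
    simp only [sub_sub_cancel] at h1
    rw [h1, ← MeasureTheory.integral_const_mul, ← MeasureTheory.integral_const_mul,
      ← MeasureTheory.integral_const_mul, ← MeasureTheory.integral_const_mul,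
      ← MeasureTheory.integral_sub]
    · refine integral_congr_ae (ae_of_all _ fun y => ?_)
      simp only
      rw [Complex.ofReal_mul, mul_right_comm, hsin y]
      ring
    · exact (hI1.const_mul (ee θ x)).const_mul (2 * Complex.I)⁻¹
    · exact (hI2.const_mul (ee (-θ) x)).const_mul (2 * Complex.I)⁻¹
  have hRint : Integrable fun t : ℝ => (Rk m M t : ℂ) * F (x - t) := by
    have hB0 : 0 ≤ B := (norm_nonneg _).trans (hB 0)
    refine ((integrable_Rk_bound m M).const_mul B).mono'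
      ((Complex.measurable_ofReal.comp (measurable_Rk m M)).mul hFm).aestronglyMeasurable
      (ae_of_all _ fun t => ?_)
    rw [norm_mul, Complex.norm_real, Real.norm_eq_abs, mul_comm]
    exact mul_le_mul (hB _) (abs_Rk_le m hM0 t) (abs_nonneg _) hB0
  -- decomposition
  have hdec : ∫ t in (-(1 / 2) : ℝ)..(1 / 2), ((Real.sin (M * t) * t⁻¹ : ℝ) : ℂ) * F (x - t) =
      (∫ t : ℝ, (Rk m M t : ℂ) * F (x - t)) +
      ∫ t : ℝ, ((Real.sin (M * t) * K m t : ℝ) : ℂ) * F (x - t) := by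
    rw [← MeasureTheory.integral_add hRint hmainint,
      intervalIntegral.integral_of_le (by norm_num), integral_Ioc_eq_integral_Ioo,
      ← integral_Icc_eq_integral_Ioo,
      ← MeasureTheory.integral_indicator measurableSet_Icc]
    refine integral_congr_ae (ae_of_all _ fun t => ?_)
    simp only
    unfold Rk
    by_cases ht : |t| ≤ 1 / 2
    · rw [indicator_of_mem (show t ∈ Icc (-(1 / 2) : ℝ) (1 / 2) from abs_le.mp ht), if_pos ht]
      push_cast; ring
    · rw [indicator_of_notMem (show t ∉ Icc (-(1 / 2) : ℝ) (1 / 2) from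
        fun h => ht (abs_le.mpr h)), if_neg ht]
      push_cast; ring
  rw [hdec]
  refine (enorm_add_le _ _).trans ?_
  rw [add_comm]
  refine add_le_add ?_ ?_
  · rw [hmain]
    refine (enorm_sub_le).trans ?_
    have h2 : ‖(2 * Complex.I)⁻¹‖ₑ = 2⁻¹ := by
      rw [← ofReal_norm, norm_inv, norm_mul, Complex.norm_I, mul_one, Complex.norm_ofNat,
        ENNReal.ofReal_inv_of_pos (by norm_num)]
      simp
    have h3 : ∀ θ' x', ‖ee θ' x'‖ₑ = 1 := by
      intro θ' x'; rw [← ofReal_norm, norm_ee]; simp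
    rw [enorm_mul, enorm_mul, enorm_mul, enorm_mul, h2, h3, h3, one_mul, one_mul, mul_add]
    refine add_le_add ?_ ?_
    · refine (mul_le_mul_right (enorm_K_le (measurable_mdl hF) hb1 m x) _).trans (le_of_eq ?_)
      rw [← mul_assoc]; congr 1
      rw [show (16 : ℝ≥0∞) = 2 * 8 by norm_num, ← mul_assoc,
        ENNReal.inv_mul_cancel (by norm_num) (by norm_num), one_mul]
    · refine (mul_le_mul_right (enorm_K_le (measurable_mdl hF) hb2 m x) _).trans (le_of_eq ?_)
      rw [← mul_assoc]; congr 1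
      rw [show (16 : ℝ≥0∞) = 2 * 8 by norm_num, ← mul_assoc,
        ENNReal.inv_mul_cancel (by norm_num) (by norm_num), one_mul]
  · rw [← ofReal_norm]
    exact ENNReal.ofReal_le_ofReal (norm_error_le hF hB m hM0 x)

end Crest.Agent.R100.Haar403
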