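import Crest.Agent.R100.Hunt2_933
import Crest.Agent.R100.HaarS_403

/-!
# R100 / S0132, helper933: the local Hunt bound in helper403's notation
-/

set_option autoImplicit false

open MeasureTheory Set
open scoped ENNReal

noncomputable section

namespace Crest.Agent.R100.Local933

open Crest.Agent.R100.Mart933 Crest.Agent.R100.Wide933 Crest.Agent.R100.Hunt933
open Crest.Agent.R100.Haar403

/-- all the dyadic averages of `|f|` at `x` up to generation `k` are at most `1` -/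
def liveAt (f : ℝ → ℂ) (k : ℕ) (x : ℝ) : Prop :=
  ∀ k' ≤ k, (2 : ℝ) ^ k' *
    ∫ y in (cell k' x / 2 ^ k' : ℝ)..((cell k' x + 1) / 2 ^ k' : ℝ), ‖f y‖ ≤ 1

open Classical in
/-- the truncated model operator -/
def TL (m : ℕ) (f : ℝ → ℂ) (θ : ℝ) (x : ℝ) : ℂ :=
  ∑ k ∈ Finset.range m,
    if liveAt f k x then (sg (2 ^ (k + 1) * x) : ℂ) * D k (mdl (-θ) f) x else 0

/-- the (exponential) local Hunt bound -/
def HuntLocal : Prop :=
  ∃ A : ℝ, 1 ≤ A ∧ ∀ (n : ℕ) (_ : 1 ≤ n) (f : ℝ → ℂ) (_ : Measurable f)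
    (_ : ∀ x, ‖f x‖ ≤ 2 ^ n) (θ : ℝ → ℝ) (_ : Measurable θ) (_ : (range θ).Finite) (m : ℕ)
    (t : ℝ) (_ : 0 ≤ t),
    volume {x ∈ Ico (0 : ℝ) 1 | A * (n + t) < ‖TL m f (θ x) x‖} ≤ ENNReal.ofReal (A * Real.exp (-t))

/-! ## dictionary -/

theorem e_eq_ee (θ y : ℝ) : e θ y = ee θ y := by
  unfold e ee
  congr 1
  push_cast
  ring

theorem cell_eq_fl (k : ℕ) (x : ℝ) : cell k x = fl k x := rfl

theorem integral_Ivl_eq {E : Type*} [NormedAddCommGroup E] [NormedSpace ℝ E] (k : ℕ) (j : ℤ)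
    (g : ℝ → E) : ∫ y in Ivl k j, g y = ∫ y in (j / 2 ^ k : ℝ)..((j + 1) / 2 ^ k : ℝ), g y := by
  have hle : (j : ℝ) / 2 ^ k ≤ ((j : ℝ) + 1) / 2 ^ k := by
    gcongr
    linarith
  unfold Ivl
  rw [integral_Ico_eq_integral_Ioo, ← integral_Ioc_eq_integral_Ioo,
    ← intervalIntegral.integral_of_le hle]

theorem Av_mdl_eq (f : ℝ → ℂ) (θ : ℝ) (k : ℕ) (x : ℝ) :
    Av k (mdl (-θ) f) x = coef f θ k (fl k x) := by
  unfold Av coef
  rw [integral_Ivl_eq, cell_eq_fl]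
  congr 1
  apply intervalIntegral.integral_congr
  intro y _
  simp only [mdl, e_eq_ee]

theorem D_mdl_eq (f : ℝ → ℂ) (θ : ℝ) (k : ℕ) (x : ℝ) :
    D k (mdl (-θ) f) x = dl (coef f θ) k x := by
  unfold D dl
  rw [Av_mdl_eq, Av_mdl_eq]

theorem sg_eq_rad (k : ℕ) (x : ℝ) : sg (2 ^ k * x) = rad k x := by
  rw [sg_eq_ite_cell]
  unfold rad
  rw [cell_eq_fl, cell_eq_fl]
  rcases fl_succ_div k x with h | h
  · rw [if_pos h, if_pos (by rw [h]; exact even_two_mul _)]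
  · rw [if_neg (by omega), if_neg (by rw [h]; simp)]

/-- nodes all of whose ancestors have average at most `1` -/
def alive (f : ℝ → ℂ) (k : ℕ) (j : ℤ) : Prop := ∀ k' ≤ k, avN f k' (j / 2 ^ (k - k')) ≤ 1

theorem fl_anc {k k' : ℕ} (h : k' ≤ k) (x : ℝ) : fl k' x = fl k x / 2 ^ (k - k') := by
  obtain ⟨d, rfl⟩ := Nat.exists_eq_add_of_le h
  rw [Nat.add_sub_cancel_left]
  induction d with
  | zero => simp
  | succ d ih =>
    rw [ih (by omega), fl_half (k' + d) x, Int.ediv_ediv_of_nonneg (by norm_num), ← pow_succ']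
    rfl

theorem alive_iff (f : ℝ → ℂ) (k : ℕ) (x : ℝ) : alive f k (fl k x) ↔ liveAt f k x := by
  unfold alive liveAt
  constructor
  · intro h k' hk'
    have := h k' hk'
    rw [← fl_anc hk' x] at this
    unfold avN at this
    rw [integral_Ivl_eq] at this
    exact this
  · intro h k' hk'
    have := h k' hk'
    rw [← fl_anc hk' x]
    unfold avN
    rw [integral_Ivl_eq]
    exact this

theorem alive_closed (f : ℝ → ℂ) (k : ℕ) (j : ℤ) (h : alive f (k + 1) j) : alive f k (j / 2) := by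
  intro k' hk'
  have h1 := h k' (by omega)
  have e1 : k + 1 - k' = (k - k') + 1 := by omega
  rw [e1, pow_succ'] at h1
  rwa [Int.ediv_ediv_of_nonneg (by norm_num)]

theorem alive_av (f : ℝ → ℂ) (k : ℕ) (j : ℤ) (h : alive f k j) : avN f k j ≤ 1 := by
  have := h k le_rfl
  simpa using this

theorem TL_eq (m : ℕ) (f : ℝ → ℂ) (θ x : ℝ) : TL m f θ x = SS (coef f θ) (alive f) 0 m x := by
  classical
  unfold TL SS
  rw [Finset.range_eq_Ico]
  refine Finset.sum_congr rfl fun k _ => ?_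
  by_cases h : liveAt f k x
  · rw [if_pos h, if_pos ((alive_iff f k x).2 h), D_mdl_eq, sg_eq_rad]
  · rw [if_neg h, if_neg (fun h' => h ((alive_iff f k x).1 h'))]

/-- sizes at alive nodes -/
theorem alive_sizes {f : ℝ → ℂ} (hf : Measurable f) {M : ℝ} (hM : ∀ x, ‖f x‖ ≤ M) (θ : ℝ) (k : ℕ)
    (j : ℤ) (h : alive f k j) : ‖coef f θ k j‖ ≤ 1 ∧ ‖hd (coef f θ) k j‖ ≤ 1 := by
  have h1 := alive_av f k j h
  have h2 := avN_split hf hM k j
  have h3 := norm_coef_le f θ (k + 1) (2 * j)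
  have h4 := norm_coef_le f θ (k + 1) (2 * j + 1)
  refine ⟨(norm_coef_le f θ k j).trans h1, ?_⟩
  unfold hd
  rw [norm_div, Complex.norm_ofNat]
  have h5 := norm_sub_le (coef f θ (k + 1) (2 * j)) (coef f θ (k + 1) (2 * j + 1))
  linarith

/-- uniform version for integer `t` -/
theorem hunt_TL {f : ℝ → ℂ} (hf : Measurable f) {n : ℕ} (hn : ∀ x, ‖f x‖ ≤ 2 ^ n)
    (Θ : Finset ℝ) (i : ℤ) (m t : ℕ) :
    ∃ E : Set ℝ, MeasurableSet E ∧
      volume E ≤ ENNReal.ofReal (112 * Real.exp (-t) * ∫ x in Ivl 0 i, ‖f x‖) ∧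
      ∀ x ∈ Ivl 0 i, x ∉ E → ∀ θ ∈ Θ, ∀ K ≤ m, ‖TL K f θ x‖ ≤ 2041 * (n + t + 1) := by
  obtain ⟨E, h1, h2, h3⟩ := hunt (al := alive f) (ε := alive f) hf hn (alive_closed f) (alive_av f)
    (fun _ _ h => h) Θ i m t 0
  refine ⟨E, h1, h2, fun x hx hxE θ hθ K hK => ?_⟩
  have h4 := h3 x hx hxE θ hθ K hK (fun l _ hl => by
    have := alive_sizes hf hn θ l (fl l x) hl
    constructor
    · simpa using this.1.trans (by norm_num)
    · simpa using this.2.trans (by norm_num))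
  rw [TL_eq]
  simpa using h4

theorem not_live_of_av {f : ℝ → ℂ} {x : ℝ} (h : 1 < avN f 0 (fl 0 x)) (m : ℕ) (θ : ℝ) :
    TL m f θ x = 0 := by
  classical
  unfold TL
  refine Finset.sum_eq_zero fun k _ => ?_
  rw [if_neg]
  intro hl
  have := hl 0 (Nat.zero_le k)
  unfold avN at h
  rw [integral_Ivl_eq] at h
  exact absurd this (not_le.2 h)

theorem huntLocal : HuntLocal := by
  classical
  refine ⟨2041 * 3, by norm_num, ?_⟩
  intro n hn1 f hf hn θ _ hfin m t ht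
  set Θ : Finset ℝ := hfin.toFinset with hΘ
  have hn1' : (1 : ℝ) ≤ n := by exact_mod_cast hn1
  by_cases hav : 1 < avN f 0 0
  · have : {x ∈ Ico (0 : ℝ) 1 | 2041 * 3 * ((n : ℝ) + t) < ‖TL m f (θ x) x‖} = ∅ := by
      ext x
      simp only [mem_ofPred_eq, mem_empty_iff_false, iff_false, not_and, not_lt]
      intro hx
      have hx' : x ∈ Ivl 0 0 := by simpa [Ivl] using hx
      have hfl := mem_Ivl.1 hx'
      rw [not_live_of_av (by rw [hfl]; exact hav), norm_zero]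
      positivity
    rw [this]; simp
  · push Not at hav
    obtain ⟨E, h1, h2, h3⟩ := hunt_TL hf hn Θ 0 m ⌈t⌉₊
    have hsub : {x ∈ Ico (0 : ℝ) 1 | 2041 * 3 * ((n : ℝ) + t) < ‖TL m f (θ x) x‖} ⊆ E := by
      rintro x ⟨hx, hx2⟩
      by_contra hxE
      have hx' : x ∈ Ivl 0 0 := by simpa [Ivl] using hx
      have h4 := h3 x hx' hxE (θ x) (by rw [hΘ]; simp) m le_rfl
      have h5 : (⌈t⌉₊ : ℝ) < t + 1 := Nat.ceil_lt_add_one ht
      nlinarith
    refine (measure_mono hsub).trans (h2.trans (ENNReal.ofReal_le_ofReal ?_))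
    have h6 : ∫ x in Ivl 0 0, ‖f x‖ ≤ 1 := by
      unfold avN at hav
      simpa using hav
    have h7 : Real.exp (-(⌈t⌉₊ : ℝ)) ≤ Real.exp (-t) := by
      apply Real.exp_le_exp.2
      have := Nat.le_ceil t
      linarith
    have h8 : 0 ≤ ∫ x in Ivl 0 0, ‖f x‖ := integral_nonneg fun x => norm_nonneg _
    calc 112 * Real.exp (-(⌈t⌉₊ : ℝ)) * ∫ x in Ivl 0 0, ‖f x‖
        ≤ 112 * Real.exp (-t) * 1 := by gcongr
      _ ≤ _ := by
        have := Real.exp_pos (-t)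
        linarith

end Crest.Agent.R100.Local933
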