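import Crest.Agent.R100.Wide_933

/-!
# R100 / S0132, helper833: payments and the exact identity for the operator `TL`

`pay s θ al k y` is the payment of generation `k` to the point `y`, `SSh h al K₀ K t x` the signed sum
of `TL` for level dependent populations `h k`.  The exact identity:
`∫_{x ∈ J} s(x) SSh h al K₀ K (N + θ(x)) x dx = ∫_{y ∈ J} ∑_k h_k(y) e_{-N}(y) pay_k(y) dy`.
-/

set_option autoImplicit false

open MeasureTheory Set
open scoped ENNReal

noncomputable section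

namespace Crest.Agent.R100.Id833

open Crest.Agent.R100.Mart933 Crest.Agent.R100.Wide933

/-! ## nodes -/

theorem fl_anc {k k' : ℕ} (h : k' ≤ k) (x : ℝ) : fl k' x = fl k x / 2 ^ (k - k') := by
  obtain ⟨d, rfl⟩ := Nat.exists_eq_add_of_le h
  rw [Nat.add_sub_cancel_left]
  induction d with
  | zero => simp
  | succ d ih =>
    rw [ih (by omega), fl_half (k' + d) x, Int.ediv_ediv_of_nonneg (by norm_num), ← pow_succ']
    rfl

theorem fl_eq_of_fl_eq {k k' : ℕ} (h : k' ≤ k) {x y : ℝ} (hxy : fl k x = fl k y) :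
    fl k' x = fl k' y := by
  rw [fl_anc h x, fl_anc h y, hxy]

theorem Ivl_subset {k k' : ℕ} (h : k' ≤ k) (x : ℝ) : Ivl k (fl k x) ⊆ Ivl k' (fl k' x) := by
  intro y hy
  rw [mem_Ivl] at hy ⊢
  exact fl_eq_of_fl_eq h hy

theorem mem_self (k : ℕ) (x : ℝ) : x ∈ Ivl k (fl k x) := mem_Ivl.2 rfl

/-! ## the dyadic difference of a coefficient -/

theorem norm_rad (k : ℕ) (x : ℝ) : ‖(rad k x : ℂ)‖ = 1 := by
  rw [Complex.norm_real, Real.norm_eq_abs, abs_rad]

theorem measurable_radC (k : ℕ) : Measurable fun x => (rad k x : ℂ) :=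
  Complex.measurable_ofReal.comp (measurable_rad k)

theorem hd_coef {g : ℝ → ℂ} (hg : Measurable g) {M : ℝ} (hM : ∀ x, ‖g x‖ ≤ M) (t : ℝ) (k : ℕ)
    (i : ℤ) :
    hd (coef g t) k i = 2 ^ k * ∫ y in Ivl k i, (rad k y : ℂ) * (g y * e (-t) y) := by
  have hint : ∀ (k' : ℕ) (j : ℤ),
      IntegrableOn (fun y => (rad k y : ℂ) * (g y * e (-t) y)) (Ivl k' j) := by
    intro k' j
    refine intOn k' j ((measurable_radC k).mul (hg.mul (measurable_e (-t)))) (M := M) fun x => ?_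
    change ‖(rad k x : ℂ) * (g x * e (-t) x)‖ ≤ M
    rw [norm_mul, norm_rad, norm_mul, norm_e, one_mul, mul_one]
    exact hM x
  rw [integral_Ivl hint k i]
  have h1 : ∫ y in Ivl (k + 1) (2 * i), (rad k y : ℂ) * (g y * e (-t) y) =
      ∫ y in Ivl (k + 1) (2 * i), g y * e (-t) y := by
    refine setIntegral_congr_fun (measurableSet_Ivl _ _) fun y hy => ?_
    simp only [rad_of_left hy, Complex.ofReal_one, one_mul]
  have h2 : ∫ y in Ivl (k + 1) (2 * i + 1), (rad k y : ℂ) * (g y * e (-t) y) =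
      -∫ y in Ivl (k + 1) (2 * i + 1), g y * e (-t) y := by
    rw [← integral_neg]
    refine setIntegral_congr_fun (measurableSet_Ivl _ _) fun y hy => ?_
    simp only [rad_of_right hy]
    push_cast
    ring
  rw [h1, h2]
  unfold hd coef
  ring

theorem dl_coef {g : ℝ → ℂ} (hg : Measurable g) {M : ℝ} (hM : ∀ x, ‖g x‖ ≤ M) (t : ℝ) (k : ℕ)
    (x : ℝ) :
    dl (coef g t) k x =
      (rad k x : ℂ) * (2 ^ k * ∫ y in Ivl k (fl k x), (rad k y : ℂ) * (g y * e (-t) y)) := by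
  have ha := isMart_coef hg hM t
  rw [← hd_coef hg hM t k (fl k x)]
  unfold dl
  rcases fl_succ_div k x with h | h
  · have hr : rad k x = 1 := rad_of_left (j := fl k x) (mem_Ivl.2 h)
    rw [h, ha.left, hr]
    push_cast
    ring
  · have hr : rad k x = -1 := rad_of_right (j := fl k x) (mem_Ivl.2 h)
    rw [h, ha.right, hr]
    push_cast
    ring

/-! ## payments -/

open Classical in
/-- payment of generation `k` to the point `y` -/
def pay (s : ℝ → ℂ) (θ : ℝ → ℝ) (al : ℕ → ℤ → Prop) (k : ℕ) (y : ℝ) : ℂ :=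
  if al k (fl k y) then
    (2 : ℂ) ^ k * (rad k y : ℂ) * ∫ x in Ivl k (fl k y),
      s x * ((rad (k + 1) x : ℂ) * (rad k x : ℂ)) * e (-(θ x)) y
  else 0

/-- accumulated payment before generation `K` -/
def Pay (s : ℝ → ℂ) (θ : ℝ → ℝ) (al : ℕ → ℤ → Prop) (K : ℕ) (y : ℝ) : ℂ :=
  ∑ k ∈ Finset.range K, pay s θ al k y

open Classical in
/-- the signed sum of the model for level dependent populations -/
def SSh (h : ℕ → ℝ → ℂ) (al : ℕ → ℤ → Prop) (K₀ K : ℕ) (t : ℝ) (x : ℝ) : ℂ :=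
  ∑ k ∈ Finset.Ico K₀ K, if al k (fl k x) then (rad (k + 1) x : ℂ) * dl (coef (h k) t) k x else 0

theorem SSh_const (f : ℝ → ℂ) (al : ℕ → ℤ → Prop) (K₀ K : ℕ) (t x : ℝ) :
    SSh (fun _ => f) al K₀ K t x = SS (coef f t) al K₀ K x := rfl

variable {s : ℝ → ℂ} {θ : ℝ → ℝ} {al : ℕ → ℤ → Prop} {h : ℕ → ℝ → ℂ} {M : ℝ}

theorem norm_pay (hs1 : ∀ x, ‖s x‖ ≤ 1) (k : ℕ) (y : ℝ) : ‖pay s θ al k y‖ ≤ 1 := by
  classical
  unfold pay
  split_ifs with hal
  · have h1 : ‖∫ x in Ivl k (fl k y),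
        s x * ((rad (k + 1) x : ℂ) * (rad k x : ℂ)) * e (-(θ x)) y‖ ≤
        1 * volume.real (Ivl k (fl k y)) := by
      refine norm_setIntegral_le_of_norm_le_const ?_ fun x _ => ?_
      · rw [volume_Ivl]; exact ENNReal.ofReal_lt_top
      · rw [norm_mul, norm_mul, norm_mul, norm_rad, norm_rad, norm_e]
        simpa using hs1 x
    rw [volume_real_Ivl, one_mul] at h1
    rw [norm_mul, norm_mul, norm_rad, norm_pow, Complex.norm_ofNat, mul_one]
    have h2 : (0 : ℝ) < 2 ^ k := by positivity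
    calc (2 : ℝ) ^ k * _ ≤ 2 ^ k * (1 / 2 ^ k) := by gcongr
      _ = 1 := by field_simp
  · simp

theorem norm_Pay (hs1 : ∀ x, ‖s x‖ ≤ 1) (K : ℕ) (y : ℝ) : ‖Pay s θ al K y‖ ≤ K := by
  unfold Pay
  refine (norm_sum_le _ _).trans ?_
  refine (Finset.sum_le_sum fun k _ => norm_pay hs1 k y).trans ?_
  simp

theorem Pay_succ (s : ℝ → ℂ) (θ : ℝ → ℝ) (al : ℕ → ℤ → Prop) (K : ℕ) (y : ℝ) :
    Pay s θ al (K + 1) y = Pay s θ al K y + pay s θ al K y := by
  unfold Pay
  rw [Finset.sum_range_succ]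

theorem Pay_sub (s : ℝ → ℂ) (θ : ℝ → ℝ) (al : ℕ → ℤ → Prop) {K₀ K : ℕ} (hK : K₀ ≤ K) (y : ℝ) :
    ∑ k ∈ Finset.Ico K₀ K, pay s θ al k y = Pay s θ al K y - Pay s θ al K₀ y := by
  unfold Pay
  rw [Finset.sum_Ico_eq_sub _ hK]

/-! ## the kernel -/

theorem measurable_e₂ {α : Type*} [MeasurableSpace α] {u v : α → ℝ} (hu : Measurable u)
    (hv : Measurable v) : Measurable fun p => e (u p) (v p) := by
  unfold e
  exact Complex.measurable_exp.comp ((Complex.measurable_ofReal.comp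
    (measurable_const.mul (hu.mul hv))).mul measurable_const)

open Classical in
/-- the kernel of generation `k` -/
def ker (s : ℝ → ℂ) (θ : ℝ → ℝ) (al : ℕ → ℤ → Prop) (g : ℝ → ℂ) (k : ℕ) (x y : ℝ) : ℂ :=
  if al k (fl k x) ∧ fl k y = fl k x then
    (2 : ℂ) ^ k * (s x * ((rad (k + 1) x : ℂ) * (rad k x : ℂ)) * e (-(θ x)) y * (rad k y : ℂ) * g y)
  else 0

theorem measurable_ker (hs : Measurable s) (hθ : Measurable θ) {g : ℝ → ℂ} (hg : Measurable g)
    (k : ℕ) : Measurable fun p : ℝ × ℝ => ker s θ al g k p.1 p.2 := by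
  classical
  unfold ker
  refine Measurable.ite ?_ ?_ measurable_const
  · have hm : Measurable fun p : ℝ × ℝ => (fl k p.1, fl k p.2) :=
      ((measurable_fl k).comp measurable_fst).prodMk ((measurable_fl k).comp measurable_snd)
    exact hm (MeasurableSet.of_discrete (s := {q : ℤ × ℤ | al k q.1 ∧ q.2 = q.1}))
  · refine measurable_const.mul ((((( hs.comp measurable_fst).mul
      (((measurable_radC (k + 1)).comp measurable_fst).mul
        ((measurable_radC k).comp measurable_fst))).mul ?_).mul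
          ((measurable_radC k).comp measurable_snd)).mul (hg.comp measurable_snd))
    exact measurable_e₂ ((hθ.comp measurable_fst).neg) measurable_snd

theorem norm_ker_le (hs1 : ∀ x, ‖s x‖ ≤ 1) {g : ℝ → ℂ} (hM : ∀ x, ‖g x‖ ≤ M) (k : ℕ) (x y : ℝ) :
    ‖ker s θ al g k x y‖ ≤ 2 ^ k * M := by
  classical
  have hM0 : 0 ≤ M := (norm_nonneg _).trans (hM 0)
  unfold ker
  split_ifs with hc
  · rw [norm_mul, norm_pow, Complex.norm_ofNat]
    refine mul_le_mul_of_nonneg_left ?_ (by positivity)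
    rw [norm_mul, norm_mul, norm_mul, norm_mul, norm_mul, norm_rad, norm_rad, norm_rad, norm_e]
    simp only [mul_one]
    calc ‖s x‖ * ‖g y‖ ≤ 1 * M := mul_le_mul (hs1 x) (hM y) (norm_nonneg _) zero_le_one
      _ = M := one_mul _
  · rw [norm_zero]; positivity

theorem integrable_ker (hs : Measurable s) (hθ : Measurable θ) (hs1 : ∀ x, ‖s x‖ ≤ 1) {g : ℝ → ℂ}
    (hg : Measurable g) (hM : ∀ x, ‖g x‖ ≤ M) (k : ℕ) {A B : Set ℝ} (hA : volume A < ⊤)
    (hB : volume B < ⊤) :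
    Integrable (fun p : ℝ × ℝ => ker s θ al g k p.1 p.2)
      ((volume.restrict A).prod (volume.restrict B)) := by
  have : IsFiniteMeasure (volume.restrict A) := ⟨by simpa using hA⟩
  have : IsFiniteMeasure (volume.restrict B) := ⟨by simpa using hB⟩
  refine Integrable.of_bound (measurable_ker hs hθ hg k).aestronglyMeasurable (2 ^ k * M)
    (Filter.Eventually.of_forall fun p => norm_ker_le hs1 hM k p.1 p.2)

/-- integrating the kernel in `y` gives the term of the operator -/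
theorem integral_ker_y {g : ℝ → ℂ} (hg : Measurable g) (hM : ∀ x, ‖g x‖ ≤ M) {k₀ k : ℕ} {j₀ : ℤ}
    (hk : k₀ ≤ k) (N : ℝ) {x : ℝ} (hx : x ∈ Ivl k₀ j₀) :
    ∫ y in Ivl k₀ j₀, ker s θ al (fun y => g y * e (-N) y) k x y =
      s x * (open Classical in if al k (fl k x) then
        (rad (k + 1) x : ℂ) * dl (coef g (N + θ x)) k x else 0) := by
  classical
  have hj : fl k₀ x = j₀ := mem_Ivl.1 hx
  by_cases hal : al k (fl k x)
  · rw [if_pos hal, dl_coef hg hM]
    have e1 : (fun y => ker s θ al (fun y => g y * e (-N) y) k x y) =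
        (Ivl k (fl k x)).indicator (fun y =>
          s x * ((rad (k + 1) x : ℂ) * ((rad k x : ℂ) * ((2 : ℂ) ^ k *
            ((rad k y : ℂ) * (g y * e (-(N + θ x)) y)))))) := by
      ext y
      unfold ker
      by_cases hy : fl k y = fl k x
      · rw [if_pos ⟨hal, hy⟩, indicator_of_mem (mem_Ivl.2 hy)]
        have : e (-(N + θ x)) y = e (-(θ x)) y * e (-N) y := by
          rw [← e_add]; congr 1; ring
        rw [this]
        ring
      · rw [if_neg (fun hc => hy hc.2), indicator_of_notMem (fun hc => hy (mem_Ivl.1 hc))]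
    rw [e1, setIntegral_indicator (measurableSet_Ivl _ _)]
    have e2 : Ivl k₀ j₀ ∩ Ivl k (fl k x) = Ivl k (fl k x) := by
      apply inter_eq_self_of_subset_right
      rw [← hj]
      exact Ivl_subset hk x
    rw [e2]
    rw [integral_const_mul, integral_const_mul, integral_const_mul, integral_const_mul]
  · rw [if_neg hal, mul_zero]
    have e1 : (fun y => ker s θ al (fun y => g y * e (-N) y) k x y) = fun _ => 0 := by
      ext y
      unfold ker
      rw [if_neg (fun hc => hal hc.1)]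
    rw [e1]
    simp

/-- integrating the kernel in `x` gives the payment -/
theorem integral_ker_x {g : ℝ → ℂ} {k₀ k : ℕ} {j₀ : ℤ} (hk : k₀ ≤ k) {y : ℝ}
    (hy : y ∈ Ivl k₀ j₀) :
    ∫ x in Ivl k₀ j₀, ker s θ al g k x y = g y * pay s θ al k y := by
  classical
  have hj : fl k₀ y = j₀ := mem_Ivl.1 hy
  unfold pay
  by_cases hal : al k (fl k y)
  · rw [if_pos hal]
    have e1 : (fun x => ker s θ al g k x y) =
        (Ivl k (fl k y)).indicator (fun x =>
          (g y * ((2 : ℂ) ^ k * (rad k y : ℂ))) *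
            (s x * ((rad (k + 1) x : ℂ) * (rad k x : ℂ)) * e (-(θ x)) y)) := by
      ext x
      unfold ker
      by_cases hx : fl k y = fl k x
      · rw [if_pos ⟨hx ▸ hal, hx⟩, indicator_of_mem (mem_Ivl.2 hx.symm)]
        ring
      · rw [if_neg (fun hc => hx hc.2), indicator_of_notMem (fun hc => hx (mem_Ivl.1 hc).symm)]
    rw [e1, setIntegral_indicator (measurableSet_Ivl _ _)]
    have e2 : Ivl k₀ j₀ ∩ Ivl k (fl k y) = Ivl k (fl k y) := by
      apply inter_eq_self_of_subset_right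
      rw [← hj]
      exact Ivl_subset hk y
    rw [e2, integral_const_mul]
    ring
  · rw [if_neg hal, mul_zero]
    have e1 : (fun x => ker s θ al g k x y) = fun _ => 0 := by
      ext x
      unfold ker
      rw [if_neg]
      rintro ⟨h1, h2⟩
      exact hal (h2 ▸ h1)
    rw [e1]
    simp

theorem measurable_pay (hs : Measurable s) (hθ : Measurable θ) (k : ℕ) :
    Measurable (pay s θ al k) := by
  classical
  unfold pay
  refine Measurable.ite ?_ ?_ measurable_const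
  · exact (measurable_fl k) (MeasurableSet.of_discrete (s := {q : ℤ | al k q}))
  · refine (measurable_const.mul (measurable_radC k)).mul ?_
    have e1 : (fun y => ∫ x in Ivl k (fl k y),
        s x * ((rad (k + 1) x : ℂ) * (rad k x : ℂ)) * e (-(θ x)) y) =
        fun y => ∫ x, (if fl k x = fl k y then
          s x * ((rad (k + 1) x : ℂ) * (rad k x : ℂ)) * e (-(θ x)) y else 0) := by
      ext y
      rw [← integral_indicator (measurableSet_Ivl _ _)]
      refine integral_congr_ae (Filter.Eventually.of_forall fun x => ?_)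
      simp only [indicator, mem_Ivl]
    rw [e1]
    have hm : StronglyMeasurable (fun p : ℝ × ℝ => if fl k p.2 = fl k p.1 then
          s p.2 * ((rad (k + 1) p.2 : ℂ) * (rad k p.2 : ℂ)) * e (-(θ p.2)) p.1 else 0) := by
      refine Measurable.stronglyMeasurable (Measurable.ite ?_ ?_ measurable_const)
      · have hm : Measurable fun p : ℝ × ℝ => (fl k p.1, fl k p.2) :=
          ((measurable_fl k).comp measurable_fst).prodMk ((measurable_fl k).comp measurable_snd)
        exact hm (MeasurableSet.of_discrete (s := {q : ℤ × ℤ | q.2 = q.1}))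
      · exact ((hs.comp measurable_snd).mul (((measurable_radC (k + 1)).comp measurable_snd).mul
          ((measurable_radC k).comp measurable_snd))).mul
          (measurable_e₂ ((hθ.comp measurable_snd).neg) measurable_fst)
    exact (StronglyMeasurable.integral_prod_right' (ν := volume) hm).measurable

theorem measurable_Pay (hs : Measurable s) (hθ : Measurable θ) (K : ℕ) :
    Measurable (Pay s θ al K) := by
  unfold Pay
  exact Finset.measurable_sum _ fun k _ => measurable_pay hs hθ k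

/-- **exact identity, one generation** -/
theorem exact_one (hs : Measurable s) (hθ : Measurable θ) (hs1 : ∀ x, ‖s x‖ ≤ 1) {g : ℝ → ℂ}
    (hg : Measurable g) (hM : ∀ x, ‖g x‖ ≤ M) {k₀ k : ℕ} (j₀ : ℤ) (hk : k₀ ≤ k) (N : ℝ) :
    ∫ x in Ivl k₀ j₀, s x * (open Classical in if al k (fl k x) then
        (rad (k + 1) x : ℂ) * dl (coef g (N + θ x)) k x else 0) =
      ∫ y in Ivl k₀ j₀, g y * e (-N) y * pay s θ al k y := by
  classical
  have hg' : Measurable fun y => g y * e (-N) y := hg.mul (measurable_e _)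
  have hM' : ∀ x, ‖g x * e (-N) x‖ ≤ M := fun x => by
    rw [norm_mul, norm_e, mul_one]; exact hM x
  have hfin : volume (Ivl k₀ j₀) < ⊤ := by rw [volume_Ivl]; exact ENNReal.ofReal_lt_top
  have h1 := integral_integral_swap (f := fun x y => ker s θ al (fun y => g y * e (-N) y) k x y)
    (μ := volume.restrict (Ivl k₀ j₀)) (ν := volume.restrict (Ivl k₀ j₀))
    (integrable_ker hs hθ hs1 hg' hM' k hfin hfin)
  have h2 : ∫ x in Ivl k₀ j₀, ∫ y in Ivl k₀ j₀, ker s θ al (fun y => g y * e (-N) y) k x y =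
      ∫ x in Ivl k₀ j₀, s x * (if al k (fl k x) then
        (rad (k + 1) x : ℂ) * dl (coef g (N + θ x)) k x else 0) :=
    setIntegral_congr_fun (measurableSet_Ivl _ _) fun x hx => integral_ker_y hg hM hk N hx
  have h3 : ∫ y in Ivl k₀ j₀, ∫ x in Ivl k₀ j₀, ker s θ al (fun y => g y * e (-N) y) k x y =
      ∫ y in Ivl k₀ j₀, g y * e (-N) y * pay s θ al k y :=
    setIntegral_congr_fun (measurableSet_Ivl _ _) fun y hy => integral_ker_x hk hy
  rw [h2, h3] at h1
  exact h1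

/-- the term of the operator is integrable on a node -/
theorem integrableOn_term (hs : Measurable s) (hθ : Measurable θ) (hs1 : ∀ x, ‖s x‖ ≤ 1)
    {g : ℝ → ℂ} (hg : Measurable g) (hM : ∀ x, ‖g x‖ ≤ M) {k₀ k : ℕ} (j₀ : ℤ) (hk : k₀ ≤ k)
    (N : ℝ) :
    IntegrableOn (fun x => s x * (open Classical in if al k (fl k x) then
        (rad (k + 1) x : ℂ) * dl (coef g (N + θ x)) k x else 0)) (Ivl k₀ j₀) := by
  classical
  have hg' : Measurable fun y => g y * e (-N) y := hg.mul (measurable_e _)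
  have hM' : ∀ x, ‖g x * e (-N) x‖ ≤ M := fun x => by
    rw [norm_mul, norm_e, mul_one]; exact hM x
  have hfin : volume (Ivl k₀ j₀) < ⊤ := by rw [volume_Ivl]; exact ENNReal.ofReal_lt_top
  have h1 : Integrable (fun x => ∫ y in Ivl k₀ j₀, ker s θ al (fun y => g y * e (-N) y) k x y)
      (volume.restrict (Ivl k₀ j₀)) :=
    (integrable_ker (al := al) hs hθ hs1 hg' hM' k hfin hfin).integral_prod_left
  refine IntegrableOn.congr_fun h1 (fun x hx => ?_) (measurableSet_Ivl _ _)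
  exact integral_ker_y hg hM hk N hx

theorem integrableOn_pay (hs : Measurable s) (hθ : Measurable θ) (hs1 : ∀ x, ‖s x‖ ≤ 1)
    {g : ℝ → ℂ} (hg : Measurable g) (hM : ∀ x, ‖g x‖ ≤ M) (k k₀ : ℕ) (j₀ : ℤ) (N : ℝ) :
    IntegrableOn (fun y => g y * e (-N) y * pay s θ al k y) (Ivl k₀ j₀) := by
  refine intOn k₀ j₀ ((hg.mul (measurable_e _)).mul (measurable_pay hs hθ k)) (M := M) fun x => ?_
  change ‖g x * e (-N) x * pay s θ al k x‖ ≤ M
  rw [norm_mul, norm_mul, norm_e, mul_one]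
  have hM0 : 0 ≤ M := (norm_nonneg _).trans (hM 0)
  calc ‖g x‖ * ‖pay s θ al k x‖ ≤ M * 1 :=
        mul_le_mul (hM x) (norm_pay hs1 k x) (norm_nonneg _) hM0
    _ = M := mul_one _

/-- **the exact identity** -/
theorem exact_id (hs : Measurable s) (hθ : Measurable θ) (hs1 : ∀ x, ‖s x‖ ≤ 1)
    (hh : ∀ k, Measurable (h k)) (hM : ∀ k x, ‖h k x‖ ≤ M) {k₀ K₀ : ℕ} (j₀ : ℤ) (hk : k₀ ≤ K₀)
    (K : ℕ) (N : ℝ) :
    ∫ x in Ivl k₀ j₀, s x * SSh h al K₀ K (N + θ x) x =
      ∫ y in Ivl k₀ j₀, ∑ k ∈ Finset.Ico K₀ K, h k y * e (-N) y * pay s θ al k y := by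
  classical
  unfold SSh
  simp_rw [Finset.mul_sum]
  rw [integral_finsetSum _ fun k hk' =>
      integrableOn_term hs hθ hs1 (hh k) (hM k) j₀ (hk.trans (Finset.mem_Ico.1 hk').1) N,
    integral_finsetSum _ fun k _ => integrableOn_pay hs hθ hs1 (hh k) (hM k) k k₀ j₀ N]
  exact Finset.sum_congr rfl fun k hk' =>
    exact_one hs hθ hs1 (hh k) (hM k) j₀ (hk.trans (Finset.mem_Ico.1 hk').1) N

theorem integrableOn_SSh (hs : Measurable s) (hθ : Measurable θ) (hs1 : ∀ x, ‖s x‖ ≤ 1)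
    (hh : ∀ k, Measurable (h k)) (hM : ∀ k x, ‖h k x‖ ≤ M) {k₀ K₀ : ℕ} (j₀ : ℤ) (hk : k₀ ≤ K₀)
    (K : ℕ) (N : ℝ) :
    IntegrableOn (fun x => s x * SSh h al K₀ K (N + θ x) x) (Ivl k₀ j₀) := by
  classical
  unfold SSh
  simp_rw [Finset.mul_sum]
  exact integrable_finsetSum _ fun k hk' =>
      integrableOn_term hs hθ hs1 (hh k) (hM k) j₀ (hk.trans (Finset.mem_Ico.1 hk').1) N

/-! ## populations between two times -/

/-- telescoping for a population active between two `y`-dependent times -/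
theorem sum_pop (s : ℝ → ℂ) (θ : ℝ → ℝ) (al : ℕ → ℤ → Prop) {K₀ K a b : ℕ} (ha : K₀ ≤ a)
    (hab : a ≤ b) (hb : b ≤ K) (H c : ℂ) (y : ℝ) :
    ∑ k ∈ Finset.Ico K₀ K, (if a ≤ k ∧ k < b then H else 0) * c * pay s θ al k y =
      H * c * (Pay s θ al b y - Pay s θ al a y) := by
  rw [← Pay_sub s θ al hab y, Finset.mul_sum]
  have hsub : Finset.Ico a b ⊆ Finset.Ico K₀ K := Finset.Ico_subset_Ico ha hb
  rw [← Finset.sum_subset hsub fun k _ hk => by
    rw [if_neg (fun hc => hk (Finset.mem_Ico.2 hc))]; ring]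
  refine Finset.sum_congr rfl fun k hk => ?_
  rw [if_pos (Finset.mem_Ico.1 hk)]

open Classical in
/-- the population `H` active at the generations `κ₁(y) ≤ k < κ₂(y)` -/
def pop (H : ℝ → ℂ) (κ₁ κ₂ : ℝ → ℕ) (k : ℕ) (y : ℝ) : ℂ :=
  if κ₁ y ≤ k ∧ k < κ₂ y then H y else 0

theorem measurable_pop {H : ℝ → ℂ} (hH : Measurable H) {κ₁ κ₂ : ℝ → ℕ} (h1 : Measurable κ₁)
    (h2 : Measurable κ₂) (k : ℕ) : Measurable (pop H κ₁ κ₂ k) := by
  classical
  unfold pop
  exact Measurable.ite ((measurableSet_le h1 measurable_const).inter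
    (measurableSet_lt measurable_const h2)) hH measurable_const

theorem norm_pop_le (H : ℝ → ℂ) (κ₁ κ₂ : ℝ → ℕ) (k : ℕ) (y : ℝ) :
    ‖pop H κ₁ κ₂ k y‖ ≤ ‖H y‖ := by
  classical
  unfold pop
  split_ifs <;> simp

/-- **exact identity for a population**: if all the points of the node where `H ≠ 0` pay between
two times `κ₁ ≤ κ₂` in `[K₀, K]`, the average of the signed sums is the coefficient of
`H · (Pay κ₂ - Pay κ₁)`. -/
theorem exact_pop (hs : Measurable s) (hθ : Measurable θ) (hs1 : ∀ x, ‖s x‖ ≤ 1)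
    {H : ℝ → ℂ} (hH : Measurable H) (hM : ∀ x, ‖H x‖ ≤ M) {κ₁ κ₂ : ℝ → ℕ} (hm1 : Measurable κ₁)
    (hm2 : Measurable κ₂) {k₀ K₀ K : ℕ} (j₀ : ℤ) (hk : k₀ ≤ K₀)
    (hκ : ∀ y ∈ Ivl k₀ j₀, H y ≠ 0 → K₀ ≤ κ₁ y ∧ κ₁ y ≤ κ₂ y ∧ κ₂ y ≤ K) (N : ℝ) :
    ∫ x in Ivl k₀ j₀, s x * SSh (pop H κ₁ κ₂) al K₀ K (N + θ x) x =
      ∫ y in Ivl k₀ j₀,
        H y * e (-N) y * (Pay s θ al (κ₂ y) y - Pay s θ al (κ₁ y) y) := by
  classical
  rw [exact_id hs hθ hs1 (measurable_pop hH hm1 hm2)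
    (fun k x => (norm_pop_le H κ₁ κ₂ k x).trans (hM x)) j₀ hk K N]
  refine setIntegral_congr_fun (measurableSet_Ivl _ _) fun y hy => ?_
  by_cases hy0 : H y = 0
  · simp [pop, hy0]
  · obtain ⟨h1, h2, h3⟩ := hκ y hy hy0
    exact sum_pop s θ al h1 h2 h3 (H y) (e (-N) y) y

/-! ## linearisation of the modulus -/

/-- joint measurability of the terms -/
theorem measurable_dl_coef {g : ℝ → ℂ} (hg : Measurable g) (hM : ∀ x, ‖g x‖ ≤ M) {t : ℝ → ℝ}
    (ht : Measurable t) (k : ℕ) : Measurable fun x => dl (coef g (t x)) k x := by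
  classical
  have e0 : (fun x => dl (coef g (t x)) k x) = fun x => (rad k x : ℂ) * ((2 : ℂ) ^ k *
      ∫ y, (if fl k y = fl k x then (rad k y : ℂ) * (g y * e (-(t x)) y) else 0)) := by
    ext x
    rw [dl_coef hg hM, ← integral_indicator (measurableSet_Ivl _ _)]
    congr 2
    refine integral_congr_ae (Filter.Eventually.of_forall fun y => ?_)
    simp only [indicator, mem_Ivl]
  rw [e0]
  refine (measurable_radC k).mul (measurable_const.mul ?_)
  have hm : StronglyMeasurable (fun p : ℝ × ℝ => if fl k p.2 = fl k p.1 then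
      (rad k p.2 : ℂ) * (g p.2 * e (-(t p.1)) p.2) else 0) := by
    refine Measurable.stronglyMeasurable (Measurable.ite ?_ ?_ measurable_const)
    · have hm : Measurable fun p : ℝ × ℝ => (fl k p.1, fl k p.2) :=
        ((measurable_fl k).comp measurable_fst).prodMk ((measurable_fl k).comp measurable_snd)
      exact hm (MeasurableSet.of_discrete (s := {q : ℤ × ℤ | q.2 = q.1}))
    · exact ((measurable_radC k).comp measurable_snd).mul ((hg.comp measurable_snd).mul
        (measurable_e₂ ((ht.comp measurable_fst).neg) measurable_snd))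
  exact (StronglyMeasurable.integral_prod_right' (ν := volume) hm).measurable

theorem measurable_SSh (hh : ∀ k, Measurable (h k)) (hM : ∀ k x, ‖h k x‖ ≤ M) {t : ℝ → ℝ}
    (ht : Measurable t) (K₀ K : ℕ) : Measurable fun x => SSh h al K₀ K (t x) x := by
  classical
  unfold SSh
  refine Finset.measurable_sum _ fun k _ => Measurable.ite ?_ ?_ measurable_const
  · exact (measurable_fl k) (MeasurableSet.of_discrete (s := {q : ℤ | al k q}))
  · exact (measurable_radC (k + 1)).mul (measurable_dl_coef (hh k) (hM k) ht k)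

/-- measurable phase -/
theorem exists_phase {v : ℝ → ℂ} (hv : Measurable v) :
    ∃ s : ℝ → ℂ, Measurable s ∧ (∀ x, ‖s x‖ ≤ 1) ∧ ∀ x, s x * v x = (‖v x‖ : ℂ) := by
  classical
  refine ⟨fun x => (starRingEnd ℂ) (v x) / (‖v x‖ : ℂ), ?_, fun x => ?_, fun x => ?_⟩
  · exact (Complex.continuous_conj.measurable.comp hv).div
      (Complex.measurable_ofReal.comp hv.norm)
  · rw [norm_div, RCLike.norm_conj, Complex.norm_real, norm_norm]
    exact div_self_le_one _
  · by_cases hx : v x = 0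
    · simp [hx]
    · have hn : (‖v x‖ : ℂ) ≠ 0 := by
        rw [Ne, Complex.ofReal_eq_zero, norm_eq_zero]; exact hx
      rw [div_mul_eq_mul_div, mul_comm ((starRingEnd ℂ) (v x)) (v x), Complex.mul_conj,
        Complex.normSq_eq_norm_sq]
      push_cast
      rw [pow_two, mul_div_assoc, div_self hn, mul_one]

/-- the norm of a real coefficient times a payment -/
theorem norm_integral_pay_le {f : ℝ → ℂ} {G : ℝ → ℂ} {A : Set ℝ} :
    ‖∫ y in A, f y * G y‖ ≤ ∫ y in A, ‖f y‖ * ‖G y‖ := by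
  refine (norm_integral_le_integral_norm _).trans (le_of_eq ?_)
  congr 1
  ext y
  exact norm_mul _ _

/-- **linearisation**: the `L¹` norm of the linearised operator is paid by the points `y`. -/
theorem exists_linearisation {f : ℝ → ℂ} (hf : Measurable f) (hM : ∀ x, ‖f x‖ ≤ M)
    (hθ : Measurable θ) (al : ℕ → ℤ → Prop) (m k₀ : ℕ) (j₀ : ℤ) (hk : k₀ = 0) :
    ∃ s : ℝ → ℂ, Measurable s ∧ (∀ x, ‖s x‖ ≤ 1) ∧
      ((∫ x in Ivl k₀ j₀, ‖SS (coef f (θ x)) al 0 m x‖ : ℝ) : ℂ) =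
        ∫ y in Ivl k₀ j₀, f y * Pay s θ al m y := by
  classical
  subst hk
  obtain ⟨s, hs, hs1, hs2⟩ := exists_phase
    (measurable_SSh (h := fun _ => f) (al := al) (fun _ => hf) (fun _ => hM) hθ 0 m)
  refine ⟨s, hs, hs1, ?_⟩
  have h1 := exact_id (al := al) (h := fun _ => f) hs hθ hs1 (fun _ => hf) (fun _ => hM) j₀
    (le_refl 0) m 0
  rw [← integral_complex_ofReal]
  have h2 : ∫ x in Ivl 0 j₀, ((‖SS (coef f (θ x)) al 0 m x‖ : ℝ) : ℂ) =
      ∫ x in Ivl 0 j₀, s x * SSh (fun _ => f) al 0 m (0 + θ x) x := by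
    refine setIntegral_congr_fun (measurableSet_Ivl _ _) fun x _ => ?_
    simp only [zero_add]
    rw [hs2 x, SSh_const]
  have h3 : ∫ y in Ivl 0 j₀, ∑ k ∈ Finset.Ico 0 m, f y * e (-0) y * pay s θ al k y =
      ∫ y in Ivl 0 j₀, f y * Pay s θ al m y := by
    refine setIntegral_congr_fun (measurableSet_Ivl _ _) fun y _ => ?_
    have : e (-0) y = 1 := by unfold e; simp
    simp only [this, mul_one]
    rw [← Finset.mul_sum, ← Finset.range_eq_Ico]
    rfl
  rw [show (∫ x in Ivl 0 j₀, ((‖SS (coef f (θ x)) al 0 m x‖ : ℝ) : ℂ)) = _ from h2, h1, h3]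

/-- **linearisation, inequality**: `∫ |T^{θ(x)} f(x)| dx ≤ ∫ |f| |Pay|`. -/
theorem exists_linearisation_le {f : ℝ → ℂ} (hf : Measurable f) (hM : ∀ x, ‖f x‖ ≤ M)
    (hθ : Measurable θ) (al : ℕ → ℤ → Prop) (m : ℕ) (j₀ : ℤ) :
    ∃ s : ℝ → ℂ, Measurable s ∧ (∀ x, ‖s x‖ ≤ 1) ∧
      ∫ x in Ivl 0 j₀, ‖SS (coef f (θ x)) al 0 m x‖ ≤
        ∫ y in Ivl 0 j₀, ‖f y‖ * ‖Pay s θ al m y‖ := by
  obtain ⟨s, hs, hs1, h1⟩ := exists_linearisation hf hM hθ al m 0 j₀ rfl
  refine ⟨s, hs, hs1, ?_⟩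
  have h2 : ∫ x in Ivl 0 j₀, ‖SS (coef f (θ x)) al 0 m x‖ =
      ‖((∫ x in Ivl 0 j₀, ‖SS (coef f (θ x)) al 0 m x‖ : ℝ) : ℂ)‖ := by
    rw [Complex.norm_real, Real.norm_eq_abs, abs_of_nonneg (integral_nonneg fun _ => norm_nonneg _)]
  rw [h2, h1]
  exact norm_integral_pay_le

end Crest.Agent.R100.Id833
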