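import Crest.Agent.R100.Wide_933

/-!
# R100 / S0132, helper933: selection of the wide tops and their Bessel inequality
-/

set_option autoImplicit false

open MeasureTheory Set
open scoped ENNReal

noncomputable section

namespace Crest.Agent.R100.Wide933

open Crest.Agent.R100.Mart933

/-! ## selection -/

/-- existence of a maximal separated set of candidates within the budget -/
theorem exists_pick (A cand : Finset ℝ) (B k : ℕ) (hA : A.card ≤ B) :
    ∃ N : Finset ℝ, N ⊆ cand ∧ (∀ θ ∈ N, ∀ θ' ∈ N, θ ≠ θ' → (B : ℝ) * 2 ^ k < |θ' - θ|) ∧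
      (A ∪ N).card ≤ B ∧
      ((A ∪ N).card < B → ∀ θ ∈ cand, ∃ θ' ∈ N, |θ - θ'| ≤ B * 2 ^ k) := by
  classical
  set P : Finset (Finset ℝ) := cand.powerset.filter fun N =>
    (∀ θ ∈ N, ∀ θ' ∈ N, θ ≠ θ' → (B : ℝ) * 2 ^ k < |θ' - θ|) ∧ (A ∪ N).card ≤ B with hP
  have hne : P.Nonempty := ⟨∅, by
    rw [hP, Finset.mem_filter]
    simp [hA]⟩
  obtain ⟨N, hN, hmax⟩ := Finset.exists_max_image P Finset.card hne
  rw [hP, Finset.mem_filter, Finset.mem_powerset] at hN
  obtain ⟨h1, h2, h3⟩ := hN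
  refine ⟨N, h1, h2, h3, ?_⟩
  intro hlt θ hθ
  by_contra hcon
  push Not at hcon
  have hnot : θ ∉ N := by
    intro h
    have := hcon θ h
    rw [sub_self, abs_zero] at this
    have h0 : (0 : ℝ) ≤ B * 2 ^ k := by positivity
    linarith
  have hins : insert θ N ∈ P := by
    rw [hP, Finset.mem_filter, Finset.mem_powerset]
    refine ⟨Finset.insert_subset hθ h1, ?_, ?_⟩
    · intro a ha b hb hab
      rw [Finset.mem_insert] at ha hb
      rcases ha with rfl | ha <;> rcases hb with rfl | hb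
      · exact absurd rfl hab
      · rw [abs_sub_comm]; exact hcon b hb
      · exact hcon a ha
      · exact h2 a ha b hb hab
    · rw [Finset.union_insert]
      exact (Finset.card_insert_le _ _).trans (by omega)
  have := hmax _ hins
  rw [Finset.card_insert_of_notMem hnot] at this
  omega

open Classical in
/-- the chosen set -/
def pick (A cand : Finset ℝ) (B k : ℕ) : Finset ℝ :=
  if h : A.card ≤ B then Classical.choose (exists_pick A cand B k h) else ∅

theorem pick_spec {A cand : Finset ℝ} {B : ℕ} (k : ℕ) (hA : A.card ≤ B) :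
    pick A cand B k ⊆ cand ∧
      (∀ θ ∈ pick A cand B k, ∀ θ' ∈ pick A cand B k, θ ≠ θ' → (B : ℝ) * 2 ^ k < |θ' - θ|) ∧
      (A ∪ pick A cand B k).card ≤ B ∧
      ((A ∪ pick A cand B k).card < B → ∀ θ ∈ cand, ∃ θ' ∈ pick A cand B k, |θ - θ'| ≤ B * 2 ^ k) := by
  unfold pick
  rw [dif_pos hA]
  exact Classical.choose_spec (exists_pick A cand B k hA)

open Classical in
/-- candidates at a node -/
def cand (Θ : Finset ℝ) (H : ℕ → ℤ → ℝ → Prop) (B k : ℕ) (j : ℤ) (A : Finset ℝ) : Finset ℝ :=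
  Θ.filter fun θ => H k j θ ∧ ∀ θ' ∈ A, (B : ℝ) * 2 ^ k < |θ - θ'|

open Classical in
/-- frequencies of the tops above (or at) a node -/
def up (Θ : Finset ℝ) (H : ℕ → ℤ → ℝ → Prop) (B : ℕ) : ℕ → ℤ → Finset ℝ
  | 0, j => ∅ ∪ pick ∅ (cand Θ H B 0 j ∅) B 0
  | k + 1, j => up Θ H B k (j / 2) ∪
      pick (up Θ H B k (j / 2)) (cand Θ H B (k + 1) j (up Θ H B k (j / 2))) B (k + 1)

/-- frequencies of the tops strictly above a node -/
def par (Θ : Finset ℝ) (H : ℕ → ℤ → ℝ → Prop) (B : ℕ) : ℕ → ℤ → Finset ℝ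
  | 0, _ => ∅
  | k + 1, j => up Θ H B k (j / 2)

/-- frequencies of the tops at a node -/
def nw (Θ : Finset ℝ) (H : ℕ → ℤ → ℝ → Prop) (B : ℕ) (k : ℕ) (j : ℤ) : Finset ℝ :=
  pick (par Θ H B k j) (cand Θ H B k j (par Θ H B k j)) B k

variable {Θ : Finset ℝ} {H : ℕ → ℤ → ℝ → Prop} {B : ℕ}

open Classical in
theorem up_eq (k : ℕ) (j : ℤ) : up Θ H B k j = par Θ H B k j ∪ nw Θ H B k j := by
  cases k <;> rfl

theorem card_up_le (k : ℕ) : ∀ j : ℤ, (up Θ H B k j).card ≤ B := by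
  classical
  induction k with
  | zero =>
    intro j
    exact (pick_spec (A := ∅) 0 (by simp)).2.2.1
  | succ k ih =>
    intro j
    exact (pick_spec (k + 1) (ih (j / 2))).2.2.1

theorem card_par_le (k : ℕ) (j : ℤ) : (par Θ H B k j).card ≤ B := by
  cases k with
  | zero => simp [par]
  | succ k => exact card_up_le k _

theorem mem_nw {k : ℕ} {j : ℤ} {θ : ℝ} (h : θ ∈ nw Θ H B k j) :
    θ ∈ Θ ∧ H k j θ ∧ ∀ θ' ∈ par Θ H B k j, (B : ℝ) * 2 ^ k < |θ - θ'| := by
  classical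
  have := (pick_spec (cand := cand Θ H B k j (par Θ H B k j)) k (card_par_le k j)).1 h
  unfold cand at this
  rw [Finset.mem_filter] at this
  exact this

theorem sep_nw (k : ℕ) (j : ℤ) :
    ∀ θ ∈ nw Θ H B k j, ∀ θ' ∈ nw Θ H B k j, θ ≠ θ' → (B : ℝ) * 2 ^ k < |θ' - θ| :=
  (pick_spec (cand := cand Θ H B k j (par Θ H B k j)) k (card_par_le k j)).2.1

theorem disj_nw (k : ℕ) (j : ℤ) : Disjoint (par Θ H B k j) (nw Θ H B k j) := by
  rw [Finset.disjoint_left]
  intro θ h1 h2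
  have := (mem_nw h2).2.2 θ h1
  rw [sub_self, abs_zero] at this
  have h0 : (0 : ℝ) ≤ B * 2 ^ k := by positivity
  linarith

theorem card_up (k : ℕ) (j : ℤ) :
    (up Θ H B k j).card = (par Θ H B k j).card + (nw Θ H B k j).card := by
  classical
  rw [up_eq, Finset.card_union_of_disjoint (disj_nw k j)]

theorem up_mono {k : ℕ} {j : ℤ} : up Θ H B k (j / 2) ⊆ up Θ H B (k + 1) j := by
  classical
  rw [up_eq (k + 1) j]
  exact Finset.subset_union_left

theorem up_mono_fl {k l : ℕ} (h : k ≤ l) (x : ℝ) : up Θ H B k (fl k x) ⊆ up Θ H B l (fl l x) := by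
  induction l, h using Nat.le_induction with
  | base => exact subset_rfl
  | succ l _ ih =>
    refine ih.trans ?_
    rw [fl_half l x]
    exact up_mono

/-- every element of `up` comes from a top at some ancestor -/
theorem exists_nw {k : ℕ} {x : ℝ} {θ : ℝ} (h : θ ∈ up Θ H B k (fl k x)) :
    ∃ l ≤ k, θ ∈ nw Θ H B l (fl l x) := by
  classical
  induction k with
  | zero =>
    rw [up_eq, Finset.mem_union] at h
    rcases h with h | h
    · simp [par] at h
    · exact ⟨0, le_rfl, h⟩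
  | succ k ih =>
    rw [up_eq, Finset.mem_union] at h
    rcases h with h | h
    · simp only [par] at h
      rw [← fl_half] at h
      obtain ⟨l, hl, h'⟩ := ih h
      exact ⟨l, by omega, h'⟩
    · exact ⟨k + 1, le_rfl, h⟩

/-- exhaustion: heavy frequencies are close to a top when the budget is not used up -/
theorem exhaust {k : ℕ} {j : ℤ} (hc : (up Θ H B k j).card < B) {θ : ℝ} (hθ : θ ∈ Θ)
    (hH : H k j θ) : ∃ θ' ∈ up Θ H B k j, |θ - θ'| ≤ B * 2 ^ k := by
  classical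
  by_cases hA : ∀ θ' ∈ par Θ H B k j, (B : ℝ) * 2 ^ k < |θ - θ'|
  · have hmem : θ ∈ cand Θ H B k j (par Θ H B k j) := by
      unfold cand
      rw [Finset.mem_filter]
      exact ⟨hθ, hH, hA⟩
    have hs := (pick_spec (A := par Θ H B k j) (B := B)
      (cand := cand Θ H B k j (par Θ H B k j)) k (card_par_le k j)).2.2.2
    rw [up_eq] at hc
    obtain ⟨θ', h1, h2⟩ := hs hc θ hmem
    refine ⟨θ', ?_, h2⟩
    rw [up_eq, Finset.mem_union]
    exact Or.inr h1
  · push Not at hA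
    obtain ⟨θ', h1, h2⟩ := hA
    refine ⟨θ', ?_, h2⟩
    rw [up_eq, Finset.mem_union]
    exact Or.inl h1

/-! ## from nodes to a cell -/

/-- an inequality of integrals over all the nodes of a level passes to the larger nodes -/
theorem node_to_root {F F' : ℝ → ℝ} (hF : ∀ k j, IntegrableOn F (Ivl k j))
    (hF' : ∀ k j, IntegrableOn F' (Ivl k j)) (d : ℕ) : ∀ l : ℕ,
    (∀ j, ∫ x in Ivl (l + d) j, F x ≤ ∫ x in Ivl (l + d) j, F' x) →
    ∀ j, ∫ x in Ivl l j, F x ≤ ∫ x in Ivl l j, F' x := by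
  induction d with
  | zero => intro l h j; exact h j
  | succ d ih =>
    intro l h j
    have h' := ih (l + 1) (by
      intro j
      have e : l + 1 + d = l + (d + 1) := by omega
      rw [e]
      exact h j)
    rw [integral_Ivl hF, integral_Ivl hF']
    exact add_le_add (h' _) (h' _)

theorem node_to_root_meas {P : ℝ → Prop} {g : ℝ → ℝ≥0∞} (d : ℕ) : ∀ l : ℕ,
    (∀ j, volume {x ∈ Ivl (l + d) j | P x} ≤ ∫⁻ x in Ivl (l + d) j, g x) →
    ∀ j, volume {x ∈ Ivl l j | P x} ≤ ∫⁻ x in Ivl l j, g x := by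
  induction d with
  | zero => intro l h j; exact h j
  | succ d ih =>
    intro l h j
    have h' := ih (l + 1) (by
      intro j
      have e : l + 1 + d = l + (d + 1) := by omega
      rw [e]
      exact h j)
    rw [lintegral_Ivl]
    have hsub : {x ∈ Ivl l j | P x} ⊆
        {x ∈ Ivl (l + 1) (2 * j) | P x} ∪ {x ∈ Ivl (l + 1) (2 * j + 1) | P x} := by
      rintro x ⟨hx, hx'⟩
      rw [Ivl_split] at hx
      rcases hx with hx | hx
      · left; exact ⟨hx, hx'⟩
      · right; exact ⟨hx, hx'⟩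
    exact (measure_mono hsub).trans ((measure_union_le _ _).trans (add_le_add (h' _) (h' _)))

/-! ## the test function -/

variable (Θ H B) in
open Classical in
/-- coefficients attached to the tops above a node -/
def cc (ph : ℕ → ℤ → ℝ → ℂ) : ℕ → ℤ → ℝ → ℂ
  | 0, j, θ => ph 0 j θ
  | k + 1, j, θ => if θ ∈ up Θ H B k (j / 2) then cc ph k (j / 2) θ else ph (k + 1) j θ

variable (Θ H B) in
/-- coefficients attached to the tops strictly above a node -/
def pc (ph : ℕ → ℤ → ℝ → ℂ) : ℕ → ℤ → ℝ → ℂ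
  | 0, _, _ => 0
  | k + 1, j, θ => cc Θ H B ph k (j / 2) θ

theorem norm_cc_le {ph : ℕ → ℤ → ℝ → ℂ} (hph : ∀ k j θ, ‖ph k j θ‖ ≤ 1) (k : ℕ) :
    ∀ (j : ℤ) (θ : ℝ), ‖cc Θ H B ph k j θ‖ ≤ 1 := by
  classical
  induction k with
  | zero => intro j θ; exact hph _ _ _
  | succ k ih =>
    intro j θ
    simp only [cc]
    split_ifs
    · exact ih _ _
    · exact hph _ _ _

theorem norm_pc_le {ph : ℕ → ℤ → ℝ → ℂ} (hph : ∀ k j θ, ‖ph k j θ‖ ≤ 1) (k : ℕ) (j : ℤ) (θ : ℝ) :
    ‖pc Θ H B ph k j θ‖ ≤ 1 := by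
  cases k with
  | zero => simp [pc]
  | succ k => exact norm_cc_le hph k _ _

theorem xs_split (ph : ℕ → ℤ → ℝ → ℂ) (k : ℕ) (j : ℤ) (x : ℝ) :
    xs (up Θ H B k j) (cc Θ H B ph k j) x =
      xs (par Θ H B k j) (pc Θ H B ph k j) x + xs (nw Θ H B k j) (ph k j) x := by
  classical
  unfold xs
  rw [up_eq, Finset.sum_union (disj_nw k j)]
  congr 1
  · refine Finset.sum_congr rfl fun θ hθ => ?_
    cases k with
    | zero => simp [par] at hθ
    | succ k =>
      simp only [par] at hθ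
      simp only [cc, pc, hθ, if_true]
  · refine Finset.sum_congr rfl fun θ hθ => ?_
    cases k with
    | zero => rfl
    | succ k =>
      have : θ ∉ up Θ H B k (j / 2) := fun h =>
        (Finset.disjoint_left.1 (disj_nw (Θ := Θ) (H := H) (B := B) (k + 1) j)) h hθ
      simp only [cc, this, if_false]

theorem measurable_node {γ : Type*} [MeasurableSpace γ] (k : ℕ) {g : ℤ → ℝ → γ}
    (hg : ∀ j, Measurable (g j)) : Measurable fun x => g (fl k x) x := by
  have h : Measurable fun p : ℤ × ℝ => g p.1 p.2 := measurable_from_prod_countable_right hg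
  exact h.comp ((measurable_fl k).prodMk measurable_id)

/-- node step of the `L²` bound -/
theorem node_L2 (hB : 0 < B) {ph : ℕ → ℤ → ℝ → ℂ} (hph : ∀ k j θ, ‖ph k j θ‖ ≤ 1)
    (k : ℕ) (j : ℤ) :
    ∫ x in Ivl k j, ‖xs (up Θ H B k j) (cc Θ H B ph k j) x‖ ^ 2 ≤
      (∫ x in Ivl k j, ‖xs (par Θ H B k j) (pc Θ H B ph k j) x‖ ^ 2) +
        2 * (nw Θ H B k j).card * (1 / 2 ^ k) := by
  set P : ℝ → ℂ := xs (par Θ H B k j) (pc Θ H B ph k j) with hP
  set Q : ℝ → ℂ := xs (nw Θ H B k j) (ph k j) with hQ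
  have hPm : Measurable P := measurable_xs _ _
  have hQm : Measurable Q := measurable_xs _ _
  have hPb := norm_xs_le (par Θ H B k j) (norm_pc_le (Θ := Θ) (H := H) (B := B) hph k j)
  have hQb := norm_xs_le (nw Θ H B k j) (hph k j)
  have iPQ : IntegrableOn (fun x => (starRingEnd ℂ) (P x) * Q x) (Ivl k j) :=
    integrable_xs_mul _ _ (norm_pc_le hph k j) (hph k j) k j
  have iQQ : IntegrableOn (fun x => (starRingEnd ℂ) (Q x) * Q x) (Ivl k j) :=
    integrable_xs_mul _ _ (hph k j) (hph k j) k j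
  have iP2 : IntegrableOn (fun x => ‖P x‖ ^ 2) (Ivl k j) := by
    apply intOn k j (hPm.norm.pow_const 2) (M := ((par Θ H B k j).card : ℝ) ^ 2)
    intro x
    rw [Real.norm_eq_abs, abs_of_nonneg (by positivity)]
    have := hPb x
    gcongr
  have hpt : ∀ x, ‖xs (up Θ H B k j) (cc Θ H B ph k j) x‖ ^ 2 =
      ‖P x‖ ^ 2 + (2 * ((starRingEnd ℂ) (P x) * Q x).re + ((starRingEnd ℂ) (Q x) * Q x).re) := by
    intro x
    rw [xs_split]
    change ‖P x + Q x‖ ^ 2 = _
    rw [← Complex.normSq_eq_norm_sq, ← Complex.normSq_eq_norm_sq, Complex.normSq_add]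
    have h1 : ((starRingEnd ℂ) (Q x) * Q x).re = Complex.normSq (Q x) := by
      rw [mul_comm, Complex.mul_conj]; simp
    have h2 : ((starRingEnd ℂ) (P x) * Q x).re = (P x * (starRingEnd ℂ) (Q x)).re := by
      simp only [Complex.mul_re, Complex.conj_re, Complex.conj_im]
      ring
    rw [h1, h2]
    ring
  simp_rw [hpt]
  have iRe1 : IntegrableOn (fun x => 2 * ((starRingEnd ℂ) (P x) * Q x).re) (Ivl k j) :=
    (iPQ.re).const_mul 2
  have iRe2 : IntegrableOn (fun x => ((starRingEnd ℂ) (Q x) * Q x).re) (Ivl k j) := iQQ.re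
  have iSum : IntegrableOn (fun x => 2 * ((starRingEnd ℂ) (P x) * Q x).re +
      ((starRingEnd ℂ) (Q x) * Q x).re) (Ivl k j) := iRe1.add iRe2
  rw [integral_add iP2 iSum, integral_add iRe1 iRe2, integral_const_mul]
  have e1 : (∫ x in Ivl k j, ((starRingEnd ℂ) (P x) * Q x).re) =
      (∫ x in Ivl k j, (starRingEnd ℂ) (P x) * Q x).re := integral_re iPQ
  have e2 : (∫ x in Ivl k j, ((starRingEnd ℂ) (Q x) * Q x).re) =
      (∫ x in Ivl k j, (starRingEnd ℂ) (Q x) * Q x).re := integral_re iQQ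
  rw [e1, e2]
  have hBR : (0 : ℝ) < B := by exact_mod_cast hB
  have b1 := norm_cross_le (par Θ H B k j) (nw Θ H B k j)
    (norm_pc_le (Θ := Θ) (H := H) (B := B) hph k j) (hph k j) hBR k j
    (fun θ hθ θ' hθ' => (mem_nw hθ').2.2 θ hθ)
  have b2 := norm_self_le (nw Θ H B k j) (hph k j) hBR k j (sep_nw k j)
  have b1' := (Complex.re_le_norm (∫ x in Ivl k j, (starRingEnd ℂ) (P x) * Q x)).trans b1
  have b2' := (Complex.re_le_norm (∫ x in Ivl k j, (starRingEnd ℂ) (Q x) * Q x)).trans b2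
  set p : ℝ := ((par Θ H B k j).card : ℝ) with hp
  set q : ℝ := ((nw Θ H B k j).card : ℝ) with hq
  have hp0 : 0 ≤ p := by positivity
  have hq0 : 0 ≤ q := by positivity
  have hpq : p + q ≤ B := by
    have h := card_up_le (Θ := Θ) (H := H) (B := B) k j
    rw [card_up] at h
    rw [hp, hq]
    exact_mod_cast h
  have hpi := Real.pi_pos
  have hpi3 := Real.pi_gt_three
  set w : ℝ := 1 / 2 ^ k with hw
  have hw0 : 0 < w := by positivity
  have e3 : 1 / (Real.pi * B) / 2 ^ k = 1 / (Real.pi * B) * w := by rw [hw]; ring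
  rw [e3] at b1' b2'
  have hkey : 2 * (p * q * (1 / (Real.pi * B) * w)) + (q * w + q * q * (1 / (Real.pi * B) * w)) ≤
      2 * q * w := by
    have h1 : 2 * p + q ≤ 2 * B := by linarith
    have h2 : (2 * p + q) * (1 / (Real.pi * B)) ≤ 1 := by
      calc (2 * p + q) * (1 / (Real.pi * B)) ≤ (2 * B) * (1 / (Real.pi * B)) := by gcongr
        _ = 2 / Real.pi := by field_simp
        _ ≤ 1 := by
          rw [div_le_one hpi]; linarith
    have h3 : (q * w) * ((2 * p + q) * (1 / (Real.pi * B))) ≤ (q * w) * 1 :=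
      mul_le_mul_of_nonneg_left h2 (by positivity)
    nlinarith
  linarith

/-- node step of the pairing -/
theorem node_pair {f : ℝ → ℂ} (hf : Measurable f) {M : ℝ} (hM : ∀ x, ‖f x‖ ≤ M)
    {ph : ℕ → ℤ → ℝ → ℂ} (hph : ∀ k j θ, ‖ph k j θ‖ ≤ 1) {δ : ℝ}
    (hph' : ∀ k j θ, H k j θ → δ ≤ ((starRingEnd ℂ) (ph k j θ) * coef f θ k j).re)
    (k : ℕ) (j : ℤ) :
    (∫ x in Ivl k j, (f x * (starRingEnd ℂ) (xs (par Θ H B k j) (pc Θ H B ph k j) x)).re) +
        δ * (nw Θ H B k j).card * (1 / 2 ^ k) ≤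
      ∫ x in Ivl k j, (f x * (starRingEnd ℂ) (xs (up Θ H B k j) (cc Θ H B ph k j) x)).re := by
  set P : ℝ → ℂ := xs (par Θ H B k j) (pc Θ H B ph k j) with hP
  set N := nw Θ H B k j with hN
  have hM0 : 0 ≤ M := (norm_nonneg _).trans (hM 0)
  have iP : IntegrableOn (fun x => f x * (starRingEnd ℂ) (P x)) (Ivl k j) := by
    apply intOn k j (M := M * (par Θ H B k j).card)
    · exact hf.mul (Complex.continuous_conj.measurable.comp (measurable_xs _ _))
    · intro x
      rw [norm_mul, RCLike.norm_conj]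
      exact mul_le_mul (hM x) (norm_xs_le _ (norm_pc_le hph k j) x) (norm_nonneg _) hM0
  have iQ : IntegrableOn (fun x => f x * (starRingEnd ℂ) (xs N (ph k j) x)) (Ivl k j) := by
    apply intOn k j (M := M * N.card)
    · exact hf.mul (Complex.continuous_conj.measurable.comp (measurable_xs _ _))
    · intro x
      rw [norm_mul, RCLike.norm_conj]
      exact mul_le_mul (hM x) (norm_xs_le _ (hph k j) x) (norm_nonneg _) hM0
  have hpt : ∀ x, (f x * (starRingEnd ℂ) (xs (up Θ H B k j) (cc Θ H B ph k j) x)).re =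
      (f x * (starRingEnd ℂ) (P x)).re + (f x * (starRingEnd ℂ) (xs N (ph k j) x)).re := by
    intro x
    rw [xs_split, map_add, mul_add, Complex.add_re]
  simp_rw [hpt]
  have iPre : IntegrableOn (fun x => (f x * (starRingEnd ℂ) (P x)).re) (Ivl k j) := iP.re
  have iQre : IntegrableOn (fun x => (f x * (starRingEnd ℂ) (xs N (ph k j) x)).re) (Ivl k j) :=
    iQ.re
  rw [integral_add iPre iQre]
  have e2 : (∫ x in Ivl k j, (f x * (starRingEnd ℂ) (xs N (ph k j) x)).re) =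
      (∫ x in Ivl k j, f x * (starRingEnd ℂ) (xs N (ph k j) x)).re := integral_re iQ
  have e3 : (∫ x in Ivl k j, f x * (starRingEnd ℂ) (xs N (ph k j) x)) =
      ∑ θ ∈ N, (starRingEnd ℂ) (ph k j θ) * ∫ x in Ivl k j, f x * e (-θ) x := by
    have h1 : ∀ x, f x * (starRingEnd ℂ) (xs N (ph k j) x) =
        ∑ θ ∈ N, (starRingEnd ℂ) (ph k j θ) * (f x * e (-θ) x) := by
      intro x
      unfold xs
      rw [map_sum, Finset.mul_sum]
      refine Finset.sum_congr rfl fun θ _ => ?_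
      rw [map_mul, conj_e]
      ring
    simp_rw [h1]
    rw [integral_finsetSum _ (fun θ _ => (integrable_fe hf hM (-θ) k j).const_mul _)]
    refine Finset.sum_congr rfl fun θ _ => ?_
    rw [integral_const_mul]
  have e4 : δ * N.card * (1 / 2 ^ k) ≤
      (∑ θ ∈ N, (starRingEnd ℂ) (ph k j θ) * ∫ x in Ivl k j, f x * e (-θ) x).re := by
    rw [Complex.re_sum]
    have h2 : ∀ θ ∈ N, δ * (1 / 2 ^ k) ≤
        ((starRingEnd ℂ) (ph k j θ) * ∫ x in Ivl k j, f x * e (-θ) x).re := by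
      intro θ hθ
      have hH := (mem_nw hθ).2.1
      have h3 := hph' k j θ hH
      unfold coef at h3
      have h4 : (starRingEnd ℂ) (ph k j θ) * ((2 : ℂ) ^ k * ∫ y in Ivl k j, f y * e (-θ) y) =
          ((2 ^ k : ℝ) : ℂ) * ((starRingEnd ℂ) (ph k j θ) * ∫ y in Ivl k j, f y * e (-θ) y) := by
        push_cast; ring
      rw [h4, Complex.re_ofReal_mul] at h3
      have h5 : (0 : ℝ) < 2 ^ k := by positivity
      rw [mul_one_div, div_le_iff₀ h5]
      linarith
    calc δ * N.card * (1 / 2 ^ k) = ∑ _θ ∈ N, δ * (1 / 2 ^ k) := by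
          rw [Finset.sum_const, nsmul_eq_mul]; ring
      _ ≤ _ := Finset.sum_le_sum h2
  rw [e2, e3]
  linarith

/-- the number of tops above a point -/
def cnt (Θ : Finset ℝ) (H : ℕ → ℤ → ℝ → Prop) (B : ℕ) (k : ℕ) (x : ℝ) : ℝ :=
  (up Θ H B k (fl k x)).card

theorem measurable_cnt (k : ℕ) : Measurable (cnt Θ H B k) :=
  measurable_fl_comp k (fun j => ((up Θ H B k j).card : ℝ))

theorem cnt_nonneg (k : ℕ) (x : ℝ) : 0 ≤ cnt Θ H B k x := by
  unfold cnt; positivity

theorem cnt_le (k : ℕ) (x : ℝ) : cnt Θ H B k x ≤ B := by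
  unfold cnt
  exact_mod_cast card_up_le k _

theorem intOn_cnt (k l : ℕ) (j : ℤ) : IntegrableOn (cnt Θ H B k) (Ivl l j) := by
  apply intOn l j (measurable_cnt k) (M := B)
  intro x
  rw [Real.norm_eq_abs, abs_of_nonneg (cnt_nonneg k x)]
  exact cnt_le k x

variable (Θ H B) in
/-- the test function -/
def Gx (ph : ℕ → ℤ → ℝ → ℂ) (k : ℕ) (x : ℝ) : ℂ :=
  xs (up Θ H B k (fl k x)) (cc Θ H B ph k (fl k x)) x

theorem measurable_Gx (ph : ℕ → ℤ → ℝ → ℂ) (k : ℕ) : Measurable (Gx Θ H B ph k) :=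
  measurable_node k (g := fun j => xs (up Θ H B k j) (cc Θ H B ph k j)) fun _ => measurable_xs _ _

theorem norm_Gx_le {ph : ℕ → ℤ → ℝ → ℂ} (hph : ∀ k j θ, ‖ph k j θ‖ ≤ 1) (k : ℕ) (x : ℝ) :
    ‖Gx Θ H B ph k x‖ ≤ B := by
  unfold Gx
  refine (norm_xs_le _ (norm_cc_le hph k _) x).trans ?_
  exact_mod_cast card_up_le k _

/-- **`L²` bound of the test function** -/
theorem L2_Gx (hB : 0 < B) {ph : ℕ → ℤ → ℝ → ℂ} (hph : ∀ k j θ, ‖ph k j θ‖ ≤ 1) (i : ℤ) (k : ℕ) :
    ∫ x in Ivl 0 i, ‖Gx Θ H B ph k x‖ ^ 2 ≤ 2 * ∫ x in Ivl 0 i, cnt Θ H B k x := by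
  have iG : ∀ k l j, IntegrableOn (fun x => ‖Gx Θ H B ph k x‖ ^ 2) (Ivl l j) := by
    intro k l j
    apply intOn l j ((measurable_Gx ph k).norm.pow_const 2) (M := (B : ℝ) ^ 2)
    intro x
    rw [Real.norm_eq_abs, abs_of_nonneg (by positivity)]
    have := norm_Gx_le (Θ := Θ) (H := H) (B := B) hph k x
    gcongr
  induction k with
  | zero =>
    have h := node_L2 (Θ := Θ) (H := H) hB hph 0 i
    have e1 : ∫ x in Ivl 0 i, ‖Gx Θ H B ph 0 x‖ ^ 2 =
        ∫ x in Ivl 0 i, ‖xs (up Θ H B 0 i) (cc Θ H B ph 0 i) x‖ ^ 2 := by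
      apply setIntegral_congr_fun (measurableSet_Ivl _ _)
      intro x hx
      rw [mem_Ivl] at hx
      simp only [Gx, hx]
    have e2 : ∫ x in Ivl 0 i, cnt Θ H B 0 x = (nw Θ H B 0 i).card := by
      have : ∀ x ∈ Ivl 0 i, cnt Θ H B 0 x = (nw Θ H B 0 i).card := by
        intro x hx
        rw [mem_Ivl] at hx
        simp only [cnt, hx, card_up]
        simp [par]
      rw [setIntegral_congr_fun (measurableSet_Ivl _ _) this]
      simp [volume_real_Ivl]
    rw [e1, e2]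
    refine h.trans ?_
    simp [par, xs]
  | succ k ih =>
    have key : ∫ x in Ivl 0 i, (‖Gx Θ H B ph (k + 1) x‖ ^ 2 - 2 * cnt Θ H B (k + 1) x) ≤
        ∫ x in Ivl 0 i, (‖Gx Θ H B ph k x‖ ^ 2 - 2 * cnt Θ H B k x) := by
      apply node_to_root (fun l j => (iG (k + 1) l j).sub ((intOn_cnt (k + 1) l j).const_mul 2))
        (fun l j => (iG k l j).sub ((intOn_cnt k l j).const_mul 2)) (k + 1) 0
      intro j
      rw [Nat.zero_add]
      have h := node_L2 (Θ := Θ) (H := H) hB hph (k + 1) j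
      have e1 : ∫ x in Ivl (k + 1) j, ‖Gx Θ H B ph (k + 1) x‖ ^ 2 =
          ∫ x in Ivl (k + 1) j, ‖xs (up Θ H B (k + 1) j) (cc Θ H B ph (k + 1) j) x‖ ^ 2 := by
        apply setIntegral_congr_fun (measurableSet_Ivl _ _)
        intro x hx
        rw [mem_Ivl] at hx
        simp only [Gx, hx]
      have e2 : ∫ x in Ivl (k + 1) j, ‖Gx Θ H B ph k x‖ ^ 2 =
          ∫ x in Ivl (k + 1) j, ‖xs (par Θ H B (k + 1) j) (pc Θ H B ph (k + 1) j) x‖ ^ 2 := by
        apply setIntegral_congr_fun (measurableSet_Ivl _ _)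
        intro x hx
        rw [mem_Ivl] at hx
        simp only [Gx, par, fl_half k x, hx]
        rfl
      have e3 : ∫ x in Ivl (k + 1) j, cnt Θ H B (k + 1) x =
          (∫ x in Ivl (k + 1) j, cnt Θ H B k x) + (nw Θ H B (k + 1) j).card * (1 / 2 ^ (k + 1)) := by
        have h1 : ∀ x ∈ Ivl (k + 1) j, cnt Θ H B (k + 1) x =
            (par Θ H B (k + 1) j).card + (nw Θ H B (k + 1) j).card := by
          intro x hx
          rw [mem_Ivl] at hx
          simp only [cnt, hx, card_up]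
          push_cast; ring
        have h2 : ∀ x ∈ Ivl (k + 1) j, cnt Θ H B k x = (par Θ H B (k + 1) j).card := by
          intro x hx
          rw [mem_Ivl] at hx
          simp only [cnt, par, fl_half k x, hx]
        rw [setIntegral_congr_fun (measurableSet_Ivl _ _) h1,
          setIntegral_congr_fun (measurableSet_Ivl _ _) h2, setIntegral_const, setIntegral_const,
          volume_real_Ivl]
        simp only [smul_eq_mul]
        ring
      simp only [Pi.sub_apply]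
      rw [integral_sub (iG (k + 1) (k + 1) j) ((intOn_cnt (k + 1) (k + 1) j).const_mul 2),
        integral_sub (iG k (k + 1) j) ((intOn_cnt k (k + 1) j).const_mul 2), integral_const_mul,
        integral_const_mul, e1, e2, e3]
      linarith
    rw [integral_sub (iG (k + 1) 0 i) ((intOn_cnt (k + 1) 0 i).const_mul 2),
      integral_sub (iG k 0 i) ((intOn_cnt k 0 i).const_mul 2), integral_const_mul,
      integral_const_mul] at key
    linarith

/-- **pairing bound** -/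
theorem pair_Gx {f : ℝ → ℂ} (hf : Measurable f) {M : ℝ} (hM : ∀ x, ‖f x‖ ≤ M)
    {ph : ℕ → ℤ → ℝ → ℂ} (hph : ∀ k j θ, ‖ph k j θ‖ ≤ 1) {δ : ℝ}
    (hph' : ∀ k j θ, H k j θ → δ ≤ ((starRingEnd ℂ) (ph k j θ) * coef f θ k j).re)
    (i : ℤ) (k : ℕ) :
    δ * ∫ x in Ivl 0 i, cnt Θ H B k x ≤
      ∫ x in Ivl 0 i, (f x * (starRingEnd ℂ) (Gx Θ H B ph k x)).re := by
  have hM0 : 0 ≤ M := (norm_nonneg _).trans (hM 0)
  have iG : ∀ k l j, IntegrableOn (fun x => (f x * (starRingEnd ℂ) (Gx Θ H B ph k x)).re)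
      (Ivl l j) := by
    intro k l j
    have : IntegrableOn (fun x => f x * (starRingEnd ℂ) (Gx Θ H B ph k x)) (Ivl l j) := by
      apply intOn l j (M := M * B)
      · exact hf.mul (Complex.continuous_conj.measurable.comp (measurable_Gx _ _))
      · intro x
        rw [norm_mul, RCLike.norm_conj]
        exact mul_le_mul (hM x) (norm_Gx_le hph k x) (norm_nonneg _) hM0
    exact this.re
  induction k with
  | zero =>
    have h := node_pair (Θ := Θ) (H := H) (B := B) hf hM hph hph' 0 i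
    have e1 : ∫ x in Ivl 0 i, (f x * (starRingEnd ℂ) (Gx Θ H B ph 0 x)).re =
        ∫ x in Ivl 0 i, (f x * (starRingEnd ℂ) (xs (up Θ H B 0 i) (cc Θ H B ph 0 i) x)).re := by
      apply setIntegral_congr_fun (measurableSet_Ivl _ _)
      intro x hx
      rw [mem_Ivl] at hx
      simp only [Gx, hx]
    have e2 : ∫ x in Ivl 0 i, cnt Θ H B 0 x = (nw Θ H B 0 i).card := by
      have : ∀ x ∈ Ivl 0 i, cnt Θ H B 0 x = (nw Θ H B 0 i).card := by
        intro x hx
        rw [mem_Ivl] at hx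
        simp only [cnt, hx, card_up]
        simp [par]
      rw [setIntegral_congr_fun (measurableSet_Ivl _ _) this]
      simp [volume_real_Ivl]
    rw [e1, e2]
    refine le_trans ?_ h
    simp [par, xs]
  | succ k ih =>
    have key : ∫ x in Ivl 0 i, ((f x * (starRingEnd ℂ) (Gx Θ H B ph k x)).re -
          δ * cnt Θ H B k x) ≤
        ∫ x in Ivl 0 i, ((f x * (starRingEnd ℂ) (Gx Θ H B ph (k + 1) x)).re -
          δ * cnt Θ H B (k + 1) x) := by
      apply node_to_root (fun l j => (iG k l j).sub ((intOn_cnt k l j).const_mul δ))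
        (fun l j => (iG (k + 1) l j).sub ((intOn_cnt (k + 1) l j).const_mul δ)) (k + 1) 0
      intro j
      rw [Nat.zero_add]
      have h := node_pair (Θ := Θ) (H := H) (B := B) hf hM hph hph' (k + 1) j
      have e1 : ∫ x in Ivl (k + 1) j, (f x * (starRingEnd ℂ) (Gx Θ H B ph (k + 1) x)).re =
          ∫ x in Ivl (k + 1) j, (f x * (starRingEnd ℂ)
            (xs (up Θ H B (k + 1) j) (cc Θ H B ph (k + 1) j) x)).re := by
        apply setIntegral_congr_fun (measurableSet_Ivl _ _)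
        intro x hx
        rw [mem_Ivl] at hx
        simp only [Gx, hx]
      have e2 : ∫ x in Ivl (k + 1) j, (f x * (starRingEnd ℂ) (Gx Θ H B ph k x)).re =
          ∫ x in Ivl (k + 1) j, (f x * (starRingEnd ℂ)
            (xs (par Θ H B (k + 1) j) (pc Θ H B ph (k + 1) j) x)).re := by
        apply setIntegral_congr_fun (measurableSet_Ivl _ _)
        intro x hx
        rw [mem_Ivl] at hx
        simp only [Gx, par, fl_half k x, hx]
        rfl
      have e3 : ∫ x in Ivl (k + 1) j, cnt Θ H B (k + 1) x =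
          (∫ x in Ivl (k + 1) j, cnt Θ H B k x) + (nw Θ H B (k + 1) j).card * (1 / 2 ^ (k + 1)) := by
        have h1 : ∀ x ∈ Ivl (k + 1) j, cnt Θ H B (k + 1) x =
            (par Θ H B (k + 1) j).card + (nw Θ H B (k + 1) j).card := by
          intro x hx
          rw [mem_Ivl] at hx
          simp only [cnt, hx, card_up]
          push_cast; ring
        have h2 : ∀ x ∈ Ivl (k + 1) j, cnt Θ H B k x = (par Θ H B (k + 1) j).card := by
          intro x hx
          rw [mem_Ivl] at hx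
          simp only [cnt, par, fl_half k x, hx]
        rw [setIntegral_congr_fun (measurableSet_Ivl _ _) h1,
          setIntegral_congr_fun (measurableSet_Ivl _ _) h2, setIntegral_const, setIntegral_const,
          volume_real_Ivl]
        simp only [smul_eq_mul]
        ring
      simp only [Pi.sub_apply]
      rw [integral_sub (iG (k + 1) (k + 1) j) ((intOn_cnt (k + 1) (k + 1) j).const_mul δ),
        integral_sub (iG k (k + 1) j) ((intOn_cnt k (k + 1) j).const_mul δ), integral_const_mul,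
        integral_const_mul, e1, e2, e3]
      linarith
    rw [integral_sub (iG (k + 1) 0 i) ((intOn_cnt (k + 1) 0 i).const_mul δ),
      integral_sub (iG k 0 i) ((intOn_cnt k 0 i).const_mul δ), integral_const_mul,
      integral_const_mul] at key
    linarith

/-- heavy coefficients at threshold `δ` -/
def Hv (f : ℝ → ℂ) (δ : ℝ) (k : ℕ) (j : ℤ) (θ : ℝ) : Prop := δ ≤ ‖coef f θ k j‖

/-- **Bessel inequality for the wide tops**: total length of the tops. -/
theorem bessel {f : ℝ → ℂ} (hf : Measurable f) {M : ℝ} (hM : ∀ x, ‖f x‖ ≤ M) {δ : ℝ}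
    (hδ : 0 < δ) (hB : 0 < B) (i : ℤ) (k : ℕ) :
    ∫ x in Ivl 0 i, cnt Θ (Hv f δ) B k x ≤ 2 * δ⁻¹ ^ 2 * ∫ x in Ivl 0 i, ‖f x‖ ^ 2 := by
  have hM0 : 0 ≤ M := (norm_nonneg _).trans (hM 0)
  set ph : ℕ → ℤ → ℝ → ℂ := fun k j θ => coef f θ k j / ‖coef f θ k j‖ with hphd
  have hph : ∀ k j θ, ‖ph k j θ‖ ≤ 1 := by
    intro k j θ
    rw [hphd]
    simp only [norm_div, Complex.norm_real, norm_norm]
    exact div_self_le_one _
  have hph' : ∀ k j θ, Hv f δ k j θ → δ ≤ ((starRingEnd ℂ) (ph k j θ) * coef f θ k j).re := by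
    intro k j θ h
    have hne : (‖coef f θ k j‖ : ℂ) ≠ 0 := by
      have : 0 < ‖coef f θ k j‖ := hδ.trans_le h
      exact_mod_cast this.ne'
    have e1 : (starRingEnd ℂ) (ph k j θ) * coef f θ k j = (‖coef f θ k j‖ : ℂ) := by
      rw [hphd]
      simp only [map_div₀, Complex.conj_ofReal]
      rw [div_mul_eq_mul_div, mul_comm ((starRingEnd ℂ) _), Complex.mul_conj,
        Complex.normSq_eq_norm_sq]
      push_cast
      field_simp
    rw [e1, Complex.ofReal_re]
    exact h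
  have h1 := pair_Gx (Θ := Θ) (B := B) hf hM hph hph' i k
  have h2 := L2_Gx (Θ := Θ) (H := Hv f δ) hB hph i k
  set I0 := ∫ x in Ivl 0 i, cnt Θ (Hv f δ) B k x with hI0
  have iF : IntegrableOn (fun x => ‖f x‖ ^ 2) (Ivl 0 i) := by
    apply intOn 0 i (hf.norm.pow_const 2) (M := M ^ 2)
    intro x
    rw [Real.norm_eq_abs, abs_of_nonneg (by positivity)]
    have := hM x
    gcongr
  have iG2 : IntegrableOn (fun x => ‖Gx Θ (Hv f δ) B ph k x‖ ^ 2) (Ivl 0 i) := by
    apply intOn 0 i ((measurable_Gx ph k).norm.pow_const 2) (M := (B : ℝ) ^ 2)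
    intro x
    rw [Real.norm_eq_abs, abs_of_nonneg (by positivity)]
    have := norm_Gx_le (Θ := Θ) (H := Hv f δ) (B := B) hph k x
    gcongr
  have iFG : IntegrableOn (fun x => (f x * (starRingEnd ℂ) (Gx Θ (Hv f δ) B ph k x)).re)
      (Ivl 0 i) := by
    have : IntegrableOn (fun x => f x * (starRingEnd ℂ) (Gx Θ (Hv f δ) B ph k x)) (Ivl 0 i) := by
      apply intOn 0 i (M := M * B)
      · exact hf.mul (Complex.continuous_conj.measurable.comp (measurable_Gx _ _))
      · intro x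
        rw [norm_mul, RCLike.norm_conj]
        exact mul_le_mul (hM x) (norm_Gx_le hph k x) (norm_nonneg _) hM0
    exact this.re
  have h3 : ∫ x in Ivl 0 i, (f x * (starRingEnd ℂ) (Gx Θ (Hv f δ) B ph k x)).re ≤
      δ⁻¹ * (∫ x in Ivl 0 i, ‖f x‖ ^ 2) + δ / 4 * ∫ x in Ivl 0 i, ‖Gx Θ (Hv f δ) B ph k x‖ ^ 2 := by
    rw [← integral_const_mul, ← integral_const_mul,
      ← integral_add (iF.const_mul _) (iG2.const_mul _)]
    apply integral_mono iFG ((iF.const_mul _).add (iG2.const_mul _))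
    intro x
    have h4 : (f x * (starRingEnd ℂ) (Gx Θ (Hv f δ) B ph k x)).re ≤
        ‖f x‖ * ‖Gx Θ (Hv f δ) B ph k x‖ := by
      refine (Complex.re_le_norm _).trans ?_
      rw [norm_mul, RCLike.norm_conj]
    refine h4.trans ?_
    change ‖f x‖ * ‖Gx Θ (Hv f δ) B ph k x‖ ≤
      δ⁻¹ * ‖f x‖ ^ 2 + δ / 4 * ‖Gx Θ (Hv f δ) B ph k x‖ ^ 2
    have h5 : 0 ≤ δ⁻¹ * (‖f x‖ - δ / 2 * ‖Gx Θ (Hv f δ) B ph k x‖) ^ 2 := by positivity
    have h6 : δ⁻¹ * (‖f x‖ - δ / 2 * ‖Gx Θ (Hv f δ) B ph k x‖) ^ 2 =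
        δ⁻¹ * ‖f x‖ ^ 2 + δ / 4 * ‖Gx Θ (Hv f δ) B ph k x‖ ^ 2 -
          ‖f x‖ * ‖Gx Θ (Hv f δ) B ph k x‖ := by
      field_simp
      ring
    linarith
  have h7 : δ / 2 * I0 ≤ δ⁻¹ * ∫ x in Ivl 0 i, ‖f x‖ ^ 2 := by
    have h8 : δ / 4 * ∫ x in Ivl 0 i, ‖Gx Θ (Hv f δ) B ph k x‖ ^ 2 ≤ δ / 4 * (2 * I0) := by
      gcongr
    nlinarith
  have h9 : I0 = 2 * δ⁻¹ * (δ / 2 * I0) := by field_simp
  rw [h9]
  calc 2 * δ⁻¹ * (δ / 2 * I0) ≤ 2 * δ⁻¹ * (δ⁻¹ * ∫ x in Ivl 0 i, ‖f x‖ ^ 2) := by gcongr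
    _ = _ := by ring

end Crest.Agent.R100.Wide933
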