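import Crest.Agent.R100.Run1_288
import Crest.Agent.R100.WideTops_933
import Crest.Agent.R100.Id_833
import Crest.Agent.R100.HuntLocal_933

/-!
# R100 / S0132: OFFICIAL BLOCK TABLE (helper933), literal interface of all the blocks

Text: doc 1968 (helper79) with exponential weights (933, msg 22:35).
Every block is a `def Xxx : Prop` below; the owner proves `theorem xxx : Xxx` in his own file.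
-/

set_option autoImplicit false

open MeasureTheory Set
open scoped ENNReal

noncomputable section

namespace Crest.Agent.R100.BT933

open Crest.Agent.R100.Mart933 Crest.Agent.R100.Wide933 Crest.Agent.R100.Run288

/-! ## 0. populations, coefficients, clocks -/

/-- population present at generation `k`, before the exits of generation `k` -/
def pB (g : ℝ → ℂ) (kap : ℝ → ℕ) (k : ℕ) (y : ℝ) : ℂ := if k ≤ kap y then g y else 0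

/-- population present at generation `k`, after the exits of generation `k` -/
def pA (g : ℝ → ℂ) (kap : ℝ → ℕ) (k : ℕ) (y : ℝ) : ℂ := if k < kap y then g y else 0

/-- population leaving at generation `k` -/
def pE (g : ℝ → ℂ) (kap : ℝ → ℕ) (k : ℕ) (y : ℝ) : ℂ := if kap y = k then g y else 0

/-- `c⁺` : coefficient at a node before the exits -/
def cB (g : ℝ → ℂ) (kap : ℝ → ℕ) (Z : ℝ) (k : ℕ) (j : ℤ) : ℂ := coef (pB g kap k) Z k j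

/-- coefficient at a node after the exits -/
def cA (g : ℝ → ℂ) (kap : ℝ → ℕ) (Z : ℝ) (k : ℕ) (j : ℤ) : ℂ := coef (pA g kap k) Z k j

/-- mass (average) leaving at a node -/
def xm (g : ℝ → ℂ) (kap : ℝ → ℕ) (k : ℕ) (j : ℤ) : ℝ := avN (pE g kap k) k j

/-- the signed sum along the path -/
def TS (a b : ℕ → ℤ → ℂ) (k K : ℕ) (x : ℝ) : ℂ :=
  ∑ l ∈ Finset.Ico k K, (rad (l + 1) x : ℂ) * dx a b l x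

/-- the clock along the path -/
def CX (z : ℕ → ℤ → ℝ) (k K : ℕ) (x : ℝ) : ℝ := ∑ l ∈ Finset.Ico k K, z l (fl l x)

/-- the stage operator `T*` with label `Z` -/
def Tst (g : ℝ → ℂ) (kap : ℝ → ℕ) (k₀ K : ℕ) (Z : ℝ) (x : ℝ) : ℂ :=
  TS (cA g kap Z) (cB g kap Z) k₀ K x

/-- `g' ≤ g` in modulus -/
def Dom (g' g : ℝ → ℂ) : Prop := Measurable g' ∧ ∀ y, ‖g' y‖ ≤ ‖g y‖

/-- separated finite sets of labels -/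
def Sep (δ : ℝ) (Ξ : Finset ℝ) : Prop := ∀ z ∈ Ξ, ∀ z' ∈ Ξ, z ≠ z' → δ ≤ |z - z'|

/-! ## 1. the data of the upper bound (UB) -/

/-- data on the node `Ivl k₀ j₀`; all the exits happen at generations `k₀ ≤ kap ≤ r`. -/
structure Data (g : ℝ → ℂ) (kap : ℝ → ℕ) (k₀ : ℕ) (j₀ : ℤ) (r : ℕ) (Q W : ℝ) (p : ℕ) : Prop where
  meas : Measurable g
  kmeas : Measurable kap
  bdd : ∃ M, ∀ y, ‖g y‖ ≤ M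
  supp : ∀ y, y ∉ Ivl k₀ j₀ → g y = 0
  kap_ge : ∀ y, k₀ ≤ kap y
  kap_le : ∀ y, kap y ≤ r
  Q_pos : 0 < Q
  W_pos : 0 < W
  W_le : W ≤ Q
  p_pos : 2 ≤ p
  dens : ∀ k j, avN (pB g kap k) k j ≤ Q
  pp : ∀ k, k₀ ≤ k → ∀ (j : ℤ) (Ξ : Finset ℝ), Sep (2 ^ k) Ξ → ∑ z ∈ Ξ, ‖cB g kap z k j‖ ^ p ≤ W ^ p

/-- (MULT) multiplicity of the label set at scale `r` -/
def Mult (Lam : Set ℝ) (k₀ r : ℕ) (μ : ℝ) : Prop :=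
  MeasurableSet Lam ∧ ∀ t : ℝ, volume (Lam ∩ Ico t (t + 2 ^ r)) ≤ ENNReal.ofReal (μ * 2 ^ k₀)

/-! ## UB1 (helper288): run maximal function of one label with exits -/

def RunMax : Prop := ∃ C : ℝ, 1 ≤ C ∧ ∀ (a b : ℕ → ℤ → ℂ) (z : ℕ → ℤ → ℝ), Proc a b z →
  ∀ (Q α : ℝ), 0 < α → α ≤ Q → (∀ k j, ‖b k j‖ ≤ Q) → ∀ m : ℕ,
  (∀ k j, k ≤ m → ∫ x in Ivl k j, CX z k (m + 1) x ≤ Q / 2 ^ k) →
  ∀ (k : ℕ) (j : ℤ), k ≤ m → ∀ lam : ℝ, 0 ≤ lam →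
  volume {x ∈ Ivl k j | ∃ k₁ k₂, k ≤ k₁ ∧ k₁ ≤ k₂ ∧ k₂ ≤ m ∧
      (∀ l, k₁ ≤ l → l ≤ k₂ → ‖b l (fl l x)‖ ≤ 3 * α) ∧
      C * α * (1 + lam) + C * CX z k₁ k₂ x < ‖TS a b k₁ k₂ x‖} ≤
    ENNReal.ofReal (C * (Q / α) ^ 2 * Real.exp (-lam)) * volume (Ivl k j)

/-! ## UB2: levels (pure, one path) -/

/-- first index `l ∈ [k₀, K]` with `a ≤ β l` is `k₁`, and `β < 2 a` on `[k₁, k₂]` -/
def IsRun (β : ℕ → ℝ) (k₀ : ℕ) (a : ℝ) (k₁ k₂ : ℕ) : Prop :=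
  k₀ ≤ k₁ ∧ k₁ ≤ k₂ ∧ a ≤ β k₁ ∧ (∀ l, k₀ ≤ l → l < k₁ → β l < a) ∧
    ∀ l, k₁ ≤ l → l ≤ k₂ → β l < 2 * a

/-- `b` = values before the exits, `a` = values after, `ζ` = exit masses, `u` = signs.
`V i + D (exits of the run)` bounds the partial sums over the runs of level `2^i`. -/
def Levels : Prop := ∀ (a b : ℕ → ℂ) (u : ℕ → ℂ) (ζ : ℕ → ℝ) (V : ℤ → ℝ) (D : ℝ) (k₀ K : ℕ)
  (i₀ i₁ : ℤ),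
  k₀ ≤ K → i₀ ≤ i₁ → 0 ≤ D → (∀ l, ‖u l‖ ≤ 1) → (∀ l, ‖b l - a l‖ ≤ ζ l) →
  (∀ l, k₀ ≤ l → l ≤ K → ‖b l‖ < 2 ^ i₁) →
  (∀ i, i₀ ≤ i → i < i₁ → 0 ≤ V i) →
  (∀ i, i₀ ≤ i → i < i₁ → ∀ k₁ k₂, k₂ ≤ K → IsRun (fun l => ‖b l‖) k₀ (2 ^ i) k₁ k₂ →
    ‖∑ l ∈ Finset.Ico k₁ k₂, u l * (b (l + 1) - a l)‖ ≤ V i + D * ∑ l ∈ Finset.Ico k₁ k₂, ζ l) →
  ‖∑ l ∈ Finset.Ico k₀ K, u l * (b (l + 1) - a l)‖ ≤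
    (K - k₀ : ℝ) * (2 * 2 ^ i₀) + (D + 1) * ∑ l ∈ Finset.Ico k₀ K, ζ l +
      ∑ i ∈ Finset.Ico i₀ i₁, open Classical in
        if ∃ l, k₀ ≤ l ∧ l ≤ K ∧ (2 : ℝ) ^ i ≤ ‖b l‖ then V i + 6 * 2 ^ i else 0

/-! ## UB3: greedy wide tops (pure) -/

/-- a family of tops at threshold `a` for a coefficient system `c Z k j`, nodes of generations
`k₀ ≤ k ≤ r`, separation `B`. -/
structure Tops (c : ℝ → ℕ → ℤ → ℂ) (k₀ r : ℕ) (a B : ℝ) (tp : ℕ → ℤ → Finset ℝ) : Prop where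
  rng : ∀ k j, (tp k j).Nonempty → k₀ ≤ k ∧ k ≤ r
  heavy : ∀ k j, ∀ w ∈ tp k j, a ≤ ‖c w k j‖
  sep_same : ∀ k j, ∀ w ∈ tp k j, ∀ w' ∈ tp k j, w ≠ w' → B * 2 ^ k < |w - w'|
  sep_below : ∀ k j d j', j = j' / 2 ^ d → 0 < d → ∀ w ∈ tp k j, ∀ w' ∈ tp (k + d) j',
    B * 2 ^ (k + d) < |w - w'|
  cov : ∀ k j, k₀ ≤ k → k ≤ r → ∀ Z : ℝ, a ≤ ‖c Z k j‖ →
    ∃ d ≤ k, k₀ ≤ k - d ∧ ∃ w ∈ tp (k - d) (j / 2 ^ d), |Z - w| ≤ B * 2 ^ k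

/-- existence of tops, when the heavy separated labels at a node are boundedly many -/
def TopsExist : Prop := ∀ (c : ℝ → ℕ → ℤ → ℂ) (k₀ r : ℕ) (a B : ℝ), 1 ≤ B →
  (∀ k, k₀ ≤ k → k ≤ r → ∀ j, ∃ N : ℕ, ∀ Ξ : Finset ℝ, Sep (2 ^ k) Ξ →
    (∀ z ∈ Ξ, a ≤ ‖c z k j‖) → Ξ.card ≤ N) →
  ∃ tp, Tops c k₀ r a B tp

/-! ## UB4: tree comparison (near frequencies) -/

/-- if `|Z - w| ≤ B 2^k`, the process of the label `Z` below `(k, fl k x)` is the process of `w`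
up to a phase and a geometric error. -/
def NearLabel : Prop := ∀ (g : ℝ → ℂ) (kap : ℝ → ℕ) (k₀ : ℕ) (j₀ : ℤ) (r : ℕ) (Q W : ℝ) (p : ℕ),
  Data g kap k₀ j₀ r Q W p → ∀ (B : ℝ), 0 ≤ B → ∀ (k l : ℕ), k₀ ≤ k → k ≤ l → ∀ (Z w x : ℝ),
  |Z - w| ≤ B * 2 ^ k →
  ‖cB g kap Z l (fl l x) - e (w - Z) x * cB g kap w l (fl l x)‖ ≤ 7 * B * Q * 2 ^ k / 2 ^ l ∧
  ‖cA g kap Z l (fl l x) - e (w - Z) x * cA g kap w l (fl l x)‖ ≤ 7 * B * Q * 2 ^ k / 2 ^ l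

/-- consequence for the runs: a run of level `a` of the label `Z` starting at a node below a top
`(k', w)` with `|Z - w| ≤ B 2^{k₁}` -/
def TreeRun : Prop := ∀ (g : ℝ → ℂ) (kap : ℝ → ℕ) (k₀ : ℕ) (j₀ : ℤ) (r : ℕ) (Q W : ℝ) (p : ℕ),
  Data g kap k₀ j₀ r Q W p → ∀ (B a : ℝ), 1 ≤ B → 0 < a → ∀ s : ℕ, 100 * B * Q ≤ a * 2 ^ s →
  ∀ (Z w x : ℝ) (k₁ k₂ : ℕ), k₀ ≤ k₁ → k₁ ≤ k₂ → |Z - w| ≤ B * 2 ^ k₁ →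
  (∀ l, k₁ ≤ l → l ≤ k₂ → ‖cB g kap Z l (fl l x)‖ < 2 * a) →
  ‖TS (cA g kap Z) (cB g kap Z) k₁ k₂ x‖ ≤ (4 * s + 1) * a + CX (xm g kap) k₁ k₂ x ∨
  ∃ k₃, k₁ ≤ k₃ ∧ k₃ ≤ k₂ ∧ (∀ l, k₃ ≤ l → l ≤ k₂ → ‖cB g kap w l (fl l x)‖ ≤ 3 * a) ∧
    ‖TS (cA g kap Z) (cB g kap Z) k₁ k₂ x‖ ≤
      (4 * s + 1) * a + CX (xm g kap) k₁ k₂ x + ‖TS (cA g kap w) (cB g kap w) k₃ k₂ x‖

/-! ## UB5: (TOPS), the count of the tops -/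

/-- the total measure of the tops -/
def topMass (tp : ℕ → ℤ → Finset ℝ) (k₀ : ℕ) (j₀ : ℤ) (r : ℕ) : ℝ :=
  ∑ k ∈ Finset.Icc k₀ r, ∑ j ∈ Finset.Ico (j₀ * 2 ^ (k - k₀)) ((j₀ + 1) * 2 ^ (k - k₀)),
    ((tp k j).card : ℝ) / 2 ^ k

def TopsCount : Prop := ∃ C : ℝ, 1 ≤ C ∧ ∀ (g : ℝ → ℂ) (kap : ℝ → ℕ) (k₀ : ℕ) (j₀ : ℤ) (r : ℕ)
  (Q W : ℝ) (p : ℕ), Data g kap k₀ j₀ r Q W p → ∀ (a B : ℝ), 0 < a → a ≤ Q →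
  (C * Q / a) ^ 6 ≤ B → ∀ tp, Tops (cB g kap) k₀ r a B tp →
  topMass tp k₀ j₀ r ≤ (C * (Q / a)) ^ 12 * p ^ 2 * (C * W / a) ^ p / 2 ^ k₀

/-! ## UB6: tail of one level -/

/-- bad set of level `a` : the label `Y + θ x` has a run of level `a` with a large sum -/
def badSet (g : ℝ → ℂ) (kap : ℝ → ℕ) (k₀ : ℕ) (j₀ : ℤ) (r : ℕ) (Lam : Set ℝ) (θ : ℝ → ℝ)
    (a H D : ℝ) : Set (ℝ × ℝ) :=
  {q : ℝ × ℝ | q.1 ∈ Ivl k₀ j₀ ∧ q.2 ∈ Lam ∧ ∃ k₁ k₂, k₂ ≤ r ∧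
    IsRun (fun l => ‖cB g kap (q.2 + θ q.1) l (fl l q.1)‖) k₀ a k₁ k₂ ∧
    H + D * CX (xm g kap) k₁ k₂ q.1 <
      ‖TS (cA g kap (q.2 + θ q.1)) (cB g kap (q.2 + θ q.1)) k₁ k₂ q.1‖}

/-- the level `a` is reached -/
def reachSet (g : ℝ → ℂ) (kap : ℝ → ℕ) (k₀ : ℕ) (j₀ : ℤ) (r : ℕ) (Lam : Set ℝ) (θ : ℝ → ℝ)
    (a : ℝ) : Set (ℝ × ℝ) :=
  {q : ℝ × ℝ | q.1 ∈ Ivl k₀ j₀ ∧ q.2 ∈ Lam ∧ ∃ l, k₀ ≤ l ∧ l ≤ r ∧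
    a ≤ ‖cB g kap (q.2 + θ q.1) l (fl l q.1)‖}

def LevelTail : Prop := ∃ C : ℝ, 1 ≤ C ∧ ∀ (g : ℝ → ℂ) (kap : ℝ → ℕ) (k₀ : ℕ) (j₀ : ℤ) (r : ℕ)
  (Q W : ℝ) (p : ℕ), Data g kap k₀ j₀ r Q W p → ∀ (Lam : Set ℝ) (μ : ℝ), 1 ≤ μ →
  Mult Lam k₀ r μ → ∀ θ : ℝ → ℝ, Measurable θ → ∀ a : ℝ, 0 < a → a ≤ Q →
  (volume.prod volume) (reachSet g kap k₀ j₀ r Lam θ a) ≤
      ENNReal.ofReal (μ * (C * (Q / a)) ^ 24 * p ^ 2 * (C * W / a) ^ p) ∧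
  ∀ lam : ℝ, 0 ≤ lam →
    (volume.prod volume) (badSet g kap k₀ j₀ r Lam θ a
        (C * a * (1 + Real.log (Q / a) + lam)) C) ≤
      ENNReal.ofReal (μ * (C * (Q / a)) ^ 24 * p ^ 2 * (C * W / a) ^ p * Real.exp (-lam))

/-! ## UB7: the upper bound -/

/-- **(UB)**; `NL` is the normalised measure `|I| |Lam|` of the label set, and `W^p ≤ G b^p NL`. -/
def UB : Prop := ∃ C : ℝ, 1 ≤ C ∧ ∀ (g : ℝ → ℂ) (kap : ℝ → ℕ) (k₀ : ℕ) (j₀ : ℤ) (r : ℕ)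
  (Q W : ℝ) (p : ℕ), Data g kap k₀ j₀ r Q W p → ∀ (Lam : Set ℝ) (μ b NL G : ℝ), 1 ≤ μ → 1 ≤ G →
  0 < b → b ≤ Q → 0 < NL → volume Lam = ENNReal.ofReal (NL * 2 ^ k₀) → Mult Lam k₀ r μ →
  W ^ p ≤ G * b ^ p * NL → C * (μ * G * (Q / b) ^ 100 * p ^ 10) ≤ Real.exp p →
  ∀ θ : ℝ → ℝ, Measurable θ →
  ∫⁻ x in Ivl k₀ j₀, ∫⁻ Y in Lam, ‖Tst g kap k₀ (r + 1) (Y + θ x) x‖ₑ ≤
    ENNReal.ofReal (C * (p * b + Q) * NL)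

/-! # LOWER BOUND SIDE (LB) -/

/-! ## LB1 (helper916): Plancherel on the line for `coef` -/

def Planch : Prop := ∀ g : ℝ → ℂ, Measurable g → (∃ M, ∀ y, ‖g y‖ ≤ M) → ∀ (k : ℕ) (j : ℤ),
  ∫⁻ Y, ‖coef g Y k j‖ₑ ^ 2 = ENNReal.ofReal (2 ^ (2 * k)) * ∫⁻ y in Ivl k j, ‖g y‖ₑ ^ 2

/-! ## LB2 (helper916): middle digits / multiplicity at one scale -/

def MidDigits : Prop := ∃ C : ℝ, 1 ≤ C ∧ ∀ g : ℝ → ℂ, Measurable g → (∃ M, ∀ y, ‖g y‖ ≤ M) →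
  ∀ (k₀ : ℕ) (j₀ : ℤ) (r : ℕ) (Q : ℝ), k₀ ≤ r → 0 < Q → (∀ j, avN g r j ≤ Q) → ∀ t : ℝ,
  ∫⁻ Y in Ico t (t + 2 ^ r), ‖coef g Y k₀ j₀‖ₑ ^ 2 ≤ ENNReal.ofReal (C * Q ^ 2 * 2 ^ k₀)

/-! ## LB3: Plancherel–Pólya for all the multipliers -/

def PPtrick : Prop := ∀ g : ℝ → ℂ, Measurable g → (∃ M, ∀ y, ‖g y‖ ≤ M) →
  ∀ (k : ℕ) (j : ℤ) (p : ℕ) (E : ℝ), 2 ≤ p → 0 ≤ E →
  (∀ m : ℝ → ℂ, Measurable m → (∀ y, ‖m y‖ ≤ 1) →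
    ∫⁻ Y, ‖coef (fun y => m y * g y) Y k j‖ₑ ^ p ≤ ENNReal.ofReal (2 ^ k * E)) →
  ∀ Ξ : Finset ℝ, Sep (2 ^ k) Ξ → ∑ z ∈ Ξ, ‖coef g z k j‖ ^ p ≤ 2 ^ p * E

/-! ## LB4: root -/

def RootLow : Prop := ∀ g : ℝ → ℝ, Measurable g → (∀ y, 0 ≤ g y) → (∃ M, ∀ y, g y ≤ M) →
  ∀ p : ℕ, ENNReal.ofReal ((1 / 6) * ((1 / 2) * ∫ y in Ivl 0 0, g y) ^ p) ≤
    ∫⁻ Y, ‖coef (fun y => (g y : ℂ)) Y 0 0‖ₑ ^ p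

/-! ## LB5: quantiles of a finite clock -/

/-- `ν k` = mass of the exits at generation `k`; a grid with small mass strictly between
consecutive grid values -/
def Quant : Prop := ∀ (ν : ℕ → ℝ) (k₀ r : ℕ) (η : ℝ), k₀ ≤ r → 0 < η → (∀ k, 0 ≤ ν k) →
  ∃ q : Finset ℕ, k₀ ∈ q ∧ (∀ k ∈ q, k₀ ≤ k ∧ k ≤ r) ∧
    (q.card : ℝ) ≤ 2 + (∑ k ∈ Finset.Icc k₀ r, ν k) / η * 2 ∧
    ∀ R, k₀ < R → R ≤ r + 1 → ∃ k ∈ q, k < R ∧ ∑ l ∈ Finset.Ioo k R, ν l ≤ η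

/-! ## LB6: payments, weights, the class and the functional -/

/-- abstract payments -/
structure PayData (S : ℕ → ℝ → ℂ) (al : ℕ → ℤ → Prop) : Prop where
  meas : ∀ k, Measurable (S k)
  zero : ∀ y, S 0 y = 0
  step : ∀ k y, ‖S (k + 1) y - S k y‖ ≤ 1
  dead : ∀ k y, ¬ al k (fl k y) → S (k + 1) y = S k y

/-- the points which get `V` before generation `m` -/
def hit (S : ℕ → ℝ → ℂ) (V : ℝ) (m : ℕ) (y : ℝ) : Prop := ∃ k ≤ m, V ≤ ‖S k y‖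

open Classical in
/-- first generation with `V ≤ ‖S k y‖` (`0` if there is none) -/
def kz (S : ℕ → ℝ → ℂ) (V : ℝ) (m : ℕ) (y : ℝ) : ℕ :=
  if h : ∃ k ≤ m, V ≤ ‖S k y‖ then Nat.find h else 0

/-- direction of the final payment -/
def uu (S : ℕ → ℝ → ℂ) (V : ℝ) (m : ℕ) (y : ℝ) : ℂ :=
  (starRingEnd ℂ) (S (kz S V m y) y) / ‖S (kz S V m y) y‖

/-- remaining payment at generation `k` -/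
def rem (S : ℕ → ℝ → ℂ) (V : ℝ) (m k : ℕ) (y : ℝ) : ℝ :=
  (uu S V m y * (S (kz S V m y) y - S k y)).re

/-- the weighted class `G_J` at the node `(k, j)` -/
def Cls (S : ℕ → ℝ → ℂ) (V l : ℝ) (m : ℕ) (f : ℝ → ℂ) (k : ℕ) (j : ℤ) (g : ℝ → ℂ) : Prop :=
  Measurable g ∧ ∀ y, g y ≠ 0 → y ∈ Ivl k j ∧ hit S V m y ∧ k ≤ kz S V m y ∧
    ‖g y‖ ≤ ‖f y‖ * Real.exp (rem S V m k y / l)

/-- the normalised energy `|J| ∫ |c_J(g,Y)|^p dY` -/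
def En (p : ℕ) (g : ℝ → ℂ) (k : ℕ) (j : ℤ) : ℝ≥0∞ :=
  (∫⁻ Y, ‖coef g Y k j‖ₑ ^ p) / 2 ^ k

/-! ## LB7: near-maximiser -/

def NearMax : Prop := ∀ (S : ℕ → ℝ → ℂ) (al : ℕ → ℤ → Prop), PayData S al →
  ∀ (f : ℝ → ℂ) (M : ℝ), Measurable f → (∀ y, ‖f y‖ ≤ M) →
  ∀ (V l : ℝ) (m p : ℕ), 0 < V → 0 < l → 2 ≤ p →
  (∃ k j g, k ≤ m ∧ Cls S V l m f k j g ∧ 0 < En p g k j) →
  ∃ k j g, k ≤ m ∧ Cls S V l m f k j g ∧ 0 < En p g k j ∧ En p g k j < ⊤ ∧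
    ∀ k' j' g', k' ≤ m → Cls S V l m f k' j' g' → En p g' k' j' ≤ 2 * En p g k j

/-- **(CORE)** what the team proves; `701` derives `ModelMulti` from it and the Hunt bound. -/
def Core : Prop := ∃ A C₀ : ℝ, 1 ≤ A ∧ 1 ≤ C₀ ∧ ∀ n L : ℕ, 1 ≤ L → Real.exp (C₀ * L) ≤ n →
  ∀ f : ℝ → ℂ, Measurable f → (∀ x, ‖f x‖ ≤ 2 ^ n) →
  ∀ al : ℕ → ℤ → Prop, (∀ k j, al (k + 1) j → al k (j / 2)) → (∀ k j, al k j → avN f k j ≤ 1) →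
  ∀ S : ℕ → ℝ → ℂ, ∀ (s : ℝ → ℂ) (θ : ℝ → ℝ), Measurable s → (∀ x, ‖s x‖ ≤ 1) → Measurable θ →
  S = Id833.Pay s θ al → ∀ m : ℕ,
  ∫ y in {y ∈ Ivl 0 0 | hit S (A * n) m y}, ‖f y‖ ≤ Real.exp (-L)

end Crest.Agent.R100.BT933
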