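import Crest.Agent.R100.Bessel_801
import Mathlib

/-!
# R100 / S0132, leaf M3 (helper916): sharp coefficients of good intervals are seen by band-limited packets
-/

set_option autoImplicit false

open MeasureTheory Set Complex Real FourierTransform
open scoped ComplexConjugate ENNReal SchwartzMap ContDiff

noncomputable section

namespace Crest.Agent.R100.Bad916

open Bessel801

/-! ## the kernel -/

/-- the bump -/
def bb : ContDiffBump (0 : ℝ) := ⟨1 / 4, 1 / 2, by norm_num, by norm_num⟩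

def gg (ξ : ℝ) : ℂ := ((bb ξ : ℝ) : ℂ)

lemma gg_contDiff : ContDiff ℝ ∞ gg := by
  have h1 : ContDiff ℝ ∞ (bb : ℝ → ℝ) := bb.contDiff
  exact Complex.ofRealCLM.contDiff.comp h1

lemma gg_hcs : HasCompactSupport gg := by
  have h1 : HasCompactSupport (bb : ℝ → ℝ) := bb.hasCompactSupport
  exact h1.comp_left (g := fun x : ℝ => (x : ℂ)) Complex.ofReal_zero

def gS : 𝓢(ℝ, ℂ) := gg_hcs.toSchwartzMap gg_contDiff

lemma gg_zero {ξ : ℝ} (h : 1 ≤ |ξ|) : gg ξ = 0 := by
  unfold gg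
  have : bb ξ = 0 := bb.zero_of_le_dist (by
    simp only [bb, Real.dist_eq, sub_zero]; linarith)
  rw [this]; simp

lemma gg_at_zero : gg 0 = 1 := by
  unfold gg
  have : bb (0:ℝ) = 1 := bb.one_of_mem_closedBall (by
    simp [bb])
  rw [this]; simp

/-- the kernel, as a Schwartz function -/
def Ph : 𝓢(ℝ, ℂ) := 𝓕⁻ gS

lemma Ph_apply (u : ℝ) : Ph u = 𝓕⁻ gg u := by
  have : (Ph : ℝ → ℂ) = 𝓕⁻ (gS : ℝ → ℂ) := SchwartzMap.fourierInv_coe gS
  rw [this]; rfl

lemma Ph_conj (u : ℝ) : conj (Ph u) = Ph u := by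
  rw [Ph_apply, Real.fourierInv_eq', ← integral_conj]
  rw [← integral_neg_eq_self]
  congr 1
  ext v
  have h1 : gg (-v) = gg v := by
    unfold gg; rw [bb.neg]
  have h2 : conj (gg v) = gg v := by unfold gg; simp
  simp only [smul_eq_mul, map_mul, h1, h2]
  congr 1
  rw [← Complex.exp_conj]
  congr 1
  simp [Complex.conj_ofNat]

lemma Ph_poisson (x : ℝ) : ∑' n : ℤ, Ph (x + n) = 1 := by
  rw [SchwartzMap.tsum_eq_tsum_fourier]
  have h1 : 𝓕 Ph = gS := FourierTransform.fourier_fourierInv_eq gS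
  have hg : ∀ n : ℤ, gS (n : ℝ) = gg n := fun n => rfl
  simp_rw [h1, hg]
  rw [tsum_eq_single 0]
  · simp [gg_at_zero]
  · intro n hn
    have : (1 : ℝ) ≤ |(n : ℝ)| := by
      have := Int.one_le_abs hn
      exact_mod_cast this
    rw [gg_zero this, zero_mul]

theorem exists_kernel : ∃ (Φ : ℝ → ℂ) (A : ℝ), 0 < A ∧ Packet Φ A ∧ (∀ u, conj (Φ u) = Φ u) ∧
    ∀ u, ∑' n : ℤ, Φ (u + n) = 1 := by
  set C : ℝ := 2 ^ 4 * (Finset.Iic (4, 0)).sup (fun m : ℕ × ℕ => SchwartzMap.seminorm ℝ m.1 m.2) Ph with hC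
  have hC0 : 0 ≤ C := by positivity
  refine ⟨Ph, C + 1, by linarith, ⟨Ph.continuous, ?_, gg, ?_, fun ξ h => gg_zero h, Ph_apply⟩, Ph_conj,
    Ph_poisson⟩
  · intro u
    have := SchwartzMap.one_add_le_sup_seminorm_apply (𝕜 := ℝ) (m := (4, 0)) (k := 4) (n := 0) le_rfl
      le_rfl Ph u
    rw [norm_iteratedFDeriv_zero, Real.norm_eq_abs] at this
    simp only at this
    rw [le_div_iff₀ (by positivity), mul_comm]
    exact this.trans (by linarith)
  · exact gg_contDiff.continuous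

/-! ## partition of unity with tails -/

/-- `1/(1+|n|)^2` -/
def zz (n : ℤ) : ℝ := 1 / (1 + |(n : ℝ)|) ^ 2

lemma zz_nonneg (n : ℤ) : 0 ≤ zz n := by unfold zz; positivity

lemma zz_summable : Summable zz := by
  have h1 : Summable (fun n : ℕ => 1 / ((n : ℝ) + 1) ^ 2) := by
    have := (summable_nat_add_iff 1).mpr (Real.summable_one_div_nat_pow.mpr one_lt_two)
    simpa using this
  refine Summable.of_nat_of_neg ?_ ?_
  · refine h1.congr fun n => ?_
    unfold zz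
    simp only [Int.cast_natCast, Nat.abs_cast]
    rw [add_comm]
  · refine h1.congr fun n => ?_
    unfold zz
    simp only [Int.cast_neg, Int.cast_natCast, abs_neg, Nat.abs_cast]
    rw [add_comm]

/-- the constant `∑ 1/(1+|n|)^2` -/
def ZZ : ℝ := ∑' n : ℤ, zz n

lemma ZZ_nonneg : 0 ≤ ZZ := tsum_nonneg zz_nonneg

lemma zz_shift_summable (L : ℤ) : Summable (fun n => zz (n + L)) :=
  zz_summable.comp_injective (i := fun n : ℤ => n + L) (add_left_injective L)

lemma zz_shift_tsum (L : ℤ) : ∑' n, zz (n + L) = ZZ := by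
  have := (Equiv.addRight L).tsum_eq zz
  simpa [ZZ] using this

/-- distance (in units) to the end points of `[0, L]` -/
def dd (L u : ℝ) : ℝ := min |u| |u - L|

lemma dd_nonneg (L u : ℝ) : 0 ≤ dd L u := le_min (abs_nonneg _) (abs_nonneg _)

lemma key_bound {A D v x y : ℝ} (hA : 0 ≤ A) (hD : 0 ≤ D) (hx : 0 ≤ x) (hy : 0 ≤ y) 
    (h : D + x ≤ v ∨ D + y ≤ v) :
    A / (1 + v) ^ 4 ≤ A / (1 + D) ^ 2 * (1 / (1 + x) ^ 2 + 1 / (1 + y) ^ 2) := by
  have main : ∀ x : ℝ, 0 ≤ x → D + x ≤ v → A / (1 + v) ^ 4 ≤ A / (1 + D) ^ 2 * (1 / (1 + x) ^ 2) := by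
    intro x hx h
    rw [div_mul_div_comm, mul_one]
    have h1 : (1 + D) * (1 + x) ≤ (1 + v) ^ 2 := by nlinarith
    have h2 : (1 + D) ^ 2 * (1 + x) ^ 2 ≤ (1 + v) ^ 4 := by
      have := pow_le_pow_left₀ (by positivity) h1 2
      calc (1 + D) ^ 2 * (1 + x) ^ 2 = ((1 + D) * (1 + x)) ^ 2 := by ring
        _ ≤ ((1 + v) ^ 2) ^ 2 := this
        _ = (1 + v) ^ 4 := by ring
    gcongr
  have p1 : 0 ≤ A / (1 + D) ^ 2 * (1 / (1 + x) ^ 2) := by positivity
  have p2 : 0 ≤ A / (1 + D) ^ 2 * (1 / (1 + y) ^ 2) := by positivity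
  rw [mul_add]
  rcases h with h | h
  · have := main x hx h; linarith
  · have := main y hy h; linarith

/-- the smooth window made of `L` unit packets -/
def WW (Φ : ℝ → ℂ) (L : ℕ) (u : ℝ) : ℂ := ∑ i ∈ Finset.range L, Φ (u - i)

theorem WW_sub {Φ : ℝ → ℂ} {A : ℝ} (h : Packet Φ A) (hp : ∀ u, ∑' n : ℤ, Φ (u + n) = 1) (L : ℕ) (u : ℝ) :
    ‖WW Φ L u - (Ico (0:ℝ) L).indicator (fun _ => (1:ℂ)) u‖ ≤ 2 * ZZ * A / (1 + dd L u) ^ 2 := by
  have hA : 0 ≤ A := h.A_nonneg
  have hD := dd_nonneg L u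
  have hDu : dd L u ≤ |u| := min_le_left _ _
  have hDL : dd L u ≤ |u - L| := min_le_right _ _
  set D := dd (L:ℝ) u with hDdef
  set g : ℤ → ℂ := fun n => Φ (u + n) with hg
  have hgs : Summable g := by
    by_contra hcon
    have := tsum_eq_zero_of_not_summable hcon
    rw [hg, hp u] at this
    exact one_ne_zero this
  set s : Finset ℤ := Finset.Ioc (-(L:ℤ)) 0 with hs
  have hW : WW Φ L u = ∑ n ∈ s, g n := by
    unfold WW
    symm
    refine Finset.sum_bij' (fun n _ => (-n).toNat) (fun i _ => -(i:ℤ)) ?_ ?_ ?_ ?_ ?_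
    · intro n hn
      simp only [hs, Finset.mem_Ioc] at hn
      simp only [Finset.mem_range]; omega
    · intro i hi
      simp only [Finset.mem_range] at hi
      simp only [hs, Finset.mem_Ioc]; omega
    · intro n hn
      simp only [hs, Finset.mem_Ioc] at hn
      omega
    · intro i hi
      simp
    · intro n hn
      simp only [hs, Finset.mem_Ioc] at hn
      simp only [hg]
      congr 1
      have : ((-n).toNat : ℤ) = -n := Int.toNat_of_nonneg (by omega)
      have h2 : (((-n).toNat : ℕ) : ℝ) = -(n:ℝ) := by exact_mod_cast this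
      rw [h2]; ring
  set B : ℤ → ℝ := fun n => A / (1 + D) ^ 2 * (zz n + zz (n + L)) with hB
  have hBs : Summable B := (zz_summable.add (zz_shift_summable L)).mul_left _
  have hB0 : ∀ n, 0 ≤ B n := fun n => by
    have := zz_nonneg n
    have := zz_nonneg (n + L)
    simp only [hB]; positivity
  have hBt : ∑' n, B n = 2 * ZZ * A / (1 + D) ^ 2 := by
    simp only [hB]
    rw [tsum_mul_left, (zz_summable).tsum_add (zz_shift_summable L), zz_shift_tsum]
    change A / (1 + D) ^ 2 * (ZZ + ZZ) = _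
    ring
  have hle : ∀ n : ℤ, (D + |(n:ℝ)| ≤ |u + n| ∨ D + |((n + L : ℤ):ℝ)| ≤ |u + n|) → ‖g n‖ ≤ B n := by
    intro n hn
    refine (h.decay _).trans ?_
    exact key_bound hA hD (abs_nonneg _) (abs_nonneg _) hn
  by_cases hu : u ∈ Ico (0:ℝ) L
  · rw [indicator_of_mem hu, hW]
    have h1 : ∑ n ∈ s, g n + ∑' n : {n // n ∉ s}, g n = 1 := by
      rw [hgs.sum_add_tsum_subtype_compl]; exact hp u
    have h2 : ∑ n ∈ s, g n - 1 = -∑' n : {n // n ∉ s}, g n := by rw [← h1]; ring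
    rw [h2, norm_neg]
    have hle' : ∀ n : {n // n ∉ s}, ‖g n‖ ≤ B n := by
      rintro ⟨n, hn⟩
      apply hle
      simp only [hs, Finset.mem_Ioc, not_and, not_le] at hn
      rcases le_or_gt n (-(L:ℤ)) with h3 | h3
      · right
        have h3' : (n:ℝ) + L ≤ 0 := by
          have : n + L ≤ 0 := by omega
          exact_mod_cast this
        have e1 : |u + n| = -(u + n) := abs_of_nonpos (by linarith [hu.2])
        have e2 : |((n + L : ℤ):ℝ)| = -(n + L) := by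
          push_cast; exact abs_of_nonpos h3'
        have e3 : |u - L| = L - u := by rw [abs_sub_comm]; exact abs_of_nonneg (by linarith [hu.2])
        rw [e1, e2]; linarith
      · left
        have h4 : (0:ℝ) ≤ n := by exact_mod_cast (hn h3).le
        have e1 : |u + n| = u + n := abs_of_nonneg (by linarith [hu.1])
        have e2 : |(n:ℝ)| = n := abs_of_nonneg h4
        have e3 : |u| = u := abs_of_nonneg hu.1
        rw [e1, e2]; linarith
    have hs1 : Summable (fun n : {n // n ∉ s} => B n) := hBs.subtype _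
    calc ‖∑' n : {n // n ∉ s}, g n‖ ≤ ∑' n : {n // n ∉ s}, B n := by
          refine (norm_tsum_le_tsum_norm (Summable.of_nonneg_of_le (fun _ => norm_nonneg _) hle' hs1)).trans ?_
          exact Summable.tsum_le_tsum hle' (Summable.of_nonneg_of_le (fun _ => norm_nonneg _) hle' hs1) hs1
      _ ≤ ∑' n, B n := hBs.tsum_subtype_le _ _ hB0
      _ = _ := hBt
  · rw [indicator_of_notMem hu, hW, sub_zero]
    have hle' : ∀ n ∈ s, ‖g n‖ ≤ B n := by
      intro n hn
      apply hle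
      simp only [hs, Finset.mem_Ioc] at hn
      have h4 : (n:ℝ) ≤ 0 := by exact_mod_cast hn.2
      have h5 : (0:ℝ) ≤ n + L := by
        have : 0 ≤ n + L := by omega
        exact_mod_cast this
      rcases lt_or_ge u 0 with h3 | h3
      · left
        rw [abs_of_nonpos h4, abs_of_nonpos (by linarith : u + n ≤ 0)]
        rw [abs_of_nonpos h3.le] at hDu
        linarith
      · right
        have h6 : (L:ℝ) ≤ u := by
          by_contra hc
          exact hu ⟨h3, not_le.1 hc⟩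
        push_cast
        rw [abs_of_nonneg h5, abs_of_nonneg (by linarith : 0 ≤ u + n)]
        rw [abs_of_nonneg (by linarith : 0 ≤ u - L)] at hDL
        linarith
    calc ‖∑ n ∈ s, g n‖ ≤ ∑ n ∈ s, B n := (norm_sum_le _ _).trans (Finset.sum_le_sum hle')
      _ ≤ ∑' n, B n := hBs.sum_le_tsum _ (fun n _ => hB0 n)
      _ = _ := hBt

/-! ## weights -/

/-- distance to the end points of `[a, a+ℓ]` -/
def mm (a ℓ y : ℝ) : ℝ := min |y - a| |y - (a + ℓ)|

lemma mm_nonneg (a ℓ y : ℝ) : 0 ≤ mm a ℓ y := le_min (abs_nonneg _) (abs_nonneg _)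

lemma continuous_mm (a ℓ : ℝ) : Continuous (mm a ℓ) := by
  unfold mm; fun_prop

lemma dd_eq {a ℓ y p L : ℝ} (hp : 0 < p) (hL : L * p = ℓ) : dd L ((y - a) / p) = mm a ℓ y / p := by
  unfold dd mm
  have e1 : |(y - a) / p| = |y - a| / p := by rw [abs_div, abs_of_pos hp]
  have e2 : |(y - a) / p - L| = |y - (a + ℓ)| / p := by
    rw [← hL]
    have : (y - a) / p - L = (y - (a + L * p)) / p := by field_simp; ring
    rw [this, abs_div, abs_of_pos hp]
  rw [e1, e2]
  exact (min_div_div_right hp.le _ _)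

lemma dist_le_mm {a ℓ x y : ℝ} (hx : x ∈ Icc a (a + ℓ)) : |y - x| ≤ mm a ℓ y + ℓ := by
  unfold mm
  rcases min_choice |y - a| |y - (a + ℓ)| with h | h <;> rw [h]
  · have : y - x = (y - a) + (a - x) := by ring
    rw [this]
    refine (abs_add_le _ _).trans ?_
    have : |a - x| ≤ ℓ := by rw [abs_le]; constructor <;> linarith [hx.1, hx.2]
    linarith
  · have : y - x = (y - (a + ℓ)) + (a + ℓ - x) := by ring
    rw [this]
    refine (abs_add_le _ _).trans ?_
    have : |a + ℓ - x| ≤ ℓ := by rw [abs_le]; constructor <;> linarith [hx.1, hx.2]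
    linarith

lemma weight_split {m ℓ τ p L t : ℝ} (hm : 0 ≤ m) (hℓ : 0 < ℓ) (hp : 0 < p) (hL : L * p = ℓ)
    (hτ : 0 < τ) (hτ1 : τ ≤ 1) (ht : t ≤ m + ℓ) (ht0 : 0 ≤ t) (hL0 : 0 < L) (hmt : τ * ℓ < m) :
    1 / (1 + m / p) ^ 2 ≤ 16 / (τ * L) ^ 2 * (1 / (1 + t / ℓ) ^ 2) := by
  rw [div_mul_div_comm, mul_one, div_le_div_iff₀ (by positivity) (by positivity), one_mul]
  have h1 : τ * L * (1 + t / ℓ) ≤ 4 * (1 + m / p) := by
    have e : m / p = m / ℓ * L := by rw [← hL]; field_simp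
    rw [e]
    have h2 : t / ℓ ≤ m / ℓ + 1 := by rw [div_le_iff₀ hℓ]; field_simp; linarith
    have h3 : τ ≤ m / ℓ := by rw [le_div_iff₀ hℓ]; linarith
    set q := m / ℓ with hq
    have hq0 : 0 ≤ q := by positivity
    have h4 : τ * L * (1 + t / ℓ) ≤ τ * L * (2 + q) := by
      apply mul_le_mul_of_nonneg_left _ (by positivity); linarith
    have h5 : τ * L * (2 + q) ≤ 4 * (1 + q * L) := by nlinarith [mul_nonneg hq0 hL0.le, mul_le_mul_of_nonneg_right h3 hL0.le]
    linarith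
  have h0 : 0 ≤ τ * L * (1 + t / ℓ) := by positivity
  have := pow_le_pow_left₀ h0 h1 2
  nlinarith

lemma weight_shell {t ℓ : ℝ} (hℓ : 0 < ℓ) (ht : 0 ≤ t) :
    ∃ j : ℕ, t ≤ 2 ^ j * ℓ ∧ 1 / (1 + t / ℓ) ^ 2 ≤ 4 * (1 / 4) ^ j := by
  have hex : ∃ j : ℕ, t ≤ 2 ^ j * ℓ := by
    obtain ⟨j, hj⟩ := pow_unbounded_of_one_lt (t / ℓ) (by norm_num : (1:ℝ) < 2)
    exact ⟨j, by rw [← div_le_iff₀ hℓ]; exact hj.le⟩
  classical
  refine ⟨Nat.find hex, Nat.find_spec hex, ?_⟩
  rcases Nat.eq_zero_or_pos (Nat.find hex) with h0 | h0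
  · rw [h0]
    have : 1 ≤ (1 + t / ℓ) ^ 2 := one_le_pow₀ (by have : 0 ≤ t / ℓ := by positivity
                                                  linarith)
    rw [pow_zero, mul_one, div_le_iff₀ (by positivity)]
    linarith
  · obtain ⟨k, hk⟩ : ∃ k, Nat.find hex = k + 1 := ⟨Nat.find hex - 1, by omega⟩
    rw [hk]
    have h1 : ¬ t ≤ 2 ^ k * ℓ := Nat.find_min hex (by omega)
    push Not at h1
    have h2 : (2:ℝ) ^ k ≤ 1 + t / ℓ := by
      have : (2:ℝ) ^ k < t / ℓ := by rw [lt_div_iff₀ hℓ]; exact h1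
      linarith
    have h3 : ((2:ℝ) ^ k) ^ 2 ≤ (1 + t / ℓ) ^ 2 := pow_le_pow_left₀ (by positivity) h2 2
    rw [div_le_iff₀ (by positivity)]
    have h4 : (4:ℝ) * (1 / 4) ^ (k + 1) * ((2:ℝ) ^ k) ^ 2 = 1 := by
      have h5 : ((2:ℝ) ^ k) ^ 2 = 4 ^ k := by rw [← pow_mul, mul_comm k 2, pow_mul]; norm_num
      have h6 : (1 / 4 : ℝ) ^ k * 4 ^ k = 1 := by rw [← mul_pow]; norm_num
      rw [h5, pow_succ]
      linear_combination h6
    calc (1:ℝ) = (4:ℝ) * (1 / 4) ^ (k + 1) * ((2:ℝ) ^ k) ^ 2 := h4.symm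
      _ ≤ _ := by gcongr

/-- the tail weight against a function with bounded averages. -/
lemma lintegral_weight_le {F : ℝ → ℝ≥0∞} (hF : AEMeasurable F) {x ℓ C0 : ℝ} (hℓ : 0 < ℓ) (hC0 : 0 ≤ C0)
    (hM : ∀ r, ℓ ≤ r → ∫⁻ y in Icc (x - r) (x + r), F y ≤ ENNReal.ofReal (C0 * (2 * r))) :
    ∫⁻ y, F y * ENNReal.ofReal (1 / (1 + |y - x| / ℓ) ^ 2) ≤ ENNReal.ofReal (16 * C0 * ℓ) := by
  have hpt : ∀ y, F y * ENNReal.ofReal (1 / (1 + |y - x| / ℓ) ^ 2) ≤
      ∑' j : ℕ, ENNReal.ofReal (4 * (1 / 4) ^ j) * (Icc (x - 2 ^ j * ℓ) (x + 2 ^ j * ℓ)).indicator F y := by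
    intro y
    obtain ⟨j, hj1, hj2⟩ := weight_shell hℓ (abs_nonneg (y - x))
    refine le_trans ?_ (ENNReal.le_tsum j)
    rw [indicator_of_mem, mul_comm]
    · gcongr
    · rw [abs_le] at hj1
      constructor <;> linarith [hj1.1, hj1.2]
  calc ∫⁻ y, F y * ENNReal.ofReal (1 / (1 + |y - x| / ℓ) ^ 2) 
      ≤ ∫⁻ y, ∑' j : ℕ, ENNReal.ofReal (4 * (1 / 4) ^ j) *
          (Icc (x - 2 ^ j * ℓ) (x + 2 ^ j * ℓ)).indicator F y := lintegral_mono hpt
    _ = ∑' j : ℕ, ENNReal.ofReal (4 * (1 / 4) ^ j) *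
          ∫⁻ y in Icc (x - 2 ^ j * ℓ) (x + 2 ^ j * ℓ), F y := by
        rw [lintegral_tsum fun j => (hF.indicator measurableSet_Icc).const_mul _]
        refine tsum_congr fun j => ?_
        rw [lintegral_const_mul'' _ (hF.indicator measurableSet_Icc), lintegral_indicator measurableSet_Icc]
    _ ≤ ∑' j : ℕ, ENNReal.ofReal (8 * C0 * ℓ * (1 / 2) ^ j) := by
        refine ENNReal.tsum_le_tsum fun j => ?_
        refine (mul_le_mul_right (hM (2 ^ j * ℓ) (le_mul_of_one_le_left hℓ.le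
          (one_le_pow₀ (by norm_num)))) _).trans ?_
        rw [← ENNReal.ofReal_mul (by positivity)]
        apply ENNReal.ofReal_le_ofReal
        apply le_of_eq
        have : (1 / 4 : ℝ) ^ j * 2 ^ j = (1 / 2) ^ j := by rw [← mul_pow]; norm_num
        linear_combination (8 * C0 * ℓ) * this
    _ = ENNReal.ofReal (16 * C0 * ℓ) := by
        have hs : Summable (fun j : ℕ => 8 * C0 * ℓ * (1 / 2 : ℝ) ^ j) :=
          (summable_geometric_of_lt_one (by norm_num) (by norm_num)).mul_left _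
        rw [← ENNReal.ofReal_tsum_of_nonneg (fun j => by positivity) hs, tsum_mul_left,
          tsum_geometric_of_lt_one (by norm_num) (by norm_num)]
        congr 1; norm_num; ring

/-! ## the main lemma -/

/-- **M3**: if the sharp coefficient of `f` on a good interval `[a, a+ℓ)` is `≥ δ`, then one of the
`L` band-limited packets of width `ℓ/L` inside sees `≥ δ/2`. -/
theorem heavy_of_good {Φ : ℝ → ℂ} {A : ℝ} (h : Packet Φ A) (hre : ∀ u, conj (Φ u) = Φ u)
    (hp : ∀ u, ∑' n : ℤ, Φ (u + n) = 1) {f : ℝ → ℂ} (hf : Integrable f)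
    {a ℓ x τ δ C0 κ : ℝ} (hℓ : 0 < ℓ) (hx : x ∈ Icc a (a + ℓ)) (hτ : 0 < τ) (hτ1 : τ ≤ 1)
    (hC0 : 0 ≤ C0) (hκ : 0 ≤ κ)
    (hM : ∀ r, ℓ ≤ r → ∫⁻ y in Icc (x - r) (x + r), ‖f y‖ₑ ≤ ENNReal.ofReal (C0 * (2 * r)))
    (hG : ∫⁻ y in {y | mm a ℓ y ≤ τ * ℓ}, ‖f y‖ₑ ≤ ENNReal.ofReal (κ * ℓ))
    {L : ℕ} (hL : 0 < L) (hδ : 2 * ZZ * A * (κ + 256 * C0 / (τ * L) ^ 2) ≤ δ / 2) {θ : ℝ}
    (hheavy : δ * ℓ ≤ ‖∫ y in Ico a (a + ℓ), f y * e (-(θ * y))‖) :
    ∃ i < L, (δ / 2) * (ℓ / L) ≤ ‖∫ y, conj (pk Φ (a + i * (ℓ / L)) (ℓ / L) θ y) * f y‖ := by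
  have hA : 0 ≤ A := h.A_nonneg
  have hL' : (0:ℝ) < L := by exact_mod_cast hL
  set p : ℝ := ℓ / L with hpdef
  have hp0 : 0 < p := by positivity
  have hLp : (L:ℝ) * p = ℓ := by rw [hpdef]; field_simp
  set g : ℝ → ℂ := fun y => f y * e (-(θ * y)) with hg
  have hgi : Integrable g := hf.mul_bdd (c := 1) ((continuous_e.comp (by fun_prop)).aestronglyMeasurable)
    (ae_of_all _ fun y => (norm_e _).le)
  have hgn : ∀ y, ‖g y‖ = ‖f y‖ := fun y => by rw [hg]; simp [norm_e]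
  have hpkint : ∀ i : ℕ, Integrable (fun y => conj (pk Φ (a + i * p) p θ y) * f y) := by
    intro i
    refine hf.bdd_mul (c := A) ((Complex.continuous_conj.comp (continuous_pk h _ _ _)).aestronglyMeasurable)
      (ae_of_all _ fun y => ?_)
    rw [RCLike.norm_conj, norm_pk]
    refine (h.decay _).trans (div_le_self hA (one_le_pow₀ ?_))
    have := abs_nonneg ((y - (a + ↑i * p)) / p)
    linarith
  have hpkeq : ∀ (i : ℕ) (y : ℝ), conj (pk Φ (a + i * p) p θ y) * f y = Φ ((y - a) / p - i) * g y := by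
    intro i y
    unfold pk
    rw [map_mul, hre, ← e_neg]
    simp only [hg]
    have : (y - (a + ↑i * p)) / p = (y - a) / p - i := by field_simp; ring
    rw [this]; ring
  have hsum : ∑ i ∈ Finset.range L, ∫ y, conj (pk Φ (a + i * p) p θ y) * f y =
      ∫ y, WW Φ L ((y - a) / p) * g y := by
    rw [← integral_finsetSum _ fun i _ => hpkint i]
    congr 1; ext y
    unfold WW
    rw [Finset.sum_mul]
    exact Finset.sum_congr rfl fun i _ => hpkeq i y
  have hWint : Integrable (fun y => WW Φ L ((y - a) / p) * g y) := by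
    have : Integrable (fun y => ∑ i ∈ Finset.range L, conj (pk Φ (a + i * p) p θ y) * f y) :=
      integrable_finsetSum _ fun i _ => hpkint i
    refine this.congr (ae_of_all _ fun y => ?_)
    simp only
    unfold WW
    rw [Finset.sum_mul]
    exact Finset.sum_congr rfl fun i _ => hpkeq i y
  have hind : ∀ y, (Ico a (a + ℓ)).indicator g y = (Ico (0:ℝ) L).indicator (fun _ => (1:ℂ)) ((y - a) / p) * g y := by
    intro y
    have hiff : y ∈ Ico a (a + ℓ) ↔ (y - a) / p ∈ Ico (0:ℝ) L := by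
      rw [mem_Ico, mem_Ico, le_div_iff₀ hp0, div_lt_iff₀ hp0, hLp]
      constructor
      · rintro ⟨h1, h2⟩; constructor <;> linarith
      · rintro ⟨h1, h2⟩; constructor <;> linarith
    by_cases hy : y ∈ Ico a (a + ℓ)
    · rw [indicator_of_mem hy, indicator_of_mem (hiff.1 hy), one_mul]
    · rw [indicator_of_notMem hy, indicator_of_notMem (fun hh => hy (hiff.2 hh)), zero_mul]
  have hdiff : ‖(∫ y, WW Φ L ((y - a) / p) * g y) - ∫ y in Ico a (a + ℓ), g y‖ ≤ (δ / 2) * ℓ := by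
    rw [← integral_indicator measurableSet_Ico, ← integral_sub hWint (hgi.indicator measurableSet_Ico)]
    have hδ0 : 0 ≤ δ / 2 := le_trans (by have := ZZ_nonneg; positivity) hδ
    rw [← ENNReal.ofReal_le_ofReal_iff (by positivity), ofReal_norm]
    refine (enorm_integral_le_lintegral_enorm _).trans ?_
    have hpt : ∀ y, ‖WW Φ L ((y - a) / p) * g y - (Ico a (a + ℓ)).indicator g y‖ₑ ≤
        ENNReal.ofReal (2 * ZZ * A) * ({y | mm a ℓ y ≤ τ * ℓ}.indicator (fun y => ‖f y‖ₑ) y +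
          ENNReal.ofReal (16 / (τ * L) ^ 2) * (‖f y‖ₑ * ENNReal.ofReal (1 / (1 + |y - x| / ℓ) ^ 2))) := by
      intro y
      rw [hind y, ← sub_mul, enorm_mul]
      have e1 : ‖g y‖ₑ = ‖f y‖ₑ := by rw [← ofReal_norm, ← ofReal_norm, hgn]
      rw [e1]
      have h1 := WW_sub h hp L ((y - a) / p)
      rw [dd_eq hp0 hLp] at h1
      have h2 : 2 * ZZ * A / (1 + mm a ℓ y / p) ^ 2 = 2 * ZZ * A * (1 / (1 + mm a ℓ y / p) ^ 2) := by ring
      rw [h2] at h1
      have h3 : ‖WW Φ L ((y - a) / p) - (Ico (0:ℝ) L).indicator (fun _ => (1:ℂ)) ((y - a) / p)‖ₑ ≤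
          ENNReal.ofReal (2 * ZZ * A) * ENNReal.ofReal (1 / (1 + mm a ℓ y / p) ^ 2) := by
        rw [← ENNReal.ofReal_mul (by have := ZZ_nonneg; positivity), ← ofReal_norm]
        exact ENNReal.ofReal_le_ofReal h1
      refine (mul_le_mul_left h3 _).trans ?_
      rw [mul_assoc]
      refine mul_le_mul_right ?_ _
      by_cases hy : mm a ℓ y ≤ τ * ℓ
      · rw [indicator_of_mem (by exact hy)]
        refine le_trans ?_ le_self_add
        refine mul_le_of_le_one_left (zero_le) ?_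
        rw [← ENNReal.ofReal_one]
        apply ENNReal.ofReal_le_ofReal
        rw [div_le_one (by have := mm_nonneg a ℓ y; positivity)]
        apply one_le_pow₀
        have := mm_nonneg a ℓ y
        have : 0 ≤ mm a ℓ y / p := by positivity
        linarith
      · rw [indicator_of_notMem (by exact hy), zero_add]
        have h4 := weight_split (mm_nonneg a ℓ y) hℓ hp0 hLp hτ hτ1 (dist_le_mm (y := y) hx) (abs_nonneg _) hL' (not_le.1 hy)
        calc ENNReal.ofReal (1 / (1 + mm a ℓ y / p) ^ 2) * ‖f y‖ₑ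
            ≤ ENNReal.ofReal (16 / (τ * L) ^ 2 * (1 / (1 + |y - x| / ℓ) ^ 2)) * ‖f y‖ₑ := by gcongr
          _ = _ := by
              rw [ENNReal.ofReal_mul (by positivity)]
              ring
    refine (lintegral_mono hpt).trans ?_
    have hfm : AEMeasurable (fun y => ‖f y‖ₑ) := hf.aestronglyMeasurable.enorm
    have hms : MeasurableSet {y | mm a ℓ y ≤ τ * ℓ} := measurableSet_le (continuous_mm a ℓ).measurable measurable_const
    rw [lintegral_const_mul' _ _ ENNReal.ofReal_ne_top, lintegral_add_left' (hfm.indicator hms),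
      lintegral_indicator hms, lintegral_const_mul' _ _ ENNReal.ofReal_ne_top]
    have h5 := lintegral_weight_le hfm hℓ hC0 hM
    calc ENNReal.ofReal (2 * ZZ * A) * ((∫⁻ y in {y | mm a ℓ y ≤ τ * ℓ}, ‖f y‖ₑ) +
          ENNReal.ofReal (16 / (τ * L) ^ 2) * ∫⁻ y, ‖f y‖ₑ * ENNReal.ofReal (1 / (1 + |y - x| / ℓ) ^ 2))
        ≤ ENNReal.ofReal (2 * ZZ * A) * (ENNReal.ofReal (κ * ℓ) +
          ENNReal.ofReal (16 / (τ * L) ^ 2) * ENNReal.ofReal (16 * C0 * ℓ)) := by gcongr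
      _ = ENNReal.ofReal (2 * ZZ * A * (κ * ℓ + 16 / (τ * L) ^ 2 * (16 * C0 * ℓ))) := by
          rw [← ENNReal.ofReal_mul (by positivity), ← ENNReal.ofReal_add (by positivity) (by positivity),
            ← ENNReal.ofReal_mul (by have := ZZ_nonneg; positivity)]
      _ ≤ ENNReal.ofReal (δ / 2 * ℓ) := by
          apply ENNReal.ofReal_le_ofReal
          have : 2 * ZZ * A * (κ * ℓ + 16 / (τ * L) ^ 2 * (16 * C0 * ℓ)) =
            2 * ZZ * A * (κ + 256 * C0 / (τ * L) ^ 2) * ℓ := by ring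
          rw [this]
          exact mul_le_mul_of_nonneg_right hδ hℓ.le
  by_contra hcon
  push Not at hcon
  have h6 : ‖∫ y, WW Φ L ((y - a) / p) * g y‖ < (δ / 2) * ℓ := by
    rw [← hsum]
    calc ‖∑ i ∈ Finset.range L, ∫ y, conj (pk Φ (a + i * p) p θ y) * f y‖ 
        ≤ ∑ i ∈ Finset.range L, ‖∫ y, conj (pk Φ (a + i * p) p θ y) * f y‖ := norm_sum_le _ _
      _ < ∑ i ∈ Finset.range L, (δ / 2) * p := by
          refine Finset.sum_lt_sum_of_nonempty (by simpa using hL.ne') fun i hi => ?_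
          exact hcon i (Finset.mem_range.1 hi)
      _ = (δ / 2) * ℓ := by
          rw [Finset.sum_const, Finset.card_range, nsmul_eq_mul, ← hLp]; ring
  have h7 : ‖∫ y in Ico a (a + ℓ), g y‖ ≤ ‖(∫ y, WW Φ L ((y - a) / p) * g y) - ∫ y in Ico a (a + ℓ), g y‖ +
      ‖∫ y, WW Φ L ((y - a) / p) * g y‖ := by
    rw [← norm_neg ((∫ y, WW Φ L ((y - a) / p) * g y) - ∫ y in Ico a (a + ℓ), g y)]
    refine le_trans (le_of_eq ?_) (norm_add_le _ _)
    congr 1; ring
  linarith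

end Crest.Agent.R100.Bad916
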