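import Crest.Agent.R100.HaarB_403

/-!
The dyadic (cancellative) model operator.
`cell k x = ⌊2^k x⌋`, `Av k g x` = average of `g` over the dyadic interval of length `2^{-k}`
containing `x`, `D k g x = Av (k+1) g x - Av k g x`, `H m g x = ∑_{k<m} sg (2^{k+1} x) D k g x`.
-/
set_option autoImplicit false
open MeasureTheory Set Filter Topology intervalIntegral

namespace Crest.Agent.R100.Haar403

/-- index of the dyadic cell of generation `k` containing `x`. -/
noncomputable def cell (k : ℕ) (x : ℝ) : ℤ := ⌊(2 : ℝ) ^ k * x⌋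

/-- average over the dyadic cell of generation `k` containing `x`. -/
noncomputable def Av (k : ℕ) (g : ℝ → ℂ) (x : ℝ) : ℂ :=
  (2 : ℂ) ^ k * ∫ y in (cell k x / 2 ^ k : ℝ)..((cell k x + 1) / 2 ^ k : ℝ), g y

/-- martingale difference. -/
noncomputable def D (k : ℕ) (g : ℝ → ℂ) (x : ℝ) : ℂ := Av (k + 1) g x - Av k g x

/-- the dyadic Haar shift with `m` scales. -/
noncomputable def H (m : ℕ) (g : ℝ → ℂ) (x : ℝ) : ℂ :=
  ∑ k ∈ Finset.range m, (sg (2 ^ (k + 1) * x) : ℂ) * D k g x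

/-- additive character of the line. -/
noncomputable def ee (θ y : ℝ) : ℂ := Complex.exp (2 * Real.pi * Complex.I * θ * y)

lemma two_pow_pos' (k : ℕ) : (0 : ℝ) < 2 ^ k := by positivity

lemma cell_mem (k : ℕ) (x : ℝ) : (cell k x / 2 ^ k : ℝ) ≤ x ∧ x < (cell k x + 1) / 2 ^ k := by
  have h := two_pow_pos' k
  constructor
  · rw [div_le_iff₀ h, mul_comm]; exact Int.floor_le _
  · rw [lt_div_iff₀ h, mul_comm]; exact Int.lt_floor_add_one _

lemma cell_eq_iff (k : ℕ) (x : ℝ) (j : ℤ) :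
    cell k x = j ↔ (j / 2 ^ k : ℝ) ≤ x ∧ x < (j + 1) / 2 ^ k := by
  have h := two_pow_pos' k
  unfold cell
  rw [Int.floor_eq_iff, div_le_iff₀ h, lt_div_iff₀ h, mul_comm x]

lemma cell_succ (k : ℕ) (x : ℝ) :
    cell (k + 1) x = 2 * cell k x + (if Int.fract ((2 : ℝ) ^ k * x) < 1 / 2 then 0 else 1) := by
  unfold cell
  set v : ℝ := 2 ^ k * x with hv
  have e : (2 : ℝ) ^ (k + 1) * x = 2 * v := by rw [hv, pow_succ]; ring
  rw [e]
  have h1 := Int.fract_add_floor v
  have h2 := Int.fract_nonneg v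
  have h3 := Int.fract_lt_one v
  split_ifs with h
  · rw [Int.floor_eq_iff]; push_cast
    constructor <;> linarith
  · rw [Int.floor_eq_iff]; push_cast
    push Not at h
    constructor <;> linarith

/-- left half and right half -/
lemma sg_eq_ite_cell (k : ℕ) (x : ℝ) :
    sg (2 ^ k * x) = if cell (k + 1) x = 2 * cell k x then 1 else -1 := by
  rw [cell_succ]
  unfold sg
  by_cases h : Int.fract ((2 : ℝ) ^ k * x) < 1 / 2 <;> simp

lemma ii_of_loc {g : ℝ → ℂ} (hg : LocallyIntegrable g volume) (a b : ℝ) :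
    IntervalIntegrable g volume a b :=
  (hg.integrableOn_isCompact isCompact_uIcc).intervalIntegrable

/-- midpoint of the cell -/
lemma Av_succ_left {g : ℝ → ℂ} {k : ℕ} {x : ℝ} (h : cell (k + 1) x = 2 * cell k x) :
    Av (k + 1) g x = 2 * ((2 : ℂ) ^ k *
      ∫ y in (cell k x / 2 ^ k : ℝ)..((cell k x + 1 / 2) / 2 ^ k : ℝ), g y) := by
  unfold Av
  rw [h]
  have h0 := two_pow_pos' k
  have e1 : (((2 * cell k x : ℤ) : ℝ) / 2 ^ (k + 1) : ℝ) = cell k x / 2 ^ k := by
    rw [pow_succ]; push_cast; field_simp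
  have e2 : ((((2 * cell k x : ℤ) : ℝ) + 1) / 2 ^ (k + 1) : ℝ) = (cell k x + 1 / 2) / 2 ^ k := by
    rw [pow_succ]; push_cast; field_simp
  rw [e1, e2, pow_succ]; ring

lemma Av_succ_right {g : ℝ → ℂ} {k : ℕ} {x : ℝ} (h : cell (k + 1) x = 2 * cell k x + 1) :
    Av (k + 1) g x = 2 * ((2 : ℂ) ^ k *
      ∫ y in ((cell k x + 1 / 2) / 2 ^ k : ℝ)..((cell k x + 1) / 2 ^ k : ℝ), g y) := by
  unfold Av
  rw [h]
  have h0 := two_pow_pos' k
  have e1 : (((2 * cell k x + 1 : ℤ) : ℝ) / 2 ^ (k + 1) : ℝ) = (cell k x + 1 / 2) / 2 ^ k := by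
    rw [pow_succ]; push_cast; field_simp
  have e2 : ((((2 * cell k x + 1 : ℤ) : ℝ) + 1) / 2 ^ (k + 1) : ℝ) = (cell k x + 1) / 2 ^ k := by
    rw [pow_succ]; push_cast; field_simp; ring
  rw [e1, e2, pow_succ]; ring

lemma Av_split {g : ℝ → ℂ} (hg : LocallyIntegrable g volume) (k : ℕ) (x : ℝ) :
    Av k g x = (2 : ℂ) ^ k * (∫ y in (cell k x / 2 ^ k : ℝ)..((cell k x + 1 / 2) / 2 ^ k : ℝ), g y) +
      (2 : ℂ) ^ k * ∫ y in ((cell k x + 1 / 2) / 2 ^ k : ℝ)..((cell k x + 1) / 2 ^ k : ℝ), g y := by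
  unfold Av
  rw [← mul_add, intervalIntegral.integral_add_adjacent_intervals (ii_of_loc hg _ _)
    (ii_of_loc hg _ _)]

/-- the martingale difference as an integral against the Haar function -/
lemma D_eq {g : ℝ → ℂ} (hg : LocallyIntegrable g volume) (k : ℕ) (x : ℝ) :
    D k g x = (sg (2 ^ k * x) : ℂ) * ((2 : ℂ) ^ k *
      ((∫ y in (cell k x / 2 ^ k : ℝ)..((cell k x + 1 / 2) / 2 ^ k : ℝ), g y) -
      ∫ y in ((cell k x + 1 / 2) / 2 ^ k : ℝ)..((cell k x + 1) / 2 ^ k : ℝ), g y)) := by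
  unfold D
  rw [Av_split hg k x]
  by_cases h : Int.fract ((2 : ℝ) ^ k * x) < 1 / 2
  · have hc : cell (k + 1) x = 2 * cell k x := by rw [cell_succ, if_pos h, add_zero]
    have hs : sg (2 ^ k * x) = 1 := by unfold sg; rw [if_pos h]
    rw [Av_succ_left hc, hs]
    push_cast; ring
  · have hc : cell (k + 1) x = 2 * cell k x + 1 := by rw [cell_succ, if_neg h]
    have hs : sg (2 ^ k * x) = -1 := by unfold sg; rw [if_neg h]
    rw [Av_succ_right hc, hs]
    push_cast; ring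

/-- one scale as an integral operator with kernel `2^k q (2^k x) (2^k y)`. -/
lemma scale_eq {g : ℝ → ℂ} (hg : LocallyIntegrable g volume) (k : ℕ) (x : ℝ) :
    (sg (2 ^ (k + 1) * x) : ℂ) * D k g x =
      (2 : ℂ) ^ k * ∫ y, (q (2 ^ k * x) (2 ^ k * y) : ℂ) * g y := by
  have h0 := two_pow_pos' k
  have hsupp : (fun y => (q (2 ^ k * x) (2 ^ k * y) : ℂ) * g y) =
      (Ico (cell k x / 2 ^ k : ℝ) ((cell k x + 1) / 2 ^ k)).indicator
        (fun y => ((sg (2 ^ k * x) * sg (2 * (2 ^ k * x)) * sg (2 ^ k * y) : ℝ) : ℂ) * g y) := by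
    ext y
    by_cases hy : y ∈ Ico (cell k x / 2 ^ k : ℝ) ((cell k x + 1) / 2 ^ k)
    · rw [indicator_of_mem hy]
      have : cell k y = cell k x := (cell_eq_iff k y _).mpr hy
      have this' : ⌊(2 : ℝ) ^ k * x⌋ = ⌊(2 : ℝ) ^ k * y⌋ := this.symm
      unfold q
      rw [if_pos this']
    · rw [indicator_of_notMem hy]
      have : cell k y ≠ cell k x := fun h => hy ((cell_eq_iff k y _).mp h)
      have this' : ¬ ⌊(2 : ℝ) ^ k * x⌋ = ⌊(2 : ℝ) ^ k * y⌋ := fun h => this h.symm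
      unfold q
      rw [if_neg this']
      simp
  rw [hsupp, MeasureTheory.integral_indicator measurableSet_Ico, integral_Ico_eq_integral_Ioc,
    ← intervalIntegral.integral_of_le (by gcongr; linarith)]
  have hmid1 : (cell k x / 2 ^ k : ℝ) ≤ (cell k x + 1 / 2) / 2 ^ k := by gcongr; linarith
  have hmid2 : ((cell k x + 1 / 2) / 2 ^ k : ℝ) ≤ (cell k x + 1) / 2 ^ k := by gcongr; linarith
  have hii : ∀ a b : ℝ, IntervalIntegrable
      (fun y => ((sg (2 ^ k * x) * sg (2 * (2 ^ k * x)) * sg (2 ^ k * y) : ℝ) : ℂ) * g y)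
      volume a b := by
    intro a b
    refine (ii_of_loc hg a b).mono_fun ?_ (ae_of_all _ fun y => ?_)
    · refine AEStronglyMeasurable.mul ?_ (intervalIntegrable_iff.mp (ii_of_loc hg a b)).aestronglyMeasurable
      refine Measurable.aestronglyMeasurable ?_
      exact Complex.measurable_ofReal.comp (measurable_const.mul
        (measurable_sg.comp (measurable_const_mul _)))
    · simp only [norm_mul, Complex.norm_real, Real.norm_eq_abs, abs_mul, abs_sg, one_mul]
      exact le_rfl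
  rw [← intervalIntegral.integral_add_adjacent_intervals (hii _ ((cell k x + 1 / 2) / 2 ^ k))
    (hii _ _),
    integral_congr_Ioo (g := fun y => ((sg (2 ^ k * x) * sg (2 * (2 ^ k * x)) : ℝ) : ℂ) * g y) hmid1,
    integral_congr_Ioo (g := fun y => -(((sg (2 ^ k * x) * sg (2 * (2 ^ k * x)) : ℝ) : ℂ)) * g y)
      hmid2]
  · rw [intervalIntegral.integral_const_mul, intervalIntegral.integral_const_mul, D_eq hg,
      pow_succ' (2 : ℝ), mul_assoc (2 : ℝ)]
    push_cast
    ring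
  · intro y hy
    have hs : sg (2 ^ k * y) = -1 := by
      have h1 : (cell k x : ℝ) + 1 / 2 < 2 ^ k * y := by
        have := hy.1; rw [div_lt_iff₀ h0] at this; linarith
      have h2 : 2 ^ k * y < (cell k x : ℝ) + 1 := by
        have := hy.2; rw [lt_div_iff₀ h0] at this; linarith
      have h3 := sg_add_int (2 ^ k * y - cell k x) (cell k x)
      rw [sub_add_cancel] at h3
      rw [h3]
      exact sg_of_mem_right (by linarith) (by linarith)
    rw [hs]; push_cast; ring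
  · intro y hy
    have hs : sg (2 ^ k * y) = 1 := by
      have h1 : (cell k x : ℝ) < 2 ^ k * y := by
        have := hy.1; rw [div_lt_iff₀ h0] at this; linarith
      have h2 : 2 ^ k * y < (cell k x : ℝ) + 1 / 2 := by
        have := hy.2; rw [lt_div_iff₀ h0] at this; linarith
      have h3 := sg_add_int (2 ^ k * y - cell k x) (cell k x)
      rw [sub_add_cancel] at h3
      rw [h3]
      exact sg_of_mem_left (by linarith) (by linarith)
    rw [hs]; push_cast; ring

/-- averages of norms dominate norms of averages -/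
lemma norm_Av_le {g : ℝ → ℂ} {B : ℝ} (hB : ∀ y, ‖g y‖ ≤ B) (k : ℕ) (x : ℝ) :
    ‖Av k g x‖ ≤ B := by
  unfold Av
  have h0 := two_pow_pos' k
  rw [norm_mul, norm_pow, Complex.norm_ofNat]
  have h1 := intervalIntegral.norm_integral_le_of_norm_le_const
    (a := (cell k x / 2 ^ k : ℝ)) (b := ((cell k x + 1) / 2 ^ k : ℝ)) (fun y _ => hB y)
  have h2 : |((cell k x + 1) / 2 ^ k : ℝ) - cell k x / 2 ^ k| = 1 / 2 ^ k := by
    rw [← sub_div, add_sub_cancel_left, abs_of_pos (by positivity)]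
  rw [h2] at h1
  calc 2 ^ k * ‖∫ y in (cell k x / 2 ^ k : ℝ)..((cell k x + 1) / 2 ^ k : ℝ), g y‖
      ≤ 2 ^ k * (B * (1 / 2 ^ k)) := by gcongr
    _ = B := by field_simp

lemma norm_ee (θ y : ℝ) : ‖ee θ y‖ = 1 := by
  unfold ee
  rw [show (2 * Real.pi * Complex.I * θ * y : ℂ) = ((2 * Real.pi * θ * y : ℝ) : ℂ) * Complex.I by
    push_cast; ring]
  exact Complex.norm_exp_ofReal_mul_I _

lemma ee_add (θ y z : ℝ) : ee θ (y + z) = ee θ y * ee θ z := by
  unfold ee
  rw [← Complex.exp_add]; congr 1; push_cast; ring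

lemma continuous_ee (θ : ℝ) : Continuous (ee θ) := by
  unfold ee; fun_prop

end Crest.Agent.R100.Haar403
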