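import Crest.Agent.R100.Bad1_916
import Crest.Agent.R100.HaarModel_403
import Mathlib

/-!
# R100 / S0132, leaf M4 (helper916): bad intervals are rare after averaging over the shift of the grid
-/

set_option autoImplicit false

open MeasureTheory Set
open scoped ENNReal

noncomputable section

namespace Crest.Agent.R100.Bad916

/-! ## masses and the hinge functional -/

/-- mass of `[e, e+p)` -/
def Ms (F : ℝ → ℝ≥0∞) (p e : ℝ) : ℝ≥0∞ := ∫⁻ y in Ico e (e + p), F y

lemma Ms_eq (F : ℝ → ℝ≥0∞) (p e : ℝ) : Ms F p e = ∫⁻ t in Ico 0 p, F (e + t) := by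
  unfold Ms
  rw [← lintegral_indicator measurableSet_Ico, ← lintegral_indicator measurableSet_Ico,
    ← lintegral_add_left_eq_self _ e]
  congr 1; ext t
  by_cases ht : t ∈ Ico 0 p
  · rw [indicator_of_mem ht, indicator_of_mem (by constructor <;> linarith [ht.1, ht.2])]
  · rw [indicator_of_notMem ht, indicator_of_notMem (fun h => ht ⟨by linarith [h.1], by linarith [h.2]⟩)]

lemma measurable_Ms {F : ℝ → ℝ≥0∞} (hF : Measurable F) (p : ℝ) : Measurable (Ms F p) := by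
  have : Ms F p = fun e => ∫⁻ t in Ico 0 p, F (e + t) := by ext e; exact Ms_eq F p e
  rw [this]
  exact Measurable.lintegral_prod_right' (f := fun z : ℝ × ℝ => F (z.1 + z.2))
    (hF.comp (measurable_fst.add measurable_snd))

lemma lintegral_Ms {F : ℝ → ℝ≥0∞} (hF : Measurable F) {p : ℝ} :
    ∫⁻ e, Ms F p e = ENNReal.ofReal p * ∫⁻ y, F y := by
  simp_rw [Ms_eq]
  have hh : ∀ t : ℝ, ∫⁻ e, F (e + t) = ∫⁻ y, F y := fun t => lintegral_add_right_eq_self F t
  rw [lintegral_lintegral_swap]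
  · rw [lintegral_congr hh, lintegral_const, Measure.restrict_apply MeasurableSet.univ, univ_inter, Real.volume_Ico, sub_zero,
      mul_comm]
  · exact (hF.comp (measurable_fst.add measurable_snd)).aemeasurable

lemma Ms_split {F : ℝ → ℝ≥0∞} {p : ℝ} (hp : 0 ≤ p) (L : ℕ) (e : ℝ) :
    Ms F (L * p) e = ∑ i ∈ Finset.range L, Ms F p (e + i * p) := by
  induction L with
  | zero => simp [Ms]
  | succ n ih =>
    rw [Finset.sum_range_succ, ← ih]
    unfold Ms
    rw [← lintegral_union measurableSet_Ico]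
    · congr 2
      rw [Ico_union_Ico_eq_Ico (by nlinarith [Nat.cast_nonneg (α := ℝ) n]) (by linarith)]
      push_cast; ring_nf
    · exact Ico_disjoint_Ico_same

/-- hinge functional -/
def Hg (F : ℝ → ℝ≥0∞) (s : ℝ≥0∞) (p : ℝ) : ℝ≥0∞ := ∫⁻ e, (Ms F p e - s * ENNReal.ofReal p)

lemma Hg_le {F : ℝ → ℝ≥0∞} (hF : Measurable F) (s : ℝ≥0∞) (p : ℝ) :
    Hg F s p ≤ ENNReal.ofReal p * ∫⁻ y, F y := by
  rw [← lintegral_Ms hF]
  exact lintegral_mono fun e => tsub_le_self

/-- points where a jump of density occurs -/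
def BdS (F : ℝ → ℝ≥0∞) (s lam : ℝ≥0∞) (p : ℝ) (L : ℕ) : Set ℝ :=
  {e | (lam + s) * ENNReal.ofReal p ≤ Ms F p e ∧
    ∀ i < L, Ms F (L * p) (e - i * p) ≤ s * ENNReal.ofReal (L * p)}

lemma measurableSet_BdS {F : ℝ → ℝ≥0∞} (hF : Measurable F) (s lam : ℝ≥0∞) (p : ℝ) (L : ℕ) :
    MeasurableSet (BdS F s lam p L) := by
  unfold BdS
  rw [ofPred_and]
  refine (measurableSet_le measurable_const (measurable_Ms hF p)).inter ?_
  have : {e : ℝ | ∀ i < L, Ms F (L * p) (e - i * p) ≤ s * ENNReal.ofReal (L * p)} =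
      ⋂ i : ℕ, ⋂ _ : i < L, {e | Ms F (L * p) (e - i * p) ≤ s * ENNReal.ofReal (L * p)} := by
    ext e; simp
  rw [this]
  refine MeasurableSet.iInter fun i => MeasurableSet.iInter fun _ => ?_
  exact measurableSet_le ((measurable_Ms hF _).comp (measurable_id.sub_const _)) measurable_const

lemma sum_tsub_le {ι : Type*} (S : Finset ι) (a b : ι → ℝ≥0∞) :
    ∑ i ∈ S, a i - ∑ i ∈ S, b i ≤ ∑ i ∈ S, (a i - b i) := by
  rw [tsub_le_iff_right, ← Finset.sum_add_distrib]
  exact Finset.sum_le_sum fun i _ => le_tsub_add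

theorem hinge_step {F : ℝ → ℝ≥0∞} (hF : Measurable F) {s : ℝ≥0∞} (hs : s ≠ ∞) (lam : ℝ≥0∞) {p : ℝ} (hp : 0 ≤ p)
    (L : ℕ) :
    Hg F s (L * p) + L * (lam * ENNReal.ofReal p * volume (BdS F s lam p L)) ≤ L * Hg F s p := by
  classical
  set B := BdS F s lam p L with hB
  have hBm : MeasurableSet B := measurableSet_BdS hF s lam p L
  have hofL : ENNReal.ofReal (L * p) = ∑ i ∈ Finset.range L, ENNReal.ofReal p := by
    rw [Finset.sum_const, Finset.card_range, nsmul_eq_mul, ENNReal.ofReal_mul (by positivity),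
      ENNReal.ofReal_natCast]
  have hpt : ∀ e, (Ms F (L * p) e - s * ENNReal.ofReal (L * p)) +
      ∑ i ∈ Finset.range L, B.indicator (fun _ => lam * ENNReal.ofReal p) (e + i * p) ≤
      ∑ i ∈ Finset.range L, (Ms F p (e + i * p) - s * ENNReal.ofReal p) := by
    intro e
    by_cases he : Ms F (L * p) e ≤ s * ENNReal.ofReal (L * p)
    · rw [tsub_eq_zero_of_le he, zero_add]
      refine Finset.sum_le_sum fun i _ => ?_
      by_cases hi : e + i * p ∈ B
      · rw [indicator_of_mem hi]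
        have h1 : (lam + s) * ENNReal.ofReal p ≤ Ms F p (e + i * p) := hi.1
        calc lam * ENNReal.ofReal p = (lam + s) * ENNReal.ofReal p - s * ENNReal.ofReal p := by
              rw [add_mul]
              exact (ENNReal.add_sub_cancel_right (ENNReal.mul_ne_top hs ENNReal.ofReal_ne_top)).symm
          _ ≤ _ := tsub_le_tsub_right h1 _
      · rw [indicator_of_notMem hi]; exact zero_le
    · have h0 : ∀ i ∈ Finset.range L, B.indicator (fun _ => lam * ENNReal.ofReal p) (e + i * p) = 0 := by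
        intro i hi
        rw [indicator_of_notMem]
        intro hmem
        apply he
        have := hmem.2 i (Finset.mem_range.1 hi)
        rwa [add_sub_cancel_right] at this
      rw [Finset.sum_eq_zero h0, add_zero, Ms_split hp, hofL, Finset.mul_sum]
      exact sum_tsub_le _ _ _
  have hmeas1 : Measurable (fun e => Ms F (L * p) e - s * ENNReal.ofReal (L * p)) :=
    (measurable_Ms hF _).sub_const _
  have hi1 : ∫⁻ e, ∑ i ∈ Finset.range L, B.indicator (fun _ => lam * ENNReal.ofReal p) (e + i * p) =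
      L * (lam * ENNReal.ofReal p * volume B) := by
    rw [lintegral_finsetSum]
    · have : ∀ i : ℕ, ∫⁻ e, B.indicator (fun _ => lam * ENNReal.ofReal p) (e + i * p) =
          lam * ENNReal.ofReal p * volume B := by
        intro i
        rw [lintegral_add_right_eq_self (fun e => B.indicator (fun _ => lam * ENNReal.ofReal p) e) (i * p),
          lintegral_indicator hBm, setLIntegral_const]
      simp_rw [this]
      rw [Finset.sum_const, Finset.card_range, nsmul_eq_mul]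
    · intro i _
      exact (measurable_const.indicator hBm).comp (measurable_id.add_const _)
  have hi2 : ∫⁻ e, ∑ i ∈ Finset.range L, (Ms F p (e + i * p) - s * ENNReal.ofReal p) = L * Hg F s p := by
    rw [lintegral_finsetSum]
    · have : ∀ i : ℕ, ∫⁻ e, (Ms F p (e + i * p) - s * ENNReal.ofReal p) = Hg F s p := by
        intro i
        exact lintegral_add_right_eq_self (fun e => Ms F p e - s * ENNReal.ofReal p) (i * p)
      simp_rw [this]
      rw [Finset.sum_const, Finset.card_range, nsmul_eq_mul]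
    · intro i _
      exact ((measurable_Ms hF _).comp (measurable_id.add_const _)).sub_const _
  rw [← hi2, ← hi1]
  unfold Hg
  rw [← lintegral_add_left hmeas1]
  exact lintegral_mono hpt

/-- normalised hinge functional -/
def Hn (F : ℝ → ℝ≥0∞) (s : ℝ≥0∞) (p : ℝ) : ℝ≥0∞ := Hg F s p / ENNReal.ofReal p

lemma Hn_le {F : ℝ → ℝ≥0∞} (hF : Measurable F) (s : ℝ≥0∞) {p : ℝ} :
    Hn F s p ≤ ∫⁻ y, F y := by
  unfold Hn
  refine ENNReal.div_le_of_le_mul' ?_
  exact Hg_le hF s p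

theorem Hn_step {F : ℝ → ℝ≥0∞} (hF : Measurable F) {s : ℝ≥0∞} (hs : s ≠ ∞) (lam : ℝ≥0∞) {p : ℝ} (hp : 0 < p)
    {L : ℕ} (hL : 0 < L) :
    Hn F s (L * p) + lam * volume (BdS F s lam p L) ≤ Hn F s p := by
  have h := hinge_step hF hs lam hp.le L
  have hp' : ENNReal.ofReal p ≠ 0 := by rw [Ne, ENNReal.ofReal_eq_zero]; linarith
  have hL' : (L : ℝ≥0∞) ≠ 0 := by exact_mod_cast hL.ne'
  have hLt : (L : ℝ≥0∞) ≠ ∞ := ENNReal.natCast_ne_top L
  unfold Hn
  have e1 : ENNReal.ofReal (L * p) = L * ENNReal.ofReal p := by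
    rw [ENNReal.ofReal_mul (by positivity), ENNReal.ofReal_natCast]
  have hden0 : (L : ℝ≥0∞) * ENNReal.ofReal p ≠ 0 := mul_ne_zero hL' hp'
  have hdent : (L : ℝ≥0∞) * ENNReal.ofReal p ≠ ∞ := ENNReal.mul_ne_top hLt ENNReal.ofReal_ne_top
  have e2 : Hg F s p / ENNReal.ofReal p = (L * Hg F s p) / (L * ENNReal.ofReal p) :=
    (ENNReal.mul_div_mul_left _ _ hL' hLt).symm
  rw [e1, e2]
  have e3 : lam * volume (BdS F s lam p L) =
      (L * (lam * ENNReal.ofReal p * volume (BdS F s lam p L))) / (L * ENNReal.ofReal p) := by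
    rw [ENNReal.eq_div_iff hden0 hdent]; ring
  rw [e3, ← ENNReal.add_div]
  gcongr

/-- **entropy lemma** (hinge form): the total measure of jumps over all scales. -/
theorem sum_BdS_le {F : ℝ → ℝ≥0∞} (hF : Measurable F) (hFi : ∫⁻ y, F y ≠ ∞) {s : ℝ≥0∞} (hs : s ≠ ∞)
    (lam : ℝ≥0∞) {ρ : ℝ} (hρ : 0 < ρ) (l m : ℕ) :
    ∑ k ∈ Finset.range m, lam * volume (BdS F s lam (ρ / 2 ^ (k + l)) (2 ^ l)) ≤ l * ∫⁻ y, F y := by
  have hstep : ∀ k, Hn F s (ρ / 2 ^ k) + lam * volume (BdS F s lam (ρ / 2 ^ (k + l)) (2 ^ l)) ≤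
      Hn F s (ρ / 2 ^ (k + l)) := by
    intro k
    have := Hn_step hF hs lam (p := ρ / 2 ^ (k + l)) (by positivity) (L := 2 ^ l) (by positivity)
    have e : (((2 ^ l : ℕ) : ℝ)) * (ρ / 2 ^ (k + l)) = ρ / 2 ^ k := by
      push_cast; rw [pow_add]; field_simp
    rw [e] at this
    exact this
  have h1 : ∑ k ∈ Finset.range m, Hn F s (ρ / 2 ^ k) +
      ∑ k ∈ Finset.range m, lam * volume (BdS F s lam (ρ / 2 ^ (k + l)) (2 ^ l)) ≤
      ∑ k ∈ Finset.range m, Hn F s (ρ / 2 ^ k) + l * ∫⁻ y, F y := by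
    rw [← Finset.sum_add_distrib]
    calc _ ≤ ∑ k ∈ Finset.range m, Hn F s (ρ / 2 ^ (k + l)) := Finset.sum_le_sum fun k _ => hstep k
      _ = ∑ k ∈ Finset.Ico l (m + l), Hn F s (ρ / 2 ^ k) := by
          rw [Finset.sum_Ico_eq_sum_range]
          simp only [Nat.add_sub_cancel]
          exact Finset.sum_congr rfl fun k _ => by rw [add_comm]
      _ ≤ ∑ k ∈ Finset.range (m + l), Hn F s (ρ / 2 ^ k) := by
          refine Finset.sum_le_sum_of_subset ?_
          intro k hk; rw [Finset.mem_Ico] at hk; exact Finset.mem_range.2 hk.2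
      _ = ∑ k ∈ Finset.range m, Hn F s (ρ / 2 ^ k) + ∑ k ∈ Finset.range l, Hn F s (ρ / 2 ^ (m + k)) :=
          Finset.sum_range_add _ _ _
      _ ≤ _ := by
          gcongr
          calc ∑ k ∈ Finset.range l, Hn F s (ρ / 2 ^ (m + k)) ≤ ∑ k ∈ Finset.range l, ∫⁻ y, F y :=
                Finset.sum_le_sum fun k _ => Hn_le hF s
            _ = _ := by rw [Finset.sum_const, Finset.card_range, nsmul_eq_mul]
  refine (ENNReal.add_le_add_iff_left ?_).1 h1
  refine (ENNReal.sum_lt_top.2 fun k _ => ?_).ne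
  exact lt_of_le_of_lt (Hn_le hF s) (lt_top_iff_ne_top.2 hFi)

/-! ## averaging over the shift of the grid -/

open Haar403 in
/-- left end point of the cell of generation `k` of the grid `ρ (σ + [j 2^{-k}, (j+1) 2^{-k}))` containing `x` -/
def lft (ρ σ : ℝ) (k : ℕ) (x : ℝ) : ℝ := ρ * (σ + cell k (x / ρ - σ) / 2 ^ k)

open Haar403 in
lemma measurable_cell (k : ℕ) : Measurable (fun x : ℝ => ((cell k x : ℤ) : ℝ)) := by
  unfold cell
  exact (measurable_from_top (f := fun n : ℤ => (n : ℝ))).comp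
    (Int.measurable_floor.comp (measurable_const.mul measurable_id))

open Haar403 in
lemma lft_mem {ρ : ℝ} (hρ : 0 < ρ) (σ : ℝ) (k : ℕ) (x : ℝ) : x ∈ Ico (lft ρ σ k x) (lft ρ σ k x + ρ / 2 ^ k) := by
  obtain ⟨h1, h2⟩ := cell_mem k (x / ρ - σ)
  unfold lft
  constructor
  · have : σ + cell k (x / ρ - σ) / 2 ^ k ≤ x / ρ := by linarith
    rw [le_div_iff₀ hρ] at this; linarith
  · have h3 : x / ρ < σ + (cell k (x / ρ - σ) + 1) / 2 ^ k := by linarith
    rw [div_lt_iff₀ hρ] at h3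
    have : ρ * (σ + cell k (x / ρ - σ) / 2 ^ k) + ρ / 2 ^ k = (σ + (cell k (x / ρ - σ) + 1) / 2 ^ k) * ρ := by
      ring
    rw [this]; exact h3

open Haar403 in
theorem avg_shift_one {φ : ℝ → ℝ≥0∞} (hφ : Measurable φ) (k : ℕ) :
    ∫⁻ σ in Ico (0:ℝ) 1, ∫⁻ x, φ (σ + cell k (x - σ) / 2 ^ k) = ∫⁻ t, φ t := by
  have h2 : (0 : ℝ) < 2 ^ k := by positivity
  have hcm := measurable_cell k
  -- remove the shift inside
  have e1 : ∀ σ : ℝ, ∫⁻ x, φ (σ + cell k (x - σ) / 2 ^ k) = ∫⁻ x, φ (σ + cell k x / 2 ^ k) := by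
    intro σ
    exact lintegral_sub_right_eq_self (fun x => φ (σ + cell k x / 2 ^ k)) σ
  rw [lintegral_congr e1, lintegral_lintegral_swap]
  swap
  · exact (hφ.comp (measurable_fst.add ((hcm.comp measurable_snd).div_const _))).aemeasurable
  -- inner integral
  have e2 : ∀ x : ℝ, ∫⁻ σ in Ico (0:ℝ) 1, φ (σ + cell k x / 2 ^ k) =
      ∫⁻ t, (Ico ((cell k x : ℝ) / 2 ^ k) (cell k x / 2 ^ k + 1)).indicator φ t := by
    intro x
    rw [← lintegral_indicator measurableSet_Ico, ← lintegral_add_right_eq_self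
      (fun t => (Ico ((cell k x : ℝ) / 2 ^ k) (cell k x / 2 ^ k + 1)).indicator φ t) ((cell k x : ℝ) / 2 ^ k)]
    congr 1; ext t
    by_cases ht : t ∈ Ico (0:ℝ) 1
    · rw [indicator_of_mem ht, indicator_of_mem (by constructor <;> linarith [ht.1, ht.2])]
    · rw [indicator_of_notMem ht, indicator_of_notMem (fun h => ht ⟨by linarith [h.1], by linarith [h.2]⟩)]
  rw [lintegral_congr e2]
  have e3 : ∀ x t : ℝ, (Ico ((cell k x : ℝ) / 2 ^ k) (cell k x / 2 ^ k + 1)).indicator φ t =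
      (Ico (((cell k t : ℝ) + 1 - 2 ^ k) / 2 ^ k) ((cell k t + 1) / 2 ^ k)).indicator (fun _ => φ t) x := by
    intro x t
    have hiff : t ∈ Ico ((cell k x : ℝ) / 2 ^ k) (cell k x / 2 ^ k + 1) ↔
        x ∈ Ico (((cell k t : ℝ) + 1 - 2 ^ k) / 2 ^ k) ((cell k t + 1) / 2 ^ k) := by
      have hx : ∀ n : ℤ, (n : ℝ) / 2 ^ k ≤ x ↔ n ≤ cell k x := by
        intro n
        unfold cell
        rw [Int.le_floor, div_le_iff₀ h2, mul_comm]
      have ht : ∀ n : ℤ, (n : ℝ) / 2 ^ k ≤ t ↔ n ≤ cell k t := by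
        intro n
        unfold cell
        rw [Int.le_floor, div_le_iff₀ h2, mul_comm]
      have a1 := ht (cell k x)
      have a2 := ht (cell k x + 2 ^ k)
      have a3 := hx (cell k t + 1 - 2 ^ k)
      have a4 := hx (cell k t + 1)
      push_cast at a1 a2 a3 a4
      have b2 : (cell k x : ℝ) / 2 ^ k + 1 = (cell k x + 2 ^ k) / 2 ^ k := by field_simp
      rw [mem_Ico, mem_Ico, b2, ← not_le (a := ((cell k x : ℝ) + 2 ^ k) / 2 ^ k), ← not_le (a := ((cell k t : ℝ) + 1) / 2 ^ k),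
        a1, a2, a3, a4]
      omega
    by_cases h : t ∈ Ico ((cell k x : ℝ) / 2 ^ k) (cell k x / 2 ^ k + 1)
    · rw [indicator_of_mem h, indicator_of_mem (hiff.1 h)]
    · rw [indicator_of_notMem h, indicator_of_notMem (fun hh => h (hiff.2 hh))]
  have hjm : Measurable (fun z : ℝ × ℝ => (Ico ((cell k z.1 : ℝ) / 2 ^ k) (cell k z.1 / 2 ^ k + 1)).indicator φ z.2) := by
    have hset : MeasurableSet {z : ℝ × ℝ | z.2 ∈ Ico ((cell k z.1 : ℝ) / 2 ^ k) (cell k z.1 / 2 ^ k + 1)} := by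
      have hc1 : Measurable (fun z : ℝ × ℝ => (cell k z.1 : ℝ) / 2 ^ k) := (hcm.comp measurable_fst).div_const _
      simp only [mem_Ico]
      exact (measurableSet_le hc1 measurable_snd).inter (measurableSet_lt measurable_snd (hc1.add_const 1))
    have : (fun z : ℝ × ℝ => (Ico ((cell k z.1 : ℝ) / 2 ^ k) (cell k z.1 / 2 ^ k + 1)).indicator φ z.2) =
        {z : ℝ × ℝ | z.2 ∈ Ico ((cell k z.1 : ℝ) / 2 ^ k) (cell k z.1 / 2 ^ k + 1)}.indicator (fun z => φ z.2) := by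
      ext z
      by_cases hz : z.2 ∈ Ico ((cell k z.1 : ℝ) / 2 ^ k) (cell k z.1 / 2 ^ k + 1)
      · rw [indicator_of_mem hz, indicator_of_mem (by exact hz)]
      · rw [indicator_of_notMem hz, indicator_of_notMem (by exact hz)]
    rw [this]
    exact (hφ.comp measurable_snd).indicator hset
  rw [lintegral_lintegral_swap hjm.aemeasurable]
  refine lintegral_congr fun t => ?_
  rw [lintegral_congr (fun x => e3 x t), lintegral_indicator measurableSet_Ico, setLIntegral_const,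
    Real.volume_Ico]
  have : ((cell k t : ℝ) + 1) / 2 ^ k - ((cell k t : ℝ) + 1 - 2 ^ k) / 2 ^ k = 1 := by field_simp; ring
  rw [this, ENNReal.ofReal_one, mul_one]

lemma lintegral_scale {g : ℝ → ℝ≥0∞} (hg : Measurable g) {ρ : ℝ} (hρ : 0 < ρ) :
    ENNReal.ofReal ρ * ∫⁻ x, g (ρ * x) = ∫⁻ x, g x := by
  conv_rhs => rw [← Real.smul_map_volume_mul_left hρ.ne']
  rw [lintegral_smul_measure, lintegral_map hg (measurable_const_mul ρ), abs_of_pos hρ, smul_eq_mul]

open Haar403 in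
theorem avg_shift {φ : ℝ → ℝ≥0∞} (hφ : Measurable φ) {ρ : ℝ} (hρ : 0 < ρ) (k : ℕ) :
    ∫⁻ σ in Ico (0:ℝ) 1, ∫⁻ x, φ (lft ρ σ k x) = ∫⁻ t, φ t := by
  have hcm := measurable_cell k
  have h1 : ∀ σ : ℝ, ∫⁻ x, φ (lft ρ σ k x) =
      ENNReal.ofReal ρ * ∫⁻ x, φ (ρ * (σ + cell k (x - σ) / 2 ^ k)) := by
    intro σ
    have hm : Measurable (fun x => φ (lft ρ σ k x)) := by
      unfold lft
      exact hφ.comp (((hcm.comp ((measurable_id.div_const ρ).sub_const σ)).div_const _).const_add σ |>.const_mul ρ)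
    rw [← lintegral_scale hm hρ]
    congr 1
    refine lintegral_congr fun x => ?_
    unfold lft
    rw [mul_div_cancel_left₀ _ hρ.ne']
  rw [lintegral_congr h1, lintegral_const_mul' _ _ ENNReal.ofReal_ne_top,
    avg_shift_one (φ := fun t => φ (ρ * t)) (hφ.comp (measurable_const_mul ρ)) k, lintegral_scale hφ hρ]

/-! ## bad cells -/

/-- the cell of generation `k` containing `x` (of the grid `(ρ, σ)`) is bad: too much mass of `F` within
`2^{-l}` of its length of the end points. -/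
def BadC (F : ℝ → ℝ≥0∞) (l : ℕ) (κ ρ σ : ℝ) (k : ℕ) (x : ℝ) : Prop :=
  ENNReal.ofReal (κ * (ρ / 2 ^ k)) <
    ∫⁻ y in {y | mm (lft ρ σ k x) (ρ / 2 ^ k) y ≤ 1 / 2 ^ l * (ρ / 2 ^ k)}, F y

lemma Icc_mass_le (F : ℝ → ℝ≥0∞) {c p : ℝ} (hp : 0 ≤ p) :
    ∫⁻ y in Icc (c - p) (c + p), F y ≤ Ms F p (c - p) + Ms F p c := by
  rw [setLIntegral_congr (Ico_ae_eq_Icc (μ := volume) (a := c - p) (b := c + p)).symm]
  unfold Ms
  have : Ico (c - p) (c + p) = Ico (c - p) (c - p + p) ∪ Ico c (c + p) := by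
    rw [sub_add_cancel, Ico_union_Ico_eq_Ico (by linarith) (by linarith)]
  rw [this]
  exact lintegral_union_le _ _ _

lemma bad_imp {F : ℝ → ℝ≥0∞} {l : ℕ} {κ ρ σ : ℝ} (hρ : 0 < ρ) (hκ : 32 ≤ κ * 2 ^ l) {k : ℕ} {x : ℝ}
    (hM : ∀ r, 0 < r → ∫⁻ y in Icc (x - r) (x + r), F y ≤ ENNReal.ofReal (2 * r))
    (hb : BadC F l κ ρ σ k x) :
    ∃ o ∈ ({-(ρ / 2 ^ (k + l)), 0, ρ / 2 ^ k - ρ / 2 ^ (k + l), ρ / 2 ^ k} : Finset ℝ),
      lft ρ σ k x + o ∈ BdS F 4 (ENNReal.ofReal (κ * 2 ^ l / 8)) (ρ / 2 ^ (k + l)) (2 ^ l) := by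
  set a := lft ρ σ k x with ha
  set ℓ : ℝ := ρ / 2 ^ k with hℓ
  set p : ℝ := ρ / 2 ^ (k + l) with hpdef
  have hp0 : 0 < p := by positivity
  have hℓ0 : 0 < ℓ := by positivity
  have h2l : (0:ℝ) < 2 ^ l := by positivity
  have hLp : (2:ℝ) ^ l * p = ℓ := by rw [hpdef, hℓ, pow_add]; field_simp
  have hpl : 1 / 2 ^ l * ℓ = p := by rw [← hLp]; field_simp
  have hxm : x ∈ Ico a (a + ℓ) := lft_mem hρ σ k x
  have hpℓ : p ≤ ℓ := by rw [← hLp]; exact le_mul_of_one_le_left hp0.le (one_le_pow₀ (by norm_num))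
  -- second condition holds for all offsets between -p and ℓ
  have hcond : ∀ o, -p ≤ o → o ≤ ℓ → ∀ i : ℕ, i < 2 ^ l →
      Ms F ((2 ^ l : ℕ) * p) (a + o - i * p) ≤ 4 * ENNReal.ofReal ((2 ^ l : ℕ) * p) := by
    intro o ho1 ho2 i hi
    push_cast
    rw [hLp]
    have hi' : (i:ℝ) + 1 ≤ 2 ^ l := by exact_mod_cast hi
    have hi0 : (0:ℝ) ≤ i := Nat.cast_nonneg i
    have h1 : (i:ℝ) * p + p ≤ ℓ := by rw [← hLp]; nlinarith
    have h0 : 0 ≤ (i:ℝ) * p := by positivity
    have hsub : Ico (a + o - i * p) (a + o - i * p + ℓ) ⊆ Icc (x - 2 * ℓ) (x + 2 * ℓ) := by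
      intro y hy
      constructor <;> linarith [hy.1, hy.2, hxm.1, hxm.2]
    calc Ms F ℓ (a + o - i * p) ≤ ∫⁻ y in Icc (x - 2 * ℓ) (x + 2 * ℓ), F y := lintegral_mono_set hsub
      _ ≤ ENNReal.ofReal (2 * (2 * ℓ)) := hM _ (by positivity)
      _ = 4 * ENNReal.ofReal ℓ := by
          rw [← mul_assoc, ENNReal.ofReal_mul (by norm_num)]
          congr 1
          norm_num
  -- first condition: pigeonhole
  unfold BadC at hb
  rw [← ha, ← hℓ, hpl] at hb
  have hcover : ∫⁻ y in {y | mm a ℓ y ≤ p}, F y ≤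
      (Ms F p (a - p) + Ms F p a) + (Ms F p (a + ℓ - p) + Ms F p (a + ℓ)) := by
    have hsub : {y | mm a ℓ y ≤ p} ⊆ Icc (a - p) (a + p) ∪ Icc (a + ℓ - p) (a + ℓ + p) := by
      intro y hy
      have hy' : min |y - a| |y - (a + ℓ)| ≤ p := hy
      rcases min_le_iff.1 hy' with h | h
      · left; rw [abs_le] at h; constructor <;> linarith [h.1, h.2]
      · right; rw [abs_le] at h; constructor <;> linarith [h.1, h.2]
    refine (lintegral_mono_set hsub).trans ((lintegral_union_le _ _ _).trans ?_)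
    exact add_le_add (Icc_mass_le F hp0.le) (Icc_mass_le F hp0.le)
  have hκ0 : 0 < κ * 2 ^ l := by linarith
  set T : ℝ≥0∞ := (ENNReal.ofReal (κ * 2 ^ l / 8) + 4) * ENNReal.ofReal p with hT
  have hT4 : T + T + (T + T) ≤ ENNReal.ofReal (κ * ℓ) := by
    have e1 : T = ENNReal.ofReal ((κ * 2 ^ l / 8 + 4) * p) := by
      rw [hT, ENNReal.ofReal_mul (by positivity), ENNReal.ofReal_add (by positivity) (by norm_num)]
      norm_num
    rw [e1, ← ENNReal.ofReal_add (by positivity) (by positivity),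
      ← ENNReal.ofReal_add (by positivity) (by positivity)]
    apply ENNReal.ofReal_le_ofReal
    rw [← hLp]
    nlinarith
  have hex : T ≤ Ms F p (a - p) ∨ T ≤ Ms F p a ∨ T ≤ Ms F p (a + ℓ - p) ∨ T ≤ Ms F p (a + ℓ) := by
    by_contra hcon
    push Not at hcon
    obtain ⟨h1, h2, h3, h4⟩ := hcon
    have := ENNReal.add_lt_add (ENNReal.add_lt_add h1 h2) (ENNReal.add_lt_add h3 h4)
    exact absurd (hb.trans_le hcover) (not_lt.2 (this.le.trans hT4))
  have hcast : ((2 ^ l : ℕ) : ℝ) = 2 ^ l := by push_cast; rfl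
  rcases hex with h | h | h | h
  · refine ⟨-p, by simp, ?_, ?_⟩
    · rw [show a + -p = a - p by ring]; exact h
    · exact hcond (-p) le_rfl (by linarith)
  · refine ⟨0, by simp, ?_, ?_⟩
    · rw [add_zero]; exact h
    · exact hcond 0 (by linarith) hℓ0.le
  · refine ⟨ℓ - p, by simp, ?_, ?_⟩
    · rw [show a + (ℓ - p) = a + ℓ - p by ring]; exact h
    · exact hcond (ℓ - p) (by linarith) (by linarith)
  · refine ⟨ℓ, by simp, ?_, ?_⟩
    · exact h
    · exact hcond ℓ (by linarith) le_rfl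

open Classical in
/-- **M4**: the expected (over the shift of the grid) number of bad cells above the points of `G`. -/
theorem bad_rare {F : ℝ → ℝ≥0∞} (hF : Measurable F) (hFi : ∫⁻ y, F y ≠ ∞) {G : Set ℝ} (hG : MeasurableSet G)
    (hM : ∀ x ∈ G, ∀ r, 0 < r → ∫⁻ y in Icc (x - r) (x + r), F y ≤ ENNReal.ofReal (2 * r))
    {l : ℕ} {κ ρ : ℝ} (hρ : 0 < ρ) (hκ : 32 ≤ κ * 2 ^ l) (m : ℕ) :
    ∫⁻ σ in Ico (0:ℝ) 1, ∫⁻ x in G, ∑ k ∈ Finset.range m, (if BadC F l κ ρ σ k x then (1:ℝ≥0∞) else 0) ≤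
      ENNReal.ofReal (32 * l / (κ * 2 ^ l)) * ∫⁻ y, F y := by
  set lam : ℝ≥0∞ := ENNReal.ofReal (κ * 2 ^ l / 8) with hlam
  have hκ0 : 0 < κ * 2 ^ l := by linarith
  have hlam0 : lam ≠ 0 := by
    rw [hlam, Ne, ENNReal.ofReal_eq_zero]; push Not; positivity
  have hlamt : lam ≠ ∞ := ENNReal.ofReal_ne_top
  set B : ℕ → Set ℝ := fun k => BdS F 4 lam (ρ / 2 ^ (k + l)) (2 ^ l) with hB
  have hBm : ∀ k, MeasurableSet (B k) := fun k => measurableSet_BdS hF _ _ _ _
  set O : ℕ → Finset ℝ := fun k => {-(ρ / 2 ^ (k + l)), 0, ρ / 2 ^ k - ρ / 2 ^ (k + l), ρ / 2 ^ k} with hO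
  have hOc : ∀ k, (O k).card ≤ 4 := fun k => Finset.card_le_four
  have hpt : ∀ σ : ℝ, ∫⁻ x in G, ∑ k ∈ Finset.range m, (if BadC F l κ ρ σ k x then (1:ℝ≥0∞) else 0) ≤
      ∫⁻ x, ∑ k ∈ Finset.range m, ∑ o ∈ O k, (B k).indicator (fun _ => (1:ℝ≥0∞)) (lft ρ σ k x + o) := by
    intro σ
    refine (setLIntegral_mono' hG ?_).trans (setLIntegral_le_lintegral _ _)
    intro x hx
    refine Finset.sum_le_sum fun k _ => ?_
    split_ifs with hb
    · obtain ⟨o, ho, hmem⟩ := bad_imp hρ hκ (hM x hx) hb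
      calc (1:ℝ≥0∞) = (B k).indicator (fun _ => (1:ℝ≥0∞)) (lft ρ σ k x + o) := by
            rw [indicator_of_mem hmem]
        _ ≤ _ := Finset.single_le_sum (f := fun o => (B k).indicator (fun _ => (1:ℝ≥0∞)) (lft ρ σ k x + o))
            (fun _ _ => zero_le) ho
    · exact zero_le
  refine (lintegral_mono hpt).trans ?_
  have hlm : ∀ k, Measurable (fun z : ℝ × ℝ => lft ρ z.1 k z.2) := by
    intro k
    unfold lft
    exact (measurable_fst.add (((measurable_cell k).comp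
      ((measurable_snd.div_const ρ).sub measurable_fst)).div_const _)).const_mul ρ
  have hterm : ∀ k o, Measurable (fun z : ℝ × ℝ => (B k).indicator (fun _ => (1:ℝ≥0∞)) (lft ρ z.1 k z.2 + o)) := by
    intro k o
    exact (measurable_const.indicator (hBm k)).comp ((hlm k).add_const o)
  have hterm1 : ∀ k o (σ : ℝ), Measurable (fun x : ℝ => (B k).indicator (fun _ => (1:ℝ≥0∞)) (lft ρ σ k x + o)) := by
    intro k o σ
    exact (hterm k o).comp (measurable_const.prodMk measurable_id)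
  have hval : ∀ k o, ∫⁻ σ in Ico (0:ℝ) 1, ∫⁻ x, (B k).indicator (fun _ => (1:ℝ≥0∞)) (lft ρ σ k x + o) = volume (B k) := by
    intro k o
    rw [avg_shift (φ := fun t => (B k).indicator (fun _ => (1:ℝ≥0∞)) (t + o))
      ((measurable_const.indicator (hBm k)).comp (measurable_id.add_const o)) hρ k,
      lintegral_add_right_eq_self (fun t => (B k).indicator (fun _ => (1:ℝ≥0∞)) t) o,
      lintegral_indicator (hBm k), setLIntegral_const, one_mul]
  have hswap : ∫⁻ σ in Ico (0:ℝ) 1, ∫⁻ x, ∑ k ∈ Finset.range m, ∑ o ∈ O k,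
      (B k).indicator (fun _ => (1:ℝ≥0∞)) (lft ρ σ k x + o) = ∑ k ∈ Finset.range m, ∑ o ∈ O k, volume (B k) := by
    have e1 : ∀ σ : ℝ, ∫⁻ x, ∑ k ∈ Finset.range m, ∑ o ∈ O k,
        (B k).indicator (fun _ => (1:ℝ≥0∞)) (lft ρ σ k x + o) =
        ∑ k ∈ Finset.range m, ∑ o ∈ O k, ∫⁻ x, (B k).indicator (fun _ => (1:ℝ≥0∞)) (lft ρ σ k x + o) := by
      intro σ
      rw [lintegral_finsetSum _ fun k _ => Finset.measurable_fun_sum _ fun o _ => hterm1 k o σ]
      exact Finset.sum_congr rfl fun k _ => lintegral_finsetSum _ fun o _ => hterm1 k o σ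
    rw [lintegral_congr e1]
    have hm2 : ∀ k o, Measurable (fun σ : ℝ => ∫⁻ x, (B k).indicator (fun _ => (1:ℝ≥0∞)) (lft ρ σ k x + o)) :=
      fun k o => (hterm k o).lintegral_prod_right'
    rw [lintegral_finsetSum _ fun k _ => Finset.measurable_fun_sum _ fun o _ => hm2 k o]
    refine Finset.sum_congr rfl fun k _ => ?_
    rw [lintegral_finsetSum _ fun o _ => hm2 k o]
    exact Finset.sum_congr rfl fun o _ => hval k o
  rw [hswap]
  have hsum : lam * ∑ k ∈ Finset.range m, ∑ o ∈ O k, volume (B k) ≤ 4 * (l * ∫⁻ y, F y) := by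
    calc lam * ∑ k ∈ Finset.range m, ∑ o ∈ O k, volume (B k) ≤ lam * ∑ k ∈ Finset.range m, 4 * volume (B k) := by
          gcongr with k _
          rw [Finset.sum_const, nsmul_eq_mul]
          gcongr
          exact_mod_cast hOc k
      _ = 4 * ∑ k ∈ Finset.range m, lam * volume (B k) := by
          rw [Finset.mul_sum, Finset.mul_sum]
          exact Finset.sum_congr rfl fun k _ => by ring
      _ ≤ 4 * (l * ∫⁻ y, F y) := by
          gcongr
          exact sum_BdS_le hF hFi (by norm_num) lam hρ l m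
  calc ∑ k ∈ Finset.range m, ∑ o ∈ O k, volume (B k) = lam⁻¹ * (lam * ∑ k ∈ Finset.range m, ∑ o ∈ O k, volume (B k)) := by
        rw [← mul_assoc, ENNReal.inv_mul_cancel hlam0 hlamt, one_mul]
    _ ≤ lam⁻¹ * (4 * (l * ∫⁻ y, F y)) := by gcongr
    _ = ENNReal.ofReal (32 * l / (κ * 2 ^ l)) * ∫⁻ y, F y := by
        rw [← mul_assoc, ← mul_assoc]
        congr 1
        rw [hlam, ← ENNReal.ofReal_inv_of_pos (by positivity)]
        have e4 : (4 : ℝ≥0∞) = ENNReal.ofReal 4 := by norm_num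
        rw [e4, ← ENNReal.ofReal_mul (by positivity), ← ENNReal.ofReal_natCast, ← ENNReal.ofReal_mul (by positivity)]
        congr 1
        field_simp
        ring

end Crest.Agent.R100.Bad916
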