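import Mathlib.Analysis.Fourier.Inversion
import Mathlib.Analysis.SpecialFunctions.Integrals.Basic
import Mathlib.Analysis.SpecialFunctions.JapaneseBracket
import Mathlib.MeasureTheory.Measure.Haar.NormedSpace

/-!
Band-limited wave packets and the Bessel inequality for incomparable tiles (helper801, R100, block M2).
-/

set_option autoImplicit false

open MeasureTheory Set Complex Real FourierTransform
open scoped ComplexConjugate

noncomputable section

namespace Crest.Agent.R100.Bessel801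

/-- `e t = exp (2 π i t)`. -/
def e (t : ℝ) : ℂ := Complex.exp (2 * π * t * Complex.I)

lemma e_eq (t : ℝ) : e t = (𝐞 t : ℂ) := by
  rw [e, Real.fourierChar_apply]
  push_cast
  ring_nf

lemma norm_e (t : ℝ) : ‖e t‖ = 1 := by
  rw [e_eq]; exact Circle.norm_coe _

lemma e_add (s t : ℝ) : e (s + t) = e s * e t := by
  simp only [e, ← Complex.exp_add]
  congr 1; push_cast; ring

lemma e_zero : e 0 = 1 := by simp [e]

lemma e_neg (t : ℝ) : e (-t) = conj (e t) := by
  simp only [e, ← Complex.exp_conj]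
  congr 1
  simp only [map_mul, Complex.conj_I, Complex.conj_ofReal, map_ofNat]
  push_cast; ring

lemma continuous_e : Continuous e := by
  unfold e; fun_prop

/-- A band-limited shape: continuous, with decay `A (1+|u|)^{-4}`, and it is the inverse Fourier transform
of a continuous function supported in `[-1,1]`. -/
structure Packet (φ : ℝ → ℂ) (A : ℝ) : Prop where
  cont : Continuous φ
  decay : ∀ u, ‖φ u‖ ≤ A / (1 + |u|) ^ 4
  band : ∃ ψ : ℝ → ℂ, Continuous ψ ∧ (∀ ξ, 1 ≤ |ξ| → ψ ξ = 0) ∧ ∀ u, φ u = 𝓕⁻ ψ u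

/-- The packet of shape `φ` adapted to `[a, a+w)` with frequency `θ`. -/
def pk (φ : ℝ → ℂ) (a w θ : ℝ) (y : ℝ) : ℂ := φ ((y - a) / w) * e (θ * y)

section decay

lemma integrable_base : Integrable (fun u : ℝ => 1 / (1 + |u|) ^ 2) := by
  have h := integrable_one_add_norm (E := ℝ) (μ := volume) (r := 2) (by simp)
  refine h.congr (Filter.Eventually.of_forall fun u => ?_)
  simp only [Real.norm_eq_abs]
  rw [Real.rpow_neg (by positivity), one_div]
  norm_num

lemma integral_base_le : ∫ u : ℝ, 1 / (1 + |u|) ^ 2 = 2 := by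
  have h1 : ∫ u : ℝ, (fun t => 1 / (1 + t) ^ 2) |u| = 2 * ∫ u in Ioi (0:ℝ), 1 / (1 + u) ^ 2 :=
    integral_comp_abs (f := fun t => 1 / (1 + t) ^ 2)
  have h2 : ∫ u in Ioi (0:ℝ), 1 / (1 + u) ^ 2 = 1 := by
    have hd : ∀ x ∈ Ici (0:ℝ), HasDerivAt (fun u : ℝ => -(1 + u)⁻¹) (1 / (1 + x) ^ 2) x := by
      intro x hx
      have hx' : (1 + x) ≠ 0 := by have := mem_Ici.1 hx; positivity
      have h := (((hasDerivAt_id x).const_add 1).inv hx').neg
      exact h.congr_deriv (by simp [neg_div])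
    have ht : Filter.Tendsto (fun u : ℝ => -(1 + u)⁻¹) Filter.atTop (nhds 0) := by
      have : Filter.Tendsto (fun u : ℝ => (1 + u)⁻¹) Filter.atTop (nhds 0) :=
        tendsto_inv_atTop_zero.comp (Filter.tendsto_atTop_add_const_left _ 1 Filter.tendsto_id)
      simpa using this.neg
    have := integral_Ioi_of_hasDerivAt_of_nonneg' hd (fun x hx => by positivity) ht
    rw [this]; simp
  rw [h2] at h1
  simpa using h1

end decay

namespace Packet

variable {φ : ℝ → ℂ} {A : ℝ}

lemma A_nonneg (h : Packet φ A) : 0 ≤ A := by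
  have := h.decay 0
  simp at this
  exact (norm_nonneg _).trans this

lemma decay2 (h : Packet φ A) (u : ℝ) : ‖φ u‖ ≤ A * (1 / (1 + |u|) ^ 2) := by
  refine (h.decay u).trans ?_
  rw [mul_one_div]
  apply div_le_div_of_nonneg_left h.A_nonneg (by positivity)
  apply pow_le_pow_right₀ (by have := abs_nonneg u; linarith) (by norm_num)

lemma integrable (h : Packet φ A) : Integrable φ := by
  refine Integrable.mono' (integrable_base.const_mul A) h.cont.aestronglyMeasurable ?_
  exact Filter.Eventually.of_forall fun u => h.decay2 u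

end Packet

lemma continuous_pk {φ : ℝ → ℂ} {A : ℝ} (h : Packet φ A) (a w θ : ℝ) : Continuous (pk φ a w θ) := by
  unfold pk
  exact (h.cont.comp (by fun_prop)).mul (continuous_e.comp (by fun_prop))

lemma norm_pk (φ : ℝ → ℂ) (a w θ y : ℝ) : ‖pk φ a w θ y‖ = ‖φ ((y - a) / w)‖ := by
  simp [pk, norm_e]

lemma integrable_pk {φ : ℝ → ℂ} {A : ℝ} (h : Packet φ A) {a w θ : ℝ} (hw : 0 < w) :
    Integrable (pk φ a w θ) := by
  have h1 : Integrable (fun y => φ ((y - a) / w)) := by
    have := (h.integrable.comp_div hw.ne').comp_sub_right a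
    simpa using this
  refine Integrable.mono' h1.norm (continuous_pk h a w θ).aestronglyMeasurable ?_
  exact Filter.Eventually.of_forall fun y => (norm_pk φ a w θ y).le

/-- Fourier transform of a packet. -/
lemma fourier_pk {φ ψ : ℝ → ℂ} (hφ : ∀ ξ, 𝓕 φ ξ = ψ ξ) {a w θ : ℝ} (hw : 0 < w) (η : ℝ) :
    𝓕 (pk φ a w θ) η = w * e (-(η - θ) * a) * ψ ((η - θ) * w) := by
  rw [Real.fourier_real_eq]
  have h0 : ∀ y : ℝ, 𝐞 (-(y * η)) • pk φ a w θ y
      = (fun z => e (-(η - θ) * (w * z + a)) * φ z) ((y - a) / w) := by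
    intro y
    have hy : w * ((y - a) / w) + a = y := by field_simp; ring
    simp only [hy, pk]
    rw [Circle.smul_def, ← e_eq, smul_eq_mul]
    rw [show -(η - θ) * y = -(y * η) + θ * y by ring, e_add]
    ring
  simp_rw [h0]
  rw [integral_sub_right_eq_self (fun y => (fun z => e (-(η - θ) * (w * z + a)) * φ z) (y / w)) a,
    MeasureTheory.Measure.integral_comp_div (fun z => e (-(η - θ) * (w * z + a)) * φ z) w, abs_of_pos hw]
  rw [← hφ, Real.fourier_real_eq]
  have h1 : ∀ z : ℝ, e (-(η - θ) * (w * z + a)) * φ z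
      = e (-(η - θ) * a) * (𝐞 (-(z * ((η - θ) * w))) • φ z) := by
    intro z
    rw [Circle.smul_def, ← e_eq, smul_eq_mul, ← mul_assoc, ← e_add]
    ring_nf
  simp_rw [h1]
  rw [integral_const_mul, Complex.real_smul]
  ring

lemma Packet.exists_fourier {φ : ℝ → ℂ} {A : ℝ} (h : Packet φ A) :
    ∃ ψ : ℝ → ℂ, Continuous ψ ∧ (∀ ξ, 1 ≤ |ξ| → ψ ξ = 0) ∧ ∀ ξ, 𝓕 φ ξ = ψ ξ := by
  obtain ⟨ψ, hc, hs, hφ⟩ := h.band
  refine ⟨ψ, hc, hs, ?_⟩
  have hcs : HasCompactSupport ψ := by
    refine HasCompactSupport.of_support_subset_isCompact (isCompact_Icc (a := (-1:ℝ)) (b := 1)) ?_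
    intro ξ hξ
    by_contra hcon
    refine hξ (hs ξ ?_)
    by_contra h1
    exact hcon (abs_le.1 (not_le.1 h1).le)
  have hi : Integrable ψ := hc.integrable_of_hasCompactSupport hcs
  have hφ' : 𝓕⁻ ψ = φ := funext fun u => (hφ u).symm
  have h2 : Integrable (𝓕⁻ ψ) := by rw [hφ']; exact h.integrable
  have h3 : Integrable (𝓕 ψ) := by
    have : 𝓕 ψ = fun x => 𝓕⁻ ψ (-x) := by
      ext x
      rw [Real.fourierInv_eq_fourier_neg]; simp
    rw [this]; exact h2.comp_neg
  intro ξ
  have := congrFun (hc.fourier_fourierInv_eq hi h3) ξ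
  rwa [hφ'] at this

/-- Packets with separated frequencies are exactly orthogonal. -/
lemma orth {φ φ' : ℝ → ℂ} {A A' : ℝ} (h : Packet φ A) (h' : Packet φ' A') {a w θ a' w' θ' : ℝ}
    (hw : 0 < w) (hw' : 0 < w') (hsep : 1 / w + 1 / w' ≤ |θ - θ'|) :
    ∫ y, conj (pk φ a w θ y) * pk φ' a' w' θ' y = 0 := by
  obtain ⟨ψ, hc, hs, hφ⟩ := h.exists_fourier
  obtain ⟨ψ', hc', hs', hφ'⟩ := h'.exists_fourier
  set γ : ℝ → ℂ := fun η => w' * e (-(η - θ') * a') * ψ' ((η - θ') * w') with hγ
  have hF : ∀ η, 𝓕 (pk φ' a' w' θ') η = γ η := fun η => fourier_pk hφ' hw' η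
  have hγc : Continuous γ := by
    refine (continuous_const.mul (continuous_e.comp (by fun_prop))).mul (hc'.comp (by fun_prop))
  have hγs : HasCompactSupport γ := by
    refine HasCompactSupport.of_support_subset_isCompact
      (isCompact_Icc (a := θ' - 1 / w') (b := θ' + 1 / w')) ?_
    intro ξ hξ
    by_contra hcon
    refine hξ ?_
    simp only [hγ]
    rw [hs' ((ξ - θ') * w'), mul_zero]
    by_contra h1
    rw [not_le, abs_mul, abs_of_pos hw', ← lt_div_iff₀ hw', abs_lt] at h1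
    exact hcon ⟨by linarith [h1.1], by linarith [h1.2]⟩
  have hγi : Integrable γ := hγc.integrable_of_hasCompactSupport hγs
  have hinv : ∀ y, 𝓕⁻ γ y = pk φ' a' w' θ' y := by
    intro y
    have h1 : 𝓕 (pk φ' a' w' θ') = γ := funext hF
    have := congrFun ((continuous_pk h' a' w' θ').fourierInv_fourier_eq (integrable_pk h' hw')
      (by rw [h1]; exact hγi)) y
    rwa [h1] at this
  have key : ∫ ξ, inner ℂ (𝓕 (pk φ a w θ) ξ) (γ ξ) = ∫ x, inner ℂ (pk φ a w θ x) (𝓕⁻ γ x) := by
    simpa using! VectorFourier.integral_sesq_fourierIntegral_eq_neg_flip (innerSL ℂ)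
      (L := innerₗ ℝ) Real.continuous_fourierChar continuous_inner (integrable_pk h hw (a := a) (θ := θ)) hγi
  have hzero : ∀ ξ, inner ℂ (𝓕 (pk φ a w θ) ξ) (γ ξ) = 0 := by
    intro ξ
    rw [fourier_pk hφ hw ξ]
    by_cases h1 : 1 ≤ |(ξ - θ') * w'|
    · simp [hγ, hs' _ h1]
    · have h2 : 1 ≤ |(ξ - θ) * w| := by
        rw [not_le, abs_mul, abs_of_pos hw', ← lt_div_iff₀ hw'] at h1
        rw [abs_mul, abs_of_pos hw, ← div_le_iff₀ hw]
        have := abs_sub_le θ ξ θ'
        rw [abs_sub_comm θ ξ] at this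
        linarith
      simp [hs _ h2]
  have h0 : ∫ x, inner ℂ (pk φ a w θ x) (𝓕⁻ γ x) = 0 := by
    rw [← key]; simp_rw [hzero]; exact integral_zero _ _
  rw [← h0]
  refine integral_congr_ae (Filter.Eventually.of_forall fun y => ?_)
  simp only [hinv y, RCLike.inner_apply]
  ring

lemma integrable_kernel (a : ℝ) {w : ℝ} (hw : 0 < w) :
    Integrable (fun y : ℝ => 1 / (1 + |(y - a) / w|) ^ 2) := by
  have := (integrable_base.comp_div hw.ne').comp_sub_right a
  simpa using this

lemma integral_kernel (a : ℝ) {w : ℝ} (hw : 0 < w) :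
    ∫ y : ℝ, 1 / (1 + |(y - a) / w|) ^ 2 = 2 * w := by
  rw [integral_sub_right_eq_self (fun y => 1 / (1 + |y / w|) ^ 2) a,
    MeasureTheory.Measure.integral_comp_div (fun z => 1 / (1 + |z|) ^ 2) w, abs_of_pos hw,
    integral_base_le]
  simp [mul_comm]

lemma integrable_gram {φ φ' : ℝ → ℂ} {A A' : ℝ} (h : Packet φ A) (h' : Packet φ' A')
    {a w θ a' w' θ' : ℝ} (hw : 0 < w) :
    Integrable (fun y => conj (pk φ a w θ y) * pk φ' a' w' θ' y) := by
  refine Integrable.mul_bdd (c := A') ?_ (continuous_pk h' a' w' θ').aestronglyMeasurable ?_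
  · exact (Complex.conjCLE : ℂ ≃L[ℝ] ℂ).integrable_comp_iff.2 (integrable_pk h hw)
  · refine Filter.Eventually.of_forall fun y => ?_
    rw [norm_pk]
    refine (h'.decay _).trans (div_le_self h'.A_nonneg ?_)
    exact one_le_pow₀ (by have := abs_nonneg ((y - a') / w'); linarith)

/-- Off-diagonal Gram bound. -/
lemma gram_le {φ φ' : ℝ → ℂ} {A A' : ℝ} (h : Packet φ A) (h' : Packet φ' A')
    {a w θ a' w' θ' : ℝ} (hw : 0 < w) (hww : w ≤ w') :
    ‖∫ y, conj (pk φ a w θ y) * pk φ' a' w' θ' y‖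
      ≤ 2 * (A * A') * (w * (1 / (1 + |(a - a') / w'|) ^ 2)) := by
  have hw' : 0 < w' := hw.trans_le hww
  have hbd : ∀ y, ‖conj (pk φ a w θ y) * pk φ' a' w' θ' y‖
      ≤ (A * A' * (1 / (1 + |(a - a') / w'|) ^ 2)) * (1 / (1 + |(y - a) / w|) ^ 2) := by
    intro y
    rw [norm_mul, RCLike.norm_conj, norm_pk, norm_pk]
    set p := 1 + |(y - a) / w| with hp
    set q := 1 + |(y - a') / w'| with hq
    set r := 1 + |(a - a') / w'| with hr
    have hp1 : 1 ≤ p := by have := abs_nonneg ((y - a) / w); linarith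
    have hq1 : 1 ≤ q := by have := abs_nonneg ((y - a') / w'); linarith
    have hr1 : 1 ≤ r := by have := abs_nonneg ((a - a') / w'); linarith
    have hpq : r ≤ p * q := by
      have h1 : |(a - a') / w'| ≤ |(y - a) / w| + |(y - a') / w'| := by
        have e1 : (a - a') / w' = (y - a') / w' - (y - a) / w' := by ring
        rw [e1]
        refine (abs_sub _ _).trans ?_
        have e2 : |(y - a) / w'| ≤ |(y - a) / w| := by
          rw [abs_div, abs_div, abs_of_pos hw, abs_of_pos hw']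
          exact div_le_div_of_nonneg_left (abs_nonneg _) hw hww
        linarith
      have h2 := mul_nonneg (abs_nonneg ((y - a) / w)) (abs_nonneg ((y - a') / w'))
      nlinarith
    have h3 : r ^ 2 * p ^ 2 ≤ p ^ 4 * q ^ 4 := by
      have h4 : r ^ 2 ≤ (p * q) ^ 2 := pow_le_pow_left₀ (by linarith) hpq 2
      have h5 : (p * q) ^ 2 * p ^ 2 ≤ p ^ 4 * q ^ 4 := by
        have : (p * q) ^ 2 * p ^ 2 = p ^ 4 * q ^ 2 := by ring
        rw [this]
        exact mul_le_mul_of_nonneg_left (pow_le_pow_right₀ hq1 (by norm_num)) (by positivity)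
      nlinarith [sq_nonneg p]
    calc ‖φ ((y - a) / w)‖ * ‖φ' ((y - a') / w')‖ ≤ (A / p ^ 4) * (A' / q ^ 4) :=
          mul_le_mul (h.decay _) (h'.decay _) (norm_nonneg _) (div_nonneg h.A_nonneg (by positivity))
      _ = (A * A') / (p ^ 4 * q ^ 4) := by field_simp
      _ ≤ (A * A') / (r ^ 2 * p ^ 2) :=
          div_le_div_of_nonneg_left (mul_nonneg h.A_nonneg h'.A_nonneg) (by positivity) h3
      _ = _ := by field_simp
  calc ‖∫ y, conj (pk φ a w θ y) * pk φ' a' w' θ' y‖
      ≤ ∫ y, (A * A' * (1 / (1 + |(a - a') / w'|) ^ 2)) * (1 / (1 + |(y - a) / w|) ^ 2) :=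
        norm_integral_le_of_norm_le ((integrable_kernel a hw).const_mul _)
          (Filter.Eventually.of_forall hbd)
    _ = _ := by
        rw [integral_const_mul, integral_kernel a hw]; ring

lemma sum_disjoint_le {ι : Type*} (T : Finset ι) (a w : ι → ℝ) {a' w' : ℝ}
    (hw' : 0 < w') (hw : ∀ i ∈ T, 0 < w i) (hww : ∀ i ∈ T, w i ≤ w')
    (hd : ∀ i ∈ T, ∀ j ∈ T, i ≠ j → Disjoint (Ico (a i) (a i + w i)) (Ico (a j) (a j + w j))) :
    ∑ i ∈ T, w i * (1 / (1 + |(a i - a') / w'|) ^ 2) ≤ 8 * w' := by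
  have h1 : ∀ i ∈ T, w i * (1 / (1 + |(a i - a') / w'|) ^ 2)
      ≤ 4 * ∫ y in Ico (a i) (a i + w i), 1 / (1 + |(y - a') / w'|) ^ 2 := by
    intro i hi
    have hwi := hw i hi
    have hc : ∀ y ∈ Ico (a i) (a i + w i),
        (1 / (1 + |(a i - a') / w'|) ^ 2) / 4 ≤ 1 / (1 + |(y - a') / w'|) ^ 2 := by
      intro y hy
      have e1 : |(y - a') / w'| ≤ |(a i - a') / w'| + 1 := by
        have : (y - a') / w' = (a i - a') / w' + (y - a i) / w' := by ring
        rw [this]
        refine (abs_add_le _ _).trans ?_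
        have : |(y - a i) / w'| ≤ 1 := by
          rw [abs_div, abs_of_pos hw', div_le_one hw', abs_of_nonneg (by linarith [hy.1])]
          linarith [hy.2, hww i hi]
        linarith
      have hn := abs_nonneg ((a i - a') / w')
      have hn' := abs_nonneg ((y - a') / w')
      rw [div_div, div_le_div_iff₀ (by positivity) (by positivity)]
      nlinarith
    have h2 : ∫ y in Ico (a i) (a i + w i), (1 / (1 + |(a i - a') / w'|) ^ 2) / 4
        ≤ ∫ y in Ico (a i) (a i + w i), 1 / (1 + |(y - a') / w'|) ^ 2 := by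
      refine setIntegral_mono_on (by simp) ((integrable_kernel a' hw').integrableOn)
        measurableSet_Ico hc
    rw [setIntegral_const] at h2
    simp only [measureReal_def, Real.volume_Ico, add_sub_cancel_left, ENNReal.toReal_ofReal hwi.le,
      smul_eq_mul] at h2
    linarith
  calc ∑ i ∈ T, w i * (1 / (1 + |(a i - a') / w'|) ^ 2)
      ≤ ∑ i ∈ T, 4 * ∫ y in Ico (a i) (a i + w i), 1 / (1 + |(y - a') / w'|) ^ 2 :=
        Finset.sum_le_sum h1
    _ = 4 * ∫ y in ⋃ i ∈ T, Ico (a i) (a i + w i), 1 / (1 + |(y - a') / w'|) ^ 2 := by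
        rw [← Finset.mul_sum, integral_biUnion_finset T (fun i _ => measurableSet_Ico)
          (fun i hi j hj hij => hd i hi j hj hij)
          (fun i _ => (integrable_kernel a' hw').integrableOn)]
    _ ≤ 4 * ∫ y, 1 / (1 + |(y - a') / w'|) ^ 2 := by
        refine mul_le_mul_of_nonneg_left (setIntegral_le_integral (integrable_kernel a' hw')
          (Filter.Eventually.of_forall fun y => ?_)) (by norm_num)
        show (0:ℝ) ≤ 1 / (1 + |(y - a') / w'|) ^ 2
        positivity
    _ = 8 * w' := by rw [integral_kernel a' hw']; ring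

open Finset in
/-- **Bessel inequality for incomparable band-limited packets** (amplitude form). -/
theorem bessel {ι : Type*} (T : Finset ι) (φ : ι → ℝ → ℂ) {A : ℝ} (a w θ : ι → ℝ)
    (hφ : ∀ i ∈ T, Packet (φ i) A) (hw : ∀ i ∈ T, 0 < w i)
    (hinc : ∀ i ∈ T, ∀ j ∈ T, i ≠ j → w i ≤ w j → |θ i - θ j| ≤ 4 / w i →
      Disjoint (Ico (a i) (a i + w i)) (Ico (a j) (a j + w j)))
    {f : ℝ → ℂ} (hf : AEStronglyMeasurable f) (hf2 : Integrable (fun y => ‖f y‖ ^ 2))
    {δ : ℝ} (hδ : 0 < δ)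
    (hheavy : ∀ i ∈ T, δ * w i ≤ ‖∫ y, conj (pk (φ i) (a i) (w i) (θ i) y) * f y‖) :
    ∑ i ∈ T, w i ≤ 36 * A ^ 2 / δ ^ 2 * ∫ y, ‖f y‖ ^ 2 := by
  classical
  set P : ι → ℝ → ℂ := fun i => pk (φ i) (a i) (w i) (θ i) with hP
  set G : ι → ι → ℂ := fun i j => ∫ y, conj (P i y) * P j y with hG
  have hGsymm : ∀ i j, ‖G i j‖ = ‖G j i‖ := by
    intro i j
    have : G j i = conj (G i j) := by
      simp only [hG]
      rw [← integral_conj]
      congr 1
      ext y
      simp [mul_comm]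
    rw [this, RCLike.norm_conj]
  -- row sums
  have hrow : ∀ j ∈ T, ∑ i ∈ T with w i ≤ w j, ‖G i j‖ ≤ 18 * A ^ 2 * w j := by
    intro j hj
    have hwj := hw j hj
    set N : Finset ι := T.filter (fun i => w i ≤ w j ∧ i ≠ j ∧ |θ i - θ j| ≤ 2 / w i) with hN
    have hsplit : ∑ i ∈ T with w i ≤ w j, ‖G i j‖ ≤ ‖G j j‖ + ∑ i ∈ N, ‖G i j‖ := by
      have hsub : ∀ i ∈ T.filter (fun i => w i ≤ w j), i ∉ insert j N → ‖G i j‖ = 0 := by
        intro i hi hni
        rw [Finset.mem_filter] at hi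
        rw [Finset.mem_insert, not_or] at hni
        have h2 : ¬ |θ i - θ j| ≤ 2 / w i := by
          intro h; exact hni.2 (Finset.mem_filter.2 ⟨hi.1, hi.2, hni.1, h⟩)
        rw [norm_eq_zero]
        refine orth (hφ i hi.1) (hφ j hj) (hw i hi.1) hwj ?_
        have : 1 / w j ≤ 1 / w i := one_div_le_one_div_of_le (hw i hi.1) hi.2
        have h3 : 2 / w i = 1 / w i + 1 / w i := by ring
        linarith [not_le.1 h2]
      have hjN : j ∉ N := by simp [hN]
      calc ∑ i ∈ T with w i ≤ w j, ‖G i j‖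
          = ∑ i ∈ (T.filter (fun i => w i ≤ w j)).filter (fun i => i ∈ insert j N), ‖G i j‖ := by
            refine (Finset.sum_subset (Finset.filter_subset _ _) ?_).symm
            intro i hi hni
            refine hsub i hi ?_
            intro hmem
            exact hni (Finset.mem_filter.2 ⟨hi, hmem⟩)
        _ ≤ ∑ i ∈ insert j N, ‖G i j‖ := by
            refine Finset.sum_le_sum_of_subset_of_nonneg ?_ (fun _ _ _ => norm_nonneg _)
            intro i hi
            exact (Finset.mem_filter.1 hi).2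
        _ = _ := Finset.sum_insert hjN
    have hdiag : ‖G j j‖ ≤ 2 * A ^ 2 * w j := by
      have := gram_le (a := a j) (θ := θ j) (a' := a j) (θ' := θ j) (hφ j hj) (hφ j hj) hwj le_rfl
      simp only [sub_self, zero_div, abs_zero, add_zero, one_pow, div_one, mul_one] at this
      simp only [hG, hP]
      linarith
    have hoff : ∑ i ∈ N, ‖G i j‖ ≤ 16 * A ^ 2 * w j := by
      have h1 : ∀ i ∈ N, ‖G i j‖ ≤ 2 * (A * A) * (w i * (1 / (1 + |(a i - a j) / w j|) ^ 2)) := by
        intro i hi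
        rw [hN, Finset.mem_filter] at hi
        exact gram_le (hφ i hi.1) (hφ j hj) (hw i hi.1) hi.2.1
      have h2 := sum_disjoint_le N a w (a' := a j) hwj
        (fun i hi => hw i (Finset.mem_filter.1 hi).1)
        (fun i hi => (Finset.mem_filter.1 hi).2.1) (by
          intro i hi i' hi' hne
          rw [hN, Finset.mem_filter] at hi hi'
          have key : ∀ i i' : ι, i ∈ T → i' ∈ T → i ≠ i' → |θ i - θ j| ≤ 2 / w i →
              |θ i' - θ j| ≤ 2 / w i' → w i ≤ w i' →
              Disjoint (Ico (a i) (a i + w i)) (Ico (a i') (a i' + w i')) := by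
            intro i i' hi hi' hne h1 h2 hle
            refine hinc i hi i' hi' hne hle ?_
            have h3 : 2 / w i' ≤ 2 / w i :=
              div_le_div_of_nonneg_left (by norm_num) (hw i hi) hle
            have h4 := abs_sub_le (θ i) (θ j) (θ i')
            rw [abs_sub_comm (θ j)] at h4
            have h5 : 4 / w i = 2 / w i + 2 / w i := by ring
            linarith
          rcases le_total (w i) (w i') with h | h
          · exact key i i' hi.1 hi'.1 hne hi.2.2.2 hi'.2.2.2 h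
          · exact (key i' i hi'.1 hi.1 hne.symm hi'.2.2.2 hi.2.2.2 h).symm)
      calc ∑ i ∈ N, ‖G i j‖ ≤ ∑ i ∈ N, 2 * (A * A) * (w i * (1 / (1 + |(a i - a j) / w j|) ^ 2)) :=
            Finset.sum_le_sum h1
        _ = 2 * (A * A) * ∑ i ∈ N, (w i * (1 / (1 + |(a i - a j) / w j|) ^ 2)) := by
            rw [Finset.mul_sum]
        _ ≤ 2 * (A * A) * (8 * w j) :=
            mul_le_mul_of_nonneg_left h2 (by nlinarith [mul_self_nonneg A])
        _ = _ := by ring
    linarith
  have htot : ∑ i ∈ T, ∑ j ∈ T, ‖G i j‖ ≤ 36 * A ^ 2 * ∑ i ∈ T, w i := by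
    have h1 : ∑ i ∈ T, ∑ j ∈ T, ‖G i j‖
        ≤ ∑ i ∈ T, ∑ j ∈ T, ((if w i ≤ w j then ‖G i j‖ else 0) + (if w j ≤ w i then ‖G j i‖ else 0)) := by
      refine Finset.sum_le_sum fun i _ => Finset.sum_le_sum fun j _ => ?_
      rcases le_total (w i) (w j) with h | h
      · rw [if_pos h]
        have : 0 ≤ (if w j ≤ w i then ‖G j i‖ else 0) := by split_ifs <;> positivity
        linarith
      · rw [if_pos h, hGsymm i j]
        have : 0 ≤ (if w i ≤ w j then ‖G i j‖ else 0) := by split_ifs <;> positivity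
        rw [← hGsymm i j] at *
        linarith [hGsymm i j]
    have h2 : ∑ i ∈ T, ∑ j ∈ T, ((if w i ≤ w j then ‖G i j‖ else 0) + (if w j ≤ w i then ‖G j i‖ else 0))
        = 2 * ∑ j ∈ T, ∑ i ∈ T with w i ≤ w j, ‖G i j‖ := by
      simp_rw [Finset.sum_add_distrib]
      rw [Finset.sum_comm (f := fun i j => if w i ≤ w j then ‖G i j‖ else 0)]
      simp_rw [Finset.sum_filter]
      ring
    have h3 : ∑ j ∈ T, ∑ i ∈ T with w i ≤ w j, ‖G i j‖ ≤ ∑ j ∈ T, 18 * A ^ 2 * w j :=
      Finset.sum_le_sum hrow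
    rw [← Finset.mul_sum] at h3
    linarith
  -- unimodular coefficients
  set b : ι → ℂ := fun i => ∫ y, conj (P i y) * f y with hb
  set c : ι → ℂ := fun i => conj (b i) / (‖b i‖ : ℂ) with hc
  have hcn : ∀ i, ‖c i‖ ≤ 1 := by
    intro i
    simp only [hc, norm_div, RCLike.norm_conj, Complex.norm_real, norm_norm]
    exact div_self_le_one _
  have hcb : ∀ i, c i * b i = (‖b i‖ : ℂ) := by
    intro i
    simp only [hc]
    by_cases h0 : b i = 0
    · simp [h0]
    · have : (‖b i‖ : ℂ) ≠ 0 := by simpa using h0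
      rw [div_mul_eq_mul_div, div_eq_iff this, mul_comm, Complex.mul_conj, Complex.normSq_eq_norm_sq]
      push_cast; ring
  set F : ℝ → ℂ := fun y => ∑ i ∈ T, conj (c i) * P i y with hF
  have hPc : ∀ i ∈ T, Continuous (P i) := fun i hi => continuous_pk (hφ i hi) _ _ _
  have hFc : Continuous F := continuous_finsetSum _ fun i hi => continuous_const.mul (hPc i hi)
  have hGi : ∀ i ∈ T, ∀ j ∈ T, Integrable (fun y => conj (P i y) * P j y) := fun i hi j hj =>
    integrable_gram (hφ i hi) (hφ j hj) (hw i hi)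
  have hFsq : ∀ y, ((‖F y‖ ^ 2 : ℝ) : ℂ)
      = ∑ i ∈ T, ∑ j ∈ T, (c i * conj (c j)) * (conj (P i y) * P j y) := by
    intro y
    have h1 : ((‖F y‖ ^ 2 : ℝ) : ℂ) = conj (F y) * F y := by
      rw [mul_comm, Complex.mul_conj, Complex.normSq_eq_norm_sq]
    rw [h1]
    simp only [hF, map_sum, map_mul, Complex.conj_conj]
    rw [Finset.sum_mul_sum]
    refine Finset.sum_congr rfl fun i _ => Finset.sum_congr rfl fun j _ => ?_
    ring
  have hFi : Integrable (fun y => ((‖F y‖ ^ 2 : ℝ) : ℂ)) := by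
    simp_rw [hFsq]
    exact integrable_finsetSum _ fun i hi => integrable_finsetSum _ fun j hj =>
      (hGi i hi j hj).const_mul _
  have hFi' : Integrable (fun y => ‖F y‖ ^ 2) := by
    have := hFi.re
    simpa only [RCLike.re_eq_complex_re, Complex.ofReal_re] using this
  have hFint : ∫ y, ‖F y‖ ^ 2 ≤ 36 * A ^ 2 * ∑ i ∈ T, w i := by
    have h1 : ((∫ y, ‖F y‖ ^ 2 : ℝ) : ℂ) = ∑ i ∈ T, ∑ j ∈ T, (c i * conj (c j)) * G i j := by
      rw [← integral_complex_ofReal]
      simp_rw [hFsq]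
      rw [integral_finsetSum _ fun i hi => integrable_finsetSum _ fun j hj =>
        (hGi i hi j hj).const_mul _]
      refine Finset.sum_congr rfl fun i hi => ?_
      rw [integral_finsetSum _ fun j hj => (hGi i hi j hj).const_mul _]
      refine Finset.sum_congr rfl fun j _ => ?_
      rw [integral_const_mul]
    have h2 : ‖((∫ y, ‖F y‖ ^ 2 : ℝ) : ℂ)‖ ≤ ∑ i ∈ T, ∑ j ∈ T, ‖G i j‖ := by
      rw [h1]
      refine (norm_sum_le _ _).trans (Finset.sum_le_sum fun i _ => ?_)
      refine (norm_sum_le _ _).trans (Finset.sum_le_sum fun j _ => ?_)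
      rw [norm_mul, norm_mul, RCLike.norm_conj]
      have : ‖c i‖ * ‖c j‖ ≤ 1 := mul_le_one₀ (hcn i) (norm_nonneg _) (hcn j)
      exact mul_le_of_le_one_left (norm_nonneg _) this
    have h3 : ∫ y, ‖F y‖ ^ 2 ≤ ‖((∫ y, ‖F y‖ ^ 2 : ℝ) : ℂ)‖ := by
      rw [Complex.norm_real]; exact le_abs_self _
    linarith
  set S := ∑ i ∈ T, w i with hS
  set E := ∫ y, ‖f y‖ ^ 2 with hE
  have hE0 : 0 ≤ E := integral_nonneg fun y => by positivity
  have hpf : ∀ i ∈ T, Integrable (fun y => conj (P i y) * f y) := by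
    intro i hi
    refine Integrable.mono' (g := fun y => (‖P i y‖ ^ 2 + ‖f y‖ ^ 2)) ?_ ?_ ?_
    · refine Integrable.add ?_ hf2
      have := (hGi i hi i hi).re
      refine this.congr (Filter.Eventually.of_forall fun y => ?_)
      simp only [RCLike.re_eq_complex_re]
      rw [mul_comm, Complex.mul_conj, Complex.normSq_eq_norm_sq, Complex.ofReal_re]
    · exact ((Complex.continuous_conj.comp (hPc i hi)).aestronglyMeasurable).mul hf
    · refine Filter.Eventually.of_forall fun y => ?_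
      rw [norm_mul, RCLike.norm_conj]
      nlinarith [sq_nonneg (‖P i y‖ - ‖f y‖), sq_nonneg ‖P i y‖, sq_nonneg ‖f y‖]
  have hlow : δ * S ≤ ‖∫ y, conj (F y) * f y‖ := by
    have h1 : ∫ y, conj (F y) * f y = ∑ i ∈ T, ((‖b i‖ : ℝ) : ℂ) := by
      simp only [hF, map_sum, map_mul, Complex.conj_conj, Finset.sum_mul]
      rw [integral_finsetSum]
      · refine Finset.sum_congr rfl fun i _ => ?_
        rw [← hcb i]
        simp only [hb]
        rw [← integral_const_mul]
        congr 1; ext y; ring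
      · intro i hi
        have := (hpf i hi).const_mul (c i)
        refine this.congr (Filter.Eventually.of_forall fun y => ?_)
        simp only; ring
    rw [h1, ← Complex.ofReal_sum, Complex.norm_real, hS, Finset.mul_sum]
    refine le_trans (Finset.sum_le_sum fun i hi => hheavy i hi) (le_abs_self _)
  have hup : ∀ t : ℝ, 0 < t → ‖∫ y, conj (F y) * f y‖ ≤ (t * E + (36 * A ^ 2 * S) / t) / 2 := by
    intro t ht
    have h1 : ‖∫ y, conj (F y) * f y‖ ≤ ∫ y, (t * ‖f y‖ ^ 2 + (1 / t) * ‖F y‖ ^ 2) / 2 := by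
      refine norm_integral_le_of_norm_le
        (((hf2.const_mul t).add (hFi'.const_mul (1 / t))).div_const 2)
        (Filter.Eventually.of_forall fun y => ?_)
      rw [norm_mul, RCLike.norm_conj]
      have h2 : 0 ≤ (t * ‖f y‖ - ‖F y‖) ^ 2 / t := by positivity
      have h3 : (t * ‖f y‖ - ‖F y‖) ^ 2 / t
          = t * ‖f y‖ ^ 2 + (1 / t) * ‖F y‖ ^ 2 - 2 * (‖F y‖ * ‖f y‖) := by
        field_simp; ring
      linarith
    rw [integral_div, integral_add (hf2.const_mul t) (hFi'.const_mul (1 / t)),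
      integral_const_mul, integral_const_mul] at h1
    refine h1.trans ?_
    have : (1 / t) * ∫ y, ‖F y‖ ^ 2 ≤ (36 * A ^ 2 * S) / t := by
      rw [one_div, div_eq_inv_mul]
      exact mul_le_mul_of_nonneg_left hFint (by positivity)
    linarith
  have hS0 : 0 ≤ S := Finset.sum_nonneg fun i hi => (hw i hi).le
  by_cases hA : A = 0
  · have h2 : ∀ t : ℝ, 0 < t → δ * S ≤ t * E / 2 := by
      intro t ht
      have := hlow.trans (hup t ht)
      simpa [hA] using this
    have h3 : δ * S ≤ 0 := by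
      refine le_of_forall_pos_le_add fun ε hε => ?_
      have h4 := h2 (2 * ε / (E + 1)) (by positivity)
      refine h4.trans ?_
      have h5 : E / (E + 1) ≤ 1 := (div_le_one (by positivity)).2 (by linarith)
      have h6 : 2 * ε / (E + 1) * E / 2 = ε * (E / (E + 1)) := by field_simp
      rw [h6, zero_add]
      exact mul_le_of_le_one_right hε.le h5
    have h4 : S ≤ 0 := by
      by_contra hcon
      have := mul_pos hδ (not_le.1 hcon)
      linarith
    simp only [hA]
    simpa using h4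
  · have hA2 : 0 < A ^ 2 := by positivity
    have h2 := hlow.trans (hup (36 * A ^ 2 / δ) (by positivity))
    have h3 : (36 * A ^ 2 * S) / (36 * A ^ 2 / δ) = δ * S := by field_simp
    rw [h3] at h2
    have h4 : δ * S ≤ 36 * A ^ 2 / δ * E := by linarith
    have h5 : 36 * A ^ 2 / δ ^ 2 * E = (36 * A ^ 2 / δ * E) / δ := by field_simp
    rw [h5, le_div_iff₀ hδ]
    linarith

end Crest.Agent.R100.Bessel801
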