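import Crest.Agent.R100.Wide_933

/-!
# R100 / S0132, block B4 of doc 1968, part 1 (helper341): the caps

For a bounded function `g` and an exit generation `kap`, `lo g kap q = g 1[kap < q]` and
`hi g kap q = g 1[q ≤ kap]`.  **cap**: there is a finite set of generations `R` (quantiles of `kap`
under `|g|`) such that for every label `Y` with `|coef g Y| ≥ b` one of them satisfies
`|coef (lo g kap R) Y| ≥ 3/8 |coef g Y|` and `|coef (hi g kap (R-1)) Y| ≥ 3/8 |coef g Y|`.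
-/

set_option autoImplicit false

open MeasureTheory Set
open scoped ENNReal

noncomputable section

namespace Crest.Agent.R100.Caps341

open Crest.Agent.R100.Mart933 Crest.Agent.R100.Wide933

/-- the part of `g` that exits before generation `q` -/
def lo (g : ℝ → ℂ) (kap : ℝ → ℕ) (q : ℕ) (y : ℝ) : ℂ := if kap y < q then g y else 0

/-- the part of `g` that exits at generation `≥ q` -/
def hi (g : ℝ → ℂ) (kap : ℝ → ℕ) (q : ℕ) (y : ℝ) : ℂ := if q ≤ kap y then g y else 0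

variable {g : ℝ → ℂ} {kap : ℝ → ℕ} {M : ℝ}

theorem lo_add_hi (g : ℝ → ℂ) (kap : ℝ → ℕ) (q : ℕ) (y : ℝ) : lo g kap q y + hi g kap q y = g y := by
  unfold lo hi
  by_cases h : kap y < q
  · rw [if_pos h, if_neg (not_le.2 h), add_zero]
  · rw [if_neg h, if_pos (not_lt.1 h), zero_add]

theorem norm_lo_le (g : ℝ → ℂ) (kap : ℝ → ℕ) (q : ℕ) (y : ℝ) : ‖lo g kap q y‖ ≤ ‖g y‖ := by
  unfold lo
  split_ifs
  · exact le_rfl
  · simp

theorem norm_hi_le (g : ℝ → ℂ) (kap : ℝ → ℕ) (q : ℕ) (y : ℝ) : ‖hi g kap q y‖ ≤ ‖g y‖ := by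
  unfold hi
  split_ifs
  · exact le_rfl
  · simp

theorem measurable_lo (hg : Measurable g) (hk : Measurable kap) (q : ℕ) :
    Measurable (lo g kap q) :=
  Measurable.ite (hk (measurableSet_Iio (a := q))) hg measurable_const

theorem measurable_hi (hg : Measurable g) (hk : Measurable kap) (q : ℕ) :
    Measurable (hi g kap q) :=
  Measurable.ite (hk (measurableSet_Ici (a := q))) hg measurable_const

theorem coef_add {g h : ℝ → ℂ} (hg : Measurable g) (hM : ∀ x, ‖g x‖ ≤ M) (hh : Measurable h)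
    (hM' : ∀ x, ‖h x‖ ≤ M) (Y : ℝ) (k : ℕ) (j : ℤ) :
    coef (fun y => g y + h y) Y k j = coef g Y k j + coef h Y k j := by
  unfold coef
  rw [← mul_add, ← integral_add (integrable_fe hg hM (-Y) k j) (integrable_fe hh hM' (-Y) k j)]
  congr 2
  ext y
  ring

theorem coef_sub {g h : ℝ → ℂ} (hg : Measurable g) (hM : ∀ x, ‖g x‖ ≤ M) (hh : Measurable h)
    (hM' : ∀ x, ‖h x‖ ≤ M) (Y : ℝ) (k : ℕ) (j : ℤ) :
    coef (fun y => g y - h y) Y k j = coef g Y k j - coef h Y k j := by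
  unfold coef
  rw [← mul_sub, ← integral_sub (integrable_fe hg hM (-Y) k j) (integrable_fe hh hM' (-Y) k j)]
  congr 2
  ext y
  ring

theorem coef_lo_add_hi (hg : Measurable g) (hM : ∀ x, ‖g x‖ ≤ M) (hk : Measurable kap) (q : ℕ)
    (Y : ℝ) (k : ℕ) (j : ℤ) :
    coef (lo g kap q) Y k j + coef (hi g kap q) Y k j = coef g Y k j := by
  rw [← coef_add (measurable_lo hg hk q) (fun x => (norm_lo_le g kap q x).trans (hM x))
    (measurable_hi hg hk q) (fun x => (norm_hi_le g kap q x).trans (hM x))]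
  congr 1
  ext y
  exact lo_add_hi g kap q y

/-- the mass that exits before `q` -/
def mu (g : ℝ → ℂ) (kap : ℝ → ℕ) (k : ℕ) (j : ℤ) (q : ℕ) : ℝ := avN (lo g kap q) k j

theorem mu_nonneg (k : ℕ) (j : ℤ) (q : ℕ) : 0 ≤ mu g kap k j q := avN_nonneg _ _ _

theorem mu_zero (k : ℕ) (j : ℤ) : mu g kap k j 0 = 0 := by
  unfold mu avN lo
  simp

theorem norm_lo_mono {q q' : ℕ} (h : q ≤ q') (y : ℝ) : ‖lo g kap q y‖ ≤ ‖lo g kap q' y‖ := by
  unfold lo
  split_ifs with h1 h2
  · exact le_rfl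
  · omega
  · simp
  · exact le_rfl

theorem avN_mono {g h : ℝ → ℂ} (hg : Measurable g) (hM : ∀ x, ‖g x‖ ≤ M) (hh : Measurable h)
    (hM' : ∀ x, ‖h x‖ ≤ M) (hle : ∀ y, ‖g y‖ ≤ ‖h y‖) (k : ℕ) (j : ℤ) : avN g k j ≤ avN h k j := by
  unfold avN
  refine mul_le_mul_of_nonneg_left ?_ (by positivity)
  refine integral_mono (intOn k j hg.norm (M := M) fun x => by simpa using hM x)
    (intOn k j hh.norm (M := M) fun x => by simpa using hM' x) hle

theorem mu_mono (hg : Measurable g) (hM : ∀ x, ‖g x‖ ≤ M) (hk : Measurable kap) (k : ℕ) (j : ℤ)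
    {q q' : ℕ} (h : q ≤ q') : mu g kap k j q ≤ mu g kap k j q' :=
  avN_mono (measurable_lo hg hk q) (fun x => (norm_lo_le g kap q x).trans (hM x))
    (measurable_lo hg hk q') (fun x => (norm_lo_le g kap q' x).trans (hM x)) (norm_lo_mono h) k j

theorem mu_le (hg : Measurable g) (hM : ∀ x, ‖g x‖ ≤ M) (hk : Measurable kap) (k : ℕ) (j : ℤ)
    (q : ℕ) : mu g kap k j q ≤ avN g k j :=
  avN_mono (measurable_lo hg hk q) (fun x => (norm_lo_le g kap q x).trans (hM x)) hg hM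
    (norm_lo_le g kap q) k j

/-- the difference of two caps is at most the mass between them -/
theorem norm_coef_lo_sub_le (hg : Measurable g) (hM : ∀ x, ‖g x‖ ≤ M) (hk : Measurable kap)
    (k : ℕ) (j : ℤ) {q q' : ℕ} (h : q ≤ q') (Y : ℝ) :
    ‖coef (lo g kap q') Y k j - coef (lo g kap q) Y k j‖ ≤ mu g kap k j q' - mu g kap k j q := by
  have hl : ∀ q x, ‖lo g kap q x‖ ≤ M := fun q x => (norm_lo_le g kap q x).trans (hM x)
  rw [← coef_sub (measurable_lo hg hk q') (hl q') (measurable_lo hg hk q) (hl q)]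
  refine (norm_coef_le _ _ _ _).trans (le_of_eq ?_)
  unfold mu avN
  rw [← mul_sub, ← integral_sub (intOn k j (measurable_lo hg hk q').norm (M := M)
      fun x => by simpa using hl q' x)
    (intOn k j (measurable_lo hg hk q).norm (M := M) fun x => by simpa using hl q x)]
  congr 2
  ext y
  unfold lo
  by_cases h2 : kap y < q
  · have h1 : kap y < q' := lt_of_lt_of_le h2 h
    simp [h1, h2]
  · by_cases h1 : kap y < q'
    · simp [h1, h2]
    · simp [h1, h2]

theorem lo_eq_self {m : ℕ} (hm : ∀ y, kap y ≤ m) : lo g kap (m + 1) = g := by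
  ext y
  unfold lo
  rw [if_pos (by have := hm y; omega)]

open Classical in
/-- the first generation at which the exit mass exceeds `t` (or `0`) -/
def qt (g : ℝ → ℂ) (kap : ℝ → ℕ) (k : ℕ) (j : ℤ) (t : ℝ) : ℕ :=
  if h : ∃ q, t < mu g kap k j q then Nat.find h else 0

theorem qt_spec {k : ℕ} {j : ℤ} {t : ℝ} {q : ℕ} (h : t < mu g kap k j q) :
    qt g kap k j t ≤ q ∧ t < mu g kap k j (qt g kap k j t) := by
  have hex : ∃ q, t < mu g kap k j q := ⟨q, h⟩
  unfold qt
  rw [dif_pos hex]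
  exact ⟨Nat.find_min' hex h, Nat.find_spec hex⟩

/-- the grid of caps: `q` and `q + 1` for the quantiles `q` with step `η` -/
def grid (g : ℝ → ℂ) (kap : ℝ → ℕ) (k : ℕ) (j : ℤ) (η : ℝ) : Finset ℕ :=
  (Finset.range (⌊avN g k j / η⌋₊ + 1)).image (fun i : ℕ => qt g kap k j (i * η)) ∪
    (Finset.range (⌊avN g k j / η⌋₊ + 1)).image (fun i : ℕ => qt g kap k j (i * η) + 1)

theorem card_grid (g : ℝ → ℂ) (kap : ℝ → ℕ) (k : ℕ) (j : ℤ) (η : ℝ) :
    (grid g kap k j η).card ≤ 2 * (⌊avN g k j / η⌋₊ + 1) := by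
  unfold grid
  refine (Finset.card_union_le _ _).trans ?_
  have h1 := Finset.card_image_le (s := Finset.range (⌊avN g k j / η⌋₊ + 1))
    (f := fun i : ℕ => qt g kap k j (i * η))
  have h2 := Finset.card_image_le (s := Finset.range (⌊avN g k j / η⌋₊ + 1))
    (f := fun i : ℕ => qt g kap k j (i * η) + 1)
  rw [Finset.card_range] at h1 h2
  omega

/-- **(CAP)** -/
theorem cap (hg : Measurable g) (hM : ∀ x, ‖g x‖ ≤ M) (hk : Measurable kap) {m : ℕ}
    (hm : ∀ y, kap y ≤ m) (k : ℕ) (j : ℤ) {b : ℝ} (hb : 0 < b) {Y : ℝ}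
    (hY : b ≤ ‖coef g Y k j‖) :
    ∃ R ∈ grid g kap k j (b / 8), 1 ≤ R ∧
      3 / 8 * ‖coef g Y k j‖ ≤ ‖coef (lo g kap R) Y k j‖ ∧
      3 / 8 * ‖coef g Y k j‖ ≤ ‖coef (hi g kap (R - 1)) Y k j‖ := by
  classical
  set a := ‖coef g Y k j‖ with ha
  set η := b / 8 with hη
  have hη0 : 0 < η := by positivity
  have ha0 : 0 < a := lt_of_lt_of_le hb hY
  have hηa : η ≤ a / 8 := by rw [hη]; linarith
  have hl : ∀ q x, ‖lo g kap q x‖ ≤ M := fun q x => (norm_lo_le g kap q x).trans (hM x)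
  -- the first crossing
  have hex : ∃ q, a / 2 ≤ ‖coef (lo g kap q) Y k j‖ := by
    refine ⟨m + 1, ?_⟩
    rw [lo_eq_self hm, ← ha]
    linarith
  set R₀ := Nat.find hex with hR₀
  have h1 : a / 2 ≤ ‖coef (lo g kap R₀) Y k j‖ := Nat.find_spec hex
  have h2 : ∀ q < R₀, ‖coef (lo g kap q) Y k j‖ < a / 2 := fun q hq =>
    not_le.1 (Nat.find_min hex hq)
  have hmu0 : a / 2 ≤ mu g kap k j R₀ := h1.trans (norm_coef_le _ _ _ _)
  have hR1 : 1 ≤ R₀ := by
    by_contra hcon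
    have h0 : R₀ = 0 := by omega
    rw [h0, mu_zero] at hmu0
    linarith
  -- the quantile
  set ρ := avN g k j with hρ
  have hmuρ : mu g kap k j R₀ ≤ ρ := mu_le hg hM hk k j R₀
  -- largest i with i * η < mu R₀
  obtain ⟨i, hi1, hi2⟩ : ∃ i : ℕ, (i : ℝ) * η < mu g kap k j R₀ ∧
      mu g kap k j R₀ ≤ (i + 1) * η := by
    refine ⟨⌈mu g kap k j R₀ / η⌉₊ - 1, ?_, ?_⟩
    · have hpos : 0 < mu g kap k j R₀ / η := div_pos (by linarith) hη0
      have hc : 0 < ⌈mu g kap k j R₀ / η⌉₊ := Nat.ceil_pos.2 hpos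
      have h3 : ((⌈mu g kap k j R₀ / η⌉₊ - 1 : ℕ) : ℝ) < mu g kap k j R₀ / η := by
        rw [← Nat.lt_ceil]
        omega
      rwa [lt_div_iff₀ hη0] at h3
    · have hpos : 0 < mu g kap k j R₀ / η := div_pos (by linarith) hη0
      have hc : 0 < ⌈mu g kap k j R₀ / η⌉₊ := Nat.ceil_pos.2 hpos
      have h3 : mu g kap k j R₀ / η ≤ (((⌈mu g kap k j R₀ / η⌉₊ - 1 : ℕ) : ℝ) + 1) := by
        have h4 : ((⌈mu g kap k j R₀ / η⌉₊ - 1 : ℕ) : ℝ) + 1 = (⌈mu g kap k j R₀ / η⌉₊ : ℝ) := by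
          rw [Nat.cast_sub (by omega), Nat.cast_one]
          ring
        rw [h4]
        exact Nat.le_ceil _
      rwa [div_le_iff₀ hη0] at h3
  have hirange : i ∈ Finset.range (⌊ρ / η⌋₊ + 1) := by
    rw [Finset.mem_range, Nat.lt_add_one_iff]
    refine Nat.le_floor ?_
    rw [le_div_iff₀ hη0]
    linarith
  obtain ⟨hq1, hq2⟩ := qt_spec (g := g) (kap := kap) hi1
  set q := qt g kap k j (i * η) with hq
  have hgap : mu g kap k j R₀ - mu g kap k j q ≤ η := by linarith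
  by_cases hqR : q = R₀
  · refine ⟨q, ?_, by omega, ?_, ?_⟩
    · unfold grid
      exact Finset.mem_union_left _ (Finset.mem_image.2 ⟨i, hirange, rfl⟩)
    · rw [hqR]; linarith
    · rw [hqR]
      have h3 := h2 (R₀ - 1) (by omega)
      have h4 := coef_lo_add_hi hg hM hk (R₀ - 1) Y k j
      have h5 : a ≤ ‖coef (lo g kap (R₀ - 1)) Y k j‖ + ‖coef (hi g kap (R₀ - 1)) Y k j‖ := by
        rw [ha, ← h4]
        exact norm_add_le _ _
      linarith
  · have hlt : q < R₀ := lt_of_le_of_ne hq1 hqR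
    refine ⟨q + 1, ?_, by omega, ?_, ?_⟩
    · unfold grid
      exact Finset.mem_union_right _ (Finset.mem_image.2 ⟨i, hirange, rfl⟩)
    · have h3 := norm_coef_lo_sub_le hg hM hk k j (show q + 1 ≤ R₀ by omega) Y
      have h4 := mu_mono hg hM hk k j (show q ≤ q + 1 by omega)
      have h5 : ‖coef (lo g kap R₀) Y k j‖ ≤
          ‖coef (lo g kap R₀) Y k j - coef (lo g kap (q + 1)) Y k j‖ +
            ‖coef (lo g kap (q + 1)) Y k j‖ := by
        have := norm_add_le (coef (lo g kap R₀) Y k j - coef (lo g kap (q + 1)) Y k j)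
          (coef (lo g kap (q + 1)) Y k j)
        simpa using this
      linarith
    · rw [Nat.add_sub_cancel]
      have h3 := h2 q hlt
      have h4 := coef_lo_add_hi hg hM hk q Y k j
      have h5 : a ≤ ‖coef (lo g kap q) Y k j‖ + ‖coef (hi g kap q) Y k j‖ := by
        rw [ha, ← h4]
        exact norm_add_le _ _
      linarith

end Crest.Agent.R100.Caps341
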