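import Crest.Agent.R100.Id_833

/-!
# R100 / S0132, helper916: the literal statement of the core (`CoreX`)

Text of record: doc 1968 (helper79) + helper903's simplification + helper721's selection.
`CoreX` is proved by the core team and consumed by `SH3` (helper701).
-/

set_option autoImplicit false

open MeasureTheory Set

noncomputable section

namespace Crest.Agent.R100.CoreX916

open Crest.Agent.R100.Mart933 Crest.Agent.R100.Wide933 Crest.Agent.R100.Id833

/-- **CORE**: if every point where `F ≠ 0` is paid at least `A n`, then the mass of `F` is at most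
`n ^ (-c)` -/
def CoreX : Prop :=
  ∃ A c : ℝ, 0 < A ∧ 0 < c ∧ ∃ n₀ : ℕ, ∀ n ≥ n₀, ∀ (s : ℝ → ℂ) (θ : ℝ → ℝ) (al : ℕ → ℤ → Prop)
    (F : ℝ → ℝ) (m : ℕ), Measurable s → (∀ x, ‖s x‖ ≤ 1) → Measurable θ → Measurable F →
    (∀ y, 0 ≤ F y ∧ F y ≤ 2 ^ n) → (∀ k j, al (k + 1) j → al k (j / 2)) →
    (∀ k j, al k j → avN (fun y => (F y : ℂ)) k j ≤ 1) →
    (∀ y ∈ Ivl 0 0, F y ≠ 0 → ∃ k ≤ m, A * n ≤ ‖Pay s θ al k y‖) →
    ∫ y in Ivl 0 0, F y ≤ (n : ℝ) ^ (-c)

end Crest.Agent.R100.CoreX916
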