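import Crest.Agent.R100.PP_833

/-!
# R100 / S0132, helper903: functional, near-maximiser, stopping time (B1 + B2 of doc 1968,
simplified: no density factor, no dense nodes)

States `(k, j, g, r)`: `g` complex, `|g| ≤ |f|`, supported in the node and in the kept set `E0`,
`k ≤ κ₀`, remaining payment at least `r`.  Near-maximiser of `exp (p r / v) * N_p`.
-/

set_option autoImplicit false

open MeasureTheory Set
open scoped ENNReal

noncomputable section

namespace Crest.Agent.R100.Near903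

open Crest.Agent.R100.Mart933 Crest.Agent.R100.Wide933 Crest.Agent.R100.Id833
open Crest.Agent.R100.PP833

theorem coef_congr {g g' : ℝ → ℂ} {k : ℕ} {j : ℤ} (h : ∀ y ∈ Ivl k j, g y = g' y) (Y : ℝ) :
    coef g Y k j = coef g' Y k j := by
  unfold coef
  congr 1
  refine setIntegral_congr_fun (measurableSet_Ivl _ _) fun y hy => ?_
  simp only [h y hy]

theorem Np_congr {p : ℝ} {g g' : ℝ → ℂ} {k : ℕ} {j : ℤ} (h : ∀ y ∈ Ivl k j, g y = g' y) :
    Np p g k j = Np p g' k j := by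
  unfold Np
  simp only [coef_congr h]

variable {s : ℝ → ℂ} {θ : ℝ → ℝ} {al : ℕ → ℤ → Prop} {f : ℝ → ℂ} {n m : ℕ} {p v V : ℝ}
  {E0 : Set ℝ}

/-! ## first times -/

open Classical in
/-- first time at which the accumulated payment reaches `V` (`m + 1` if it never does) -/
def kz (s : ℝ → ℂ) (θ : ℝ → ℝ) (al : ℕ → ℤ → Prop) (m : ℕ) (V : ℝ) (y : ℝ) : ℕ :=
  Nat.find (p := fun k => V ≤ ‖Pay s θ al k y‖ ∨ k = m + 1) ⟨m + 1, Or.inr rfl⟩

open Classical in
/-- first time after `k0` at which the payment since `k0` reaches `v` -/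
def kp (s : ℝ → ℂ) (θ : ℝ → ℝ) (al : ℕ → ℤ → Prop) (m k0 : ℕ) (v : ℝ) (y : ℝ) : ℕ :=
  Nat.find (p := fun k => (k0 < k ∧ v ≤ ‖Pay s θ al k y - Pay s θ al k0 y‖) ∨ k = k0 + m + 1)
    ⟨k0 + m + 1, Or.inr rfl⟩

theorem measurable_kz (hs : Measurable s) (hθ : Measurable θ) (m : ℕ) (V : ℝ) :
    Measurable (kz s θ al m V) := by
  classical
  unfold kz
  refine measurable_find (p := fun y k => V ≤ ‖Pay s θ al k y‖ ∨ k = m + 1)
    (fun y => ⟨m + 1, Or.inr rfl⟩) fun k => ?_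
  by_cases hk : k = m + 1
  · simp [hk]
  · simp only [hk, or_false]
    exact measurableSet_le measurable_const (measurable_Pay hs hθ k).norm

theorem measurable_kp (hs : Measurable s) (hθ : Measurable θ) (m k0 : ℕ) (v : ℝ) :
    Measurable (kp s θ al m k0 v) := by
  classical
  unfold kp
  refine measurable_find
    (p := fun y k => (k0 < k ∧ v ≤ ‖Pay s θ al k y - Pay s θ al k0 y‖) ∨ k = k0 + m + 1)
    (fun y => ⟨k0 + m + 1, Or.inr rfl⟩) fun k => ?_
  by_cases hk : k = k0 + m + 1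
  · simp [hk]
  · by_cases hk' : k0 < k
    · simp only [hk, hk', or_false, true_and]
      exact measurableSet_le measurable_const
        ((measurable_Pay hs hθ k).sub (measurable_Pay hs hθ k0)).norm
    · simp [hk, hk']

theorem kz_spec {y : ℝ} (h : ∃ k ≤ m, V ≤ ‖Pay s θ al k y‖) :
    kz s θ al m V y ≤ m ∧ V ≤ ‖Pay s θ al (kz s θ al m V y) y‖ := by
  classical
  obtain ⟨k, hk, hV⟩ := h
  have h1 : kz s θ al m V y ≤ k := Nat.find_min' _ (Or.inl hV)
  have h2 : V ≤ ‖Pay s θ al (kz s θ al m V y) y‖ ∨ kz s θ al m V y = m + 1 :=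
    Nat.find_spec (p := fun k => V ≤ ‖Pay s θ al k y‖ ∨ k = m + 1) ⟨m + 1, Or.inr rfl⟩
  refine ⟨h1.trans hk, ?_⟩
  rcases h2 with h2 | h2
  · exact h2
  · omega

theorem lt_of_lt_kz {y : ℝ} {k : ℕ} (h : k < kz s θ al m V y) : ‖Pay s θ al k y‖ < V := by
  classical
  have := Nat.find_min (p := fun k => V ≤ ‖Pay s θ al k y‖ ∨ k = m + 1) ⟨m + 1, Or.inr rfl⟩ h
  push Not at this
  exact this.1

theorem kp_gt (m k0 : ℕ) (v : ℝ) (y : ℝ) : k0 < kp s θ al m k0 v y := by
  classical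
  have h2 : (k0 < kp s θ al m k0 v y ∧
      v ≤ ‖Pay s θ al (kp s θ al m k0 v y) y - Pay s θ al k0 y‖) ∨
      kp s θ al m k0 v y = k0 + m + 1 :=
    Nat.find_spec (p := fun k => (k0 < k ∧ v ≤ ‖Pay s θ al k y - Pay s θ al k0 y‖) ∨
      k = k0 + m + 1) ⟨k0 + m + 1, Or.inr rfl⟩
  rcases h2 with h2 | h2
  · exact h2.1
  · omega

theorem kp_spec {k0 : ℕ} {y : ℝ} {k : ℕ} (hk0 : k0 < k) (hkm : k ≤ k0 + m)
    (h : v ≤ ‖Pay s θ al k y - Pay s θ al k0 y‖) :
    kp s θ al m k0 v y ≤ k ∧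
      v ≤ ‖Pay s θ al (kp s θ al m k0 v y) y - Pay s θ al k0 y‖ := by
  classical
  have h1 : kp s θ al m k0 v y ≤ k := Nat.find_min' _ (Or.inl ⟨hk0, h⟩)
  have h2 : (k0 < kp s θ al m k0 v y ∧
      v ≤ ‖Pay s θ al (kp s θ al m k0 v y) y - Pay s θ al k0 y‖) ∨
      kp s θ al m k0 v y = k0 + m + 1 :=
    Nat.find_spec (p := fun k => (k0 < k ∧ v ≤ ‖Pay s θ al k y - Pay s θ al k0 y‖) ∨
      k = k0 + m + 1) ⟨k0 + m + 1, Or.inr rfl⟩
  refine ⟨h1, ?_⟩
  rcases h2 with h2 | h2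
  · exact h2.2
  · omega

theorem lt_of_lt_kp {k0 : ℕ} {y : ℝ} {k : ℕ} (hv : 0 < v) (hk0 : k0 ≤ k)
    (h : k < kp s θ al m k0 v y) : ‖Pay s θ al k y - Pay s θ al k0 y‖ < v := by
  classical
  have := Nat.find_min (p := fun k => (k0 < k ∧ v ≤ ‖Pay s θ al k y - Pay s θ al k0 y‖) ∨
      k = k0 + m + 1) ⟨k0 + m + 1, Or.inr rfl⟩ h
  push Not at this
  rcases hk0.eq_or_lt with h0 | h0
  · rw [← h0, sub_self, norm_zero]; exact hv
  · exact this.1 h0

/-- one step changes the payment by at most one -/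
theorem norm_Pay_succ_le (hs1 : ∀ x, ‖s x‖ ≤ 1) (k0 k : ℕ) (y : ℝ) :
    ‖Pay s θ al (k + 1) y - Pay s θ al k0 y‖ ≤ ‖Pay s θ al k y - Pay s θ al k0 y‖ + 1 := by
  have h : Pay s θ al (k + 1) y - Pay s θ al k0 y =
      (Pay s θ al k y - Pay s θ al k0 y) + pay s θ al k y := by
    unfold Pay
    rw [Finset.sum_range_succ]
    ring
  rw [h]
  exact (norm_add_le _ _).trans (by gcongr; exact norm_pay hs1 k y)

theorem norm_le_of_le_kp (hs1 : ∀ x, ‖s x‖ ≤ 1) {k0 : ℕ} {y : ℝ} {k : ℕ} (hv : 0 < v)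
    (hk0 : k0 ≤ k) (h : k ≤ kp s θ al m k0 v y) :
    ‖Pay s θ al k y - Pay s θ al k0 y‖ ≤ v + 1 := by
  rcases h.lt_or_eq with h | h
  · exact (lt_of_lt_kp hv hk0 h).le.trans (by linarith)
  · have hgt := kp_gt (s := s) (θ := θ) (al := al) m k0 v y
    obtain ⟨k', rfl⟩ : ∃ k', k = k' + 1 := ⟨k - 1, by omega⟩
    refine (norm_Pay_succ_le hs1 k0 k' y).trans ?_
    have := lt_of_lt_kp (s := s) (θ := θ) (al := al) (m := m) (k0 := k0) (y := y) (k := k') hv
      (by omega) (by omega)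
    linarith

theorem norm_Pay_le_of_le_kz (hs1 : ∀ x, ‖s x‖ ≤ 1) {y : ℝ} {k : ℕ} (hV : 0 < V)
    (h : k ≤ kz s θ al m V y) : ‖Pay s θ al k y‖ ≤ V + 1 := by
  rcases h.lt_or_eq with h | h
  · exact (lt_of_lt_kz h).le.trans (by linarith)
  · rcases Nat.eq_zero_or_pos k with h0 | h0
    · subst h0; simp [Pay]; linarith
    · obtain ⟨k', rfl⟩ : ∃ k', k = k' + 1 := ⟨k - 1, by omega⟩
      have h1 := norm_Pay_succ_le (s := s) (θ := θ) (al := al) hs1 0 k' y
      have h2 := lt_of_lt_kz (s := s) (θ := θ) (al := al) (m := m) (V := V) (y := y) (k := k')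
        (by omega)
      simp only [Pay, Finset.range_zero, Finset.sum_empty, sub_zero] at h1 h2 ⊢
      linarith

/-! ## liveness -/

/-- the payment just before a first time is not zero, so the node is alive -/
theorem al_of_pay_ne {k : ℕ} {y : ℝ} (h : pay s θ al k y ≠ 0) : al k (fl k y) := by
  classical
  by_contra h'
  exact h (by unfold pay; rw [if_neg h'])

theorem al_anc (hcl : ∀ k j, al (k + 1) j → al k (j / 2)) {k : ℕ} {y : ℝ} (h : al k (fl k y))
    {k' : ℕ} (hk : k' ≤ k) : al k' (fl k' y) := by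
  obtain ⟨d, rfl⟩ := Nat.exists_eq_add_of_le hk
  induction d with
  | zero => exact h
  | succ d ih =>
    refine ih ?_ (by omega)
    have := hcl (k' + d) (fl (k' + d + 1) y) h
    rwa [← fl_half] at this

theorem al_of_lt_kp (hcl : ∀ k j, al (k + 1) j → al k (j / 2)) {k0 : ℕ} {y : ℝ} (hv : 0 < v)
    (h1 : v ≤ ‖Pay s θ al (kp s θ al m k0 v y) y - Pay s θ al k0 y‖) {k : ℕ}
    (h : k < kp s θ al m k0 v y) : al k (fl k y) := by
  have hgt := kp_gt (s := s) (θ := θ) (al := al) m k0 v y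
  obtain ⟨k', hk'⟩ : ∃ k', kp s θ al m k0 v y = k' + 1 := ⟨kp s θ al m k0 v y - 1, by omega⟩
  refine al_anc hcl (k := k') ?_ (by omega)
  refine al_of_pay_ne (s := s) (θ := θ) fun h0 => ?_
  have h2 := lt_of_lt_kp (s := s) (θ := θ) (al := al) (m := m) (k0 := k0) (y := y) (k := k') hv
    (by omega) (by omega)
  rw [hk'] at h1
  have h3 : Pay s θ al (k' + 1) y - Pay s θ al k0 y = Pay s θ al k' y - Pay s θ al k0 y := by
    unfold Pay
    rw [Finset.sum_range_succ, h0]; ring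
  rw [h3] at h1
  linarith

theorem al_of_lt_kz (hcl : ∀ k j, al (k + 1) j → al k (j / 2)) {y : ℝ}
    (h1 : V ≤ ‖Pay s θ al (kz s θ al m V y) y‖) {k : ℕ}
    (h : k < kz s θ al m V y) : al k (fl k y) := by
  obtain ⟨k', hk'⟩ : ∃ k', kz s θ al m V y = k' + 1 := ⟨kz s θ al m V y - 1, by omega⟩
  refine al_anc hcl (k := k') ?_ (by omega)
  refine al_of_pay_ne (s := s) (θ := θ) fun h0 => ?_
  have h2 := lt_of_lt_kz (s := s) (θ := θ) (al := al) (m := m) (V := V) (y := y) (k := k')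
    (by omega)
  rw [hk'] at h1
  have h3 : Pay s θ al (k' + 1) y = Pay s θ al k' y := by
    unfold Pay
    rw [Finset.sum_range_succ, h0, add_zero]
  rw [h3] at h1
  linarith

/-! ## states -/

/-- phase of the total payment -/
def ub (s : ℝ → ℂ) (θ : ℝ → ℝ) (al : ℕ → ℤ → Prop) (m : ℕ) (V : ℝ) (y : ℝ) : ℂ :=
  (starRingEnd ℂ) (Pay s θ al (kz s θ al m V y) y) / (‖Pay s θ al (kz s θ al m V y) y‖ : ℂ)

/-- remaining payment -/
def Rem (s : ℝ → ℂ) (θ : ℝ → ℝ) (al : ℕ → ℤ → Prop) (m : ℕ) (V : ℝ) (k : ℕ) (y : ℝ) : ℝ :=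
  (ub s θ al m V y * (Pay s θ al (kz s θ al m V y) y - Pay s θ al k y)).re

theorem norm_ub_le (y : ℝ) : ‖ub s θ al m V y‖ ≤ 1 := by
  unfold ub
  rw [norm_div, RCLike.norm_conj, Complex.norm_real, norm_norm]
  exact div_self_le_one _

theorem Rem_zero (hV : 0 < V) {y : ℝ} (h : V ≤ ‖Pay s θ al (kz s θ al m V y) y‖) :
    V ≤ Rem s θ al m V 0 y := by
  unfold Rem ub
  set P := Pay s θ al (kz s θ al m V y) y
  have h0 : Pay s θ al 0 y = 0 := by simp [Pay]
  have hP : 0 < ‖P‖ := hV.trans_le h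
  have hn : (‖P‖ : ℂ) ≠ 0 := by
    rw [Ne, Complex.ofReal_eq_zero]; exact hP.ne'
  have : (starRingEnd ℂ) P / (‖P‖ : ℂ) * (P - Pay s θ al 0 y) = (‖P‖ : ℂ) := by
    rw [h0, sub_zero, div_mul_eq_mul_div, mul_comm ((starRingEnd ℂ) P) P, Complex.mul_conj,
      Complex.normSq_eq_norm_sq]
    push_cast
    rw [pow_two, mul_div_assoc, div_self hn, mul_one]
  rw [this, Complex.ofReal_re]
  exact h

theorem Rem_le (hs1 : ∀ x, ‖s x‖ ≤ 1) (hV : 0 < V) {k : ℕ} {y : ℝ} (h : k ≤ kz s θ al m V y) :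
    Rem s θ al m V k y ≤ 2 * V + 2 := by
  unfold Rem
  refine (Complex.re_le_norm _).trans ?_
  rw [norm_mul]
  have h1 := norm_Pay_le_of_le_kz (s := s) (θ := θ) (al := al) (m := m) (V := V) (y := y)
    hs1 hV (le_refl _)
  have h2 := norm_Pay_le_of_le_kz (s := s) (θ := θ) (al := al) (m := m) (V := V) (y := y)
    hs1 hV h
  calc _ ≤ 1 * (‖Pay s θ al (kz s θ al m V y) y‖ + ‖Pay s θ al k y‖) := by
        gcongr
        · exact norm_ub_le y
        · exact norm_sub_le _ _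
    _ ≤ 2 * V + 2 := by linarith

theorem Rem_diff {k k0 : ℕ} {y : ℝ} :
    Rem s θ al m V k0 y - ‖Pay s θ al k y - Pay s θ al k0 y‖ ≤ Rem s θ al m V k y := by
  unfold Rem
  have h : ub s θ al m V y * (Pay s θ al (kz s θ al m V y) y - Pay s θ al k0 y) =
      ub s θ al m V y * (Pay s θ al (kz s θ al m V y) y - Pay s θ al k y) +
        ub s θ al m V y * (Pay s θ al k y - Pay s θ al k0 y) := by ring
  rw [h, Complex.add_re]
  have h1 : (ub s θ al m V y * (Pay s θ al k y - Pay s θ al k0 y)).re ≤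
      ‖Pay s θ al k y - Pay s θ al k0 y‖ := by
    refine (Complex.re_le_norm _).trans ?_
    rw [norm_mul]
    calc _ ≤ 1 * ‖Pay s θ al k y - Pay s θ al k0 y‖ := by
          gcongr
          exact norm_ub_le y
      _ = _ := one_mul _
  linarith

/-- states of the functional -/
structure St (s : ℝ → ℂ) (θ : ℝ → ℝ) (al : ℕ → ℤ → Prop) (f : ℝ → ℂ) (m : ℕ) (V : ℝ)
    (E0 : Set ℝ) (k : ℕ) (j : ℤ) (g : ℝ → ℂ) (r : ℝ) : Prop where
  meas : Measurable g
  le : ∀ y, ‖g y‖ ≤ ‖f y‖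
  sup : ∀ y, g y ≠ 0 → y ∈ Ivl k j ∧ y ∈ E0 ∧ k ≤ kz s θ al m V y ∧ r ≤ Rem s θ al m V k y

/-! ## bounds of the functional -/

theorem Np_le (hp : 2 ≤ p) {g : ℝ → ℂ} (hg : Measurable g) (hM : ∀ y, ‖g y‖ ≤ 2 ^ n) {k : ℕ}
    {j : ℤ} (hav : avN g k j ≤ 2) : Np p g k j ≤ ENNReal.ofReal (2 ^ (p + n)) := by
  have hc : ∀ Y, ‖coef g Y k j‖ₑ ≤ ENNReal.ofReal 2 := by
    intro Y
    rw [← ofReal_norm]
    exact ENNReal.ofReal_le_ofReal ((norm_coef_le g Y k j).trans hav)
  have h1 : ∀ Y, ‖coef g Y k j‖ₑ ^ p ≤ ENNReal.ofReal 2 ^ (p - 2) * ‖coef g Y k j‖ₑ ^ (2 : ℝ) := by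
    intro Y
    have : ‖coef g Y k j‖ₑ ^ p = ‖coef g Y k j‖ₑ ^ (p - 2) * ‖coef g Y k j‖ₑ ^ (2 : ℝ) := by
      rw [← ENNReal.rpow_add_of_nonneg _ _ (by linarith) (by norm_num)]
      congr 1; ring
    rw [this]
    exact mul_le_mul_left (ENNReal.rpow_le_rpow (hc Y) (by linarith)) _
  have h2 : ∫⁻ y in Ivl k j, ‖g y‖ₑ ^ (2 : ℝ) ≤ ENNReal.ofReal (2 ^ n) * ENNReal.ofReal (2 / 2 ^ k) := by
    have ha : ∀ y, ‖g y‖ₑ ^ (2 : ℝ) ≤ ENNReal.ofReal (2 ^ n) * ‖g y‖ₑ := by
      intro y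
      rw [ENNReal.rpow_two, pow_two]
      gcongr
      rw [← ofReal_norm]
      exact ENNReal.ofReal_le_ofReal (hM y)
    refine (lintegral_mono fun y => ha y).trans ?_
    rw [lintegral_const_mul _ hg.enorm]
    gcongr
    have hi : IntegrableOn (fun y => ‖g y‖) (Ivl k j) :=
      intOn k j hg.norm (M := 2 ^ n) (fun x => by simpa using hM x)
    have hi2 : ∫⁻ y in Ivl k j, ‖g y‖ₑ = ENNReal.ofReal (∫ y in Ivl k j, ‖g y‖) := by
      rw [ofReal_integral_eq_lintegral_ofReal hi (Filter.Eventually.of_forall fun y => norm_nonneg _)]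
      simp only [ofReal_norm]
    rw [hi2]
    refine ENNReal.ofReal_le_ofReal ?_
    unfold avN at hav
    rw [le_div_iff₀ (by positivity)]
    linarith
  unfold Np
  calc _ ≤ ENNReal.ofReal (1 / 2 ^ k) *
        ∫⁻ Y, ENNReal.ofReal 2 ^ (p - 2) * ‖coef g Y k j‖ₑ ^ (2 : ℝ) := by
        gcongr with Y
        exact h1 Y
    _ = ENNReal.ofReal (1 / 2 ^ k) * (ENNReal.ofReal 2 ^ (p - 2) *
        (ENNReal.ofReal (2 ^ k) ^ 2 * ∫⁻ y in Ivl k j, ‖g y‖ₑ ^ (2 : ℝ))) := by
        rw [lintegral_const_mul' _ _ (by finiteness), plancherel hg hM k j]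
    _ ≤ ENNReal.ofReal (1 / 2 ^ k) * (ENNReal.ofReal 2 ^ (p - 2) *
        (ENNReal.ofReal (2 ^ k) ^ 2 *
          (ENNReal.ofReal (2 ^ n) * ENNReal.ofReal (2 / 2 ^ k)))) := by gcongr
    _ = ENNReal.ofReal ((1 / 2 ^ k) * (2 ^ (p - 2) * ((2 ^ k) ^ 2 * (2 ^ n * (2 / 2 ^ k))))) := by
        rw [ENNReal.ofReal_mul (by positivity), ENNReal.ofReal_mul (by positivity),
          ENNReal.ofReal_mul (by positivity), ENNReal.ofReal_mul (by positivity),
          ← ENNReal.ofReal_pow (p := (2 : ℝ) ^ k) (by positivity),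
          ENNReal.ofReal_rpow_of_pos (by norm_num)]
    _ ≤ _ := by
        refine ENNReal.ofReal_le_ofReal ?_
        have hk : (0 : ℝ) < 2 ^ k := by positivity
        have e1 : (1 / 2 ^ k : ℝ) * (2 ^ (p - 2) * ((2 ^ k) ^ 2 * (2 ^ n * (2 / 2 ^ k)))) =
            2 ^ (p - 2) * 2 ^ n * 2 := by
          field_simp
        rw [e1, Real.rpow_add (by norm_num), Real.rpow_sub (by norm_num), Real.rpow_natCast]
        have h3 : (0 : ℝ) < 2 ^ p := by positivity
        have h4 : (0 : ℝ) < 2 ^ n := by positivity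
        norm_num
        nlinarith [mul_pos h3 h4]

theorem Np_eq_zero (hp : 0 < p) {g : ℝ → ℂ} {k : ℕ} {j : ℤ} (h : ∀ y ∈ Ivl k j, g y = 0) :
    Np p g k j = 0 := by
  rw [Np_congr (g' := fun _ => 0) h]
  unfold Np coef
  simp [hp]

/-- lower bound at the root -/
theorem Np_root (hp : 2 ≤ p) {g : ℝ → ℝ} (hg : Measurable g) (hg0 : ∀ y, 0 ≤ g y)
    {M : ℝ} (hM : ∀ y, ‖(g y : ℂ)‖ ≤ M) {mu : ℝ} (hmu : 0 < mu)
    (hmu' : mu ≤ ∫ y in Ivl 0 0, g y) :
    ENNReal.ofReal ((mu / 4) ^ p) ≤ Np p (fun y => (g y : ℂ)) 0 0 := by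
  have hgi : IntegrableOn g (Ivl 0 0) :=
    intOn 0 0 hg (M := M) (fun x => by simpa using hM x)
  have hgm : Measurable (fun y => (g y : ℂ)) := Complex.measurable_ofReal.comp hg
  have key : ∀ Y ∈ Icc (-(1 / 8) : ℝ) (1 / 8), 7 / 10 * mu ≤ ‖coef (fun y => (g y : ℂ)) Y 0 0‖ := by
    intro Y hY
    refine le_trans ?_ (Complex.re_le_norm _)
    unfold coef
    rw [pow_zero, one_mul]
    have hint := integrable_fe (f := fun y => (g y : ℂ)) hgm hM (-Y) 0 0
    have h1 : (∫ y in Ivl 0 0, (g y : ℂ) * e (-Y) y).re =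
        ∫ y in Ivl 0 0, ((g y : ℂ) * e (-Y) y).re := (integral_re hint).symm
    rw [h1]
    calc 7 / 10 * mu ≤ 7 / 10 * ∫ y in Ivl 0 0, g y := by gcongr
      _ = ∫ y in Ivl 0 0, 7 / 10 * g y := (integral_const_mul _ _).symm
      _ ≤ _ := by
        refine setIntegral_mono_on (hgi.const_mul _) hint.re (measurableSet_Ivl _ _) fun y hy => ?_
        have hy' : (0 : ℝ) ≤ y ∧ y < 1 := by simpa [Ivl] using hy
        have he : ((g y : ℂ) * e (-Y) y).re = g y * Real.cos (2 * Real.pi * (-Y * y)) := by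
          unfold e
          rw [Complex.re_ofReal_mul, Complex.exp_ofReal_mul_I_re]
        rw [he, mul_comm (7 / 10 : ℝ)]
        refine mul_le_mul_of_nonneg_left ?_ (hg0 y)
        rw [← Real.cos_abs]
        have hpi := Real.pi_pos
        have hY' : |Y| ≤ 1 / 8 := abs_le.2 ⟨by linarith [hY.1], hY.2⟩
        have hab : |2 * Real.pi * (-Y * y)| ≤ Real.pi / 4 := by
          rw [abs_mul, abs_mul (-Y) y, abs_neg, abs_of_pos (by positivity : (0 : ℝ) < 2 * Real.pi),
            abs_of_nonneg hy'.1]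
          have : |Y| * y ≤ 1 / 8 * 1 := by
            apply mul_le_mul hY' hy'.2.le hy'.1 (by norm_num)
          nlinarith
        have hcos : Real.cos (Real.pi / 4) ≤ Real.cos |2 * Real.pi * (-Y * y)| :=
          Real.cos_le_cos_of_nonneg_of_le_pi (abs_nonneg _) (by linarith) hab
        rw [Real.cos_pi_div_four] at hcos
        have h2 : (7 / 5 : ℝ) ≤ Real.sqrt 2 := Real.le_sqrt_of_sq_le (by norm_num)
        linarith
  unfold Np
  have h2 : ENNReal.ofReal (7 / 10 * mu) ^ p * ENNReal.ofReal (1 / 4) ≤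
      ∫⁻ Y, ‖coef (fun y => (g y : ℂ)) Y 0 0‖ₑ ^ p := by
    have hv : volume (Icc (-(1 / 8) : ℝ) (1 / 8)) = ENNReal.ofReal (1 / 4) := by
      rw [Real.volume_Icc]; congr 1; norm_num
    rw [← hv, ← setLIntegral_const]
    refine (setLIntegral_mono' measurableSet_Icc fun Y hY => ?_).trans (setLIntegral_le_lintegral _ _)
    refine ENNReal.rpow_le_rpow ?_ (by linarith)
    rw [← ofReal_norm]
    exact ENNReal.ofReal_le_ofReal (key Y hY)
  calc ENNReal.ofReal ((mu / 4) ^ p) ≤ ENNReal.ofReal ((7 / 10 * mu) ^ p * (1 / 4)) := by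
        refine ENNReal.ofReal_le_ofReal ?_
        have e1 : (7 / 10 * mu) ^ p = (mu / 4) ^ p * (14 / 5 : ℝ) ^ p := by
          rw [← Real.mul_rpow (by positivity) (by norm_num)]
          congr 1; ring
        have e2 : (4 : ℝ) ≤ (14 / 5 : ℝ) ^ p := by
          calc (4 : ℝ) ≤ (14 / 5 : ℝ) ^ (2 : ℝ) := by norm_num
            _ ≤ _ := Real.rpow_le_rpow_of_exponent_le (by norm_num) hp
        rw [e1]
        have h3 : 0 < (mu / 4) ^ p := by positivity
        nlinarith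
    _ = ENNReal.ofReal (7 / 10 * mu) ^ p * ENNReal.ofReal (1 / 4) := by
        rw [ENNReal.ofReal_mul (by positivity), ENNReal.ofReal_rpow_of_pos (by positivity)]
    _ ≤ ENNReal.ofReal (1 / 2 ^ 0) * ∫⁻ Y, ‖coef (fun y => (g y : ℂ)) Y 0 0‖ₑ ^ p := by
        simpa using h2

/-! ## the near-maximiser -/

/-- output of the maximisation -/
structure Blk (s : ℝ → ℂ) (θ : ℝ → ℝ) (al : ℕ → ℤ → Prop) (f : ℝ → ℂ) (n m : ℕ) (p v V mu : ℝ)
    (k0 : ℕ) (j0 : ℤ) (g : ℝ → ℂ) (κ : ℝ → ℕ) : Prop where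
  meas_g : Measurable g
  meas_κ : Measurable κ
  le_f : ∀ y, ‖g y‖ ≤ ‖f y‖
  supp : ∀ y, g y ≠ 0 → y ∈ Ivl k0 j0 ∧ y ∈ Ivl 0 0
  gt : ∀ y, k0 < κ y
  le_m : ∀ y, κ y ≤ m
  pay : ∀ y, g y ≠ 0 → v ≤ ‖Pay s θ al (κ y) y - Pay s θ al k0 y‖
  pay' : ∀ y, g y ≠ 0 → ∀ k, k0 ≤ k → k ≤ κ y → ‖Pay s θ al k y - Pay s θ al k0 y‖ ≤ v + 1
  live : ∀ y, g y ≠ 0 → ∀ k < κ y, al k (fl k y)
  dens1 : ∀ k j, avN (fun y => if k < κ y then g y else 0) k j ≤ 1
  dens2 : ∀ k j, avN (fun y => if k ≤ κ y then g y else 0) k j ≤ 2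
  nm : ∀ k, k0 ≤ k → ∀ (j : ℤ) (g' : ℝ → ℂ), Measurable g' →
    (∀ y ∈ Ivl k j, ‖g' y‖ ≤ if k ≤ κ y then ‖g y‖ else 0) →
    Np p g' k j ≤ ENNReal.ofReal (9 ^ p) * Np p g k0 j0
  lb : ENNReal.ofReal (1 / 2 * (mu / 4 * Real.exp (-(V + 3) / v)) ^ p) ≤ Np p g k0 j0
  ub : Np p g k0 j0 ≤ ENNReal.ofReal (2 ^ (p + n))

theorem avN_le_avN {g g' : ℝ → ℂ} {k : ℕ} {j : ℤ} (hg : Measurable g) {M : ℝ}
    (hM : ∀ y, ‖g y‖ ≤ M) (h : ∀ y ∈ Ivl k j, ‖g' y‖ ≤ ‖g y‖) : avN g' k j ≤ avN g k j := by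
  unfold avN
  refine mul_le_mul_of_nonneg_left ?_ (by positivity)
  refine integral_mono_of_nonneg (Filter.Eventually.of_forall fun y => norm_nonneg _)
    (intOn k j hg.norm (M := M) (fun x => by simpa using hM x)) ?_
  refine (ae_restrict_iff' (measurableSet_Ivl _ _)).2 (Filter.Eventually.of_forall h)

theorem avN_child {g : ℝ → ℂ} (hg : Measurable g) {M : ℝ} (hM : ∀ y, ‖g y‖ ≤ M) (k : ℕ) (j : ℤ) :
    avN g (k + 1) j ≤ 2 * avN g k (j / 2) := by
  have h := avN_split hg hM k (j / 2)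
  have h1 := avN_nonneg g (k + 1) (2 * (j / 2))
  have h2 := avN_nonneg g (k + 1) (2 * (j / 2) + 1)
  rcases Int.emod_two_eq_zero_or_one j with h0 | h0
  · have : j = 2 * (j / 2) := by omega
    rw [this, show 2 * (j / 2) / 2 = j / 2 by omega]
    linarith
  · have : j = 2 * (j / 2) + 1 := by omega
    rw [this, show (2 * (j / 2) + 1) / 2 = j / 2 by omega]
    linarith

/-- density bound from liveness -/
theorem dens_of_live (hf : Measurable f) {M : ℝ} (hM : ∀ x, ‖f x‖ ≤ M)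
    (hd : ∀ k j, al k j → avN f k j ≤ 1) {g : ℝ → ℂ} {k : ℕ} {j : ℤ}
    (hg : ∀ y ∈ Ivl k j, ‖g y‖ ≤ ‖f y‖)
    (h : ∀ y ∈ Ivl k j, g y ≠ 0 → al k (fl k y)) : avN g k j ≤ 1 := by
  by_cases h0 : ∃ y ∈ Ivl k j, g y ≠ 0
  · obtain ⟨y, hy, hy0⟩ := h0
    have h1 := h y hy hy0
    rw [mem_Ivl.1 hy] at h1
    exact (avN_le_avN hf hM hg).trans (hd k j h1)
  · push Not at h0
    have : avN g k j = 0 := by
      unfold avN
      rw [setIntegral_congr_fun (measurableSet_Ivl _ _) (g := fun _ => (0 : ℝ))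
        (fun y hy => by simp [h0 y hy])]
      simp
    rw [this]; norm_num

theorem dens_of_live' (hf : Measurable f) {M : ℝ} (hM : ∀ x, ‖f x‖ ≤ M)
    (hd : ∀ k j, al k j → avN f k j ≤ 1) {g : ℝ → ℂ} {k : ℕ} {j : ℤ}
    (hg : ∀ y ∈ Ivl k j, ‖g y‖ ≤ ‖f y‖)
    (h : ∀ y ∈ Ivl k j, g y ≠ 0 → al (k - 1) (fl (k - 1) y)) : avN g k j ≤ 2 := by
  by_cases h0 : ∃ y ∈ Ivl k j, g y ≠ 0
  · obtain ⟨y, hy, hy0⟩ := h0
    have h1 := h y hy hy0
    refine (avN_le_avN hf hM hg).trans ?_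
    rcases Nat.eq_zero_or_pos k with hk | hk
    · subst hk
      have := hd 0 j (by simpa [mem_Ivl.1 hy] using h1)
      linarith
    · obtain ⟨k', rfl⟩ : ∃ k', k = k' + 1 := ⟨k - 1, by omega⟩
      rw [Nat.add_sub_cancel, fl_half, mem_Ivl.1 hy] at h1
      have h2 := hd _ _ h1
      have h3 := avN_child hf hM k' j
      linarith
  · push Not at h0
    have : avN g k j = 0 := by
      unfold avN
      rw [setIntegral_congr_fun (measurableSet_Ivl _ _) (g := fun _ => (0 : ℝ))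
        (fun y hy => by simp [h0 y hy])]
      simp
    rw [this]; norm_num

/-- a state with a nonzero functional has a bounded level -/
theorem St.r_le (hs1 : ∀ x, ‖s x‖ ≤ 1) (hV : 0 < V) (hp : 0 < p) {k : ℕ} {j : ℤ} {g : ℝ → ℂ}
    {r : ℝ} (h : St s θ al f m V E0 k j g r) (h0 : Np p g k j ≠ 0) :
    r ≤ 2 * V + 2 ∧ ∃ y, g y ≠ 0 := by
  have : ∃ y ∈ Ivl k j, g y ≠ 0 := by
    by_contra hc
    push Not at hc
    exact h0 (Np_eq_zero hp hc)
  obtain ⟨y, -, hy⟩ := this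
  obtain ⟨-, -, h1, h2⟩ := h.sup y hy
  exact ⟨h2.trans (Rem_le hs1 hV h1), y, hy⟩

theorem St.Np_le (hf : Measurable f) (hn : ∀ x, ‖f x‖ ≤ 2 ^ n)
    (hcl : ∀ k j, al (k + 1) j → al k (j / 2)) (hd : ∀ k j, al k j → avN f k j ≤ 1)
    (hV : 0 < V) (hE : ∀ y ∈ E0, ∃ k ≤ m, V ≤ ‖Pay s θ al k y‖) (hp : 2 ≤ p) {k : ℕ} {j : ℤ}
    {g : ℝ → ℂ} {r : ℝ} (h : St s θ al f m V E0 k j g r) :
    Np p g k j ≤ ENNReal.ofReal (2 ^ (p + n)) := by
  refine Near903.Np_le hp h.meas (fun y => (h.le y).trans (hn y)) ?_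
  refine dens_of_live' (al := al) hf hn hd (fun y _ => h.le y) fun y _ hy => ?_
  obtain ⟨-, h1, h2, -⟩ := h.sup y hy
  obtain ⟨h3, h4⟩ := kz_spec (hE y h1)
  have h5 : 0 < kz s θ al m V y := by
    rcases Nat.eq_zero_or_pos (kz s θ al m V y) with h0 | h0
    · rw [h0] at h4
      simp [Pay] at h4
      linarith
    · exact h0
  exact al_of_lt_kz hcl h4 (by omega)

/-- **B1 + B2**: near-maximiser of the functional and its stopping time -/
theorem exists_blk (hf : Measurable f) (hn : ∀ x, ‖f x‖ ≤ 2 ^ n) (hs : Measurable s)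
    (hs1 : ∀ x, ‖s x‖ ≤ 1) (hθ : Measurable θ)
    (hcl : ∀ k j, al (k + 1) j → al k (j / 2)) (hd : ∀ k j, al k j → avN f k j ≤ 1)
    (hE : MeasurableSet E0) (hE0 : E0 ⊆ Ivl 0 0) (hEV : ∀ y ∈ E0, ∃ k ≤ m, V ≤ ‖Pay s θ al k y‖)
    (hV0 : 0 < V) {mu : ℝ} (hmu : 0 < mu) (hmu' : mu ≤ ∫ y in E0, ‖f y‖) (hp : 2 ≤ p)
    (hpv : p ≤ v) (hnum : v * (4 + Real.log (4 / mu)) + v / p * (n + 3) + 2 < V) :
    ∃ (k0 : ℕ) (j0 : ℤ) (g : ℝ → ℂ) (κ : ℝ → ℕ), Blk s θ al f n m p v V mu k0 j0 g κ := by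
  classical
  have hp0 : 0 < p := by linarith
  have hv0 : 0 < v := by linarith
  -- the mass is at most one
  have hmu1 : mu ≤ 1 := by
    have hne : E0.Nonempty := by
      by_contra hc
      rw [not_nonempty_iff_eq_empty] at hc
      rw [hc] at hmu'
      simp at hmu'
      linarith
    obtain ⟨y, hy⟩ := hne
    obtain ⟨h3, h4⟩ := kz_spec (hEV y hy)
    have h5 : 0 < kz s θ al m V y := by
      rcases Nat.eq_zero_or_pos (kz s θ al m V y) with h0 | h0
      · rw [h0] at h4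
        simp [Pay] at h4
        linarith
      · exact h0
    have h6 := hd _ _ (al_of_lt_kz hcl h4 h5)
    rw [mem_Ivl.1 (hE0 hy)] at h6
    refine hmu'.trans (le_trans ?_ h6)
    unfold avN
    rw [pow_zero, one_mul]
    exact setIntegral_mono_set (intOn 0 0 hf.norm (M := 2 ^ n) (fun x => by simpa using hn x))
      (Filter.Eventually.of_forall fun y => norm_nonneg _) hE0.eventuallyLE
  have hlog : 0 ≤ Real.log (4 / mu) := Real.log_nonneg (by rw [le_div_iff₀ hmu]; linarith)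
  set w : ℝ → ℝ≥0∞ := fun r => ENNReal.ofReal (Real.exp (p * r / v)) with hw
  set 𝒮 : Set ℝ≥0∞ := {x | ∃ (k : ℕ) (j : ℤ) (g : ℝ → ℂ) (r : ℝ),
    St s θ al f m V E0 k j g r ∧ x = w r * Np p g k j} with h𝒮
  -- finiteness
  have hfin : sSup 𝒮 ≤ ENNReal.ofReal (Real.exp (p * (2 * V + 2) / v) * 2 ^ (p + n)) := by
    refine sSup_le ?_
    rintro x ⟨k, j, g, r, hst, rfl⟩
    by_cases h0 : Np p g k j = 0
    · simp [h0]
    · have h1 := (hst.r_le hs1 hV0 hp0 h0).1
      rw [ENNReal.ofReal_mul (by positivity)]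
      refine mul_le_mul' (ENNReal.ofReal_le_ofReal ?_) (hst.Np_le hf hn hcl hd hV0 hEV hp)
      rw [Real.exp_le_exp]
      gcongr
  have hS_top : sSup 𝒮 ≠ ⊤ := ne_top_of_le_ne_top ENNReal.ofReal_ne_top hfin
  -- the root
  have hroot : ENNReal.ofReal (Real.exp (p * V / v) * (mu / 4) ^ p) ≤ sSup 𝒮 := by
    set g0 : ℝ → ℝ := E0.indicator (fun y => ‖f y‖) with hg0
    have hg0m : Measurable g0 := hf.norm.indicator hE
    have hst : St s θ al f m V E0 0 0 (fun y => (g0 y : ℂ)) V := by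
      refine ⟨Complex.measurable_ofReal.comp hg0m, fun y => ?_, fun y hy => ?_⟩
      · rw [Complex.norm_real, hg0]
        by_cases h : y ∈ E0
        · rw [indicator_of_mem h]; simp
        · rw [indicator_of_notMem h]; simp
      · have hy' : y ∈ E0 := by
          by_contra h
          apply hy
          rw [hg0, indicator_of_notMem h]; simp
        exact ⟨hE0 hy', hy', Nat.zero_le _, Rem_zero hV0 (kz_spec (hEV y hy')).2⟩
    have h1 : w V * Np p (fun y => (g0 y : ℂ)) 0 0 ≤ sSup 𝒮 := le_sSup ⟨0, 0, _, V, hst, rfl⟩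
    refine le_trans ?_ h1
    rw [ENNReal.ofReal_mul (by positivity)]
    refine mul_le_mul' le_rfl ?_
    refine Np_root (M := 2 ^ n) hp hg0m (fun y => ?_) (fun y => ?_) hmu ?_
    · exact indicator_nonneg (fun _ _ => norm_nonneg _) y
    · exact (hst.le y).trans (hn y)
    · rw [hg0, setIntegral_indicator hE, inter_eq_self_of_subset_right hE0]
      exact hmu'
  have hS_pos : 0 < sSup 𝒮 := lt_of_lt_of_le (by rw [ENNReal.ofReal_pos]; positivity) hroot
  -- the near-maximiser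
  obtain ⟨x, ⟨k0, j0, g, r, hst, rfl⟩, hx⟩ : ∃ x ∈ 𝒮, sSup 𝒮 / 2 < x :=
    lt_sSup_iff.1 (ENNReal.half_lt_self hS_pos.ne' hS_top)
  have hmax : ∀ {k : ℕ} {j : ℤ} {g' : ℝ → ℂ} {r' : ℝ}, St s θ al f m V E0 k j g' r' →
      w r' * Np p g' k j ≤ 2 * (w r * Np p g k0 j0) := by
    intro k j g' r' h'
    have h1 : w r' * Np p g' k j ≤ sSup 𝒮 := le_sSup ⟨k, j, g', r', h', rfl⟩
    refine h1.trans ?_
    have h2 := hx.le
    rw [ENNReal.div_le_iff (by norm_num) (by norm_num)] at h2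
    rwa [mul_comm] at h2
  have hN0 : Np p g k0 j0 ≠ 0 := by
    intro h0
    rw [h0, mul_zero] at hx
    exact absurd hx (by simp)
  obtain ⟨hr2, y0, hy0⟩ := hst.r_le hs1 hV0 hp0 hN0
  have hNub := hst.Np_le hf hn hcl hd hV0 hEV hp
  have hNtop : Np p g k0 j0 ≠ ⊤ := ne_top_of_le_ne_top ENNReal.ofReal_ne_top hNub
  set N : ℝ := (Np p g k0 j0).toReal with hN
  have hN_eq : Np p g k0 j0 = ENNReal.ofReal N := (ENNReal.ofReal_toReal hNtop).symm
  have hNpos : 0 < N := ENNReal.toReal_pos hN0 hNtop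
  -- the basic real inequality
  have hbase : Real.exp (p * V / v) * (mu / 4) ^ p ≤ 2 * (Real.exp (p * r / v) * N) := by
    have h1 : ENNReal.ofReal (Real.exp (p * V / v) * (mu / 4) ^ p) ≤
        ENNReal.ofReal (2 * (Real.exp (p * r / v) * N)) := by
      rw [ENNReal.ofReal_mul (p := (2 : ℝ)) (by norm_num),
        ENNReal.ofReal_mul (p := Real.exp (p * r / v)) (by positivity), ← hN_eq,
        ENNReal.ofReal_ofNat]
      refine hroot.trans ?_
      have h2 := hx.le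
      rw [ENNReal.div_le_iff (by norm_num) (by norm_num)] at h2
      rwa [mul_comm] at h2
    exact (ENNReal.ofReal_le_ofReal_iff (by positivity)).1 h1
  have hNub' : N ≤ 2 ^ (p + n) := by
    rw [hN_eq] at hNub
    exact (ENNReal.ofReal_le_ofReal_iff (by positivity)).1 hNub
  -- lower bound of `r`
  have hr : v + 1 < r := by
    have h1 : Real.exp (p * V / v) * (mu / 4) ^ p ≤ 2 * (Real.exp (p * r / v) * 2 ^ (p + n)) :=
      hbase.trans (by gcongr)
    have h2 := Real.log_le_log (by positivity) h1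
    rw [Real.log_mul (by positivity) (by positivity), Real.log_exp,
      Real.log_mul (by norm_num) (by positivity), Real.log_mul (by positivity) (by positivity),
      Real.log_exp, Real.log_rpow (by positivity), Real.log_rpow (by norm_num)] at h2
    have h3 : Real.log (mu / 4) = -Real.log (4 / mu) := by
      rw [← Real.log_inv]; congr 1; field_simp
    rw [h3] at h2
    have hlog2 : Real.log 2 ≤ 1 := by
      have := Real.log_two_lt_d9; linarith
    have hlog2' : 0 ≤ Real.log 2 := Real.log_nonneg (by norm_num)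
    have h4 : p * V / v - p * Real.log (4 / mu) ≤ 1 + (p * r / v + (p + n)) := by
      have : (p + n) * Real.log 2 ≤ (p + n) * 1 := by gcongr
      linarith
    have h5 : V - v * Real.log (4 / mu) ≤ v / p + (r + (v + v / p * n)) := by
      have h6 := mul_le_mul_of_nonneg_left h4 (by positivity : 0 ≤ v / p)
      have e1 : v / p * (p * V / v - p * Real.log (4 / mu)) = V - v * Real.log (4 / mu) := by
        field_simp
      have e2 : v / p * (1 + (p * r / v + (p + n))) = v / p + (r + (v + v / p * n)) := by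
        field_simp
      rwa [e1, e2] at h6
    have h7 : v * (4 + Real.log (4 / mu)) + v / p * (n + 3) + 2 =
        4 * v + v * Real.log (4 / mu) + v / p * n + 3 * (v / p) + 2 := by ring
    rw [h7] at hnum
    have h8 : 0 ≤ v / p := by positivity
    linarith
  -- facts on the support
  have hfact : ∀ y, g y ≠ 0 → kp s θ al m k0 v y ≤ kz s θ al m V y ∧ kz s θ al m V y ≤ m ∧
      v ≤ ‖Pay s θ al (kp s θ al m k0 v y) y - Pay s θ al k0 y‖ := by
    intro y hy
    obtain ⟨-, h1, h2, h3⟩ := hst.sup y hy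
    obtain ⟨h4, h5⟩ := kz_spec (hEV y h1)
    have h6 : Rem s θ al m V k0 y ≤ ‖Pay s θ al (kz s θ al m V y) y - Pay s θ al k0 y‖ := by
      unfold Rem
      refine (Complex.re_le_norm _).trans ?_
      rw [norm_mul]
      calc _ ≤ 1 * ‖Pay s θ al (kz s θ al m V y) y - Pay s θ al k0 y‖ := by
            gcongr
            exact norm_ub_le y
        _ = _ := one_mul _
    have h7 : v ≤ ‖Pay s θ al (kz s θ al m V y) y - Pay s θ al k0 y‖ := by linarith
    have h8 : k0 < kz s θ al m V y := by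
      rcases h2.lt_or_eq with h | h
      · exact h
      · rw [← h, sub_self, norm_zero] at h7
        linarith
    obtain ⟨h9, h10⟩ := kp_spec (m := m) h8 (by omega) h7
    exact ⟨h9, h4, h10⟩
  set κ : ℝ → ℕ := fun y => if g y ≠ 0 then kp s θ al m k0 v y else k0 + 1 with hκ
  have hκ1 : ∀ y, g y ≠ 0 → κ y = kp s θ al m k0 v y := fun y hy => by simp [hκ, hy]
  have hκm : Measurable κ := by
    refine Measurable.ite ?_ (measurable_kp hs hθ m k0 v) measurable_const
    exact (measurableSet_eq_fun hst.meas measurable_const).compl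
  have hk0m : k0 + 1 ≤ m := by
    obtain ⟨h1, h2, -⟩ := hfact y0 hy0
    have := kp_gt (s := s) (θ := θ) (al := al) m k0 v y0
    omega
  have hgf : ∀ y, ‖g y‖ ≤ 2 ^ n := fun y => (hst.le y).trans (hn y)
  have hlive : ∀ y, g y ≠ 0 → ∀ k < κ y, al k (fl k y) := by
    intro y hy k hk
    rw [hκ1 y hy] at hk
    exact al_of_lt_kp hcl hv0 (hfact y hy).2.2 hk
  refine ⟨k0, j0, g, κ, ?_⟩
  refine
    { meas_g := hst.meas
      meas_κ := hκm
      le_f := hst.le
      supp := fun y hy => ⟨(hst.sup y hy).1, hE0 (hst.sup y hy).2.1⟩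
      gt := ?_
      le_m := ?_
      pay := ?_
      pay' := ?_
      live := hlive
      dens1 := ?_
      dens2 := ?_
      nm := ?_
      lb := ?_
      ub := hNub }
  · intro y
    by_cases hy : g y ≠ 0
    · rw [hκ1 y hy]; exact kp_gt m k0 v y
    · simp only [hκ, hy, if_false]; omega
  · intro y
    by_cases hy : g y ≠ 0
    · rw [hκ1 y hy]
      obtain ⟨h1, h2, -⟩ := hfact y hy
      omega
    · simp only [hκ, hy, if_false]; omega
  · intro y hy
    rw [hκ1 y hy]; exact (hfact y hy).2.2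
  · intro y hy k hk hk'
    rw [hκ1 y hy] at hk'
    exact norm_le_of_le_kp hs1 hv0 hk hk'
  · intro k j
    refine dens_of_live (al := al) hf hn hd (fun y _ => ?_) fun y _ hy => ?_
    · split_ifs
      · exact hst.le y
      · simp
    · have h1 : k < κ y ∧ g y ≠ 0 := by
        by_contra h
        apply hy
        split_ifs with h2
        · by_contra h3; exact h ⟨h2, h3⟩
        · rfl
      exact hlive y h1.2 k h1.1
  · intro k j
    refine dens_of_live' (al := al) hf hn hd (fun y _ => ?_) fun y _ hy => ?_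
    · split_ifs
      · exact hst.le y
      · simp
    · have h1 : k ≤ κ y ∧ g y ≠ 0 := by
        by_contra h
        apply hy
        split_ifs with h2
        · by_contra h3; exact h ⟨h2, h3⟩
        · rfl
      have h2 : k0 < κ y := by rw [hκ1 y h1.2]; exact kp_gt m k0 v y
      exact hlive y h1.2 (k - 1) (by omega)
  · -- near-maximality
    intro k hk j g' hg'm hg'
    set g'' : ℝ → ℂ := (Ivl k j).indicator g' with hg''
    have e1 : Np p g' k j = Np p g'' k j :=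
      Np_congr fun y hy => by rw [hg'', indicator_of_mem hy]
    have hst' : St s θ al f m V E0 k j g'' (r - v - 1) := by
      refine ⟨hg'm.indicator (measurableSet_Ivl _ _), fun y => ?_, fun y hy => ?_⟩
      · by_cases hy : y ∈ Ivl k j
        · rw [hg'', indicator_of_mem hy]
          refine (hg' y hy).trans ?_
          split_ifs
          · exact hst.le y
          · exact norm_nonneg _
        · rw [hg'', indicator_of_notMem hy]; simp
      · have hy1 : y ∈ Ivl k j := by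
          by_contra h
          exact hy (by rw [hg'', indicator_of_notMem h])
        rw [hg'', indicator_of_mem hy1] at hy
        have h1 := hg' y hy1
        have h2 : 0 < ‖g' y‖ := norm_pos_iff.2 hy
        have h3 : k ≤ κ y := by
          by_contra h
          rw [if_neg h] at h1
          linarith
        rw [if_pos h3] at h1
        have h4 : g y ≠ 0 := norm_pos_iff.1 (h2.trans_le h1)
        rw [hκ1 y h4] at h3
        obtain ⟨h5, h6, h7⟩ := hfact y h4
        obtain ⟨-, h8, h9, h10⟩ := hst.sup y h4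
        refine ⟨hy1, h8, h3.trans h5, ?_⟩
        have h11 := Rem_diff (s := s) (θ := θ) (al := al) (m := m) (V := V) (k := k) (k0 := k0)
          (y := y)
        have h12 := norm_le_of_le_kp (s := s) (θ := θ) (al := al) (m := m) (y := y) hs1 hv0 hk h3
        linarith
    have h1 := hmax hst'
    rw [← e1] at h1
    have hw0 : w (r - v - 1) ≠ 0 := by
      rw [hw]; simp only [ne_eq, ENNReal.ofReal_eq_zero, not_le]; positivity
    have hwt : w (r - v - 1) ≠ ⊤ := ENNReal.ofReal_ne_top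
    have h2 : w (r - v - 1) * Np p g' k j ≤
        w (r - v - 1) * (ENNReal.ofReal (9 ^ p) * Np p g k0 j0) := by
      refine h1.trans ?_
      rw [← mul_assoc, ← mul_assoc]
      refine mul_le_mul' ?_ le_rfl
      simp only [hw]
      rw [show (2 : ℝ≥0∞) = ENNReal.ofReal 2 by simp, ← ENNReal.ofReal_mul (by norm_num),
        ← ENNReal.ofReal_mul (by positivity)]
      refine ENNReal.ofReal_le_ofReal ?_
      have e2 : p * r / v = p * (r - v - 1) / v + (p + p / v) := by field_simp; ring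
      rw [e2, Real.exp_add]
      have h3 : 2 * Real.exp (p + p / v) ≤ 9 ^ p := by
        have h4 : p / v ≤ 1 := (div_le_one hv0).2 hpv
        have h5 : Real.exp (p + p / v) ≤ Real.exp 1 * Real.exp 1 ^ p := by
          rw [← Real.exp_mul, one_mul, ← Real.exp_add]
          exact Real.exp_le_exp.2 (by linarith)
        have he : Real.exp 1 < 2.7182818286 := Real.exp_one_lt_d9
        have he0 := Real.exp_pos 1
        have h6 : Real.exp 1 ^ p ≤ 3 ^ p := Real.rpow_le_rpow he0.le (by linarith) (by linarith)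
        have h7 : (9 : ℝ) ^ p = 3 ^ p * 3 ^ p := by
          rw [← Real.mul_rpow (by norm_num) (by norm_num)]; norm_num
        have h8 : (9 : ℝ) ≤ 3 ^ p := by
          calc (9 : ℝ) = 3 ^ (2 : ℝ) := by norm_num
            _ ≤ 3 ^ p := Real.rpow_le_rpow_of_exponent_le (by norm_num) hp
        have h9 : 0 < (3 : ℝ) ^ p := by positivity
        rw [h7]
        calc 2 * Real.exp (p + p / v) ≤ 2 * (Real.exp 1 * Real.exp 1 ^ p) := by gcongr
          _ ≤ 2 * (3 * 3 ^ p) := by gcongr; linarith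
          _ ≤ 3 ^ p * 3 ^ p := by nlinarith
      have h10 := Real.exp_pos (p * (r - v - 1) / v)
      nlinarith
    exact (ENNReal.mul_le_mul_iff_right hw0 hwt).1 h2
  · -- lower bound
    rw [hN_eq]
    refine ENNReal.ofReal_le_ofReal ?_
    have e1 : (mu / 4 * Real.exp (-(V + 3) / v)) ^ p =
        (mu / 4) ^ p * Real.exp (p * (-(V + 3)) / v) := by
      rw [Real.mul_rpow (by positivity) (Real.exp_pos _).le, ← Real.exp_mul]
      congr 2; ring
    rw [e1]
    have h1 : Real.exp (p * V / v) * (mu / 4) ^ p ≤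
        2 * (Real.exp (p * (2 * V + 2) / v) * N) := by
      refine hbase.trans ?_
      gcongr
    have h2 : Real.exp (p * (2 * V + 2) / v) = Real.exp (p * V / v) * Real.exp (p * (V + 2) / v) := by
      rw [← Real.exp_add]; congr 1; ring
    rw [h2] at h1
    have h3 : (mu / 4) ^ p ≤ 2 * (Real.exp (p * (V + 2) / v) * N) := by
      have h4 := Real.exp_pos (p * V / v)
      have h5 : Real.exp (p * V / v) * (mu / 4) ^ p ≤
          Real.exp (p * V / v) * (2 * (Real.exp (p * (V + 2) / v) * N)) := by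
        calc _ ≤ _ := h1
          _ = _ := by ring
      exact le_of_mul_le_mul_left h5 h4
    calc 1 / 2 * ((mu / 4) ^ p * Real.exp (p * (-(V + 3)) / v))
        ≤ 1 / 2 * ((2 * (Real.exp (p * (V + 2) / v) * N)) * Real.exp (p * (-(V + 3)) / v)) := by
          gcongr
      _ = (Real.exp (p * (V + 2) / v) * Real.exp (p * (-(V + 3)) / v)) * N := by ring
      _ ≤ 1 * N := by
          gcongr
          rw [← Real.exp_add, Real.exp_le_one_iff]
          have : p * (V + 2) / v + p * (-(V + 3)) / v = -(p / v) := by ring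
          rw [this]
          have : 0 < p / v := by positivity
          linarith
      _ = N := one_mul N

end Crest.Agent.R100.Near903
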