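import Crest.Agent.R100.Mart_933

/-!
# R100 / S0132: one label, one run, with exits (helper288)

`a` = value of the process at a node AFTER the removals at that node, `b` = value BEFORE them,
`z` = mass removed at the node.  The step from a node to its children is a martingale step
(`a k j` is the average of `b` over the two children).  The signs `rad (l+1)` multiply the
differences `b (l+1) - a l`.
-/

set_option autoImplicit false

open MeasureTheory Set
open scoped ENNReal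

noncomputable section

namespace Crest.Agent.R100.Run288

open Crest.Agent.R100.Mart933

/-- process with exits -/
structure Proc (a b : ℕ → ℤ → ℂ) (z : ℕ → ℤ → ℝ) : Prop where
  mart : ∀ k j, a k j = (b (k + 1) (2 * j) + b (k + 1) (2 * j + 1)) / 2
  ex : ∀ k j, ‖b k j - a k j‖ ≤ z k j

theorem Proc.z_nonneg {a b : ℕ → ℤ → ℂ} {z : ℕ → ℤ → ℝ} (h : Proc a b z) (k : ℕ) (j : ℤ) :
    0 ≤ z k j := (norm_nonneg _).trans (h.ex k j)

/-- half difference -/
def hx (b : ℕ → ℤ → ℂ) (k : ℕ) (j : ℤ) : ℂ := (b (k + 1) (2 * j) - b (k + 1) (2 * j + 1)) / 2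

theorem Proc.left {a b : ℕ → ℤ → ℂ} {z : ℕ → ℤ → ℝ} (h : Proc a b z) (k : ℕ) (j : ℤ) :
    b (k + 1) (2 * j) = a k j + hx b k j := by
  rw [h.mart k j, hx]; ring

theorem Proc.right {a b : ℕ → ℤ → ℂ} {z : ℕ → ℤ → ℝ} (h : Proc a b z) (k : ℕ) (j : ℤ) :
    b (k + 1) (2 * j + 1) = a k j - hx b k j := by
  rw [h.mart k j, hx]; ring

/-- difference along the path -/
def dx (a b : ℕ → ℤ → ℂ) (k : ℕ) (x : ℝ) : ℂ := b (k + 1) (fl (k + 1) x) - a k (fl k x)

theorem Proc.norm_dx {a b : ℕ → ℤ → ℂ} {z : ℕ → ℤ → ℝ} (h : Proc a b z) (k : ℕ) (x : ℝ) :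
    ‖dx a b k x‖ = ‖hx b k (fl k x)‖ := by
  unfold dx
  rcases fl_succ_div k x with h' | h'
  · rw [h', h.left]; simp
  · rw [h', h.right]; simp

open Classical in
/-- switched quadratic variation -/
def QX (b : ℕ → ℤ → ℂ) (al : ℕ → ℤ → Prop) (k m : ℕ) (x : ℝ) : ℝ :=
  ∑ l ∈ Finset.Ico k m, if al l (fl l x) then ‖hx b l (fl l x)‖ ^ 2 else 0

open Classical in
/-- mass removed at the nodes whose parent is switched on -/
def ZX (z : ℕ → ℤ → ℝ) (al : ℕ → ℤ → Prop) (k m : ℕ) (x : ℝ) : ℝ :=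
  ∑ l ∈ Finset.Ico k m, if al l (fl l x) then z (l + 1) (fl (l + 1) x) else 0

open Classical in
/-- the signed sum -/
def SX (a b : ℕ → ℤ → ℂ) (al : ℕ → ℤ → Prop) (k K : ℕ) (x : ℝ) : ℂ :=
  ∑ l ∈ Finset.Ico k K, if al l (fl l x) then (rad (l + 1) x : ℂ) * dx a b l x else 0

theorem measurable_QX (b : ℕ → ℤ → ℂ) (al : ℕ → ℤ → Prop) (k m : ℕ) :
    Measurable (QX b al k m) := by
  classical
  unfold QX
  refine Finset.measurable_sum _ fun l _ => ?_
  exact measurable_fl_comp l (fun j => if al l j then ‖hx b l j‖ ^ 2 else 0)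

theorem measurable_ZX (z : ℕ → ℤ → ℝ) (al : ℕ → ℤ → Prop) (k m : ℕ) :
    Measurable (ZX z al k m) := by
  classical
  unfold ZX
  refine Finset.measurable_sum _ fun l _ => ?_
  have : (fun x : ℝ => if al l (fl l x) then z (l + 1) (fl (l + 1) x) else 0) =
      fun x => (fun j : ℤ => if al l (j / 2) then z (l + 1) j else 0) (fl (l + 1) x) := by
    funext x
    simp only [← fl_half]
  rw [this]
  exact measurable_fl_comp (l + 1) (fun j : ℤ => if al l (j / 2) then z (l + 1) j else 0)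

theorem QX_nonneg (b : ℕ → ℤ → ℂ) (al : ℕ → ℤ → Prop) (k m : ℕ) (x : ℝ) : 0 ≤ QX b al k m x := by
  classical
  unfold QX
  refine Finset.sum_nonneg fun l _ => ?_
  split_ifs <;> positivity

theorem QX_mono (b : ℕ → ℤ → ℂ) (al : ℕ → ℤ → Prop) (k : ℕ) {m m' : ℕ} (h : m ≤ m') (x : ℝ) :
    QX b al k m x ≤ QX b al k m' x := by
  classical
  unfold QX
  apply Finset.sum_le_sum_of_subset_of_nonneg
  · exact Finset.Ico_subset_Ico_right h
  · intro l _ _
    split_ifs <;> positivity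

theorem Proc.ZX_nonneg {a b : ℕ → ℤ → ℂ} {z : ℕ → ℤ → ℝ} (h : Proc a b z) (al : ℕ → ℤ → Prop)
    (k m : ℕ) (x : ℝ) : 0 ≤ ZX z al k m x := by
  classical
  unfold ZX
  refine Finset.sum_nonneg fun l _ => ?_
  split_ifs
  · exact h.z_nonneg _ _
  · exact le_rfl

/-- the key numerical inequality -/
theorem exp_step' {c x u : ℝ} (hc : 0 < c) (hx : 0 ≤ x) (hu : 0 ≤ u) :
    Real.exp (x / c) * (c - (u + x)) ≤ c - u := by
  have h1 : Real.exp (x / c) * (1 - x / c) ≤ 1 := by
    have := Real.add_one_le_exp (-(x / c))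
    have h2 : Real.exp (x / c) * (1 - x / c) ≤ Real.exp (x / c) * Real.exp (-(x / c)) := by
      apply mul_le_mul_of_nonneg_left _ (Real.exp_pos _).le
      linarith
    rw [← Real.exp_add] at h2
    simpa using h2
  have h3 : Real.exp (x / c) * (c - x) ≤ c := by
    have : Real.exp (x / c) * (c - x) = c * (Real.exp (x / c) * (1 - x / c)) := by
      field_simp
    rw [this]
    nlinarith
  have h4 : (1 : ℝ) ≤ Real.exp (x / c) := Real.one_le_exp (by positivity)
  nlinarith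

/-- exit step: `c - |a|² ≤ exp (12 R z / c) (c - |b|²)` -/
theorem exit_step {R z : ℝ} (hR : 0 < R) {a b : ℂ} (hb : ‖b‖ ≤ 3 * R) (hz : ‖b - a‖ ≤ z) :
    18 * R ^ 2 - ‖a‖ ^ 2 ≤ Real.exp (12 * R * z / (18 * R ^ 2)) * (18 * R ^ 2 - ‖b‖ ^ 2) := by
  have hz0 : 0 ≤ z := (norm_nonneg _).trans hz
  have h1 : ‖b‖ ≤ ‖a‖ + z := by
    calc ‖b‖ = ‖a + (b - a)‖ := by ring_nf
      _ ≤ ‖a‖ + ‖b - a‖ := norm_add_le _ _
      _ ≤ _ := by linarith
  have h2 : ‖b‖ ^ 2 - 6 * R * z ≤ ‖a‖ ^ 2 := by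
    rcases le_total ‖b‖ z with h | h
    · nlinarith [norm_nonneg a, norm_nonneg b]
    · have : (‖b‖ - z) ^ 2 ≤ ‖a‖ ^ 2 := by
        apply pow_le_pow_left₀ (by linarith)
        linarith
      nlinarith [norm_nonneg b]
  have hb2 : ‖b‖ ^ 2 ≤ 9 * R ^ 2 := by nlinarith [norm_nonneg b]
  have h3 : 1 + 12 * R * z / (18 * R ^ 2) ≤ Real.exp (12 * R * z / (18 * R ^ 2)) := by
    have := Real.add_one_le_exp (12 * R * z / (18 * R ^ 2))
    linarith
  have h4 : 12 * R * z / (18 * R ^ 2) * (9 * R ^ 2) = 6 * R * z := by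
    field_simp; ring
  have h5 : 0 ≤ 12 * R * z / (18 * R ^ 2) := by positivity
  calc 18 * R ^ 2 - ‖a‖ ^ 2 ≤ 18 * R ^ 2 - ‖b‖ ^ 2 + 6 * R * z := by linarith
    _ = 18 * R ^ 2 - ‖b‖ ^ 2 + 12 * R * z / (18 * R ^ 2) * (9 * R ^ 2) := by rw [h4]
    _ ≤ 18 * R ^ 2 - ‖b‖ ^ 2 + 12 * R * z / (18 * R ^ 2) * (18 * R ^ 2 - ‖b‖ ^ 2) := by
        gcongr; linarith
    _ = (1 + 12 * R * z / (18 * R ^ 2)) * (18 * R ^ 2 - ‖b‖ ^ 2) := by ring
    _ ≤ _ := by
        apply mul_le_mul_of_nonneg_right h3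
        nlinarith

/-- a switch closed under parents -/
def Closed (al : ℕ → ℤ → Prop) : Prop := ∀ k j, al (k + 1) j → al k (j / 2)

theorem Closed.ge {al : ℕ → ℤ → Prop} (h : Closed al) {x : ℝ} {k l : ℕ} (hkl : k ≤ l)
    (hl : al l (fl l x)) : al k (fl k x) := by
  induction l, hkl using Nat.le_induction with
  | base => exact hl
  | succ l _ ih =>
    apply ih
    have := h l _ hl
    rwa [← fl_half] at this


theorem QX_dead {b : ℕ → ℤ → ℂ} {al : ℕ → ℤ → Prop} (hcl : Closed al) {k m : ℕ} {x : ℝ}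
    (h : ¬ al k (fl k x)) : QX b al k m x = 0 := by
  classical
  unfold QX
  refine Finset.sum_eq_zero fun l hl => ?_
  rw [Finset.mem_Ico] at hl
  rw [if_neg fun h' => h (hcl.ge hl.1 h')]

theorem ZX_dead {z : ℕ → ℤ → ℝ} {al : ℕ → ℤ → Prop} (hcl : Closed al) {k m : ℕ} {x : ℝ}
    (h : ¬ al k (fl k x)) : ZX z al k m x = 0 := by
  classical
  unfold ZX
  refine Finset.sum_eq_zero fun l hl => ?_
  rw [Finset.mem_Ico] at hl
  rw [if_neg fun h' => h (hcl.ge hl.1 h')]

theorem SX_dead {a b : ℕ → ℤ → ℂ} {al : ℕ → ℤ → Prop} (hcl : Closed al) {k m : ℕ} {x : ℝ}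
    (h : ¬ al k (fl k x)) : SX a b al k m x = 0 := by
  classical
  unfold SX
  refine Finset.sum_eq_zero fun l hl => ?_
  rw [Finset.mem_Ico] at hl
  rw [if_neg fun h' => h (hcl.ge hl.1 h')]

/-- the exponential of `(QX - 12 R ZX) / (18 R²)` -/
def WX (b : ℕ → ℤ → ℂ) (z : ℕ → ℤ → ℝ) (al : ℕ → ℤ → Prop) (R : ℝ) (k m : ℕ) (x : ℝ) : ℝ :=
  Real.exp ((QX b al k m x - 12 * R * ZX z al k m x) / (18 * R ^ 2))

theorem WX_aux {R : ℝ} (hR : 0 < R) {a b : ℕ → ℤ → ℂ} {z : ℕ → ℤ → ℝ} (h : Proc a b z)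
    {al : ℕ → ℤ → Prop} (hcl : Closed al)
    (hb : ∀ k j, al k j → ‖a k j‖ ≤ R ∧ ‖hx b k j‖ ≤ 2 * R) (d : ℕ) :
    ∀ (k : ℕ) (j : ℤ), al k j →
      ∫⁻ x in Ivl k j, ENNReal.ofReal (WX b z al R k (k + d) x) ≤
      ENNReal.ofReal ((18 * R ^ 2 - ‖a k j‖ ^ 2) / (9 * R ^ 2)) * volume (Ivl k j) := by
  classical
  have h9 : 0 < 9 * R ^ 2 := by positivity
  induction d with
  | zero =>
    intro k j hal
    have : ∀ x, ENNReal.ofReal (WX b z al R k (k + 0) x) = 1 := by
      intro x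
      simp [WX, QX, ZX]
    simp only [this, lintegral_const, one_mul]
    rw [Measure.restrict_apply MeasurableSet.univ, univ_inter]
    nth_rewrite 1 [← one_mul (volume (Ivl k j))]
    gcongr
    rw [← ENNReal.ofReal_one]
    apply ENNReal.ofReal_le_ofReal
    rw [le_div_iff₀ h9]
    have := (hb k j hal).1
    nlinarith [norm_nonneg (a k j)]
  | succ d ih =>
    intro k j hal
    obtain ⟨ha1, ha2⟩ := hb k j hal
    set q : ℝ := ‖hx b k j‖ ^ 2 with hq
    have hq0 : 0 ≤ q := by positivity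
    -- one child
    have child : ∀ j' : ℤ, j' / 2 = j → ‖b (k + 1) j'‖ ≤ 3 * R →
        ∫⁻ x in Ivl (k + 1) j', ENNReal.ofReal (WX b z al R k (k + (d + 1)) x) ≤
        ENNReal.ofReal (Real.exp (q / (18 * R ^ 2)) *
          ((18 * R ^ 2 - ‖b (k + 1) j'‖ ^ 2) / (9 * R ^ 2))) * volume (Ivl (k + 1) j') := by
      intro j' hj' hbj
      have hsplit : ∀ x ∈ Ivl (k + 1) j', ENNReal.ofReal (WX b z al R k (k + (d + 1)) x) =
          ENNReal.ofReal (Real.exp ((q - 12 * R * z (k + 1) j') / (18 * R ^ 2))) *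
            ENNReal.ofReal (WX b z al R (k + 1) (k + 1 + d) x) := by
        intro x hx
        rw [mem_Ivl] at hx
        have hx' : fl k x = j := by rw [fl_half, hx, hj']
        have e2 : k + (d + 1) = k + 1 + d := by omega
        have e1 : QX b al k (k + (d + 1)) x = q + QX b al (k + 1) (k + 1 + d) x := by
          unfold QX
          rw [Finset.sum_eq_sum_Ico_succ_bot (by omega), hx', if_pos hal, e2]
        have e3 : ZX z al k (k + (d + 1)) x = z (k + 1) j' + ZX z al (k + 1) (k + 1 + d) x := by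
          unfold ZX
          rw [Finset.sum_eq_sum_Ico_succ_bot (by omega), hx', if_pos hal, e2, hx]
        unfold WX
        rw [e1, e3, ← ENNReal.ofReal_mul (Real.exp_pos _).le, ← Real.exp_add]
        congr 2
        ring
      rw [setLIntegral_congr_fun (measurableSet_Ivl (k + 1) j') hsplit,
        lintegral_const_mul' _ _ ENNReal.ofReal_ne_top]
      have hz0 := h.z_nonneg (k + 1) j'
      have hb2 : ‖b (k + 1) j'‖ ^ 2 ≤ 9 * R ^ 2 := by nlinarith [norm_nonneg (b (k + 1) j')]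
      by_cases hal' : al (k + 1) j'
      · refine (mul_le_mul' le_rfl (ih (k + 1) j' hal')).trans ?_
        rw [← mul_assoc, ← ENNReal.ofReal_mul (Real.exp_pos _).le]
        apply mul_le_mul' _ le_rfl
        apply ENNReal.ofReal_le_ofReal
        have hs := exit_step hR hbj (h.ex (k + 1) j')
        have e4 : Real.exp ((q - 12 * R * z (k + 1) j') / (18 * R ^ 2)) =
            Real.exp (q / (18 * R ^ 2)) * Real.exp (-(12 * R * z (k + 1) j' / (18 * R ^ 2))) := by
          rw [← Real.exp_add]; congr 1; ring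
        have e5 : Real.exp (-(12 * R * z (k + 1) j' / (18 * R ^ 2))) *
            (18 * R ^ 2 - ‖a (k + 1) j'‖ ^ 2) ≤ 18 * R ^ 2 - ‖b (k + 1) j'‖ ^ 2 := by
          calc _ ≤ Real.exp (-(12 * R * z (k + 1) j' / (18 * R ^ 2))) *
              (Real.exp (12 * R * z (k + 1) j' / (18 * R ^ 2)) *
                (18 * R ^ 2 - ‖b (k + 1) j'‖ ^ 2)) :=
              mul_le_mul_of_nonneg_left hs (Real.exp_pos _).le
            _ = _ := by rw [← mul_assoc, ← Real.exp_add]; simp
        rw [e4, mul_assoc]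
        apply mul_le_mul_of_nonneg_left _ (Real.exp_pos _).le
        rw [← mul_div_assoc]
        gcongr
      · have : ∀ x ∈ Ivl (k + 1) j', ENNReal.ofReal (WX b z al R (k + 1) (k + 1 + d) x) = 1 := by
          intro x hx
          rw [mem_Ivl] at hx
          have hd : ¬ al (k + 1) (fl (k + 1) x) := by rwa [hx]
          simp [WX, QX_dead hcl hd, ZX_dead hcl hd]
        rw [setLIntegral_congr_fun (measurableSet_Ivl (k + 1) j') this]
        simp only [lintegral_const, one_mul]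
        rw [Measure.restrict_apply MeasurableSet.univ, univ_inter]
        gcongr
        have h1 : Real.exp ((q - 12 * R * z (k + 1) j') / (18 * R ^ 2)) ≤
            Real.exp (q / (18 * R ^ 2)) := by
          apply Real.exp_le_exp.2
          gcongr
          have : 0 ≤ 12 * R * z (k + 1) j' := by positivity
          linarith
        refine h1.trans ?_
        have h2 : (1 : ℝ) ≤ (18 * R ^ 2 - ‖b (k + 1) j'‖ ^ 2) / (9 * R ^ 2) := by
          rw [le_div_iff₀ h9]; linarith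
        nlinarith [Real.exp_pos (q / (18 * R ^ 2))]
    rw [lintegral_Ivl]
    have hbl : ‖b (k + 1) (2 * j)‖ ≤ 3 * R := by
      rw [h.left]; exact (norm_add_le _ _).trans (by linarith)
    have hbr : ‖b (k + 1) (2 * j + 1)‖ ≤ 3 * R := by
      rw [h.right]; exact (norm_sub_le _ _).trans (by linarith)
    refine (add_le_add (child (2 * j) (by omega) hbl) (child (2 * j + 1) (by omega) hbr)).trans ?_
    rw [volume_Ivl_succ k j (2 * j), volume_Ivl_succ k j (2 * j + 1), ← add_mul]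
    have p1 : 0 ≤ Real.exp (q / (18 * R ^ 2)) *
        ((18 * R ^ 2 - ‖b (k + 1) (2 * j)‖ ^ 2) / (9 * R ^ 2)) := by
      apply mul_nonneg (Real.exp_pos _).le
      apply div_nonneg _ h9.le
      nlinarith [norm_nonneg (b (k + 1) (2 * j))]
    have p2 : 0 ≤ Real.exp (q / (18 * R ^ 2)) *
        ((18 * R ^ 2 - ‖b (k + 1) (2 * j + 1)‖ ^ 2) / (9 * R ^ 2)) := by
      apply mul_nonneg (Real.exp_pos _).le
      apply div_nonneg _ h9.le
      nlinarith [norm_nonneg (b (k + 1) (2 * j + 1))]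
    rw [← ENNReal.ofReal_add p1 p2, ENNReal.div_eq_inv_mul, ← mul_assoc]
    gcongr
    rw [← ENNReal.ofReal_ofNat 2, ← ENNReal.ofReal_inv_of_pos (by norm_num),
      ← ENNReal.ofReal_mul (add_nonneg p1 p2)]
    apply ENNReal.ofReal_le_ofReal
    have hpar := parallelogram_law_with_norm ℝ (a k j) (hx b k j)
    have e : ‖b (k + 1) (2 * j)‖ ^ 2 + ‖b (k + 1) (2 * j + 1)‖ ^ 2 = 2 * (‖a k j‖ ^ 2 + q) := by
      rw [h.left, h.right, hq]
      nlinarith [hpar]
    have hs := exp_step' (c := 18 * R ^ 2) (x := q) (u := ‖a k j‖ ^ 2) (by positivity) hq0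
      (by positivity)
    have e6 : (Real.exp (q / (18 * R ^ 2)) *
        ((18 * R ^ 2 - ‖b (k + 1) (2 * j)‖ ^ 2) / (9 * R ^ 2)) +
        Real.exp (q / (18 * R ^ 2)) *
        ((18 * R ^ 2 - ‖b (k + 1) (2 * j + 1)‖ ^ 2) / (9 * R ^ 2))) * 2⁻¹ =
        (Real.exp (q / (18 * R ^ 2)) * (18 * R ^ 2 - (‖a k j‖ ^ 2 + q))) / (9 * R ^ 2) := by
      have : ‖b (k + 1) (2 * j + 1)‖ ^ 2 = 2 * (‖a k j‖ ^ 2 + q) - ‖b (k + 1) (2 * j)‖ ^ 2 := by
        linarith
      rw [this]
      ring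
    rw [e6]
    gcongr

/-- **one run, quadratic variation**: `E exp ((QX - 12 R ZX)/(18 R²)) ≤ 2`. -/
theorem exp_QX {R : ℝ} (hR : 0 < R) {a b : ℕ → ℤ → ℂ} {z : ℕ → ℤ → ℝ} (h : Proc a b z)
    {al : ℕ → ℤ → Prop} (hcl : Closed al)
    (hb : ∀ k j, al k j → ‖a k j‖ ≤ R ∧ ‖hx b k j‖ ≤ 2 * R) (k m : ℕ) (j : ℤ) :
    ∫⁻ x in Ivl k j, ENNReal.ofReal (WX b z al R k m x) ≤ 2 * volume (Ivl k j) := by
  classical
  have triv : (∀ x ∈ Ivl k j, ENNReal.ofReal (WX b z al R k m x) = 1) →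
      ∫⁻ x in Ivl k j, ENNReal.ofReal (WX b z al R k m x) ≤ 2 * volume (Ivl k j) := by
    intro h1
    rw [setLIntegral_congr_fun (measurableSet_Ivl k j) h1]
    simp only [lintegral_const, one_mul]
    rw [Measure.restrict_apply MeasurableSet.univ, univ_inter]
    nth_rewrite 1 [← one_mul (volume (Ivl k j))]
    gcongr
    norm_num
  rcases le_total k m with hkm | hkm
  · by_cases hal : al k j
    · obtain ⟨d, rfl⟩ := Nat.exists_eq_add_of_le hkm
      refine (WX_aux hR h hcl hb d k j hal).trans ?_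
      gcongr
      rw [← ENNReal.ofReal_ofNat 2]
      apply ENNReal.ofReal_le_ofReal
      rw [div_le_iff₀ (by positivity)]
      nlinarith [norm_nonneg (a k j)]
    · apply triv
      intro x hx
      rw [mem_Ivl] at hx
      have hd : ¬ al k (fl k x) := by rwa [hx]
      simp [WX, QX_dead hcl hd, ZX_dead hcl hd]
  · apply triv
    intro x _
    simp [WX, QX, ZX, Finset.Ico_eq_empty_of_le hkm]

/-- tail of the quadratic variation, self-normalised by the removed mass -/
theorem tail_QX {R : ℝ} (hR : 0 < R) {a b : ℕ → ℤ → ℂ} {z : ℕ → ℤ → ℝ} (h : Proc a b z)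
    {al : ℕ → ℤ → Prop} (hcl : Closed al)
    (hb : ∀ k j, al k j → ‖a k j‖ ≤ R ∧ ‖hx b k j‖ ≤ 2 * R) (k m : ℕ) (j : ℤ) (lam : ℝ) :
    volume {x ∈ Ivl k j | 18 * R ^ 2 * lam + 12 * R * ZX z al k m x ≤ QX b al k m x} ≤
      ENNReal.ofReal (2 * Real.exp (-lam)) * volume (Ivl k j) := by
  have h1 := exp_QX hR h hcl hb k m j
  have hmeas : Measurable fun x => ENNReal.ofReal (WX b z al R k m x) := by
    unfold WX
    exact ((((measurable_QX b al k m).sub ((measurable_ZX z al k m).const_mul _)).div_const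
      _).exp).ennreal_ofReal
  have hM := mul_meas_ge_le_lintegral (μ := volume.restrict (Ivl k j)) hmeas
    (ENNReal.ofReal (Real.exp lam))
  have hsub : {x ∈ Ivl k j | 18 * R ^ 2 * lam + 12 * R * ZX z al k m x ≤ QX b al k m x} ⊆
      {x | ENNReal.ofReal (Real.exp lam) ≤ ENNReal.ofReal (WX b z al R k m x)} ∩ Ivl k j := by
    rintro x ⟨hx, hx'⟩
    refine ⟨?_, hx⟩
    apply ENNReal.ofReal_le_ofReal
    apply Real.exp_le_exp.2
    rw [le_div_iff₀ (by positivity)]
    linarith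
  have hle : volume {x ∈ Ivl k j | 18 * R ^ 2 * lam + 12 * R * ZX z al k m x ≤ QX b al k m x} ≤
      (volume.restrict (Ivl k j)) {x | ENNReal.ofReal (Real.exp lam) ≤
        ENNReal.ofReal (WX b z al R k m x)} := by
    refine (measure_mono hsub).trans ?_
    rw [Measure.restrict_apply (measurableSet_le measurable_const hmeas)]
  have hE : ENNReal.ofReal (Real.exp lam) * ENNReal.ofReal (Real.exp (-lam)) = 1 := by
    rw [← ENNReal.ofReal_mul (Real.exp_pos _).le, ← Real.exp_add]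
    simp
  refine hle.trans ?_
  calc (volume.restrict (Ivl k j)) {x | ENNReal.ofReal (Real.exp lam) ≤
        ENNReal.ofReal (WX b z al R k m x)}
      = ENNReal.ofReal (Real.exp (-lam)) * (ENNReal.ofReal (Real.exp lam) *
        (volume.restrict (Ivl k j)) {x | ENNReal.ofReal (Real.exp lam) ≤
        ENNReal.ofReal (WX b z al R k m x)}) := by
        rw [← mul_assoc, mul_comm (ENNReal.ofReal (Real.exp (-lam))), hE, one_mul]
    _ ≤ ENNReal.ofReal (Real.exp (-lam)) * (2 * volume (Ivl k j)) := by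
        exact mul_le_mul' le_rfl (hM.trans h1)
    _ = _ := by
        rw [ENNReal.ofReal_mul (by norm_num), ENNReal.ofReal_ofNat]
        ring

open Classical in
/-- real component of the switched difference, on the nodes of level `l+1` -/
def vx (a b : ℕ → ℤ → ℂ) (al : ℕ → ℤ → Prop) (w : ℂ) (l : ℕ) (j : ℤ) : ℝ :=
  if al l (j / 2) then (w * (b (l + 1) j - a l (j / 2))).re else 0

theorem re_SX (a b : ℕ → ℤ → ℂ) (al : ℕ → ℤ → Prop) (w : ℂ) (k K : ℕ) (x : ℝ) :
    (w * SX a b al k K x).re =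
      ∑ l ∈ Finset.Ico k K, vx a b al w l (fl (l + 1) x) * rad (l + 1) x := by
  classical
  unfold SX
  rw [Finset.mul_sum, Complex.re_sum]
  refine Finset.sum_congr rfl fun l _ => ?_
  unfold vx
  rw [← fl_half]
  by_cases h : al l (fl l x)
  · rw [if_pos h, if_pos h]
    have : w * ((rad (l + 1) x : ℂ) * dx a b l x) = (rad (l + 1) x : ℂ) * (w * dx a b l x) := by
      ring
    rw [this, Complex.re_ofReal_mul, mul_comm]
    rfl
  · rw [if_neg h, if_neg h]; simp

theorem vx_sq_le {a b : ℕ → ℤ → ℂ} {z : ℕ → ℤ → ℝ} (h : Proc a b z) (al : ℕ → ℤ → Prop) {w : ℂ}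
    (hw : ‖w‖ ≤ 1) (k K : ℕ) (x : ℝ) :
    ∑ l ∈ Finset.Ico k K, vx a b al w l (fl (l + 1) x) ^ 2 ≤ QX b al k K x := by
  classical
  unfold QX
  refine Finset.sum_le_sum fun l _ => ?_
  unfold vx
  rw [← fl_half]
  by_cases hal : al l (fl l x)
  · rw [if_pos hal, if_pos hal]
    have h1 : |(w * (b (l + 1) (fl (l + 1) x) - a l (fl l x))).re| ≤ ‖hx b l (fl l x)‖ := by
      refine (Complex.abs_re_le_norm _).trans ?_
      rw [norm_mul]
      have h2 := h.norm_dx l x
      unfold dx at h2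
      rw [h2]
      nlinarith [norm_nonneg (hx b l (fl l x)), norm_nonneg w]
    rw [← sq_abs]
    gcongr
  · rw [if_neg hal, if_neg hal]; simp

/-- self-normalised maximal inequality in one direction (no martingale property needed) -/
theorem dir_SX {a b : ℕ → ℤ → ℂ} {z : ℕ → ℤ → ℝ} (h : Proc a b z) (al : ℕ → ℤ → Prop) {w : ℂ}
    (hw : ‖w‖ ≤ 1) {s : ℝ} (hs : 0 < s) (lam : ℝ) (k m : ℕ) (j : ℤ) :
    volume {x ∈ Ivl k j | ∃ K, k ≤ K ∧ K ≤ m ∧
        lam + s ^ 2 / 2 * QX b al k m x < s * (w * SX a b al k K x).re} ≤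
      ENNReal.ofReal (Real.exp (-lam)) * volume (Ivl k j) := by
  classical
  rcases lt_or_ge m k with hmk | hkm
  · have : {x ∈ Ivl k j | ∃ K, k ≤ K ∧ K ≤ m ∧
        lam + s ^ 2 / 2 * QX b al k m x < s * (w * SX a b al k K x).re} = ∅ := by
      ext x
      simp only [mem_ofPred_eq, mem_empty_iff_false, iff_false, not_and, not_exists]
      intro _ K h1 h2
      omega
    rw [this]; simp
  obtain ⟨d, rfl⟩ := Nat.exists_eq_add_of_le hkm
  have key : ∀ j' : ℤ, volume {x ∈ Ivl (k + 1) j' | ∃ K, k ≤ K ∧ K ≤ k + d ∧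
        lam + s ^ 2 / 2 * QX b al k (k + d) x < s * (w * SX a b al k K x).re} ≤
      ENNReal.ofReal (Real.exp (-lam)) * volume (Ivl (k + 1) j') := by
    intro j'
    have h0 := max_exp (fun l i => s * vx a b al w l i) d k j' lam
    refine (measure_mono ?_).trans h0
    rintro x ⟨hx, K, h1, h2, h3⟩
    refine ⟨hx, K, h1, h2, ?_⟩
    have e : Ex (fun l i => s * vx a b al w l i) k K x =
        s * (w * SX a b al k K x).re - s ^ 2 / 2 *
          ∑ l ∈ Finset.Ico k K, vx a b al w l (fl (l + 1) x) ^ 2 := by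
      rw [re_SX]
      unfold Ex
      rw [Finset.sum_sub_distrib, Finset.mul_sum, Finset.mul_sum]
      congr 1
      · refine Finset.sum_congr rfl fun l _ => ?_
        ring
      · refine Finset.sum_congr rfl fun l _ => ?_
        ring
    rw [e]
    have hv := vx_sq_le h al hw k K x
    have hm := QX_mono b al k h2 x
    have : s ^ 2 / 2 * ∑ l ∈ Finset.Ico k K, vx a b al w l (fl (l + 1) x) ^ 2 ≤
        s ^ 2 / 2 * QX b al k (k + d) x := by
      apply mul_le_mul_of_nonneg_left _ (by positivity)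
      linarith
    linarith
  have hun : {x ∈ Ivl k j | ∃ K, k ≤ K ∧ K ≤ k + d ∧
        lam + s ^ 2 / 2 * QX b al k (k + d) x < s * (w * SX a b al k K x).re} ⊆
      {x ∈ Ivl (k + 1) (2 * j) | ∃ K, k ≤ K ∧ K ≤ k + d ∧
        lam + s ^ 2 / 2 * QX b al k (k + d) x < s * (w * SX a b al k K x).re} ∪
      {x ∈ Ivl (k + 1) (2 * j + 1) | ∃ K, k ≤ K ∧ K ≤ k + d ∧
        lam + s ^ 2 / 2 * QX b al k (k + d) x < s * (w * SX a b al k K x).re} := by
    rintro x ⟨hx, h'⟩
    rw [Ivl_split] at hx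
    rcases hx with hx | hx
    · left; exact ⟨hx, h'⟩
    · right; exact ⟨hx, h'⟩
  refine (measure_mono hun).trans ((measure_union_le _ _).trans
    ((add_le_add (key _) (key _)).trans ?_))
  rw [← mul_add]
  gcongr
  rw [volume_Ivl_succ k j (2 * j), volume_Ivl_succ k j (2 * j + 1), ENNReal.add_halves]

/-- **ONE RUN**: while the values stay `≤ R` (half differences `≤ 2R`), all the signed partial sums
are at most `12 R lam + 4 * (removed mass)`, off a set of relative measure `6 e^{-lam}`. -/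
theorem run {R : ℝ} (hR : 0 < R) {a b : ℕ → ℤ → ℂ} {z : ℕ → ℤ → ℝ} (h : Proc a b z)
    {al : ℕ → ℤ → Prop} (hcl : Closed al)
    (hb : ∀ k j, al k j → ‖a k j‖ ≤ R ∧ ‖hx b k j‖ ≤ 2 * R) (k m : ℕ) (j : ℤ) (lam : ℝ) :
    volume {x ∈ Ivl k j | ∃ K, k ≤ K ∧ K ≤ m ∧
        12 * R * lam + 4 * ZX z al k m x < ‖SX a b al k K x‖} ≤
      ENNReal.ofReal (6 * Real.exp (-lam)) * volume (Ivl k j) := by
  classical
  set E : ℂ → Set ℝ := fun w => {x ∈ Ivl k j | ∃ K, k ≤ K ∧ K ≤ m ∧
        lam + (1 / (3 * R)) ^ 2 / 2 * QX b al k m x < 1 / (3 * R) * (w * SX a b al k K x).re} with hE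
  set Q : Set ℝ := {x ∈ Ivl k j | 18 * R ^ 2 * lam + 12 * R * ZX z al k m x ≤ QX b al k m x} with hQ
  have hs : (0 : ℝ) < 1 / (3 * R) := by positivity
  have hEw : ∀ w : ℂ, ‖w‖ ≤ 1 → volume (E w) ≤ ENNReal.ofReal (Real.exp (-lam)) * volume (Ivl k j) :=
    fun w hw => dir_SX h al hw hs lam k m j
  have hQv := tail_QX hR h hcl hb k m j lam
  have hsub : {x ∈ Ivl k j | ∃ K, k ≤ K ∧ K ≤ m ∧
        12 * R * lam + 4 * ZX z al k m x < ‖SX a b al k K x‖} ⊆
      Q ∪ (E 1 ∪ E (-1)) ∪ (E Complex.I ∪ E (-Complex.I)) := by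
    rintro x ⟨hx, K, h1, h2, h3⟩
    by_contra hcon
    simp only [mem_union, not_or] at hcon
    obtain ⟨⟨hq, hp1, hm1⟩, hpi, hmi⟩ := hcon
    have hq' : QX b al k m x < 18 * R ^ 2 * lam + 12 * R * ZX z al k m x := by
      by_contra hc
      exact hq ⟨hx, not_lt.1 hc⟩
    have hdir : ∀ w : ℂ, x ∉ E w → (w * SX a b al k K x).re ≤ 6 * R * lam + 2 * ZX z al k m x := by
      intro w hw
      have : 1 / (3 * R) * (w * SX a b al k K x).re ≤
          lam + (1 / (3 * R)) ^ 2 / 2 * QX b al k m x := by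
        by_contra hc
        exact hw ⟨hx, K, h1, h2, not_le.1 hc⟩
      have h5 : (w * SX a b al k K x).re ≤ 3 * R * lam + QX b al k m x / (6 * R) := by
        have h6 : 3 * R * (1 / (3 * R) * (w * SX a b al k K x).re) ≤
            3 * R * (lam + (1 / (3 * R)) ^ 2 / 2 * QX b al k m x) :=
          mul_le_mul_of_nonneg_left this (by positivity)
        have e1 : 3 * R * (1 / (3 * R) * (w * SX a b al k K x).re) = (w * SX a b al k K x).re := by
          field_simp
        have e2 : 3 * R * (lam + (1 / (3 * R)) ^ 2 / 2 * QX b al k m x) =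
            3 * R * lam + QX b al k m x / (6 * R) := by
          field_simp
          ring
        rw [e1, e2] at h6
        exact h6
      have h7 : QX b al k m x / (6 * R) ≤
          (18 * R ^ 2 * lam + 12 * R * ZX z al k m x) / (6 * R) := by gcongr
      have e3 : (18 * R ^ 2 * lam + 12 * R * ZX z al k m x) / (6 * R) =
          3 * R * lam + 2 * ZX z al k m x := by
        field_simp
        ring
      linarith
    have r1 := hdir 1 hp1
    have r2 := hdir (-1) hm1
    have r3 := hdir Complex.I hpi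
    have r4 := hdir (-Complex.I) hmi
    rw [one_mul] at r1
    rw [neg_one_mul, Complex.neg_re] at r2
    rw [neg_mul, Complex.neg_re] at r4
    rw [Complex.I_mul_re] at r3 r4
    have hn := Complex.norm_le_abs_re_add_abs_im (SX a b al k K x)
    have hre : |(SX a b al k K x).re| ≤ 6 * R * lam + 2 * ZX z al k m x := abs_le.2 ⟨by linarith, r1⟩
    have him : |(SX a b al k K x).im| ≤ 6 * R * lam + 2 * ZX z al k m x :=
      abs_le.2 ⟨by linarith, by linarith⟩
    linarith
  have n1 : ‖(1 : ℂ)‖ ≤ 1 := by simp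
  have n2 : ‖(-1 : ℂ)‖ ≤ 1 := by simp
  have n3 : ‖Complex.I‖ ≤ 1 := by simp
  have n4 : ‖-Complex.I‖ ≤ 1 := by simp
  refine (measure_mono hsub).trans ((measure_union_le _ _).trans ?_)
  refine (add_le_add (measure_union_le _ _) (measure_union_le _ _)).trans ?_
  refine (add_le_add (add_le_add hQv (measure_union_le _ _)) le_rfl).trans ?_
  refine (add_le_add (add_le_add le_rfl (add_le_add (hEw 1 n1) (hEw (-1) n2)))
    (add_le_add (hEw _ n3) (hEw _ n4))).trans ?_
  rw [← add_mul, ← add_mul, ← add_mul]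
  gcongr
  have e0 := (Real.exp_pos (-lam)).le
  rw [← ENNReal.ofReal_add e0 e0, ← ENNReal.ofReal_add (by positivity) (by positivity),
    ← ENNReal.ofReal_add (by positivity) (by positivity)]
  apply ENNReal.ofReal_le_ofReal
  linarith

end Crest.Agent.R100.Run288
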