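import Crest.Agent.R100.Hunt_933
import Crest.Agent.R100.Run1_288

/-!
# R100 / S0132, block B9 (helper711): populations with exits, comparison of two near frequencies

`Pb g κ k = g 1[k ≤ κ]` (population before the exits of generation `k`), `Pa g κ k = g 1[k < κ]`
(after), `Ex g κ k = g 1[κ = k]`.  `bb`, `aa`, `zz`: coefficients of `Pb`, `Pa` and mass of `Ex`;
`Proc (aa g κ Z) (bb g κ Z) (zz g κ)` (the process of helper288).  `TS g κ Z k K x` is the signed sum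
of the generations `[k, K)`.
`tree_compare`: a segment of the path on which the coefficients at `Z` are `< 2a` is comparable with
the same segment for a frequency `w` with `|Z - w| ≤ B 2^{k₁}`.
-/

set_option autoImplicit false

open MeasureTheory Set
open scoped ENNReal

noncomputable section

namespace Crest.Agent.R100.Tree711

open Crest.Agent.R100.Mart933 Crest.Agent.R100.Wide933 Crest.Agent.R100.Hunt933
open Crest.Agent.R100.Run288

/-! ## populations -/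

/-- population before the exits of generation `k` -/
def Pb (g : ℝ → ℂ) (κ : ℝ → ℕ) (k : ℕ) (y : ℝ) : ℂ := if k ≤ κ y then g y else 0

/-- population after the exits of generation `k` -/
def Pa (g : ℝ → ℂ) (κ : ℝ → ℕ) (k : ℕ) (y : ℝ) : ℂ := if k < κ y then g y else 0

/-- exits of generation `k` -/
def Ex (g : ℝ → ℂ) (κ : ℝ → ℕ) (k : ℕ) (y : ℝ) : ℂ := if κ y = k then g y else 0

variable {g : ℝ → ℂ} {κ : ℝ → ℕ} {M : ℝ}

theorem Pb_succ (g : ℝ → ℂ) (κ : ℝ → ℕ) (k : ℕ) : Pb g κ (k + 1) = Pa g κ k := rfl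

theorem Pb_sub_Pa (g : ℝ → ℂ) (κ : ℝ → ℕ) (k : ℕ) (y : ℝ) :
    Pb g κ k y - Pa g κ k y = Ex g κ k y := by
  unfold Pb Pa Ex
  rcases lt_trichotomy k (κ y) with h | h | h
  · rw [if_pos h.le, if_pos h, if_neg (by omega), sub_self]
  · rw [if_pos h.le, if_neg (by omega), if_pos h.symm, sub_zero]
  · rw [if_neg (by omega), if_neg (by omega), if_neg (by omega), sub_zero]

theorem measurable_Pb (hg : Measurable g) (hκ : Measurable κ) (k : ℕ) :
    Measurable (Pb g κ k) := Measurable.ite (measurableSet_le measurable_const hκ) hg measurable_const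

theorem measurable_Pa (hg : Measurable g) (hκ : Measurable κ) (k : ℕ) :
    Measurable (Pa g κ k) := Measurable.ite (measurableSet_lt measurable_const hκ) hg measurable_const

theorem measurable_Ex (hg : Measurable g) (hκ : Measurable κ) (k : ℕ) :
    Measurable (Ex g κ k) := Measurable.ite (measurableSet_eq_fun hκ measurable_const) hg
      measurable_const

theorem norm_Pb_le (g : ℝ → ℂ) (κ : ℝ → ℕ) (k : ℕ) (y : ℝ) : ‖Pb g κ k y‖ ≤ ‖g y‖ := by
  unfold Pb; split_ifs <;> simp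

theorem norm_Pa_le (g : ℝ → ℂ) (κ : ℝ → ℕ) (k : ℕ) (y : ℝ) : ‖Pa g κ k y‖ ≤ ‖g y‖ := by
  unfold Pa; split_ifs <;> simp

theorem norm_Pa_le_Pb (g : ℝ → ℂ) (κ : ℝ → ℕ) (k : ℕ) (y : ℝ) :
    ‖Pa g κ k y‖ ≤ ‖Pb g κ k y‖ := by
  unfold Pa Pb
  split_ifs with h1 h2 h2
  · exact le_rfl
  · exact absurd h1.le h2
  · simp
  · simp

theorem norm_Ex_le (g : ℝ → ℂ) (κ : ℝ → ℕ) (k : ℕ) (y : ℝ) : ‖Ex g κ k y‖ ≤ ‖g y‖ := by
  unfold Ex; split_ifs <;> simp

/-- coefficients before the exits -/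
def bb (g : ℝ → ℂ) (κ : ℝ → ℕ) (Z : ℝ) (k : ℕ) (j : ℤ) : ℂ := coef (Pb g κ k) Z k j

/-- coefficients after the exits -/
def aa (g : ℝ → ℂ) (κ : ℝ → ℕ) (Z : ℝ) (k : ℕ) (j : ℤ) : ℂ := coef (Pa g κ k) Z k j

/-- mass of the exits -/
def zz (g : ℝ → ℂ) (κ : ℝ → ℕ) (k : ℕ) (j : ℤ) : ℝ := avN (Ex g κ k) k j

theorem proc (hg : Measurable g) (hM : ∀ x, ‖g x‖ ≤ M) (hκ : Measurable κ) (Z : ℝ) :
    Proc (aa g κ Z) (bb g κ Z) (zz g κ) := by
  constructor
  · intro k j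
    exact isMart_coef (measurable_Pa hg hκ k) (fun x => (norm_Pa_le g κ k x).trans (hM x)) Z k j
  · intro k j
    have h1 : bb g κ Z k j - aa g κ Z k j = coef (Ex g κ k) Z k j := by
      unfold bb aa coef
      rw [← mul_sub, ← integral_sub
        (integrable_fe (measurable_Pb hg hκ k) (fun x => (norm_Pb_le g κ k x).trans (hM x)) _ _ _)
        (integrable_fe (measurable_Pa hg hκ k) (fun x => (norm_Pa_le g κ k x).trans (hM x)) _ _ _)]
      congr 1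
      refine integral_congr_ae (Filter.Eventually.of_forall fun y => ?_)
      change Pb g κ k y * e (-Z) y - Pa g κ k y * e (-Z) y = Ex g κ k y * e (-Z) y
      rw [← sub_mul, Pb_sub_Pa]
    rw [h1]
    exact norm_coef_le _ _ _ _

/-- difference along the path -/
theorem dx_eq (g : ℝ → ℂ) (κ : ℝ → ℕ) (Z : ℝ) (k : ℕ) (x : ℝ) :
    dx (aa g κ Z) (bb g κ Z) k x = dl (coef (Pa g κ k) Z) k x := rfl

/-- signed sum of the generations `[k, K)` -/
def TS (g : ℝ → ℂ) (κ : ℝ → ℕ) (Z : ℝ) (k K : ℕ) (x : ℝ) : ℂ :=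
  ∑ l ∈ Finset.Ico k K, (rad (l + 1) x : ℂ) * dx (aa g κ Z) (bb g κ Z) l x

/-- mass of the exits met along the path at the generations `[k, K)` -/
def XS (g : ℝ → ℂ) (κ : ℝ → ℕ) (k K : ℕ) (x : ℝ) : ℝ :=
  ∑ l ∈ Finset.Ico k K, zz g κ l (fl l x)

theorem zz_nonneg (g : ℝ → ℂ) (κ : ℝ → ℕ) (k : ℕ) (j : ℤ) : 0 ≤ zz g κ k j := avN_nonneg _ _ _

theorem XS_nonneg (g : ℝ → ℂ) (κ : ℝ → ℕ) (k K : ℕ) (x : ℝ) : 0 ≤ XS g κ k K x :=
  Finset.sum_nonneg fun _ _ => zz_nonneg _ _ _ _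

theorem XS_mono (g : ℝ → ℂ) (κ : ℝ → ℕ) {k k' K K' : ℕ} (h1 : k' ≤ k) (h2 : K ≤ K') (x : ℝ) :
    XS g κ k K x ≤ XS g κ k' K' x :=
  Finset.sum_le_sum_of_subset_of_nonneg (Finset.Ico_subset_Ico h1 h2)
    fun _ _ _ => zz_nonneg _ _ _ _

theorem TS_add (g : ℝ → ℂ) (κ : ℝ → ℕ) (Z : ℝ) {k l K : ℕ} (h1 : k ≤ l) (h2 : l ≤ K) (x : ℝ) :
    TS g κ Z k K x = TS g κ Z k l x + TS g κ Z l K x := by
  unfold TS
  rw [Finset.sum_Ico_consecutive _ h1 h2]

/-! ## sizes -/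

theorem avN_mono {f f' : ℝ → ℂ} (hf' : Measurable f') (hM : ∀ x, ‖f' x‖ ≤ M)
    (h : ∀ x, ‖f x‖ ≤ ‖f' x‖) (k : ℕ) (j : ℤ) : avN f k j ≤ avN f' k j := by
  unfold avN
  refine mul_le_mul_of_nonneg_left ?_ (by positivity)
  refine integral_mono_of_nonneg (Filter.Eventually.of_forall fun x => norm_nonneg _) ?_
    (Filter.Eventually.of_forall h)
  exact intOn k j hf'.norm (M := M) (fun x => by simpa using hM x)

theorem norm_bb_le (g : ℝ → ℂ) (κ : ℝ → ℕ) (Z : ℝ) (k : ℕ) (j : ℤ) :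
    ‖bb g κ Z k j‖ ≤ avN (Pb g κ k) k j := norm_coef_le _ _ _ _

/-- size of the differences -/
theorem norm_dx_le (hg : Measurable g) (hM : ∀ x, ‖g x‖ ≤ M) (hκ : Measurable κ) (Z : ℝ) (k : ℕ)
    (x : ℝ) : ‖dx (aa g κ Z) (bb g κ Z) k x‖ ≤
      ‖bb g κ Z (k + 1) (fl (k + 1) x)‖ + ‖bb g κ Z k (fl k x)‖ + zz g κ k (fl k x) := by
  have h1 := (proc hg hM hκ Z).ex k (fl k x)
  have h2 : dx (aa g κ Z) (bb g κ Z) k x = bb g κ Z (k + 1) (fl (k + 1) x) -
      bb g κ Z k (fl k x) + (bb g κ Z k (fl k x) - aa g κ Z k (fl k x)) := by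
    unfold dx; ring
  rw [h2]
  calc _ ≤ ‖bb g κ Z (k + 1) (fl (k + 1) x) - bb g κ Z k (fl k x)‖ +
        ‖bb g κ Z k (fl k x) - aa g κ Z k (fl k x)‖ := norm_add_le _ _
    _ ≤ _ := by
        have := norm_sub_le (bb g κ Z (k + 1) (fl (k + 1) x)) (bb g κ Z k (fl k x))
        linarith

/-- a short segment with small coefficients -/
theorem TS_short (hg : Measurable g) (hM : ∀ x, ‖g x‖ ≤ M) (hκ : Measurable κ) (Z : ℝ) {a : ℝ}
    {k K : ℕ} {x : ℝ} (hs : ∀ l, k ≤ l → l ≤ K → ‖bb g κ Z l (fl l x)‖ ≤ 2 * a) :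
    ‖TS g κ Z k K x‖ ≤ 4 * a * (K - k : ℕ) + XS g κ k K x := by
  unfold TS XS
  calc ‖∑ l ∈ Finset.Ico k K, (rad (l + 1) x : ℂ) * dx (aa g κ Z) (bb g κ Z) l x‖
      ≤ ∑ l ∈ Finset.Ico k K, (4 * a + zz g κ l (fl l x)) := by
        refine (norm_sum_le _ _).trans (Finset.sum_le_sum fun l hl => ?_)
        rw [Finset.mem_Ico] at hl
        rw [norm_mul, Complex.norm_real, Real.norm_eq_abs, abs_rad, one_mul]
        have h1 := norm_dx_le hg hM hκ Z l x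
        have h2 := hs l hl.1 hl.2.le
        have h3 := hs (l + 1) (by omega) (by omega)
        linarith
    _ = _ := by
        rw [Finset.sum_add_distrib, Finset.sum_const, Nat.card_Ico, nsmul_eq_mul]
        ring

/-! ## comparison of two frequencies -/

/-- comparison of the coefficients -/
theorem bb_compare (hg : Measurable g) (hM : ∀ x, ‖g x‖ ≤ M) (hκ : Measurable κ) (Z w : ℝ) (k : ℕ)
    (x : ℝ) {Q : ℝ} (hQ : avN (Pb g κ k) k (fl k x) ≤ Q) :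
    ‖bb g κ Z k (fl k x) - e (-(Z - w)) x * bb g κ w k (fl k x)‖ ≤
      2 * Real.pi * |Z - w| * (1 / 2 ^ k) * Q := by
  have hx : x ∈ Ivl k (fl k x) := mem_Ivl.2 rfl
  refine (coef_compare (measurable_Pb hg hκ k) (fun x => (norm_Pb_le g κ k x).trans (hM x))
    Z w hx).trans ?_
  have hpi := Real.pi_pos
  gcongr

/-- comparison of the differences -/
theorem dx_compare (hg : Measurable g) (hM : ∀ x, ‖g x‖ ≤ M) (hκ : Measurable κ) (Z w : ℝ) (k : ℕ)
    (x : ℝ) {Q : ℝ} (hQ : avN (Pb g κ k) k (fl k x) ≤ Q)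
    (hQ' : avN (Pb g κ (k + 1)) (k + 1) (fl (k + 1) x) ≤ Q) :
    ‖dx (aa g κ Z) (bb g κ Z) k x - e (-(Z - w)) x * dx (aa g κ w) (bb g κ w) k x‖ ≤
      3 * Real.pi * |Z - w| * Q * (1 / 2 ^ k) := by
  have hx : x ∈ Ivl k (fl k x) := mem_Ivl.2 rfl
  have hpi := Real.pi_pos
  have c1 := bb_compare hg hM hκ Z w (k + 1) x hQ'
  have c2 := coef_compare (measurable_Pa hg hκ k) (fun x => (norm_Pa_le g κ k x).trans (hM x))
    Z w hx
  have c3 : avN (Pa g κ k) k (fl k x) ≤ Q :=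
    (avN_mono (measurable_Pb hg hκ k) (fun x => (norm_Pb_le g κ k x).trans (hM x))
      (norm_Pa_le_Pb g κ k) k _).trans hQ
  have e1 : dx (aa g κ Z) (bb g κ Z) k x - e (-(Z - w)) x * dx (aa g κ w) (bb g κ w) k x =
      (bb g κ Z (k + 1) (fl (k + 1) x) - e (-(Z - w)) x * bb g κ w (k + 1) (fl (k + 1) x)) -
      (coef (Pa g κ k) Z k (fl k x) - e (-(Z - w)) x * coef (Pa g κ k) w k (fl k x)) := by
    unfold dx aa; ring
  rw [e1]
  refine (norm_sub_le _ _).trans ?_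
  have c4 : 2 * Real.pi * |Z - w| * (1 / 2 ^ k) * avN (Pa g κ k) k (fl k x) ≤
      2 * Real.pi * |Z - w| * (1 / 2 ^ k) * Q := by gcongr
  have e2 : (1 : ℝ) / 2 ^ (k + 1) = 1 / 2 ^ k / 2 := by rw [pow_succ]; field_simp
  rw [e2] at c1
  calc _ ≤ 2 * Real.pi * |Z - w| * (1 / 2 ^ k / 2) * Q + 2 * Real.pi * |Z - w| * (1 / 2 ^ k) * Q :=
        add_le_add c1 (c2.trans c4)
    _ = _ := by ring

/-- comparison of the signed sums -/
theorem TS_compare (hg : Measurable g) (hM : ∀ x, ‖g x‖ ≤ M) (hκ : Measurable κ) (Z w : ℝ)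
    {k K : ℕ} {x : ℝ} {Q : ℝ} (hQ0 : 0 ≤ Q)
    (hQ : ∀ l, k ≤ l → l ≤ K → avN (Pb g κ l) l (fl l x) ≤ Q) :
    ‖TS g κ Z k K x‖ ≤ ‖TS g κ w k K x‖ + 6 * Real.pi * |Z - w| * Q * (1 / 2 ^ k) := by
  have hpi := Real.pi_pos
  have h1 : ‖TS g κ Z k K x - e (-(Z - w)) x * TS g κ w k K x‖ ≤
      ∑ l ∈ Finset.Ico k K, 3 * Real.pi * |Z - w| * Q * (1 / 2 ^ l) := by
    unfold TS
    rw [Finset.mul_sum, ← Finset.sum_sub_distrib]
    refine (norm_sum_le _ _).trans (Finset.sum_le_sum fun l hl => ?_)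
    rw [Finset.mem_Ico] at hl
    have e1 : (rad (l + 1) x : ℂ) * dx (aa g κ Z) (bb g κ Z) l x -
        e (-(Z - w)) x * ((rad (l + 1) x : ℂ) * dx (aa g κ w) (bb g κ w) l x) =
        (rad (l + 1) x : ℂ) * (dx (aa g κ Z) (bb g κ Z) l x -
          e (-(Z - w)) x * dx (aa g κ w) (bb g κ w) l x) := by ring
    rw [e1, norm_mul, Complex.norm_real, Real.norm_eq_abs, abs_rad, one_mul]
    exact dx_compare hg hM hκ Z w l x (hQ l hl.1 hl.2.le) (hQ (l + 1) (by omega) (by omega))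
  have h2 := sum_geom_le (C := 3 * Real.pi * |Z - w| * Q) (by positivity) k K
  have h3 : ‖TS g κ Z k K x‖ ≤ ‖e (-(Z - w)) x * TS g κ w k K x‖ +
      ‖TS g κ Z k K x - e (-(Z - w)) x * TS g κ w k K x‖ := by
    have := norm_add_le (e (-(Z - w)) x * TS g κ w k K x)
      (TS g κ Z k K x - e (-(Z - w)) x * TS g κ w k K x)
    rwa [add_sub_cancel] at this
  rw [norm_mul, norm_e, one_mul] at h3
  linarith

/-- **TREE COMPARISON.**  `[k₁, K]` is a segment of the path of `x` on which the coefficients at `Z`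
are `≤ 2a`; `|Z - w| ≤ B 2^{k₁}`; `60 B Q ≤ a 2^β`.  Then, up to `4aβ + a + X`, the signed sum at `Z` is the
signed sum at `w` on `[k', K)`, `k' = min (k₁+β) K`, where the coefficients at `w` are `≤ 3a`. -/
theorem tree_compare (hg : Measurable g) (hM : ∀ x, ‖g x‖ ≤ M) (hκ : Measurable κ) {Z w : ℝ}
    {k₁ K β : ℕ} {x Q a B : ℝ} (hk : k₁ ≤ K) (hQ0 : 0 ≤ Q) (ha : 0 < a) (hB : 0 ≤ B)
    (hQ : ∀ l, k₁ ≤ l → l ≤ K → avN (Pb g κ l) l (fl l x) ≤ Q)
    (hs : ∀ l, k₁ ≤ l → l ≤ K → ‖bb g κ Z l (fl l x)‖ ≤ 2 * a)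
    (hZw : |Z - w| ≤ B * 2 ^ k₁) (hβ : 60 * (B * Q) ≤ a * 2 ^ β) :
    ∃ k', k₁ ≤ k' ∧ k' ≤ K ∧ (k' = K ∨ ∀ l, k' ≤ l → l ≤ K → ‖bb g κ w l (fl l x)‖ ≤ 3 * a) ∧
      ‖TS g κ Z k₁ K x‖ ≤ 4 * a * β + a + XS g κ k₁ K x + ‖TS g κ w k' K x‖ := by
  have hpi := Real.pi_pos
  have hpi4 : Real.pi < 4 := Real.pi_lt_four
  rcases le_total K (k₁ + β) with hc | hc
  · refine ⟨K, hk, le_rfl, Or.inl rfl, ?_⟩
    have h1 := TS_short hg hM hκ Z hs
    have h2 : ((K - k₁ : ℕ) : ℝ) ≤ β := by exact_mod_cast (by omega)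
    have h3 : 4 * a * ((K - k₁ : ℕ) : ℝ) ≤ 4 * a * β := by gcongr
    have h4 := norm_nonneg (TS g κ w K K x)
    linarith
  · refine ⟨k₁ + β, by omega, hc, Or.inr ?_, ?_⟩
    · intro l hl1 hl2
      have h1 := bb_compare hg hM hκ Z w l x (hQ l (by omega) hl2)
      have h2 := hs l (by omega) hl2
      have h3 : 2 * Real.pi * |Z - w| * (1 / 2 ^ l) * Q ≤ a := by
        have h4 : (2 : ℝ) ^ k₁ * 2 ^ β ≤ 2 ^ l := by
          rw [← pow_add]; exact pow_le_pow_right₀ (by norm_num) hl1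
        have h5 : (1 : ℝ) / 2 ^ l ≤ 1 / (2 ^ k₁ * 2 ^ β) :=
          one_div_le_one_div_of_le (by positivity) h4
        calc 2 * Real.pi * |Z - w| * (1 / 2 ^ l) * Q
            ≤ 2 * 4 * (B * 2 ^ k₁) * (1 / (2 ^ k₁ * 2 ^ β)) * Q := by gcongr
          _ = 8 * (B * Q) / 2 ^ β := by field_simp; ring
          _ ≤ a := by
              rw [div_le_iff₀ (by positivity)]
              have : 0 ≤ B * Q := by positivity
              linarith
      have h6 : ‖bb g κ w l (fl l x)‖ = ‖e (-(Z - w)) x * bb g κ w l (fl l x)‖ := by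
        rw [norm_mul, norm_e, one_mul]
      rw [h6]
      have h7 := norm_sub_norm_le (e (-(Z - w)) x * bb g κ w l (fl l x)) (bb g κ Z l (fl l x))
      rw [norm_sub_rev] at h7
      linarith
    · have h1 : ‖TS g κ Z k₁ (k₁ + β) x‖ ≤ 4 * a * β + XS g κ k₁ K x := by
        have h2 := TS_short (K := k₁ + β) (x := x) hg hM hκ Z
          (fun l hl1 hl2 => hs l hl1 (hl2.trans hc))
        have h3 : ((k₁ + β - k₁ : ℕ) : ℝ) = β := by
          congr 1; omega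
        rw [h3] at h2
        have h4 := XS_mono g κ (le_refl k₁) hc x
        linarith
      have h2 := TS_compare (K := K) (k := k₁ + β) (x := x) hg hM hκ Z w hQ0
        (fun l hl1 hl2 => hQ l (by omega) hl2)
      have h3 : 6 * Real.pi * |Z - w| * Q * (1 / 2 ^ (k₁ + β)) ≤ a := by
        calc 6 * Real.pi * |Z - w| * Q * (1 / 2 ^ (k₁ + β))
            ≤ 6 * 4 * (B * 2 ^ k₁) * Q * (1 / 2 ^ (k₁ + β)) := by gcongr
          _ = 24 * (B * Q) / 2 ^ β := by rw [pow_add]; field_simp; ring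
          _ ≤ a := by
              rw [div_le_iff₀ (by positivity)]
              have : 0 ≤ B * Q := by positivity
              linarith
      rw [TS_add g κ Z (by omega : k₁ ≤ k₁ + β) hc x]
      have h4 := norm_add_le (TS g κ Z k₁ (k₁ + β) x) (TS g κ Z (k₁ + β) K x)
      linarith

end Crest.Agent.R100.Tree711
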