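import Crest.Agent.R100.Id_833
import Crest.Agent.R100.Tree1_711
import Crest.Agent.R100.Caps_341

/-!
# R100 / S0132, helper833: block B5 of doc 1968, from the exact identity to `(*)`

`g` is supported in the node `I = (k₀, j₀)`, every point of its support exits at the generation
`κ y ∈ [k₀, m]`, before which its nodes are alive, and `|Pay κ - Pay k₀| ≥ v` there.
`g4 = g 1[κ < R] v / (Pay κ - Pay k₀)`.  Then `|g4| ≤ |g|` and for every label `Y`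
`v |c_I(g 1[κ < R], Y)| ≤ avg_{x ∈ I} |T*_{Y + θ(x)}(x)|`, `T*_Z = TS g4 κ Z k₀ m`.
-/

set_option autoImplicit false

open MeasureTheory Set
open scoped ENNReal

noncomputable section

namespace Crest.Agent.R100.Star833

open Crest.Agent.R100.Mart933 Crest.Agent.R100.Wide933 Crest.Agent.R100.Id833
open Crest.Agent.R100.Run288 Crest.Agent.R100.Tree711 Crest.Agent.R100.Caps341

/-! ## joint measurability -/

theorem measurable_dl_coef₂ {α : Type*} [MeasurableSpace α] {g : ℝ → ℂ} {M : ℝ}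
    (hg : Measurable g) (hM : ∀ x, ‖g x‖ ≤ M) {t X : α → ℝ} (ht : Measurable t)
    (hX : Measurable X) (k : ℕ) : Measurable fun a => dl (coef g (t a)) k (X a) := by
  classical
  have e0 : (fun a => dl (coef g (t a)) k (X a)) = fun a => (rad k (X a) : ℂ) * ((2 : ℂ) ^ k *
      ∫ y, (if fl k y = fl k (X a) then (rad k y : ℂ) * (g y * e (-(t a)) y) else 0)) := by
    ext a
    rw [dl_coef hg hM, ← integral_indicator (measurableSet_Ivl _ _)]
    congr 2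
    refine integral_congr_ae (Filter.Eventually.of_forall fun y => ?_)
    simp only [indicator, mem_Ivl]
  rw [e0]
  refine ((measurable_radC k).comp hX).mul (measurable_const.mul ?_)
  have hm : StronglyMeasurable (fun p : α × ℝ => if fl k p.2 = fl k (X p.1) then
      (rad k p.2 : ℂ) * (g p.2 * e (-(t p.1)) p.2) else 0) := by
    refine Measurable.stronglyMeasurable (Measurable.ite ?_ ?_ measurable_const)
    · have hm : Measurable fun p : α × ℝ => (fl k (X p.1), fl k p.2) :=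
        ((measurable_fl k).comp (hX.comp measurable_fst)).prodMk
          ((measurable_fl k).comp measurable_snd)
      exact hm (MeasurableSet.of_discrete (s := {q : ℤ × ℤ | q.2 = q.1}))
    · exact ((measurable_radC k).comp measurable_snd).mul ((hg.comp measurable_snd).mul
        (measurable_e₂ ((ht.comp measurable_fst).neg) measurable_snd))
  exact (StronglyMeasurable.integral_prod_right' (ν := volume) hm).measurable

variable {g : ℝ → ℂ} {κ : ℝ → ℕ} {M : ℝ}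

theorem measurable_TS {α : Type*} [MeasurableSpace α] (hg : Measurable g) (hM : ∀ x, ‖g x‖ ≤ M)
    (hκ : Measurable κ) {t X : α → ℝ} (ht : Measurable t) (hX : Measurable X) (k K : ℕ) :
    Measurable fun a => TS g κ (t a) k K (X a) := by
  unfold TS
  refine Finset.measurable_sum _ fun l _ => ?_
  refine ((measurable_radC (l + 1)).comp hX).mul ?_
  exact measurable_dl_coef₂ (measurable_Pa hg hκ l) (fun x => (norm_Pa_le g κ l x).trans (hM x))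
    ht hX l

/-! ## the switched sum equals the unswitched sum -/

/-- a population vanishing on a node has difference `0` there -/
theorem dl_coef_eq_zero (hg : Measurable g) (hM : ∀ x, ‖g x‖ ≤ M) {t : ℝ} {k : ℕ} {x : ℝ}
    (h : ∀ y ∈ Ivl k (fl k x), g y = 0) : dl (coef g t) k x = 0 := by
  rw [dl_coef hg hM]
  have : ∫ y in Ivl k (fl k x), (rad k y : ℂ) * (g y * e (-t) y) =
      ∫ y in Ivl k (fl k x), (0 : ℂ) := by
    refine setIntegral_congr_fun (measurableSet_Ivl _ _) fun y hy => ?_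
    simp only [h y hy, zero_mul, mul_zero]
  rw [this]
  simp

theorem SSh_eq_TS (hg : Measurable g) (hM : ∀ x, ‖g x‖ ≤ M) (hκ : Measurable κ)
    {al : ℕ → ℤ → Prop} {k₀ : ℕ}
    (hlive : ∀ y, g y ≠ 0 → ∀ k, k₀ ≤ k → k < κ y → al k (fl k y)) (m : ℕ) (Z x : ℝ) :
    SSh (Pa g κ) al k₀ m Z x = TS g κ Z k₀ m x := by
  classical
  unfold SSh TS
  refine Finset.sum_congr rfl fun k hk => ?_
  by_cases hal : al k (fl k x)
  · rw [if_pos hal, dx_eq]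
  · rw [if_neg hal, dx_eq,
      dl_coef_eq_zero (measurable_Pa hg hκ k) (fun x => (norm_Pa_le g κ k x).trans (hM x)), mul_zero]
    intro y hy
    unfold Pa
    split_ifs with h1
    · by_contra h2
      have := hlive y h2 k (Finset.mem_Ico.1 hk).1 h1
      rw [mem_Ivl.1 hy] at this
      exact hal this
    · rfl

theorem Pa_eq_pop (g : ℝ → ℂ) (κ : ℝ → ℕ) {k₀ k : ℕ} (hk : k₀ ≤ k) (y : ℝ) :
    Pa g κ k y = pop g (fun _ => k₀) κ k y := by
  classical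
  unfold Pa pop
  by_cases h : k < κ y
  · rw [if_pos h, if_pos ⟨hk, h⟩]
  · rw [if_neg h, if_neg (fun hc => h hc.2)]

theorem SSh_congr {h h' : ℕ → ℝ → ℂ} {al : ℕ → ℤ → Prop} {K₀ K : ℕ}
    (hh : ∀ k, K₀ ≤ k → h k = h' k) (t x : ℝ) : SSh h al K₀ K t x = SSh h' al K₀ K t x := by
  classical
  unfold SSh
  refine Finset.sum_congr rfl fun k hk => ?_
  rw [hh k (Finset.mem_Ico.1 hk).1]

/-! ## the multiplier -/

/-- `g4 = g 1[κ < R] v / (Pay κ - Pay k₀)` -/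
def g4 (s : ℝ → ℂ) (θ : ℝ → ℝ) (al : ℕ → ℤ → Prop) (g : ℝ → ℂ) (κ : ℝ → ℕ) (k₀ R : ℕ) (v : ℝ)
    (y : ℝ) : ℂ :=
  lo g κ R y * ((v : ℂ) / (Pay s θ al (κ y) y - Pay s θ al k₀ y))

variable {s : ℝ → ℂ} {θ : ℝ → ℝ} {al : ℕ → ℤ → Prop} {k₀ R m : ℕ} {v : ℝ}

theorem measurable_Pay_kap (hs : Measurable s) (hθ : Measurable θ) (hκ : Measurable κ) :
    Measurable fun y => Pay s θ al (κ y) y := by
  have h1 : Measurable (fun p : ℝ × ℕ => Pay s θ al p.2 p.1) :=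
    measurable_from_prod_countable_left fun K => measurable_Pay hs hθ K
  exact h1.comp (measurable_id.prodMk hκ)

theorem measurable_g4 (hs : Measurable s) (hθ : Measurable θ) (hg : Measurable g)
    (hκ : Measurable κ) (k₀ R : ℕ) (v : ℝ) : Measurable (g4 s θ al g κ k₀ R v) := by
  unfold g4
  exact (measurable_lo hg hκ R).mul (measurable_const.div
    ((measurable_Pay_kap hs hθ hκ).sub (measurable_Pay hs hθ k₀)))

theorem norm_g4_le (hv : 0 < v) (hpay : ∀ y, g y ≠ 0 → v ≤ ‖Pay s θ al (κ y) y - Pay s θ al k₀ y‖)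
    (y : ℝ) : ‖g4 s θ al g κ k₀ R v y‖ ≤ ‖lo g κ R y‖ := by
  unfold g4
  by_cases h0 : lo g κ R y = 0
  · rw [h0]; simp
  · have h1 : g y ≠ 0 := by
      intro hc
      apply h0
      have := norm_lo_le g κ R y
      rw [hc, norm_zero] at this
      exact norm_le_zero_iff.1 this
    have h2 := hpay y h1
    rw [norm_mul, norm_div, Complex.norm_real, Real.norm_eq_abs, abs_of_pos hv]
    have h3 : v / ‖Pay s θ al (κ y) y - Pay s θ al k₀ y‖ ≤ 1 :=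
      (div_le_one (hv.trans_le h2)).2 h2
    calc ‖lo g κ R y‖ * (v / ‖Pay s θ al (κ y) y - Pay s θ al k₀ y‖) ≤ ‖lo g κ R y‖ * 1 := by gcongr
      _ = ‖lo g κ R y‖ := mul_one _

theorem norm_g4_le' (hv : 0 < v) (hpay : ∀ y, g y ≠ 0 → v ≤ ‖Pay s θ al (κ y) y - Pay s θ al k₀ y‖)
    (y : ℝ) : ‖g4 s θ al g κ k₀ R v y‖ ≤ ‖g y‖ :=
  (norm_g4_le hv hpay y).trans (norm_lo_le g κ R y)

theorem g4_ne_zero (y : ℝ) (h : g4 s θ al g κ k₀ R v y ≠ 0) : κ y < R ∧ g y ≠ 0 := by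
  unfold g4 at h
  have h1 : lo g κ R y ≠ 0 := left_ne_zero_of_mul h
  unfold lo at h1
  by_cases h2 : κ y < R
  · rw [if_pos h2] at h1; exact ⟨h2, h1⟩
  · rw [if_neg h2] at h1; exact absurd rfl h1

theorem g4_mul (hv : 0 < v) (hpay : ∀ y, g y ≠ 0 → v ≤ ‖Pay s θ al (κ y) y - Pay s θ al k₀ y‖)
    (y : ℝ) : g4 s θ al g κ k₀ R v y * (Pay s θ al (κ y) y - Pay s θ al k₀ y) =
      (v : ℂ) * lo g κ R y := by
  unfold g4
  by_cases h1 : g y = 0
  · have : lo g κ R y = 0 := by unfold lo; split_ifs <;> simp [h1]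
    rw [this]; simp
  · have h2 := hpay y h1
    have h3 : Pay s θ al (κ y) y - Pay s θ al k₀ y ≠ 0 := by
      rw [← norm_pos_iff]; exact hv.trans_le h2
    field_simp

/-! ## the identity -/

/-- the exact identity for the multiplied population -/
theorem star_id (hs : Measurable s) (hθ : Measurable θ) (hs1 : ∀ x, ‖s x‖ ≤ 1) (hg : Measurable g)
    (hM : ∀ x, ‖g x‖ ≤ M) (hκ : Measurable κ) (hv : 0 < v) (j₀ : ℤ)
    (hκ1 : ∀ y ∈ Ivl k₀ j₀, g y ≠ 0 → k₀ ≤ κ y ∧ κ y ≤ m)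
    (hpay : ∀ y, g y ≠ 0 → v ≤ ‖Pay s θ al (κ y) y - Pay s θ al k₀ y‖)
    (hlive : ∀ y, g y ≠ 0 → ∀ k, k₀ ≤ k → k < κ y → al k (fl k y)) (R : ℕ) (Y : ℝ) :
    (2 : ℂ) ^ k₀ * ∫ x in Ivl k₀ j₀, s x * TS (g4 s θ al g κ k₀ R v) κ (Y + θ x) k₀ m x =
      (v : ℂ) * coef (lo g κ R) Y k₀ j₀ := by
  have hg4 := measurable_g4 (al := al) hs hθ hg hκ k₀ R v
  have hM4 : ∀ x, ‖g4 s θ al g κ k₀ R v x‖ ≤ M := fun x => (norm_g4_le' hv hpay x).trans (hM x)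
  have h1 := exact_pop (al := al) (K₀ := k₀) (K := m) hs hθ hs1 hg4 hM4
    (κ₁ := fun _ => k₀) (κ₂ := κ) measurable_const hκ j₀ (le_refl k₀)
    (fun y hy h0 => by
      obtain ⟨h2, h3⟩ := hκ1 y hy (g4_ne_zero y h0).2
      exact ⟨le_rfl, h2, h3⟩) Y
  have h2 : ∀ x, SSh (pop (g4 s θ al g κ k₀ R v) (fun _ => k₀) κ) al k₀ m (Y + θ x) x =
      TS (g4 s θ al g κ k₀ R v) κ (Y + θ x) k₀ m x := by
    intro x
    rw [← SSh_eq_TS hg4 hM4 hκ (fun y h0 => hlive y (g4_ne_zero y h0).2) m (Y + θ x) x]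
    refine SSh_congr (fun k hk => ?_) _ _
    ext y
    exact (Pa_eq_pop _ κ hk y).symm
  simp_rw [h2] at h1
  rw [h1]
  have h3 : ∫ y in Ivl k₀ j₀, g4 s θ al g κ k₀ R v y * e (-Y) y *
        (Pay s θ al (κ y) y - Pay s θ al k₀ y) =
      ∫ y in Ivl k₀ j₀, (v : ℂ) * (lo g κ R y * e (-Y) y) := by
    refine setIntegral_congr_fun (measurableSet_Ivl _ _) fun y _ => ?_
    have := g4_mul (κ := κ) (R := R) hv hpay y
    calc g4 s θ al g κ k₀ R v y * e (-Y) y * (Pay s θ al (κ y) y - Pay s θ al k₀ y)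
        = g4 s θ al g κ k₀ R v y * (Pay s θ al (κ y) y - Pay s θ al k₀ y) * e (-Y) y := by ring
      _ = (v : ℂ) * (lo g κ R y * e (-Y) y) := by rw [this]; ring
  rw [h3, integral_const_mul]
  unfold coef
  ring

/-- **(*) for one label** -/
theorem star (hs : Measurable s) (hθ : Measurable θ) (hs1 : ∀ x, ‖s x‖ ≤ 1) (hg : Measurable g)
    (hM : ∀ x, ‖g x‖ ≤ M) (hκ : Measurable κ) (hv : 0 < v) (j₀ : ℤ)
    (hκ1 : ∀ y ∈ Ivl k₀ j₀, g y ≠ 0 → k₀ ≤ κ y ∧ κ y ≤ m)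
    (hpay : ∀ y, g y ≠ 0 → v ≤ ‖Pay s θ al (κ y) y - Pay s θ al k₀ y‖)
    (hlive : ∀ y, g y ≠ 0 → ∀ k, k₀ ≤ k → k < κ y → al k (fl k y)) (R : ℕ) (Y : ℝ) :
    ENNReal.ofReal v * ‖coef (lo g κ R) Y k₀ j₀‖ₑ ≤ ENNReal.ofReal (2 ^ k₀) *
      ∫⁻ x in Ivl k₀ j₀, ‖TS (g4 s θ al g κ k₀ R v) κ (Y + θ x) k₀ m x‖ₑ := by
  have h := star_id hs hθ hs1 hg hM hκ hv j₀ hκ1 hpay hlive R Y
  have h1 : ENNReal.ofReal v * ‖coef (lo g κ R) Y k₀ j₀‖ₑ =
      ‖(v : ℂ) * coef (lo g κ R) Y k₀ j₀‖ₑ := by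
    rw [enorm_mul]
    congr 1
    rw [← ofReal_norm, Complex.norm_real, Real.norm_eq_abs, abs_of_pos hv]
  rw [h1, ← h, enorm_mul]
  have h2 : ‖(2 : ℂ) ^ k₀‖ₑ = ENNReal.ofReal (2 ^ k₀) := by
    rw [← ofReal_norm, norm_pow, Complex.norm_ofNat]
  rw [h2]
  gcongr
  refine (enorm_integral_le_lintegral_enorm _).trans ?_
  refine lintegral_mono fun x => ?_
  rw [enorm_mul]
  calc ‖s x‖ₑ * _ ≤ 1 * ‖TS (g4 s θ al g κ k₀ R v) κ (Y + θ x) k₀ m x‖ₑ := by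
        gcongr
        rw [← ofReal_norm]
        exact ENNReal.ofReal_le_one.2 (hs1 x)
    _ = _ := one_mul _

/-- **(*) integrated over a set of labels**, in the order `x` first -/
theorem star_int (hs : Measurable s) (hθ : Measurable θ) (hs1 : ∀ x, ‖s x‖ ≤ 1)
    (hg : Measurable g) (hM : ∀ x, ‖g x‖ ≤ M) (hκ : Measurable κ) (hv : 0 < v) (j₀ : ℤ)
    (hκ1 : ∀ y ∈ Ivl k₀ j₀, g y ≠ 0 → k₀ ≤ κ y ∧ κ y ≤ m)
    (hpay : ∀ y, g y ≠ 0 → v ≤ ‖Pay s θ al (κ y) y - Pay s θ al k₀ y‖)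
    (hlive : ∀ y, g y ≠ 0 → ∀ k, k₀ ≤ k → k < κ y → al k (fl k y)) (R : ℕ) (Lam : Set ℝ) :
    ENNReal.ofReal v * ∫⁻ Y in Lam, ‖coef (lo g κ R) Y k₀ j₀‖ₑ ≤ ENNReal.ofReal (2 ^ k₀) *
      ∫⁻ x in Ivl k₀ j₀, ∫⁻ Y in Lam, ‖TS (g4 s θ al g κ k₀ R v) κ (Y + θ x) k₀ m x‖ₑ := by
  have hg4 := measurable_g4 (al := al) hs hθ hg hκ k₀ R v
  have hM4 : ∀ x, ‖g4 s θ al g κ k₀ R v x‖ ≤ M := fun x => (norm_g4_le' hv hpay x).trans (hM x)
  have hm2 : Measurable fun p : ℝ × ℝ =>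
      ‖TS (g4 s θ al g κ k₀ R v) κ (p.2 + θ p.1) k₀ m p.1‖ₑ :=
    (measurable_TS (α := ℝ × ℝ) hg4 hM4 hκ (t := fun p => p.2 + θ p.1) (X := fun p => p.1)
      (measurable_snd.add (hθ.comp measurable_fst)) measurable_fst k₀ m).enorm
  rw [lintegral_lintegral_swap hm2.aemeasurable]
  rw [← lintegral_const_mul' _ _ ENNReal.ofReal_ne_top,
    ← lintegral_const_mul' _ _ ENNReal.ofReal_ne_top]
  exact lintegral_mono fun Y => star hs hθ hs1 hg hM hκ hv j₀ hκ1 hpay hlive R Y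

/-- **(*)**: lower bound `v b |Λ|` -/
theorem star_pop (hs : Measurable s) (hθ : Measurable θ) (hs1 : ∀ x, ‖s x‖ ≤ 1)
    (hg : Measurable g) (hM : ∀ x, ‖g x‖ ≤ M) (hκ : Measurable κ) (hv : 0 < v) (j₀ : ℤ)
    (hκ1 : ∀ y ∈ Ivl k₀ j₀, g y ≠ 0 → k₀ ≤ κ y ∧ κ y ≤ m)
    (hpay : ∀ y, g y ≠ 0 → v ≤ ‖Pay s θ al (κ y) y - Pay s θ al k₀ y‖)
    (hlive : ∀ y, g y ≠ 0 → ∀ k, k₀ ≤ k → k < κ y → al k (fl k y)) (R : ℕ) {Lam : Set ℝ}
    (hLam : MeasurableSet Lam) {b : ℝ} (hb : ∀ Y ∈ Lam, b ≤ ‖coef (lo g κ R) Y k₀ j₀‖) :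
    ENNReal.ofReal (v * b) * volume Lam ≤ ENNReal.ofReal (2 ^ k₀) *
      ∫⁻ x in Ivl k₀ j₀, ∫⁻ Y in Lam, ‖TS (g4 s θ al g κ k₀ R v) κ (Y + θ x) k₀ m x‖ₑ := by
  refine le_trans ?_ (star_int hs hθ hs1 hg hM hκ hv j₀ hκ1 hpay hlive R Lam)
  rw [ENNReal.ofReal_mul hv.le, mul_assoc]
  gcongr
  rw [← setLIntegral_const]
  refine setLIntegral_mono' hLam fun Y hY => ?_
  rw [← ofReal_norm]
  exact ENNReal.ofReal_le_ofReal (hb Y hY)

/-- substitution `Z = Y + c` -/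
theorem lintegral_shift (Lam : Set ℝ) (hLam : MeasurableSet Lam) (c : ℝ) (G : ℝ → ℝ≥0∞) :
    ∫⁻ Y in Lam, G (Y + c) = ∫⁻ Z in {Z | Z - c ∈ Lam}, G Z := by
  have hm : MeasurableSet {Z : ℝ | Z - c ∈ Lam} := (measurable_id.sub_const c) hLam
  rw [← lintegral_indicator hLam, ← lintegral_indicator hm,
    ← lintegral_add_right_eq_self (fun Z => ({Z : ℝ | Z - c ∈ Lam}).indicator G Z) c]
  refine lintegral_congr fun Y => ?_
  have hiff : Y + c ∈ {Z : ℝ | Z - c ∈ Lam} ↔ Y ∈ Lam := by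
    show Y + c - c ∈ Lam ↔ Y ∈ Lam
    rw [add_sub_cancel_right]
  by_cases hY : Y ∈ Lam
  · simp only [indicator_of_mem hY, indicator_of_mem (hiff.2 hY)]
  · simp only [indicator_of_notMem hY, indicator_of_notMem (fun h => hY (hiff.1 h))]

end Crest.Agent.R100.Star833
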