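import Crest.Agent.R100.LB_905
import Crest.Agent.R100.Near_903
import Crest.Agent.R100.Star_833
import Crest.Agent.R100.CoreX_916

/-!
# R100 / S0132, helper905: the core from the upper bound and the choice of the parameters
-/

set_option autoImplicit false

open MeasureTheory Set
open scoped ENNReal

noncomputable section

namespace Crest.Agent.R100.Core905

open Crest.Agent.R100.Mart933 Crest.Agent.R100.Wide933 Crest.Agent.R100.Id833
open Crest.Agent.R100.Caps341 Crest.Agent.R100.PP833 Crest.Agent.R100.Tree711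
open Crest.Agent.R100.Star833 Crest.Agent.R100.Near903

/-- (PP) for all sub-nodes -/
def PPH (g : ℝ → ℂ) (κ : ℝ → ℕ) (k0 : ℕ) (p : ℝ) (W : ℝ≥0∞) : Prop :=
  ∀ k, k0 ≤ k → ∀ (j : ℤ) (I : Finset ℤ) (Y : ℤ → ℝ),
    (∀ i ∈ I, (i : ℝ) * 2 ^ k ≤ Y i ∧ Y i < (i + 1) * 2 ^ k) →
    ∑ i ∈ I, ‖coef (Pb g κ k) (Y i) k j‖ₑ ^ p ≤ W

/-- **upper bound** (UB), literal -/
def UBStmt : Prop :=
  ∃ (CU CV CE : ℝ) (K : ℕ), 0 < CU ∧ 0 ≤ CV ∧ 0 < CE ∧
    ∀ (g : ℝ → ℂ) (κ : ℝ → ℕ) (θ : ℝ → ℝ) (M : ℝ) (m k0 : ℕ) (j0 : ℤ) (R h : ℕ) (Λ : Set ℝ)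
      (W : ℝ≥0∞) (b D0 E M1 : ℝ),
      Measurable g → (∀ x, ‖g x‖ ≤ M) → Measurable κ → Measurable θ → (∀ y, κ y ≤ m) →
      (∀ y, k0 < κ y) → (∀ y, g y ≠ 0 → y ∈ Ivl k0 j0) → (∀ y, g y ≠ 0 → κ y < R) → k0 + 2 ≤ R →
      (∀ k j, avN (Pb g κ k) k j ≤ 2) → PPH g κ k0 (2 * (h : ℝ)) W →
      MeasurableSet Λ → volume Λ ≠ 0 → volume Λ ≠ ⊤ → 0 < b → b ≤ 2 → 1 ≤ D0 → 1 ≤ E → 1 ≤ M1 →
      W ≤ ENNReal.ofReal (E / 2 ^ k0) * volume Λ * ENNReal.ofReal (D0 * b) ^ (2 * (h : ℝ)) →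
      (∀ u : ℝ, volume (Λ ∩ Icc u (u + 2 ^ (R - 1))) ≤ ENNReal.ofReal (2 ^ k0 * M1)) →
      1 ≤ h → K ≤ h → CE * E * M1 * (1 / b) ^ K ≤ 4 ^ (2 * h) → Real.log (4 / b) ≤ 2 * h →
      ∫⁻ x in Ivl k0 j0, ∫⁻ Y in Λ, ‖TS g κ (Y + θ x) k0 m x‖ₑ ≤
        ENNReal.ofReal ((CU * D0 ^ 2 * (2 * h) * b + CV) / 2 ^ k0) * volume Λ

/-- **the choice of the parameters** (helper801's literal) -/
def NumStmt : Prop :=
  ∀ (C2 CE CV : ℝ) (K : ℕ), 1 ≤ C2 → ∃ A c : ℝ, 0 < A ∧ 0 < c ∧ ∃ n₀ : ℕ, ∀ n : ℕ, n₀ ≤ n → 1 ≤ n ∧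
    ∃ (h : ℕ) (β : ℝ), 1 ≤ h ∧ K ≤ h ∧ 0 < β ∧ β ≤ 1 ∧
      (C2 * (2 * (h : ℝ))) * (4 + Real.log (4 / (n : ℝ) ^ (-c))) + C2 * (n + 3) + 2 < A * n ∧
      β ^ (2 * (h : ℝ) - 2) * (2 ^ n * 2) ≤
        (1 / 2 * ((n : ℝ) ^ (-c) / 4 * Real.exp (-(A * n + 3) / (C2 * (2 * (h : ℝ))))) ^
          (2 * (h : ℝ))) / 2 ∧
      CE * (1 / β) ^ K ≤ 4 ^ (2 * h) ∧ Real.log (CE / β) ≤ 2 * h ∧ CV < 2 * (h : ℝ) * β

/-- (PP) for `g4` from the near-maximality (`nm`) -/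
theorem pph {s : ℝ → ℂ} {θ : ℝ → ℝ} {al : ℕ → ℤ → Prop} {f g g' : ℝ → ℂ} {κ : ℝ → ℕ}
    {n m k0 : ℕ} {j0 : ℤ} {p v V mu M : ℝ} (H : Blk s θ al f n m p v V mu k0 j0 g κ)
    (hp : 1 ≤ p) (hg' : Measurable g') (hM : ∀ x, ‖g' x‖ ≤ M) (hle : ∀ y, ‖g' y‖ ≤ ‖g y‖) :
    PPH g' κ k0 p (2 * ENNReal.ofReal (Real.pi / 2) ^ p *
      (ENNReal.ofReal (9 ^ p) * Np p g k0 j0)) := by
  intro k hk j I Y hY
  refine PP' hp (measurable_Pb hg' H.meas_κ k) (fun x => (norm_Pb_le g' κ k x).trans (hM x)) k j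
    (fun q hq hq1 => ?_) I Y hY
  refine H.nm k hk j _ (hq.mul (measurable_Pb hg' H.meas_κ k)) fun y _ => ?_
  rw [norm_mul]
  unfold Pb
  split_ifs with h
  · calc ‖q y‖ * ‖g' y‖ ≤ 1 * ‖g y‖ :=
          mul_le_mul (hq1 y) (hle y) (norm_nonneg _) zero_le_one
      _ = _ := one_mul _
  · simp

theorem coreX_of (hU : UBStmt) (hN : NumStmt) : CoreX916.CoreX := by
  obtain ⟨CU, CV, CE, K, hCU, hCV, hCE, hU⟩ := hU
  set C2 : ℝ := CU * 76 ^ 2 + 1 with hC2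
  have hC21 : 1 ≤ C2 := by
    rw [hC2]; nlinarith
  obtain ⟨A, c, hA, hc, n₀, hn₀⟩ := hN C2 (CE * 210000 * (8 / 3) ^ K + 11) (8 / 3 * CV) (K + 4) hC21
  refine ⟨A, c, hA, hc, n₀, ?_⟩
  intro n hn s θ al F m hs hs1 hθ hF hF2 hcl hd hpay
  obtain ⟨hn1, h, β, hh, hKh, hβ, hβ1, hN1, hN2, hN3, hN4, hN5⟩ := hn₀ n hn
  by_contra hcon
  rw [not_le] at hcon
  have hnpos : (0 : ℝ) < n := by exact_mod_cast hn1
  set mu : ℝ := (n : ℝ) ^ (-c) with hmu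
  have hmu0 : 0 < mu := Real.rpow_pos_of_pos hnpos _
  set p : ℝ := 2 * (h : ℝ) with hp
  have hh' : (1 : ℝ) ≤ h := by exact_mod_cast hh
  have hp2 : 2 ≤ p := by rw [hp]; linarith
  have hppos : 0 < p := by linarith
  set v : ℝ := C2 * p with hv
  have hpv : p ≤ v := by rw [hv]; nlinarith
  have hv0 : 0 < v := by linarith
  set f : ℝ → ℂ := fun y => (F y : ℂ) with hf
  have hfm : Measurable f := Complex.measurable_ofReal.comp hF
  have hfn : ∀ y, ‖f y‖ = F y := fun y => by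
    rw [hf]; simp only [Complex.norm_real, Real.norm_eq_abs]
    exact abs_of_nonneg (hF2 y).1
  have hfM : ∀ y, ‖f y‖ ≤ 2 ^ n := fun y => by rw [hfn y]; exact (hF2 y).2
  set E0 : Set ℝ := Ivl 0 0 ∩ {y | F y ≠ 0} with hE0
  have hE0m : MeasurableSet E0 :=
    (measurableSet_Ivl 0 0).inter (measurableSet_eq_fun hF measurable_const).compl
  have hmass : mu ≤ ∫ y in E0, ‖f y‖ := by
    have h1 : ∫ y in E0, ‖f y‖ = ∫ y in Ivl 0 0, F y := by
      rw [← integral_indicator hE0m, ← integral_indicator (measurableSet_Ivl 0 0)]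
      congr 1
      ext y
      by_cases hy : y ∈ Ivl 0 0
      · rw [indicator_of_mem hy]
        by_cases hFy : F y = 0
        · have hyE : y ∉ E0 := fun hc => hc.2 hFy
          rw [indicator_of_notMem hyE, hFy]
        · have hyE : y ∈ E0 := ⟨hy, hFy⟩
          rw [indicator_of_mem hyE, hfn y]
      · rw [indicator_of_notMem hy, indicator_of_notMem (fun hc => hy hc.1)]
    rw [h1]
    exact hcon.le
  obtain ⟨k0, j0, g, κ, H⟩ := exists_blk (E0 := E0) hfm hfM hs hs1 hθ hcl hd hE0m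
    inter_subset_left (fun y hy => hpay y hy.1 hy.2) (by positivity : 0 < A * n) hmu0 hmass hp2 hpv
    (by
      have e1 : v / p = C2 := by rw [hv]; field_simp
      rw [e1, hv, hp]
      exact hN1)
  have hgM : ∀ y, ‖g y‖ ≤ 2 ^ n := fun y => (H.le_f y).trans (hfM y)
  -- lower bound glue
  obtain ⟨R, b, Λ, hΛm, hΛ0, hΛt, hR, hb1, hb2, hbΛ, hpop, hmult⟩ :=
    LB905.lb_glue (M := 2 ^ n) (Λ₀ := 1 / 2 * (mu / 4 * Real.exp (-(A * n + 3) / v)) ^ p)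
      (β := β) H.meas_g hgM H.meas_κ H.le_m H.gt H.dens2 hp2 (by positivity) hβ hβ1 H.lb
      (ne_top_of_le_ne_top ENNReal.ofReal_ne_top H.ub) (by
        rw [hv, hp]
        exact hN2)
  have hbpos : 0 < b := lt_of_lt_of_le (by positivity) hb1
  -- the multiplied function
  set G := g4 s θ al g κ k0 R v with hG
  have hGm : Measurable G := measurable_g4 hs hθ H.meas_g H.meas_κ k0 R v
  have hGle : ∀ y, ‖G y‖ ≤ ‖g y‖ := norm_g4_le' hv0 H.pay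
  have hGM : ∀ y, ‖G y‖ ≤ 2 ^ n := fun y => (hGle y).trans (hgM y)
  have hGd : ∀ k j, avN (Pb G κ k) k j ≤ 2 := by
    intro k j
    refine (Caps341.avN_mono (measurable_Pb hGm H.meas_κ k)
      (fun x => (norm_Pb_le G κ k x).trans (hGM x)) (measurable_Pb H.meas_g H.meas_κ k)
      (fun x => (norm_Pb_le g κ k x).trans (hgM x)) (fun y => ?_) k j).trans (H.dens2 k j)
    unfold Pb
    split_ifs
    · exact hGle y
    · simp
  have hGs : ∀ y, G y ≠ 0 → κ y < R ∧ g y ≠ 0 := fun y hy => g4_ne_zero y hy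
  have hW := pph H (by linarith : (1 : ℝ) ≤ p) hGm hGM hGle
  set W : ℝ≥0∞ := 2 * ENNReal.ofReal (Real.pi / 2) ^ p * (ENNReal.ofReal (9 ^ p) * Np p g k0 j0)
    with hWd
  have hk0 : (0 : ℝ) < 2 ^ k0 := by positivity
  have hpi := Real.pi_pos
  have hpi2 := Real.pi_lt_d2
  have hWle : W ≤ ENNReal.ofReal (1400 / β ^ 2 / 2 ^ k0) * volume Λ *
      ENNReal.ofReal (76 * b) ^ p := by
    have e1 : ENNReal.ofReal (Real.pi / 2) ^ p * (ENNReal.ofReal (9 ^ p) *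
        ENNReal.ofReal (16 / 3 * b) ^ p) ≤ ENNReal.ofReal (76 * b) ^ p := by
      have e2 : ENNReal.ofReal (9 ^ p) = ENNReal.ofReal 9 ^ p := by
        rw [ENNReal.ofReal_rpow_of_pos (by norm_num)]
      rw [e2, ← ENNReal.mul_rpow_of_nonneg _ _ hppos.le, ← ENNReal.mul_rpow_of_nonneg _ _ hppos.le,
        ← ENNReal.ofReal_mul (by norm_num), ← ENNReal.ofReal_mul (by positivity)]
      refine ENNReal.rpow_le_rpow (ENNReal.ofReal_le_ofReal ?_) hppos.le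
      nlinarith
    calc W ≤ 2 * ENNReal.ofReal (Real.pi / 2) ^ p * (ENNReal.ofReal (9 ^ p) *
          (ENNReal.ofReal (700 / β ^ 2 * (1 / 2 ^ k0)) * volume Λ *
            ENNReal.ofReal (16 / 3 * b) ^ p)) := by
          rw [hWd]; gcongr
      _ = 2 * ENNReal.ofReal (700 / β ^ 2 * (1 / 2 ^ k0)) * volume Λ *
          (ENNReal.ofReal (Real.pi / 2) ^ p * (ENNReal.ofReal (9 ^ p) *
            ENNReal.ofReal (16 / 3 * b) ^ p)) := by ring
      _ ≤ 2 * ENNReal.ofReal (700 / β ^ 2 * (1 / 2 ^ k0)) * volume Λ *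
          ENNReal.ofReal (76 * b) ^ p := by gcongr
      _ = _ := by
          congr 2
          rw [← ENNReal.ofReal_ofNat, ← ENNReal.ofReal_mul (by norm_num)]
          congr 1
          ring
  have hβ2 : β ^ 2 ≤ 1 := pow_le_one₀ hβ.le hβ1
  have hβ2' : 0 < β ^ 2 := by positivity
  have hub := hU G κ θ (2 ^ n) m k0 j0 R h Λ W b 76 (1400 / β ^ 2) (150 / β ^ 2) hGm hGM H.meas_κ
    hθ H.le_m H.gt (fun y hy => (H.supp y (hGs y hy).2).1) (fun y hy => (hGs y hy).1) hR hGd hW hΛm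
    hΛ0 hΛt hbpos hb2 (by norm_num) (by rw [le_div_iff₀ hβ2']; linarith)
    (by rw [le_div_iff₀ hβ2']; linarith) hWle hmult hh (by omega) (by
      -- numbers
      have h1 : 1 / b ≤ 8 / 3 * (1 / β) := by
        have : 8 / 3 * (1 / β) = 1 / (3 / 8 * β) := by field_simp
        rw [this]
        exact one_div_le_one_div_of_le (by positivity) hb1
      have h2 : (1 / b) ^ K ≤ (8 / 3) ^ K * (1 / β) ^ K := by
        rw [← mul_pow]
        exact pow_le_pow_left₀ (by positivity) h1 K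
      calc CE * (1400 / β ^ 2) * (150 / β ^ 2) * (1 / b) ^ K
          ≤ CE * (1400 / β ^ 2) * (150 / β ^ 2) * ((8 / 3) ^ K * (1 / β) ^ K) := by gcongr
        _ = (CE * 210000 * (8 / 3) ^ K) * (1 / β) ^ (K + 4) := by
            rw [pow_add]; field_simp; ring
        _ ≤ (CE * 210000 * (8 / 3) ^ K + 11) * (1 / β) ^ (K + 4) := by
            gcongr; linarith
        _ ≤ _ := hN3) (by
      refine le_trans (Real.log_le_log (by positivity) ?_) hN4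
      have : 4 / b ≤ 11 / β := by
        rw [div_le_div_iff₀ hbpos hβ]
        nlinarith
      refine this.trans ?_
      gcongr
      have : 0 < CE * 210000 * (8 / 3) ^ K := by positivity
      linarith)
  have hstar := star_pop (Lam := Λ) (b := b) (m := m) hs hθ hs1 H.meas_g hgM H.meas_κ hv0 j0
    (fun y _ _ => ⟨(H.gt y).le, H.le_m y⟩) H.pay (fun y hy k _ hk => H.live y hy k hk) R hΛm hbΛ
  have hfinal : ENNReal.ofReal (v * b) * volume Λ ≤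
      ENNReal.ofReal (CU * 76 ^ 2 * (2 * h) * b + CV) * volume Λ := by
    refine hstar.trans ?_
    calc ENNReal.ofReal (2 ^ k0) *
          ∫⁻ x in Ivl k0 j0, ∫⁻ Y in Λ, ‖TS (g4 s θ al g κ k0 R v) κ (Y + θ x) k0 m x‖ₑ
        ≤ ENNReal.ofReal (2 ^ k0) * (ENNReal.ofReal ((CU * 76 ^ 2 * (2 * h) * b + CV) / 2 ^ k0) *
            volume Λ) := by gcongr
      _ = _ := by
          rw [← mul_assoc, ← ENNReal.ofReal_mul hk0.le]
          congr 2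
          field_simp
  rw [ENNReal.mul_le_mul_iff_left hΛ0 hΛt, ENNReal.ofReal_le_ofReal_iff (by positivity)] at hfinal
  have h1 : v * b = CU * 76 ^ 2 * (2 * h) * b + 2 * h * b := by
    rw [hv, hC2, hp]; ring
  rw [h1] at hfinal
  have h2 : 2 * (h : ℝ) * b ≤ CV := by linarith
  have h3 : 2 * (h : ℝ) * (3 / 8 * β) ≤ 2 * h * b := by gcongr
  linarith

end Crest.Agent.R100.Core905
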