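import Mathlib

/-!
# R100 / S0132, helper933: helper917's lemma (doc 1273)

Relative near-independence by extremal sets.
-/

set_option autoImplicit false

open MeasureTheory Set
open scoped ENNReal InnerProductSpace

noncomputable section

namespace Crest.Agent.R100.Extr933

variable {Ω : Type*} [MeasurableSpace Ω] {P : Measure Ω} [IsFiniteMeasure P]
variable {H : Type*} [NormedAddCommGroup H] [InnerProductSpace ℝ H]

variable (P) in
/-- bounded probability densities on `E` -/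
structure Adm (E : Set Ω) (h : Ω → ℝ) : Prop where
  meas : Measurable h
  nonneg : ∀ y, 0 ≤ h y
  bdd : ∃ C, ∀ y, h y ≤ C
  supp : ∀ y, y ∉ E → h y = 0
  one : ∫ y, h y ∂P = 1

variable (P) in
/-- averages of `φ` over `E` -/
def VS (φ : Ω → H) (E : Set Ω) : Set H := {v | ∃ h, Adm P E h ∧ v = ∫ y, h y • φ y ∂P}

variable (P) in
/-- minimal norm of an average of `φ` over `E` -/
def RR (φ : Ω → H) (E : Set Ω) : ℝ := Metric.infDist (0 : H) (VS P φ E)

theorem RR_nonneg (φ : Ω → H) (E : Set Ω) : 0 ≤ RR P φ E := Metric.infDist_nonneg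

theorem Adm.mono {E E' : Set Ω} (hE : E' ⊆ E) {h : Ω → ℝ} (hh : Adm P E' h) : Adm P E h where
  meas := hh.meas
  nonneg := hh.nonneg
  bdd := hh.bdd
  supp := fun y hy => hh.supp y fun h' => hy (hE h')
  one := hh.one

theorem VS_mono (φ : Ω → H) {E E' : Set Ω} (hE : E' ⊆ E) : VS P φ E' ⊆ VS P φ E := by
  rintro v ⟨h, hh, rfl⟩
  exact ⟨h, hh.mono hE, rfl⟩

theorem Adm.integrable {E : Set Ω} {h : Ω → ℝ} (hh : Adm P E h) : Integrable h P := by
  obtain ⟨C, hC⟩ := hh.bdd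
  refine Integrable.of_bound hh.meas.aestronglyMeasurable (C := C) ?_
  refine Filter.Eventually.of_forall fun y => ?_
  rw [Real.norm_eq_abs, abs_of_nonneg (hh.nonneg y)]
  exact hC y

theorem Adm.integrable_smul {E : Set Ω} {h : Ω → ℝ} (hh : Adm P E h) {φ : Ω → H}
    (hφ : AEStronglyMeasurable φ P) (hb : ∀ y, ‖φ y‖ ≤ 1) : Integrable (fun y => h y • φ y) P := by
  refine Integrable.mono' hh.integrable (hh.meas.aestronglyMeasurable.smul hφ) ?_
  refine Filter.Eventually.of_forall fun y => ?_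
  rw [norm_smul, Real.norm_eq_abs, abs_of_nonneg (hh.nonneg y)]
  exact mul_le_of_le_one_right (hh.nonneg y) (hb y)

theorem VS_convex {φ : Ω → H} (hφ : AEStronglyMeasurable φ P) (hb : ∀ y, ‖φ y‖ ≤ 1) (E : Set Ω) :
    Convex ℝ (VS P φ E) := by
  rintro v ⟨h, hh, rfl⟩ w ⟨g, hg, rfl⟩ a b ha hab hsum
  refine ⟨fun y => a * h y + b * g y, ?_, ?_⟩
  · obtain ⟨C, hC⟩ := hh.bdd
    obtain ⟨C', hC'⟩ := hg.bdd
    refine ⟨(hh.meas.const_mul a).add (hg.meas.const_mul b), fun y => ?_, ⟨a * C + b * C', fun y => ?_⟩,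
      fun y hy => ?_, ?_⟩
    · have := hh.nonneg y
      have := hg.nonneg y
      positivity
    · have := hC y
      have := hC' y
      gcongr
    · rw [hh.supp y hy, hg.supp y hy]; ring
    · rw [integral_add (hh.integrable.const_mul a) (hg.integrable.const_mul b),
        integral_const_mul, integral_const_mul, hh.one, hg.one]
      linarith
  · rw [← integral_smul, ← integral_smul, ← integral_add]
    · congr 1
      ext y
      rw [add_smul, mul_smul, mul_smul]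
    · exact (hh.integrable_smul hφ hb).smul a
    · exact (hg.integrable_smul hφ hb).smul b

theorem norm_le_of_VS {φ : Ω → H} (hφ : AEStronglyMeasurable φ P) (hb : ∀ y, ‖φ y‖ ≤ 1)
    {E : Set Ω} {v : H} (hv : v ∈ VS P φ E) : ‖v‖ ≤ 1 := by
  obtain ⟨h, hh, rfl⟩ := hv
  refine (norm_integral_le_integral_norm _).trans ?_
  rw [← hh.one]
  apply integral_mono (hh.integrable_smul hφ hb).norm hh.integrable
  intro y
  change ‖h y • φ y‖ ≤ h y
  rw [norm_smul, Real.norm_eq_abs, abs_of_nonneg (hh.nonneg y)]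
  exact mul_le_of_le_one_right (hh.nonneg y) (hb y)

theorem RR_le {φ : Ω → H} {E : Set Ω} {v : H} (hv : v ∈ VS P φ E) : RR P φ E ≤ ‖v‖ := by
  have := Metric.infDist_le_dist_of_mem (x := (0 : H)) hv
  simpa [RR] using this

theorem le_RR {φ : Ω → H} {E : Set Ω} {c : ℝ} (hne : (VS P φ E).Nonempty)
    (h : ∀ v ∈ VS P φ E, c ≤ ‖v‖) : c ≤ RR P φ E := by
  unfold RR
  rw [Metric.le_infDist hne]
  intro v hv
  simpa using h v hv

theorem indicator_adm {E : Set Ω} (hE : MeasurableSet E) (hpos : 0 < P.real E) :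
    Adm P E (E.indicator fun _ => (P.real E)⁻¹) where
  meas := measurable_const.indicator hE
  nonneg := fun y => indicator_nonneg (fun _ _ => by positivity) y
  bdd := ⟨(P.real E)⁻¹, fun y => by
    by_cases hy : y ∈ E
    · rw [indicator_of_mem hy]
    · rw [indicator_of_notMem hy]; positivity⟩
  supp := fun y hy => indicator_of_notMem hy _
  one := by
    rw [integral_indicator hE, setIntegral_const, smul_eq_mul, mul_inv_cancel₀ hpos.ne']

theorem VS_nonempty (φ : Ω → H) {E : Set Ω} (hE : MeasurableSet E) (hpos : 0 < P.real E) :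
    (VS P φ E).Nonempty := ⟨_, _, indicator_adm hE hpos, rfl⟩

/-- (a) monotonicity -/
theorem RR_mono (φ : Ω → H) {E E' : Set Ω} (hE : E' ⊆ E) (hE' : MeasurableSet E')
    (hpos : 0 < P.real E') : RR P φ E ≤ RR P φ E' :=
  le_RR (VS_nonempty φ hE' hpos) fun _ hv => RR_le (VS_mono φ hE hv)

theorem RR_le_one {φ : Ω → H} (hφ : AEStronglyMeasurable φ P) (hb : ∀ y, ‖φ y‖ ≤ 1)
    (E : Set Ω) : RR P φ E ≤ 1 := by
  rcases (VS P φ E).eq_empty_or_nonempty with h | ⟨v, hv⟩
  · unfold RR; rw [h, Metric.infDist_empty]; norm_num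
  · exact (RR_le hv).trans (norm_le_of_VS hφ hb hv)

theorem inner_integral_eq {φ : Ω → H} (hφ : AEStronglyMeasurable φ P) (hb : ∀ y, ‖φ y‖ ≤ 1)
    [CompleteSpace H] {E : Set Ω} {h : Ω → ℝ} (hh : Adm P E h) (w : H) :
    ⟪w, ∫ y, h y • φ y ∂P⟫_ℝ = ∫ y, h y * ⟪w, φ y⟫_ℝ ∂P := by
  rw [← integral_inner (hh.integrable_smul hφ hb) w]
  congr 1
  ext y
  rw [inner_smul_right]

theorem integrable_inner {φ : Ω → H} (hφ : AEStronglyMeasurable φ P) (hb : ∀ y, ‖φ y‖ ≤ 1)
    {E : Set Ω} {h : Ω → ℝ} (hh : Adm P E h) (w : H) :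
    Integrable (fun y => h y * ⟪w, φ y⟫_ℝ) P := by
  have h1 := (hh.integrable_smul hφ hb).const_inner (𝕜 := ℝ) w
  refine h1.congr (Filter.Eventually.of_forall fun y => ?_)
  change ⟪w, h y • φ y⟫_ℝ = h y * ⟪w, φ y⟫_ℝ
  rw [inner_smul_right]

/-- (b) pointwise coherence gives a lower bound -/
theorem le_RR_of_inner [CompleteSpace H] {φ : Ω → H} (hφ : AEStronglyMeasurable φ P)
    (hb : ∀ y, ‖φ y‖ ≤ 1) {E : Set Ω} (hE : MeasurableSet E) (hpos : 0 < P.real E) {w : H} {c : ℝ}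
    (hw : w ≠ 0) (h : ∀ y ∈ E, c * ‖w‖ ≤ ⟪w, φ y⟫_ℝ) : c ≤ RR P φ E := by
  refine le_RR (VS_nonempty φ hE hpos) ?_
  rintro v ⟨g, hg, rfl⟩
  have h1 : c * ‖w‖ ≤ ⟪w, ∫ y, g y • φ y ∂P⟫_ℝ := by
    rw [inner_integral_eq hφ hb hg]
    calc c * ‖w‖ = ∫ y, g y * (c * ‖w‖) ∂P := by
          rw [integral_mul_const, hg.one, one_mul]
      _ ≤ _ := by
          apply integral_mono (hg.integrable.mul_const _) (integrable_inner hφ hb hg w)
          intro y
          by_cases hy : y ∈ E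
          · exact mul_le_mul_of_nonneg_left (h y hy) (hg.nonneg y)
          · change g y * (c * ‖w‖) ≤ g y * ⟪w, φ y⟫_ℝ
            rw [hg.supp y hy]; simp
  have h2 := real_inner_le_norm w (∫ y, g y • φ y ∂P)
  have h3 : 0 < ‖w‖ := norm_pos_iff.2 hw
  have h4 : ‖w‖ * c ≤ ‖w‖ * ‖∫ y, g y • φ y ∂P‖ := by linarith
  exact le_of_mul_le_mul_left h4 h3

/-- the point of minimal norm -/
theorem exists_vE [CompleteSpace H] {φ : Ω → H} (hφ : AEStronglyMeasurable φ P)
    (hb : ∀ y, ‖φ y‖ ≤ 1) {E : Set Ω} (hne : (VS P φ E).Nonempty) :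
    ∃ v ∈ closure (VS P φ E), ‖v‖ = RR P φ E ∧
      ∀ w ∈ closure (VS P φ E), RR P φ E ^ 2 ≤ ⟪v, w⟫_ℝ := by
  have hc : Convex ℝ (closure (VS P φ E)) := (VS_convex hφ hb E).closure
  obtain ⟨v, hv, hmin⟩ := exists_norm_eq_iInf_of_complete_convex hne.closure
    isClosed_closure.isComplete hc (0 : H)
  have hR : ‖v‖ = RR P φ E := by
    unfold RR
    rw [← Metric.infDist_closure, Metric.infDist_eq_iInf, ← norm_neg v, ← zero_sub, hmin]
    congr 1
    ext w
    rw [dist_eq_norm]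
  refine ⟨v, hv, hR, fun w hw => ?_⟩
  have h1 := (norm_eq_iInf_iff_real_inner_le_zero hc hv).1 hmin w hw
  rw [zero_sub, inner_neg_left, inner_sub_right, real_inner_self_eq_norm_sq, hR] at h1
  linarith

variable (P) in
/-- extremal sets -/
def Extr (φ : Ω → H) (c K : ℝ) (E : Set Ω) : Prop :=
  ∀ E' ⊆ E, MeasurableSet E' → 0 < P.real E' →
    RR P φ E' ≤ K * RR P φ E * (P.real E / P.real E') ^ c

/-- existence of extremal subsets -/
theorem exists_extr {φ : Ω → H} (hφ : AEStronglyMeasurable φ P) (hb : ∀ y, ‖φ y‖ ≤ 1)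
    {c K : ℝ} (hc : 0 < c) (hK : 1 < K) {E₀ : Set Ω} (hE₀ : MeasurableSet E₀)
    (hpos : 0 < P.real E₀) (hR : 0 < RR P φ E₀) :
    ∃ E ⊆ E₀, MeasurableSet E ∧ 0 < P.real E ∧ Extr P φ c K E ∧ RR P φ E₀ ≤ RR P φ E ∧
      RR P φ E₀ * (P.real E₀) ^ c ≤ RR P φ E * (P.real E) ^ c := by
  set S : Set ℝ := {t | ∃ E ⊆ E₀, MeasurableSet E ∧ 0 < P.real E ∧
    t = RR P φ E * (P.real E) ^ c} with hS
  have hbdd : BddAbove S := by
    refine ⟨(P.real E₀) ^ c, ?_⟩
    rintro t ⟨E, hE, hEm, hEp, rfl⟩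
    have h1 := RR_le_one hφ hb E
    have h2 : P.real E ≤ P.real E₀ := measureReal_mono hE
    have h3 : (P.real E) ^ c ≤ (P.real E₀) ^ c := Real.rpow_le_rpow hEp.le h2 hc.le
    have h4 : 0 ≤ (P.real E) ^ c := by positivity
    nlinarith [RR_nonneg (P := P) φ E]
  have hmem₀ : RR P φ E₀ * (P.real E₀) ^ c ∈ S := ⟨E₀, subset_rfl, hE₀, hpos, rfl⟩
  have hsup_pos : 0 < sSup S := lt_of_lt_of_le (by positivity) (le_csSup hbdd hmem₀)
  -- choose a near maximiser at least as good as `E₀`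
  obtain ⟨t, htS, ht⟩ : ∃ t ∈ S, sSup S / K < t := by
    apply exists_lt_of_lt_csSup ⟨_, hmem₀⟩
    rw [div_lt_iff₀ (by linarith)]
    nlinarith
  obtain ⟨t', ht'S, ht'1, ht'2⟩ : ∃ t' ∈ S, sSup S / K < t' ∧
      RR P φ E₀ * (P.real E₀) ^ c ≤ t' := by
    by_cases h : RR P φ E₀ * (P.real E₀) ^ c ≤ t
    · exact ⟨t, htS, ht, h⟩
    · push Not at h
      exact ⟨_, hmem₀, ht.trans h, le_rfl⟩
  obtain ⟨E, hE, hEm, hEp, rfl⟩ := ht'S
  refine ⟨E, hE, hEm, hEp, ?_, RR_mono φ hE hEm hEp, ht'2⟩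
  intro E' hE' hE'm hE'p
  have h1 : RR P φ E' * (P.real E') ^ c ≤ sSup S :=
    le_csSup hbdd ⟨E', hE'.trans hE, hE'm, hE'p, rfl⟩
  have h2 : sSup S ≤ K * (RR P φ E * (P.real E) ^ c) := by
    rw [div_lt_iff₀ (by linarith)] at ht'1
    linarith
  have h3 : 0 < (P.real E') ^ c := by positivity
  rw [Real.div_rpow hEp.le hE'p.le, ← mul_div_assoc, le_div_iff₀ h3]
  linarith

/-- **tail bound** for an extremal set -/
theorem tail_extr [CompleteSpace H] {φ : Ω → H} (hφ : StronglyMeasurable φ)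
    (hb : ∀ y, ‖φ y‖ ≤ 1) {c K : ℝ} (hc : 0 < c) {E : Set Ω} (hE : MeasurableSet E)
    (hext : Extr P φ c K E) {F : Ω → ℝ} (hF : Measurable F) (hF0 : ∀ y, 0 ≤ F y)
    (hF1 : ∀ y, F y ≤ 1) (hFE : ∀ y, y ∉ E → F y = 0) (hM : 0 < ∫ y, F y ∂P)
    {w : H} {u : ℝ} (hu : 0 < u) (hw : w ≠ 0) :
    ∫ y in {y | y ∈ E ∧ u ≤ ⟪w, φ y⟫_ℝ}, F y ∂P ≤
      P.real E * (K * RR P φ E * ‖w‖ / u) ^ (1 / c) := by
  set Eu : Set Ω := {y | y ∈ E ∧ u ≤ ⟪w, φ y⟫_ℝ} with hEu
  have hXm : StronglyMeasurable fun y => ⟪w, φ y⟫_ℝ := stronglyMeasurable_const.inner hφ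
  have hEum : MeasurableSet Eu := hE.inter (measurableSet_le measurable_const hXm.measurable)
  have hFi : Integrable F P := by
    refine Integrable.of_bound hF.aestronglyMeasurable (C := 1) ?_
    refine Filter.Eventually.of_forall fun y => ?_
    rw [Real.norm_eq_abs, abs_of_nonneg (hF0 y)]
    exact hF1 y
  have hFEu : ∫ y in Eu, F y ∂P ≤ P.real Eu := by
    calc ∫ y in Eu, F y ∂P ≤ ∫ _y in Eu, (1 : ℝ) ∂P := by
          apply setIntegral_mono hFi.integrableOn (integrable_const _)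
          exact hF1
      _ = P.real Eu := by simp
  have hw0 : 0 < ‖w‖ := norm_pos_iff.2 hw
  rcases (measureReal_nonneg (μ := P) (s := Eu)).eq_or_lt with h0 | hpos
  · have h1 : ∫ y in Eu, F y ∂P ≤ 0 := by rw [h0]; exact hFEu
    refine h1.trans ?_
    by_cases hneg : 0 ≤ K * RR P φ E * ‖w‖ / u
    · positivity
    · -- `K < 0` is impossible, but the bound is only needed for nonnegative base
      exfalso
      apply hneg
      have hEpos : 0 < P.real E := by
        by_contra hcon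
        have h2 : P.real E = 0 := le_antisymm (not_lt.1 hcon) measureReal_nonneg
        have h3 : ∫ y, F y ∂P = ∫ y in E, F y ∂P := by
          rw [setIntegral_eq_integral_of_forall_compl_eq_zero]
          intro y hy; exact hFE y hy
        have h4 : ∫ y in E, F y ∂P ≤ P.real E := by
          calc ∫ y in E, F y ∂P ≤ ∫ _y in E, (1 : ℝ) ∂P := by
                apply setIntegral_mono hFi.integrableOn (integrable_const _)
                exact hF1
            _ = P.real E := by simp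
        linarith
      have h2 := hext E subset_rfl hE hEpos
      rw [div_self hEpos.ne', Real.one_rpow, mul_one] at h2
      have h3 := RR_nonneg (P := P) φ E
      have h4 : 0 ≤ K * RR P φ E := h3.trans h2
      positivity
  · have h1 : u / ‖w‖ ≤ RR P φ Eu := by
      apply le_RR_of_inner hφ.aestronglyMeasurable hb hEum hpos hw
      rintro y ⟨_, hy⟩
      rwa [div_mul_cancel₀ _ hw0.ne']
    have h2 := hext Eu (fun y hy => hy.1) hEum hpos
    have h3 := h1.trans h2
    have hEpos : 0 < P.real E := lt_of_lt_of_le hpos (measureReal_mono (fun y hy => hy.1))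
    have hq : 0 < P.real Eu / P.real E := by positivity
    have h4 : (P.real Eu / P.real E) ^ c ≤ K * RR P φ E * ‖w‖ / u := by
      have e1 : (P.real E / P.real Eu) ^ c = ((P.real Eu / P.real E) ^ c)⁻¹ := by
        rw [← Real.inv_rpow hq.le, inv_div]
      rw [e1, ← div_eq_mul_inv, le_div_iff₀ (by positivity), div_mul_eq_mul_div,
        div_le_iff₀ hw0] at h3
      rw [le_div_iff₀ hu]
      linarith
    have h5 : P.real Eu / P.real E ≤ (K * RR P φ E * ‖w‖ / u) ^ (1 / c) := by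
      calc P.real Eu / P.real E = ((P.real Eu / P.real E) ^ c) ^ (1 / c) := by
            rw [← Real.rpow_mul hq.le, mul_one_div_cancel hc.ne', Real.rpow_one]
        _ ≤ _ := Real.rpow_le_rpow (by positivity) h4 (by positivity)
    rw [div_le_iff₀ hEpos] at h5
    linarith

end Crest.Agent.R100.Extr933
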