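import Crest.Agent.R100.Num_801
import Crest.Agent.R100.Core_905

/-!
# R100 / S0132, helper801: `num : Core905.NumStmt`
-/

set_option autoImplicit false

namespace Crest.Agent.R100.Num801

theorem num : Core905.NumStmt := by
  intro C2 CE CV K hC2
  obtain ⟨n₀, hn₀⟩ := params C2 hC2 (|CE| + |CV| + 1) (K + 1)
  refine ⟨6 * C2 + 1, 1 / 200, by linarith, by norm_num, n₀ + 1, fun n hn => ?_⟩
  obtain ⟨h, G⟩ := hn₀ n (by omega)
  have hn1 : 1 ≤ n := by omega
  have hh : 2 ≤ h := G.two_le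
  have hh0 : (0 : ℝ) < h := by
    have : (2 : ℝ) ≤ h := by exact_mod_cast hh
    linarith
  have hb := G.bmin_pos
  have hb1 := G.bmin_le
  have hinv : 1 ≤ 1 / (n : ℝ) ^ (-(1 / 10) : ℝ) := by rwa [one_le_div hb]
  have hloss := G.loss
  have hCE : |CE| * (1 / (n : ℝ) ^ (-(1 / 10) : ℝ)) ^ (K + 1) ≤ 2 ^ h := by
    refine le_trans ?_ hloss
    have : |CE| ≤ |CE| + |CV| + 1 := by
      have := abs_nonneg CV; linarith
    gcongr
  refine ⟨hn1, h, (n : ℝ) ^ (-(1 / 10) : ℝ), by omega, by have := G.κ_le; omega, hb, hb1, ?_, ?_,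
    ?_, ?_, ?_⟩
  · have h1 := G.hnum
    have h2 : C2 * (2 * (h : ℝ)) / (2 * h) = C2 := by field_simp
    rwa [h2] at h1
  · refine G.hnum'.trans (le_of_eq ?_)
    ring
  · calc CE * (1 / (n : ℝ) ^ (-(1 / 10) : ℝ)) ^ K
        ≤ |CE| * (1 / (n : ℝ) ^ (-(1 / 10) : ℝ)) ^ (K + 1) := by
          have h1 : (1 / (n : ℝ) ^ (-(1 / 10) : ℝ)) ^ K ≤
              (1 / (n : ℝ) ^ (-(1 / 10) : ℝ)) ^ (K + 1) := pow_le_pow_right₀ hinv (by omega)
          have h2 : 0 ≤ (1 / (n : ℝ) ^ (-(1 / 10) : ℝ)) ^ K := by positivity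
          exact mul_le_mul (le_abs_self CE) h1 h2 (abs_nonneg CE)
      _ ≤ 2 ^ h := hCE
      _ ≤ 4 ^ h := by gcongr; norm_num
      _ ≤ 4 ^ (2 * h) := pow_le_pow_right₀ (by norm_num) (by omega)
  · by_cases h0 : CE = 0
    · rw [h0, zero_div, Real.log_zero]; positivity
    · have h1 : 0 < |CE| := abs_pos.2 h0
      rw [← Real.log_abs, abs_div, abs_of_pos hb]
      have h2 : |CE| / (n : ℝ) ^ (-(1 / 10) : ℝ) ≤ 2 ^ h := by
        refine le_trans ?_ hCE
        rw [← mul_one_div]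
        have : 1 / (n : ℝ) ^ (-(1 / 10) : ℝ) ≤ (1 / (n : ℝ) ^ (-(1 / 10) : ℝ)) ^ (K + 1) :=
          le_self_pow₀ hinv (by omega)
        gcongr
      have h3 := Real.log_le_log (by positivity) h2
      rw [Real.log_pow] at h3
      have h4 : Real.log 2 ≤ 1 := by
        have := Real.log_two_lt_d9; linarith
      have h5 : (h : ℝ) * Real.log 2 ≤ h * 1 := by gcongr
      linarith
  · have h1 := G.gain'
    have h2 := le_abs_self CV
    have h3 := abs_nonneg CE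
    linarith

end Crest.Agent.R100.Num801
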