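import Crest.Agent.R100.Run1_288

/-!
# R100 / S0132, block B6 of doc 1968 (helper288): the run maximal function of one label, with exits

`Proc a b z` (Run1_288): `b` = value at a node BEFORE the exits at that node, `a` = value after,
`z` = mass that exits at the node.

* `Sg a b k1 k2 x` = signed sum of the differences of the levels `k1 ≤ l < k2`;
* `Zg z k1 k2 x` = mass that exits at the nodes of levels `k1 ≤ l < k2` of the path of `x`;
* `Run b al k1 k2 x` : all the values of `b` on the path between the levels `k1` and `k2`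
  (inclusive) have norm at most `3 al`;
* `runs_tail`, `runs_exp`, `runs_moment`: all the signed sums over runs below a node.
-/

set_option autoImplicit false

open MeasureTheory Set
open scoped ENNReal

noncomputable section

namespace Crest.Agent.R100.Run288

open Crest.Agent.R100.Mart933

/-- signed sum of the differences over the levels `k1 ≤ l < k2` -/
def Sg (a b : ℕ → ℤ → ℂ) (k1 k2 : ℕ) (x : ℝ) : ℂ :=
  ∑ l ∈ Finset.Ico k1 k2, (rad (l + 1) x : ℂ) * dx a b l x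

/-- exits at the levels `k1 ≤ l < k2` -/
def Zg (z : ℕ → ℤ → ℝ) (k1 k2 : ℕ) (x : ℝ) : ℝ :=
  ∑ l ∈ Finset.Ico k1 k2, z l (fl l x)

/-- a run: all the values between the two levels (inclusive) are at most `3 al` -/
def Run (b : ℕ → ℤ → ℂ) (al : ℝ) (k1 k2 : ℕ) (x : ℝ) : Prop :=
  ∀ k, k1 ≤ k → k ≤ k2 → ‖b k (fl k x)‖ ≤ 3 * al

theorem fl_div {i l : ℕ} (h : i ≤ l) (x : ℝ) : fl i x = fl l x / 2 ^ (l - i) := by
  induction l, h using Nat.le_induction with
  | base => simp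
  | succ l hl ih =>
    rw [ih, fl_half l x, Int.ediv_ediv_of_nonneg (by norm_num)]
    congr 1
    have : l + 1 - i = (l - i) + 1 := by omega
    rw [this, pow_succ]; ring

/-! ## the maximal inequality for the quadratic variation minus the exits -/

section chain

variable (b : ℕ → ℤ → ℂ) (z : ℕ → ℤ → ℝ) (liv gd : ℕ → ℤ → Prop)

open Classical in
/-- quadratic variation of the good steps on the chain of live nodes started at level `k` -/
def QC (k K : ℕ) (x : ℝ) : ℝ :=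
  ∑ l ∈ Finset.Ico k K, if (∀ i, k ≤ i → i ≤ l → liv i (fl i x)) ∧ gd l (fl l x) then
    ‖hx b l (fl l x)‖ ^ 2 else 0

open Classical in
/-- exits on the chain of live nodes started at level `k` -/
def ZC (k K : ℕ) (x : ℝ) : ℝ :=
  ∑ l ∈ Finset.Ico k K, if (∀ i, k ≤ i → i ≤ l → liv i (fl i x)) then z l (fl l x) else 0

open Classical in
/-- the potential -/
def VV (α : ℝ) (k : ℕ) (j : ℤ) : ℝ :=
  if liv k j then (450 * α ^ 2 - ‖b k j‖ ^ 2) / (225 * α ^ 2) else 1

end chain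

theorem VV_ge {b : ℕ → ℤ → ℂ} {liv : ℕ → ℤ → Prop} {α : ℝ} (hα : 0 < α)
    (h1 : ∀ k j, liv k j → ‖b k j‖ ≤ 6 * α) (k : ℕ) (j : ℤ) : 1 ≤ VV b liv α k j := by
  classical
  unfold VV
  split_ifs with h
  · rw [le_div_iff₀ (by positivity)]
    have := h1 k j h
    nlinarith [norm_nonneg (b k j)]
  · exact le_rfl

theorem VV_le {b : ℕ → ℤ → ℂ} {liv : ℕ → ℤ → Prop} {α : ℝ} (hα : 0 < α) (k : ℕ) (j : ℤ) :
    VV b liv α k j ≤ 2 := by
  classical
  unfold VV
  split_ifs with h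
  · rw [div_le_iff₀ (by positivity)]
    nlinarith [norm_nonneg (b k j)]
  · norm_num

/-- a norm inequality used for the exits -/
theorem sq_exit {u a : ℂ} {z : ℝ} (hz : ‖u - a‖ ≤ z) : ‖u‖ ^ 2 - 2 * ‖u‖ * z ≤ ‖a‖ ^ 2 := by
  have h1 : ‖u‖ ≤ ‖a‖ + z := by
    calc ‖u‖ = ‖a + (u - a)‖ := by ring_nf
      _ ≤ ‖a‖ + ‖u - a‖ := norm_add_le _ _
      _ ≤ _ := by linarith
  have hz0 : 0 ≤ z := (norm_nonneg _).trans hz
  rcases le_total ‖u‖ z with h | h
  · nlinarith [norm_nonneg a, norm_nonneg u]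
  · have : (‖u‖ - z) ^ 2 ≤ ‖a‖ ^ 2 := by
      apply pow_le_pow_left₀ (by linarith)
      linarith
    nlinarith [norm_nonneg u]

/-- one step of the potential -/
theorem VV_step {a b : ℕ → ℤ → ℂ} {z : ℕ → ℤ → ℝ} (h : Proc a b z) {liv gd : ℕ → ℤ → Prop}
    {α : ℝ} (hα : 0 < α) (h1 : ∀ k j, liv k j → ‖b k j‖ ≤ 6 * α)
    (h2 : ∀ k j, liv k j → (gd k j ∨ α < z k j))
    (h3 : ∀ k j, gd k j → z k j ≤ α ∧ ‖hx b k j‖ ≤ 8 * α) {k : ℕ} {j : ℤ} (hl : liv k j) (q : ℝ)
    (hq : gd k j → q = ‖hx b k j‖ ^ 2) (hq' : ¬ gd k j → q = 0) :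
    Real.exp (q / (450 * α ^ 2) - z k j / α) *
      ((VV b liv α (k + 1) (2 * j) + VV b liv α (k + 1) (2 * j + 1)) / 2) ≤ VV b liv α k j := by
  classical
  have hz0 := h.z_nonneg k j
  have hb := h1 k j hl
  have hV : VV b liv α k j = (450 * α ^ 2 - ‖b k j‖ ^ 2) / (225 * α ^ 2) := by
    unfold VV; rw [if_pos hl]
  by_cases hg : gd k j
  · obtain ⟨hz, hh⟩ := h3 k j hg
    have ha : ‖a k j‖ ≤ 7 * α := by
      calc ‖a k j‖ = ‖b k j - (b k j - a k j)‖ := by ring_nf
        _ ≤ ‖b k j‖ + ‖b k j - a k j‖ := norm_sub_le _ _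
        _ ≤ _ := by linarith [h.ex k j]
    have hbl : ‖b (k + 1) (2 * j)‖ ≤ 15 * α := by
      rw [h.left]; exact (norm_add_le _ _).trans (by linarith)
    have hbr : ‖b (k + 1) (2 * j + 1)‖ ≤ 15 * α := by
      rw [h.right]; exact (norm_sub_le _ _).trans (by linarith)
    have child : ∀ j', ‖b (k + 1) j'‖ ≤ 15 * α →
        VV b liv α (k + 1) j' ≤ (450 * α ^ 2 - ‖b (k + 1) j'‖ ^ 2) / (225 * α ^ 2) := by
      intro j' hj'
      unfold VV
      split_ifs with hc
      · exact le_rfl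
      · rw [le_div_iff₀ (by positivity)]
        nlinarith [norm_nonneg (b (k + 1) j')]
    rw [hq hg, hV]
    set Q : ℝ := ‖hx b k j‖ ^ 2 with hQ
    have hQ0 : 0 ≤ Q := by positivity
    have hpar := parallelogram_law_with_norm ℝ (a k j) (hx b k j)
    have e : ‖b (k + 1) (2 * j)‖ ^ 2 + ‖b (k + 1) (2 * j + 1)‖ ^ 2 = 2 * (‖a k j‖ ^ 2 + Q) := by
      rw [h.left, h.right, hQ]
      nlinarith [hpar]
    have hs := exp_step' (c := 450 * α ^ 2) (x := Q) (u := ‖a k j‖ ^ 2) (by positivity) hQ0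
      (by positivity)
    have hsum : (VV b liv α (k + 1) (2 * j) + VV b liv α (k + 1) (2 * j + 1)) / 2 ≤
        (450 * α ^ 2 - (‖a k j‖ ^ 2 + Q)) / (225 * α ^ 2) := by
      have := add_le_add (child _ hbl) (child _ hbr)
      have e2 : (450 * α ^ 2 - (‖a k j‖ ^ 2 + Q)) / (225 * α ^ 2) =
          ((450 * α ^ 2 - ‖b (k + 1) (2 * j)‖ ^ 2) / (225 * α ^ 2) +
          (450 * α ^ 2 - ‖b (k + 1) (2 * j + 1)‖ ^ 2) / (225 * α ^ 2)) / 2 := by
        have : ‖b (k + 1) (2 * j + 1)‖ ^ 2 = 2 * (‖a k j‖ ^ 2 + Q) - ‖b (k + 1) (2 * j)‖ ^ 2 := by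
          linarith
        rw [this]
        ring
      rw [e2]
      linarith
    have hexp : 450 * α ^ 2 - ‖a k j‖ ^ 2 ≤ Real.exp (z k j / α) * (450 * α ^ 2 - ‖b k j‖ ^ 2) := by
      have s1 := sq_exit (h.ex k j)
      have s2 : 1 + z k j / α ≤ Real.exp (z k j / α) := by
        have := Real.add_one_le_exp (z k j / α)
        linarith
      have s3 : ‖b k j‖ ^ 2 ≤ 36 * α ^ 2 := by nlinarith [norm_nonneg (b k j)]
      have s4 : (1 + z k j / α) * (450 * α ^ 2 - ‖b k j‖ ^ 2) ≤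
          Real.exp (z k j / α) * (450 * α ^ 2 - ‖b k j‖ ^ 2) := by
        apply mul_le_mul_of_nonneg_right s2
        nlinarith
      refine le_trans ?_ s4
      have s5 : z k j / α * (414 * α ^ 2) ≤ z k j / α * (450 * α ^ 2 - ‖b k j‖ ^ 2) := by
        apply mul_le_mul_of_nonneg_left _ (by positivity)
        linarith
      have s6 : z k j / α * (414 * α ^ 2) = 414 * α * z k j := by
        field_simp
      have s7 : 2 * ‖b k j‖ * z k j ≤ 12 * α * z k j := by
        apply mul_le_mul_of_nonneg_right _ hz0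
        linarith
      nlinarith [mul_nonneg hα.le hz0]
    calc Real.exp (Q / (450 * α ^ 2) - z k j / α) *
          ((VV b liv α (k + 1) (2 * j) + VV b liv α (k + 1) (2 * j + 1)) / 2)
        ≤ Real.exp (Q / (450 * α ^ 2) - z k j / α) *
          ((450 * α ^ 2 - (‖a k j‖ ^ 2 + Q)) / (225 * α ^ 2)) :=
          mul_le_mul_of_nonneg_left hsum (Real.exp_pos _).le
      _ = Real.exp (-(z k j / α)) * ((Real.exp (Q / (450 * α ^ 2)) *
          (450 * α ^ 2 - (‖a k j‖ ^ 2 + Q))) / (225 * α ^ 2)) := by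
          rw [sub_eq_add_neg, Real.exp_add]; ring
      _ ≤ Real.exp (-(z k j / α)) * ((Real.exp (z k j / α) *
          (450 * α ^ 2 - ‖b k j‖ ^ 2)) / (225 * α ^ 2)) := by
          apply mul_le_mul_of_nonneg_left _ (Real.exp_pos _).le
          exact div_le_div_of_nonneg_right (hs.trans hexp) (by positivity)
      _ = (Real.exp (-(z k j / α)) * Real.exp (z k j / α)) *
          ((450 * α ^ 2 - ‖b k j‖ ^ 2) / (225 * α ^ 2)) := by ring
      _ = _ := by rw [← Real.exp_add]; simp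
  · have hz : α < z k j := (h2 k j hl).resolve_left hg
    rw [hq' hg]
    have e1 : Real.exp (0 / (450 * α ^ 2) - z k j / α) ≤ 1 / 2 := by
      have : 1 ≤ z k j / α := by rw [le_div_iff₀ hα]; linarith
      have h5 : Real.exp (0 / (450 * α ^ 2) - z k j / α) ≤ Real.exp (-1) := by
        apply Real.exp_le_exp.2
        rw [zero_div]; linarith
      refine h5.trans ?_
      rw [Real.exp_neg, one_div]
      have : (2 : ℝ) ≤ Real.exp 1 := by
        have := Real.add_one_le_exp (1 : ℝ)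
        linarith
      exact inv_anti₀ (by norm_num) this
    have e2 : (VV b liv α (k + 1) (2 * j) + VV b liv α (k + 1) (2 * j + 1)) / 2 ≤ 2 := by
      have g1 := VV_le (b := b) (liv := liv) hα (k + 1) (2 * j)
      have g2 := VV_le (b := b) (liv := liv) hα (k + 1) (2 * j + 1)
      linarith
    have e3 : 0 ≤ (VV b liv α (k + 1) (2 * j) + VV b liv α (k + 1) (2 * j + 1)) / 2 := by
      have g1 := VV_ge hα h1 (k + 1) (2 * j)
      have g2 := VV_ge hα h1 (k + 1) (2 * j + 1)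
      linarith
    calc _ ≤ 1 / 2 * 2 := mul_le_mul e1 e2 e3 (by norm_num)
      _ = 1 := by norm_num
      _ ≤ _ := VV_ge hα h1 k j

section chain2

variable {b : ℕ → ℤ → ℂ} {z : ℕ → ℤ → ℝ} {liv gd : ℕ → ℤ → Prop}

theorem QC_dead {k K : ℕ} {x : ℝ} (h : ¬ liv k (fl k x)) : QC b liv gd k K x = 0 := by
  classical
  unfold QC
  refine Finset.sum_eq_zero fun l hl => ?_
  rw [Finset.mem_Ico] at hl
  rw [if_neg]
  rintro ⟨h', _⟩
  exact h (h' k le_rfl hl.1)

theorem ZC_dead {k K : ℕ} {x : ℝ} (h : ¬ liv k (fl k x)) : ZC z liv k K x = 0 := by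
  classical
  unfold ZC
  refine Finset.sum_eq_zero fun l hl => ?_
  rw [Finset.mem_Ico] at hl
  rw [if_neg]
  intro h'
  exact h (h' k le_rfl hl.1)

theorem chain_succ {k l : ℕ} {x : ℝ} (h : liv k (fl k x)) :
    (∀ i, k ≤ i → i ≤ l → liv i (fl i x)) ↔ (∀ i, k + 1 ≤ i → i ≤ l → liv i (fl i x)) := by
  constructor
  · intro h' i h1 h2
    exact h' i (by omega) h2
  · intro h' i h1 h2
    rcases h1.eq_or_lt with h3 | h3
    · rw [← h3]; exact h
    · exact h' i h3 h2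

open Classical in
theorem QC_succ {k K : ℕ} (hK : k < K) {x : ℝ} (h : liv k (fl k x)) :
    QC b liv gd k K x = (if gd k (fl k x) then ‖hx b k (fl k x)‖ ^ 2 else 0) +
      QC b liv gd (k + 1) K x := by
  unfold QC
  rw [Finset.sum_eq_sum_Ico_succ_bot hK]
  congr 1
  · by_cases hg : gd k (fl k x)
    · rw [if_pos hg, if_pos]
      refine ⟨fun i h1 h2 => ?_, hg⟩
      have : i = k := by omega
      rw [this]; exact h
    · rw [if_neg hg, if_neg]
      rintro ⟨_, h'⟩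
      exact hg h'
  · refine Finset.sum_congr rfl fun l hl => ?_
    have e := chain_succ (l := l) h
    simp only [e]

theorem ZC_succ {k K : ℕ} (hK : k < K) {x : ℝ} (h : liv k (fl k x)) :
    ZC z liv k K x = z k (fl k x) + ZC z liv (k + 1) K x := by
  classical
  unfold ZC
  rw [Finset.sum_eq_sum_Ico_succ_bot hK]
  congr 1
  · rw [if_pos]
    intro i h1 h2
    have : i = k := by omega
    rw [this]; exact h
  · refine Finset.sum_congr rfl fun l hl => ?_
    have e := chain_succ (l := l) h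
    simp only [e]

end chain2

/-- **maximal inequality** for the quadratic variation minus the exits -/
theorem maxQ {a b : ℕ → ℤ → ℂ} {z : ℕ → ℤ → ℝ} (h : Proc a b z) {liv gd : ℕ → ℤ → Prop}
    {α : ℝ} (hα : 0 < α) (h1 : ∀ k j, liv k j → ‖b k j‖ ≤ 6 * α)
    (h2 : ∀ k j, liv k j → (gd k j ∨ α < z k j))
    (h3 : ∀ k j, gd k j → z k j ≤ α ∧ ‖hx b k j‖ ≤ 8 * α) (d : ℕ) :
    ∀ (k : ℕ) (j : ℤ) (s : ℝ),
      volume {x ∈ Ivl k j | ∃ K, k ≤ K ∧ K ≤ k + d ∧
        s < QC b liv gd k K x / (450 * α ^ 2) - ZC z liv k K x / α} ≤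
      ENNReal.ofReal (Real.exp (-s) * VV b liv α k j) * volume (Ivl k j) := by
  classical
  have hneg : ∀ (d k : ℕ) (j : ℤ) (s : ℝ), s < 0 →
      volume {x ∈ Ivl k j | ∃ K, k ≤ K ∧ K ≤ k + d ∧
        s < QC b liv gd k K x / (450 * α ^ 2) - ZC z liv k K x / α} ≤
      ENNReal.ofReal (Real.exp (-s) * VV b liv α k j) * volume (Ivl k j) := by
    intro d k j s hs
    calc _ ≤ 1 * volume (Ivl k j) := by
            rw [one_mul]; exact measure_mono (sep_subset _ _)
      _ ≤ _ := by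
            gcongr
            rw [← ENNReal.ofReal_one]
            apply ENNReal.ofReal_le_ofReal
            have e1 : 1 ≤ Real.exp (-s) := Real.one_le_exp (by linarith)
            have e2 := VV_ge hα h1 k j
            nlinarith
  induction d with
  | zero =>
    intro k j s
    rcases lt_or_ge s 0 with hs | hs
    · exact hneg 0 k j s hs
    · have : {x ∈ Ivl k j | ∃ K, k ≤ K ∧ K ≤ k + 0 ∧
          s < QC b liv gd k K x / (450 * α ^ 2) - ZC z liv k K x / α} = ∅ := by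
        ext x
        simp only [mem_ofPred_eq, mem_empty_iff_false, iff_false, not_and, not_exists]
        rintro _ K h1 h2 h3
        have : K = k := by omega
        subst this
        simp [QC, ZC] at h3
        linarith
      rw [this]; simp
  | succ d ih =>
    intro k j s
    rcases lt_or_ge s 0 with hs | hs
    · exact hneg (d + 1) k j s hs
    by_cases hl : liv k j
    swap
    · have : {x ∈ Ivl k j | ∃ K, k ≤ K ∧ K ≤ k + (d + 1) ∧
          s < QC b liv gd k K x / (450 * α ^ 2) - ZC z liv k K x / α} = ∅ := by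
        ext x
        simp only [mem_ofPred_eq, mem_empty_iff_false, iff_false, not_and, not_exists]
        rintro hx K h1 h2 h3
        rw [mem_Ivl] at hx
        have hd : ¬ liv k (fl k x) := by rwa [hx]
        rw [QC_dead hd, ZC_dead hd] at h3
        simp at h3
        linarith
      rw [this]; simp
    set q : ℝ := if gd k j then ‖hx b k j‖ ^ 2 else 0 with hq
    set s' : ℝ := s - (q / (450 * α ^ 2) - z k j / α) with hs'
    have hstep := VV_step h hα h1 h2 h3 hl q (fun hg => by rw [hq, if_pos hg])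
      (fun hg => by rw [hq, if_neg hg])
    have hsub : {x ∈ Ivl k j | ∃ K, k ≤ K ∧ K ≤ k + (d + 1) ∧
          s < QC b liv gd k K x / (450 * α ^ 2) - ZC z liv k K x / α} ⊆
        {x ∈ Ivl (k + 1) (2 * j) | ∃ K, k + 1 ≤ K ∧ K ≤ k + 1 + d ∧
          s' < QC b liv gd (k + 1) K x / (450 * α ^ 2) - ZC z liv (k + 1) K x / α} ∪
        {x ∈ Ivl (k + 1) (2 * j + 1) | ∃ K, k + 1 ≤ K ∧ K ≤ k + 1 + d ∧
          s' < QC b liv gd (k + 1) K x / (450 * α ^ 2) - ZC z liv (k + 1) K x / α} := by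
      rintro x ⟨hx, K, k1, k2, k3⟩
      have hx' := hx
      rw [mem_Ivl] at hx'
      have hK : k < K := by
        rcases k1.eq_or_lt with h' | h'
        · exfalso
          subst h'
          simp [QC, ZC] at k3
          linarith
        · exact h'
      have hl' : liv k (fl k x) := by rwa [hx']
      rw [QC_succ hK hl', ZC_succ hK hl', hx'] at k3
      have k4 : s' < QC b liv gd (k + 1) K x / (450 * α ^ 2) - ZC z liv (k + 1) K x / α := by
        rw [hs', hq]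
        rw [add_div, add_div] at k3
        linarith
      rw [Ivl_split] at hx
      rcases hx with hx | hx
      · left; exact ⟨hx, K, hK, by omega, k4⟩
      · right; exact ⟨hx, K, hK, by omega, k4⟩
    refine (measure_mono hsub).trans ((measure_union_le _ _).trans
      ((add_le_add (ih (k + 1) (2 * j) s') (ih (k + 1) (2 * j + 1) s')).trans ?_))
    rw [volume_Ivl_succ k j (2 * j), volume_Ivl_succ k j (2 * j + 1), ← add_mul]
    have p1 : 0 ≤ Real.exp (-s') * VV b liv α (k + 1) (2 * j) := by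
      have := VV_ge hα h1 (k + 1) (2 * j)
      have := Real.exp_pos (-s')
      positivity
    have p2 : 0 ≤ Real.exp (-s') * VV b liv α (k + 1) (2 * j + 1) := by
      have := VV_ge hα h1 (k + 1) (2 * j + 1)
      have := Real.exp_pos (-s')
      positivity
    rw [← ENNReal.ofReal_add p1 p2, ENNReal.div_eq_inv_mul, ← mul_assoc]
    gcongr
    rw [← ENNReal.ofReal_ofNat 2, ← ENNReal.ofReal_inv_of_pos (by norm_num),
      ← ENNReal.ofReal_mul (add_nonneg p1 p2)]
    apply ENNReal.ofReal_le_ofReal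
    have e5 : Real.exp (-s') = Real.exp (-s) * Real.exp (q / (450 * α ^ 2) - z k j / α) := by
      rw [← Real.exp_add, hs']; congr 1; ring
    rw [e5]
    calc _ = Real.exp (-s) * (Real.exp (q / (450 * α ^ 2) - z k j / α) *
        ((VV b liv α (k + 1) (2 * j) + VV b liv α (k + 1) (2 * j + 1)) / 2)) := by ring
      _ ≤ _ := mul_le_mul_of_nonneg_left hstep (Real.exp_pos _).le

/-! ## one start node: the signed sum of the good steps on the chain -/

section start

variable (liv gd : ℕ → ℤ → Prop)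

/-- the switch: good steps on the chain of live nodes started at level `k` -/
def sw (k : ℕ) (l : ℕ) (j : ℤ) : Prop :=
  (∀ i, k ≤ i → i ≤ l → liv i (j / 2 ^ (l - i))) ∧ gd l j

theorem sw_iff (k l : ℕ) (x : ℝ) :
    sw liv gd k l (fl l x) ↔ (∀ i, k ≤ i → i ≤ l → liv i (fl i x)) ∧ gd l (fl l x) := by
  unfold sw
  refine and_congr_left fun _ => ?_
  constructor
  · intro h i h1 h2
    rw [fl_div h2]; exact h i h1 h2
  · intro h i h1 h2
    rw [← fl_div h2]; exact h i h1 h2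

theorem QX_sw (b : ℕ → ℤ → ℂ) (k K : ℕ) (x : ℝ) :
    QX b (sw liv gd k) k K x = QC b liv gd k K x := by
  classical
  unfold QX QC
  refine Finset.sum_congr rfl fun l _ => ?_
  simp only [sw_iff]

end start

/-- self-normalised maximal inequality in one direction, quadratic variation up to the same time -/
theorem dir_SX' {a b : ℕ → ℤ → ℂ} {z : ℕ → ℤ → ℝ} (h : Proc a b z) (al : ℕ → ℤ → Prop) {w : ℂ}
    (hw : ‖w‖ ≤ 1) {s : ℝ} (lam : ℝ) (k m : ℕ) (j : ℤ) :
    volume {x ∈ Ivl k j | ∃ K, k ≤ K ∧ K ≤ m ∧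
        lam + s ^ 2 / 2 * QX b al k K x < s * (w * SX a b al k K x).re} ≤
      ENNReal.ofReal (Real.exp (-lam)) * volume (Ivl k j) := by
  classical
  rcases lt_or_ge m k with hmk | hkm
  · have : {x ∈ Ivl k j | ∃ K, k ≤ K ∧ K ≤ m ∧
        lam + s ^ 2 / 2 * QX b al k K x < s * (w * SX a b al k K x).re} = ∅ := by
      ext x
      simp only [mem_ofPred_eq, mem_empty_iff_false, iff_false, not_and, not_exists]
      intro _ K h1 h2
      omega
    rw [this]; simp
  obtain ⟨d, rfl⟩ := Nat.exists_eq_add_of_le hkm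
  have key : ∀ j' : ℤ, volume {x ∈ Ivl (k + 1) j' | ∃ K, k ≤ K ∧ K ≤ k + d ∧
        lam + s ^ 2 / 2 * QX b al k K x < s * (w * SX a b al k K x).re} ≤
      ENNReal.ofReal (Real.exp (-lam)) * volume (Ivl (k + 1) j') := by
    intro j'
    have h0 := max_exp (fun l i => s * vx a b al w l i) d k j' lam
    refine (measure_mono ?_).trans h0
    rintro x ⟨hx, K, h1, h2, h3⟩
    refine ⟨hx, K, h1, h2, ?_⟩
    have e : Ex (fun l i => s * vx a b al w l i) k K x =
        s * (w * SX a b al k K x).re - s ^ 2 / 2 *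
          ∑ l ∈ Finset.Ico k K, vx a b al w l (fl (l + 1) x) ^ 2 := by
      rw [re_SX]
      unfold Ex
      rw [Finset.sum_sub_distrib, Finset.mul_sum, Finset.mul_sum]
      congr 1
      · refine Finset.sum_congr rfl fun l _ => ?_
        ring
      · refine Finset.sum_congr rfl fun l _ => ?_
        ring
    rw [e]
    have hv := vx_sq_le h al hw k K x
    have : s ^ 2 / 2 * ∑ l ∈ Finset.Ico k K, vx a b al w l (fl (l + 1) x) ^ 2 ≤
        s ^ 2 / 2 * QX b al k K x := by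
      apply mul_le_mul_of_nonneg_left hv (by positivity)
    linarith
  have hun : {x ∈ Ivl k j | ∃ K, k ≤ K ∧ K ≤ k + d ∧
        lam + s ^ 2 / 2 * QX b al k K x < s * (w * SX a b al k K x).re} ⊆
      {x ∈ Ivl (k + 1) (2 * j) | ∃ K, k ≤ K ∧ K ≤ k + d ∧
        lam + s ^ 2 / 2 * QX b al k K x < s * (w * SX a b al k K x).re} ∪
      {x ∈ Ivl (k + 1) (2 * j + 1) | ∃ K, k ≤ K ∧ K ≤ k + d ∧
        lam + s ^ 2 / 2 * QX b al k K x < s * (w * SX a b al k K x).re} := by
    rintro x ⟨hx, h'⟩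
    rw [Ivl_split] at hx
    rcases hx with hx | hx
    · left; exact ⟨hx, h'⟩
    · right; exact ⟨hx, h'⟩
  refine (measure_mono hun).trans ((measure_union_le _ _).trans
    ((add_le_add (key _) (key _)).trans ?_))
  rw [← mul_add]
  gcongr
  rw [volume_Ivl_succ k j (2 * j), volume_Ivl_succ k j (2 * j + 1), ENNReal.add_halves]

/-- **one start node**: the signed sums of the good steps on the chain of live nodes -/
theorem start_tail {a b : ℕ → ℤ → ℂ} {z : ℕ → ℤ → ℝ} (h : Proc a b z) {liv gd : ℕ → ℤ → Prop}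
    {α : ℝ} (hα : 0 < α) (h1 : ∀ k j, liv k j → ‖b k j‖ ≤ 6 * α)
    (h2 : ∀ k j, liv k j → (gd k j ∨ α < z k j))
    (h3 : ∀ k j, gd k j → z k j ≤ α ∧ ‖hx b k j‖ ≤ 8 * α) (k m : ℕ) (j : ℤ) (lam : ℝ) :
    volume (Ivl k j ∩ {x | ∃ K, k ≤ K ∧ K ≤ m ∧
        60 * α * lam + 30 * Zg z k K x < ‖SX a b (sw liv gd k) k K x‖}) ≤
      ENNReal.ofReal (6 * Real.exp (-lam)) * volume (Ivl k j) := by
  classical
  rcases lt_or_ge m k with hmk | hkm
  · have : Ivl k j ∩ {x | ∃ K, k ≤ K ∧ K ≤ m ∧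
        60 * α * lam + 30 * Zg z k K x < ‖SX a b (sw liv gd k) k K x‖} = ∅ := by
      ext x
      simp only [mem_inter_iff, mem_ofPred_eq, mem_empty_iff_false, iff_false, not_and, not_exists]
      intro _ K h1 h2
      omega
    rw [this]; simp
  obtain ⟨d, rfl⟩ := Nat.exists_eq_add_of_le hkm
  set sg := sw liv gd k with hsg
  set s : ℝ := 1 / (15 * α) with hs
  have hs0 : 0 < s := by positivity
  set E : ℂ → Set ℝ := fun w => {x ∈ Ivl k j | ∃ K, k ≤ K ∧ K ≤ k + d ∧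
        lam + s ^ 2 / 2 * QX b sg k K x < s * (w * SX a b sg k K x).re} with hE
  set Q : Set ℝ := {x ∈ Ivl k j | ∃ K, k ≤ K ∧ K ≤ k + d ∧
        lam < QC b liv gd k K x / (450 * α ^ 2) - ZC z liv k K x / α} with hQ
  have hEw : ∀ w : ℂ, ‖w‖ ≤ 1 → volume (E w) ≤ ENNReal.ofReal (Real.exp (-lam)) * volume (Ivl k j) :=
    fun w hw => dir_SX' h sg hw lam k (k + d) j
  have hQv : volume Q ≤ ENNReal.ofReal (2 * Real.exp (-lam)) * volume (Ivl k j) := by
    refine (maxQ h hα h1 h2 h3 d k j lam).trans ?_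
    apply mul_le_mul' _ le_rfl
    apply ENNReal.ofReal_le_ofReal
    have := VV_le (b := b) (liv := liv) hα k j
    nlinarith [Real.exp_pos (-lam)]
  have hsub : Ivl k j ∩ {x | ∃ K, k ≤ K ∧ K ≤ k + d ∧
        60 * α * lam + 30 * Zg z k K x < ‖SX a b sg k K x‖} ⊆
      Q ∪ (E 1 ∪ E (-1)) ∪ (E Complex.I ∪ E (-Complex.I)) := by
    rintro x ⟨hx, K, h1, h2, h3⟩
    by_contra hcon
    simp only [mem_union, not_or] at hcon
    obtain ⟨⟨hq, hp1, hm1⟩, hpi, hmi⟩ := hcon
    have hZ : ZC z liv k K x ≤ Zg z k K x := by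
      unfold ZC Zg
      refine Finset.sum_le_sum fun l _ => ?_
      split_ifs
      · exact le_rfl
      · exact h.z_nonneg _ _
    have hq' : QC b liv gd k K x ≤ 450 * α ^ 2 * lam + 450 * α * Zg z k K x := by
      have : QC b liv gd k K x / (450 * α ^ 2) - ZC z liv k K x / α ≤ lam := by
        by_contra hc
        exact hq ⟨hx, K, h1, h2, not_le.1 hc⟩
      have h5 : QC b liv gd k K x / (450 * α ^ 2) ≤ lam + Zg z k K x / α := by
        have : ZC z liv k K x / α ≤ Zg z k K x / α := by gcongr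
        linarith
      rw [div_le_iff₀ (by positivity)] at h5
      refine h5.trans (le_of_eq ?_)
      field_simp
    have hdir : ∀ w : ℂ, x ∉ E w → (w * SX a b sg k K x).re ≤ 30 * α * lam + 15 * Zg z k K x := by
      intro w hw
      have h4 : s * (w * SX a b sg k K x).re ≤
          lam + s ^ 2 / 2 * QX b sg k K x := by
        by_contra hc
        exact hw ⟨hx, K, h1, h2, not_le.1 hc⟩
      rw [hsg, QX_sw, ← hsg] at h4
      have h5 : lam + s ^ 2 / 2 * QC b liv gd k K x ≤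
          lam + s ^ 2 / 2 * (450 * α ^ 2 * lam + 450 * α * Zg z k K x) := by gcongr
      have h6 := mul_le_mul_of_nonneg_left (h4.trans h5) (show 0 ≤ 15 * α by positivity)
      have e1 : 15 * α * (s * (w * SX a b sg k K x).re) = (w * SX a b sg k K x).re := by
        rw [hs]; field_simp
      have e2 : 15 * α * (lam + s ^ 2 / 2 * (450 * α ^ 2 * lam + 450 * α * Zg z k K x)) =
          30 * α * lam + 15 * Zg z k K x := by
        rw [hs]; field_simp; ring
      rw [e1, e2] at h6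
      exact h6
    have r1 := hdir 1 hp1
    have r2 := hdir (-1) hm1
    have r3 := hdir Complex.I hpi
    have r4 := hdir (-Complex.I) hmi
    rw [one_mul] at r1
    rw [neg_one_mul, Complex.neg_re] at r2
    rw [neg_mul, Complex.neg_re] at r4
    rw [Complex.I_mul_re] at r3 r4
    have hn := Complex.norm_le_abs_re_add_abs_im (SX a b sg k K x)
    have hre : |(SX a b sg k K x).re| ≤ 30 * α * lam + 15 * Zg z k K x :=
      abs_le.2 ⟨by linarith, r1⟩
    have him : |(SX a b sg k K x).im| ≤ 30 * α * lam + 15 * Zg z k K x :=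
      abs_le.2 ⟨by linarith, by linarith⟩
    linarith
  have n1 : ‖(1 : ℂ)‖ ≤ 1 := by simp
  have n2 : ‖(-1 : ℂ)‖ ≤ 1 := by simp
  have n3 : ‖Complex.I‖ ≤ 1 := by simp
  have n4 : ‖-Complex.I‖ ≤ 1 := by simp
  refine (measure_mono hsub).trans ((measure_union_le _ _).trans ?_)
  refine (add_le_add (measure_union_le _ _) (measure_union_le _ _)).trans ?_
  refine (add_le_add (add_le_add hQv (measure_union_le _ _)) le_rfl).trans ?_
  refine (add_le_add (add_le_add le_rfl (add_le_add (hEw 1 n1) (hEw (-1) n2)))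
    (add_le_add (hEw _ n3) (hEw _ n4))).trans ?_
  rw [← add_mul, ← add_mul, ← add_mul]
  gcongr
  have e0 := (Real.exp_pos (-lam)).le
  rw [← ENNReal.ofReal_add e0 e0, ← ENNReal.ofReal_add (by positivity) (by positivity),
    ← ENNReal.ofReal_add (by positivity) (by positivity)]
  apply ENNReal.ofReal_le_ofReal
  linarith

/-! ## nodes where a new start is needed -/

/-- big difference without big exit -/
def brk (b : ℕ → ℤ → ℂ) (z : ℕ → ℤ → ℝ) (α : ℝ) (k : ℕ) (j : ℤ) : Prop :=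
  z k j ≤ α ∧ 8 * α < ‖hx b k j‖

/-- good step -/
def good (b : ℕ → ℤ → ℂ) (z : ℕ → ℤ → ℝ) (α : ℝ) (k : ℕ) (j : ℤ) : Prop :=
  z k j ≤ α ∧ ‖hx b k j‖ ≤ 8 * α

/-- hysteresis: inside from `≤ 3α` until `> 6α` -/
def inn (b : ℕ → ℤ → ℂ) (α : ℝ) : ℕ → ℤ → Prop
  | 0, j => ‖b 0 j‖ ≤ 3 * α
  | k + 1, j => ‖b (k + 1) j‖ ≤ 3 * α ∨ (‖b (k + 1) j‖ ≤ 6 * α ∧ inn b α k (j / 2))

/-- a node (of level `k+1`) that needs a new start -/
def e1 (b : ℕ → ℤ → ℂ) (z : ℕ → ℤ → ℝ) (α : ℝ) (k : ℕ) (j : ℤ) : Prop :=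
  inn b α (k + 1) j ∧ (¬ inn b α k (j / 2) ∨ brk b z α k (j / 2))

theorem inn_of_le {b : ℕ → ℤ → ℂ} {α : ℝ} {k : ℕ} {j : ℤ} (h : ‖b k j‖ ≤ 3 * α) : inn b α k j := by
  cases k with
  | zero => exact h
  | succ k => exact Or.inl h

theorem inn_le {b : ℕ → ℤ → ℂ} {α : ℝ} (hα : 0 < α) {k : ℕ} {j : ℤ} (h : inn b α k j) :
    ‖b k j‖ ≤ 6 * α := by
  cases k with
  | zero =>
    have : ‖b 0 j‖ ≤ 3 * α := h
    linarith
  | succ k =>
    rcases h with h | h
    · linarith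
    · exact h.1

/-- live: inside and not breaking -/
def lv (b : ℕ → ℤ → ℂ) (z : ℕ → ℤ → ℝ) (α : ℝ) (k : ℕ) (j : ℤ) : Prop :=
  inn b α k j ∧ ¬ brk b z α k j

/-- `(6α - |u|)_+²` -/
def DD (α : ℝ) (u : ℂ) : ℝ := max (6 * α - ‖u‖) 0 ^ 2

theorem DD_nonneg (α : ℝ) (u : ℂ) : 0 ≤ DD α u := by unfold DD; positivity

theorem DD_le_sq {α : ℝ} (u : ℂ) : DD α u ≤ (6 * α - ‖u‖) ^ 2 := by
  unfold DD
  rcases le_total (6 * α - ‖u‖) 0 with h | h
  · rw [max_eq_right h, zero_pow two_ne_zero]; positivity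
  · rw [max_eq_left h]

theorem DD_zero {α : ℝ} {u : ℂ} (h : 6 * α ≤ ‖u‖) : DD α u = 0 := by
  unfold DD
  rw [max_eq_right (by linarith)]; simp

theorem DD_ge {α : ℝ} (hα : 0 < α) {u : ℂ} (h : ‖u‖ ≤ 3 * α) : α ^ 2 ≤ DD α u := by
  unfold DD
  have : 3 * α ≤ max (6 * α - ‖u‖) 0 := le_max_of_le_left (by linarith)
  nlinarith

theorem DD_exit {α : ℝ} (hα : 0 < α) {u a : ℂ} {z : ℝ} (hz : ‖u - a‖ ≤ z) :
    DD α a ≤ DD α u + 12 * α * z := by
  have hz0 : 0 ≤ z := (norm_nonneg _).trans hz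
  have h1 : ‖u‖ ≤ ‖a‖ + z := by
    calc ‖u‖ = ‖a + (u - a)‖ := by ring_nf
      _ ≤ ‖a‖ + ‖u - a‖ := norm_add_le _ _
      _ ≤ _ := by linarith
  unfold DD
  set p := max (6 * α - ‖a‖) 0 with hp
  set r := max (6 * α - ‖u‖) 0 with hr
  have hp0 : 0 ≤ p := le_max_right _ _
  have hr0 : 0 ≤ r := le_max_right _ _
  have hp6 : p ≤ 6 * α := max_le (by linarith [norm_nonneg a]) (by linarith)
  have hr6 : r ≤ 6 * α := max_le (by linarith [norm_nonneg u]) (by linarith)
  have hpr : p ≤ r + z := by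
    apply max_le
    · have : 6 * α - ‖u‖ ≤ r := le_max_left _ _
      linarith
    · linarith
  rcases le_total p r with h | h
  · have : 0 ≤ 12 * α * z := by positivity
    nlinarith
  · have h2 : (p - r) * (p + r) ≤ z * (12 * α) := by
      apply mul_le_mul (by linarith) (by linarith) (by linarith) hz0
    nlinarith

theorem DD_mid {α : ℝ} (a v : ℂ) :
    (DD α (a + v) + DD α (a - v)) / 2 ≤ DD α a + ‖v‖ ^ 2 := by
  have e4 : 2 * ‖a‖ ≤ ‖a + v‖ + ‖a - v‖ := by
    have : (2 : ℂ) * a = (a + v) + (a - v) := by ring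
    calc 2 * ‖a‖ = ‖(2 : ℂ) * a‖ := by simp
      _ = ‖(a + v) + (a - v)‖ := by rw [this]
      _ ≤ _ := norm_add_le _ _
  have hpar := parallelogram_law_with_norm ℝ a v
  rcases le_total ‖a‖ (6 * α) with h | h
  · have h1 := DD_le_sq (α := α) (a + v)
    have h2 := DD_le_sq (α := α) (a - v)
    have h3 : DD α a = (6 * α - ‖a‖) ^ 2 := by
      unfold DD; rw [max_eq_left (by linarith)]
    have h0 : 0 ≤ α := by
      have := norm_nonneg a
      linarith
    rw [h3]
    nlinarith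
  · have key : ∀ u : ℂ, ‖a‖ ≤ ‖u‖ + ‖v‖ → DD α u ≤ ‖v‖ ^ 2 := by
      intro u hu
      unfold DD
      apply pow_le_pow_left₀ (le_max_right _ _)
      apply max_le
      · linarith
      · exact norm_nonneg _
    have k1 := key (a + v) (by
      calc ‖a‖ = ‖(a + v) - v‖ := by ring_nf
        _ ≤ _ := norm_sub_le _ _)
    have k2 := key (a - v) (by
      calc ‖a‖ = ‖(a - v) + v‖ := by ring_nf
        _ ≤ _ := norm_add_le _ _)
    have := DD_nonneg α a
    linarith

open Classical in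
/-- potential for the number of new starts -/
def PP (b : ℕ → ℤ → ℂ) (α Q : ℝ) (k : ℕ) (j : ℤ) : ℝ :=
  (Q ^ 2 - ‖b k j‖ ^ 2 + (if inn b α k j then 0 else DD α (b k j))) / α ^ 2

open Classical in
/-- number of new starts at the levels `k < l ≤ K` -/
def NE (b : ℕ → ℤ → ℂ) (z : ℕ → ℤ → ℝ) (α : ℝ) (k K : ℕ) (x : ℝ) : ℝ :=
  ∑ l ∈ Finset.Ico k K, if e1 b z α l (fl (l + 1) x) then 1 else 0

open Classical in
theorem PP_step {a b : ℕ → ℤ → ℂ} {z : ℕ → ℤ → ℝ} (h : Proc a b z) {α Q : ℝ} (hα : 0 < α)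
    (hbQ : ∀ k j, ‖b k j‖ ≤ Q) (k : ℕ) (j : ℤ) :
    (((if e1 b z α k (2 * j) then (1 : ℝ) else 0) + PP b α Q (k + 1) (2 * j)) +
      ((if e1 b z α k (2 * j + 1) then (1 : ℝ) else 0) + PP b α Q (k + 1) (2 * j + 1))) / 2 ≤
    PP b α Q k j + (2 * Q + 12 * α) / α ^ 2 * z k j := by
  have hα2 : 0 < α ^ 2 := by positivity
  have hz0 := h.z_nonneg k j
  have hQ := hbQ k j
  have s1 := sq_exit (h.ex k j)
  have s7 : 2 * ‖b k j‖ * z k j ≤ 2 * Q * z k j := by
    apply mul_le_mul_of_nonneg_right _ hz0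
    linarith
  set q : ℝ := ‖hx b k j‖ ^ 2 with hq
  have hq0 : 0 ≤ q := by positivity
  have hpar := parallelogram_law_with_norm ℝ (a k j) (hx b k j)
  have e : ‖b (k + 1) (2 * j)‖ ^ 2 + ‖b (k + 1) (2 * j + 1)‖ ^ 2 = 2 * (‖a k j‖ ^ 2 + q) := by
    rw [h.left, h.right, hq]
    nlinarith [hpar]
  have d1 : (2 * j) / 2 = j := by omega
  have d2 : (2 * j + 1) / 2 = j := by omega
  by_cases hin : inn b α k j
  · -- inside
    have hP : PP b α Q k j = (Q ^ 2 - ‖b k j‖ ^ 2) / α ^ 2 := by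
      unfold PP; rw [if_pos hin, add_zero]
    have hc : ∀ j', j' / 2 = j → PP b α Q (k + 1) j' = (Q ^ 2 - ‖b (k + 1) j'‖ ^ 2) / α ^ 2 := by
      intro j' hj'
      unfold PP
      split_ifs with h'
      · rw [add_zero]
      · rw [DD_zero, add_zero]
        by_contra hcon
        exact h' (Or.inr ⟨(not_le.1 hcon).le, by rw [hj']; exact hin⟩)
    rw [hP, hc _ d1, hc _ d2]
    by_cases hbr : brk b z α k j
    · have i1 : (if e1 b z α k (2 * j) then (1 : ℝ) else 0) ≤ 1 := by split_ifs <;> norm_num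
      have i2 : (if e1 b z α k (2 * j + 1) then (1 : ℝ) else 0) ≤ 1 := by split_ifs <;> norm_num
      have i3 : 64 * α ^ 2 ≤ q := by
        have := hbr.2
        rw [hq]; nlinarith
      have i4 : (1 : ℝ) = α ^ 2 / α ^ 2 := by field_simp
      calc _ ≤ ((1 + (Q ^ 2 - ‖b (k + 1) (2 * j)‖ ^ 2) / α ^ 2) +
            (1 + (Q ^ 2 - ‖b (k + 1) (2 * j + 1)‖ ^ 2) / α ^ 2)) / 2 := by linarith
        _ = (α ^ 2 + Q ^ 2 - (‖b (k + 1) (2 * j)‖ ^ 2 + ‖b (k + 1) (2 * j + 1)‖ ^ 2) / 2) / α ^ 2 := by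
            nth_rewrite 1 2 [i4]
            ring
        _ ≤ (Q ^ 2 - ‖b k j‖ ^ 2 + (2 * Q + 12 * α) * z k j) / α ^ 2 := by
            apply div_le_div_of_nonneg_right _ hα2.le
            rw [e]
            nlinarith [mul_nonneg hα.le hz0]
        _ = _ := by ring
    · have i1 : (if e1 b z α k (2 * j) then (1 : ℝ) else 0) = 0 := by
        rw [if_neg]
        rintro ⟨_, h'⟩
        rw [d1] at h'
        rcases h' with h' | h'
        · exact h' hin
        · exact hbr h'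
      have i2 : (if e1 b z α k (2 * j + 1) then (1 : ℝ) else 0) = 0 := by
        rw [if_neg]
        rintro ⟨_, h'⟩
        rw [d2] at h'
        rcases h' with h' | h'
        · exact h' hin
        · exact hbr h'
      rw [i1, i2]
      calc _ = (Q ^ 2 - (‖b (k + 1) (2 * j)‖ ^ 2 + ‖b (k + 1) (2 * j + 1)‖ ^ 2) / 2) / α ^ 2 := by
            ring
        _ ≤ (Q ^ 2 - ‖b k j‖ ^ 2 + (2 * Q + 12 * α) * z k j) / α ^ 2 := by
            apply div_le_div_of_nonneg_right _ hα2.le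
            rw [e]
            nlinarith [mul_nonneg hα.le hz0]
        _ = _ := by ring
  · -- outside
    have hP : PP b α Q k j = (Q ^ 2 - ‖b k j‖ ^ 2 + DD α (b k j)) / α ^ 2 := by
      unfold PP; rw [if_neg hin]
    have hc : ∀ j', j' / 2 = j → (if e1 b z α k j' then (1 : ℝ) else 0) + PP b α Q (k + 1) j' ≤
        (Q ^ 2 - ‖b (k + 1) j'‖ ^ 2 + DD α (b (k + 1) j')) / α ^ 2 := by
      intro j' hj'
      unfold PP
      by_cases h' : inn b α (k + 1) j'
      · have h3 : ‖b (k + 1) j'‖ ≤ 3 * α := by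
          rcases h' with h'' | h''
          · exact h''
          · exact absurd (hj' ▸ h''.2) hin
        rw [if_pos h', add_zero]
        have i1 : (if e1 b z α k j' then (1 : ℝ) else 0) ≤ 1 := by split_ifs <;> norm_num
        have i4 : (1 : ℝ) ≤ DD α (b (k + 1) j') / α ^ 2 := by
          rw [le_div_iff₀ hα2, one_mul]
          exact DD_ge hα h3
        rw [add_div]
        linarith
      · rw [if_neg h', if_neg, zero_add]
        rintro ⟨h'', _⟩
        exact h' h''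
    have hm := DD_mid (α := α) (a k j) (hx b k j)
    rw [← h.left, ← h.right] at hm
    have hx' := DD_exit hα (h.ex k j)
    calc _ ≤ ((Q ^ 2 - ‖b (k + 1) (2 * j)‖ ^ 2 + DD α (b (k + 1) (2 * j))) / α ^ 2 +
          (Q ^ 2 - ‖b (k + 1) (2 * j + 1)‖ ^ 2 + DD α (b (k + 1) (2 * j + 1))) / α ^ 2) / 2 := by
          have := add_le_add (hc _ d1) (hc _ d2)
          linarith
      _ = (Q ^ 2 - (‖b (k + 1) (2 * j)‖ ^ 2 + ‖b (k + 1) (2 * j + 1)‖ ^ 2) / 2 +
          (DD α (b (k + 1) (2 * j)) + DD α (b (k + 1) (2 * j + 1))) / 2) / α ^ 2 := by ring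
      _ ≤ (Q ^ 2 - ‖b k j‖ ^ 2 + DD α (b k j) + (2 * Q + 12 * α) * z k j) / α ^ 2 := by
          apply div_le_div_of_nonneg_right _ hα2.le
          rw [e]
          linarith
      _ = _ := by rw [hP]; ring

theorem PP_nonneg {b : ℕ → ℤ → ℂ} {α Q : ℝ} (hα : 0 < α)
    (hbQ : ∀ k j, ‖b k j‖ ≤ Q) (k : ℕ) (j : ℤ) : 0 ≤ PP b α Q k j := by
  classical
  unfold PP
  apply div_nonneg _ (by positivity)
  have h1 : 0 ≤ Q ^ 2 - ‖b k j‖ ^ 2 := by nlinarith [hbQ k j, norm_nonneg (b k j)]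
  split_ifs
  · linarith
  · have := DD_nonneg α (b k j)
    linarith

theorem Zg_succ (z : ℕ → ℤ → ℝ) {k K : ℕ} (h : k < K) (x : ℝ) :
    Zg z k K x = z k (fl k x) + Zg z (k + 1) K x := by
  unfold Zg
  rw [Finset.sum_eq_sum_Ico_succ_bot h]

theorem Zg_nonneg {z : ℕ → ℤ → ℝ} (hz : ∀ k j, 0 ≤ z k j) (k K : ℕ) (x : ℝ) : 0 ≤ Zg z k K x := by
  unfold Zg
  exact Finset.sum_nonneg fun l _ => hz _ _

theorem measurable_Zg (z : ℕ → ℤ → ℝ) (k K : ℕ) : Measurable (Zg z k K) := by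
  unfold Zg
  exact Finset.measurable_sum _ fun l _ => measurable_fl_comp l (z l)

theorem NE_nonneg (b : ℕ → ℤ → ℂ) (z : ℕ → ℤ → ℝ) (α : ℝ) (k K : ℕ) (x : ℝ) :
    0 ≤ NE b z α k K x := by
  classical
  unfold NE
  refine Finset.sum_nonneg fun l _ => ?_
  split_ifs <;> norm_num

theorem measurable_NE (b : ℕ → ℤ → ℂ) (z : ℕ → ℤ → ℝ) (α : ℝ) (k K : ℕ) :
    Measurable (NE b z α k K) := by
  classical
  unfold NE
  refine Finset.measurable_sum _ fun l _ => ?_
  exact measurable_fl_comp (l + 1) (fun j => if e1 b z α l j then (1 : ℝ) else 0)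

/-- **number of new starts** -/
theorem int_NE {a b : ℕ → ℤ → ℂ} {z : ℕ → ℤ → ℝ} (h : Proc a b z) {α Q : ℝ} (hα : 0 < α)
    (hQ0 : 0 ≤ Q) (hbQ : ∀ k j, ‖b k j‖ ≤ Q) (d : ℕ) :
    ∀ (k : ℕ) (j : ℤ), ∫⁻ x in Ivl k j, ENNReal.ofReal (NE b z α k (k + d) x) ≤
      ENNReal.ofReal (PP b α Q k j) * volume (Ivl k j) +
        ENNReal.ofReal ((2 * Q + 12 * α) / α ^ 2) *
          ∫⁻ x in Ivl k j, ENNReal.ofReal (Zg z k (k + d) x) := by
  classical
  set L : ℝ := (2 * Q + 12 * α) / α ^ 2 with hL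
  have hL0 : 0 ≤ L := by positivity
  induction d with
  | zero =>
    intro k j
    simp [NE]
  | succ d ih =>
    intro k j
    have child : ∀ j' : ℤ, j' / 2 = j →
        ∫⁻ x in Ivl (k + 1) j', ENNReal.ofReal (NE b z α k (k + (d + 1)) x) ≤
        ENNReal.ofReal ((if e1 b z α k j' then (1 : ℝ) else 0) + PP b α Q (k + 1) j') *
          volume (Ivl (k + 1) j') +
          ENNReal.ofReal L * ∫⁻ x in Ivl (k + 1) j', ENNReal.ofReal (Zg z (k + 1) (k + 1 + d) x) := by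
      intro j' hj'
      have i0 : (0 : ℝ) ≤ if e1 b z α k j' then (1 : ℝ) else 0 := by split_ifs <;> norm_num
      have hs : ∀ x ∈ Ivl (k + 1) j', ENNReal.ofReal (NE b z α k (k + (d + 1)) x) =
          ENNReal.ofReal (if e1 b z α k j' then (1 : ℝ) else 0) +
            ENNReal.ofReal (NE b z α (k + 1) (k + 1 + d) x) := by
        intro x hx
        rw [mem_Ivl] at hx
        have e2 : k + (d + 1) = k + 1 + d := by omega
        rw [← ENNReal.ofReal_add i0 (NE_nonneg _ _ _ _ _ _)]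
        congr 1
        unfold NE
        rw [Finset.sum_eq_sum_Ico_succ_bot (by omega), hx, e2]
      rw [setLIntegral_congr_fun (measurableSet_Ivl _ _) hs, lintegral_add_left measurable_const,
        lintegral_const, Measure.restrict_apply MeasurableSet.univ, univ_inter,
        ENNReal.ofReal_add i0 (PP_nonneg hα hbQ _ _), add_mul]
      refine (add_le_add le_rfl (ih (k + 1) j')).trans (le_of_eq ?_)
      ring
    have hZ : ∀ j' : ℤ, j' / 2 = j →
        ∫⁻ x in Ivl (k + 1) j', ENNReal.ofReal (Zg z k (k + (d + 1)) x) =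
        ENNReal.ofReal (z k j) * volume (Ivl (k + 1) j') +
          ∫⁻ x in Ivl (k + 1) j', ENNReal.ofReal (Zg z (k + 1) (k + 1 + d) x) := by
      intro j' hj'
      have hs : ∀ x ∈ Ivl (k + 1) j', ENNReal.ofReal (Zg z k (k + (d + 1)) x) =
          ENNReal.ofReal (z k j) + ENNReal.ofReal (Zg z (k + 1) (k + 1 + d) x) := by
        intro x hx
        rw [mem_Ivl] at hx
        have hx' : fl k x = j := by rw [fl_half, hx, hj']
        have e2 : k + (d + 1) = k + 1 + d := by omega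
        rw [Zg_succ z (by omega), hx', e2,
          ENNReal.ofReal_add (h.z_nonneg _ _) (Zg_nonneg h.z_nonneg _ _ _)]
      rw [setLIntegral_congr_fun (measurableSet_Ivl _ _) hs, lintegral_add_left measurable_const,
        lintegral_const, Measure.restrict_apply MeasurableSet.univ, univ_inter]
    have d1 : (2 * j) / 2 = j := by omega
    have d2 : (2 * j + 1) / 2 = j := by omega
    rw [lintegral_Ivl k j, lintegral_Ivl k j, hZ _ d1, hZ _ d2]
    refine (add_le_add (child _ d1) (child _ d2)).trans ?_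
    rw [volume_Ivl_succ k j (2 * j), volume_Ivl_succ k j (2 * j + 1)]
    set V := volume (Ivl k j) with hV
    set I1 := ∫⁻ x in Ivl (k + 1) (2 * j), ENNReal.ofReal (Zg z (k + 1) (k + 1 + d) x) with hI1
    set I2 := ∫⁻ x in Ivl (k + 1) (2 * j + 1), ENNReal.ofReal (Zg z (k + 1) (k + 1 + d) x) with hI2
    set A1 : ℝ := (if e1 b z α k (2 * j) then (1 : ℝ) else 0) + PP b α Q (k + 1) (2 * j) with hA1
    set A2 : ℝ := (if e1 b z α k (2 * j + 1) then (1 : ℝ) else 0) + PP b α Q (k + 1) (2 * j + 1)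
      with hA2
    have hA10 : 0 ≤ A1 := by
      rw [hA1]
      have := PP_nonneg hα hbQ (k + 1) (2 * j)
      split_ifs <;> linarith
    have hA20 : 0 ≤ A2 := by
      rw [hA2]
      have := PP_nonneg hα hbQ (k + 1) (2 * j + 1)
      split_ifs <;> linarith
    have hst : (A1 + A2) / 2 ≤ PP b α Q k j + L * z k j := PP_step h hα hbQ k j
    have hst' : ENNReal.ofReal A1 * (V / 2) + ENNReal.ofReal A2 * (V / 2) ≤
        ENNReal.ofReal (PP b α Q k j) * V + ENNReal.ofReal L * (ENNReal.ofReal (z k j) * V) := by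
      rw [← add_mul, ← ENNReal.ofReal_add hA10 hA20, ENNReal.div_eq_inv_mul, ← mul_assoc,
        ← mul_assoc, ← ENNReal.ofReal_mul hL0, ← add_mul,
        ← ENNReal.ofReal_add (PP_nonneg hα hbQ _ _) (mul_nonneg hL0 (h.z_nonneg _ _))]
      apply mul_le_mul' _ le_rfl
      rw [← ENNReal.ofReal_ofNat 2, ← ENNReal.ofReal_inv_of_pos (by norm_num),
        ← ENNReal.ofReal_mul (add_nonneg hA10 hA20)]
      apply ENNReal.ofReal_le_ofReal
      rw [← div_eq_mul_inv]
      exact hst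
    have hhalf : ENNReal.ofReal (z k j) * (V / 2) + ENNReal.ofReal (z k j) * (V / 2) =
        ENNReal.ofReal (z k j) * V := by
      rw [← mul_add, ENNReal.add_halves]
    calc ENNReal.ofReal A1 * (V / 2) + ENNReal.ofReal L * I1 +
          (ENNReal.ofReal A2 * (V / 2) + ENNReal.ofReal L * I2)
        = (ENNReal.ofReal A1 * (V / 2) + ENNReal.ofReal A2 * (V / 2)) +
          ENNReal.ofReal L * (I1 + I2) := by ring
      _ ≤ (ENNReal.ofReal (PP b α Q k j) * V + ENNReal.ofReal L * (ENNReal.ofReal (z k j) * V)) +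
          ENNReal.ofReal L * (I1 + I2) := add_le_add hst' le_rfl
      _ = _ := by rw [← hhalf]; ring

/-! ## summation over the start nodes -/

/-- union bound over the nodes of one level -/
theorem vol_node {c : ℝ≥0∞} {n : ℕ} {A Bd : Set ℝ} (hA : MeasurableSet A)
    (hAn : ∀ x y, fl n x = fl n y → x ∈ A → y ∈ A)
    (hB : ∀ i, volume (Ivl n i ∩ Bd) ≤ c * volume (Ivl n i)) :
    volume (A ∩ Bd) ≤ c * volume A := by
  have hcov : ∀ S : Set ℝ, S = ⋃ i : ℤ, (S ∩ Ivl n i) := by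
    intro S
    ext x
    simp only [mem_iUnion, mem_inter_iff, mem_Ivl]
    exact ⟨fun h => ⟨_, h, rfl⟩, fun ⟨_, h, _⟩ => h⟩
  have hdisj : Pairwise (Function.onFun Disjoint fun i : ℤ => A ∩ Ivl n i) := by
    intro i i' hii
    rw [Function.onFun, Set.disjoint_left]
    rintro x ⟨_, hx⟩ ⟨_, hx'⟩
    rw [mem_Ivl] at hx hx'
    exact hii (hx.symm.trans hx')
  calc volume (A ∩ Bd) = volume (⋃ i : ℤ, (A ∩ Bd) ∩ Ivl n i) := by rw [← hcov]
    _ ≤ ∑' i : ℤ, volume ((A ∩ Bd) ∩ Ivl n i) := measure_iUnion_le _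
    _ ≤ ∑' i : ℤ, c * volume (A ∩ Ivl n i) := by
        refine ENNReal.tsum_le_tsum fun i => ?_
        by_cases hne : (A ∩ Ivl n i).Nonempty
        · obtain ⟨x, hxA, hxI⟩ := hne
          have hsub : Ivl n i ⊆ A := by
            intro y hy
            rw [mem_Ivl] at hxI hy
            exact hAn x y (hxI.trans hy.symm) hxA
          have e : A ∩ Ivl n i = Ivl n i := inter_eq_right.2 hsub
          rw [e]
          refine (measure_mono ?_).trans (hB i)
          rintro y ⟨⟨_, h2⟩, h3⟩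
          exact ⟨h3, h2⟩
        · rw [not_nonempty_iff_eq_empty] at hne
          have : (A ∩ Bd) ∩ Ivl n i = ∅ := by
            apply eq_empty_of_subset_empty
            rw [← hne]
            rintro y ⟨⟨h1, _⟩, h3⟩
            exact ⟨h1, h3⟩
          rw [this]; simp
    _ = c * ∑' i : ℤ, volume (A ∩ Ivl n i) := ENNReal.tsum_mul_left
    _ = c * volume A := by
        rw [← measure_iUnion hdisj fun i => hA.inter (measurableSet_Ivl n i), ← hcov]

/-- sum of volumes against a counting function -/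
theorem sum_vol {P : Set ℝ} (hP : MeasurableSet P) {S : Finset ℕ} {A : ℕ → Set ℝ}
    (hA : ∀ l ∈ S, MeasurableSet (A l)) {Nf : ℝ → ℝ}
    (hN : ∀ x ∈ P, (∑ l ∈ S, (A l).indicator (fun _ => (1 : ℝ)) x) ≤ Nf x) :
    ∑ l ∈ S, volume (P ∩ A l) ≤ ∫⁻ x in P, ENNReal.ofReal (Nf x) := by
  have e : ∀ l ∈ S, volume (P ∩ A l) =
      ∫⁻ x in P, ENNReal.ofReal ((A l).indicator (fun _ => (1 : ℝ)) x) := by
    intro l hl
    have : ∀ x, ENNReal.ofReal ((A l).indicator (fun _ => (1 : ℝ)) x) =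
        (A l).indicator (fun _ => (1 : ℝ≥0∞)) x := by
      intro x
      by_cases hx : x ∈ A l
      · simp [hx]
      · simp [hx]
    simp only [this]
    rw [lintegral_indicator (hA l hl), lintegral_const, one_mul, Measure.restrict_apply
      MeasurableSet.univ, univ_inter, Measure.restrict_apply (hA l hl), inter_comm]
  rw [Finset.sum_congr rfl e, ← lintegral_finsetSum' _ fun l hl =>
    ((measurable_const.indicator (hA l hl)).ennreal_ofReal).aemeasurable]
  apply setLIntegral_mono' hP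
  intro x hx
  rw [← ENNReal.ofReal_sum_of_nonneg fun l _ => indicator_nonneg (fun _ _ => zero_le_one) _]
  exact ENNReal.ofReal_le_ofReal (hN x hx)

theorem Zg_congr (z : ℕ → ℤ → ℝ) {k K n : ℕ} (hK : K ≤ n + 1) {x y : ℝ} (h : fl n x = fl n y) :
    Zg z k K x = Zg z k K y := by
  unfold Zg
  refine Finset.sum_congr rfl fun l hl => ?_
  rw [Finset.mem_Ico] at hl
  rw [fl_div (show l ≤ n by omega) x, fl_div (show l ≤ n by omega) y, h]

theorem Zg_add (z : ℕ → ℤ → ℝ) {k k' K : ℕ} (h1 : k ≤ k') (h2 : k' ≤ K) (x : ℝ) :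
    Zg z k K x = Zg z k k' x + Zg z k' K x := by
  unfold Zg
  rw [Finset.sum_Ico_consecutive _ h1 h2]

/-- the pathwise step: last start before `k1` -/
theorem path_step {a b : ℕ → ℤ → ℂ} {z : ℕ → ℤ → ℝ} (h : Proc a b z) {α : ℝ} (hα : 0 < α)
    {k0 m : ℕ} {x lam : ℝ} (hlam : 0 ≤ lam)
    (hB : ∀ n, k0 ≤ n → n ≤ m → (n = k0 ∨ ∃ l, n = l + 1 ∧ k0 ≤ l ∧
        (e1 b z α l (fl (l + 1) x) ∨ ⌊Zg z k0 l x / α⌋ < ⌊Zg z k0 (l + 1) x / α⌋)) →
      ∀ K, n ≤ K → K ≤ m →
        ‖SX a b (sw (lv b z α) (good b z α) n) n K x‖ ≤ 60 * α * lam + 30 * Zg z n K x)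
    {k1 k2 : ℕ} (h01 : k0 ≤ k1) (h12 : k1 ≤ k2) (h2m : k2 ≤ m) (hrun : Run b α k1 k2 x) :
    ‖Sg a b k1 k2 x‖ ≤ 300 * α * (lam + 1) + 60 * Zg z k1 k2 x := by
  classical
  -- the starts
  set St : ℕ → Prop := fun n => k0 ≤ n ∧ (n = k0 ∨ ∃ l, n = l + 1 ∧ k0 ≤ l ∧
        (e1 b z α l (fl (l + 1) x) ∨ ⌊Zg z k0 l x / α⌋ < ⌊Zg z k0 (l + 1) x / α⌋)) with hSt
  set n := Nat.findGreatest St k1 with hn
  have hSt0 : St k0 := ⟨le_rfl, Or.inl rfl⟩
  have hStn : St n := Nat.findGreatest_spec h01 hSt0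
  have hn1 : n ≤ k1 := Nat.findGreatest_le _
  have hlast : ∀ i, n < i → i ≤ k1 → ¬ St i := fun i h1 h2 => Nat.findGreatest_is_greatest h1 h2
  have hk0n : k0 ≤ n := hStn.1
  have hz0 := h.z_nonneg
  -- no start between
  have hno : ∀ i, n ≤ i → i + 1 ≤ k1 → ¬ e1 b z α i (fl (i + 1) x) ∧
      ⌊Zg z k0 (i + 1) x / α⌋ ≤ ⌊Zg z k0 i x / α⌋ := by
    intro i h1 h2
    have := hlast (i + 1) (by omega) h2
    constructor
    · intro he
      exact this ⟨by omega, Or.inr ⟨i, rfl, by omega, Or.inl he⟩⟩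
    · by_contra hc
      exact this ⟨by omega, Or.inr ⟨i, rfl, by omega, Or.inr (not_le.1 hc)⟩⟩
  -- inside all the way down from k1
  have hinn1 : inn b α k1 (fl k1 x) := inn_of_le (hrun k1 le_rfl h12)
  have hdown : ∀ e, n + e ≤ k1 → inn b α (k1 - e) (fl (k1 - e) x) := by
    intro e
    induction e with
    | zero => intro _; exact hinn1
    | succ e ih =>
      intro he
      have h3 := ih (by omega)
      obtain ⟨i, hi⟩ : ∃ i, k1 - e = i + 1 := ⟨k1 - (e + 1), by omega⟩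
      have hi' : k1 - (e + 1) = i := by omega
      rw [hi] at h3
      rw [hi']
      have h4 := (hno i (by omega) (by omega)).1
      by_contra hc
      apply h4
      refine ⟨h3, Or.inl ?_⟩
      rw [← fl_half]; exact hc
  have hinn : ∀ i, n ≤ i → i ≤ k1 → inn b α i (fl i x) := by
    intro i h1 h2
    have := hdown (k1 - i) (by omega)
    have e : k1 - (k1 - i) = i := by omega
    rwa [e] at this
  have hlv1 : ∀ i, n ≤ i → i < k1 → lv b z α i (fl i x) := by
    intro i h1 h2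
    refine ⟨hinn i h1 h2.le, fun hbr => ?_⟩
    apply (hno i h1 h2).1
    refine ⟨hinn (i + 1) (by omega) (by omega), Or.inr ?_⟩
    rw [← fl_half]; exact hbr
  -- differences inside the run
  have hdx : ∀ i, k1 ≤ i → i < k2 → ‖dx a b i x‖ ≤ 6 * α + z i (fl i x) := by
    intro i h1 h2
    have g1 := hrun i h1 h2.le
    have g2 := hrun (i + 1) (by omega) h2
    unfold dx
    calc ‖b (i + 1) (fl (i + 1) x) - a i (fl i x)‖
        = ‖(b (i + 1) (fl (i + 1) x) - b i (fl i x)) + (b i (fl i x) - a i (fl i x))‖ := by ring_nf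
      _ ≤ ‖b (i + 1) (fl (i + 1) x) - b i (fl i x)‖ + ‖b i (fl i x) - a i (fl i x)‖ :=
          norm_add_le _ _
      _ ≤ (‖b (i + 1) (fl (i + 1) x)‖ + ‖b i (fl i x)‖) + z i (fl i x) :=
          add_le_add (norm_sub_le _ _) (h.ex _ _)
      _ ≤ _ := by linarith
  have hlv2 : ∀ i, k1 ≤ i → i < k2 → lv b z α i (fl i x) := by
    intro i h1 h2
    refine ⟨inn_of_le (hrun i h1 h2.le), fun hbr => ?_⟩
    have g1 := hdx i h1 h2
    rw [h.norm_dx] at g1
    have g2 := hbr.1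
    have g3 := hbr.2
    linarith
  have hlv : ∀ i, n ≤ i → i < k2 → lv b z α i (fl i x) := by
    intro i h1 h2
    rcases lt_or_ge i k1 with h3 | h3
    · exact hlv1 i h1 h3
    · exact hlv2 i h3 h2
  -- exits between the start and k1
  have hZ1 : Zg z n k1 x ≤ α := by
    have hfl : ∀ e, n + e ≤ k1 → ⌊Zg z k0 (n + e) x / α⌋ ≤ ⌊Zg z k0 n x / α⌋ := by
      intro e
      induction e with
      | zero => intro _; exact le_rfl
      | succ e ih =>
        intro he
        exact (hno (n + e) (by omega) he).2.trans (ih (by omega))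
    have h3 := hfl (k1 - n) (by omega)
    have e : n + (k1 - n) = k1 := by omega
    rw [e, Zg_add z hk0n hn1] at h3
    have g1 := Int.lt_floor_add_one ((Zg z k0 n x + Zg z n k1 x) / α)
    have g2 := Int.floor_le (Zg z k0 n x / α)
    have g3 : (⌊(Zg z k0 n x + Zg z n k1 x) / α⌋ : ℝ) ≤ ⌊Zg z k0 n x / α⌋ := by exact_mod_cast h3
    rw [add_div] at g1 g3
    have g4 : Zg z n k1 x / α < 1 := by linarith
    rw [div_lt_one hα] at g4
    exact g4.le
  -- the sums from the start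
  have hSX : ∀ K, K ≤ k2 → SX a b (sw (lv b z α) (good b z α) n) n K x =
      ∑ l ∈ Finset.Ico n K, if good b z α l (fl l x) then (rad (l + 1) x : ℂ) * dx a b l x else 0 := by
    intro K hK
    unfold SX
    refine Finset.sum_congr rfl fun l hl => ?_
    rw [Finset.mem_Ico] at hl
    have : sw (lv b z α) (good b z α) n l (fl l x) ↔ good b z α l (fl l x) := by
      rw [sw_iff]
      exact ⟨fun h' => h'.2, fun h' => ⟨fun i i1 i2 => hlv i i1 (by omega), h'⟩⟩
    simp only [this]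
  have hdiff : (∑ l ∈ Finset.Ico k1 k2, if good b z α l (fl l x) then
      (rad (l + 1) x : ℂ) * dx a b l x else 0) =
      SX a b (sw (lv b z α) (good b z α) n) n k2 x - SX a b (sw (lv b z α) (good b z α) n) n k1 x := by
    rw [hSX k2 le_rfl, hSX k1 h12, ← Finset.sum_Ico_consecutive _ hn1 h12]
    ring
  have hrest : ‖Sg a b k1 k2 x - ∑ l ∈ Finset.Ico k1 k2, (if good b z α l (fl l x) then
      (rad (l + 1) x : ℂ) * dx a b l x else 0)‖ ≤ 7 * Zg z k1 k2 x := by
    unfold Sg Zg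
    rw [← Finset.sum_sub_distrib, Finset.mul_sum]
    refine (norm_sum_le _ _).trans (Finset.sum_le_sum fun l hl => ?_)
    rw [Finset.mem_Ico] at hl
    by_cases hg : good b z α l (fl l x)
    · rw [if_pos hg, sub_self, norm_zero]
      have := hz0 l (fl l x)
      linarith
    · rw [if_neg hg, sub_zero, norm_mul, Complex.norm_real, Real.norm_eq_abs, abs_rad, one_mul]
      have g1 := hdx l hl.1 hl.2
      have g2 : α < z l (fl l x) := by
        by_contra hc
        apply hg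
        refine ⟨not_lt.1 hc, ?_⟩
        rw [← h.norm_dx]
        linarith [not_lt.1 hc]
      linarith
  have b1 := hB n hk0n (by omega) hStn.2 k1 hn1 (by omega)
  have b2 := hB n hk0n (by omega) hStn.2 k2 (by omega) h2m
  have b3 := Zg_add z hn1 h12 x
  have b4 := Zg_nonneg hz0 k1 k2 x
  have b5 : 0 ≤ α * lam := mul_nonneg hα.le hlam
  calc ‖Sg a b k1 k2 x‖
      = ‖(Sg a b k1 k2 x - ∑ l ∈ Finset.Ico k1 k2, (if good b z α l (fl l x) then
          (rad (l + 1) x : ℂ) * dx a b l x else 0)) +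
        (SX a b (sw (lv b z α) (good b z α) n) n k2 x -
          SX a b (sw (lv b z α) (good b z α) n) n k1 x)‖ := by
        rw [← hdiff]; ring_nf
    _ ≤ 7 * Zg z k1 k2 x + (‖SX a b (sw (lv b z α) (good b z α) n) n k2 x‖ +
          ‖SX a b (sw (lv b z α) (good b z α) n) n k1 x‖) :=
        (norm_add_le _ _).trans (add_le_add hrest (norm_sub_le _ _))
    _ ≤ _ := by
        rw [b3] at b2
        nlinarith

theorem floor_diff {u v : ℝ} (h : u ≤ v) : (if ⌊u⌋ < ⌊v⌋ then (1 : ℝ) else 0) ≤ (⌊v⌋ : ℝ) - ⌊u⌋ := by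
  have h1 : ⌊u⌋ ≤ ⌊v⌋ := Int.floor_le_floor h
  split_ifs with h2
  · have : (⌊u⌋ : ℤ) + 1 ≤ ⌊v⌋ := h2
    have : ((⌊u⌋ : ℤ) : ℝ) + 1 ≤ ((⌊v⌋ : ℤ) : ℝ) := by exact_mod_cast this
    linarith
  · have : ((⌊u⌋ : ℤ) : ℝ) ≤ ((⌊v⌋ : ℤ) : ℝ) := by exact_mod_cast h1
    linarith

/-- **B6, tail form**: all the runs below one node. -/
theorem runs_tail {a b : ℕ → ℤ → ℂ} {z : ℕ → ℤ → ℝ} (h : Proc a b z) {α Q : ℝ} (hα : 0 < α)
    (hαQ : α ≤ Q) (hbQ : ∀ k j, ‖b k j‖ ≤ Q) {k0 m : ℕ} {j0 : ℤ}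
    (hz : ∫⁻ x in Ivl k0 j0, ENNReal.ofReal (Zg z k0 m x) ≤
      ENNReal.ofReal Q * volume (Ivl k0 j0)) {lam : ℝ} (hlam : 0 ≤ lam) :
    volume {x ∈ Ivl k0 j0 | ∃ k1 k2, k0 ≤ k1 ∧ k1 ≤ k2 ∧ k2 ≤ m ∧ Run b α k1 k2 x ∧
        300 * α * (lam + 1) + 60 * Zg z k1 k2 x < ‖Sg a b k1 k2 x‖} ≤
      ENNReal.ofReal (400 * (Q / α) ^ 2 * Real.exp (-lam)) * volume (Ivl k0 j0) := by
  classical
  rcases lt_or_ge m k0 with hm | hm
  · have : {x ∈ Ivl k0 j0 | ∃ k1 k2, k0 ≤ k1 ∧ k1 ≤ k2 ∧ k2 ≤ m ∧ Run b α k1 k2 x ∧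
        300 * α * (lam + 1) + 60 * Zg z k1 k2 x < ‖Sg a b k1 k2 x‖} = ∅ := by
      ext x
      simp only [mem_ofPred_eq, mem_empty_iff_false, iff_false, not_and, not_exists]
      intro _ k1 k2 h1 h2 h3
      omega
    rw [this]; simp
  have hQ : 0 < Q := hα.trans_le hαQ
  have hz0 := h.z_nonneg
  set P := Ivl k0 j0 with hP
  have hPm : MeasurableSet P := measurableSet_Ivl _ _
  set c : ℝ≥0∞ := ENNReal.ofReal (6 * Real.exp (-lam)) with hc
  set Bd : ℕ → Set ℝ := fun n => {x | ∃ K, n ≤ K ∧ K ≤ m ∧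
        60 * α * lam + 30 * Zg z n K x < ‖SX a b (sw (lv b z α) (good b z α) n) n K x‖} with hBd
  have hBdv : ∀ n i, volume (Ivl n i ∩ Bd n) ≤ c * volume (Ivl n i) := by
    intro n i
    refine start_tail h hα (fun k j hh => inn_le hα hh.1) ?_ (fun k j hh => hh) n m i lam
    intro k j hh
    by_contra hcon
    rw [not_or] at hcon
    apply hh.2
    refine ⟨not_lt.1 hcon.2, ?_⟩
    by_contra hc'
    exact hcon.1 ⟨not_lt.1 hcon.2, not_lt.1 hc'⟩
  set A1 : ℕ → Set ℝ := fun l => {x | e1 b z α l (fl (l + 1) x)} with hA1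
  set A2 : ℕ → Set ℝ := fun l => {x | ⌊Zg z k0 l x / α⌋ < ⌊Zg z k0 (l + 1) x / α⌋} with hA2
  have hA1m : ∀ l, MeasurableSet (A1 l) := fun l =>
    measurable_fl (l + 1) (MeasurableSpace.measurableSet_top (s := {j | e1 b z α l j}))
  have hA2m : ∀ l, MeasurableSet (A2 l) := fun l =>
    measurableSet_lt (Int.measurable_floor.comp ((measurable_Zg z k0 l).div_const α))
      (Int.measurable_floor.comp ((measurable_Zg z k0 (l + 1)).div_const α))
  have hPn : ∀ n, k0 ≤ n → ∀ x y, fl n x = fl n y → x ∈ P → y ∈ P := by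
    intro n hn x y hxy hx
    rw [hP, mem_Ivl] at hx ⊢
    rw [← hx, fl_div hn x, fl_div hn y, hxy]
  -- inclusion
  have hsub : {x ∈ P | ∃ k1 k2, k0 ≤ k1 ∧ k1 ≤ k2 ∧ k2 ≤ m ∧ Run b α k1 k2 x ∧
        300 * α * (lam + 1) + 60 * Zg z k1 k2 x < ‖Sg a b k1 k2 x‖} ⊆
      (P ∩ Bd k0) ∪ ((⋃ l ∈ Finset.Ico k0 m, ((P ∩ A1 l) ∩ Bd (l + 1))) ∪
        ⋃ l ∈ Finset.Ico k0 m, ((P ∩ A2 l) ∩ Bd (l + 1))) := by
    rintro x ⟨hx, k1, k2, h1, h2, h3, h4, h5⟩
    by_contra hcon
    rw [mem_union, mem_union, not_or, not_or] at hcon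
    obtain ⟨c1, c2, c3⟩ := hcon
    simp only [mem_iUnion, not_exists] at c2 c3
    have := path_step h hα (k0 := k0) (m := m) (x := x) hlam (by
      intro n hn0 hnm hn K hK1 hK2
      by_contra hc'
      rw [not_le] at hc'
      have hxB : x ∈ Bd n := ⟨K, hK1, hK2, hc'⟩
      rcases hn with rfl | ⟨l, rfl, hl, hl'⟩
      · exact c1 ⟨hx, hxB⟩
      · rcases hl' with hl' | hl'
        · exact c2 l (Finset.mem_Ico.2 ⟨hl, by omega⟩) ⟨⟨hx, hl'⟩, hxB⟩
        · exact c3 l (Finset.mem_Ico.2 ⟨hl, by omega⟩) ⟨⟨hx, hl'⟩, hxB⟩) h1 h2 h3 h4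
    linarith
  -- volumes
  have v1 : ∀ l ∈ Finset.Ico k0 m, volume ((P ∩ A1 l) ∩ Bd (l + 1)) ≤ c * volume (P ∩ A1 l) := by
    intro l hl
    rw [Finset.mem_Ico] at hl
    refine vol_node (hPm.inter (hA1m l)) ?_ (hBdv (l + 1))
    rintro x y hxy ⟨hx, hx'⟩
    refine ⟨hPn (l + 1) (by omega) x y hxy hx, ?_⟩
    simp only [hA1, mem_ofPred_eq] at hx' ⊢
    rw [← hxy]; exact hx'
  have v2 : ∀ l ∈ Finset.Ico k0 m, volume ((P ∩ A2 l) ∩ Bd (l + 1)) ≤ c * volume (P ∩ A2 l) := by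
    intro l hl
    rw [Finset.mem_Ico] at hl
    refine vol_node (hPm.inter (hA2m l)) ?_ (hBdv (l + 1))
    rintro x y hxy ⟨hx, hx'⟩
    refine ⟨hPn (l + 1) (by omega) x y hxy hx, ?_⟩
    simp only [hA2, mem_ofPred_eq] at hx' ⊢
    rw [← Zg_congr z (show l ≤ l + 1 + 1 by omega) hxy,
      ← Zg_congr z (show l + 1 ≤ l + 1 + 1 by omega) hxy]
    exact hx'
  have w1 : ∑ l ∈ Finset.Ico k0 m, volume (P ∩ A1 l) ≤
      ∫⁻ x in P, ENNReal.ofReal (NE b z α k0 m x) := by
    refine sum_vol hPm (fun l _ => hA1m l) fun x _ => ?_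
    unfold NE
    refine Finset.sum_le_sum fun l _ => ?_
    by_cases hh : e1 b z α l (fl (l + 1) x)
    · rw [if_pos hh, indicator_of_mem (show x ∈ A1 l from hh)]
    · rw [if_neg hh, indicator_of_notMem (show x ∉ A1 l from hh)]
  have w2 : ∑ l ∈ Finset.Ico k0 m, volume (P ∩ A2 l) ≤
      ∫⁻ x in P, ENNReal.ofReal (Zg z k0 m x / α) := by
    refine sum_vol hPm (fun l _ => hA2m l) fun x _ => ?_
    calc ∑ l ∈ Finset.Ico k0 m, (A2 l).indicator (fun _ => (1 : ℝ)) x
        ≤ ∑ l ∈ Finset.Ico k0 m, ((⌊Zg z k0 (l + 1) x / α⌋ : ℝ) - ⌊Zg z k0 l x / α⌋) := by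
          refine Finset.sum_le_sum fun l hl => ?_
          rw [Finset.mem_Ico] at hl
          have hmono : Zg z k0 l x / α ≤ Zg z k0 (l + 1) x / α := by
            have := Zg_add z hl.1 (Nat.le_succ l) x
            have h' := Zg_nonneg hz0 l (l + 1) x
            gcongr
            rw [Nat.succ_eq_add_one] at this
            linarith
          refine le_trans (le_of_eq ?_) (floor_diff hmono)
          by_cases hh : ⌊Zg z k0 l x / α⌋ < ⌊Zg z k0 (l + 1) x / α⌋
          · rw [if_pos hh, indicator_of_mem (show x ∈ A2 l from hh)]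
          · rw [if_neg hh, indicator_of_notMem (show x ∉ A2 l from hh)]
      _ = (⌊Zg z k0 m x / α⌋ : ℝ) - ⌊Zg z k0 k0 x / α⌋ :=
          Finset.sum_Ico_sub (fun l => (⌊Zg z k0 l x / α⌋ : ℝ)) hm
      _ ≤ _ := by
          have e0 : Zg z k0 k0 x = 0 := by simp [Zg]
          rw [e0, zero_div, Int.floor_zero, Int.cast_zero, sub_zero]
          exact Int.floor_le _
  obtain ⟨d, hd⟩ := Nat.exists_eq_add_of_le hm
  have hPP : PP b α Q k0 j0 ≤ 37 * (Q / α) ^ 2 := by
    unfold PP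
    rw [div_pow, ← mul_div_assoc]
    apply div_le_div_of_nonneg_right _ (by positivity)
    have hD : DD α (b k0 j0) ≤ 36 * α ^ 2 := by
      unfold DD
      have g1 : max (6 * α - ‖b k0 j0‖) 0 ≤ 6 * α :=
        max_le (by linarith [norm_nonneg (b k0 j0)]) (by linarith)
      have g2 : 0 ≤ max (6 * α - ‖b k0 j0‖) 0 := le_max_right _ _
      nlinarith
    have g3 : α ^ 2 ≤ Q ^ 2 := by nlinarith
    split_ifs
    · nlinarith [norm_nonneg (b k0 j0)]
    · nlinarith [norm_nonneg (b k0 j0)]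
  have hone : 1 ≤ Q / α := by rw [le_div_iff₀ hα]; linarith
  have w3 : ∫⁻ x in P, ENNReal.ofReal (NE b z α k0 m x) ≤
      ENNReal.ofReal (51 * (Q / α) ^ 2) * volume P := by
    rw [hd] at hz ⊢
    refine (int_NE h hα hQ.le hbQ d k0 j0).trans ?_
    calc ENNReal.ofReal (PP b α Q k0 j0) * volume (Ivl k0 j0) +
        ENNReal.ofReal ((2 * Q + 12 * α) / α ^ 2) *
          ∫⁻ x in Ivl k0 j0, ENNReal.ofReal (Zg z k0 (k0 + d) x)
        ≤ ENNReal.ofReal (37 * (Q / α) ^ 2) * volume P +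
          ENNReal.ofReal (14 * Q / α ^ 2) * (ENNReal.ofReal Q * volume P) := by
          gcongr
          linarith
      _ = _ := by
          rw [← mul_assoc, ← ENNReal.ofReal_mul (by positivity), ← add_mul,
            ← ENNReal.ofReal_add (by positivity) (by positivity)]
          congr 2
          field_simp
          ring
  have w4 : ∫⁻ x in P, ENNReal.ofReal (Zg z k0 m x / α) ≤
      ENNReal.ofReal ((Q / α) ^ 2) * volume P := by
    have e : ∀ x, ENNReal.ofReal (Zg z k0 m x / α) =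
        ENNReal.ofReal (1 / α) * ENNReal.ofReal (Zg z k0 m x) := by
      intro x
      rw [← ENNReal.ofReal_mul (by positivity)]
      congr 1; ring
    simp only [e]
    rw [lintegral_const_mul' _ _ ENNReal.ofReal_ne_top]
    calc _ ≤ ENNReal.ofReal (1 / α) * (ENNReal.ofReal Q * volume P) := by gcongr
      _ = ENNReal.ofReal (Q / α) * volume P := by
          rw [← mul_assoc, ← ENNReal.ofReal_mul (by positivity)]
          congr 2; ring
      _ ≤ _ := by
          gcongr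
          nlinarith
  have hfin : volume P + (∑ l ∈ Finset.Ico k0 m, volume (P ∩ A1 l) +
      ∑ l ∈ Finset.Ico k0 m, volume (P ∩ A2 l)) ≤ ENNReal.ofReal (53 * (Q / α) ^ 2) * volume P := by
    calc _ ≤ ENNReal.ofReal ((Q / α) ^ 2) * volume P + (ENNReal.ofReal (51 * (Q / α) ^ 2) * volume P +
          ENNReal.ofReal ((Q / α) ^ 2) * volume P) := by
          refine add_le_add ?_ (add_le_add (w1.trans w3) (w2.trans w4))
          nth_rewrite 1 [← one_mul (volume P)]
          gcongr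
          rw [← ENNReal.ofReal_one]
          apply ENNReal.ofReal_le_ofReal
          nlinarith
      _ = _ := by
          rw [← add_mul, ← add_mul, ← ENNReal.ofReal_add (by positivity) (by positivity),
            ← ENNReal.ofReal_add (by positivity) (by positivity)]
          congr 2
          ring
  calc volume {x ∈ P | ∃ k1 k2, k0 ≤ k1 ∧ k1 ≤ k2 ∧ k2 ≤ m ∧ Run b α k1 k2 x ∧
        300 * α * (lam + 1) + 60 * Zg z k1 k2 x < ‖Sg a b k1 k2 x‖}
      ≤ volume (P ∩ Bd k0) + (∑ l ∈ Finset.Ico k0 m, volume ((P ∩ A1 l) ∩ Bd (l + 1)) +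
          ∑ l ∈ Finset.Ico k0 m, volume ((P ∩ A2 l) ∩ Bd (l + 1))) := by
        refine (measure_mono hsub).trans ((measure_union_le _ _).trans ?_)
        refine add_le_add le_rfl ((measure_union_le _ _).trans ?_)
        exact add_le_add (measure_biUnion_finset_le _ _) (measure_biUnion_finset_le _ _)
    _ ≤ c * volume P + (∑ l ∈ Finset.Ico k0 m, c * volume (P ∩ A1 l) +
          ∑ l ∈ Finset.Ico k0 m, c * volume (P ∩ A2 l)) :=
        add_le_add (hBdv k0 j0) (add_le_add (Finset.sum_le_sum v1) (Finset.sum_le_sum v2))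
    _ = c * (volume P + (∑ l ∈ Finset.Ico k0 m, volume (P ∩ A1 l) +
          ∑ l ∈ Finset.Ico k0 m, volume (P ∩ A2 l))) := by
        rw [← Finset.mul_sum, ← Finset.mul_sum]; ring
    _ ≤ c * (ENNReal.ofReal (53 * (Q / α) ^ 2) * volume P) := mul_le_mul' le_rfl hfin
    _ ≤ _ := by
        rw [hc, ← mul_assoc, ← ENNReal.ofReal_mul (by positivity)]
        apply mul_le_mul' _ le_rfl
        apply ENNReal.ofReal_le_ofReal
        have := Real.exp_pos (-lam)
        have h9 : 0 ≤ (Q / α) ^ 2 * Real.exp (-lam) := by positivity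
        nlinarith

/-! ## the maximal function -/

open Classical in
/-- one term of the maximal function -/
def Rt (a b : ℕ → ℤ → ℂ) (z : ℕ → ℤ → ℝ) (α : ℝ) (k0 : ℕ) (p : ℕ × ℕ) (x : ℝ) : ℝ :=
  if k0 ≤ p.1 ∧ p.1 ≤ p.2 ∧ Run b α p.1 p.2 x then
    max (‖Sg a b p.1 p.2 x‖ - 60 * Zg z p.1 p.2 x) 0 else 0

theorem ne_rr (m : ℕ) : (Finset.range (m + 1) ×ˢ Finset.range (m + 1)).Nonempty :=
  ⟨(0, 0), by simp⟩

/-- **the run maximal function**: the largest excess `(|Sg| - 60 Zg)^+` over the runs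
`k0 ≤ k1 ≤ k2 ≤ m` -/
def Rg (a b : ℕ → ℤ → ℂ) (z : ℕ → ℤ → ℝ) (α : ℝ) (k0 m : ℕ) (x : ℝ) : ℝ :=
  (Finset.range (m + 1) ×ˢ Finset.range (m + 1)).sup' (ne_rr m)
    (fun p => Rt a b z α k0 p x)

theorem Rt_nonneg (a b : ℕ → ℤ → ℂ) (z : ℕ → ℤ → ℝ) (α : ℝ) (k0 : ℕ) (p : ℕ × ℕ) (x : ℝ) :
    0 ≤ Rt a b z α k0 p x := by
  classical
  unfold Rt
  split_ifs
  · exact le_max_right _ _
  · exact le_rfl

theorem Rg_nonneg (a b : ℕ → ℤ → ℂ) (z : ℕ → ℤ → ℝ) (α : ℝ) (k0 m : ℕ) (x : ℝ) :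
    0 ≤ Rg a b z α k0 m x := by
  unfold Rg
  exact (Rt_nonneg a b z α k0 (0, 0) x).trans
    (Finset.le_sup' (fun p => Rt a b z α k0 p x) (by simp : ((0, 0) : ℕ × ℕ) ∈ _))

/-- every run is bounded by the maximal function and its own exits -/
theorem le_Rg {a b : ℕ → ℤ → ℂ} {z : ℕ → ℤ → ℝ} {α : ℝ} {k0 m : ℕ} {x : ℝ} {k1 k2 : ℕ}
    (h1 : k0 ≤ k1) (h2 : k1 ≤ k2) (h3 : k2 ≤ m) (h4 : Run b α k1 k2 x) :
    ‖Sg a b k1 k2 x‖ ≤ Rg a b z α k0 m x + 60 * Zg z k1 k2 x := by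
  classical
  have hm : ((k1, k2) : ℕ × ℕ) ∈ Finset.range (m + 1) ×ˢ Finset.range (m + 1) := by
    simp only [Finset.mem_product, Finset.mem_range]
    omega
  have h5 : Rt a b z α k0 (k1, k2) x ≤ Rg a b z α k0 m x :=
    Finset.le_sup' (fun p => Rt a b z α k0 p x) hm
  have h6 : ‖Sg a b k1 k2 x‖ - 60 * Zg z k1 k2 x ≤ Rt a b z α k0 (k1, k2) x := by
    unfold Rt
    rw [if_pos ⟨h1, h2, h4⟩]
    exact le_max_left _ _
  linarith

theorem lt_Rg_iff {a b : ℕ → ℤ → ℂ} {z : ℕ → ℤ → ℝ} {α : ℝ} {k0 m : ℕ} {x t : ℝ} (ht : 0 ≤ t) :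
    t < Rg a b z α k0 m x ↔ ∃ k1 k2, k0 ≤ k1 ∧ k1 ≤ k2 ∧ k2 ≤ m ∧ Run b α k1 k2 x ∧
      t + 60 * Zg z k1 k2 x < ‖Sg a b k1 k2 x‖ := by
  classical
  unfold Rg
  rw [Finset.lt_sup'_iff]
  constructor
  · rintro ⟨⟨k1, k2⟩, hp, h⟩
    simp only [Finset.mem_product, Finset.mem_range] at hp
    unfold Rt at h
    split_ifs at h with hc
    · rw [lt_max_iff] at h
      refine ⟨k1, k2, hc.1, hc.2.1, by omega, hc.2.2, ?_⟩
      rcases h with h | h
      · simp only at h; linarith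
      · exact absurd h (not_lt.2 ht)
    · exact absurd h (not_lt.2 ht)
  · rintro ⟨k1, k2, h1, h2, h3, h4, h5⟩
    refine ⟨(k1, k2), by simp only [Finset.mem_product, Finset.mem_range]; omega, ?_⟩
    unfold Rt
    rw [if_pos ⟨h1, h2, h4⟩, lt_max_iff]
    left
    simp only
    linarith

theorem measurable_Sg (a b : ℕ → ℤ → ℂ) (k K : ℕ) : Measurable (Sg a b k K) := by
  unfold Sg
  refine Finset.measurable_sum _ fun l _ => ?_
  refine ((measurable_rad (l + 1)).complex_ofReal).mul ?_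
  unfold dx
  exact (measurable_fl_comp (l + 1) (b (l + 1))).sub (measurable_fl_comp l (a l))

theorem measurableSet_Run (b : ℕ → ℤ → ℂ) (α : ℝ) (k1 k2 : ℕ) :
    MeasurableSet {x | Run b α k1 k2 x} := by
  have : {x | Run b α k1 k2 x} = ⋂ k : ℕ, {x | k1 ≤ k → k ≤ k2 → ‖b k (fl k x)‖ ≤ 3 * α} := by
    ext x
    simp [Run]
  rw [this]
  refine MeasurableSet.iInter fun k => ?_
  by_cases h1 : k1 ≤ k
  · by_cases h2 : k ≤ k2
    · simp only [h1, h2, forall_const]
      exact measurableSet_le ((measurable_fl_comp k (fun j => ‖b k j‖))) measurable_const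
    · simp [h2]
  · simp [h1]

theorem measurable_Rt (a b : ℕ → ℤ → ℂ) (z : ℕ → ℤ → ℝ) (α : ℝ) (k0 : ℕ) (p : ℕ × ℕ) :
    Measurable (Rt a b z α k0 p) := by
  classical
  unfold Rt
  have hm : Measurable fun x => max (‖Sg a b p.1 p.2 x‖ - 60 * Zg z p.1 p.2 x) 0 :=
    (((measurable_Sg a b _ _).norm).sub ((measurable_Zg z _ _).const_mul _)).max measurable_const
  refine Measurable.ite ?_ hm measurable_const
  by_cases h1 : k0 ≤ p.1
  · by_cases h2 : p.1 ≤ p.2
    · simp only [h1, h2, true_and]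
      exact measurableSet_Run b α p.1 p.2
    · simp [h2]
  · simp [h1]

theorem measurable_Rg (a b : ℕ → ℤ → ℂ) (z : ℕ → ℤ → ℝ) (α : ℝ) (k0 m : ℕ) :
    Measurable (Rg a b z α k0 m) := by
  have h := Finset.measurable_sup' (ne_rr m)
    (f := fun p x => Rt a b z α k0 p x) fun p _ => measurable_Rt a b z α k0 p
  have e : Rg a b z α k0 m = (Finset.range (m + 1) ×ˢ Finset.range (m + 1)).sup' (ne_rr m)
      (fun p x => Rt a b z α k0 p x) := by
    funext x
    rw [Finset.sup'_apply]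
    rfl
  rw [e]; exact h

/-- tail of the maximal function -/
theorem Rg_tail {a b : ℕ → ℤ → ℂ} {z : ℕ → ℤ → ℝ} (h : Proc a b z) {α Q : ℝ} (hα : 0 < α)
    (hαQ : α ≤ Q) (hbQ : ∀ k j, ‖b k j‖ ≤ Q) {k0 m : ℕ} {j0 : ℤ}
    (hz : ∫⁻ x in Ivl k0 j0, ENNReal.ofReal (Zg z k0 m x) ≤
      ENNReal.ofReal Q * volume (Ivl k0 j0)) {lam : ℝ} (hlam : 0 ≤ lam) :
    volume {x ∈ Ivl k0 j0 | 300 * α * (lam + 1) < Rg a b z α k0 m x} ≤
      ENNReal.ofReal (400 * (Q / α) ^ 2 * Real.exp (-lam)) * volume (Ivl k0 j0) := by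
  have h1 := runs_tail h hα hαQ hbQ hz hlam
  have h2 : (0 : ℝ) ≤ 300 * α * (lam + 1) := by positivity
  simp only [lt_Rg_iff h2]
  exact h1

end Crest.Agent.R100.Run288
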