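import Crest.Agent.R100.Mom_711
import Crest.Agent.R100.Run2_288

/-!
# R100 / S0132, helper711: `RunMax` from `runs_tail` (helper288) and the mass of the exits.
-/

set_option autoImplicit false

open MeasureTheory Set
open scoped ENNReal

noncomputable section

namespace Crest.Agent.R100.UB711

open Crest.Agent.R100.Mart933 Crest.Agent.R100.Wide933 Crest.Agent.R100.Hunt933
open Crest.Agent.R100.Run288 Crest.Agent.R100.Tree711

variable {g : ℝ → ℂ} {κ : ℝ → ℕ} {M : ℝ}

/-- **B6 instantiated** -/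
theorem runMax (hg : Measurable g) (hM : ∀ x, ‖g x‖ ≤ M) (hκ : Measurable κ) {Q : ℝ}
    (hQ : ∀ k j, avN (Pb g κ k) k j ≤ Q) (k₀ m : ℕ) : RunMax 60 600 3602 2 g κ Q k₀ m := by
  have h := runMax_of_tail (g := g) (κ := κ) (C₀ := 60) (c₁ := 300) (c₂ := 400) (Q := Q) (k₀ := k₀)
    (m := m) (by norm_num) (by norm_num) (fun a ha haQ k j w _ lam hlam => by
      have h1 := runs_tail (m := m) (proc hg hM hκ w) ha haQ
        (fun k j => (norm_bb_le g κ w k j).trans (hQ k j))
        (lint_XS_le hg hM hκ k j m (hQ k j)) hlam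
      exact h1)
  have e1 : (2 : ℝ) * 300 = 600 := by norm_num
  have e2 : (2 : ℝ) + 9 * 400 = 3602 := by norm_num
  rw [e1, e2] at h
  exact h

end Crest.Agent.R100.UB711
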