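import Crest.Agent.R100.Mart_933

/-!
# R100 / S0132, helper496: block B8 of doc 1968, greedy selection of the tops (real labels)

`H k j ξ` : the label `ξ` is heavy at the dyadic node `Ivl k j`. Each set `{ξ | H k j ξ}` is bounded.
Greedily from the root down we choose finitely many tops `(k, j, w)` such that
* (SEP) two different tops with a common point `x`: `B * 2 ^ (larger generation) < |w - w'|`;
* (COV) every heavy `(node, ξ)` has a top at an ancestor node within `B * 2 ^ k` of `ξ`.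
-/

set_option autoImplicit false

open MeasureTheory Set

noncomputable section

namespace Crest.Agent.R100.Greedy496

open Crest.Agent.R100.Mart933

/-! ## maximal separated finite subsets of a bounded set -/

theorem card_sep_le {C : Set ℝ} {M s : ℝ} (hs : 0 < s) (hM : ∀ θ ∈ C, |θ| ≤ M) {N : Finset ℝ}
    (hN : ∀ θ ∈ N, θ ∈ C) (hsep : ∀ θ ∈ N, ∀ θ' ∈ N, θ ≠ θ' → s < |θ' - θ|) :
    N.card ≤ (⌊M / s⌋ - ⌊-M / s⌋ + 1).toNat := by
  classical
  have hmap : ∀ θ ∈ N, ⌊θ / s⌋ ∈ Finset.Icc ⌊-M / s⌋ ⌊M / s⌋ := by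
    intro θ hθ
    have h := abs_le.mp (hM θ (hN θ hθ))
    rw [Finset.mem_Icc]
    exact ⟨Int.floor_le_floor (by gcongr; exact h.1), Int.floor_le_floor (by gcongr; exact h.2)⟩
  have hinj : Set.InjOn (fun θ : ℝ => ⌊θ / s⌋) (N : Set ℝ) := by
    intro θ hθ θ' hθ' heq
    by_contra hne
    have h1 := hsep θ hθ θ' hθ' hne
    have heq' : ⌊θ / s⌋ = ⌊θ' / s⌋ := heq
    have h2 := Int.abs_sub_lt_one_of_floor_eq_floor heq'
    rw [← sub_div, abs_div, abs_of_pos hs, div_lt_one hs, abs_sub_comm] at h2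
    linarith
  have := Finset.card_le_card_of_injOn (fun θ : ℝ => ⌊θ / s⌋) hmap hinj
  rw [Int.card_Icc] at this
  refine this.trans (le_of_eq ?_)
  congr 1
  ring

/-- a maximal `s`-separated finite subset of a bounded set -/
theorem exists_net (C : Set ℝ) (hC : Bornology.IsBounded C) {s : ℝ} (hs : 0 < s) :
    ∃ N : Finset ℝ, (∀ θ ∈ N, θ ∈ C) ∧ (∀ θ ∈ N, ∀ θ' ∈ N, θ ≠ θ' → s < |θ' - θ|) ∧
      ∀ θ ∈ C, ∃ θ' ∈ N, |θ - θ'| ≤ s := by
  classical
  obtain ⟨M, hM⟩ := hC.exists_norm_le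
  set P : ℕ → Prop := fun c => ∃ N : Finset ℝ, N.card = c ∧ (∀ θ ∈ N, θ ∈ C) ∧
    ∀ θ ∈ N, ∀ θ' ∈ N, θ ≠ θ' → s < |θ' - θ| with hP
  set b : ℕ := (⌊M / s⌋ - ⌊-M / s⌋ + 1).toNat with hb
  have hP0 : P 0 := ⟨∅, by simp⟩
  have hbd : ∀ c, P c → c ≤ b := by
    rintro c ⟨N, rfl, h1, h2⟩
    exact card_sep_le hs (fun θ hθ => hM θ hθ) h1 h2
  have hm := Nat.findGreatest_spec (P := P) (Nat.zero_le b) hP0
  obtain ⟨N, hc, h1, h2⟩ := hm
  refine ⟨N, h1, h2, ?_⟩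
  intro θ hθ
  by_contra hcon
  push Not at hcon
  have hnot : θ ∉ N := by
    intro h
    have := hcon θ h
    rw [sub_self, abs_zero] at this
    linarith
  have hP1 : P (N.card + 1) := by
    refine ⟨insert θ N, Finset.card_insert_of_notMem hnot, ?_, ?_⟩
    · intro a ha
      rcases Finset.mem_insert.mp ha with rfl | ha
      · exact hθ
      · exact h1 a ha
    · intro a ha a' ha' hne
      rcases Finset.mem_insert.mp ha with h | h <;>
        rcases Finset.mem_insert.mp ha' with h' | h'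
      · exact absurd (h.trans h'.symm) hne
      · rw [h, abs_sub_comm]; exact hcon a' h'
      · rw [h']; exact hcon a h
      · exact h2 a h a' h' hne
  have h3 := Nat.le_findGreatest (hbd _ hP1) hP1
  rw [← hc] at h3
  omega

open Classical in
/-- the chosen net of a set (empty if the set is unbounded) -/
def net (C : Set ℝ) (s : ℝ) : Finset ℝ :=
  if h : Bornology.IsBounded C ∧ 0 < s then Classical.choose (exists_net C h.1 h.2) else ∅

theorem net_spec {C : Set ℝ} {s : ℝ} (hC : Bornology.IsBounded C) (hs : 0 < s) :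
    (∀ θ ∈ net C s, θ ∈ C) ∧ (∀ θ ∈ net C s, ∀ θ' ∈ net C s, θ ≠ θ' → s < |θ' - θ|) ∧
      ∀ θ ∈ C, ∃ θ' ∈ net C s, |θ - θ'| ≤ s := by
  unfold net
  rw [dif_pos ⟨hC, hs⟩]
  exact Classical.choose_spec (exists_net C hC hs)

/-! ## selection -/

/-- candidates at a node: heavy labels far from the frequencies in `A` -/
def cnd (H : ℕ → ℤ → ℝ → Prop) (B : ℝ) (k : ℕ) (j : ℤ) (A : Finset ℝ) : Set ℝ :=
  {θ | H k j θ ∧ ∀ θ' ∈ A, B * 2 ^ k < |θ - θ'|}

open Classical in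
/-- `up d j`: frequencies of the tops above (or at) the node `Ivl (k0 + d) j`, selection started at
generation `k0` -/
def up (H : ℕ → ℤ → ℝ → Prop) (B : ℝ) (k0 : ℕ) : ℕ → ℤ → Finset ℝ
  | 0, j => net (cnd H B k0 j ∅) (B * 2 ^ k0)
  | d + 1, j => up H B k0 d (j / 2) ∪
      net (cnd H B (k0 + (d + 1)) j (up H B k0 d (j / 2))) (B * 2 ^ (k0 + (d + 1)))

/-- frequencies of the tops strictly above a node -/
def par (H : ℕ → ℤ → ℝ → Prop) (B : ℝ) (k0 : ℕ) : ℕ → ℤ → Finset ℝ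
  | 0, _ => ∅
  | d + 1, j => up H B k0 d (j / 2)

/-- frequencies of the tops at a node -/
def nw (H : ℕ → ℤ → ℝ → Prop) (B : ℝ) (k0 d : ℕ) (j : ℤ) : Finset ℝ :=
  net (cnd H B (k0 + d) j (par H B k0 d j)) (B * 2 ^ (k0 + d))

variable {H : ℕ → ℤ → ℝ → Prop} {B : ℝ} {k0 : ℕ}

open Classical in
theorem up_eq (d : ℕ) (j : ℤ) : up H B k0 d j = par H B k0 d j ∪ nw H B k0 d j := by
  cases d with
  | zero => simp [up, par, nw]
  | succ d => rfl

theorem bdd_cnd (hH : ∀ k j, Bornology.IsBounded {ξ | H k j ξ}) (k : ℕ) (j : ℤ) (A : Finset ℝ) :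
    Bornology.IsBounded (cnd H B k j A) :=
  (hH k j).subset fun _ h => h.1

theorem mem_nw (hH : ∀ k j, Bornology.IsBounded {ξ | H k j ξ}) (hB : 0 < B) {d : ℕ} {j : ℤ} {θ : ℝ}
    (h : θ ∈ nw H B k0 d j) :
    H (k0 + d) j θ ∧ ∀ θ' ∈ par H B k0 d j, B * 2 ^ (k0 + d) < |θ - θ'| :=
  (net_spec (bdd_cnd hH _ _ _) (by positivity)).1 θ h

theorem sep_nw (hH : ∀ k j, Bornology.IsBounded {ξ | H k j ξ}) (hB : 0 < B) (d : ℕ) (j : ℤ) :
    ∀ θ ∈ nw H B k0 d j, ∀ θ' ∈ nw H B k0 d j, θ ≠ θ' → B * 2 ^ (k0 + d) < |θ' - θ| :=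
  (net_spec (bdd_cnd hH _ _ _) (by positivity)).2.1

/-- covering -/
theorem exhaust (hH : ∀ k j, Bornology.IsBounded {ξ | H k j ξ}) (hB : 0 < B) {d : ℕ} {j : ℤ}
    {θ : ℝ} (hθ : H (k0 + d) j θ) : ∃ θ' ∈ up H B k0 d j, |θ - θ'| ≤ B * 2 ^ (k0 + d) := by
  classical
  by_cases hA : ∀ θ' ∈ par H B k0 d j, B * 2 ^ (k0 + d) < |θ - θ'|
  · obtain ⟨θ', h1, h2⟩ := (net_spec (bdd_cnd (B := B) hH (k0 + d) j (par H B k0 d j))
      (s := B * 2 ^ (k0 + d)) (by positivity)).2.2 θ ⟨hθ, hA⟩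
    refine ⟨θ', ?_, h2⟩
    rw [up_eq, Finset.mem_union]
    exact Or.inr h1
  · push Not at hA
    obtain ⟨θ', h1, h2⟩ := hA
    refine ⟨θ', ?_, h2⟩
    rw [up_eq, Finset.mem_union]
    exact Or.inl h1

theorem up_mono_fl {d e : ℕ} (h : d ≤ e) (x : ℝ) :
    up H B k0 d (fl (k0 + d) x) ⊆ up H B k0 e (fl (k0 + e) x) := by
  classical
  induction e, h using Nat.le_induction with
  | base => exact subset_rfl
  | succ e _ ih =>
    refine ih.trans ?_
    rw [fl_half (k0 + e) x, up_eq (e + 1)]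
    exact Finset.subset_union_left

/-- every element of `up` comes from a top at some ancestor -/
theorem exists_nw {d : ℕ} {x : ℝ} {θ : ℝ} (h : θ ∈ up H B k0 d (fl (k0 + d) x)) :
    ∃ e ≤ d, θ ∈ nw H B k0 e (fl (k0 + e) x) := by
  classical
  induction d with
  | zero =>
    rw [up_eq, Finset.mem_union] at h
    rcases h with h | h
    · simp [par] at h
    · exact ⟨0, le_rfl, h⟩
  | succ d ih =>
    rw [up_eq, Finset.mem_union] at h
    rcases h with h | h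
    · simp only [par] at h
      have e1 : fl (k0 + (d + 1)) x / 2 = fl (k0 + d) x := (fl_half (k0 + d) x).symm
      rw [e1] at h
      obtain ⟨l, hl, h'⟩ := ih h
      exact ⟨l, by omega, h'⟩
    · exact ⟨d + 1, le_rfl, h⟩

theorem nw_sub_up {d : ℕ} {x : ℝ} : nw H B k0 d (fl (k0 + d) x) ⊆ up H B k0 d (fl (k0 + d) x) := by
  classical
  rw [up_eq]
  exact Finset.subset_union_right

/-- **(SEP)** two tops above a common point -/
theorem sep (hH : ∀ k j, Bornology.IsBounded {ξ | H k j ξ}) (hB : 0 < B) {d e : ℕ} (hde : d ≤ e)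
    {x w w' : ℝ} (hw : w ∈ nw H B k0 d (fl (k0 + d) x)) (hw' : w' ∈ nw H B k0 e (fl (k0 + e) x))
    (hne : (d, w) ≠ (e, w')) : B * 2 ^ (k0 + e) < |w - w'| := by
  rcases eq_or_lt_of_le hde with rfl | hlt
  · have hww : w ≠ w' := fun h => hne (by rw [h])
    rw [abs_sub_comm]
    exact sep_nw hH hB d _ w hw w' hw' hww
  · obtain ⟨e', rfl⟩ : ∃ e', e = e' + 1 := ⟨e - 1, by omega⟩
    have h1 := (mem_nw hH hB hw').2 w (by
      simp only [par]
      have e1 : fl (k0 + (e' + 1)) x / 2 = fl (k0 + e') x := (fl_half (k0 + e') x).symm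
      rw [e1]
      exact up_mono_fl (by omega) x (nw_sub_up hw))
    rw [abs_sub_comm]
    exact h1

/-! ## descendants of a node -/

/-- indices of the descendants, `d` generations below, of the node with index `j0` -/
def desc (j0 : ℤ) (d : ℕ) : Finset ℤ := Finset.Ico (j0 * 2 ^ d) ((j0 + 1) * 2 ^ d)

theorem fl_div_pow (k d : ℕ) (x : ℝ) : fl (k + d) x / 2 ^ d = fl k x := by
  induction d with
  | zero => simp
  | succ d ih =>
    rw [← ih, fl_half (k + d) x, pow_succ, mul_comm (2 ^ d) (2 : ℤ),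
      ← Int.ediv_ediv_of_nonneg (by norm_num)]
    rfl

theorem mem_desc {k d : ℕ} {j0 : ℤ} {x : ℝ} : fl (k + d) x ∈ desc j0 d ↔ x ∈ Ivl k j0 := by
  rw [mem_Ivl, ← fl_div_pow k d x, desc, Finset.mem_Ico]
  have h2 : (0 : ℤ) < 2 ^ d := by positivity
  constructor
  · rintro ⟨h1, h3⟩
    apply le_antisymm
    · exact Int.lt_add_one_iff.mp ((Int.ediv_lt_iff_lt_mul h2).mpr h3)
    · exact (Int.le_ediv_iff_mul_le h2).mpr h1
  · intro h
    rw [← h]
    exact ⟨(Int.ediv_mul_le _ h2.ne'), Int.lt_ediv_add_one_mul_self _ h2⟩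

/-! ## final statement -/

/-- **Greedy tops** (block B8 of doc 1968). A top is a triple `(k, j, w)`. -/
theorem greedy (H : ℕ → ℤ → ℝ → Prop) (hH : ∀ k j, Bornology.IsBounded {ξ | H k j ξ}) (B : ℝ)
    (hB : 0 < B) (k0 K : ℕ) (j0 : ℤ) :
    ∃ TT : Finset (ℕ × ℤ × ℝ),
      (∀ T ∈ TT, k0 ≤ T.1 ∧ T.1 ≤ K ∧ Ivl T.1 T.2.1 ⊆ Ivl k0 j0 ∧ H T.1 T.2.1 T.2.2) ∧
      (∀ T ∈ TT, ∀ T' ∈ TT, T ≠ T' → T.1 ≤ T'.1 → ∀ x, x ∈ Ivl T.1 T.2.1 → x ∈ Ivl T'.1 T'.2.1 →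
        B * 2 ^ T'.1 < |T.2.2 - T'.2.2|) ∧
      (∀ x ∈ Ivl k0 j0, ∀ k, k0 ≤ k → k ≤ K → ∀ ξ, H k (fl k x) ξ →
        ∃ T ∈ TT, T.1 ≤ k ∧ x ∈ Ivl T.1 T.2.1 ∧ |ξ - T.2.2| ≤ B * 2 ^ k) := by
  classical
  set TT : Finset (ℕ × ℤ × ℝ) := (Finset.range (K + 1 - k0)).biUnion fun d =>
    (desc j0 d).biUnion fun j => (nw H B k0 d j).image fun w => (k0 + d, j, w) with hTT
  have hmem : ∀ T : ℕ × ℤ × ℝ, T ∈ TT ↔ ∃ d, d < K + 1 - k0 ∧ ∃ j ∈ desc j0 d, ∃ w ∈ nw H B k0 d j,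
      (k0 + d, j, w) = T := by
    intro T
    rw [hTT]
    simp only [Finset.mem_biUnion, Finset.mem_image, Finset.mem_range]
  have hnode : ∀ (d : ℕ) (j : ℤ), j ∈ desc j0 d → Ivl (k0 + d) j ⊆ Ivl k0 j0 := by
    intro d j hj x hx
    rw [mem_Ivl] at hx
    rw [← mem_desc (d := d), hx]
    exact hj
  refine ⟨TT, ?_, ?_, ?_⟩
  · intro T hT
    obtain ⟨d, hd, j, hj, w, hw, rfl⟩ := (hmem T).mp hT
    exact ⟨by simp, by simp; omega, hnode d j hj, (mem_nw hH hB hw).1⟩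
  · intro T hT T' hT' hne hle x hx hx'
    obtain ⟨d, hd, j, hj, w, hw, rfl⟩ := (hmem T).mp hT
    obtain ⟨e, he, i, hi, w', hw', rfl⟩ := (hmem T').mp hT'
    simp only at hle hx hx' ⊢
    rw [mem_Ivl] at hx hx'
    subst hx hx'
    refine sep hH hB (by omega) hw hw' ?_
    intro h
    apply hne
    rw [Prod.mk.injEq] at h
    obtain ⟨h1, h2⟩ := h
    subst h1 h2
    rfl
  · intro x hx k hk0 hkK ξ hξ
    obtain ⟨d, rfl⟩ : ∃ d, k = k0 + d := ⟨k - k0, by omega⟩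
    obtain ⟨w, hw, hclose⟩ := exhaust (k0 := k0) hH hB hξ
    obtain ⟨e, he, hwe⟩ := exists_nw hw
    refine ⟨(k0 + e, fl (k0 + e) x, w), ?_, by simp; omega, ?_, hclose⟩
    · rw [hmem]
      exact ⟨e, by omega, fl (k0 + e) x, mem_desc.mpr hx, w, hwe, rfl⟩
    · exact mem_Ivl.mpr rfl

end Crest.Agent.R100.Greedy496
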