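import Crest.Agent.R100.Mart_933

/-!
# R100 / S0132, helper933: wide tops (helper496's argument (W), doc 1106)

For a bounded `f`, a threshold `δ`, a finite set of frequencies `Θ` and a count `B`, we select a
family of "tops" (dyadic interval, frequency) such that: at most `B` tops above each point, the total
length of the tops is `≤ 2 δ⁻² ∫ |f|²`, and on the intervals with fewer than `B` tops above them
every heavy frequency is within `B / |I|` of a top.
-/

set_option autoImplicit false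

open MeasureTheory Set
open scoped ENNReal

noncomputable section

namespace Crest.Agent.R100.Wide933

open Crest.Agent.R100.Mart933

/-! ## characters and coefficients -/

/-- `e θ y = exp (2 π i θ y)` -/
def e (θ y : ℝ) : ℂ := Complex.exp (((2 * Real.pi * (θ * y) : ℝ) : ℂ) * Complex.I)

@[simp] theorem norm_e (θ y : ℝ) : ‖e θ y‖ = 1 := Complex.norm_exp_ofReal_mul_I _

theorem e_add (θ θ' y : ℝ) : e (θ + θ') y = e θ y * e θ' y := by
  unfold e
  rw [← Complex.exp_add]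
  congr 1
  push_cast
  ring

theorem conj_e (θ y : ℝ) : (starRingEnd ℂ) (e θ y) = e (-θ) y := by
  unfold e
  rw [← Complex.exp_conj]
  congr 1
  rw [map_mul, Complex.conj_ofReal, Complex.conj_I]
  push_cast
  ring

@[fun_prop] theorem measurable_e (θ : ℝ) : Measurable (e θ) := by
  unfold e
  fun_prop

@[fun_prop] theorem continuous_e (θ : ℝ) : Continuous (e θ) := by
  unfold e
  fun_prop

theorem intOn {E : Type*} [NormedAddCommGroup E] [MeasurableSpace E] [BorelSpace E]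
    [SecondCountableTopology E] (k : ℕ) (j : ℤ) {F : ℝ → E} (hF : Measurable F) {M : ℝ}
    (hM : ∀ x, ‖F x‖ ≤ M) : IntegrableOn F (Ivl k j) := by
  apply Measure.integrableOn_of_bounded (M := M)
  · rw [volume_Ivl]; exact ENNReal.ofReal_ne_top
  · exact hF.aestronglyMeasurable
  · exact Filter.Eventually.of_forall hM

theorem integral_Ivl {E : Type*} [NormedAddCommGroup E] [NormedSpace ℝ E]
    {F : ℝ → E} (hF : ∀ k j, IntegrableOn F (Ivl k j)) (k : ℕ) (j : ℤ) :
    ∫ x in Ivl k j, F x = (∫ x in Ivl (k + 1) (2 * j), F x) +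
      ∫ x in Ivl (k + 1) (2 * j + 1), F x := by
  rw [Ivl_split, setIntegral_union (Ivl_disj _ _) (measurableSet_Ivl _ _) (hF _ _) (hF _ _)]

theorem volume_real_Ivl (k : ℕ) (j : ℤ) : volume.real (Ivl k j) = 1 / 2 ^ k := by
  rw [Measure.real, volume_Ivl, ENNReal.toReal_ofReal (by positivity)]

/-- local Fourier coefficient -/
def coef (f : ℝ → ℂ) (θ : ℝ) (k : ℕ) (j : ℤ) : ℂ := (2 : ℂ) ^ k * ∫ y in Ivl k j, f y * e (-θ) y

/-- local average of `|f|` -/
def avN (f : ℝ → ℂ) (k : ℕ) (j : ℤ) : ℝ := 2 ^ k * ∫ y in Ivl k j, ‖f y‖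

theorem integrable_fe {f : ℝ → ℂ} (hf : Measurable f) {M : ℝ} (hM : ∀ x, ‖f x‖ ≤ M) (θ : ℝ)
    (k : ℕ) (j : ℤ) : IntegrableOn (fun y => f y * e θ y) (Ivl k j) := by
  apply intOn k j (hf.mul (measurable_e θ)) (M := M)
  intro x
  change ‖f x * e θ x‖ ≤ M
  rw [norm_mul, norm_e, mul_one]
  exact hM x

theorem isMart_coef {f : ℝ → ℂ} (hf : Measurable f) {M : ℝ} (hM : ∀ x, ‖f x‖ ≤ M) (θ : ℝ) :
    IsMart (coef f θ) := by
  intro k j
  unfold coef
  rw [integral_Ivl (fun k j => integrable_fe hf hM (-θ) k j) k j]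
  ring

theorem avN_split {f : ℝ → ℂ} (hf : Measurable f) {M : ℝ} (hM : ∀ x, ‖f x‖ ≤ M) (k : ℕ) (j : ℤ) :
    avN f k j = (avN f (k + 1) (2 * j) + avN f (k + 1) (2 * j + 1)) / 2 := by
  unfold avN
  rw [integral_Ivl (fun k j => intOn k j hf.norm (M := M) (fun x => by simpa using hM x)) k j]
  ring

theorem avN_nonneg (f : ℝ → ℂ) (k : ℕ) (j : ℤ) : 0 ≤ avN f k j := by
  unfold avN
  exact mul_nonneg (by positivity) (integral_nonneg fun x => norm_nonneg _)

theorem norm_coef_le (f : ℝ → ℂ) (θ : ℝ) (k : ℕ) (j : ℤ) : ‖coef f θ k j‖ ≤ avN f k j := by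
  unfold coef avN
  rw [norm_mul, norm_pow]
  simp only [Complex.norm_ofNat]
  gcongr
  refine (norm_integral_le_integral_norm _).trans (le_of_eq ?_)
  congr 1
  ext x
  simp

/-! ## oscillatory integrals -/

theorem norm_integral_e_le {u : ℝ} (hu : u ≠ 0) (k : ℕ) (j : ℤ) :
    ‖∫ x in Ivl k j, e u x‖ ≤ 1 / (Real.pi * |u|) := by
  have hle : (j : ℝ) / 2 ^ k ≤ ((j : ℝ) + 1) / 2 ^ k := by
    gcongr
    linarith
  unfold Ivl
  rw [integral_Ico_eq_integral_Ioo, ← integral_Ioc_eq_integral_Ioo,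
    ← intervalIntegral.integral_of_le hle]
  set c : ℂ := ((2 * Real.pi * u : ℝ) : ℂ) * Complex.I with hc
  have hc0 : c ≠ 0 := by
    rw [hc]
    apply mul_ne_zero _ Complex.I_ne_zero
    rw [Complex.ofReal_ne_zero]
    have := Real.pi_ne_zero
    positivity
  have he : ∀ x : ℝ, e u x = Complex.exp (c * x) := by
    intro x
    unfold e
    congr 1
    rw [hc]; push_cast; ring
  have h1 : (∫ x in ((j : ℝ) / 2 ^ k)..(((j : ℝ) + 1) / 2 ^ k), e u x) =
      (Complex.exp (c * (((j : ℝ) + 1) / 2 ^ k : ℝ)) - Complex.exp (c * ((j : ℝ) / 2 ^ k : ℝ))) / c := by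
    rw [← integral_exp_mul_complex hc0]
    exact intervalIntegral.integral_congr fun x _ => he x
  rw [h1, norm_div]
  have hn : ‖c‖ = 2 * Real.pi * |u| := by
    rw [hc, norm_mul, Complex.norm_I, mul_one, Complex.norm_real, Real.norm_eq_abs, abs_mul,
      abs_of_pos (by positivity : (0 : ℝ) < 2 * Real.pi)]
  have h2 : ‖Complex.exp (c * (((j : ℝ) + 1) / 2 ^ k : ℝ)) -
      Complex.exp (c * ((j : ℝ) / 2 ^ k : ℝ))‖ ≤ 2 := by
    refine (norm_sub_le _ _).trans ?_
    rw [← he, ← he]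
    simp
    norm_num
  rw [hn]
  have hu' : 0 < |u| := abs_pos.2 hu
  have hpi := Real.pi_pos
  calc _ ≤ 2 / (2 * Real.pi * |u|) := by gcongr
    _ = 1 / (Real.pi * |u|) := by field_simp

/-! ## exponential sums -/

/-- exponential sum -/
def xs (A : Finset ℝ) (c : ℝ → ℂ) (x : ℝ) : ℂ := ∑ θ ∈ A, c θ * e θ x

theorem measurable_xs (A : Finset ℝ) (c : ℝ → ℂ) : Measurable (xs A c) := by
  unfold xs
  fun_prop

theorem norm_xs_le (A : Finset ℝ) {c : ℝ → ℂ} (hc : ∀ θ, ‖c θ‖ ≤ 1) (x : ℝ) :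
    ‖xs A c x‖ ≤ A.card := by
  unfold xs
  refine (norm_sum_le _ _).trans ?_
  calc ∑ θ ∈ A, ‖c θ * e θ x‖ ≤ ∑ _θ ∈ A, (1 : ℝ) := by
        refine Finset.sum_le_sum fun θ _ => ?_
        rw [norm_mul, norm_e, mul_one]
        exact hc θ
    _ = A.card := by simp

theorem integrable_xs_mul (A N : Finset ℝ) {c c' : ℝ → ℂ} (hc : ∀ θ, ‖c θ‖ ≤ 1)
    (hc' : ∀ θ, ‖c' θ‖ ≤ 1) (k : ℕ) (j : ℤ) :
    IntegrableOn (fun x => (starRingEnd ℂ) (xs A c x) * xs N c' x) (Ivl k j) := by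
  apply intOn k j (M := A.card * N.card)
  · exact (Complex.continuous_conj.measurable.comp (measurable_xs A c)).mul (measurable_xs N c')
  · intro x
    rw [norm_mul, RCLike.norm_conj]
    exact mul_le_mul (norm_xs_le A hc x) (norm_xs_le N hc' x) (norm_nonneg _) (by positivity)

/-- expansion of the integral of a product of two exponential sums -/
theorem integral_xs_mul (A N : Finset ℝ) (c c' : ℝ → ℂ) (k : ℕ) (j : ℤ) :
    ∫ x in Ivl k j, (starRingEnd ℂ) (xs A c x) * xs N c' x =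
      ∑ θ ∈ A, ∑ θ' ∈ N, (starRingEnd ℂ) (c θ) * c' θ' * ∫ x in Ivl k j, e (θ' - θ) x := by
  have h1 : ∀ x, (starRingEnd ℂ) (xs A c x) * xs N c' x =
      ∑ θ ∈ A, ∑ θ' ∈ N, (starRingEnd ℂ) (c θ) * c' θ' * e (θ' - θ) x := by
    intro x
    unfold xs
    rw [map_sum, Finset.sum_mul]
    refine Finset.sum_congr rfl fun θ _ => ?_
    rw [Finset.mul_sum]
    refine Finset.sum_congr rfl fun θ' _ => ?_
    rw [map_mul, conj_e, sub_eq_add_neg, e_add]
    ring
  simp_rw [h1]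
  have hi : ∀ u : ℝ, ∀ z : ℂ, Integrable (fun x => z * e u x) (volume.restrict (Ivl k j)) := by
    intro u z
    exact intOn k j (by fun_prop) (M := ‖z‖) (fun x => by simp)
  rw [integral_finsetSum _ (fun θ _ => integrable_finsetSum _ fun θ' _ => hi _ _)]
  refine Finset.sum_congr rfl fun θ _ => ?_
  rw [integral_finsetSum _ (fun θ' _ => hi _ _)]
  refine Finset.sum_congr rfl fun θ' _ => ?_
  rw [integral_const_mul]

/-- separated sets of frequencies are almost orthogonal -/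
theorem norm_cross_le (A N : Finset ℝ) {c c' : ℝ → ℂ} (hc : ∀ θ, ‖c θ‖ ≤ 1)
    (hc' : ∀ θ, ‖c' θ‖ ≤ 1) {B : ℝ} (hB : 0 < B) (k : ℕ) (j : ℤ)
    (hsep : ∀ θ ∈ A, ∀ θ' ∈ N, B * 2 ^ k < |θ' - θ|) :
    ‖∫ x in Ivl k j, (starRingEnd ℂ) (xs A c x) * xs N c' x‖ ≤
      A.card * N.card * (1 / (Real.pi * B) / 2 ^ k) := by
  rw [integral_xs_mul]
  refine (norm_sum_le _ _).trans ?_
  have : ∀ θ ∈ A, ‖∑ θ' ∈ N, (starRingEnd ℂ) (c θ) * c' θ' * ∫ x in Ivl k j, e (θ' - θ) x‖ ≤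
      N.card * (1 / (Real.pi * B) / 2 ^ k) := by
    intro θ hθ
    refine (norm_sum_le _ _).trans ?_
    have h2 : ∀ θ' ∈ N, ‖(starRingEnd ℂ) (c θ) * c' θ' * ∫ x in Ivl k j, e (θ' - θ) x‖ ≤
        1 / (Real.pi * B) / 2 ^ k := by
      intro θ' hθ'
      have hs := hsep θ hθ θ' hθ'
      have hBk : 0 < B * 2 ^ k := by positivity
      have hne : θ' - θ ≠ 0 := by
        intro h
        rw [h, abs_zero] at hs
        linarith
      have hi := norm_integral_e_le hne k j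
      rw [norm_mul, norm_mul, RCLike.norm_conj]
      have h3 : ‖c θ‖ * ‖c' θ'‖ ≤ 1 := by
        have := mul_le_mul (hc θ) (hc' θ') (norm_nonneg _) zero_le_one
        simpa using this
      calc ‖c θ‖ * ‖c' θ'‖ * ‖∫ x in Ivl k j, e (θ' - θ) x‖
          ≤ 1 * (1 / (Real.pi * |θ' - θ|)) :=
            mul_le_mul h3 hi (norm_nonneg _) zero_le_one
        _ ≤ 1 / (Real.pi * (B * 2 ^ k)) := by
            rw [one_mul]
            have := Real.pi_pos
            gcongr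
        _ = 1 / (Real.pi * B) / 2 ^ k := by
            rw [div_div]; congr 1; ring
    calc _ ≤ ∑ _θ' ∈ N, 1 / (Real.pi * B) / 2 ^ k := Finset.sum_le_sum h2
      _ = _ := by simp
  calc _ ≤ ∑ _θ ∈ A, N.card * (1 / (Real.pi * B) / 2 ^ k) := Finset.sum_le_sum this
    _ = _ := by simp; ring

/-- `L²` norm of a separated exponential sum -/
theorem norm_self_le (N : Finset ℝ) {c : ℝ → ℂ} (hc : ∀ θ, ‖c θ‖ ≤ 1) {B : ℝ} (hB : 0 < B)
    (k : ℕ) (j : ℤ) (hsep : ∀ θ ∈ N, ∀ θ' ∈ N, θ ≠ θ' → B * 2 ^ k < |θ' - θ|) :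
    ‖∫ x in Ivl k j, (starRingEnd ℂ) (xs N c x) * xs N c x‖ ≤
      N.card * (1 / 2 ^ k) + N.card * N.card * (1 / (Real.pi * B) / 2 ^ k) := by
  rw [integral_xs_mul]
  refine (norm_sum_le _ _).trans ?_
  have hpos : 0 ≤ 1 / (Real.pi * B) / 2 ^ k := by
    have := Real.pi_pos
    positivity
  have : ∀ θ ∈ N, ‖∑ θ' ∈ N, (starRingEnd ℂ) (c θ) * c θ' * ∫ x in Ivl k j, e (θ' - θ) x‖ ≤
      1 / 2 ^ k + N.card * (1 / (Real.pi * B) / 2 ^ k) := by
    intro θ hθ
    refine (norm_sum_le _ _).trans ?_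
    have h2 : ∀ θ' ∈ N, ‖(starRingEnd ℂ) (c θ) * c θ' * ∫ x in Ivl k j, e (θ' - θ) x‖ ≤
        (if θ' = θ then 1 / 2 ^ k else 0) + 1 / (Real.pi * B) / 2 ^ k := by
      intro θ' hθ'
      rw [norm_mul, norm_mul, RCLike.norm_conj]
      have h3 : ‖c θ‖ * ‖c θ'‖ ≤ 1 := by
        have := mul_le_mul (hc θ) (hc θ') (norm_nonneg _) zero_le_one
        simpa using this
      by_cases hθθ : θ' = θ
      · rw [if_pos hθθ]
        have h4 : ‖∫ x in Ivl k j, e (θ' - θ) x‖ ≤ 1 / 2 ^ k := by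
          refine (norm_setIntegral_le_of_norm_le_const (C := 1) ?_ ?_).trans ?_
          · rw [volume_Ivl]; exact ENNReal.ofReal_lt_top
          · intro x _
            simp
          · rw [volume_real_Ivl]; simp
        have h5 : ‖c θ‖ * ‖c θ'‖ * ‖∫ x in Ivl k j, e (θ' - θ) x‖ ≤ 1 * (1 / 2 ^ k) :=
          mul_le_mul h3 h4 (norm_nonneg _) zero_le_one
        linarith
      · rw [if_neg hθθ, zero_add]
        have hs := hsep θ hθ θ' hθ' (Ne.symm hθθ)
        have hBk : 0 < B * 2 ^ k := by positivity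
        have hne : θ' - θ ≠ 0 := sub_ne_zero.2 hθθ
        have hi := norm_integral_e_le hne k j
        calc ‖c θ‖ * ‖c θ'‖ * ‖∫ x in Ivl k j, e (θ' - θ) x‖
            ≤ 1 * (1 / (Real.pi * |θ' - θ|)) :=
              mul_le_mul h3 hi (norm_nonneg _) zero_le_one
          _ ≤ 1 / (Real.pi * (B * 2 ^ k)) := by
              rw [one_mul]
              have := Real.pi_pos
              gcongr
          _ = 1 / (Real.pi * B) / 2 ^ k := by
              rw [div_div]; congr 1; ring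
    calc _ ≤ ∑ θ' ∈ N, ((if θ' = θ then 1 / 2 ^ k else 0) + 1 / (Real.pi * B) / 2 ^ k) :=
          Finset.sum_le_sum h2
      _ = _ := by
          rw [Finset.sum_add_distrib, Finset.sum_ite_eq' N θ]
          simp [hθ]
  calc _ ≤ ∑ _θ ∈ N, (1 / 2 ^ k + N.card * (1 / (Real.pi * B) / 2 ^ k)) := Finset.sum_le_sum this
    _ = _ := by simp; ring

end Crest.Agent.R100.Wide933
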