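import Mathlib.Analysis.Fourier.RiemannLebesgueLemma
import Crest.Agent.R100.Wide_933
import Crest.Agent.R100.Greedy_496

/-!
# R100 / S0132, helper496: the labels heavy at a node form a bounded set (Riemann–Lebesgue)
-/

set_option autoImplicit false

open MeasureTheory Set Filter Topology
open scoped Real FourierTransform

noncomputable section

namespace Crest.Agent.R100.Greedy496

open Crest.Agent.R100.Mart933 Crest.Agent.R100.Wide933

theorem e_neg_eq (θ y : ℝ) : e (-θ) y = ((𝐞 (-(y * θ)) : Circle) : ℂ) := by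
  unfold e
  rw [Real.fourierChar_apply]
  congr 1
  push_cast
  ring

/-- the coefficient at a node tends to `0` when the label goes to infinity (no hypothesis on `g`) -/
theorem tendsto_coef (g : ℝ → ℂ) (k : ℕ) (j : ℤ) :
    Tendsto (fun θ => coef g θ k j) (cocompact ℝ) (𝓝 0) := by
  have h := Real.tendsto_integral_exp_smul_cocompact ((Ivl k j).indicator g)
  have h2 := h.const_mul ((2 : ℂ) ^ k)
  rw [mul_zero] at h2
  refine h2.congr fun θ => ?_
  unfold coef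
  congr 1
  rw [← integral_indicator (measurableSet_Ivl k j)]
  congr 1
  funext y
  by_cases hy : y ∈ Ivl k j
  · rw [indicator_of_mem hy, indicator_of_mem hy, e_neg_eq, Circle.smul_def, smul_eq_mul, mul_comm]
  · rw [indicator_of_notMem hy, indicator_of_notMem hy, smul_zero]

/-- **bounded heavy set** -/
theorem bdd_heavy (g : ℝ → ℂ) {a : ℝ} (ha : 0 < a) (k : ℕ) (j : ℤ) :
    Bornology.IsBounded {ξ : ℝ | a ≤ ‖coef g ξ k j‖} := by
  have h := (tendsto_coef g k j).norm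
  rw [norm_zero] at h
  have h1 : ∀ᶠ ξ in cocompact ℝ, ‖coef g ξ k j‖ < a := h.eventually (gt_mem_nhds ha)
  rw [Filter.Eventually, mem_cocompact] at h1
  obtain ⟨t, ht, hsub⟩ := h1
  refine ht.isBounded.subset ?_
  intro ξ hξ
  by_contra hcon
  have : ‖coef g ξ k j‖ < a := hsub hcon
  exact absurd hξ (not_le.mpr this)

/-- **greedy tops of a level-dependent family of populations** (level `a`, width `B`). -/
theorem greedy_coef (h : ℕ → ℝ → ℂ) {a : ℝ} (ha : 0 < a) (B : ℝ) (hB : 0 < B) (k0 K : ℕ) (j0 : ℤ) :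
    ∃ TT : Finset (ℕ × ℤ × ℝ),
      (∀ T ∈ TT, k0 ≤ T.1 ∧ T.1 ≤ K ∧ Ivl T.1 T.2.1 ⊆ Ivl k0 j0 ∧
        a ≤ ‖coef (h T.1) T.2.2 T.1 T.2.1‖) ∧
      (∀ T ∈ TT, ∀ T' ∈ TT, T ≠ T' → T.1 ≤ T'.1 → ∀ x, x ∈ Ivl T.1 T.2.1 → x ∈ Ivl T'.1 T'.2.1 →
        B * 2 ^ T'.1 < |T.2.2 - T'.2.2|) ∧
      (∀ x ∈ Ivl k0 j0, ∀ k, k0 ≤ k → k ≤ K → ∀ ξ, a ≤ ‖coef (h k) ξ k (fl k x)‖ →
        ∃ T ∈ TT, T.1 ≤ k ∧ x ∈ Ivl T.1 T.2.1 ∧ |ξ - T.2.2| ≤ B * 2 ^ k) :=
  greedy (fun k j ξ => a ≤ ‖coef (h k) ξ k j‖) (fun k j => bdd_heavy (h k) ha k j) B hB k0 K j0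

end Crest.Agent.R100.Greedy496
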