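import Crest.Agent.R100.Grid2_279
import Crest.Agent.R100.GreedyBdd_496

/-!
# R100 / S0132, helper279: (TOPS), all constants explicit (assembly AS1)

Greedy tops of helper496 + `Grid279.tops` + choice of the width `B`, the depth `D` and `b`.
-/

set_option autoImplicit false

open MeasureTheory Set
open scoped ENNReal

noncomputable section

namespace Crest.Agent.R100.Grid279

open Crest.Agent.R100.Mart933 Crest.Agent.R100.Wide933 Crest.Agent.R100.Id833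
open Crest.Agent.R100.Tree711
open Crest.Agent.R100.Sel721 (Sub Fam select fl_sub mem_of_Sub)

/-- choice of `b` -/
theorem exists_b {ρ : ℝ} (hρ : 1 ≤ ρ) : ∃ b : ℕ, 208 * ρ ≤ 2 ^ b ∧ (2 : ℝ) ^ b ≤ 416 * ρ := by
  have hex : ∃ b : ℕ, 208 * ρ ≤ 2 ^ b := by
    obtain ⟨b, hb⟩ := pow_unbounded_of_one_lt (208 * ρ) (one_lt_two)
    exact ⟨b, hb.le⟩
  classical
  refine ⟨Nat.find hex, Nat.find_spec hex, ?_⟩
  rcases Nat.eq_zero_or_pos (Nat.find hex) with h | h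
  · have := Nat.find_spec hex
    rw [h] at this ⊢
    simp only [pow_zero] at this ⊢
    linarith
  · have h1 := Nat.find_min hex (m := Nat.find hex - 1) (by omega)
    push Not at h1
    have h2 : (2 : ℝ) ^ (Nat.find hex) = 2 * 2 ^ (Nat.find hex - 1) := by
      rw [← pow_succ']
      congr 1
      omega
    rw [h2]
    linarith

/-- **(TOPS)**: covering family of tops of level `a`, with its total measure -/
theorem tops_all {g : ℝ → ℂ} {κ : ℝ → ℕ} {M : ℝ} {m k₀ : ℕ} {j₀ : ℤ} {h : ℕ} {W : ℝ≥0∞} {a : ℝ}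
    (hg : Measurable g) (hM : ∀ x, ‖g x‖ ≤ M) (hκ : Measurable κ) (hk₀m : k₀ ≤ m)
    (hsupp : ∀ y, g y ≠ 0 → y ∈ Ivl k₀ j₀) (hQ : ∀ k j, avN (Pb g κ k) k j ≤ 2)
    (hh : 1 ≤ h)
    (hW : ∀ l, k₀ ≤ l → ∀ (jj : ℤ) (I : Finset ℤ) (Y : ℤ → ℝ),
      (∀ i ∈ I, (i : ℝ) * 2 ^ l ≤ Y i ∧ Y i < ((i : ℝ) + 1) * 2 ^ l) →
      ∑ i ∈ I, ‖coef (Pb g κ l) (Y i) l jj‖ₑ ^ (2 * (h : ℝ)) ≤ W)
    (ha : 0 < a) (ha2 : a ≤ 2) :
    ∃ (T : Finset (ℕ × ℤ × ℝ)) (B : ℝ), 0 ≤ B ∧ B ≤ 640000 * (2 / a) ^ 3 ∧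
      (∀ t ∈ T, k₀ ≤ t.1) ∧
      (∀ x ∈ Ivl k₀ j₀, ∀ k, k₀ ≤ k → k ≤ m → ∀ ξ, a ≤ ‖bb g κ ξ k (fl k x)‖ →
        ∃ t ∈ T, t.1 ≤ k ∧ x ∈ Ivl t.1 t.2.1 ∧ |ξ - t.2.2| ≤ B * 2 ^ k) ∧
      ENNReal.ofReal (∑ t ∈ T, (1 : ℝ) / 2 ^ t.1) ≤
        ENNReal.ofReal (3 * 10 ^ 9 * (2 / a) ^ 5 * (2 / a) ^ (2 * h) / 2 ^ k₀) * W := by
  have hρ : 1 ≤ 2 / a := by rw [le_div_iff₀ ha]; linarith
  set ρ : ℝ := 2 / a with hρdef
  have haρ : a = 2 / ρ := by rw [hρdef]; field_simp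
  obtain ⟨b, hb1, hb2⟩ := exists_b hρ
  have hρ0 : 0 < ρ := by linarith
  have hρ3 : ρ ≤ ρ ^ 3 := le_self_pow₀ hρ (by norm_num)
  have h1ρ3 : 1 ≤ ρ ^ 3 := one_le_pow₀ hρ
  -- bound on `b`
  have hbn : (b : ℝ) ≤ 416 * ρ := by
    have : (b : ℝ) ≤ 2 ^ b := by exact_mod_cast (Nat.lt_two_pow_self (n := b)).le
    linarith
  have hMe : 48 * (b : ℝ) * 2 ^ 2 / (a / 4) ^ 2 = 768 * b * ρ ^ 2 := by
    rw [haρ]
    field_simp
    ring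
  have hMle : 768 * (b : ℝ) * ρ ^ 2 ≤ 319488 * ρ ^ 3 := by
    have : (b : ℝ) * ρ ^ 2 ≤ 416 * ρ * ρ ^ 2 := by gcongr
    nlinarith
  have hM0 : 0 ≤ 768 * (b : ℝ) * ρ ^ 2 := by positivity
  set D : ℕ := ⌈2 * (768 * (b : ℝ) * ρ ^ 2)⌉₊ + 1 with hDdef
  have hD1 : 1 ≤ D := by omega
  have hD2 : 2 * (768 * (b : ℝ) * ρ ^ 2) ≤ D := by
    rw [hDdef]
    push_cast
    have := Nat.le_ceil (2 * (768 * (b : ℝ) * ρ ^ 2))
    linarith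
  have hD3 : (D : ℝ) ≤ 638976 * ρ ^ 3 + 2 := by
    rw [hDdef]
    push_cast
    have := (Nat.ceil_lt_add_one (show 0 ≤ 2 * (768 * (b : ℝ) * ρ ^ 2) by positivity)).le
    linarith
  set B : ℝ := 2 ^ b + D with hB
  have hBpos : 0 < B := by positivity
  have hB3 : B ≤ 640000 * ρ ^ 3 := by
    rw [hB]
    nlinarith
  obtain ⟨T, hT1, hT2, hT3⟩ := Greedy496.greedy_coef (fun k => Pb g κ k) ha B hBpos k₀ m j₀
  refine ⟨T, B, hBpos.le, hB3, fun t ht => (hT1 t ht).1, hT3, ?_⟩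
  have hsub : ∀ t ∈ T, Sub t.1 t.2.1 k₀ j₀ := by
    intro t ht
    obtain ⟨h1, h2, h3, h4⟩ := hT1 t ht
    have hx : ((t.2.1 : ℝ) / 2 ^ t.1) ∈ Ivl t.1 t.2.1 := mem_Ivl.2 (IsStop.fl_rep _ _)
    have hx' := mem_Ivl.1 (h3 hx)
    have h5 := fl_sub h1 ((t.2.1 : ℝ) / 2 ^ t.1)
    rwa [IsStop.fl_rep, hx'] at h5
  have hmain := tops (g := g) (κ := κ) (M := M) (Q := 2) (a := a) (k₀ := k₀) (m := m) (j₀ := j₀)
    (ι := ℕ × ℤ × ℝ) (k := fun t => t.1) (j := fun t => t.2.1) (w := fun t => t.2.2) (T := T)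
    (b := b) (D := D) (p := 2 * (h : ℝ)) (W := W) hg hM hκ
    (fun y hy => by
      by_contra hc
      exact hy (mem_Ivl.1 (hsupp y hc)))
    hk₀m ha (fun l _ jj => hQ l jj)
    (fun t ht => ⟨(hT1 t ht).1, (hT1 t ht).2.1, hsub t ht, (hT1 t ht).2.2.2⟩)
    (by
      have : (1 : ℝ) ≤ h := by exact_mod_cast hh
      linarith) hW (B := B)
    (by
      rw [haρ]
      have : 2 / ρ / 4 * 2 ^ b = 2 ^ b / (2 * ρ) := by field_simp; ring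
      rw [this, le_div_iff₀ (by positivity)]
      linarith)
    (by rw [hB]; linarith [Nat.cast_nonneg (α := ℝ) D])
    (by
      rw [hB]
      have : (0 : ℝ) < 2 ^ b := by positivity
      linarith)
    (fun t ht t' ht' hne hs => by
      have hx : ((t.2.1 : ℝ) / 2 ^ t.1) ∈ Ivl t.1 t.2.1 := mem_Ivl.2 (IsStop.fl_rep _ _)
      have hx' : fl t'.1 ((t.2.1 : ℝ) / 2 ^ t.1) = t'.2.1 := mem_of_Sub hs (IsStop.fl_rep _ _)
      have h1 := hT2 t' ht' t ht (Ne.symm hne) hs.1 _ (mem_Ivl.2 hx') hx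
      rw [abs_sub_comm] at h1
      exact h1)
    hD1 (by rw [hMe]; exact hD2)
  rw [hMe] at hmain
  -- remove `(a/2)^p`
  have hpow : (a / 2) ^ (2 * (h : ℝ)) * ρ ^ (2 * h) = 1 := by
    have e1 : (2 * (h : ℝ)) = ((2 * h : ℕ) : ℝ) := by push_cast; ring
    rw [e1, Real.rpow_natCast, ← mul_pow, haρ]
    have : 2 / ρ / 2 * ρ = 1 := by field_simp
    rw [this, one_pow]
  have h5 : ENNReal.ofReal (∑ t ∈ T, (1 : ℝ) / 2 ^ t.1) = ENNReal.ofReal (ρ ^ (2 * h)) *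
      ENNReal.ofReal ((a / 2) ^ (2 * (h : ℝ)) * ∑ t ∈ T, (1 : ℝ) / 2 ^ t.1) := by
    rw [← ENNReal.ofReal_mul (by positivity), ← mul_assoc, mul_comm (ρ ^ (2 * h)), hpow, one_mul]
  rw [h5]
  have h2b : (2 : ℝ≥0∞) ^ b = ENNReal.ofReal (2 ^ b) := by
    rw [ENNReal.ofReal_pow (by norm_num), ENNReal.ofReal_ofNat]
  calc ENNReal.ofReal (ρ ^ (2 * h)) *
        ENNReal.ofReal ((a / 2) ^ (2 * (h : ℝ)) * ∑ t ∈ T, (1 : ℝ) / 2 ^ t.1)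
      ≤ ENNReal.ofReal (ρ ^ (2 * h)) * (ENNReal.ofReal (1 + 2 * (768 * b * ρ ^ 2)) * (2 ^ b * W) *
        ENNReal.ofReal ((1 + 10 * 2 / a) / 2 ^ k₀)) := by gcongr
    _ = ENNReal.ofReal (ρ ^ (2 * h) * (1 + 2 * (768 * b * ρ ^ 2)) * 2 ^ b *
        ((1 + 10 * 2 / a) / 2 ^ k₀)) * W := by
        rw [h2b, ENNReal.ofReal_mul (by positivity), ENNReal.ofReal_mul (by positivity),
          ENNReal.ofReal_mul (by positivity)]
        ring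
    _ ≤ _ := by
        gcongr
        have e1 : (1 + 10 * 2 / a) = 1 + 10 * ρ := by rw [hρdef]; ring
        rw [e1]
        have e2 : 1 + 2 * (768 * (b : ℝ) * ρ ^ 2) ≤ 638977 * ρ ^ 3 := by nlinarith
        have e3 : 1 + 10 * ρ ≤ 11 * ρ := by linarith
        have h2k : (0 : ℝ) < 2 ^ k₀ := by positivity
        calc ρ ^ (2 * h) * (1 + 2 * (768 * (b : ℝ) * ρ ^ 2)) * 2 ^ b * ((1 + 10 * ρ) / 2 ^ k₀)
            ≤ ρ ^ (2 * h) * (638977 * ρ ^ 3) * (416 * ρ) * ((11 * ρ) / 2 ^ k₀) := by gcongr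
          _ = 2923958752 * ρ ^ 5 * ρ ^ (2 * h) / 2 ^ k₀ := by ring
          _ ≤ 3 * 10 ^ 9 * ρ ^ 5 * ρ ^ (2 * h) / 2 ^ k₀ := by
              gcongr
              norm_num

end Crest.Agent.R100.Grid279
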