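import Mathlib

/-!
# R100 / S0132, helper710: moment numerics of one level (between B9 and B13 of doc 1968)
-/

set_option autoImplicit false

open Finset MeasureTheory
open scoped ENNReal

noncomputable section

namespace Crest.Agent.R100.LevM710

/-- choice of `β` with `60 B Q ≤ a 2 ^ β` and `4 β + 4 = O (1 + log (2 Q / a))`, if
`B ≤ c1 (Q / a) ^ e` -/
theorem exists_beta {c1 a Q B : ℝ} {e : ℕ} (ha : 0 < a) (haQ : a ≤ Q) (hc1 : 1 ≤ c1)
    (hB0 : 0 ≤ B) (hB : B ≤ c1 * (Q / a) ^ e) :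
    ∃ β : ℕ, 60 * (B * Q) ≤ a * 2 ^ β ∧
      (4 * (β : ℝ) + 4) ≤ (8 + 6 * Real.log (60 * c1) + 6 * (e + 1)) *
        (1 + Real.log (2 * Q / a)) := by
  have hQ : 0 < Q := ha.trans_le haQ
  have hr : 1 ≤ Q / a := (one_le_div ha).2 haQ
  set r := Q / a with hrdef
  have hX : 0 < 60 * c1 * r ^ (e + 1) := by positivity
  have hX1 : 1 ≤ 60 * c1 * r ^ (e + 1) := by
    have : 1 ≤ r ^ (e + 1) := one_le_pow₀ hr
    nlinarith
  refine ⟨⌈Real.logb 2 (60 * c1 * r ^ (e + 1))⌉₊, ?_, ?_⟩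
  · have h1 : Real.logb 2 (60 * c1 * r ^ (e + 1))
        ≤ ((⌈Real.logb 2 (60 * c1 * r ^ (e + 1))⌉₊ : ℕ) : ℝ) := Nat.le_ceil _
    have h2 : 60 * c1 * r ^ (e + 1)
        ≤ (2 : ℝ) ^ ⌈Real.logb 2 (60 * c1 * r ^ (e + 1))⌉₊ := by
      rw [Real.logb_le_iff_le_rpow (by norm_num) hX, Real.rpow_natCast] at h1
      exact h1
    have h3 : Q = a * r := by
      rw [hrdef]
      field_simp
    calc 60 * (B * Q) ≤ 60 * (c1 * r ^ e * Q) := by gcongr
      _ = a * (60 * c1 * r ^ (e + 1)) := by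
          rw [h3, pow_succ]
          ring
      _ ≤ _ := by gcongr
  · have hlg : Real.log (2 * Q / a) = Real.log 2 + Real.log r := by
      rw [hrdef, ← Real.log_mul (by norm_num) (by positivity)]
      congr 1
      ring
    have hlr : 0 ≤ Real.log r := Real.log_nonneg hr
    have hl2 : 0.69 ≤ Real.log 2 := by
      have := Real.log_two_gt_d9
      linarith
    have hl60 : 0 ≤ Real.log (60 * c1) := Real.log_nonneg (by linarith)
    have h1 : ((⌈Real.logb 2 (60 * c1 * r ^ (e + 1))⌉₊ : ℕ) : ℝ)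
        ≤ Real.logb 2 (60 * c1 * r ^ (e + 1)) + 1 := by
      have := Nat.ceil_lt_add_one (a := Real.logb 2 (60 * c1 * r ^ (e + 1)))
        (Real.logb_nonneg (by norm_num) hX1)
      exact this.le
    have h2 : Real.logb 2 (60 * c1 * r ^ (e + 1))
        = (Real.log (60 * c1) + (e + 1) * Real.log r) / Real.log 2 := by
      unfold Real.logb
      rw [Real.log_mul (by positivity) (by positivity), Real.log_pow]
      push_cast
      ring
    have h3 : (Real.log (60 * c1) + (e + 1) * Real.log r) / Real.log 2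
        ≤ 1.5 * (Real.log (60 * c1) + (e + 1) * Real.log r) := by
      rw [div_le_iff₀ (by linarith)]
      have h4 : 0 ≤ Real.log (60 * c1) + (e + 1) * Real.log r := by positivity
      nlinarith
    rw [hlg]
    have he : (0 : ℝ) ≤ e := Nat.cast_nonneg _
    have h5 : 0 ≤ (e : ℝ) * Real.log r := by positivity
    have h6 : 0 ≤ Real.log (60 * c1) * Real.log r := by positivity
    have h7 : 0 ≤ Real.log (60 * c1) * Real.log 2 := by positivity
    have h8 : 0 ≤ (e : ℝ) * Real.log 2 := by positivity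
    have h9 := h1.trans (add_le_add_left (h2.le.trans h3) 1)
    nlinarith

theorem moment_aux {P : Set ℝ} {R : ℝ → ℝ} {w V K1 : ℝ} {q : ℕ} (hw : 0 ≤ w)
    (hR0 : ∀ x, 0 ≤ R x) (hK1 : 0 ≤ K1)
    (hR : ∫⁻ x in P, ENNReal.ofReal (R x ^ q) ≤ ENNReal.ofReal K1 * ENNReal.ofReal V)
    (hV : volume P = ENNReal.ofReal V) (hq : 1 ≤ q) :
    ∫⁻ x in P, ENNReal.ofReal (w + R x) ^ q
      ≤ ENNReal.ofReal (2 ^ q * (w ^ q + K1)) * ENNReal.ofReal V := by
  have hpt : ∀ x, ENNReal.ofReal (w + R x) ^ q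
      ≤ ENNReal.ofReal (2 ^ q) * (ENNReal.ofReal (w ^ q) + ENNReal.ofReal (R x ^ q)) := by
    intro x
    have h1 : (w + R x) ^ q ≤ 2 ^ q * (w ^ q + R x ^ q) := by
      have h2 := add_pow_le hw (hR0 x) q
      have h3 : (2 : ℝ) ^ (q - 1) ≤ 2 ^ q := pow_le_pow_right₀ (by norm_num) (by omega)
      have h4 : 0 ≤ w ^ q + R x ^ q := add_nonneg (pow_nonneg hw q) (pow_nonneg (hR0 x) q)
      exact h2.trans (mul_le_mul_of_nonneg_right h3 h4)
    rw [← ENNReal.ofReal_pow (add_nonneg hw (hR0 x)), ← ENNReal.ofReal_add (pow_nonneg hw q)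
      (pow_nonneg (hR0 x) q), ← ENNReal.ofReal_mul (by positivity)]
    exact ENNReal.ofReal_le_ofReal h1
  calc ∫⁻ x in P, ENNReal.ofReal (w + R x) ^ q
      ≤ ∫⁻ x in P, ENNReal.ofReal (2 ^ q)
          * (ENNReal.ofReal (w ^ q) + ENNReal.ofReal (R x ^ q)) := lintegral_mono hpt
    _ = ENNReal.ofReal (2 ^ q) * (ENNReal.ofReal (w ^ q) * volume P
          + ∫⁻ x in P, ENNReal.ofReal (R x ^ q)) := by
        rw [lintegral_const_mul' _ _ ENNReal.ofReal_ne_top, lintegral_add_left measurable_const,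
          lintegral_const, Measure.restrict_apply_univ]
    _ ≤ ENNReal.ofReal (2 ^ q) * (ENNReal.ofReal (w ^ q) * ENNReal.ofReal V
          + ENNReal.ofReal K1 * ENNReal.ofReal V) := by
        rw [hV]
        gcongr
    _ = _ := by
        rw [← add_mul, ← ENNReal.ofReal_add (pow_nonneg hw q) hK1, ← mul_assoc,
          ← ENNReal.ofReal_mul (by positivity)]

/-- **moments of `w a + R`** on one top: `R` = run maximal function (B6), `w = 4 β + 4` -/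
theorem level_moment {P : Set ℝ} {R : ℝ → ℝ} {a Q C C3 C4 w V : ℝ} {κ q : ℕ} (ha : 0 < a)
    (haQ : a ≤ Q) (hC : 0 ≤ C) (hC3 : 0 ≤ C3) (hC4 : 0 ≤ C4)
    (hw : 0 ≤ w) (hw' : w ≤ C3 * (1 + Real.log (2 * Q / a)))
    (hR0 : ∀ x, 0 ≤ R x) (hq : 1 ≤ q) (hV : volume P = ENNReal.ofReal V)
    (hR : ∫⁻ x in P, ENNReal.ofReal (R x ^ q)
      ≤ ENNReal.ofReal ((C * q * a) ^ q * (C4 * (Q / a) ^ κ)) * volume P) :
    ∫⁻ x in P, ENNReal.ofReal (w * a + R x) ^ q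
      ≤ ENNReal.ofReal ((2 * (C3 + C) * a * (q + Real.log (2 * Q / a))) ^ q
          * ((1 + C4) * (Q / a) ^ κ)) * volume P := by
  have hQ : 0 < Q := ha.trans_le haQ
  have hr : 1 ≤ Q / a := (one_le_div ha).2 haQ
  have hL : 0 ≤ Real.log (2 * Q / a) := by
    apply Real.log_nonneg
    rw [le_div_iff₀ ha]
    linarith
  set Lg := Real.log (2 * Q / a)
  have hq1 : (1 : ℝ) ≤ q := by exact_mod_cast hq
  rw [hV] at hR
  have h1 := moment_aux (P := P) (R := R) (w := w * a) (V := V)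
    (K1 := (C * q * a) ^ q * (C4 * (Q / a) ^ κ)) (q := q) (by positivity) hR0 (by positivity) hR hV
    hq
  refine h1.trans ?_
  rw [hV]
  refine mul_le_mul_left ?_ _
  refine ENNReal.ofReal_le_ofReal ?_
  have hrk : 1 ≤ (Q / a) ^ κ := one_le_pow₀ hr
  have h2 : (w * a) ^ q ≤ ((C3 + C) * a * (q + Lg)) ^ q := by
    refine pow_le_pow_left₀ (by positivity) ?_ q
    calc w * a ≤ C3 * (1 + Lg) * a := by gcongr
      _ ≤ (C3 + C) * (q + Lg) * a := by gcongr; linarith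
      _ = _ := by ring
  have h3 : (C * q * a) ^ q ≤ ((C3 + C) * a * (q + Lg)) ^ q := by
    refine pow_le_pow_left₀ (by positivity) ?_ q
    calc C * q * a ≤ (C3 + C) * (q + Lg) * a := by gcongr <;> linarith
      _ = _ := by ring
  set Z := ((C3 + C) * a * (q + Lg)) ^ q with hZ
  have hZ0 : 0 ≤ Z := by positivity
  calc 2 ^ q * ((w * a) ^ q + (C * q * a) ^ q * (C4 * (Q / a) ^ κ))
      ≤ 2 ^ q * (Z * (Q / a) ^ κ + Z * (C4 * (Q / a) ^ κ)) := by
        gcongr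
        nlinarith
    _ = (2 ^ q * Z) * ((1 + C4) * (Q / a) ^ κ) := by ring
    _ = _ := by
        rw [hZ, ← mul_pow]
        congr 2
        ring

/-- summed over the tops, with the multiplicity `mu0` -/
theorem level_sum {ι : Type*} {T : Finset ι} {P : ι → Set ℝ} {R : ι → ℝ → ℝ} {I : Set ℝ}
    {a Q C C3 C4 w S : ℝ} {V : ι → ℝ} {κ q N : ℕ} {μ0 X : ℝ≥0∞} (ha : 0 < a)
    (haQ : a ≤ Q) (hC : 0 ≤ C) (hC3 : 0 ≤ C3) (hC4 : 0 ≤ C4)
    (hw : 0 ≤ w) (hw' : w ≤ C3 * (1 + Real.log (2 * Q / a)))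
    (hR0 : ∀ t ∈ T, ∀ x, 0 ≤ R t x) (hq : 1 ≤ q) (hV : ∀ t ∈ T, volume (P t) = ENNReal.ofReal (V t))
    (hV0 : ∀ t ∈ T, 0 ≤ V t) (hS : ∑ t ∈ T, V t ≤ S)
    (hR : ∀ t ∈ T, ∫⁻ x in P t, ENNReal.ofReal (R t x ^ q)
      ≤ ENNReal.ofReal ((C * q * a) ^ q * (C4 * (Q / a) ^ κ)) * volume (P t))
    (hX : X ≤ (N : ℝ≥0∞) * μ0
      * ∑ t ∈ T, ∫⁻ x in P t ∩ I, ENNReal.ofReal (w * a + R t x) ^ q) :
    X ≤ (N : ℝ≥0∞) * μ0 * (ENNReal.ofReal ((2 * (C3 + C) * a * (q + Real.log (2 * Q / a))) ^ q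
          * ((1 + C4) * (Q / a) ^ κ)) * ENNReal.ofReal S) := by
  refine hX.trans ?_
  gcongr
  calc ∑ t ∈ T, ∫⁻ x in P t ∩ I, ENNReal.ofReal (w * a + R t x) ^ q
      ≤ ∑ t ∈ T, ENNReal.ofReal ((2 * (C3 + C) * a * (q + Real.log (2 * Q / a))) ^ q
          * ((1 + C4) * (Q / a) ^ κ)) * ENNReal.ofReal (V t) := by
        refine sum_le_sum fun t ht => ?_
        rw [← hV t ht]
        refine le_trans (lintegral_mono_set Set.inter_subset_left) ?_
        exact level_moment ha haQ hC hC3 hC4 hw hw' (hR0 t ht) hq (hV t ht) (hR t ht)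
    _ = ENNReal.ofReal ((2 * (C3 + C) * a * (q + Real.log (2 * Q / a))) ^ q
          * ((1 + C4) * (Q / a) ^ κ)) * ENNReal.ofReal (∑ t ∈ T, V t) := by
        rw [← mul_sum, ENNReal.ofReal_sum_of_nonneg hV0]
    _ ≤ _ := by
        gcongr

/-- normal form of one level for `Fin710.final_sum`: `W` = `Lam0`, `lam` = volume of the set of
labels, `ι0` = length of the node, `m0 / ι0` = multiplicity, `E1 (Q/a)^k1 (D0 W / a)^(2h) ι0` =
total length of the tops -/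
theorem level_final {a Q b W A' C4 E1 G1 D0 c0 m0 lam ι0 c1 B q' : ℝ} {κ k1 e h q : ℕ} {X μ0 : ℝ≥0∞}
    {N : ℕ} (ha : 0 < a) (haQ : a ≤ Q) (hb : 0 < b) (hW : 0 < W) (hA' : 0 ≤ A') (hC4 : 0 ≤ C4)
    (hE1 : 0 ≤ E1) (hG1 : 0 ≤ G1) (hD0 : 0 ≤ D0) (hc0 : 0 < c0) (hm0 : 0 ≤ m0) (hlam : 0 < lam)
    (hι0 : 0 < ι0) (hB : B ≤ c1 * (Q / a) ^ e) (hc1 : 1 ≤ c1) (hN : (N : ℝ) ≤ 2 * B + 2)
    (hq' : 0 ≤ q')
    (hpop : (c0 * W) ^ (2 * h) ≤ G1 * (ι0 * lam * b ^ (2 * h)))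
    (hμ0 : μ0 ≤ ENNReal.ofReal (m0 / ι0))
    (hX : X ≤ (N : ℝ≥0∞) * μ0 * (ENNReal.ofReal ((A' * a * q') ^ q * ((1 + C4) * (Q / a) ^ κ))
      * ENNReal.ofReal (ι0 * E1 * (Q / a) ^ k1 * (D0 * W / a) ^ (2 * h)))) :
    (ENNReal.ofReal (ι0 * lam))⁻¹ * X ≤ ENNReal.ofReal ((A' * a * q') ^ q
      * ((4 * c1 * (1 + C4) * E1 * G1 * m0) * (Q / a) ^ (κ + k1 + e))
      * (D0 / c0 * b / a) ^ (2 * h)) := by
  have hQ : 0 < Q := ha.trans_le haQ
  have hr : 1 ≤ Q / a := (one_le_div ha).2 haQ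
  have hre : 1 ≤ (Q / a) ^ e := one_le_pow₀ hr
  have hN' : (N : ℝ) ≤ 4 * c1 * (Q / a) ^ e := by nlinarith
  have hX1 : X ≤ ENNReal.ofReal ((4 * c1 * (Q / a) ^ e) * (m0 / ι0)
      * (((A' * a * q') ^ q * ((1 + C4) * (Q / a) ^ κ))
      * (ι0 * E1 * (Q / a) ^ k1 * (D0 * W / a) ^ (2 * h)))) := by
    refine hX.trans ?_
    rw [ENNReal.ofReal_mul (p := (4 * c1 * (Q / a) ^ e) * (m0 / ι0)) (by positivity),
      ENNReal.ofReal_mul (p := 4 * c1 * (Q / a) ^ e) (by positivity),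
      ENNReal.ofReal_mul (p := (A' * a * q') ^ q * ((1 + C4) * (Q / a) ^ κ)) (by positivity)]
    gcongr
    rw [← ENNReal.ofReal_natCast]
    exact ENNReal.ofReal_le_ofReal hN'
  calc (ENNReal.ofReal (ι0 * lam))⁻¹ * X
      ≤ (ENNReal.ofReal (ι0 * lam))⁻¹ * ENNReal.ofReal ((4 * c1 * (Q / a) ^ e) * (m0 / ι0)
      * (((A' * a * q') ^ q * ((1 + C4) * (Q / a) ^ κ))
      * (ι0 * E1 * (Q / a) ^ k1 * (D0 * W / a) ^ (2 * h)))) := by gcongr
    _ = ENNReal.ofReal ((ι0 * lam)⁻¹ * ((4 * c1 * (Q / a) ^ e) * (m0 / ι0)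
      * (((A' * a * q') ^ q * ((1 + C4) * (Q / a) ^ κ))
      * (ι0 * E1 * (Q / a) ^ k1 * (D0 * W / a) ^ (2 * h))))) := by
        rw [← ENNReal.ofReal_inv_of_pos (by positivity), ← ENNReal.ofReal_mul (by positivity)]
    _ ≤ _ := by
        refine ENNReal.ofReal_le_ofReal ?_
        have hWp : 0 < (c0 * W) ^ (2 * h) := by positivity
        have h1 : (ι0 * lam)⁻¹ ≤ G1 * b ^ (2 * h) / (c0 * W) ^ (2 * h) := by
          rw [le_div_iff₀ hWp, inv_mul_le_iff₀ (by positivity)]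
          calc (c0 * W) ^ (2 * h) ≤ G1 * (ι0 * lam * b ^ (2 * h)) := hpop
            _ = _ := by ring
        have h2 : (D0 * W / a) ^ (2 * h) / (c0 * W) ^ (2 * h) * b ^ (2 * h)
            = (D0 / c0 * b / a) ^ (2 * h) := by
          rw [← div_pow, ← mul_pow]
          congr 1
          field_simp
        calc (ι0 * lam)⁻¹ * ((4 * c1 * (Q / a) ^ e) * (m0 / ι0)
              * (((A' * a * q') ^ q * ((1 + C4) * (Q / a) ^ κ))
              * (ι0 * E1 * (Q / a) ^ k1 * (D0 * W / a) ^ (2 * h))))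
            ≤ (G1 * b ^ (2 * h) / (c0 * W) ^ (2 * h)) * ((4 * c1 * (Q / a) ^ e) * (m0 / ι0)
              * (((A' * a * q') ^ q * ((1 + C4) * (Q / a) ^ κ))
              * (ι0 * E1 * (Q / a) ^ k1 * (D0 * W / a) ^ (2 * h)))) := by gcongr
          _ = (A' * a * q') ^ q * ((4 * c1 * (1 + C4) * E1 * G1 * m0)
              * ((Q / a) ^ κ * (Q / a) ^ k1 * (Q / a) ^ e))
              * ((D0 * W / a) ^ (2 * h) / (c0 * W) ^ (2 * h) * b ^ (2 * h)) := by
              field_simp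
          _ = _ := by
              rw [h2, ← pow_add, ← pow_add]

end Crest.Agent.R100.LevM710
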