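import Crest.Agent.R100.UB_711
import Crest.Agent.R100.LevM_710

/-!
# R100 / S0132, helper711: upper bound (UB), final form: moments, product measure, summation over the
levels.
-/

set_option autoImplicit false

open MeasureTheory Set
open scoped ENNReal

noncomputable section

namespace Crest.Agent.R100.UB711

open Crest.Agent.R100.Mart933 Crest.Agent.R100.Wide933 Crest.Agent.R100.Hunt933
open Crest.Agent.R100.Run288 Crest.Agent.R100.Tree711 Crest.Agent.R100.Lev710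

variable {g : ℝ → ℂ} {κ : ℝ → ℕ} {M : ℝ}

/-- the run maximal functions of the tops (block B6 of helper288, abstract form) -/
def RunMax (C₀ C C4 : ℝ) (κR : ℕ) (g : ℝ → ℂ) (κ : ℝ → ℕ) (Q : ℝ) (k₀ m : ℕ) : Prop :=
  ∀ a : ℝ, 0 < a → a ≤ Q → ∀ (k : ℕ) (j : ℤ) (w : ℝ), k₀ ≤ k →
    ∃ Rt : ℝ → ℝ, Measurable Rt ∧ (∀ x, 0 ≤ Rt x) ∧
      (∀ x ∈ Ivl k j, ∀ k' K', k ≤ k' → k' ≤ K' → K' ≤ m →
        (∀ l, k' ≤ l → l ≤ K' → ‖bb g κ w l (fl l x)‖ ≤ 3 * a) →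
        ‖TS g κ w k' K' x‖ ≤ Rt x + C₀ * XS g κ k' K' x) ∧
      ∀ q : ℕ, 1 ≤ q → ∫⁻ x in Ivl k j, ENNReal.ofReal (Rt x ^ q) ≤
        ENNReal.ofReal ((C * q * a) ^ q * (C4 * (Q / a) ^ κR)) * volume (Ivl k j)

theorem exists_levels {Q a₀ : ℝ} (ha : 0 < a₀) :
    ∃ n : ℕ, Q < a₀ * 2 ^ n ∧ ∀ i < n, a₀ * 2 ^ i ≤ Q := by
  classical
  have hex : ∃ n : ℕ, Q < a₀ * 2 ^ n := by
    obtain ⟨n, hn⟩ := pow_unbounded_of_one_lt (Q / a₀) (by norm_num : (1 : ℝ) < 2)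
    refine ⟨n, ?_⟩
    rw [div_lt_iff₀ ha] at hn
    linarith
  exact ⟨Nat.find hex, Nat.find_spec hex, fun i hi => not_lt.1 (Nat.find_min hex hi)⟩

/-- **UPPER BOUND** (assembly of B6, B7, B9, TOPS, B13).  `D`, `E2`, `k1`, `c1`, `e` come from the
tops; `m0` from the multiplicity. -/
theorem ub_of_run {C₀ C C4 : ℝ} {κR : ℕ} (hC₀ : 0 ≤ C₀) (hC : 0 < C) (hC4 : 0 ≤ C4)
    (hg : Measurable g) (hM : ∀ x, ‖g x‖ ≤ M) (hκ : Measurable κ) {θ : ℝ → ℝ}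
    (hθ : Measurable θ) {R : ℕ} (hR : ∀ y, g y ≠ 0 → κ y < R) {k₀ m : ℕ} {j₀ : ℤ} {Q : ℝ}
    (hQ : ∀ k, k₀ ≤ k → ∀ j, avN (Pb g κ k) k j ≤ Q)
    (hrun : RunMax C₀ C C4 κR g κ Q k₀ m)
    {Λ : Set ℝ} {lam : ℝ} (hlam : 0 < lam) (hΛ : volume Λ = ENNReal.ofReal lam) {m0 : ℝ}
    (hm0 : 0 ≤ m0)
    (hmult : ∀ u : ℝ, volume (Λ ∩ Icc u (u + 2 ^ (R - 1))) ≤ ENNReal.ofReal (m0 * 2 ^ k₀))
    {b D E2 c1 : ℝ} {h k1 e : ℕ} (hb : 0 < b) (hbQ : b ≤ Q) (hD : 1 ≤ D) (hh : 1 ≤ h)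
    (hE2 : 0 ≤ E2) (hc1 : 1 ≤ c1) (hκh : 2 * (κR + k1 + e) ≤ h)
    (hE : 4 * c1 * (1 + C4) * E2 * m0 * (Q / b) ^ (κR + k1 + e) ≤ 4 ^ (2 * h))
    (hL : Real.log (2 * Q / b) ≤ 2 * h)
    (htops : ∀ a, 0 < a → a ≤ Q → ∃ (T : Finset (ℕ × ℤ × ℝ)) (B : ℝ), 0 ≤ B ∧
      B ≤ c1 * (Q / a) ^ e ∧ (∀ t ∈ T, k₀ ≤ t.1) ∧
      (∀ x ∈ Ivl k₀ j₀, ∀ k, k₀ ≤ k → k ≤ m → ∀ ξ, a ≤ ‖bb g κ ξ k (fl k x)‖ →
        ∃ t ∈ T, t.1 ≤ k ∧ x ∈ Ivl t.1 t.2.1 ∧ |ξ - t.2.2| ≤ B * 2 ^ k) ∧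
      ∑ t ∈ T, (1 : ℝ) / 2 ^ t.1 ≤
        1 / 2 ^ k₀ * (1 / 2 ^ k₀ * lam) * E2 * (Q / a) ^ k1 * (D * b / a) ^ (2 * h)) :
    ∫⁻ x in Ivl k₀ j₀, ∫⁻ Y in Λ, ‖TS g κ (Y + θ x) k₀ m x‖ₑ ≤
      ENNReal.ofReal (400 * (2 * (8 + 6 * Real.log (60 * c1) + 6 * (e + 1) + C)) * D ^ 2 *
        (2 * h) * b + (C₀ + 2) * Q + b) * (volume (Ivl k₀ j₀) * volume Λ) := by
  classical
  have hQ0 : 0 < Q := hb.trans_le hbQ
  have hlog : 0 ≤ Real.log (60 * c1) := Real.log_nonneg (by linarith)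
  set C3 : ℝ := 8 + 6 * Real.log (60 * c1) + 6 * (e + 1) with hC3
  have hC3' : 0 ≤ C3 := by positivity
  set j0 : ℕ := m + 1 with hj0
  set a₀ : ℝ := b / 2 ^ j0 with ha₀
  have ha₀' : 0 < a₀ := by positivity
  obtain ⟨n, hn1, hn2⟩ := exists_levels (Q := Q) ha₀'
  have hai : ∀ i, 0 < a₀ * 2 ^ i := fun i => by positivity
  -- tops of the levels
  have H1 : ∀ i, ∃ (T : Finset (ℕ × ℤ × ℝ)) (B : ℝ) (β : ℕ), i < n → (0 ≤ B ∧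
      B ≤ c1 * (Q / (a₀ * 2 ^ i)) ^ e ∧ (∀ t ∈ T, k₀ ≤ t.1) ∧
      (∀ x ∈ Ivl k₀ j₀, ∀ k, k₀ ≤ k → k ≤ m → ∀ ξ, a₀ * 2 ^ i ≤ ‖bb g κ ξ k (fl k x)‖ →
        ∃ t ∈ T, t.1 ≤ k ∧ x ∈ Ivl t.1 t.2.1 ∧ |ξ - t.2.2| ≤ B * 2 ^ k) ∧
      ∑ t ∈ T, (1 : ℝ) / 2 ^ t.1 ≤
        1 / 2 ^ k₀ * (1 / 2 ^ k₀ * lam) * E2 * (Q / (a₀ * 2 ^ i)) ^ k1 *
          (D * b / (a₀ * 2 ^ i)) ^ (2 * h)) ∧
      60 * (B * Q) ≤ a₀ * 2 ^ i * 2 ^ β ∧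
      (4 * (β : ℝ) + 4) ≤ C3 * (1 + Real.log (2 * Q / (a₀ * 2 ^ i))) := by
    intro i
    by_cases hi : i < n
    · obtain ⟨T, B, h1, h2, h3, h4, h5⟩ := htops (a₀ * 2 ^ i) (hai i) (hn2 i hi)
      obtain ⟨β, h6, h7⟩ := LevM710.exists_beta (hai i) (hn2 i hi) hc1 h1 h2
      exact ⟨T, B, β, fun _ => ⟨⟨h1, h2, h3, h4, h5⟩, h6, h7⟩⟩
    · exact ⟨∅, 0, 0, fun h => absurd h hi⟩
  choose T B β HT using H1
  -- run maximal functions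
  have H2 : ∀ i (t : ℕ × ℤ × ℝ), ∃ Rt : ℝ → ℝ, Measurable Rt ∧ (∀ x, 0 ≤ Rt x) ∧
      (i < n → k₀ ≤ t.1 → (∀ x ∈ Ivl t.1 t.2.1, ∀ k' K', t.1 ≤ k' → k' ≤ K' → K' ≤ m →
        (∀ l, k' ≤ l → l ≤ K' → ‖bb g κ t.2.2 l (fl l x)‖ ≤ 3 * (a₀ * 2 ^ i)) →
        ‖TS g κ t.2.2 k' K' x‖ ≤ Rt x + C₀ * XS g κ k' K' x) ∧
      ∀ q : ℕ, 1 ≤ q → ∫⁻ x in Ivl t.1 t.2.1, ENNReal.ofReal (Rt x ^ q) ≤
        ENNReal.ofReal ((C * q * (a₀ * 2 ^ i)) ^ q * (C4 * (Q / (a₀ * 2 ^ i)) ^ κR)) *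
          volume (Ivl t.1 t.2.1)) := by
    intro i t
    by_cases hi : i < n ∧ k₀ ≤ t.1
    · obtain ⟨Rt, h1, h2, h3, h4⟩ := hrun (a₀ * 2 ^ i) (hai i) (hn2 i hi.1) t.1 t.2.1 t.2.2 hi.2
      exact ⟨Rt, h1, h2, fun _ _ => ⟨h3, h4⟩⟩
    · exact ⟨fun _ => 0, measurable_const, fun _ => le_rfl, fun h h' => absurd ⟨h, h'⟩ hi⟩
  choose Rt hRm hRt0 hRt using H2
  -- structural bound
  have hstr := ub_struct (Q := Q) (a₀ := a₀) (C₀ := C₀) (j₀ := j₀) (m := m) hg hM hκ hθ hR hQ0.le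
    ha₀' hC₀ hQ hn1 T B β Rt hRm
    (fun i hi => (HT i hi).1.1) (fun i hi => (HT i hi).2.1) (fun i hi => (HT i hi).1.2.2.2.1)
    (fun i _ t _ x => hRt0 i t x)
    (fun i hi t ht => (hRt i t hi ((HT i hi).1.2.2.1 t ht)).1) Λ
  refine hstr.trans ?_
  set G : ℕ → ℝ → ℝ → ℝ≥0∞ := fun i x Y =>
    GG (T i) (fun t => t.1) (fun t => t.2.1) (fun t => t.2.2) θ (B i * 2 ^ (R - 1))
          (fun t x => ENNReal.ofReal ((4 * β i + 4) * (a₀ * 2 ^ i) + Rt i t x)) x Y with hG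
  have hHm : ∀ i t, Measurable fun x =>
      ENNReal.ofReal ((4 * β i + 4) * (a₀ * 2 ^ i) + Rt i t x) := fun i t =>
    ((hRm i t).const_add _).ennreal_ofReal
  have hGm : ∀ i, Measurable fun p : ℝ × ℝ => G i p.1 p.2 := fun i =>
    measurable_GG hθ fun t => hHm i t
  -- the product measure
  set ι0 : ℝ := 1 / 2 ^ k₀ with hι0
  have hι0' : 0 < ι0 := by positivity
  set c : ℝ≥0∞ := ENNReal.ofReal (ι0 * lam) with hc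
  have hc0 : c ≠ 0 := by
    rw [hc, Ne, ENNReal.ofReal_eq_zero, not_le]
    positivity
  have hct : c ≠ ⊤ := ENNReal.ofReal_ne_top
  have hvol : volume (Ivl k₀ j₀) * volume Λ = c := by
    rw [volume_Ivl, hΛ, ← ENNReal.ofReal_mul (by positivity)]
  set μ : Measure (ℝ × ℝ) :=
    c⁻¹ • ((volume.restrict (Ivl k₀ j₀)).prod (volume.restrict Λ)) with hμdef
  have hμ : μ Set.univ ≤ 1 := by
    rw [hμdef, Measure.smul_apply, smul_eq_mul, ← univ_prod_univ, Measure.prod_prod,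
      Measure.restrict_apply_univ, Measure.restrict_apply_univ, hvol,
      ENNReal.inv_mul_cancel hc0 hct]
  have hlin : ∀ F : ℝ × ℝ → ℝ≥0∞, Measurable F → ∫⁻ ω, F ω ∂μ =
      c⁻¹ * ∫⁻ x in Ivl k₀ j₀, ∫⁻ Y in Λ, F (x, Y) := by
    intro F hF
    rw [hμdef, lintegral_smul_measure, lintegral_prod _ hF.aemeasurable, smul_eq_mul]
  -- the moments of one level
  have hmom : ∀ i < n, ∀ q : ℕ, (q = h ∨ q = 4 * h) →
      ∫⁻ ω, G i ω.1 ω.2 ^ q ∂μ ≤ ENNReal.ofReal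
        ((2 * (C3 + C) * (b / 2 ^ j0 * 2 ^ i) *
          ((q : ℝ) + Real.log (2 * Q / (b / 2 ^ j0 * 2 ^ i)))) ^ q
          * ((4 * c1 * (1 + C4) * E2 * m0) * (Q / (b / 2 ^ j0 * 2 ^ i)) ^ (κR + k1 + e))
          * (D * b / (b / 2 ^ j0 * 2 ^ i)) ^ (2 * h)) := by
    intro i hi q hq
    have hq1 : 1 ≤ q := by rcases hq with rfl | rfl <;> omega
    obtain ⟨⟨hB0, hB1, hTk, -, hTs⟩, hβ1, hβ2⟩ := HT i hi
    have haQ := hn2 i hi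
    rw [hlin _ ((hGm i).pow_const q)]
    show c⁻¹ * ∫⁻ x in Ivl k₀ j₀, ∫⁻ Y in Λ, G i x Y ^ q ≤ _
    have hX := lint_GG_le (T := T i) (kt := fun t : ℕ × ℤ × ℝ => t.1)
      (jt := fun t : ℕ × ℤ × ℝ => t.2.1) (wt := fun t : ℕ × ℤ × ℝ => t.2.2) (θ := θ) (Λ := Λ)
      (r := 2 ^ (R - 1)) (B := B i) (by positivity) hmult (hHm i)
      (by omega : q ≠ 0) (I := Ivl k₀ j₀)
    have hX2 := LevM710.level_sum (T := T i) (P := fun t : ℕ × ℤ × ℝ => Ivl t.1 t.2.1)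
      (R := Rt i) (I := Ivl k₀ j₀) (a := a₀ * 2 ^ i) (Q := Q) (C := C) (C3 := C3) (C4 := C4)
      (w := 4 * β i + 4)
      (S := ι0 * (ι0 * lam) * E2 * (Q / (a₀ * 2 ^ i)) ^ k1 * (D * b / (a₀ * 2 ^ i)) ^ (2 * h))
      (V := fun t => 1 / 2 ^ t.1) (κ := κR) (q := q) (hai i) haQ hC.le hC3' hC4 (by positivity) hβ2
      (fun t _ x => hRt0 i t x) hq1 (fun t _ => volume_Ivl _ _) (fun t _ => by positivity) hTs
      (fun t ht => (hRt i t hi (hTk t ht)).2 q hq1) hX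
    have hX3 := LevM710.level_final (a := a₀ * 2 ^ i) (Q := Q) (b := b) (W := b)
      (A' := 2 * (C3 + C)) (C4 := C4) (E1 := ι0 * lam * E2) (G1 := (ι0 * lam)⁻¹) (D0 := D) (c0 := 1)
      (m0 := m0) (lam := lam) (ι0 := ι0) (c1 := c1) (B := B i)
      (q' := (q : ℝ) + Real.log (2 * Q / (a₀ * 2 ^ i))) (κ := κR) (k1 := k1) (e := e) (h := h)
      (q := q) (μ0 := ENNReal.ofReal (m0 * 2 ^ k₀)) (N := ⌈2 * B i⌉₊ + 1)
      (X := ∫⁻ x in Ivl k₀ j₀, ∫⁻ Y in Λ, G i x Y ^ q)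
      (hai i) haQ hb hb (by positivity) hC4 (by positivity) (by positivity) (by linarith)
      one_pos hm0 hlam hι0' hB1 hc1
      (by
        push_cast
        have := Nat.ceil_lt_add_one (show 0 ≤ 2 * B i by positivity)
        linarith)
      (by
        have : 0 ≤ Real.log (2 * Q / (a₀ * 2 ^ i)) := by
          apply Real.log_nonneg
          rw [le_div_iff₀ (hai i)]
          linarith
        positivity)
      (by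
        rw [one_mul, ← mul_assoc, inv_mul_cancel₀ (by positivity), one_mul])
      (by
        refine ENNReal.ofReal_le_ofReal (le_of_eq ?_)
        rw [hι0]
        field_simp)
      (by
        refine hX2.trans (le_of_eq ?_)
        congr 3
        ring)
    refine hX3.trans (le_of_eq ?_)
    congr 1
    have e1 : 4 * c1 * (1 + C4) * (ι0 * lam * E2) * (ι0 * lam)⁻¹ * m0 =
        4 * c1 * (1 + C4) * E2 * m0 := by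
      field_simp
    rw [e1, div_one]
  have hfin := Fin710.final_sum (μ := μ) hμ (b := b) (Q := Q) (A := 2 * (C3 + C)) (D := D)
    (E0 := 4 * c1 * (1 + C4) * E2 * m0) (κ := κR + k1 + e) (h := h) (m := n) (j0 := j0) hb hbQ
    (by positivity) hD hh hκh (by positivity) hE hL (fun i ω => G i ω.1 ω.2) hn2 hmom
  have hsum : ∑ i ∈ Finset.range n, ∫⁻ x in Ivl k₀ j₀, ∫⁻ Y in Λ, G i x Y ≤
      ENNReal.ofReal (400 * (2 * (C3 + C)) * D ^ 2 * (2 * h) * b) * c := by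
    have h1 : ∀ i, ∫⁻ x in Ivl k₀ j₀, ∫⁻ Y in Λ, G i x Y = (∫⁻ ω, G i ω.1 ω.2 ∂μ) * c := by
      intro i
      rw [hlin _ (hGm i), mul_comm c⁻¹, mul_assoc, ENNReal.inv_mul_cancel hc0 hct, mul_one]
    simp_rw [h1]
    rw [← Finset.sum_mul]
    exact mul_le_mul_left hfin _
  have hfloor : ((m - k₀ : ℕ) : ℝ) * (2 * a₀) ≤ b := by
    have h1 : ((m - k₀ : ℕ) : ℝ) ≤ m := by exact_mod_cast Nat.sub_le _ _
    have h2 : (m : ℝ) ≤ 2 ^ m := by exact_mod_cast Nat.lt_two_pow_self.le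
    have h3 : ((m - k₀ : ℕ) : ℝ) ≤ 2 ^ m := h1.trans h2
    calc ((m - k₀ : ℕ) : ℝ) * (2 * a₀) ≤ 2 ^ m * (2 * a₀) := by gcongr
      _ = b := by
          rw [ha₀, hj0, pow_succ]
          field_simp
  rw [hvol]
  calc _ ≤ ENNReal.ofReal (400 * (2 * (C3 + C)) * D ^ 2 * (2 * h) * b) * c +
        ENNReal.ofReal ((C₀ + 2) * Q + b) * c := by
        refine add_le_add hsum (mul_le_mul_left (ENNReal.ofReal_le_ofReal ?_) _)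
        linarith
    _ = _ := by
        rw [← add_mul, ← ENNReal.ofReal_add (by positivity) (by positivity)]
        congr 2
        ring

end Crest.Agent.R100.UB711
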