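import Crest.Agent.R100.Core_905
import Crest.Agent.R100.UB2_711

/-!
# R100 / S0132, helper905: `UBStmt` from the run maximal functions (B6) and the count of the tops
-/

set_option autoImplicit false

open MeasureTheory Set
open scoped ENNReal

noncomputable section

namespace Crest.Agent.R100.UBX905

open Crest.Agent.R100.Mart933 Crest.Agent.R100.Wide933 Crest.Agent.R100.Id833
open Crest.Agent.R100.Tree711 Crest.Agent.R100.UB711 Crest.Agent.R100.Core905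

/-- **RUNS** (B6), literal: the run maximal functions of a population with exits -/
def RunStmt : Prop :=
  ∃ (C₀ C C4 : ℝ) (κR : ℕ), 0 ≤ C₀ ∧ 0 < C ∧ 0 ≤ C4 ∧
    ∀ (g : ℝ → ℂ) (κ : ℝ → ℕ) (M : ℝ) (k0 m : ℕ), Measurable g → (∀ x, ‖g x‖ ≤ M) →
      Measurable κ → (∀ y, κ y ≤ m) → (∀ k j, avN (Pb g κ k) k j ≤ 2) →
      RunMax C₀ C C4 κR g κ 2 k0 m

/-- **TOPS**, literal: wide tops of a level with the covering property and the count -/
def TopsStmt : Prop :=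
  ∃ (c1 E1 : ℝ) (e k1 : ℕ), 1 ≤ c1 ∧ 1 ≤ E1 ∧
    ∀ (g : ℝ → ℂ) (κ : ℝ → ℕ) (M : ℝ) (m k0 : ℕ) (j0 : ℤ) (h : ℕ) (W : ℝ≥0∞),
      Measurable g → (∀ x, ‖g x‖ ≤ M) → Measurable κ → (∀ y, κ y ≤ m) → (∀ y, k0 < κ y) →
      (∀ y, g y ≠ 0 → y ∈ Ivl k0 j0) → (∀ k j, avN (Pb g κ k) k j ≤ 2) →
      PPH g κ k0 (2 * (h : ℝ)) W → 1 ≤ h → W ≠ ⊤ →
      ∀ a : ℝ, 0 < a → a ≤ 2 → ∃ (T : Finset (ℕ × ℤ × ℝ)) (B : ℝ), 0 ≤ B ∧ B ≤ c1 * (2 / a) ^ e ∧
        (∀ t ∈ T, k0 ≤ t.1) ∧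
        (∀ x ∈ Ivl k0 j0, ∀ k, k0 ≤ k → k ≤ m → ∀ ξ, a ≤ ‖bb g κ ξ k (fl k x)‖ →
          ∃ t ∈ T, t.1 ≤ k ∧ x ∈ Ivl t.1 t.2.1 ∧ |ξ - t.2.2| ≤ B * 2 ^ k) ∧
        ENNReal.ofReal (∑ t ∈ T, (1 : ℝ) / 2 ^ t.1) ≤
          ENNReal.ofReal (E1 * (2 / a) ^ k1 * (2 / a) ^ (2 * h) / 2 ^ k0) * W

theorem ubStmt (hR : RunStmt) (hT : TopsStmt) : UBStmt := by
  obtain ⟨C₀, C, C4, κR, hC₀, hC, hC4, hR⟩ := hR
  obtain ⟨c1, E1, e, k1, hc1, hE1, hT⟩ := hT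
  have hlog : 0 ≤ Real.log (60 * c1) := Real.log_nonneg (by linarith)
  set A1 : ℝ := 2 * (8 + 6 * Real.log (60 * c1) + 6 * (e + 1) + C) with hA1
  have hA1' : 0 < A1 := by positivity
  set K0 : ℕ := κR + k1 + e with hK0
  refine ⟨1600 * A1, (C₀ + 2) * 2 + 2, 4 * c1 * (1 + C4) * E1 * 4 ^ K0, 2 * K0, by positivity,
    by positivity, by positivity, ?_⟩
  intro g κ θ M m k0 j0 R h Λ W b D0 E M1 hg hM hκ hθ hm hgt hsupp hRg hR2 hd hPP hΛm hΛ0 hΛt hb hb2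
    hD0 hE hM1 hW hmult hh hKh hnum hlog2
  set lam : ℝ := (volume Λ).toReal with hlam
  have hΛ : volume Λ = ENNReal.ofReal lam := (ENNReal.ofReal_toReal hΛt).symm
  have hlam0 : 0 < lam := ENNReal.toReal_pos hΛ0 hΛt
  have hk0 : (0 : ℝ) < 2 ^ k0 := by positivity
  have hb' : 0 < 1 / b := by positivity
  have hE0 : 0 < E := by linarith
  have hM10 : 0 < M1 := by linarith
  have hWt : W ≠ ⊤ := by
    refine ne_top_of_le_ne_top ?_ hW
    refine ENNReal.mul_ne_top (ENNReal.mul_ne_top ENNReal.ofReal_ne_top hΛt) ?_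
    exact ENNReal.rpow_ne_top_of_nonneg (by positivity) ENNReal.ofReal_ne_top
  have hnum1 : 4 * c1 * (1 + C4) * (E1 * E) * M1 * (2 / b) ^ K0 ≤ 4 ^ (2 * h) := by
    refine le_trans ?_ hnum
    have h2 : (2 / b) ^ K0 ≤ 4 ^ K0 * (1 / b) ^ (2 * K0) := by
      have h3 : (1 : ℝ) ≤ 2 / b := by
        rw [le_div_iff₀ hb]; linarith
      calc (2 / b) ^ K0 = (2 / b) ^ K0 * 1 ^ K0 := by rw [one_pow, mul_one]
        _ ≤ (2 / b) ^ K0 * (2 / b) ^ K0 := by gcongr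
        _ = _ := by
            rw [← mul_pow, pow_mul, ← mul_pow]
            congr 1
            field_simp
            norm_num
    calc 4 * c1 * (1 + C4) * (E1 * E) * M1 * (2 / b) ^ K0
        ≤ 4 * c1 * (1 + C4) * (E1 * E) * M1 * (4 ^ K0 * (1 / b) ^ (2 * K0)) := by gcongr
      _ = _ := by ring
  have key := ub_of_run (C₀ := C₀) (C := C) (C4 := C4) (κR := κR) hC₀ hC hC4 hg hM hκ hθ hRg
    (k₀ := k0) (m := m) (j₀ := j0) (Q := 2) (fun k _ j => hd k j)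
    (hR g κ M k0 m hg hM hκ hm hd) hlam0 hΛ (m0 := M1) (by linarith)
    (fun u => by rw [mul_comm]; exact hmult u) (b := b) (D := 2 * D0) (E2 := E1 * E) (c1 := c1)
    (h := h) (k1 := k1) (e := e) hb hb2 (by linarith) hh (by positivity) hc1 (by omega) hnum1 (by
      have : (2 : ℝ) * 2 / b = 4 / b := by norm_num
      rw [this]; exact hlog2) ?_
  · refine key.trans ?_
    rw [volume_Ivl, ← mul_assoc, ← ENNReal.ofReal_mul (by positivity)]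
    gcongr
    have e1 : (400 * (2 * (8 + 6 * Real.log (60 * c1) + 6 * (e + 1) + C)) * (2 * D0) ^ 2 *
        (2 * h) * b + (C₀ + 2) * 2 + b) * (1 / 2 ^ k0) =
        (1600 * A1 * D0 ^ 2 * (2 * h) * b + ((C₀ + 2) * 2 + b)) / 2 ^ k0 := by
      rw [← hA1]; ring
    rw [e1]
    gcongr
  · intro a ha ha2
    obtain ⟨T, B, hB0, hB1, hk, hcov, hsum⟩ := hT g κ M m k0 j0 h W hg hM hκ hm hgt hsupp hd hPP hh
      hWt a ha ha2
    refine ⟨T, B, hB0, hB1, hk, hcov, ?_⟩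
    have h1 : W ≤ ENNReal.ofReal (E / 2 ^ k0 * lam * (D0 * b) ^ (2 * h)) := by
      refine hW.trans (le_of_eq ?_)
      have e3 : ENNReal.ofReal (D0 * b) ^ (2 * (h : ℝ)) = ENNReal.ofReal ((D0 * b) ^ (2 * h)) := by
        rw [show (2 * (h : ℝ)) = ((2 * h : ℕ) : ℝ) by push_cast; ring, ENNReal.rpow_natCast,
          ENNReal.ofReal_pow (by positivity)]
      rw [hΛ, e3, ← ENNReal.ofReal_mul (by positivity), ← ENNReal.ofReal_mul (by positivity)]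
    have h2 : ENNReal.ofReal (∑ t ∈ T, (1 : ℝ) / 2 ^ t.1) ≤
        ENNReal.ofReal (1 / 2 ^ k0 * (1 / 2 ^ k0 * lam) * (E1 * E) * (2 / a) ^ k1 *
          (2 * D0 * b / a) ^ (2 * h)) := by
      refine hsum.trans ?_
      calc ENNReal.ofReal (E1 * (2 / a) ^ k1 * (2 / a) ^ (2 * h) / 2 ^ k0) * W
          ≤ ENNReal.ofReal (E1 * (2 / a) ^ k1 * (2 / a) ^ (2 * h) / 2 ^ k0) *
            ENNReal.ofReal (E / 2 ^ k0 * lam * (D0 * b) ^ (2 * h)) := by gcongr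
        _ = _ := by
            rw [← ENNReal.ofReal_mul (by positivity)]
            congr 1
            have e2 : (2 * D0 * b / a) ^ (2 * h) = (2 / a) ^ (2 * h) * (D0 * b) ^ (2 * h) := by
              rw [← mul_pow]; congr 1; ring
            rw [e2]
            ring
    rwa [ENNReal.ofReal_le_ofReal_iff (by positivity)] at h2

end Crest.Agent.R100.UBX905
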