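import Crest.Agent.R100.SH3_701
import Crest.Agent.R100.UBX_905
import Crest.Agent.R100.RunMax_711
import Crest.Agent.R100.Tops_279
import Crest.Agent.R100.Num2_801

/-!
# R100 / S0132, helper800: the last wiring, `CoreX` without hypotheses
-/

set_option autoImplicit false

open MeasureTheory Set
open scoped ENNReal

noncomputable section

namespace Crest.Agent.R100.FinX800

open Crest.Agent.R100.Mart933 Crest.Agent.R100.Wide933 Crest.Agent.R100.Id833
open Crest.Agent.R100.Tree711 Crest.Agent.R100.UB711 Crest.Agent.R100.Core905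
open Crest.Agent.R100.UBX905

theorem runStmt : RunStmt :=
  ⟨60, 600, 3602, 2, by norm_num, by norm_num, by norm_num,
    fun _ _ _ k0 m hg hM hκ _ hQ => UB711.runMax hg hM hκ hQ k0 m⟩

theorem topsStmt : TopsStmt := by
  refine ⟨640000, 3 * 10 ^ 9, 3, 5, by norm_num, by norm_num, ?_⟩
  intro g κ M m k0 j0 h W hg hM hκ hm hgt hsupp hQ hPP hh _ a ha ha2
  exact Grid279.tops_all hg hM hκ ((hgt 0).le.trans (hm 0)) hsupp hQ hh hPP ha ha2

theorem coreX : CoreX916.CoreX :=
  coreX_of (ubStmt runStmt topsStmt) Num801.num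

end Crest.Agent.R100.FinX800
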