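import Mathlib

/-!
# R100 / S0132, helper710: block B13 of doc 1968 (FINAL SUMMATION)

Sum over the dyadic levels `a i = b / 2 ^ j0 * 2 ^ i` of the averages of the level functions `G i`,
from the moments of order `p / 2` and `2 p` (`p = 2 h`).
-/

set_option autoImplicit false

open Finset MeasureTheory
open scoped ENNReal

noncomputable section

namespace Crest.Agent.R100.Fin710

/-- from one moment to the mean, without any measurability -/
theorem lintegral_le_of_moment {Ω : Type*} [MeasurableSpace Ω] {μ : Measure Ω}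
    (hμ : μ Set.univ ≤ 1) {G : Ω → ℝ≥0∞} {q : ℕ} (hq : 1 ≤ q) {τ : ℝ} (hτ : 0 < τ)
    (h : ∫⁻ ω, G ω ^ q ∂μ ≤ ENNReal.ofReal (τ ^ q)) :
    ∫⁻ ω, G ω ∂μ ≤ ENNReal.ofReal (2 * τ) := by
  have hpt : ∀ ω, G ω ≤ ENNReal.ofReal τ + (ENNReal.ofReal (τ ^ q))⁻¹ * ENNReal.ofReal τ * G ω ^ q := by
    intro ω
    rcases le_or_gt (G ω) (ENNReal.ofReal τ) with hle | hlt
    · exact hle.trans le_self_add
    · refine le_trans ?_ le_add_self
      rcases eq_or_ne (G ω) ⊤ with htop | htop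
      · rw [htop, ENNReal.top_pow (by omega)]
        rw [ENNReal.mul_top]
        refine mul_ne_zero (ENNReal.inv_ne_zero.2 ENNReal.ofReal_ne_top) ?_
        rw [Ne, ENNReal.ofReal_eq_zero, not_le]
        exact hτ
      · lift G ω to NNReal using htop with g hg
        have hg' : τ < (g : ℝ) := by
          have := hlt
          rw [ENNReal.ofReal, ENNReal.coe_lt_coe] at this
          have h2 := Real.lt_toNNReal_iff_coe_lt (r := g) (p := τ)
          by_contra hcon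
          push Not at hcon
          have : g ≤ τ.toNNReal := by
            rw [← NNReal.coe_le_coe, Real.coe_toNNReal _ hτ.le]
            exact hcon
          exact absurd ‹τ.toNNReal < g› (not_lt.2 this)
        have hreal : (g : ℝ) ≤ (τ ^ q)⁻¹ * τ * (g : ℝ) ^ q := by
          obtain ⟨r, rfl⟩ := Nat.exists_eq_add_of_le' hq
          have h1 : 1 ≤ ((g : ℝ) / τ) ^ r := one_le_pow₀ ((one_le_div hτ).2 hg'.le)
          have h2 : (τ ^ (r + 1))⁻¹ * τ * (g : ℝ) ^ (r + 1) = g * ((g : ℝ) / τ) ^ r := by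
            rw [div_pow, pow_succ τ, pow_succ (g : ℝ)]
            field_simp
          rw [h2]
          have : (0 : ℝ) ≤ g := g.2
          nlinarith
        calc (g : ℝ≥0∞) = ENNReal.ofReal (g : ℝ) := (ENNReal.ofReal_coe_nnreal).symm
          _ ≤ ENNReal.ofReal ((τ ^ q)⁻¹ * τ * (g : ℝ) ^ q) := ENNReal.ofReal_le_ofReal hreal
          _ = _ := by
            rw [ENNReal.ofReal_mul (by positivity), ENNReal.ofReal_mul (by positivity),
              ENNReal.ofReal_inv_of_pos (by positivity), ENNReal.ofReal_pow (NNReal.coe_nonneg g),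
              ENNReal.ofReal_coe_nnreal]
  calc ∫⁻ ω, G ω ∂μ
      ≤ ∫⁻ ω, (ENNReal.ofReal τ
          + (ENNReal.ofReal (τ ^ q))⁻¹ * ENNReal.ofReal τ * G ω ^ q) ∂μ := lintegral_mono hpt
    _ = ENNReal.ofReal τ * μ Set.univ
        + (ENNReal.ofReal (τ ^ q))⁻¹ * ENNReal.ofReal τ * ∫⁻ ω, G ω ^ q ∂μ := by
        rw [lintegral_add_left measurable_const, lintegral_const, lintegral_const_mul']
        exact ENNReal.mul_ne_top (ENNReal.inv_ne_top.2 (by
          rw [Ne, ENNReal.ofReal_eq_zero, not_le]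
          positivity)) ENNReal.ofReal_ne_top
    _ ≤ ENNReal.ofReal τ * 1
        + (ENNReal.ofReal (τ ^ q))⁻¹ * ENNReal.ofReal τ * ENNReal.ofReal (τ ^ q) := by
        gcongr
    _ = ENNReal.ofReal (2 * τ) := by
        rw [mul_one, mul_right_comm, ENNReal.inv_mul_cancel, one_mul, two_mul,
          ENNReal.ofReal_add hτ.le hτ.le]
        · rw [Ne, ENNReal.ofReal_eq_zero, not_le]
          positivity
        · exact ENNReal.ofReal_ne_top

/-- geometric sum with ratio `4/5` and linear weight -/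
theorem sum_lin_geom (P : ℝ) (hP : 0 ≤ P) (N : ℕ) :
    ∑ j ∈ range N, (P + j) * (4 / 5 : ℝ) ^ j ≤ 5 * P + 20 := by
  have h : ∀ N : ℕ, ∑ j ∈ range N, (P + j) * (4 / 5 : ℝ) ^ j
      = 5 * P + 20 - (5 * P + 5 * N + 20) * (4 / 5 : ℝ) ^ N := by
    intro N
    induction N with
    | zero => simp
    | succ N ih =>
      rw [sum_range_succ, ih, pow_succ]
      push_cast
      ring
  rw [h]
  have : 0 ≤ (5 * P + 5 * N + 20) * (4 / 5 : ℝ) ^ N := by positivity
  linarith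

theorem sum_half (N : ℕ) : ∑ j ∈ range N, (1 / 2 : ℝ) ^ j ≤ 2 := by
  have h : ∀ N : ℕ, ∑ j ∈ range N, (1 / 2 : ℝ) ^ j = 2 - 2 * (1 / 2 : ℝ) ^ N := by
    intro N
    induction N with
    | zero => simp
    | succ N ih =>
      rw [sum_range_succ, ih, pow_succ]
      ring
  rw [h]
  have : 0 ≤ 2 * (1 / 2 : ℝ) ^ N := by positivity
  linarith

/-- the low levels: `a = b / 2 ^ j`, `j ≥ 1`, exponent `q = 2 p = 4 h` -/
theorem low_num {b Q A D E0 : ℝ} {κ h : ℕ} (hb : 0 < b) (hbQ : b ≤ Q) (hA : 0 ≤ A) (hD : 1 ≤ D)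
    (hκ : 2 * κ ≤ h) (hE0 : 0 ≤ E0) (hE : E0 * (Q / b) ^ κ ≤ 4 ^ (2 * h))
    (hL : Real.log (2 * Q / b) ≤ 2 * h) (j : ℕ) :
    (A * (b / 2 ^ j) * (((4 * h : ℕ) : ℝ) + Real.log (2 * Q / (b / 2 ^ j)))) ^ (4 * h)
      * (E0 * (Q / (b / 2 ^ j)) ^ κ) * (D * b / (b / 2 ^ j)) ^ (2 * h)
      ≤ (A * b * (6 * h + j) * (2 * D) * (4 / 5) ^ j) ^ (4 * h) := by
  have hQ : 0 < Q := hb.trans_le hbQ
  have hlog : Real.log (2 * Q / (b / 2 ^ j)) = Real.log (2 * Q / b) + j * Real.log 2 := by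
    have : 2 * Q / (b / 2 ^ j) = (2 * Q / b) * 2 ^ j := by
      field_simp
    rw [this, Real.log_mul (by positivity) (by positivity), Real.log_pow]
  have hlog2 : Real.log 2 ≤ 1 := by
    have := Real.log_two_lt_d9
    linarith
  have hlog0 : 0 ≤ Real.log (2 * Q / b) := by
    apply Real.log_nonneg
    rw [le_div_iff₀ hb]
    linarith
  have hl1 : Real.log (2 * Q / (b / 2 ^ j)) ≤ 2 * h + j := by
    rw [hlog]
    have : (j : ℝ) * Real.log 2 ≤ j * 1 := by gcongr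
    linarith
  have hl0 : 0 ≤ Real.log (2 * Q / (b / 2 ^ j)) := by
    rw [hlog]
    have : 0 ≤ Real.log 2 := Real.log_nonneg (by norm_num)
    positivity
  have h1 : A * (b / 2 ^ j) * (((4 * h : ℕ) : ℝ) + Real.log (2 * Q / (b / 2 ^ j)))
      ≤ A * b * (6 * h + j) * (1 / 2) ^ j := by
    have : A * (b / 2 ^ j) * (((4 * h : ℕ) : ℝ) + Real.log (2 * Q / (b / 2 ^ j)))
        ≤ A * (b / 2 ^ j) * (((4 * h : ℕ) : ℝ) + (2 * h + j)) := by gcongr
    refine this.trans (le_of_eq ?_)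
    push_cast
    rw [one_div, inv_pow]
    field_simp
    ring
  have h2 : E0 * (Q / (b / 2 ^ j)) ^ κ ≤ 4 ^ (2 * h) * (2 ^ j) ^ κ := by
    have : Q / (b / 2 ^ j) = (Q / b) * 2 ^ j := by field_simp
    rw [this, mul_pow, ← mul_assoc]
    gcongr
  have h3 : D * b / (b / 2 ^ j) = D * 2 ^ j := by field_simp
  have h4 : ((2 : ℝ) ^ j) ^ κ * (2 ^ j) ^ (2 * h) ≤ ((8 / 5 : ℝ) ^ j) ^ (4 * h) := by
    have e1 : ((2 : ℝ) ^ j) ^ κ * (2 ^ j) ^ (2 * h) = (2 ^ j) ^ (κ + 2 * h) := by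
      rw [pow_add]
    rw [e1, ← pow_mul, ← pow_mul, mul_comm j, mul_comm j, pow_mul, pow_mul (8 / 5 : ℝ)]
    refine pow_le_pow_left₀ (by positivity) ?_ j
    -- `2 ^ (κ + 2 h) ≤ (8/5) ^ (4 h)`
    have e2 : (2 : ℝ) ^ (κ + 2 * h) ≤ (8 / 5 : ℝ) ^ (4 * h) := by
      have e3 : ((2 : ℝ) ^ (κ + 2 * h)) ^ 2 ≤ ((8 / 5 : ℝ) ^ (4 * h)) ^ 2 := by
        rw [← pow_mul, ← pow_mul]
        calc (2 : ℝ) ^ ((κ + 2 * h) * 2) ≤ 2 ^ (5 * h) :=
              pow_le_pow_right₀ (by norm_num) (by omega)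
          _ = (2 ^ 5) ^ h := by rw [pow_mul]
          _ ≤ ((8 / 5 : ℝ) ^ 8) ^ h := by
              refine pow_le_pow_left₀ (by positivity) ?_ h
              norm_num
          _ = (8 / 5 : ℝ) ^ (4 * h * 2) := by
              rw [← pow_mul]
              congr 1
              ring
      exact (pow_le_pow_iff_left₀ (by positivity) (by positivity) two_ne_zero).1 e3
    exact e2
  have hnn : 0 ≤ A * (b / 2 ^ j) * (((4 * h : ℕ) : ℝ) + Real.log (2 * Q / (b / 2 ^ j))) := by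
    positivity
  calc (A * (b / 2 ^ j) * (((4 * h : ℕ) : ℝ) + Real.log (2 * Q / (b / 2 ^ j)))) ^ (4 * h)
      * (E0 * (Q / (b / 2 ^ j)) ^ κ) * (D * b / (b / 2 ^ j)) ^ (2 * h)
      ≤ (A * b * (6 * h + j) * (1 / 2) ^ j) ^ (4 * h) * (4 ^ (2 * h) * (2 ^ j) ^ κ)
        * (D * 2 ^ j) ^ (2 * h) := by
        rw [h3]
        gcongr
    _ = (A * b * (6 * h + j) * (1 / 2) ^ j) ^ (4 * h) * (4 ^ (2 * h) * D ^ (2 * h))
        * ((2 ^ j) ^ κ * (2 ^ j) ^ (2 * h)) := by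
        rw [mul_pow D]
        ring
    _ ≤ (A * b * (6 * h + j) * (1 / 2) ^ j) ^ (4 * h) * (2 ^ (4 * h) * D ^ (4 * h))
        * ((8 / 5 : ℝ) ^ j) ^ (4 * h) := by
        have e5 : (4 : ℝ) ^ (2 * h) = 2 ^ (4 * h) := by
          rw [show (4 : ℝ) = 2 ^ 2 by norm_num, ← pow_mul]
          congr 1
          ring
        have e6 : D ^ (2 * h) ≤ D ^ (4 * h) := pow_le_pow_right₀ hD (by omega)
        rw [e5]
        gcongr
    _ = (A * b * (6 * h + j) * (2 * D) * (4 / 5) ^ j) ^ (4 * h) := by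
        rw [← mul_pow, ← mul_pow, ← mul_pow]
        congr 1
        have : ((1 : ℝ) / 2) ^ j * (8 / 5) ^ j = (4 / 5) ^ j := by
          rw [← mul_pow]
          norm_num
        calc A * b * (6 * h + j) * (1 / 2) ^ j * (2 * D) * (8 / 5) ^ j
            = A * b * (6 * h + j) * (2 * D) * ((1 / 2) ^ j * (8 / 5) ^ j) := by ring
          _ = _ := by rw [this]

/-- the high levels: `a = b * 2 ^ j`, exponent `q = p / 2 = h` -/
theorem high_num {b Q A D E0 : ℝ} {κ h : ℕ} (hb : 0 < b) (hbQ : b ≤ Q) (hA : 0 ≤ A) (hD : 1 ≤ D)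
    (hE0 : 0 ≤ E0) (hE : E0 * (Q / b) ^ κ ≤ 4 ^ (2 * h))
    (hL : Real.log (2 * Q / b) ≤ 2 * h) (j : ℕ) (haQ : b * 2 ^ j ≤ Q) :
    (A * (b * 2 ^ j) * ((h : ℝ) + Real.log (2 * Q / (b * 2 ^ j)))) ^ h
      * (E0 * (Q / (b * 2 ^ j)) ^ κ) * (D * b / (b * 2 ^ j)) ^ (2 * h)
      ≤ (A * b * (3 * h) * (16 * D ^ 2) * (1 / 2) ^ j) ^ h := by
  have hQ : 0 < Q := hb.trans_le hbQ
  have h2j : (1 : ℝ) ≤ 2 ^ j := one_le_pow₀ (by norm_num)
  have hl1 : Real.log (2 * Q / (b * 2 ^ j)) ≤ 2 * h := by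
    refine le_trans (Real.log_le_log (by positivity) ?_) hL
    gcongr
    nlinarith
  have hl0 : 0 ≤ Real.log (2 * Q / (b * 2 ^ j)) := by
    apply Real.log_nonneg
    rw [le_div_iff₀ (by positivity)]
    linarith
  have h2 : E0 * (Q / (b * 2 ^ j)) ^ κ ≤ 4 ^ (2 * h) := by
    refine le_trans ?_ hE
    gcongr
    nlinarith
  have h3 : D * b / (b * 2 ^ j) = D * (1 / 2) ^ j := by
    rw [one_div, inv_pow]
    field_simp
  calc (A * (b * 2 ^ j) * ((h : ℝ) + Real.log (2 * Q / (b * 2 ^ j)))) ^ h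
      * (E0 * (Q / (b * 2 ^ j)) ^ κ) * (D * b / (b * 2 ^ j)) ^ (2 * h)
      ≤ (A * (b * 2 ^ j) * ((h : ℝ) + 2 * h)) ^ h * 4 ^ (2 * h) * (D * (1 / 2) ^ j) ^ (2 * h) := by
        rw [h3]
        gcongr
    _ = (A * b * (3 * h) * (16 * D ^ 2) * (1 / 2) ^ j) ^ h := by
        rw [pow_mul (4 : ℝ), pow_mul (D * (1 / 2) ^ j), ← mul_pow, ← mul_pow]
        congr 1
        have : (2 : ℝ) ^ j * ((1 / 2) ^ j * (1 / 2) ^ j) = (1 / 2) ^ j := by
          rw [← mul_assoc, ← mul_pow]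
          norm_num
        calc A * (b * 2 ^ j) * ((h : ℝ) + 2 * h) * 4 ^ 2 * (D * (1 / 2) ^ j) ^ 2
            = A * b * (3 * h) * (16 * D ^ 2) * (2 ^ j * ((1 / 2) ^ j * (1 / 2) ^ j)) := by ring
          _ = _ := by rw [this]

/-- **B13 (FINAL SUMMATION)** -/
theorem final_sum {Ω : Type*} [MeasurableSpace Ω] {μ : Measure Ω} (hμ : μ Set.univ ≤ 1)
    {b Q A D E0 : ℝ} {κ h m j0 : ℕ} (hb : 0 < b) (hbQ : b ≤ Q) (hA : 0 < A) (hD : 1 ≤ D)
    (hh : 1 ≤ h) (hκ : 2 * κ ≤ h) (hE0 : 0 ≤ E0) (hE : E0 * (Q / b) ^ κ ≤ 4 ^ (2 * h))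
    (hL : Real.log (2 * Q / b) ≤ 2 * h) (G : ℕ → Ω → ℝ≥0∞)
    (haQ : ∀ i < m, b / 2 ^ j0 * 2 ^ i ≤ Q)
    (hG : ∀ i < m, ∀ q : ℕ, (q = h ∨ q = 4 * h) →
      ∫⁻ ω, G i ω ^ q ∂μ ≤ ENNReal.ofReal
        ((A * (b / 2 ^ j0 * 2 ^ i) * ((q : ℝ) + Real.log (2 * Q / (b / 2 ^ j0 * 2 ^ i)))) ^ q
          * (E0 * (Q / (b / 2 ^ j0 * 2 ^ i)) ^ κ)
          * (D * b / (b / 2 ^ j0 * 2 ^ i)) ^ (2 * h))) :
    ∑ i ∈ range m, ∫⁻ ω, G i ω ∂μ ≤ ENNReal.ofReal (400 * A * D ^ 2 * (2 * h) * b) := by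
  have hQ : 0 < Q := hb.trans_le hbQ
  have hD0 : 0 < D := by linarith
  have hh0 : (1 : ℝ) ≤ h := by exact_mod_cast hh
  -- individual bounds
  let τ : ℕ → ℝ := fun i =>
    if i < j0 then A * b * (6 * h + (j0 - i : ℕ)) * (2 * D) * (4 / 5) ^ (j0 - i)
    else A * b * (3 * h) * (16 * D ^ 2) * (1 / 2) ^ (i - j0)
  have hτ : ∀ i, 0 < τ i := by
    intro i
    simp only [τ]
    split_ifs <;> positivity
  have hone : ∀ i < m, ∫⁻ ω, G i ω ∂μ ≤ ENNReal.ofReal (2 * τ i) := by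
    intro i hi
    by_cases hij : i < j0
    · have ha : b / 2 ^ j0 * 2 ^ i = b / 2 ^ (j0 - i) := by
        have : (2 : ℝ) ^ j0 = 2 ^ (j0 - i) * 2 ^ i := by
          rw [← pow_add]
          congr 1
          omega
        rw [this]
        field_simp
      have h1 := hG i hi (4 * h) (Or.inr rfl)
      rw [ha] at h1
      refine lintegral_le_of_moment hμ (by omega) (hτ i) (h1.trans (ENNReal.ofReal_le_ofReal ?_))
      have := low_num hb hbQ hA.le hD hκ hE0 hE hL (j0 - i)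
      simp only [τ, if_pos hij]
      exact this
    · push Not at hij
      have ha : b / 2 ^ j0 * 2 ^ i = b * 2 ^ (i - j0) := by
        have : (2 : ℝ) ^ i = 2 ^ (i - j0) * 2 ^ j0 := by
          rw [← pow_add]
          congr 1
          omega
        rw [this]
        field_simp
      have h1 := hG i hi h (Or.inl rfl)
      have h2 := haQ i hi
      rw [ha] at h1 h2
      refine lintegral_le_of_moment hμ hh (hτ i) (h1.trans (ENNReal.ofReal_le_ofReal ?_))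
      have := high_num hb hbQ hA.le hD hE0 hE hL (i - j0) h2
      simp only [τ, if_neg (not_lt.2 hij)]
      exact this
  have hsum : ∑ i ∈ range m, 2 * τ i ≤ 400 * A * D ^ 2 * (2 * h) * b := by
    have hle : ∑ i ∈ range m, 2 * τ i ≤ ∑ i ∈ range (j0 + m), 2 * τ i :=
      sum_le_sum_of_subset_of_nonneg (range_mono (by omega))
        fun i _ _ => mul_nonneg (by norm_num) (hτ i).le
    refine hle.trans ?_
    rw [sum_range_add]
    have hlow : ∑ i ∈ range j0, 2 * τ i ≤ 4 * A * b * D * (50 * h) := by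
      have e1 : ∑ i ∈ range j0, 2 * τ i
          = ∑ i ∈ range j0, 4 * A * b * D * ((6 * h + (j0 - i : ℕ)) * (4 / 5) ^ (j0 - i)) := by
        refine sum_congr rfl fun i hi => ?_
        simp only [τ, if_pos (mem_range.1 hi)]
        ring
      have e2 : ∑ i ∈ range j0, 4 * A * b * D
            * ((6 * h + (j0 - i : ℕ)) * (4 / 5 : ℝ) ^ (j0 - i))
          = ∑ j ∈ range j0, 4 * A * b * D
            * ((6 * h + ((j + 1 : ℕ) : ℝ)) * (4 / 5 : ℝ) ^ (j + 1)) := by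
        rw [← sum_range_reflect]
        refine sum_congr rfl fun j hj => ?_
        have hj' := mem_range.1 hj
        have : j0 - (j0 - 1 - j) = j + 1 := by omega
        rw [this]
      rw [e1, e2, ← mul_sum]
      have e3 : ∑ j ∈ range j0, (6 * (h : ℝ) + ((j + 1 : ℕ) : ℝ)) * (4 / 5 : ℝ) ^ (j + 1)
          ≤ 50 * h := by
        have e4 := sum_lin_geom (6 * h) (by positivity) (j0 + 1)
        rw [sum_range_succ'] at e4
        simp only [pow_zero, mul_one, Nat.cast_zero, add_zero] at e4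
        linarith
      gcongr
    have hhigh : ∑ i ∈ range m, 2 * τ (j0 + i) ≤ 2 * (A * b * (3 * h) * (16 * D ^ 2)) * 2 := by
      have e1 : ∑ i ∈ range m, 2 * τ (j0 + i)
          = 2 * (A * b * (3 * h) * (16 * D ^ 2)) * ∑ i ∈ range m, (1 / 2 : ℝ) ^ i := by
        rw [mul_sum]
        refine sum_congr rfl fun i _ => ?_
        have : ¬ (j0 + i < j0) := by omega
        simp only [τ, if_neg this, Nat.add_sub_cancel_left]
        ring
      rw [e1]
      have := sum_half m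
      gcongr
    have hDD : D ≤ D ^ 2 := by nlinarith
    have hfin : 4 * A * b * D * (50 * h) ≤ 200 * A * D ^ 2 * h * b := by
      have : A * b * h * D ≤ A * b * h * D ^ 2 := by gcongr
      nlinarith
    have e9 : 0 ≤ A * b * h * D ^ 2 := by positivity
    nlinarith
  calc ∑ i ∈ range m, ∫⁻ ω, G i ω ∂μ ≤ ∑ i ∈ range m, ENNReal.ofReal (2 * τ i) :=
        sum_le_sum fun i hi => hone i (mem_range.1 hi)
    _ = ENNReal.ofReal (∑ i ∈ range m, 2 * τ i) := by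
        rw [ENNReal.ofReal_sum_of_nonneg]
        exact fun i _ => mul_nonneg (by norm_num) (hτ i).le
    _ ≤ _ := ENNReal.ofReal_le_ofReal hsum

end Crest.Agent.R100.Fin710
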