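import Crest.Agent.R100.RunMax_711
import Crest.Agent.R100.UBX_905

/-!
# R100 / S0132, helper711: `RunStmt` of helper905.
-/

set_option autoImplicit false

namespace Crest.Agent.R100.UB711

/-- **B6 in the literal form of UBX_905** -/
theorem runStmt : Crest.Agent.R100.UBX905.RunStmt :=
  ⟨60, 600, 3602, 2, by norm_num, by norm_num, by norm_num,
    fun _ _ _ k0 m hg hM hκ _ hQ => runMax hg hM hκ hQ k0 m⟩

end Crest.Agent.R100.UB711
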