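import Crest.Agent.R100.Id_833
import Crest.Agent.R100.HuntLocal_933

/-!
# R100 / S0132, helper281: block B0 = (H) of doc 1968

`hunt_int`: the `L¹` norm of the linearised signed sums of a thin function (Hunt's bound off the
set where the maximal function is large, crude Hunt bound on this set).
-/

set_option autoImplicit false

open MeasureTheory Set
open scoped ENNReal

noncomputable section

namespace Crest.Agent.R100.Keep281

open Crest.Agent.R100.Mart933 Crest.Agent.R100.Wide933 Crest.Agent.R100.Hunt933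
open Crest.Agent.R100.Id833 Crest.Agent.R100.Local933

/-! ## weak type (1,1) on the tree -/

theorem weak_max {g : ℝ → ℂ} (hg : Measurable g) {M : ℝ} (hM : ∀ x, ‖g x‖ ≤ M) {lam : ℝ}
    (hlam : 0 < lam) (d : ℕ) : ∀ (k : ℕ) (j : ℤ),
    volume {x ∈ Ivl k j | ∃ l, k ≤ l ∧ l ≤ k + d ∧ lam < avN g l (fl l x)} ≤
      ENNReal.ofReal ((∫ y in Ivl k j, ‖g y‖) / lam) := by
  have key : ∀ (k : ℕ) (j : ℤ), lam < avN g k j →
      volume (Ivl k j) ≤ ENNReal.ofReal ((∫ y in Ivl k j, ‖g y‖) / lam) := by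
    intro k j h
    rw [volume_Ivl]
    apply ENNReal.ofReal_le_ofReal
    unfold avN at h
    rw [div_le_div_iff₀ (by positivity) hlam]
    nlinarith
  induction d with
  | zero =>
    intro k j
    by_cases h : lam < avN g k j
    · exact (measure_mono fun x hx => hx.1).trans (key k j h)
    · have : {x ∈ Ivl k j | ∃ l, k ≤ l ∧ l ≤ k + 0 ∧ lam < avN g l (fl l x)} = ∅ := by
        ext x
        simp only [mem_ofPred_eq, mem_empty_iff_false, iff_false, not_and, not_exists]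
        intro hx l h1 h2 h3
        have : l = k := by omega
        subst this
        rw [mem_Ivl.1 hx] at h3
        exact h h3
      rw [this]; simp
  | succ d ih =>
    intro k j
    by_cases h : lam < avN g k j
    · exact (measure_mono fun x hx => hx.1).trans (key k j h)
    · have hsub : {x ∈ Ivl k j | ∃ l, k ≤ l ∧ l ≤ k + (d + 1) ∧ lam < avN g l (fl l x)} ⊆
          {x ∈ Ivl (k + 1) (2 * j) | ∃ l, k + 1 ≤ l ∧ l ≤ k + 1 + d ∧ lam < avN g l (fl l x)} ∪
          {x ∈ Ivl (k + 1) (2 * j + 1) |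
            ∃ l, k + 1 ≤ l ∧ l ≤ k + 1 + d ∧ lam < avN g l (fl l x)} := by
        rintro x ⟨hx, l, h1, h2, h3⟩
        have hl : l ≠ k := by
          rintro rfl
          rw [mem_Ivl.1 hx] at h3
          exact h h3
        have hx' := hx
        rw [Ivl_split] at hx'
        rcases hx' with hx' | hx'
        · exact Or.inl ⟨hx', l, by omega, by omega, h3⟩
        · exact Or.inr ⟨hx', l, by omega, by omega, h3⟩
      refine (measure_mono hsub).trans ((measure_union_le _ _).trans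
        ((add_le_add (ih _ _) (ih _ _)).trans (le_of_eq ?_)))
      have hi : ∀ k j, IntegrableOn (fun y => ‖g y‖) (Ivl k j) := fun k j =>
        intOn k j hg.norm (M := M) (fun x => by simpa using hM x)
      rw [integral_Ivl hi k j, ← ENNReal.ofReal_add, add_div]
      · exact div_nonneg (integral_nonneg fun x => norm_nonneg _) hlam.le
      · exact div_nonneg (integral_nonneg fun x => norm_nonneg _) hlam.le

/-! ## layers -/

theorem layer_le {A : Set ℝ} (hA : MeasurableSet A) {T : ℝ → ℝ≥0∞} {E : ℕ → Set ℝ}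
    (hE : ∀ t, MeasurableSet (E t)) {a b : ℝ} (ha : 0 ≤ a) (hb : 0 < b)
    (h : ∀ (t : ℕ), ∀ x ∈ A, x ∉ E t → T x ≤ ENNReal.ofReal (a + b * t)) :
    ∫⁻ x in A, T x ≤ ENNReal.ofReal a * volume A + ENNReal.ofReal b * ∑' t, volume (E t) := by
  classical
  have hp : ∀ x ∈ A, T x ≤
      ENNReal.ofReal a + ∑' t, (E t).indicator (fun _ => ENNReal.ofReal b) x := by
    intro x hx
    by_cases hex : ∃ t, x ∉ E t
    · set τ := Nat.find hex with hτ
      have h1 : x ∉ E τ := Nat.find_spec hex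
      have h2 : ∀ t < τ, x ∈ E t := fun t ht => not_not.1 (Nat.find_min hex ht)
      refine (h τ x hx h1).trans ?_
      rw [ENNReal.ofReal_add ha (by positivity)]
      refine add_le_add le_rfl ?_
      refine le_trans (le_of_eq ?_) (ENNReal.sum_le_tsum (Finset.range τ))
      rw [Finset.sum_congr rfl (g := fun _ => ENNReal.ofReal b) (fun t ht => by
        rw [indicator_of_mem (h2 t (Finset.mem_range.1 ht))])]
      rw [Finset.sum_const, Finset.card_range, nsmul_eq_mul, mul_comm b,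
        ENNReal.ofReal_mul (by positivity), ENNReal.ofReal_natCast]
    · push Not at hex
      have : ∑' t, (E t).indicator (fun _ => ENNReal.ofReal b) x = ⊤ := by
        rw [tsum_congr (fun t => indicator_of_mem (hex t) _)]
        exact ENNReal.tsum_const_eq_top_of_ne_zero (by simpa using hb)
      rw [this]
      simp
  calc ∫⁻ x in A, T x
      ≤ ∫⁻ x in A, (ENNReal.ofReal a + ∑' t, (E t).indicator (fun _ => ENNReal.ofReal b) x) :=
        setLIntegral_mono' hA hp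
    _ = ENNReal.ofReal a * volume A +
        ∑' t, ∫⁻ x in A, (E t).indicator (fun _ => ENNReal.ofReal b) x := by
        rw [lintegral_add_left measurable_const, setLIntegral_const,
          lintegral_tsum fun t => (measurable_const.indicator (hE t)).aemeasurable]
    _ ≤ ENNReal.ofReal a * volume A + ∑' t, ENNReal.ofReal b * volume (E t) := by
        gcongr with t
        rw [lintegral_indicator (hE t), setLIntegral_const]
        gcongr
        exact Measure.restrict_le_self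
    _ = _ := by rw [ENNReal.tsum_mul_left]

theorem tsum_exp_le {D : ℝ} (hD : 0 ≤ D) {E : ℕ → Set ℝ}
    (hE : ∀ t : ℕ, volume (E t) ≤ ENNReal.ofReal (112 * Real.exp (-t) * D)) :
    ∑' t, volume (E t) ≤ ENNReal.ofReal (224 * D) := by
  have hs : Summable fun t : ℕ => 112 * D * (1 / 2 : ℝ) ^ t :=
    (summable_geometric_of_lt_one (by norm_num) (by norm_num)).mul_left _
  calc ∑' t, volume (E t) ≤ ∑' t : ℕ, ENNReal.ofReal (112 * D * (1 / 2) ^ t) := by
        refine ENNReal.tsum_le_tsum fun t => (hE t).trans (ENNReal.ofReal_le_ofReal ?_)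
        have := exp_neg_nat_le t
        calc 112 * Real.exp (-t) * D ≤ 112 * (1 / 2) ^ t * D := by gcongr
          _ = _ := by ring
    _ = ENNReal.ofReal (∑' t : ℕ, 112 * D * (1 / 2) ^ t) :=
        (ENNReal.ofReal_tsum_of_nonneg (fun t => by positivity) hs).symm
    _ = _ := by
        rw [tsum_mul_left, tsum_geometric_of_lt_one (by norm_num) (by norm_num)]
        congr 1
        ring

/-- ancestors of alive nodes -/
theorem al_anc {al : ℕ → ℤ → Prop} (hcl : ∀ k j, al (k + 1) j → al k (j / 2)) {k k' : ℕ}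
    (h : k' ≤ k) {x : ℝ} (hx : al k (fl k x)) : al k' (fl k' x) := by
  induction h with
  | refl => exact hx
  | @step k h ih =>
    apply ih
    rw [fl_half]
    exact hcl _ _ hx

theorem norm_hd_coef_le {g : ℝ → ℂ} (hg : Measurable g) {M : ℝ} (hM : ∀ x, ‖g x‖ ≤ M) (θ : ℝ)
    (k : ℕ) (j : ℤ) : ‖hd (coef g θ) k j‖ ≤ avN g k j := by
  have h2 := avN_split hg hM k j
  have h3 := norm_coef_le g θ (k + 1) (2 * j)
  have h4 := norm_coef_le g θ (k + 1) (2 * j + 1)
  unfold hd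
  rw [norm_div, Complex.norm_ofNat]
  have h5 := norm_sub_le (coef g θ (k + 1) (2 * j)) (coef g θ (k + 1) (2 * j + 1))
  linarith

/-- **the `L¹` norm of the linearised signed sums of a thin function** -/
theorem hunt_int {n : ℕ} {g : ℝ → ℂ} (hg : Measurable g) (hn : ∀ x, ‖g x‖ ≤ 2 ^ n)
    {al : ℕ → ℤ → Prop} (hcl : ∀ k j, al (k + 1) j → al k (j / 2))
    (hal : ∀ k j, al k j → avN g k j ≤ 1) {θ : ℝ → ℝ} (hfin : (range θ).Finite)
    (m j : ℕ) :
    ∫⁻ x in Ivl 0 0, ‖SS (coef g (θ x)) al 0 m x‖ₑ ≤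
      ENNReal.ofReal (922532 * (n + j + 1) * (rr ^ j + 2 ^ j * ∫ y in Ivl 0 0, ‖g y‖)) := by
  classical
  set μ : ℝ := ∫ y in Ivl 0 0, ‖g y‖ with hμ
  have hμ0 : 0 ≤ μ := integral_nonneg fun x => norm_nonneg _
  set Θ : Finset ℝ := hfin.toFinset with hΘ
  have hθΘ : ∀ x, θ x ∈ Θ := fun x => by rw [hΘ]; simp
  choose E1 hE1m hE1v hE1 using fun t : ℕ => hunt hg hn hcl hal (fun _ _ h => h) Θ 0 m t j
  choose E0 hE0m hE0v hE0 using fun t : ℕ => hunt hg hn hcl hal (fun _ _ h => h) Θ 0 m t 0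
  set G : Set ℝ := {x ∈ Ivl 0 0 | ∃ l, 0 ≤ l ∧ l ≤ 0 + m ∧ (1 / 2 : ℝ) ^ j < avN g l (fl l x)} with hG
  have hGm : MeasurableSet G := by
    rw [hG, show {x ∈ Ivl 0 0 | ∃ l, 0 ≤ l ∧ l ≤ 0 + m ∧ (1 / 2 : ℝ) ^ j < avN g l (fl l x)} =
      Ivl 0 0 ∩ ⋃ l ∈ Finset.range (m + 1), {x | (1 / 2 : ℝ) ^ j < avN g l (fl l x)} by
        ext x
        simp only [mem_ofPred_eq, mem_inter_iff, mem_iUnion, Finset.mem_range, exists_prop]
        constructor
        · rintro ⟨h1, l, _, h3, h4⟩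
          exact ⟨h1, l, by omega, h4⟩
        · rintro ⟨h1, l, h3, h4⟩
          exact ⟨h1, l, by omega, by omega, h4⟩]
    refine (measurableSet_Ivl 0 0).inter (Finset.measurableSet_biUnion _ fun l _ => ?_)
    exact measurableSet_lt measurable_const (measurable_fl_comp l fun i => avN g l i)
  have hGv : volume G ≤ ENNReal.ofReal (2 ^ j * μ) := by
    refine (weak_max hg hn (lam := (1 / 2) ^ j) (by positivity) m 0 0).trans (le_of_eq ?_)
    congr 1
    rw [← hμ, one_div, inv_pow, div_inv_eq_mul, mul_comm]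
  have hG0 : G ⊆ Ivl 0 0 := fun x hx => hx.1
  have hr0 : 0 < rr ^ j := pow_pos rr_pos j
  have hr1 : rr ^ j ≤ 1 := pow_le_one₀ rr_pos.le rr_le_one
  -- outside `G`
  have h1 : ∫⁻ x in Ivl 0 0 \ G, ‖SS (coef g (θ x)) al 0 m x‖ₑ ≤
      ENNReal.ofReal (2041 * rr ^ j * (n + 3 * j + 1)) * volume (Ivl 0 0 \ G) +
        ENNReal.ofReal (2041 * rr ^ j) * ∑' t, volume (E1 t) := by
    refine layer_le ((measurableSet_Ivl 0 0).diff hGm) hE1m (by positivity) (by positivity)
      fun t x hx hxE => ?_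
    have h := hE1 t x hx.1 hxE (θ x) (hθΘ x) m le_rfl (fun l hl hal' => ?_)
    · rw [← ofReal_norm]
      apply ENNReal.ofReal_le_ofReal
      refine h.trans (le_of_eq ?_)
      ring
    · have h3 : avN g l (fl l x) ≤ (1 / 2) ^ j := by
        by_contra h4
        push Not at h4
        exact hx.2 ⟨hx.1, l, Nat.zero_le _, by omega, h4⟩
      have h5 : (0 : ℝ) < (1 / 2) ^ j := by positivity
      exact ⟨((norm_coef_le g _ _ _).trans h3).trans (by linarith),
        ((norm_hd_coef_le hg hn _ _ _).trans h3).trans (by linarith)⟩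
  have h2 : ∫⁻ x in G, ‖SS (coef g (θ x)) al 0 m x‖ₑ ≤
      ENNReal.ofReal (2041 * (n + 1)) * volume G + ENNReal.ofReal 2041 * ∑' t, volume (E0 t) := by
    refine layer_le hGm hE0m (by positivity) (by positivity) fun t x hx hxE => ?_
    have h := hE0 t x hx.1 hxE (θ x) (hθΘ x) m le_rfl (fun l hl hal' => ?_)
    · rw [← ofReal_norm]
      apply ENNReal.ofReal_le_ofReal
      refine h.trans (le_of_eq ?_)
      simp only [pow_zero, Nat.cast_zero]
      ring
    · have h3 := hal _ _ hal'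
      exact ⟨((norm_coef_le g _ _ _).trans h3).trans (by norm_num),
        ((norm_hd_coef_le hg hn _ _ _).trans h3).trans (by norm_num)⟩
  have h3 := tsum_exp_le hμ0 hE1v
  have h4 := tsum_exp_le hμ0 hE0v
  have h5 : volume (Ivl 0 0 \ G) ≤ 1 := by
    refine (measure_mono sdiff_subset).trans ?_
    rw [volume_Ivl]; simp
  have h6 : ∫⁻ x in Ivl 0 0, ‖SS (coef g (θ x)) al 0 m x‖ₑ =
      (∫⁻ x in G, ‖SS (coef g (θ x)) al 0 m x‖ₑ) +
        ∫⁻ x in Ivl 0 0 \ G, ‖SS (coef g (θ x)) al 0 m x‖ₑ := by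
    rw [← lintegral_inter_add_sdiff _ (Ivl 0 0) hGm, inter_eq_self_of_subset_right hG0]
  rw [h6]
  calc _ ≤ (ENNReal.ofReal (2041 * (n + 1)) * ENNReal.ofReal (2 ^ j * μ) +
        ENNReal.ofReal 2041 * ENNReal.ofReal (224 * μ)) +
        (ENNReal.ofReal (2041 * rr ^ j * (n + 3 * j + 1)) * 1 +
          ENNReal.ofReal (2041 * rr ^ j) * ENNReal.ofReal (224 * μ)) := by
        refine add_le_add (h2.trans ?_) (h1.trans ?_) <;> gcongr
    _ = ENNReal.ofReal (2041 * (n + 1) * (2 ^ j * μ) + 2041 * (224 * μ) +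
          (2041 * rr ^ j * (n + 3 * j + 1) + 2041 * rr ^ j * (224 * μ))) := by
        rw [mul_one, ← ENNReal.ofReal_mul (by positivity), ← ENNReal.ofReal_mul (by positivity),
          ← ENNReal.ofReal_mul (by positivity), ← ENNReal.ofReal_add (by positivity) (by positivity),
          ← ENNReal.ofReal_add (by positivity) (by positivity),
          ← ENNReal.ofReal_add (by positivity) (by positivity)]
    _ ≤ _ := by
        apply ENNReal.ofReal_le_ofReal
        have h7 : (1 : ℝ) ≤ 2 ^ j := one_le_pow₀ (by norm_num)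
        have h8 : μ ≤ 2 ^ j * μ := by nlinarith
        have h9 : rr ^ j * μ ≤ 2 ^ j * μ := by nlinarith
        have h10 : (0 : ℝ) ≤ n := by positivity
        have h11 : (0 : ℝ) ≤ j := by positivity
        have h12 : 0 ≤ 2 ^ j * μ := by positivity
        have e1 : (2 ^ j * μ) ≤ (n + j + 1) * (2 ^ j * μ) := by nlinarith
        have e2 : (n + 1 : ℝ) * (2 ^ j * μ) ≤ (n + j + 1) * (2 ^ j * μ) := by
          apply mul_le_mul_of_nonneg_right _ h12; linarith
        have e3 : rr ^ j * (n + 3 * j + 1) ≤ 3 * ((n + j + 1) * rr ^ j) := by nlinarith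
        have e4 : 0 ≤ (n + j + 1) * rr ^ j := by positivity
        nlinarith

theorem rr_eq : rr = (2 : ℝ) ^ (-(1 / 2) : ℝ) := by
  unfold rr
  rw [Real.sqrt_eq_rpow, one_div, Real.inv_rpow (by norm_num), Real.rpow_neg (by norm_num)]

/-- choice of the level -/
theorem choose_level {μ : ℝ} (h0 : 0 < μ) (h1 : μ ≤ 1) :
    ∃ j : ℕ, (j + 2 : ℝ) * (rr ^ j + 2 ^ j * μ) ≤ 20 * μ ^ (1 / 8 : ℝ) := by
  set t : ℝ := Real.logb 2 (1 / μ) with ht
  have hinv : 1 ≤ 1 / μ := by rw [le_div_iff₀ h0]; linarith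
  have ht0 : 0 ≤ t := Real.logb_nonneg (by norm_num) hinv
  have hμt : μ = (2 : ℝ) ^ (-t) := by
    rw [Real.rpow_neg (by norm_num), ht, Real.rpow_logb (by norm_num) (by norm_num) (by positivity)]
    simp
  set j : ℕ := ⌊t / 2⌋₊ with hj
  have hj1 : (j : ℝ) ≤ t / 2 := Nat.floor_le (by positivity)
  have hj2 : t / 2 < j + 1 := Nat.lt_floor_add_one _
  refine ⟨j, ?_⟩
  have e1 : rr ^ j ≤ 2 ^ (1 / 2 : ℝ) * (2 : ℝ) ^ (-(t / 4)) := by
    rw [rr_eq, ← Real.rpow_natCast, ← Real.rpow_mul (by norm_num), ← Real.rpow_add (by norm_num)]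
    apply Real.rpow_le_rpow_of_exponent_le (by norm_num)
    linarith
  have e2 : (2 : ℝ) ^ j * μ ≤ (2 : ℝ) ^ (-(t / 4)) := by
    rw [hμt, ← Real.rpow_natCast, ← Real.rpow_add (by norm_num)]
    apply Real.rpow_le_rpow_of_exponent_le (by norm_num)
    linarith
  have e3 : (2 : ℝ) ^ (1 / 2 : ℝ) ≤ 3 / 2 := by
    rw [← Real.sqrt_eq_rpow]
    rw [Real.sqrt_le_left (by norm_num)]
    norm_num
  have e4 : (j + 2 : ℝ) ≤ 8 * (2 : ℝ) ^ (t / 8) := by
    have h2 : 1 + t / 8 * Real.log 2 ≤ (2 : ℝ) ^ (t / 8) := by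
      rw [Real.rpow_def_of_pos (by norm_num)]
      have := Real.add_one_le_exp (Real.log 2 * (t / 8))
      linarith
    have h3 : (0.6931471803 : ℝ) < Real.log 2 := Real.log_two_gt_d9
    nlinarith
  have e5 : (2 : ℝ) ^ (t / 8) * (2 : ℝ) ^ (-(t / 4)) = μ ^ (1 / 8 : ℝ) := by
    rw [hμt, ← Real.rpow_mul (by norm_num), ← Real.rpow_add (by norm_num)]
    congr 1
    ring
  have h4 : 0 < (2 : ℝ) ^ (-(t / 4)) := by positivity
  have h5 : 0 < (2 : ℝ) ^ (t / 8) := by positivity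
  calc (j + 2 : ℝ) * (rr ^ j + 2 ^ j * μ)
      ≤ (8 * (2 : ℝ) ^ (t / 8)) * (3 / 2 * (2 : ℝ) ^ (-(t / 4)) + (2 : ℝ) ^ (-(t / 4))) := by
        have : 0 ≤ rr ^ j := pow_nonneg rr_pos.le j
        gcongr
        exact e1.trans (by gcongr)
    _ = 20 * ((2 : ℝ) ^ (t / 8) * (2 : ℝ) ^ (-(t / 4))) := by ring
    _ = _ := by rw [e5]

/-- **optimised form**: if `∫ |g| ≤ μ ≤ 1` the `L¹` norm is at most `C n μ^{1/8}` -/
theorem hunt_int' {n : ℕ} (hn1 : 1 ≤ n) {g : ℝ → ℂ} (hg : Measurable g) (hn : ∀ x, ‖g x‖ ≤ 2 ^ n)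
    {al : ℕ → ℤ → Prop} (hcl : ∀ k j, al (k + 1) j → al k (j / 2))
    (hal : ∀ k j, al k j → avN g k j ≤ 1) {θ : ℝ → ℝ} (hfin : (range θ).Finite)
    (m : ℕ) {μ : ℝ} (h0 : 0 < μ) (h1 : μ ≤ 1) (hμ : ∫ y in Ivl 0 0, ‖g y‖ ≤ μ) :
    ∫⁻ x in Ivl 0 0, ‖SS (coef g (θ x)) al 0 m x‖ₑ ≤
      ENNReal.ofReal (18450640 * n * μ ^ (1 / 8 : ℝ)) := by
  obtain ⟨j, hj⟩ := choose_level h0 h1
  refine (hunt_int hg hn hcl hal hfin m j).trans (ENNReal.ofReal_le_ofReal ?_)
  have hn1' : (1 : ℝ) ≤ n := by exact_mod_cast hn1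
  have hj0 : (0 : ℝ) ≤ j := by positivity
  have hr0 : 0 ≤ rr ^ j := pow_nonneg rr_pos.le j
  have hg0 : 0 ≤ ∫ y in Ivl 0 0, ‖g y‖ := integral_nonneg fun x => norm_nonneg _
  have h2 : (n + j + 1 : ℝ) ≤ n * (j + 2) := by nlinarith
  calc (922532 * (n + j + 1) * (rr ^ j + 2 ^ j * ∫ y in Ivl 0 0, ‖g y‖) : ℝ)
      ≤ 922532 * (n * (j + 2)) * (rr ^ j + 2 ^ j * μ) := by gcongr
    _ = 922532 * n * ((j + 2) * (rr ^ j + 2 ^ j * μ)) := by ring
    _ ≤ 922532 * n * (20 * μ ^ (1 / 8 : ℝ)) := by gcongr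
    _ = _ := by ring

theorem Ivl_zero : Ivl 0 0 = Ico (0 : ℝ) 1 := by
  unfold Ivl
  norm_num

theorem avN_le_avN {f g : ℝ → ℂ} (hf : Measurable f) {M : ℝ} (hM : ∀ x, ‖f x‖ ≤ M)
    (hgm : Measurable g) (hgf : ∀ x, ‖g x‖ ≤ ‖f x‖) (k : ℕ) (j : ℤ) : avN g k j ≤ avN f k j := by
  unfold avN
  refine mul_le_mul_of_nonneg_left ?_ (by positivity)
  refine integral_mono (intOn k j hgm.norm (M := M) fun x => ?_)
    (intOn k j hf.norm (M := M) fun x => ?_) fun x => hgf x
  · rw [norm_norm]; exact (hgf x).trans (hM x)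
  · rw [norm_norm]; exact hM x

/-- the form used for a sub-population `g` of `f` -/
theorem hunt_int_sub {n : ℕ} (hn1 : 1 ≤ n) {f g : ℝ → ℂ} (hf : Measurable f)
    (hn : ∀ x, ‖f x‖ ≤ 2 ^ n) (hg : Measurable g) (hgf : ∀ x, ‖g x‖ ≤ ‖f x‖) {θ : ℝ → ℝ}
    (hfin : (range θ).Finite) (m : ℕ) {μ : ℝ} (h0 : 0 < μ) (h1 : μ ≤ 1)
    (hμ : ∫ y in Ivl 0 0, ‖g y‖ ≤ μ) :
    ∫⁻ x in Ivl 0 0, ‖SS (coef g (θ x)) (alive f) 0 m x‖ₑ ≤
      ENNReal.ofReal (18450640 * n * μ ^ (1 / 8 : ℝ)) :=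
  hunt_int' hn1 hg (fun x => (hgf x).trans (hn x)) (alive_closed f)
    (fun k j h => (avN_le_avN hf hn hg hgf k j).trans (alive_av f k j h)) hfin m h0 h1 hμ

end Crest.Agent.R100.Keep281
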