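import Crest.Agent.R100.Multi1_701
import Crest.Agent.R100.Keep_281
import Crest.Agent.R100.CoreX_916

/-!
# R100 / S0132, SH3 (helper701): the core statement `CoreX` (helper916) together with the Hunt bound
(`HuntInt`, helper281) implies the multi-level model bound `ModelMulti`, hence S0132.
-/

set_option autoImplicit false

open MeasureTheory Set Filter Topology
open scoped ENNReal NNReal

noncomputable section

namespace Crest.Agent.R100.SH3701

open Crest.Agent.R100.Mart933 Crest.Agent.R100.Wide933 Crest.Agent.R100.Hunt933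
open Crest.Agent.R100.Local933 Crest.Agent.R100.Id833 Crest.Agent.R100.MM800
open Crest.Agent.R100.CoreX916

/-- **Hunt bound for thin functions** (helper281) -/
def HuntInt : Prop :=
  ∃ C : ℝ, 1 ≤ C ∧ ∀ (n : ℕ) (_ : 1 ≤ n) (g : ℝ → ℂ) (_ : Measurable g) (_ : ∀ x, ‖g x‖ ≤ 2 ^ n)
    (al : ℕ → ℤ → Prop) (_ : ∀ k j, al (k + 1) j → al k (j / 2))
    (_ : ∀ k j, al k j → avN g k j ≤ 1) (θ : ℝ → ℝ) (_ : Measurable θ) (_ : (range θ).Finite)
    (m j : ℕ),
    ∫⁻ x in Ivl 0 0, ‖SS (coef g (θ x)) al 0 m x‖ₑ ≤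
      ENNReal.ofReal (C * (n + j + 1) * (rr ^ j + 2 ^ j * ∫ y in Ivl 0 0, ‖g y‖))

theorem huntInt : HuntInt :=
  ⟨922532, by norm_num, fun _ _ _ hg hn _ hcl hal _ _ hfin m j =>
    Keep281.hunt_int hg hn hcl hal hfin m j⟩

/-! ## numbers -/

/-- choice of the truncation level -/
lemma choose_level {c : ℝ} (hc : 0 < c) (hc1 : c ≤ 1) {n : ℕ} (hn : 1 ≤ n) :
    ∃ j : ℕ, j ≤ n ∧ ∀ b : ℝ, 0 ≤ b → b ≤ (n : ℝ) ^ (-c) →
      rr ^ j + 2 ^ j * b ≤ 3 * (n : ℝ) ^ (-(c / 3)) := by
  have hn1 : (1 : ℝ) ≤ n := by exact_mod_cast hn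
  have hn0 : (0 : ℝ) < n := by linarith
  set u : ℝ := 2 * c / 3 * Real.logb 2 n with hu
  have hlog : 0 ≤ Real.logb 2 n := Real.logb_nonneg (by norm_num) hn1
  have hu0 : 0 ≤ u := by positivity
  set j : ℕ := ⌊u⌋₊ with hj
  have hju : (j : ℝ) ≤ u := Nat.floor_le hu0
  have huj : u < j + 1 := Nat.lt_floor_add_one u
  have h2n : (n : ℝ) = 2 ^ Real.logb 2 n := (Real.rpow_logb (by norm_num) (by norm_num) hn0).symm
  refine ⟨j, ?_, fun b hb0 hb => ?_⟩
  · have h1 : Real.logb 2 n ≤ n := by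
      rw [Real.logb_le_iff_le_rpow (by norm_num) hn0, Real.rpow_natCast]
      exact_mod_cast Nat.lt_two_pow_self.le
    have h2 : u ≤ n := by
      rw [hu]
      have : 2 * c / 3 ≤ 1 := by linarith
      nlinarith
    exact_mod_cast hju.trans h2
  · have hA : rr ^ j ≤ 3 / 2 * (n : ℝ) ^ (-(c / 3)) := by
      have h1 : rr ^ j = (2 : ℝ) ^ (-((j : ℝ) / 2)) := by
        unfold rr
        rw [Real.sqrt_eq_rpow, ← Real.rpow_natCast, ← Real.rpow_mul (by norm_num),
          one_div, ← Real.rpow_neg_one 2, ← Real.rpow_mul (by norm_num)]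
        congr 1
        ring
      rw [h1]
      have h3 : (n : ℝ) ^ (-(c / 3)) = (2 : ℝ) ^ (-(u / 2)) := by
        conv_lhs => rw [h2n]
        rw [← Real.rpow_mul (by norm_num)]
        congr 1
        rw [hu]; ring
      rw [h3]
      have h4 : (2 : ℝ) ^ (-((j : ℝ) / 2)) ≤ (2 : ℝ) ^ (1 / 2 + -(u / 2) : ℝ) :=
        Real.rpow_le_rpow_of_exponent_le (by norm_num) (by linarith)
      refine h4.trans ?_
      rw [Real.rpow_add (by norm_num)]
      gcongr
      rw [← Real.sqrt_eq_rpow]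
      rw [Real.sqrt_le_left (by norm_num)]
      norm_num
    have hB : (2 : ℝ) ^ j * b ≤ (n : ℝ) ^ (-(c / 3)) := by
      have h1 : (2 : ℝ) ^ j ≤ (n : ℝ) ^ (2 * c / 3) := by
        conv_rhs => rw [h2n]
        rw [← Real.rpow_mul (by norm_num), ← Real.rpow_natCast]
        refine Real.rpow_le_rpow_of_exponent_le (by norm_num) ?_
        calc (j : ℝ) ≤ u := hju
          _ = _ := by rw [hu]; ring
      calc (2 : ℝ) ^ j * b ≤ (n : ℝ) ^ (2 * c / 3) * (n : ℝ) ^ (-c) := by gcongr
        _ = (n : ℝ) ^ (-(c / 3)) := by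
            rw [← Real.rpow_add hn0]
            congr 1
            ring
    have h0 : 0 ≤ (n : ℝ) ^ (-(c / 3)) := by positivity
    linarith

lemma log_sq_le {c : ℝ} (hc : 0 < c) : ∃ K : ℝ, 0 < K ∧ ∀ n : ℕ, 1 ≤ n →
    (n : ℝ) ^ (-(c / 3)) ≤ K / (1 + Real.log n) ^ 2 := by
  refine ⟨(1 + 6 / c) ^ 2, by positivity, fun n hn => ?_⟩
  have hn1 : (1 : ℝ) ≤ n := by exact_mod_cast hn
  have hn0 : (0 : ℝ) < n := by linarith
  have hl : 0 ≤ Real.log n := Real.log_nonneg hn1
  have h1 : Real.log n ≤ (n : ℝ) ^ (c / 6) / (c / 6) := Real.log_le_rpow_div hn0.le (by positivity)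
  have h2 : 1 ≤ (n : ℝ) ^ (c / 6) := Real.one_le_rpow hn1 (by positivity)
  have h3 : 1 + Real.log n ≤ (1 + 6 / c) * (n : ℝ) ^ (c / 6) := by
    have : (n : ℝ) ^ (c / 6) / (c / 6) = 6 / c * (n : ℝ) ^ (c / 6) := by field_simp
    rw [this] at h1
    nlinarith
  rw [Real.rpow_neg hn0.le, inv_eq_one_div, div_le_div_iff₀ (by positivity) (by positivity), one_mul]
  have h4 : (n : ℝ) ^ (c / 3) = ((n : ℝ) ^ (c / 6)) ^ 2 := by
    rw [← Real.rpow_natCast, ← Real.rpow_mul hn0.le]
    congr 1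
    push_cast; ring
  rw [h4, ← mul_pow]
  gcongr

/-! ## the reduction -/

theorem Ivl00 : Ivl 0 0 = Ico (0 : ℝ) 1 := by
  unfold Ivl
  simp

/-- the real form of the linearised integral -/
lemma lint_eq {f : ℝ → ℂ} (hf : Measurable f) {M : ℝ} (hM : ∀ x, ‖f x‖ ≤ M) {θ : ℝ → ℝ}
    (hθ : Measurable θ) (al : ℕ → ℤ → Prop) (m : ℕ) :
    ∫⁻ x in Ivl 0 0, ‖SS (coef f (θ x)) al 0 m x‖ₑ =
      ENNReal.ofReal (∫ x in Ivl 0 0, ‖SS (coef f (θ x)) al 0 m x‖) := by
  obtain ⟨s, hs, hs1, hs2⟩ := exists_phase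
    (measurable_SSh (h := fun _ => f) (al := al) (fun _ => hf) (fun _ => hM) hθ 0 m)
  have h1 := integrableOn_SSh (al := al) (h := fun _ => f) hs hθ hs1 (fun _ => hf) (fun _ => hM) 0
    (le_refl 0) m 0
  have h2 : IntegrableOn (fun x => SS (coef f (θ x)) al 0 m x) (Ivl 0 0) := by
    have hm : Measurable fun x => SS (coef f (θ x)) al 0 m x :=
      measurable_SSh (h := fun _ => f) (al := al) (fun _ => hf) (fun _ => hM) hθ 0 m
    refine Integrable.mono h1 hm.aestronglyMeasurable (Eventually.of_forall fun x => ?_)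
    simp only [zero_add]
    rw [SSh_const]
    have e1 := hs2 x
    rw [SSh_const] at e1
    rw [e1, Complex.norm_real, norm_norm]
  rw [ofReal_integral_norm_eq_lintegral_enorm h2]

/-- **SH3** -/
theorem ModelMulti_of_CoreX (hX : CoreX) : ModelMulti := by
  classical
  obtain ⟨A, c0, hA, hc0, n0, hX⟩ := hX
  obtain ⟨C, hC, hH⟩ := huntInt
  set c : ℝ := min c0 1 with hc
  have hcpos : 0 < c := lt_min hc0 one_pos
  have hc1 : c ≤ 1 := min_le_right _ _
  obtain ⟨K, hK0, hK⟩ := log_sq_le hcpos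
  have hn0l : 0 ≤ Real.log (n0 + 1 : ℝ) := Real.log_nonneg (by
    have : (0 : ℝ) ≤ n0 := Nat.cast_nonneg _
    linarith)
  refine ⟨A + 2 * C * (1 + Real.log (n0 + 1)) ^ 2 + 9 * C * K, by positivity, ?_⟩
  intro n hn f hf hfn θ hθ hθr m
  have hn1 : (1 : ℝ) ≤ n := by exact_mod_cast hn
  have hn00 : (0 : ℝ) < n := by linarith
  have hlogn : 0 ≤ Real.log n := Real.log_nonneg hn1
  set B1 : ℝ := 2 * C * (1 + Real.log (n0 + 1)) ^ 2 with hB1
  have hB10 : 0 ≤ B1 := by positivity
  have hB2C : 2 * C ≤ B1 := by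
    rw [hB1]
    have : (1 : ℝ) ≤ (1 + Real.log (n0 + 1)) ^ 2 := by nlinarith
    nlinarith
  rw [← Ivl00]
  have hfi : IntegrableOn f (Ivl 0 0) := intOn 0 0 hf hfn
  have hfI : ∫⁻ x in Ivl 0 0, ‖f x‖ₑ = ENNReal.ofReal (∫ x in Ivl 0 0, ‖f x‖) :=
    (ofReal_integral_norm_eq_lintegral_enorm hfi).symm
  have hI0 : 0 ≤ ∫ x in Ivl 0 0, ‖f x‖ := integral_nonneg fun _ => norm_nonneg _
  have hTL : ∀ x, TL m f (θ x) x = SS (coef f (θ x)) (alive f) 0 m x := fun x => TL_eq m f (θ x) x
  simp_rw [hTL]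
  rw [hfI, ← ENNReal.ofReal_mul (by positivity), ← ENNReal.ofReal_add (by positivity) (by positivity)]
  rcases lt_or_ge n n0 with hnn | hnn
  · -- small `n`
    refine (hH n hn f hf hfn (alive f) (alive_closed f) (alive_av f) θ hθ hθr m 0).trans ?_
    apply ENNReal.ofReal_le_ofReal
    rw [pow_zero, pow_zero, one_mul]
    push_cast
    rw [add_zero]
    have h1 : Real.log n ≤ Real.log (n0 + 1) := by
      refine Real.log_le_log hn00 ?_
      have : (n : ℝ) < n0 := by exact_mod_cast hnn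
      linarith
    have h2 : 2 * C * n ≤ B1 * n / (1 + Real.log n) ^ 2 := by
      rw [le_div_iff₀ (by positivity), hB1]
      have h3 : (1 + Real.log n) ^ 2 ≤ (1 + Real.log (n0 + 1)) ^ 2 := by gcongr
      calc 2 * C * n * (1 + Real.log n) ^ 2 ≤ 2 * C * n * (1 + Real.log (n0 + 1)) ^ 2 := by gcongr
        _ = _ := by ring
    have h4 : C * (n + 1) * (1 + ∫ y in Ivl 0 0, ‖f y‖) ≤
        2 * C * n + 2 * C * n * ∫ y in Ivl 0 0, ‖f y‖ := by
      have : C * (n + 1) ≤ 2 * C * n := by nlinarith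
      calc C * (n + 1) * (1 + ∫ y in Ivl 0 0, ‖f y‖)
          ≤ 2 * C * n * (1 + ∫ y in Ivl 0 0, ‖f y‖) := by gcongr
        _ = _ := by ring
    have h5 : B1 * n / (1 + Real.log n) ^ 2 ≤
        (A + B1 + 9 * C * K) * n / (1 + Real.log n) ^ 2 := by
      gcongr
      have : 0 ≤ 9 * C * K := by positivity
      linarith
    have h6 : 2 * C * n * ∫ y in Ivl 0 0, ‖f y‖ ≤
        (A + B1 + 9 * C * K) * n * ∫ y in Ivl 0 0, ‖f y‖ := by
      gcongr
      have : 0 ≤ 9 * C * K := by positivity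
      linarith
    linarith
  · -- large `n`
    obtain ⟨s, hs, hs1, hlin⟩ := exists_linearisation (M := 2 ^ n) hf hfn hθ (alive f) m 0 0 rfl
    set P : ℝ → ℂ := Pay s θ (alive f) m with hP
    have hPm : Measurable P := measurable_Pay hs hθ m
    set E : Set ℝ := {y | A * n < ‖P y‖} with hE
    have hEm : MeasurableSet E := measurableSet_lt measurable_const hPm.norm
    set g : ℝ → ℂ := E.indicator f with hg
    have hgm : Measurable g := hf.indicator hEm
    have hgf : ∀ y, ‖g y‖ ≤ ‖f y‖ := fun y => norm_indicator_le_norm_self _ _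
    have hgn : ∀ y, ‖g y‖ ≤ 2 ^ n := fun y => (hgf y).trans (hfn y)
    have hgav : ∀ k j, alive f k j → avN g k j ≤ 1 := by
      intro k j hkj
      refine le_trans ?_ (alive_av f k j hkj)
      unfold avN
      refine mul_le_mul_of_nonneg_left ?_ (by positivity)
      exact integral_mono (intOn k j hgm hgn).norm (intOn k j hf hfn).norm fun y => hgf y
    have hb := hX n hnn s θ (alive f) (fun y => ‖g y‖) m hs hs1 hθ hgm.norm
      (fun y => ⟨norm_nonneg _, hgn y⟩) (alive_closed f) (fun k j hkj => by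
        refine le_trans (le_of_eq ?_) (hgav k j hkj)
        unfold avN
        simp only [Complex.norm_real, norm_norm]) (fun y _ hy => by
        refine ⟨m, le_rfl, ?_⟩
        have hyE : y ∈ E := by
          by_contra hcon
          apply hy
          rw [hg, indicator_of_notMem hcon, norm_zero]
        exact le_of_lt hyE)
    set b : ℝ := ∫ y in Ivl 0 0, ‖g y‖ with hbdef
    have hb0 : 0 ≤ b := integral_nonneg fun _ => norm_nonneg _
    have hbc : b ≤ (n : ℝ) ^ (-c) := by
      refine hb.trans (Real.rpow_le_rpow_of_exponent_le hn1 ?_)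
      have := min_le_left c0 1
      linarith
    obtain ⟨j, hj1, hj2⟩ := choose_level hcpos hc1 hn
    -- the identity
    have hPay : Integrable (fun y => g y * P y) (volume.restrict (Ivl 0 0)) := by
      have := intOn (M := 2 ^ n * m) 0 0 (hgm.mul hPm) (fun y => by
        rw [Pi.mul_apply, norm_mul]
        exact mul_le_mul (hgn y) (norm_Pay hs1 m y) (norm_nonneg _) (by positivity))
      exact this
    have hPay2 : Integrable (fun y => Eᶜ.indicator f y * P y) (volume.restrict (Ivl 0 0)) := by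
      have := intOn (M := 2 ^ n * m) 0 0 ((hf.indicator hEm.compl).mul hPm) (fun y => by
        rw [Pi.mul_apply, norm_mul]
        exact mul_le_mul ((norm_indicator_le_norm_self _ _).trans (hfn y)) (norm_Pay hs1 m y)
          (norm_nonneg _) (by positivity))
      exact this
    have hsplit : ∫ y in Ivl 0 0, f y * P y =
        (∫ y in Ivl 0 0, Eᶜ.indicator f y * P y) + ∫ y in Ivl 0 0, g y * P y := by
      rw [← integral_add hPay2 hPay]
      refine integral_congr_ae (Eventually.of_forall fun y => ?_)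
      simp only
      rw [← add_mul, hg]
      congr 1
      by_cases hy : y ∈ E
      · rw [indicator_of_mem hy, indicator_of_notMem (by simpa using hy), zero_add]
      · rw [indicator_of_notMem hy, indicator_of_mem (show y ∈ Eᶜ from hy), add_zero]
    have hfirst : ‖∫ y in Ivl 0 0, Eᶜ.indicator f y * P y‖ ≤ A * n * ∫ y in Ivl 0 0, ‖f y‖ := by
      rw [← integral_const_mul]
      refine (norm_integral_le_integral_norm _).trans ?_
      refine integral_mono hPay2.norm (hfi.norm.const_mul _) fun y => ?_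
      simp only
      rw [norm_mul]
      by_cases hy : y ∈ E
      · rw [indicator_of_notMem (by simpa using hy), norm_zero, zero_mul]
        positivity
      · rw [indicator_of_mem (show y ∈ Eᶜ from hy), mul_comm]
        have : ‖P y‖ ≤ A * n := not_lt.1 hy
        gcongr
    have hsecond : ‖∫ y in Ivl 0 0, g y * P y‖ ≤
        C * (n + j + 1) * (rr ^ j + 2 ^ j * b) := by
      have h1 := exact_id (al := alive f) (h := fun _ => g) hs hθ hs1 (fun _ => hgm)
        (fun _ => hgn) 0 (le_refl 0) m 0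
      have h3 : ∫ y in Ivl 0 0, ∑ k ∈ Finset.Ico 0 m, g y * e (-0) y * pay s θ (alive f) k y =
          ∫ y in Ivl 0 0, g y * P y := by
        refine setIntegral_congr_fun (measurableSet_Ivl _ _) fun y _ => ?_
        have : e (-0) y = 1 := by unfold e; simp
        simp only [this, mul_one]
        rw [← Finset.mul_sum, ← Finset.range_eq_Ico]
        rfl
      have h4 := h1.trans h3
      rw [← h4]
      have h5 : ‖∫ x in Ivl 0 0, s x * SSh (fun _ => g) (alive f) 0 m (0 + θ x) x‖ ≤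
          ∫ x in Ivl 0 0, ‖SS (coef g (θ x)) (alive f) 0 m x‖ := by
        refine (norm_integral_le_integral_norm _).trans ?_
        have hi := (integrableOn_SSh (al := alive f) (h := fun _ => g) hs hθ hs1 (fun _ => hgm)
          (fun _ => hgn) 0 (le_refl 0) m 0).norm
        obtain ⟨s', hs', hs1', hs2'⟩ := exists_phase
          (measurable_SSh (h := fun _ => g) (al := alive f) (fun _ => hgm) (fun _ => hgn) hθ 0 m)
        have hi2 := (integrableOn_SSh (al := alive f) (h := fun _ => g) hs' hθ hs1' (fun _ => hgm)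
          (fun _ => hgn) 0 (le_refl 0) m 0).norm
        have e2 : (fun x => ‖s' x * SSh (fun _ => g) (alive f) 0 m (0 + θ x) x‖) =
            fun x => ‖SS (coef g (θ x)) (alive f) 0 m x‖ := by
          ext x
          have := hs2' x
          rw [zero_add, this, Complex.norm_real, norm_norm, SSh_const]
        rw [e2] at hi2
        refine integral_mono hi hi2 fun x => ?_
        simp only [zero_add]
        rw [norm_mul, SSh_const]
        exact mul_le_of_le_one_left (norm_nonneg _) (hs1 x)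
      refine h5.trans ?_
      have h6 := hH n hn g hgm hgn (alive f) (alive_closed f) hgav θ hθ hθr m j
      rw [lint_eq hgm hgn hθ] at h6
      rwa [ENNReal.ofReal_le_ofReal_iff (by
        have : 0 ≤ rr ^ j := pow_nonneg rr_pos.le j
        have : 0 ≤ 2 ^ j * b := by positivity
        positivity)] at h6
    rw [lint_eq hf hfn hθ]
    apply ENNReal.ofReal_le_ofReal
    have hmain : ∫ x in Ivl 0 0, ‖SS (coef f (θ x)) (alive f) 0 m x‖ ≤
        A * n * (∫ y in Ivl 0 0, ‖f y‖) + C * (n + j + 1) * (rr ^ j + 2 ^ j * b) := by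
      have h0 : 0 ≤ ∫ x in Ivl 0 0, ‖SS (coef f (θ x)) (alive f) 0 m x‖ :=
        integral_nonneg fun _ => norm_nonneg _
      have h1 : ∫ x in Ivl 0 0, ‖SS (coef f (θ x)) (alive f) 0 m x‖ =
          ‖((∫ x in Ivl 0 0, ‖SS (coef f (θ x)) (alive f) 0 m x‖ : ℝ) : ℂ)‖ := by
        rw [Complex.norm_real, Real.norm_eq_abs, abs_of_nonneg h0]
      rw [h1, hlin, hsplit]
      exact (norm_add_le _ _).trans (add_le_add hfirst hsecond)
    refine hmain.trans (add_le_add ?_ ?_)
    · gcongr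
      have : 0 ≤ 9 * C * K := by positivity
      linarith
    · have h1 := hj2 b hb0 hbc
      have h2 := hK n hn
      have hjn : (j : ℝ) ≤ n := by exact_mod_cast hj1
      have h3 : 0 ≤ rr ^ j + 2 ^ j * b := by
        have : 0 ≤ rr ^ j := pow_nonneg rr_pos.le j
        positivity
      calc C * (n + j + 1) * (rr ^ j + 2 ^ j * b) ≤ C * (3 * n) * (3 * (K / (1 + Real.log n) ^ 2)) := by
            have h4 : (n : ℝ) + j + 1 ≤ 3 * n := by linarith
            have h5 : rr ^ j + 2 ^ j * b ≤ 3 * (K / (1 + Real.log n) ^ 2) := by linarith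
            gcongr
        _ = (9 * C * K) * n / (1 + Real.log n) ^ 2 := by ring
        _ ≤ _ := by
            gcongr
            linarith

/-- **everything above the core** -/
theorem result_of_CoreX (hX : CoreX) {T : ℝ} [hT : Fact (0 < T)]
    (f : AddCircle T → ℂ)
    (hf : AEStronglyMeasurable f (AddCircle.haarAddCircle (T := T)))
    (hlog : ∫⁻ x, ‖f x‖ₑ * ENNReal.ofReal (Real.log (2 + ‖f x‖))
      ∂(AddCircle.haarAddCircle (T := T)) < ⊤) :
    ∀ᵐ x ∂(AddCircle.haarAddCircle (T := T)), Tendsto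
      (fun N : ℕ => ∑ k ∈ Finset.Icc (-(N : ℤ)) N, fourierCoeff f k • fourier k x)
      atTop (𝓝 (f x)) :=
  Multi701.result_of_ModelMulti (ModelMulti_of_CoreX hX) f hf hlog

end Crest.Agent.R100.SH3701
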