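import Crest.Agent.R100.UBX_905
import Crest.Agent.R100.Tops_279

/-!
# R100 / S0132, helper279: `TopsStmt`
-/

set_option autoImplicit false

open MeasureTheory Set
open scoped ENNReal

namespace Crest.Agent.R100.Grid279

theorem topsStmt : UBX905.TopsStmt := by
  refine ⟨640000, 3 * 10 ^ 9, 3, 5, by norm_num, by norm_num, ?_⟩
  intro g κ M m k0 j0 h W hg hM hκ hm hk0 hsupp hQ hW hh _ a ha ha2
  exact tops_all hg hM hκ ((hk0 0).le.trans (hm 0)) hsupp hQ hh
    (fun l hl jj I Y hY => hW l hl jj I Y hY) ha ha2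

end Crest.Agent.R100.Grid279
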