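import Crest.Agent.R100.Core_905
import Crest.Agent.R100.UBX_905
import Crest.Agent.R100.RunX_711
import Crest.Agent.R100.TopsX_279
import Crest.Agent.R100.Num2_801
import Crest.Agent.R100.SH3_701

/-!
# R100 / S0132: the core (all blocks composed)
-/

set_option autoImplicit false

namespace Crest.Agent.R100.Fin905

theorem coreX : CoreX916.CoreX :=
  Core905.coreX_of (UBX905.ubStmt UB711.runStmt Grid279.topsStmt) Num801.num

end Crest.Agent.R100.Fin905
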