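import Crest.Agent.R100.P4_800
import Crest.Agent.R100.HaarS_403

/-!
# R100 / S0132, helper403: partial Fourier sums are dominated by averages of the dyadic model
-/

set_option autoImplicit false

open MeasureTheory Filter Set Topology Metric
open scoped ENNReal NNReal

noncomputable section

namespace Crest.Agent.R100.Glue403

open Crest.Agent.R100.P1800 Crest.Agent.R100.P3800 Crest.Agent.R100.P4800
open Crest.Agent.R100.Haar403

variable {T : ℝ} [hT : Fact (0 < T)]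

local notation "μ" => AddCircle.haarAddCircle (T := T)

/-! ## modulations and dilations -/

lemma dil_mdl (ρ σ θ : ℝ) (F : ℝ → ℂ) :
    dil ρ σ (mdl θ F) = fun y => ee θ (ρ * σ) * mdl (ρ * θ) (dil ρ σ F) y := by
  funext y
  unfold dil mdl
  rw [mul_add, ee_add]
  have : ee θ (ρ * y) = ee (ρ * θ) y := by
    unfold ee; congr 1; push_cast; ring_nf
  rw [this]; ring

lemma Av_const_mul (c : ℂ) (g : ℝ → ℂ) (k : ℕ) (x : ℝ) :
    Av k (fun y => c * g y) x = c * Av k g x := by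
  unfold Av
  rw [intervalIntegral.integral_const_mul]
  ring_nf

lemma D_const_mul (c : ℂ) (g : ℝ → ℂ) (k : ℕ) (x : ℝ) :
    D k (fun y => c * g y) x = c * D k g x := by
  unfold D
  rw [Av_const_mul, Av_const_mul]; ring

lemma H_const_mul (c : ℂ) (g : ℝ → ℂ) (m : ℕ) (x : ℝ) :
    H m (fun y => c * g y) x = c * H m g x := by
  unfold H
  rw [Finset.mul_sum]
  refine Finset.sum_congr rfl fun k _ => ?_
  rw [D_const_mul]; ring

lemma enorm_H_dil_mdl (m : ℕ) (ρ σ θ : ℝ) (F : ℝ → ℂ) (z : ℝ) :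
    ‖H m (dil ρ σ (mdl θ F)) z‖ₑ = ‖H m (mdl (ρ * θ) (dil ρ σ F)) z‖ₑ := by
  rw [dil_mdl, H_const_mul, enorm_mul]
  have h : ‖ee θ (ρ * σ)‖ₑ = 1 := by
    rw [← ofReal_norm, norm_ee, ENNReal.ofReal_one]
  rw [h, one_mul]

/-! ## periodicity -/

omit hT in
lemma intervalIntegrable_norm_lift {f : AddCircle T → ℂ} (hf : Measurable f) {B : ℝ}
    (hB : ∀ x, ‖f x‖ ≤ B) (a b : ℝ) : IntervalIntegrable (fun t => ‖lift f t‖) volume a b := by
  rw [intervalIntegrable_iff]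
  refine Measure.integrableOn_of_bounded (M := B) (by simp) (measurable_lift hf).norm.aestronglyMeasurable
    (ae_of_all _ fun t => ?_)
  rw [norm_norm]
  exact hB _

lemma integral_norm_lift {f : AddCircle T → ℂ} (hf : Measurable f) (a : ℝ) : ∫ t in a..(a + 1), ‖lift f t‖ = ∫ x, ‖f x‖ ∂μ := by
  have h1 := lint_lift hf a
  rw [intervalIntegral.integral_of_le (by linarith)]
  rw [integral_norm_eq_lintegral_enorm (measurable_lift hf).aestronglyMeasurable,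
    integral_norm_eq_lintegral_enorm hf.aestronglyMeasurable, h1]

lemma integral_norm_lift_sub {f : AddCircle T → ℂ} (hf : Measurable f) {B : ℝ}
    (hB : ∀ x, ‖f x‖ ≤ B) (u : ℝ) :
    ∫ t in (-1 : ℝ)..1, ‖lift f (u - t)‖ = 2 * ∫ x, ‖f x‖ ∂μ := by
  have h0 : ∫ t in (-1 : ℝ)..1, ‖lift f (u - t)‖ = ∫ t in (u - 1)..(u - (-1)), ‖lift f t‖ :=
    intervalIntegral.integral_comp_sub_left (fun t => ‖lift f t‖) u
  rw [h0, sub_neg_eq_add,
    ← intervalIntegral.integral_add_adjacent_intervals (b := u)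
      (intervalIntegrable_norm_lift hf hB _ _) (intervalIntegrable_norm_lift hf hB _ _)]
  have h1 := integral_norm_lift hf (u - 1)
  rw [sub_add_cancel] at h1
  rw [h1, integral_norm_lift hf u]
  ring

/-! ## the glue -/

/-- the average over all the grids of the model operator, frequency `θ` -/
def AvH (m : ℕ) (θ : ℝ) (F : ℝ → ℂ) (u : ℝ) : ℝ≥0∞ :=
  ∫⁻ ρ in Ioc (1 / 2 : ℝ) 1, ∫⁻ σ in Ioc (0 : ℝ) 1,
    ‖H m (mdl (ρ * θ) (dil ρ σ F)) (u / ρ - σ)‖ₑ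

/-- **partial sums are dominated by averages of the dyadic model operator** -/
theorem enorm_S_le {f : AddCircle T → ℂ} (hf : Measurable f) {B : ℝ} (hB : ∀ x, ‖f x‖ ≤ B)
    (N m : ℕ) (u : ℝ) :
    ‖S f N (ph u)‖ₑ ≤
      8 * (AvH m (-(N + 1 / 2)) (lift f) u + AvH m (N + 1 / 2) (lift f) u) +
        ENNReal.ofReal (33 * (∫ x, ‖f x‖ ∂μ) + 18 * (2 * Real.pi * (N + 1 / 2)) * B * (2 ^ m)⁻¹) := by
  have hk := S_sub_kernel hf hB N u
  have hB0 : 0 ≤ B := (norm_nonneg _).trans (hB 0)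
  have hθ : (0 : ℝ) ≤ N + 1 / 2 := by positivity
  have hs := enorm_sinInt_le (measurable_lift hf) (fun y => hB (ph y)) m hθ u
  have hI0 : 0 ≤ ∫ x, ‖f x‖ ∂μ := integral_nonneg fun _ => norm_nonneg _
  have e1 : (∫ t in (-(1 / 2) : ℝ)..(1 / 2),
      lift f (u - t) * ((Real.sin ((2 * N + 1) * Real.pi * t) / t : ℝ) : ℂ)) =
      ∫ t in (-(1 / 2) : ℝ)..(1 / 2),
        ((Real.sin (2 * Real.pi * (N + 1 / 2) * t) * t⁻¹ : ℝ) : ℂ) * lift f (u - t) := by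
    refine intervalIntegral.integral_congr fun t _ => ?_
    rw [mul_comm, div_eq_mul_inv]
    congr 5
    ring
  rw [e1] at hk
  set I : ℂ := ∫ t in (-(1 / 2) : ℝ)..(1 / 2),
        ((Real.sin (2 * Real.pi * (N + 1 / 2) * t) * t⁻¹ : ℝ) : ℂ) * lift f (u - t) with hI
  have hpi : ‖(1 / Real.pi : ℂ)‖ₑ ≤ 1 := by
    rw [← ofReal_norm]
    refine ENNReal.ofReal_le_one.2 ?_
    rw [norm_div, norm_one, Complex.norm_real, Real.norm_eq_abs, abs_of_pos Real.pi_pos,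
      div_le_one Real.pi_pos]
    linarith [Real.pi_gt_three]
  have h1 : ‖S f N (ph u)‖ₑ ≤ ‖I‖ₑ + ENNReal.ofReal (∫ x, ‖f x‖ ∂μ) := by
    calc ‖S f N (ph u)‖ₑ = ‖(1 / Real.pi : ℂ) * I + (S f N (ph u) - (1 / Real.pi : ℂ) * I)‖ₑ := by
          congr 1; ring
      _ ≤ ‖(1 / Real.pi : ℂ) * I‖ₑ + ‖S f N (ph u) - (1 / Real.pi : ℂ) * I‖ₑ := enorm_add_le _ _
      _ ≤ ‖I‖ₑ + ENNReal.ofReal (∫ x, ‖f x‖ ∂μ) := by
          refine add_le_add ?_ ?_
          · rw [enorm_mul]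
            calc ‖(1 / Real.pi : ℂ)‖ₑ * ‖I‖ₑ ≤ 1 * ‖I‖ₑ := by gcongr
              _ = ‖I‖ₑ := one_mul _
          · rw [← ofReal_norm]
            exact ENNReal.ofReal_le_ofReal hk
  have h2 : ‖I‖ₑ ≤ 8 * (AvH m (-(N + 1 / 2)) (lift f) u + AvH m (N + 1 / 2) (lift f) u) +
      ENNReal.ofReal (32 * (∫ x, ‖f x‖ ∂μ) + 18 * (2 * Real.pi * (N + 1 / 2)) * B * (2 ^ m)⁻¹) := by
    refine hs.trans (le_of_eq ?_)
    unfold AvH
    simp_rw [enorm_H_dil_mdl]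
    rw [integral_norm_lift_sub hf hB u]
    congr 3
    ring
  calc ‖S f N (ph u)‖ₑ ≤ ‖I‖ₑ + ENNReal.ofReal (∫ x, ‖f x‖ ∂μ) := h1
    _ ≤ (8 * (AvH m (-(N + 1 / 2)) (lift f) u + AvH m (N + 1 / 2) (lift f) u) +
      ENNReal.ofReal (32 * (∫ x, ‖f x‖ ∂μ) + 18 * (2 * Real.pi * (N + 1 / 2)) * B * (2 ^ m)⁻¹)) +
        ENNReal.ofReal (∫ x, ‖f x‖ ∂μ) := by gcongr
    _ = 8 * (AvH m (-(N + 1 / 2)) (lift f) u + AvH m (N + 1 / 2) (lift f) u) +
        ENNReal.ofReal (33 * (∫ x, ‖f x‖ ∂μ) +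
          18 * (2 * Real.pi * (N + 1 / 2)) * B * (2 ^ m)⁻¹) := by
        rw [add_assoc, ← ENNReal.ofReal_add (by positivity) hI0]
        congr 2
        ring

end Crest.Agent.R100.Glue403
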