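import Mathlib.MeasureTheory.Integral.Bochner.Basic
import Mathlib.Analysis.InnerProductSpace.Basic
import Mathlib.MeasureTheory.Integral.Bochner.ContinuousLinearMap
import Mathlib.Tactic

/-!
Amplitude form of the Bessel inequality from a bound on the total Gram mass (helper801, R100).
-/

set_option autoImplicit false

open MeasureTheory
open scoped ComplexConjugate

noncomputable section

namespace Crest.Agent.R100.Gram801

/-- If the total Gram mass of the family `P i` is at most `K * ∑ w i` and every `P i` has a coefficient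
`≥ δ w i` with `f`, then `∑ w i ≤ K δ⁻² ∫ |f|²`. -/
theorem bessel_of_gram {α ι : Type*} [MeasurableSpace α] {μ : Measure α} (T : Finset ι)
    (P : ι → α → ℂ) (w : ι → ℝ) {K : ℝ} (hw : ∀ i ∈ T, 0 ≤ w i)
    (hPm : ∀ i ∈ T, AEStronglyMeasurable (P i) μ)
    (hGi : ∀ i ∈ T, ∀ j ∈ T, Integrable (fun y => conj (P i y) * P j y) μ)
    (hK : 0 ≤ K)
    (htot : ∑ i ∈ T, ∑ j ∈ T, ‖∫ y, conj (P i y) * P j y ∂μ‖ ≤ K * ∑ i ∈ T, w i)
    {f : α → ℂ} (hf : AEStronglyMeasurable f μ) (hf2 : Integrable (fun y => ‖f y‖ ^ 2) μ)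
    {δ : ℝ} (hδ : 0 < δ)
    (hheavy : ∀ i ∈ T, δ * w i ≤ ‖∫ y, conj (P i y) * f y ∂μ‖) :
    ∑ i ∈ T, w i ≤ K / δ ^ 2 * ∫ y, ‖f y‖ ^ 2 ∂μ := by
  classical
  set G : ι → ι → ℂ := fun i j => ∫ y, conj (P i y) * P j y ∂μ with hG
  -- unimodular coefficients
  set b : ι → ℂ := fun i => ∫ y, conj (P i y) * f y ∂μ with hb
  set c : ι → ℂ := fun i => conj (b i) / (‖b i‖ : ℂ) with hc
  have hcn : ∀ i, ‖c i‖ ≤ 1 := by
    intro i
    simp only [hc, norm_div, RCLike.norm_conj, Complex.norm_real, norm_norm]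
    exact div_self_le_one _
  have hcb : ∀ i, c i * b i = (‖b i‖ : ℂ) := by
    intro i
    simp only [hc]
    by_cases h0 : b i = 0
    · simp [h0]
    · have : (‖b i‖ : ℂ) ≠ 0 := by simpa using h0
      rw [div_mul_eq_mul_div, div_eq_iff this, mul_comm, Complex.mul_conj, Complex.normSq_eq_norm_sq]
      push_cast; ring
  set F : α → ℂ := fun y => ∑ i ∈ T, conj (c i) * P i y with hF
  have hFsq : ∀ y, ((‖F y‖ ^ 2 : ℝ) : ℂ)
      = ∑ i ∈ T, ∑ j ∈ T, (c i * conj (c j)) * (conj (P i y) * P j y) := by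
    intro y
    have h1 : ((‖F y‖ ^ 2 : ℝ) : ℂ) = conj (F y) * F y := by
      rw [mul_comm, Complex.mul_conj, Complex.normSq_eq_norm_sq]
    rw [h1]
    simp only [hF, map_sum, map_mul, Complex.conj_conj]
    rw [Finset.sum_mul_sum]
    refine Finset.sum_congr rfl fun i _ => Finset.sum_congr rfl fun j _ => ?_
    ring
  have hFi : Integrable (fun y => ((‖F y‖ ^ 2 : ℝ) : ℂ)) μ := by
    simp_rw [hFsq]
    exact integrable_finsetSum _ fun i hi => integrable_finsetSum _ fun j hj =>
      (hGi i hi j hj).const_mul _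
  have hFi' : Integrable (fun y => ‖F y‖ ^ 2) μ := by
    have := hFi.re
    simpa only [RCLike.re_eq_complex_re, Complex.ofReal_re] using this
  have hFint : ∫ y, ‖F y‖ ^ 2 ∂μ ≤ K * ∑ i ∈ T, w i := by
    have h1 : ((∫ y, ‖F y‖ ^ 2 ∂μ : ℝ) : ℂ) = ∑ i ∈ T, ∑ j ∈ T, (c i * conj (c j)) * G i j := by
      rw [← integral_complex_ofReal]
      simp_rw [hFsq]
      rw [integral_finsetSum _ fun i hi => integrable_finsetSum _ fun j hj =>
        (hGi i hi j hj).const_mul _]
      refine Finset.sum_congr rfl fun i hi => ?_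
      rw [integral_finsetSum _ fun j hj => (hGi i hi j hj).const_mul _]
      refine Finset.sum_congr rfl fun j _ => ?_
      rw [integral_const_mul]
    have h2 : ‖((∫ y, ‖F y‖ ^ 2 ∂μ : ℝ) : ℂ)‖ ≤ ∑ i ∈ T, ∑ j ∈ T, ‖G i j‖ := by
      rw [h1]
      refine (norm_sum_le _ _).trans (Finset.sum_le_sum fun i _ => ?_)
      refine (norm_sum_le _ _).trans (Finset.sum_le_sum fun j _ => ?_)
      rw [norm_mul, norm_mul, RCLike.norm_conj]
      have : ‖c i‖ * ‖c j‖ ≤ 1 := mul_le_one₀ (hcn i) (norm_nonneg _) (hcn j)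
      exact mul_le_of_le_one_left (norm_nonneg _) this
    have h3 : ∫ y, ‖F y‖ ^ 2 ∂μ ≤ ‖((∫ y, ‖F y‖ ^ 2 ∂μ : ℝ) : ℂ)‖ := by
      rw [Complex.norm_real]; exact le_abs_self _
    linarith
  set S := ∑ i ∈ T, w i with hS
  set E := ∫ y, ‖f y‖ ^ 2 ∂μ with hE
  have hE0 : 0 ≤ E := integral_nonneg fun y => by positivity
  have hpf : ∀ i ∈ T, Integrable (fun y => conj (P i y) * f y) μ := by
    intro i hi
    refine Integrable.mono' (g := fun y => (‖P i y‖ ^ 2 + ‖f y‖ ^ 2)) ?_ ?_ ?_
    · refine Integrable.add ?_ hf2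
      have := (hGi i hi i hi).re
      refine this.congr (Filter.Eventually.of_forall fun y => ?_)
      simp only [RCLike.re_eq_complex_re]
      rw [mul_comm, Complex.mul_conj, Complex.normSq_eq_norm_sq, Complex.ofReal_re]
    · exact (Complex.continuous_conj.comp_aestronglyMeasurable (hPm i hi)).mul hf
    · refine Filter.Eventually.of_forall fun y => ?_
      rw [norm_mul, RCLike.norm_conj]
      nlinarith [sq_nonneg (‖P i y‖ - ‖f y‖), sq_nonneg ‖P i y‖, sq_nonneg ‖f y‖]
  have hlow : δ * S ≤ ‖∫ y, conj (F y) * f y ∂μ‖ := by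
    have h1 : ∫ y, conj (F y) * f y ∂μ = ∑ i ∈ T, ((‖b i‖ : ℝ) : ℂ) := by
      simp only [hF, map_sum, map_mul, Complex.conj_conj, Finset.sum_mul]
      rw [integral_finsetSum]
      · refine Finset.sum_congr rfl fun i _ => ?_
        rw [← hcb i]
        simp only [hb]
        rw [← integral_const_mul]
        congr 1; ext y; ring
      · intro i hi
        have := (hpf i hi).const_mul (c i)
        refine this.congr (Filter.Eventually.of_forall fun y => ?_)
        simp only; ring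
    rw [h1, ← Complex.ofReal_sum, Complex.norm_real, hS, Finset.mul_sum]
    refine le_trans (Finset.sum_le_sum fun i hi => hheavy i hi) (le_abs_self _)
  have hup : ∀ t : ℝ, 0 < t → ‖∫ y, conj (F y) * f y ∂μ‖ ≤ (t * E + (K * S) / t) / 2 := by
    intro t ht
    have h1 : ‖∫ y, conj (F y) * f y ∂μ‖ ≤ ∫ y, (t * ‖f y‖ ^ 2 + (1 / t) * ‖F y‖ ^ 2) / 2 ∂μ := by
      refine norm_integral_le_of_norm_le
        (((hf2.const_mul t).add (hFi'.const_mul (1 / t))).div_const 2)
        (Filter.Eventually.of_forall fun y => ?_)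
      rw [norm_mul, RCLike.norm_conj]
      have h2 : 0 ≤ (t * ‖f y‖ - ‖F y‖) ^ 2 / t := by positivity
      have h3 : (t * ‖f y‖ - ‖F y‖) ^ 2 / t
          = t * ‖f y‖ ^ 2 + (1 / t) * ‖F y‖ ^ 2 - 2 * (‖F y‖ * ‖f y‖) := by
        field_simp; ring
      linarith
    rw [integral_div, integral_add (hf2.const_mul t) (hFi'.const_mul (1 / t)),
      integral_const_mul, integral_const_mul] at h1
    refine h1.trans ?_
    have : (1 / t) * ∫ y, ‖F y‖ ^ 2 ∂μ ≤ (K * S) / t := by
      rw [one_div, div_eq_inv_mul]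
      exact mul_le_mul_of_nonneg_left hFint (by positivity)
    linarith
  have hS0 : 0 ≤ S := Finset.sum_nonneg fun i hi => hw i hi
  rcases hK.eq_or_lt with hA | hA2
  · have h2 : ∀ t : ℝ, 0 < t → δ * S ≤ t * E / 2 := by
      intro t ht
      have := hlow.trans (hup t ht)
      simpa [← hA] using this
    have h3 : δ * S ≤ 0 := by
      refine le_of_forall_pos_le_add fun ε hε => ?_
      have h4 := h2 (2 * ε / (E + 1)) (by positivity)
      refine h4.trans ?_
      have h5 : E / (E + 1) ≤ 1 := (div_le_one (by positivity)).2 (by linarith)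
      have h6 : 2 * ε / (E + 1) * E / 2 = ε * (E / (E + 1)) := by field_simp
      rw [h6, zero_add]
      exact mul_le_of_le_one_right hε.le h5
    have h4 : S ≤ 0 := by
      by_contra hcon
      have := mul_pos hδ (not_le.1 hcon)
      linarith
    rw [← hA]
    simpa using h4
  · have h2 := hlow.trans (hup (K / δ) (by positivity))
    have h3 : (K * S) / (K / δ) = δ * S := by field_simp
    rw [h3] at h2
    have h4 : δ * S ≤ K / δ * E := by linarith
    have h5 : K / δ ^ 2 * E = (K / δ * E) / δ := by field_simp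
    rw [h5, le_div_iff₀ hδ]
    linarith

end Crest.Agent.R100.Gram801
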