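import Crest.Agent.R100.Wide_933
import Crest.Agent.R100.Gram_801

/-!
# R100 / S0132, block B11 (helper79): packing of the tiles around one frequency, variable scales,
sharp dyadic cells, real frequencies (doc 1968, section 7).
-/

set_option autoImplicit false

open MeasureTheory Set
open scoped ENNReal ComplexConjugate

noncomputable section

namespace Crest.Agent.R100.Pack79

open Crest.Agent.R100.Mart933 Crest.Agent.R100.Wide933

/-! ## induction over the nodes -/

theorem node_ind {P : ℕ → ℤ → Prop}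
    (hs : ∀ k j, P (k + 1) (2 * j) → P (k + 1) (2 * j + 1) → P k j) {l : ℕ}
    (hl : ∀ j, P l j) {k : ℕ} (hk : k ≤ l) : ∀ j, P k j := by
  induction hk using Nat.decreasingInduction with
  | of_succ k _ ih => exact fun j => hs k j (ih _) (ih _)
  | self => exact hl

theorem norm_node {G : ℝ → ℂ} (hG : ∀ k j, IntegrableOn G (Ivl k j)) {C : ℝ} {l : ℕ}
    (hl : ∀ j, ‖∫ x in Ivl l j, G x‖ ≤ C / 2 ^ l) {k : ℕ} (hk : k ≤ l) (j : ℤ) :
    ‖∫ x in Ivl k j, G x‖ ≤ C / 2 ^ k := by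
  refine node_ind (P := fun k j => ‖∫ x in Ivl k j, G x‖ ≤ C / 2 ^ k) ?_ hl hk j
  intro k j h1 h2
  rw [integral_Ivl hG]
  refine (norm_add_le _ _).trans ((add_le_add h1 h2).trans (le_of_eq ?_))
  rw [pow_succ]
  field_simp
  ring

/-! ## averages -/

/-- average of `u` on the node -/
def av (u : ℝ → ℂ) (k : ℕ) (j : ℤ) : ℂ := (2 : ℂ) ^ k * ∫ y in Ivl k j, u y

/-- conditional expectation -/
def Ek (u : ℝ → ℂ) (k : ℕ) (x : ℝ) : ℂ := av u k (fl k x)

theorem measurable_Ek (u : ℝ → ℂ) (k : ℕ) : Measurable (Ek u k) :=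
  measurable_fl_comp k (fun j => av u k j)

theorem norm_setIntegral_Ivl_le {u : ℝ → ℂ} {Q : ℝ} (hQ : ∀ x, ‖u x‖ ≤ Q) (k : ℕ) (j : ℤ) :
    ‖∫ y in Ivl k j, u y‖ ≤ Q / 2 ^ k := by
  have h := norm_setIntegral_le_of_norm_le_const (μ := volume) (s := Ivl k j) (f := u) (C := Q)
    (by rw [volume_Ivl]; exact ENNReal.ofReal_lt_top) (fun x _ => hQ x)
  refine h.trans (le_of_eq ?_)
  rw [volume_real_Ivl]
  ring

theorem norm_av_le {u : ℝ → ℂ} {Q : ℝ} (hQ : ∀ x, ‖u x‖ ≤ Q) (k : ℕ) (j : ℤ) : ‖av u k j‖ ≤ Q := by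
  unfold av
  rw [norm_mul, norm_pow, Complex.norm_ofNat]
  have := norm_setIntegral_Ivl_le hQ k j
  calc (2 : ℝ) ^ k * ‖∫ y in Ivl k j, u y‖ ≤ 2 ^ k * (Q / 2 ^ k) := by gcongr
    _ = Q := by field_simp

theorem norm_Ek_le {u : ℝ → ℂ} {Q : ℝ} (hQ : ∀ x, ‖u x‖ ≤ Q) (k : ℕ) (x : ℝ) : ‖Ek u k x‖ ≤ Q :=
  norm_av_le hQ _ _

theorem integral_eq_av (u : ℝ → ℂ) (k : ℕ) (j : ℤ) :
    ∫ y in Ivl k j, u y = av u k j / 2 ^ k := by
  unfold av
  field_simp

theorem Ek_eq {u : ℝ → ℂ} {k : ℕ} {j : ℤ} {x : ℝ} (hx : x ∈ Ivl k j) : Ek u k x = av u k j := by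
  unfold Ek
  rw [mem_Ivl.1 hx]

theorem setIntegral_congr_Ivl {E : Type*} [NormedAddCommGroup E] [NormedSpace ℝ E]
    {F G : ℝ → E} {k : ℕ} {j : ℤ} (h : ∀ x ∈ Ivl k j, F x = G x) :
    ∫ x in Ivl k j, F x = ∫ x in Ivl k j, G x :=
  setIntegral_congr_fun (measurableSet_Ivl k j) h

theorem integral_const_Ivl (c : ℂ) (k : ℕ) (j : ℤ) :
    ∫ _ in Ivl k j, c = c / 2 ^ k := by
  rw [setIntegral_const, volume_real_Ivl, Complex.real_smul]
  push_cast
  ring

theorem integral_const_Ivl_real (c : ℝ) (k : ℕ) (j : ℤ) :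
    ∫ _ in Ivl k j, c = c / 2 ^ k := by
  rw [setIntegral_const, volume_real_Ivl, smul_eq_mul]
  ring

section bdd

variable {u : ℝ → ℂ} {Q : ℝ}

theorem intOn' (hu : Measurable u) (hQ : ∀ x, ‖u x‖ ≤ Q) (k : ℕ) (j : ℤ) :
    IntegrableOn u (Ivl k j) := intOn k j hu hQ

theorem intOn_Ek (hQ : ∀ x, ‖u x‖ ≤ Q) (l : ℕ) (k : ℕ) (j : ℤ) :
    IntegrableOn (Ek u l) (Ivl k j) := intOn k j (measurable_Ek u l) (norm_Ek_le hQ l)

theorem integral_Ek (hu : Measurable u) (hQ : ∀ x, ‖u x‖ ≤ Q) {k l : ℕ} (hk : k ≤ l) (j : ℤ) :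
    ∫ x in Ivl k j, Ek u l x = ∫ x in Ivl k j, u x := by
  refine node_ind (P := fun k j => ∫ x in Ivl k j, Ek u l x = ∫ x in Ivl k j, u x) ?_ ?_ hk j
  · intro k j h1 h2
    rw [integral_Ivl (intOn_Ek hQ l), integral_Ivl (intOn' hu hQ), h1, h2]
  · intro j
    rw [setIntegral_congr_Ivl (fun x hx => Ek_eq hx), integral_const_Ivl, integral_eq_av]

theorem integral_norm_Ek_le (hu : Measurable u) (hQ : ∀ x, ‖u x‖ ≤ Q) {k l : ℕ} (hk : k ≤ l)
    (j : ℤ) : ∫ x in Ivl k j, ‖Ek u l x‖ ≤ ∫ x in Ivl k j, ‖u x‖ := by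
  refine node_ind (P := fun k j => ∫ x in Ivl k j, ‖Ek u l x‖ ≤ ∫ x in Ivl k j, ‖u x‖) ?_ ?_ hk j
  · intro k j h1 h2
    rw [integral_Ivl (fun k j => (intOn_Ek hQ l k j).norm),
      integral_Ivl (fun k j => (intOn' hu hQ k j).norm)]
    exact add_le_add h1 h2
  · intro j
    rw [setIntegral_congr_Ivl (G := fun _ => ‖av u l j‖) (fun x hx => by rw [Ek_eq hx]),
      integral_const_Ivl_real]
    have h := norm_integral_le_integral_norm (μ := volume.restrict (Ivl l j)) u
    rw [integral_eq_av, norm_div, norm_pow, Complex.norm_ofNat] at h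
    exact h

/-- Pythagoras -/
theorem integral_sq_sub (hQ : ∀ x, ‖u x‖ ≤ Q) (hu : Measurable u) {k l' l : ℕ}
    (hk : k ≤ l') (hl : l' ≤ l) (j : ℤ) :
    ∫ x in Ivl k j, ‖Ek u l x - Ek u l' x‖ ^ 2 =
      (∫ x in Ivl k j, ‖Ek u l x‖ ^ 2) - ∫ x in Ivl k j, ‖Ek u l' x‖ ^ 2 := by
  have hQ0 : 0 ≤ Q := (norm_nonneg _).trans (hQ 0)
  have i1 : ∀ k j, IntegrableOn (fun x => ‖Ek u l x - Ek u l' x‖ ^ 2) (Ivl k j) := by
    intro k j
    apply intOn k j (((measurable_Ek u l).sub (measurable_Ek u l')).norm.pow_const 2)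
      (M := (Q + Q) ^ 2)
    intro x
    rw [norm_pow, norm_norm]
    have := (norm_sub_le (Ek u l x) (Ek u l' x)).trans
      (add_le_add (norm_Ek_le hQ l x) (norm_Ek_le hQ l' x))
    gcongr
    exact this
  have i2 : ∀ l k j, IntegrableOn (fun x => ‖Ek u l x‖ ^ 2) (Ivl k j) := by
    intro l k j
    apply intOn k j ((measurable_Ek u l).norm.pow_const 2) (M := Q ^ 2)
    intro x
    rw [norm_pow, norm_norm]
    have := norm_Ek_le hQ l x
    gcongr
  refine node_ind (P := fun k j => ∫ x in Ivl k j, ‖Ek u l x - Ek u l' x‖ ^ 2 =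
      (∫ x in Ivl k j, ‖Ek u l x‖ ^ 2) - ∫ x in Ivl k j, ‖Ek u l' x‖ ^ 2) ?_ ?_ hk j
  · intro k j h1 h2
    rw [integral_Ivl i1, integral_Ivl (i2 l), integral_Ivl (i2 l'), h1, h2]
    ring
  · intro j
    set c := av u l' j with hc
    have e1 : ∫ x in Ivl l' j, ‖Ek u l x - Ek u l' x‖ ^ 2 =
        ∫ x in Ivl l' j, (‖Ek u l x‖ ^ 2 - 2 * (conj c * Ek u l x).re + ‖c‖ ^ 2) := by
      apply setIntegral_congr_Ivl
      intro x hx
      rw [Ek_eq (k := l') hx, ← hc]
      have : ∀ z w : ℂ, ‖z - w‖ ^ 2 = ‖z‖ ^ 2 - 2 * (conj w * z).re + ‖w‖ ^ 2 := by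
        intro z w
        rw [← Complex.normSq_eq_norm_sq, ← Complex.normSq_eq_norm_sq, ← Complex.normSq_eq_norm_sq,
          Complex.normSq_sub]
        have : (z * conj w).re = (conj w * z).re := by rw [mul_comm]
        rw [this]; ring
      exact this _ _
    have i3 : IntegrableOn (fun x => (conj c * Ek u l x).re) (Ivl l' j) :=
      ((intOn_Ek hQ l l' j).const_mul (conj c)).re
    have e2 : ∫ x in Ivl l' j, (conj c * Ek u l x).re = ‖c‖ ^ 2 / 2 ^ l' := by
      have h1 : ∫ x in Ivl l' j, (conj c * Ek u l x).re =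
          (∫ x in Ivl l' j, conj c * Ek u l x).re := by
        have := integral_re (𝕜 := ℂ) ((intOn_Ek hQ l l' j).const_mul (conj c))
        simpa using this
      rw [h1, integral_const_mul, integral_Ek hu hQ hl, integral_eq_av, ← hc, mul_div_assoc',
        mul_comm (conj c), Complex.mul_conj, Complex.normSq_eq_norm_sq]
      have : ((‖c‖ ^ 2 : ℝ) : ℂ) / 2 ^ l' = ((‖c‖ ^ 2 / 2 ^ l' : ℝ) : ℂ) := by push_cast; rfl
      rw [this, Complex.ofReal_re]
    have e3 : ∫ x in Ivl l' j, ‖Ek u l' x‖ ^ 2 = ‖c‖ ^ 2 / 2 ^ l' := by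
      rw [setIntegral_congr_Ivl (G := fun _ => ‖c‖ ^ 2) (fun x hx => by rw [Ek_eq hx]),
        integral_const_Ivl_real]
    have hc1 : IntegrableOn (fun _ : ℝ => ‖c‖ ^ 2) (Ivl l' j) :=
      intOn l' j measurable_const (M := ‖c‖ ^ 2) (fun x => by
        rw [norm_pow, norm_norm])
    have i4 : IntegrableOn (fun x => ‖Ek u l x‖ ^ 2 - 2 * (conj c * Ek u l x).re) (Ivl l' j) :=
      (i2 l l' j).sub (i3.const_mul 2)
    rw [e1, integral_add i4 hc1,
      integral_sub (i2 l l' j) (i3.const_mul 2), integral_const_mul, e2, e3,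
      integral_const_Ivl_real]
    ring

end bdd

/-! ## oscillation -/

theorem norm_e_sub (u x y : ℝ) : ‖e u y - e u x‖ ≤ 2 * Real.pi * |u| * |y - x| := by
  have h1 : e u y - e u x = e u x * (Complex.exp (Complex.I * ((2 * Real.pi * (u * (y - x)) : ℝ) : ℂ)) - 1) := by
    unfold e
    rw [mul_sub, ← Complex.exp_add, mul_one]
    congr 2
    push_cast
    ring
  rw [h1, norm_mul, norm_e, one_mul]
  refine Real.norm_exp_I_mul_ofReal_sub_one_le.trans (le_of_eq ?_)
  rw [Real.norm_eq_abs, abs_mul, abs_mul, abs_mul, abs_of_pos Real.pi_pos, abs_two]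
  ring

theorem dist_Ivl {k : ℕ} {j : ℤ} {x y : ℝ} (hx : x ∈ Ivl k j) (hy : y ∈ Ivl k j) :
    |y - x| ≤ 1 / 2 ^ k := by
  unfold Ivl at hx hy
  rw [mem_Ico] at hx hy
  have : ((j : ℝ) + 1) / 2 ^ k = j / 2 ^ k + 1 / 2 ^ k := by ring
  rw [abs_le]
  constructor <;> linarith [hx.1, hx.2, hy.1, hy.2]

/-- a function of mean zero on a node against a character -/
theorem norm_osc {G : ℝ → ℂ} {l : ℕ} {i : ℤ} (hG : IntegrableOn G (Ivl l i))
    (h0 : ∫ x in Ivl l i, G x = 0) {M : ℝ} (hM : ∫ x in Ivl l i, ‖G x‖ ≤ M) (v : ℝ) :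
    ‖∫ x in Ivl l i, G x * e v x‖ ≤ 2 * Real.pi * |v| / 2 ^ l * M := by
  obtain ⟨a, ha⟩ : (Ivl l i).Nonempty := by
    refine ⟨(i : ℝ) / 2 ^ l, ?_⟩
    unfold Ivl
    rw [mem_Ico]
    refine ⟨le_rfl, ?_⟩
    gcongr
    linarith
  have hGe : IntegrableOn (fun x => G x * e v x) (Ivl l i) := by
    refine Integrable.mono hG ?_ ?_
    · exact hG.aestronglyMeasurable.mul (measurable_e v).aestronglyMeasurable
    · refine Filter.Eventually.of_forall fun x => ?_
      rw [norm_mul, norm_e, mul_one]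
  have h1 : ∫ x in Ivl l i, G x * e v x = ∫ x in Ivl l i, G x * (e v x - e v a) := by
    have h2 : (fun x => G x * (e v x - e v a)) = fun x => G x * e v x - G x * e v a := by
      ext x; ring
    rw [h2, integral_sub hGe (hG.mul_const _), integral_mul_const, h0]
    ring
  rw [h1]
  have h3 : ‖∫ x in Ivl l i, G x * (e v x - e v a)‖ ≤
      ∫ x in Ivl l i, ‖G x‖ * (2 * Real.pi * |v| / 2 ^ l) := by
    refine norm_integral_le_of_norm_le (hG.norm.mul_const _) ?_
    refine (ae_restrict_iff' (measurableSet_Ivl l i)).2 (Filter.Eventually.of_forall fun x hx => ?_)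
    rw [norm_mul]
    gcongr
    refine (norm_e_sub v a x).trans ?_
    have := dist_Ivl ha hx
    have hp := Real.pi_pos
    calc 2 * Real.pi * |v| * |x - a| ≤ 2 * Real.pi * |v| * (1 / 2 ^ l) := by gcongr
      _ = _ := by ring
  refine h3.trans ?_
  rw [integral_mul_const, mul_comm]
  have hp := Real.pi_pos
  gcongr

section osc

variable {u : ℝ → ℂ} {Q : ℝ}

theorem norm_sub_Ek (hu : Measurable u) (hQ : ∀ x, ‖u x‖ ≤ Q) {k l : ℕ} (hk : k ≤ l) (j : ℤ)
    (v : ℝ) :
    ‖∫ x in Ivl k j, (u x - Ek u l x) * e v x‖ ≤ (4 * Real.pi * |v| / 2 ^ l * Q) / 2 ^ k := by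
  have hm : Measurable fun x => u x - Ek u l x := hu.sub (measurable_Ek u l)
  have hb : ∀ x, ‖u x - Ek u l x‖ ≤ 2 * Q := fun x =>
    (norm_sub_le _ _).trans (by linarith [hQ x, norm_Ek_le hQ l x])
  refine norm_node ?_ ?_ hk j
  · intro k j
    refine intOn k j (hm.mul (measurable_e v)) (M := 2 * Q) ?_
    intro x
    rw [norm_mul, norm_e, mul_one]
    exact hb x
  · intro i
    have h0 : ∫ x in Ivl l i, (u x - Ek u l x) = 0 := by
      rw [integral_sub (intOn' hu hQ l i) (intOn_Ek hQ l l i), integral_Ek hu hQ le_rfl, sub_self]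
    have hM : ∫ x in Ivl l i, ‖u x - Ek u l x‖ ≤ 2 * Q / 2 ^ l := by
      rw [← integral_const_Ivl_real]
      refine integral_mono (intOn l i hm hb).norm ?_ hb
      exact intOn l i measurable_const (M := |2 * Q|) (fun x => le_rfl)
    refine (norm_osc (intOn l i hm hb) h0 hM v).trans (le_of_eq ?_)
    ring

theorem norm_Ek_osc (hQ : ∀ x, ‖u x‖ ≤ Q) {k l : ℕ} (hk : k ≤ l) (j : ℤ) {v : ℝ}
    (hv : v ≠ 0) :
    ‖∫ x in Ivl k j, Ek u l x * e v x‖ ≤ (Q * 2 ^ l / (Real.pi * |v|)) / 2 ^ k := by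
  refine norm_node ?_ ?_ hk j
  · intro k j
    refine intOn k j ((measurable_Ek u l).mul (measurable_e v)) (M := Q) ?_
    intro x
    rw [norm_mul, norm_e, mul_one]
    exact norm_Ek_le hQ l x
  · intro i
    rw [setIntegral_congr_Ivl (G := fun x => av u l i * e v x) (fun x hx => by rw [Ek_eq hx]),
      integral_const_mul, norm_mul]
    have h1 := norm_av_le hQ l i
    have h2 := norm_integral_e_le hv l i
    have hQ0 : 0 ≤ Q := (norm_nonneg _).trans (hQ 0)
    have hp := Real.pi_pos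
    have hv' : 0 < |v| := abs_pos.2 hv
    calc ‖av u l i‖ * ‖∫ x in Ivl l i, e v x‖ ≤ Q * (1 / (Real.pi * |v|)) := by gcongr
      _ = _ := by field_simp

end osc

/-! ## the stopping time -/

/-- `f` cut to the region where `s ≥ q` -/
def cut (f : ℝ → ℂ) (s : ℝ → ℕ) (q : ℕ) (y : ℝ) : ℂ := if q ≤ s y then f y else 0

theorem measurable_cut {f : ℝ → ℂ} (hf : Measurable f) {s : ℝ → ℕ} (hs : Measurable s) (q : ℕ) :
    Measurable (cut f s q) :=
  Measurable.ite (measurableSet_le measurable_const hs) hf measurable_const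

theorem norm_cut_le {f : ℝ → ℂ} {Q : ℝ} (hQ : ∀ x, ‖f x‖ ≤ Q) (s : ℝ → ℕ) (q : ℕ) (x : ℝ) :
    ‖cut f s q x‖ ≤ Q := by
  unfold cut
  split_ifs
  · exact hQ x
  · rw [norm_zero]; exact (norm_nonneg _).trans (hQ x)

/-- stopping time -/
def IsStop (s : ℝ → ℕ) : Prop := ∀ z z', fl (s z) z' = fl (s z) z → s z' = s z

/-- stopped expectation -/
def fb (F : ℝ → ℂ) (w : ℝ) (s : ℝ → ℕ) (z : ℝ) : ℂ := coef F w (s z) (fl (s z) z)

theorem measurable_fb (F : ℝ → ℂ) (w : ℝ) {s : ℝ → ℕ} (hs : Measurable s) :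
    Measurable (fb F w s) := by
  have h : Measurable fun p : ℕ × ℝ => coef F w p.1 (fl p.1 p.2) :=
    measurable_from_prod_countable_right fun l => measurable_fl_comp l (fun j => coef F w l j)
  exact h.comp (hs.prodMk measurable_id)

theorem norm_fb_le {F : ℝ → ℂ} {w : ℝ} {s : ℝ → ℕ} {Q : ℝ}
    (hD : ∀ z l, l ≤ s z → avN F l (fl l z) ≤ Q) (z : ℝ) : ‖fb F w s z‖ ≤ Q :=
  (norm_coef_le _ _ _ _).trans (hD z _ le_rfl)

/-- step 1: replacing `F e_{-w}` by its stopped expectation -/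
theorem stop_osc {F : ℝ → ℂ} (hF : Measurable F) {M0 : ℝ} (hM0 : ∀ x, ‖F x‖ ≤ M0)
    {s : ℝ → ℕ} (hs : Measurable s) (hst : IsStop s) {m : ℕ} (hsm : ∀ z, s z ≤ m) {Q : ℝ}
    (hD : ∀ z l, l ≤ s z → avN F l (fl l z) ≤ Q) (w v : ℝ) (q : ℕ) (k : ℕ) (hk : k ≤ m) :
    ∀ j, (∀ z ∈ Ivl k j, k ≤ s z) →
    ‖∫ z in Ivl k j, (cut (fun z => F z * e (-w) z - fb F w s z) s q z) * e v z‖ ≤
      (4 * Real.pi * |v| / 2 ^ q * Q) / 2 ^ k := by
  have hQ0 : 0 ≤ Q := (avN_nonneg F 0 (fl 0 0)).trans (hD 0 0 (Nat.zero_le _))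
  have hp := Real.pi_pos
  have hFe : Measurable fun z => F z * e (-w) z := hF.mul (measurable_e _)
  have hdm : Measurable fun z => F z * e (-w) z - fb F w s z := hFe.sub (measurable_fb F w hs)
  have hdb : ∀ z, ‖F z * e (-w) z - fb F w s z‖ ≤ M0 + Q := by
    intro z
    refine (norm_sub_le _ _).trans (add_le_add ?_ (norm_fb_le hD z))
    rw [norm_mul, norm_e, mul_one]
    exact hM0 z
  have hint : ∀ k j, IntegrableOn
      (fun z => (cut (fun z => F z * e (-w) z - fb F w s z) s q z) * e v z) (Ivl k j) := by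
    intro k j
    refine intOn k j ((measurable_cut hdm hs q).mul (measurable_e v)) (M := M0 + Q) ?_
    intro x
    rw [norm_mul, norm_e, mul_one]
    exact norm_cut_le hdb s q x
  -- the stopping case
  have hstop : ∀ k j, (∀ z ∈ Ivl k j, s z = k) →
      ‖∫ z in Ivl k j, (cut (fun z => F z * e (-w) z - fb F w s z) s q z) * e v z‖ ≤
      (4 * Real.pi * |v| / 2 ^ q * Q) / 2 ^ k := by
    intro k j hz
    by_cases hq : q ≤ k
    · have e1 : ∫ z in Ivl k j, (cut (fun z => F z * e (-w) z - fb F w s z) s q z) * e v z =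
          ∫ z in Ivl k j, (F z * e (-w) z - coef F w k j) * e v z := by
        apply setIntegral_congr_Ivl
        intro z hz'
        have h1 := hz z hz'
        have h2 := mem_Ivl.1 hz'
        simp only [cut, h1, hq, if_true, fb, h2]
      rw [e1]
      obtain ⟨z0, hz0⟩ : (Ivl k j).Nonempty := by
        refine ⟨(j : ℝ) / 2 ^ k, ?_⟩
        unfold Ivl
        rw [mem_Ico]
        refine ⟨le_rfl, ?_⟩
        gcongr
        linarith
      have hN : avN F k j ≤ Q := by
        have := hD z0 k (hz z0 hz0).ge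
        rwa [mem_Ivl.1 hz0] at this
      have iF : IntegrableOn (fun z => F z * e (-w) z) (Ivl k j) := integrable_fe hF hM0 (-w) k j
      have ic : IntegrableOn (fun _ : ℝ => coef F w k j) (Ivl k j) :=
        intOn k j measurable_const (M := ‖coef F w k j‖) (fun _ => le_rfl)
      have h0 : ∫ z in Ivl k j, (F z * e (-w) z - coef F w k j) = 0 := by
        rw [integral_sub iF ic, integral_const_Ivl]
        unfold coef
        field_simp
        ring
      have hM : ∫ z in Ivl k j, ‖F z * e (-w) z - coef F w k j‖ ≤ 2 * Q / 2 ^ k := by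
        calc ∫ z in Ivl k j, ‖F z * e (-w) z - coef F w k j‖
            ≤ ∫ z in Ivl k j, (‖F z‖ + ‖coef F w k j‖) := by
              refine integral_mono (iF.sub ic).norm ?_ ?_
              · exact (intOn k j hF.norm (M := M0) (fun x => by simpa using hM0 x)).add
                  (intOn k j measurable_const (M := ‖coef F w k j‖) (fun _ => by simp))
              · intro z
                refine (norm_sub_le _ _).trans ?_
                rw [norm_mul, norm_e, mul_one]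
          _ = (avN F k j + ‖coef F w k j‖) / 2 ^ k := by
              rw [integral_add (intOn k j hF.norm (M := M0) (fun x => by simpa using hM0 x))
                (intOn k j measurable_const (M := ‖coef F w k j‖) (fun _ => by simp)),
                integral_const_Ivl_real]
              unfold avN
              field_simp
          _ ≤ 2 * Q / 2 ^ k := by
              gcongr
              linarith [norm_coef_le F w k j]
      refine (norm_osc (iF.sub ic) h0 hM v).trans ?_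
      have : (2 : ℝ) ^ q ≤ 2 ^ k := pow_le_pow_right₀ (by norm_num) hq
      calc 2 * Real.pi * |v| / 2 ^ k * (2 * Q / 2 ^ k) = (4 * Real.pi * |v| / 2 ^ k * Q) / 2 ^ k := by ring
        _ ≤ _ := by gcongr
    · have e1 : ∫ z in Ivl k j, (cut (fun z => F z * e (-w) z - fb F w s z) s q z) * e v z = 0 := by
        rw [setIntegral_congr_Ivl (G := fun _ => (0 : ℂ)) (fun z hz' => ?_)]
        · simp
        · have h1 := hz z hz'
          simp only [cut, h1, hq, if_false, zero_mul]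
      rw [e1, norm_zero]
      positivity
  induction hk using Nat.decreasingInduction with
  | self =>
    intro j hz
    exact hstop m j fun z hz' => le_antisymm (hsm z) (hz z hz')
  | of_succ k hk ih =>
    intro j hz
    by_cases hex : ∃ z ∈ Ivl k j, s z = k
    · obtain ⟨z, hz1, hz2⟩ := hex
      refine hstop k j fun z' hz' => ?_
      have := hst z z' (by rw [hz2, mem_Ivl.1 hz', mem_Ivl.1 hz1])
      rw [this, hz2]
    · push Not at hex
      have hge : ∀ z ∈ Ivl k j, k + 1 ≤ s z := fun z hz' =>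
        Nat.lt_of_le_of_ne (hz z hz') (Ne.symm (hex z hz'))
      have h1 := ih (2 * j) fun z hz' => hge z (by rw [Ivl_split]; exact Or.inl hz')
      have h2 := ih (2 * j + 1) fun z hz' => hge z (by rw [Ivl_split]; exact Or.inr hz')
      rw [integral_Ivl hint]
      refine (norm_add_le _ _).trans ((add_le_add h1 h2).trans (le_of_eq ?_))
      rw [pow_succ]
      field_simp
      ring

/-! ## the energy of the bands around one frequency -/

theorem av_sub {u v : ℝ → ℂ} (k : ℕ) (j : ℤ) (hu : IntegrableOn u (Ivl k j))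
    (hv : IntegrableOn v (Ivl k j)) : av (fun x => u x - v x) k j = av u k j - av v k j := by
  unfold av
  rw [integral_sub hu hv, mul_sub]

/-- energy of a conditional expectation on a node -/
def En (u : ℝ → ℂ) (l : ℕ) (k0 : ℕ) (j0 : ℤ) : ℝ := ∫ x in Ivl k0 j0, ‖Ek u l x‖ ^ 2

/-- indicator of the window `a ≤ s < a + d` -/
def win (s : ℝ → ℕ) (a d : ℕ) (y : ℝ) : ℝ := if a ≤ s y ∧ s y < a + d then 1 else 0

theorem measurable_win {s : ℝ → ℕ} (hs : Measurable s) (a d : ℕ) : Measurable (win s a d) :=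
  Measurable.ite ((measurableSet_le measurable_const hs).inter
    (measurableSet_lt hs measurable_const)) measurable_const measurable_const

theorem win_nonneg (s : ℝ → ℕ) (a d : ℕ) (y : ℝ) : 0 ≤ win s a d y := by
  unfold win; split_ifs <;> norm_num

theorem win_le_one (s : ℝ → ℕ) (a d : ℕ) (y : ℝ) : win s a d y ≤ 1 := by
  unfold win; split_ifs <;> norm_num

theorem intOn_win {s : ℝ → ℕ} (hs : Measurable s) (a d k : ℕ) (j : ℤ) :
    IntegrableOn (win s a d) (Ivl k j) := by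
  refine intOn k j (measurable_win hs a d) (M := 1) fun x => ?_
  rw [Real.norm_eq_abs, abs_of_nonneg (win_nonneg s a d x)]
  exact win_le_one s a d x

section energy

variable {f : ℝ → ℂ} {Q : ℝ} {s : ℝ → ℕ}

theorem intOn_sq_Ek {u : ℝ → ℂ} (hQ : ∀ x, ‖u x‖ ≤ Q) (l k : ℕ) (j : ℤ) :
    IntegrableOn (fun x => ‖Ek u l x‖ ^ 2) (Ivl k j) := by
  apply intOn k j ((measurable_Ek u l).norm.pow_const 2) (M := Q ^ 2)
  intro x
  rw [norm_pow, norm_norm]
  have := norm_Ek_le hQ l x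
  gcongr

theorem En_nonneg (u : ℝ → ℂ) (l : ℕ) (k0 : ℕ) (j0 : ℤ) : 0 ≤ En u l k0 j0 :=
  integral_nonneg fun x => by positivity

theorem En_le {u : ℝ → ℂ} (hQ : ∀ x, ‖u x‖ ≤ Q) (l : ℕ) (k0 : ℕ) (j0 : ℤ) :
    En u l k0 j0 ≤ Q ^ 2 / 2 ^ k0 := by
  unfold En
  rw [← integral_const_Ivl_real]
  refine integral_mono (intOn_sq_Ek hQ l k0 j0)
    (intOn k0 j0 measurable_const (M := |Q ^ 2|) (fun x => le_rfl)) fun x => ?_
  have := norm_Ek_le hQ l x
  change ‖Ek u l x‖ ^ 2 ≤ Q ^ 2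
  gcongr

theorem En_diff (hf : Measurable f) (hQ : ∀ x, ‖f x‖ ≤ Q) (hs : Measurable s) {k0 a : ℕ} (d : ℕ)
    (hk : k0 ≤ a) (j0 : ℤ) :
    En (cut f s a) a k0 j0 - En (cut f s (a + d)) a k0 j0 ≤
      2 * Q ^ 2 * ∫ y in Ivl k0 j0, win s a d y := by
  have hQ0 : 0 ≤ Q := (norm_nonneg _).trans (hQ 0)
  set g : ℝ → ℂ := fun x => cut f s a x - cut f s (a + d) x with hg
  have hgm : Measurable g := (measurable_cut hf hs a).sub (measurable_cut hf hs (a + d))
  have hgb : ∀ x, ‖g x‖ ≤ Q * win s a d x := by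
    intro x
    simp only [hg, cut, win]
    by_cases h1 : a ≤ s x
    · by_cases h2 : a + d ≤ s x
      · simp [h1, h2]
        split_ifs <;> linarith
      · have h3 : s x < a + d := not_le.1 h2
        simp only [h1, h2, h3, if_true, if_false, sub_zero, and_self, mul_one]
        exact hQ x
    · have h2 : ¬ (a + d ≤ s x) := fun h => h1 (le_trans (Nat.le_add_right a d) h)
      simp [h1, h2]
  have hgb' : ∀ x, ‖g x‖ ≤ Q := fun x => (hgb x).trans (by
    have := win_le_one s a d x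
    calc Q * win s a d x ≤ Q * 1 := by gcongr
      _ = Q := mul_one _)
  have hEg : ∀ x, Ek g a x = Ek (cut f s a) a x - Ek (cut f s (a + d)) a x := by
    intro x
    unfold Ek
    exact av_sub a _ (intOn' (measurable_cut hf hs a) (norm_cut_le hQ s a) _ _)
      (intOn' (measurable_cut hf hs (a + d)) (norm_cut_le hQ s (a + d)) _ _)
  have h1 : En (cut f s a) a k0 j0 - En (cut f s (a + d)) a k0 j0 ≤
      ∫ x in Ivl k0 j0, 2 * Q * ‖Ek g a x‖ := by
    unfold En
    rw [← integral_sub (intOn_sq_Ek (norm_cut_le hQ s a) a k0 j0)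
      (intOn_sq_Ek (norm_cut_le hQ s (a + d)) a k0 j0)]
    refine integral_mono ((intOn_sq_Ek (norm_cut_le hQ s a) a k0 j0).sub
      (intOn_sq_Ek (norm_cut_le hQ s (a + d)) a k0 j0))
      ((intOn_Ek hgb' a k0 j0).norm.const_mul (2 * Q)) fun x => ?_
    change ‖Ek (cut f s a) a x‖ ^ 2 - ‖Ek (cut f s (a + d)) a x‖ ^ 2 ≤ 2 * Q * ‖Ek g a x‖
    rw [hEg]
    have e1 := norm_Ek_le (norm_cut_le hQ s a) a x
    have e2 := norm_Ek_le (norm_cut_le hQ s (a + d)) a x
    have e3 := norm_sub_norm_le (Ek (cut f s a) a x) (Ek (cut f s (a + d)) a x)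
    have e4 := norm_nonneg (Ek (cut f s a) a x - Ek (cut f s (a + d)) a x)
    have e5 := norm_nonneg (Ek (cut f s a) a x)
    have e6 := norm_nonneg (Ek (cut f s (a + d)) a x)
    nlinarith [mul_le_mul_of_nonneg_right e3 (add_nonneg e5 e6),
      mul_le_mul_of_nonneg_left (add_le_add e1 e2) e4]
  refine h1.trans ?_
  rw [integral_const_mul]
  have h2 := integral_norm_Ek_le hgm hgb' hk j0
  have h3 : ∫ x in Ivl k0 j0, ‖g x‖ ≤ Q * ∫ x in Ivl k0 j0, win s a d x := by
    rw [← integral_const_mul]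
    exact integral_mono (intOn' hgm hgb' k0 j0).norm ((intOn_win hs a d k0 j0).const_mul Q) hgb
  calc 2 * Q * ∫ x in Ivl k0 j0, ‖Ek g a x‖ ≤ 2 * Q * (Q * ∫ x in Ivl k0 j0, win s a d x) := by
        gcongr
        exact h2.trans h3
    _ = _ := by ring

/-- the band `E_{a+2b} - E_a` of the function cut at `a + 2b` -/
def hh (f : ℝ → ℂ) (s : ℝ → ℕ) (b a : ℕ) (x : ℝ) : ℂ :=
  Ek (cut f s (a + 2 * b)) (a + 2 * b) x - Ek (cut f s (a + 2 * b)) a x

theorem measurable_hh (f : ℝ → ℂ) (s : ℝ → ℕ) (b a : ℕ) : Measurable (hh f s b a) :=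
  (measurable_Ek _ _).sub (measurable_Ek _ _)

theorem norm_hh_le (hQ : ∀ x, ‖f x‖ ≤ Q) (b a : ℕ) (x : ℝ) : ‖hh f s b a x‖ ≤ 2 * Q := by
  refine (norm_sub_le _ _).trans ?_
  have e1 := norm_Ek_le (norm_cut_le hQ s (a + 2 * b)) (a + 2 * b) x
  have e2 := norm_Ek_le (norm_cut_le hQ s (a + 2 * b)) a x
  linarith

theorem telescope {α : ℕ → ℝ} {M : ℝ} (h0 : ∀ a, 0 ≤ α a) (hM : ∀ a, α a ≤ M) (N D : ℕ) :
    ∑ a ∈ Finset.range N, (α (a + D) - α a) ≤ D * M := by
  have h1 := Finset.sum_range_add (fun a => α a) N D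
  have h2 := Finset.sum_range_add (fun a => α a) D N
  rw [add_comm D N, h1] at h2
  have h3 : ∑ a ∈ Finset.range N, α (a + D) = ∑ a ∈ Finset.range N, α (D + a) :=
    Finset.sum_congr rfl fun a _ => by rw [add_comm]
  rw [Finset.sum_sub_distrib, h3]
  have h4 : ∑ a ∈ Finset.range D, α (N + a) ≤ D * M := by
    calc ∑ a ∈ Finset.range D, α (N + a) ≤ ∑ _a ∈ Finset.range D, M :=
          Finset.sum_le_sum fun a _ => hM _
      _ = D * M := by simp
  have h5 : 0 ≤ ∑ a ∈ Finset.range D, α a := Finset.sum_nonneg fun a _ => h0 a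
  linarith

theorem sum_win (s : ℝ → ℕ) (k0 d N : ℕ) (y : ℝ) :
    ∑ a ∈ Finset.range N, win s (k0 + a) d y ≤ d := by
  unfold win
  rw [← Finset.sum_filter, Finset.sum_const, nsmul_eq_mul, mul_one]
  have : ((Finset.range N).filter fun a => k0 + a ≤ s y ∧ s y < k0 + a + d) ⊆
      Finset.Ico (s y + 1 - k0 - d) (s y + 1 - k0) := by
    intro a ha
    rw [Finset.mem_filter] at ha
    rw [Finset.mem_Ico]
    omega
  have h2 := Finset.card_le_card this
  rw [Nat.card_Ico] at h2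
  have h3 : s y + 1 - k0 - (s y + 1 - k0 - d) ≤ d := by omega
  exact_mod_cast h2.trans h3

/-- **energy of all bands** -/
theorem energy (hf : Measurable f) (hQ : ∀ x, ‖f x‖ ≤ Q) (hs : Measurable s) (b k0 N : ℕ)
    (j0 : ℤ) :
    ∑ a ∈ Finset.range N, ∫ x in Ivl k0 j0, ‖hh f s b (k0 + a) x‖ ^ 2 ≤
      6 * b * Q ^ 2 / 2 ^ k0 := by
  have hQ0 : 0 ≤ Q := (norm_nonneg _).trans (hQ 0)
  set α : ℕ → ℝ := fun a => En (cut f s (k0 + a)) (k0 + a) k0 j0 with hα
  have h1 : ∀ a ∈ Finset.range N, ∫ x in Ivl k0 j0, ‖hh f s b (k0 + a) x‖ ^ 2 ≤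
      (α (a + 2 * b) - α a) + 2 * Q ^ 2 * ∫ y in Ivl k0 j0, win s (k0 + a) (2 * b) y := by
    intro a _
    unfold hh
    rw [integral_sq_sub (norm_cut_le hQ s (k0 + a + 2 * b)) (measurable_cut hf hs _)
      (Nat.le_add_right k0 a) (Nat.le_add_right _ _)]
    have := En_diff hf hQ hs (2 * b) (Nat.le_add_right k0 a) j0
    simp only [hα, En] at this ⊢
    rw [show k0 + (a + 2 * b) = k0 + a + 2 * b by ring]
    linarith
  refine (Finset.sum_le_sum h1).trans ?_
  rw [Finset.sum_add_distrib, ← Finset.mul_sum]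
  have h2 := telescope (α := α) (M := Q ^ 2 / 2 ^ k0) (fun a => En_nonneg _ _ _ _)
    (fun a => En_le (norm_cut_le hQ s (k0 + a)) _ _ _) N (2 * b)
  have h3 : ∑ a ∈ Finset.range N, ∫ y in Ivl k0 j0, win s (k0 + a) (2 * b) y ≤
      2 * b / 2 ^ k0 := by
    rw [← integral_finsetSum _ fun a _ => intOn_win hs _ _ _ _, ← integral_const_Ivl_real]
    refine integral_mono (integrable_finsetSum _ fun a _ => intOn_win hs _ _ _ _)
      (intOn k0 j0 measurable_const (M := |2 * (b : ℝ)|) (fun x => le_rfl)) fun y => ?_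
    have := sum_win s k0 (2 * b) N y
    push_cast at this
    exact this
  have h4 : 2 * Q ^ 2 * ∑ a ∈ Finset.range N, ∫ y in Ivl k0 j0, win s (k0 + a) (2 * b) y ≤
      2 * Q ^ 2 * (2 * b / 2 ^ k0) := by gcongr
  push_cast at h2
  calc _ ≤ 2 * (b : ℝ) * (Q ^ 2 / 2 ^ k0) + 2 * Q ^ 2 * (2 * b / 2 ^ k0) := add_le_add h2 h4
    _ = _ := by ring

end energy

/-! ## one tile -/

/-- a tile at distance `≈ 2^{a+b}` from `w1` sees only the band `a` -/
theorem tile {F : ℝ → ℂ} (hF : Measurable F) {M0 : ℝ} (hM0 : ∀ x, ‖F x‖ ≤ M0)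
    {s : ℝ → ℕ} (hs : Measurable s) (hst : IsStop s) {m : ℕ} (hsm : ∀ z, s z ≤ m) {Q : ℝ}
    (hD : ∀ z l, l ≤ s z → avN F l (fl l z) ≤ Q) (w w1 : ℝ) (a b k : ℕ) (j : ℤ)
    (hk : ∀ z ∈ Ivl k j, k ≤ s z) (hka : k ≤ a) (h1 : |w - w1| ≤ 2 ^ (a + b))
    (h2 : 2 ^ (a + b) ≤ 2 * |w - w1|) :
    ‖(∫ z in Ivl k j, cut F s (a + 2 * b) z * e (-w) z) -
      ∫ z in Ivl k j, hh (fb F w1 s) s b a z * e (-(w - w1)) z‖ ≤ 26 * Q / 2 ^ b / 2 ^ k := by
  have hp := Real.pi_pos
  have hQ0 : 0 ≤ Q := (avN_nonneg F 0 (fl 0 0)).trans (hD 0 0 (Nat.zero_le _))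
  set v : ℝ := -(w - w1) with hv
  have hav : |v| = |w - w1| := by rw [hv, abs_neg]
  have hpow : (0 : ℝ) < 2 ^ (a + b) := by positivity
  have hv0 : v ≠ 0 := by
    intro h
    rw [h, abs_zero] at hav
    rw [← hav] at h2
    linarith
  have hkm : k ≤ m := by
    have hne : ((j : ℝ) / 2 ^ k) ∈ Ivl k j := by
      unfold Ivl
      rw [mem_Ico]
      refine ⟨le_rfl, ?_⟩
      gcongr
      linarith
    exact (hk _ hne).trans (hsm _)
  set u : ℝ → ℂ := cut (fb F w1 s) s (a + 2 * b) with hu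
  have hum : Measurable u := measurable_cut (measurable_fb F w1 hs) hs _
  have huQ : ∀ x, ‖u x‖ ≤ Q := norm_cut_le (norm_fb_le hD) s _
  have e1 := stop_osc hF hM0 hs hst hsm hD w1 v (a + 2 * b) k hkm j hk
  have e2 := norm_sub_Ek hum huQ (show k ≤ a + 2 * b by omega) j v
  have e3 := norm_Ek_osc huQ hka j hv0
  have i1 : IntegrableOn (fun z => cut (fun z => F z * e (-w1) z - fb F w1 s z) s (a + 2 * b) z *
      e v z) (Ivl k j) := by
    refine intOn k j ((measurable_cut ((hF.mul (measurable_e _)).sub (measurable_fb F w1 hs)) hs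
      _).mul (measurable_e v)) (M := M0 + Q) ?_
    intro x
    rw [norm_mul, norm_e, mul_one]
    refine norm_cut_le (fun z => ?_) s _ x
    refine (norm_sub_le _ _).trans (add_le_add ?_ (norm_fb_le hD z))
    rw [norm_mul, norm_e, mul_one]
    exact hM0 z
  have i2 : IntegrableOn (fun z => (u z - Ek u (a + 2 * b) z) * e v z) (Ivl k j) := by
    refine intOn k j ((hum.sub (measurable_Ek _ _)).mul (measurable_e v)) (M := 2 * Q) ?_
    intro x
    rw [norm_mul, norm_e, mul_one]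
    exact (norm_sub_le _ _).trans (by linarith [huQ x, norm_Ek_le huQ (a + 2 * b) x])
  have i3 : IntegrableOn (fun z => Ek u a z * e v z) (Ivl k j) := by
    refine intOn k j ((measurable_Ek _ _).mul (measurable_e v)) (M := Q) ?_
    intro x
    rw [norm_mul, norm_e, mul_one]
    exact norm_Ek_le huQ _ x
  have i4 : IntegrableOn (fun z => hh (fb F w1 s) s b a z * e v z) (Ivl k j) := by
    refine intOn k j ((measurable_hh _ _ _ _).mul (measurable_e v)) (M := 2 * Q) ?_
    intro x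
    rw [norm_mul, norm_e, mul_one]
    exact norm_hh_le (norm_fb_le hD) _ _ _
  have i5 : IntegrableOn (fun z => cut F s (a + 2 * b) z * e (-w) z) (Ivl k j) := by
    refine intOn k j ((measurable_cut hF hs _).mul (measurable_e _)) (M := M0) ?_
    intro x
    rw [norm_mul, norm_e, mul_one]
    exact norm_cut_le hM0 _ _ _
  have key : (∫ z in Ivl k j, cut F s (a + 2 * b) z * e (-w) z) -
      ∫ z in Ivl k j, hh (fb F w1 s) s b a z * e v z =
      (∫ z in Ivl k j, cut (fun z => F z * e (-w1) z - fb F w1 s z) s (a + 2 * b) z * e v z) +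
      (∫ z in Ivl k j, (u z - Ek u (a + 2 * b) z) * e v z) + ∫ z in Ivl k j, Ek u a z * e v z := by
    have i12 : IntegrableOn (fun z => cut (fun z => F z * e (-w1) z - fb F w1 s z) s (a + 2 * b) z *
        e v z + (u z - Ek u (a + 2 * b) z) * e v z) (Ivl k j) := i1.add i2
    rw [← integral_sub i5 i4, ← integral_add i1 i2, ← integral_add i12 i3]
    congr 1
    ext z
    have e4 : e (-w) z = e (-w1) z * e v z := by
      rw [← e_add, hv]
      congr 1
      ring
    simp only [hh, ← hu]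
    rw [e4]
    have e5 : cut (fun z => F z * e (-w1) z - fb F w1 s z) s (a + 2 * b) z =
        cut F s (a + 2 * b) z * e (-w1) z - u z := by
      simp only [hu, cut]
      split_ifs <;> simp
    rw [e5]
    ring
  rw [key]
  refine (norm_add₃_le).trans ((add_le_add (add_le_add e1 e2) e3).trans ?_)
  rw [← add_div, ← add_div]
  have hb1 : 4 * Real.pi * |v| / 2 ^ (a + 2 * b) * Q ≤ 4 * Real.pi * Q / 2 ^ b := by
    rw [hav]
    have : (2 : ℝ) ^ (a + 2 * b) = 2 ^ (a + b) * 2 ^ b := by rw [← pow_add]; congr 1; omega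
    rw [this]
    calc 4 * Real.pi * |w - w1| / (2 ^ (a + b) * 2 ^ b) * Q ≤
          4 * Real.pi * 2 ^ (a + b) / (2 ^ (a + b) * 2 ^ b) * Q := by gcongr
      _ = _ := by field_simp
  have hb2 : Q * 2 ^ a / (Real.pi * |v|) ≤ 2 / Real.pi * Q / 2 ^ b := by
    rw [hav]
    have h3 : (2 : ℝ) ^ (a + b) / 2 ≤ |w - w1| := by linarith
    calc Q * 2 ^ a / (Real.pi * |w - w1|) ≤ Q * 2 ^ a / (Real.pi * (2 ^ (a + b) / 2)) := by gcongr
      _ = _ := by rw [pow_add]; field_simp
  have hpi : 8 * Real.pi + 2 / Real.pi ≤ 26 := by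
    have h3 := Real.pi_lt_d2
    have h4 := Real.pi_gt_three
    have : 2 / Real.pi ≤ 2 / 3 := by gcongr
    linarith
  gcongr
  calc 4 * Real.pi * |v| / 2 ^ (a + 2 * b) * Q + 4 * Real.pi * |v| / 2 ^ (a + 2 * b) * Q +
        Q * 2 ^ a / (Real.pi * |v|)
      ≤ 4 * Real.pi * Q / 2 ^ b + 4 * Real.pi * Q / 2 ^ b + 2 / Real.pi * Q / 2 ^ b := by
        linarith
    _ = (8 * Real.pi + 2 / Real.pi) * (Q / 2 ^ b) := by ring
    _ ≤ 26 * (Q / 2 ^ b) := by gcongr
    _ = _ := by ring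

/-! ## nested nodes -/

/-- `Ivl k j` is contained in `Ivl k' j'` -/
def Sub (k : ℕ) (j : ℤ) (k' : ℕ) (j' : ℤ) : Prop := k' ≤ k ∧ j / 2 ^ (k - k') = j'

theorem fl_add (k d : ℕ) (x : ℝ) : fl k x = fl (k + d) x / 2 ^ d := by
  induction d with
  | zero => simp
  | succ d ih =>
    rw [ih, fl_half (k + d) x, Int.ediv_ediv_of_nonneg (by norm_num), pow_succ',
      add_assoc]

theorem fl_le {k' k : ℕ} (h : k' ≤ k) (x : ℝ) : fl k' x = fl k x / 2 ^ (k - k') := by
  obtain ⟨d, rfl⟩ := Nat.exists_eq_add_of_le h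
  rw [fl_add k' d x, Nat.add_sub_cancel_left]

theorem Sub.subset {k k' : ℕ} {j j' : ℤ} (h : Sub k j k' j') : Ivl k j ⊆ Ivl k' j' := by
  intro x hx
  rw [mem_Ivl] at hx ⊢
  rw [fl_le h.1, hx, h.2]

theorem sub_of_mem {k k' : ℕ} {j j' : ℤ} {x : ℝ} (h : k' ≤ k) (hx : x ∈ Ivl k j)
    (hx' : x ∈ Ivl k' j') : Sub k j k' j' := by
  rw [mem_Ivl] at hx hx'
  refine ⟨h, ?_⟩
  rw [← hx, ← fl_le h, hx']

theorem nonempty_Ivl (k : ℕ) (j : ℤ) : (Ivl k j).Nonempty := by
  refine ⟨(j : ℝ) / 2 ^ k, ?_⟩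
  unfold Ivl
  rw [mem_Ico]
  refine ⟨le_rfl, ?_⟩
  gcongr
  linarith

/-! ## Gram mass of a separated family of small depth -/

section gram

variable {ι : Type*} (k : ι → ℕ) (j : ι → ℤ) (δ : ι → ℝ)

/-- the packet of a tile -/
def pk (t : ι) (y : ℝ) : ℂ := (Ivl (k t) (j t)).indicator (e (δ t)) y

theorem measurable_pk (t : ι) : Measurable (pk k j δ t) :=
  (measurable_e _).indicator (measurableSet_Ivl _ _)

theorem norm_pk_le (t : ι) (y : ℝ) : ‖pk k j δ t y‖ ≤ 1 := by
  unfold pk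
  by_cases hy : y ∈ Ivl (k t) (j t)
  · rw [Set.indicator_of_mem hy, norm_e]
  · rw [Set.indicator_of_notMem hy, norm_zero]
    exact zero_le_one

/-- product of two packets when the first node is inside the second -/
theorem pk_mul {t t' : ι} (h : Sub (k t) (j t) (k t') (j t')) (y : ℝ) :
    conj (pk k j δ t y) * pk k j δ t' y =
      (Ivl (k t) (j t)).indicator (e (δ t' - δ t)) y := by
  unfold pk
  by_cases hy : y ∈ Ivl (k t) (j t)
  · rw [Set.indicator_of_mem hy, Set.indicator_of_mem (h.subset hy), Set.indicator_of_mem hy,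
      conj_e, ← e_add]
    congr 1
    ring
  · rw [Set.indicator_of_notMem hy, Set.indicator_of_notMem hy]
    simp

variable {k j δ}

theorem integral_indicator_Ivl {k0 : ℕ} {j0 : ℤ} {k1 : ℕ} {j1 : ℤ} (h : Sub k1 j1 k0 j0)
    (f : ℝ → ℂ) :
    ∫ y in Ivl k0 j0, (Ivl k1 j1).indicator f y = ∫ y in Ivl k1 j1, f y := by
  rw [setIntegral_indicator (measurableSet_Ivl _ _), Set.inter_eq_right.2 h.subset]

open Classical in
/-- total Gram mass -/
theorem gram {S : Finset ι} {B : ℝ} {D : ℕ} (hB : 0 < B) (hDB : (D : ℝ) ≤ B) {k0 : ℕ} {j0 : ℤ}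
    (h0 : ∀ t ∈ S, Sub (k t) (j t) k0 j0)
    (sep : ∀ t ∈ S, ∀ t' ∈ S, t ≠ t' → Sub (k t) (j t) (k t') (j t') →
      B * 2 ^ (k t) < |δ t - δ t'|)
    (dep : ∀ t ∈ S, (S.filter fun t' => Sub (k t) (j t) (k t') (j t')).card ≤ D) :
    ∑ t ∈ S, ∑ t' ∈ S, ‖∫ y in Ivl k0 j0, conj (pk k j δ t y) * pk k j δ t' y‖ ≤
      2 * ∑ t ∈ S, 1 / (2 : ℝ) ^ (k t) := by
  have hp := Real.pi_pos
  set w : ι → ℝ := fun t => 1 / (2 : ℝ) ^ (k t) with hw
  have hw0 : ∀ t, 0 < w t := fun t => by positivity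
  set g : ι → ι → ℝ := fun t t' => if Sub (k t) (j t) (k t') (j t') then w t / (Real.pi * B) else 0
    with hg
  have hg0 : ∀ t t', 0 ≤ g t t' := by
    intro t t'
    simp only [hg]
    split_ifs
    · have := hw0 t; positivity
    · exact le_rfl
  have hnest : ∀ t ∈ S, ∀ t' ∈ S, t ≠ t' → Sub (k t) (j t) (k t') (j t') →
      ‖∫ y in Ivl k0 j0, conj (pk k j δ t y) * pk k j δ t' y‖ ≤ g t t' := by
    intro t ht t' ht' hne hsub
    have h1 := sep t ht t' ht' hne hsub
    have h2 : δ t' - δ t ≠ 0 := by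
      intro h
      rw [abs_sub_comm, h, abs_zero] at h1
      have : 0 < B * 2 ^ (k t) := by positivity
      linarith
    simp only [pk_mul k j δ hsub]
    rw [integral_indicator_Ivl (h0 t ht)]
    refine (norm_integral_e_le h2 _ _).trans ?_
    simp only [hg, if_pos hsub]
    rw [abs_sub_comm] at h1
    have h3 : 0 < B * 2 ^ (k t) := by positivity
    calc 1 / (Real.pi * |δ t' - δ t|) ≤ 1 / (Real.pi * (B * 2 ^ (k t))) := by gcongr
      _ = w t / (Real.pi * B) := by simp only [hw]; field_simp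
  have hpair : ∀ t ∈ S, ∀ t' ∈ S, ‖∫ y in Ivl k0 j0, conj (pk k j δ t y) * pk k j δ t' y‖ ≤
      (if t = t' then w t else 0) + (g t t' + g t' t) := by
    intro t ht t' ht'
    by_cases hne : t = t'
    · subst hne
      rw [if_pos rfl]
      have hs : Sub (k t) (j t) (k t) (j t) := ⟨le_rfl, by simp⟩
      simp only [pk_mul k j δ hs]
      rw [integral_indicator_Ivl (h0 t ht)]
      have h1 : ‖∫ y in Ivl (k t) (j t), e (δ t - δ t) y‖ ≤ 1 / 2 ^ (k t) :=
        norm_setIntegral_Ivl_le (fun x => (norm_e _ _).le) _ _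
      have := hg0 t t
      simp only [hw]
      linarith
    · rw [if_neg hne, zero_add]
      by_cases hs : Sub (k t) (j t) (k t') (j t')
      · have := hnest t ht t' ht' hne hs
        linarith [hg0 t' t]
      · by_cases hs' : Sub (k t') (j t') (k t) (j t)
        · have h1 := hnest t' ht' t ht (Ne.symm hne) hs'
          have h2 : ∫ y in Ivl k0 j0, conj (pk k j δ t y) * pk k j δ t' y =
              conj (∫ y in Ivl k0 j0, conj (pk k j δ t' y) * pk k j δ t y) := by
            rw [← integral_conj]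
            congr 1
            ext y
            rw [map_mul, Complex.conj_conj, mul_comm]
          rw [h2, RCLike.norm_conj]
          linarith [hg0 t t']
        · have h2 : ∀ y, conj (pk k j δ t y) * pk k j δ t' y = 0 := by
            intro y
            unfold pk
            by_cases hy : y ∈ Ivl (k t) (j t)
            · by_cases hy' : y ∈ Ivl (k t') (j t')
              · exfalso
                rcases le_total (k t') (k t) with h | h
                · exact hs (sub_of_mem h hy hy')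
                · exact hs' (sub_of_mem h hy' hy)
              · rw [Set.indicator_of_notMem hy', mul_zero]
            · rw [Set.indicator_of_notMem hy, map_zero, zero_mul]
          simp only [h2, integral_zero, norm_zero]
          linarith [hg0 t t', hg0 t' t]
  have hrow : ∑ t ∈ S, ∑ t' ∈ S, g t t' ≤ 1 / Real.pi * ∑ t ∈ S, w t := by
    rw [Finset.mul_sum]
    refine Finset.sum_le_sum fun t ht => ?_
    simp only [hg]
    rw [← Finset.sum_filter, Finset.sum_const, nsmul_eq_mul]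
    have h1 : ((S.filter fun t' => Sub (k t) (j t) (k t') (j t')).card : ℝ) ≤ B :=
      le_trans (by exact_mod_cast dep t ht) hDB
    have h2 := hw0 t
    calc _ ≤ B * (w t / (Real.pi * B)) := by gcongr
      _ = _ := by field_simp
  have hsw : ∑ t ∈ S, ∑ t' ∈ S, g t' t = ∑ t ∈ S, ∑ t' ∈ S, g t t' := Finset.sum_comm
  calc _ ≤ ∑ t ∈ S, ∑ t' ∈ S, ((if t = t' then w t else 0) + (g t t' + g t' t)) :=
        Finset.sum_le_sum fun t ht => Finset.sum_le_sum fun t' ht' => hpair t ht t' ht'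
    _ = ∑ t ∈ S, w t + 2 * ∑ t ∈ S, ∑ t' ∈ S, g t t' := by
        simp only [Finset.sum_add_distrib]
        rw [hsw]
        have : ∑ t ∈ S, ∑ t' ∈ S, (if t = t' then w t else 0) = ∑ t ∈ S, w t := by
          refine Finset.sum_congr rfl fun t ht => ?_
          rw [Finset.sum_ite_eq S t]
          simp [ht]
        rw [this]; ring
    _ ≤ ∑ t ∈ S, w t + 2 * (1 / Real.pi * ∑ t ∈ S, w t) := by gcongr
    _ ≤ 2 * ∑ t ∈ S, w t := by
        have h3 : 0 ≤ ∑ t ∈ S, w t := Finset.sum_nonneg fun t _ => (hw0 t).le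
        have h4 : 2 * (1 / Real.pi) ≤ 1 := by
          rw [mul_one_div, div_le_one hp]
          linarith [Real.pi_gt_three]
        nlinarith

end gram

/-! ## the packing theorem -/

section pack

variable {ι : Type*} (k : ι → ℕ) (j : ι → ℤ) (w : ι → ℝ) (r : ι → ℕ) (b : ℕ)

/-- the family around `T'`: `q + b < r T`, where `2^{q-1} < |w T - w T'| ≤ 2^q` -/
def Fam (T' T : ι) : Prop :=
  Sub (k T) (j T) (k T') (j T') ∧ |w T - w T'| * 2 ^ (b + 1) ≤ 2 ^ (r T)

variable {k j w r b}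

open Classical in
/-- **HYP PACK**: packing of the subfamilies of depth `≤ D` of the family around one tile. -/
theorem pack {F : ℝ → ℂ} (hF : Measurable F) {M0 : ℝ} (hM0 : ∀ x, ‖F x‖ ≤ M0)
    {s : ℝ → ℕ} (hs : Measurable s) (hst : IsStop s) {m : ℕ} (hsm : ∀ z, s z ≤ m) {Q : ℝ}
    (hD : ∀ z l, l ≤ s z → avN F l (fl l z) ≤ Q) {c : ℝ} (hc : 0 < c) {B : ℝ} {D : ℕ}
    (hQb : 52 * Q ≤ c * 2 ^ b) (hBb : (2 : ℝ) ^ b ≤ B) (hDB : (D : ℝ) ≤ B) {T : Finset ι}
    (sep : ∀ t ∈ T, ∀ t' ∈ T, t ≠ t' → Sub (k t) (j t) (k t') (j t') →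
      B * 2 ^ (k t) < |w t - w t'|)
    (hvy : ∀ t ∈ T, ∀ q < r t, c ≤ ‖coef (cut F s q) (w t) (k t) (j t)‖)
    {T1 : ι} (hT1 : T1 ∈ T) {k' : ℕ} {j' : ℤ} (_hk' : Sub k' j' (k T1) (j T1))
    {S : Finset ι} (hST : S ⊆ T)
    (hS : ∀ t ∈ S, t ≠ T1 ∧ Fam k j w r b T1 t ∧ Sub (k t) (j t) k' j')
    (dep : ∀ t ∈ S, (S.filter fun t' => Sub (k t) (j t) (k t') (j t')).card ≤ D) :
    ∑ t ∈ S, 1 / (2 : ℝ) ^ (k t) ≤ 48 * b * Q ^ 2 / c ^ 2 * (1 / 2 ^ k') := by
  have hQ0 : 0 ≤ Q := (avN_nonneg F 0 (fl 0 0)).trans (hD 0 0 (Nat.zero_le _))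
  have hB : 0 < B := lt_of_lt_of_le (by positivity) hBb
  -- the band of a tile
  have hband : ∀ t ∈ S, ∃ a : ℕ, |w t - w T1| ≤ 2 ^ (a + b) ∧ 2 ^ (a + b) ≤ 2 * |w t - w T1| ∧
      k t ≤ a ∧ a + 2 * b < r t := by
    intro t ht
    obtain ⟨h1, ⟨h2, h3⟩, h4⟩ := hS t ht
    have h5 : B * 2 ^ (k t) < |w t - w T1| := sep t (hST ht) T1 hT1 h1 h2
    have hex : ∃ q : ℕ, |w t - w T1| ≤ 2 ^ q := by
      obtain ⟨q, hq⟩ := pow_unbounded_of_one_lt |w t - w T1| (one_lt_two)
      exact ⟨q, hq.le⟩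
    set q := Nat.find hex with hq
    have hq1 : |w t - w T1| ≤ 2 ^ q := Nat.find_spec hex
    have hbk : b + k t < q := by
      have : (2 : ℝ) ^ (b + k t) < 2 ^ q := by
        calc (2 : ℝ) ^ (b + k t) = 2 ^ b * 2 ^ k t := pow_add _ _ _
          _ ≤ B * 2 ^ k t := by gcongr
          _ < |w t - w T1| := h5
          _ ≤ 2 ^ q := hq1
      exact (pow_lt_pow_iff_right₀ one_lt_two).1 this
    have hq2 : (2 : ℝ) ^ (q - 1) < |w t - w T1| := by
      have := Nat.find_min hex (m := q - 1) (by omega)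
      exact not_le.1 this
    refine ⟨q - b, ?_, ?_, ?_, ?_⟩
    · rw [Nat.sub_add_cancel (by omega)]
      exact hq1
    · rw [Nat.sub_add_cancel (by omega)]
      have : (2 : ℝ) ^ q = 2 * 2 ^ (q - 1) := by
        rw [← pow_succ', Nat.sub_add_cancel (by omega)]
      rw [this]
      linarith
    · omega
    · have h6 : (2 : ℝ) ^ (q - 1 + (b + 1)) < 2 ^ (r t) := by
        rw [pow_add]
        refine lt_of_lt_of_le ?_ h3
        gcongr
      have := (pow_lt_pow_iff_right₀ one_lt_two).1 h6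
      omega
  choose! a ha1 ha2 ha3 ha4 using hband
  have hkk : ∀ t ∈ S, k' ≤ a t := fun t ht => ((hS t ht).2.2.1).trans (ha3 t ht)
  -- the tiles are above the stopping line
  have habove : ∀ t ∈ S, ∀ z ∈ Ivl (k t) (j t), k t ≤ s z := by
    intro t ht z hz
    by_contra hcon
    have hcon' : s z < k t := not_le.1 hcon
    have h1 := hvy t (hST ht) (a t + 2 * b) (ha4 t ht)
    have h2 : coef (cut F s (a t + 2 * b)) (w t) (k t) (j t) = 0 := by
      unfold coef
      have : ∫ y in Ivl (k t) (j t), cut F s (a t + 2 * b) y * e (-w t) y = 0 := by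
        rw [setIntegral_congr_Ivl (G := fun _ => (0 : ℂ)) (fun z' hz' => ?_)]
        · simp
        · have h3 : s z' = s z := by
            apply hst
            rw [fl_le hcon'.le z', fl_le hcon'.le z, mem_Ivl.1 hz, mem_Ivl.1 hz']
          have h4 := ha3 t ht
          have : ¬ (a t + 2 * b ≤ s z') := by omega
          simp [cut, this]
      rw [this, mul_zero]
    rw [h2, norm_zero] at h1
    linarith
  -- one band
  have hone : ∀ i : ℕ, ∑ t ∈ S.filter (fun t => a t = k' + i), 1 / (2 : ℝ) ^ (k t) ≤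
      8 / c ^ 2 * ∫ x in Ivl k' j', ‖hh (fb F (w T1) s) s b (k' + i) x‖ ^ 2 := by
    intro i
    set Si := S.filter (fun t => a t = k' + i) with hSi
    have hsub : ∀ t ∈ Si, t ∈ S ∧ a t = k' + i := fun t ht => by
      rw [hSi, Finset.mem_filter] at ht; exact ht
    set δ : ι → ℝ := fun t => w t - w T1 with hδ
    set h := hh (fb F (w T1) s) s b (k' + i) with hh'
    have hhm : Measurable h := measurable_hh _ _ _ _
    have hhb : ∀ x, ‖h x‖ ≤ 2 * Q := norm_hh_le (norm_fb_le hD) _ _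
    have hgram := gram (k := k) (j := j) (δ := δ) (S := Si) (D := D) hB hDB (k0 := k') (j0 := j')
      (fun t ht => (hS t (hsub t ht).1).2.2)
      (fun t ht t' ht' hne hs' => by
        have := sep t (hST (hsub t ht).1) t' (hST (hsub t' ht').1) hne hs'
        simpa [hδ] using this)
      (fun t ht => by
        refine le_trans (Finset.card_le_card ?_) (dep t (hsub t ht).1)
        intro t' ht'
        rw [Finset.mem_filter] at ht' ⊢
        exact ⟨(hsub t' ht'.1).1, ht'.2⟩)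
    have hbes := Crest.Agent.R100.Gram801.bessel_of_gram (μ := volume.restrict (Ivl k' j')) Si
      (fun t => pk k j δ t) (fun t => 1 / (2 : ℝ) ^ (k t)) (K := 2) (fun t _ => by positivity)
      (fun t _ => (measurable_pk k j δ t).aestronglyMeasurable)
      (fun t _ t' _ => by
        refine intOn k' j' ?_ (M := 1) fun x => ?_
        · exact (Complex.continuous_conj.measurable.comp (measurable_pk k j δ t)).mul
            (measurable_pk k j δ t')
        · rw [norm_mul, RCLike.norm_conj]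
          exact mul_le_one₀ (norm_pk_le k j δ t x) (norm_nonneg _) (norm_pk_le k j δ t' x))
      (by norm_num) hgram (f := h) hhm.aestronglyMeasurable
      (by
        refine intOn k' j' (hhm.norm.pow_const 2) (M := (2 * Q) ^ 2) fun x => ?_
        rw [norm_pow, norm_norm]
        have := hhb x
        gcongr)
      (δ := c / 2) (by positivity)
      (by
        intro t ht
        obtain ⟨htS, hat⟩ := hsub t ht
        have h1 := hvy t (hST htS) (a t + 2 * b) (ha4 t htS)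
        have h2 := tile hF hM0 hs hst hsm hD (w t) (w T1) (a t) b (k t) (j t) (habove t htS)
          (ha3 t htS) (ha1 t htS) (ha2 t htS)
        have h3 : ∫ y in Ivl k' j', conj (pk k j δ t y) * h y =
            ∫ z in Ivl (k t) (j t), h z * e (-(w t - w T1)) z := by
          rw [← integral_indicator_Ivl (hS t htS).2.2]
          congr 1
          ext y
          unfold pk
          by_cases hy : y ∈ Ivl (k t) (j t)
          · rw [Set.indicator_of_mem hy, Set.indicator_of_mem hy, conj_e, mul_comm]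
          · rw [Set.indicator_of_notMem hy, Set.indicator_of_notMem hy]
            simp
        rw [h3]
        rw [hat, ← hh'] at h2
        rw [hat] at h1
        have h4 : c / 2 ^ (k t) ≤ ‖∫ z in Ivl (k t) (j t), cut F s (k' + i + 2 * b) z *
            e (-w t) z‖ := by
          unfold coef at h1
          rw [norm_mul, norm_pow, Complex.norm_ofNat] at h1
          rw [div_le_iff₀ (by positivity)]
          linarith
        have h5 := norm_sub_norm_le (∫ z in Ivl (k t) (j t), cut F s (k' + i + 2 * b) z *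
            e (-w t) z) (∫ z in Ivl (k t) (j t), h z * e (-(w t - w T1)) z)
        have h6 : 26 * Q / 2 ^ b / 2 ^ k t ≤ c / 2 / 2 ^ (k t) := by
          have h8 : 26 * Q / 2 ^ b ≤ c / 2 := by
            rw [div_le_iff₀ (by positivity)]
            linarith
          exact div_le_div_of_nonneg_right h8 (by positivity)
        have h7 : c / 2 ^ (k t) - c / 2 / 2 ^ (k t) = c / 2 * (1 / 2 ^ k t) := by ring
        linarith)
    calc _ ≤ 2 / (c / 2) ^ 2 * ∫ x in Ivl k' j', ‖h x‖ ^ 2 := hbes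
      _ = _ := by field_simp; ring
  -- sum over the bands
  obtain ⟨N, hN⟩ : ∃ N : ℕ, ∀ t ∈ S, a t < k' + N := by
    refine ⟨(S.sup a) + 1, fun t ht => ?_⟩
    have := Finset.le_sup (f := a) ht
    omega
  have hpart : ∑ t ∈ S, 1 / (2 : ℝ) ^ (k t) =
      ∑ i ∈ Finset.range N, ∑ t ∈ S.filter (fun t => a t = k' + i), 1 / (2 : ℝ) ^ (k t) := by
    have h1 := Finset.sum_fiberwise_of_maps_to (s := S) (t := Finset.range N)
      (g := fun t => a t - k') (fun t ht => by
        rw [Finset.mem_range]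
        have := hN t ht
        have := hkk t ht
        omega) (fun t => 1 / (2 : ℝ) ^ (k t))
    rw [← h1]
    refine Finset.sum_congr rfl fun i _ => ?_
    refine Finset.sum_congr ?_ fun _ _ => rfl
    ext t
    rw [Finset.mem_filter, Finset.mem_filter]
    refine ⟨fun h => ⟨h.1, ?_⟩, fun h => ⟨h.1, ?_⟩⟩
    · have := hkk t h.1
      have := h.2
      omega
    · have := h.2
      omega
  rw [hpart]
  calc _ ≤ ∑ i ∈ Finset.range N, 8 / c ^ 2 *
        ∫ x in Ivl k' j', ‖hh (fb F (w T1) s) s b (k' + i) x‖ ^ 2 :=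
        Finset.sum_le_sum fun i _ => hone i
    _ = 8 / c ^ 2 * ∑ i ∈ Finset.range N,
        ∫ x in Ivl k' j', ‖hh (fb F (w T1) s) s b (k' + i) x‖ ^ 2 := by rw [Finset.mul_sum]
    _ ≤ 8 / c ^ 2 * (6 * b * Q ^ 2 / 2 ^ k') := by
        have := energy (f := fb F (w T1) s) (s := s) (measurable_fb F (w T1) hs) (norm_fb_le hD) hs
          b k' N j'
        gcongr
    _ = _ := by ring

end pack

end Crest.Agent.R100.Pack79
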