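import Crest.Agent.R100.Mart_933

/-!
# R100 / S0132: selection of tops (replaces John-Nirenberg and the self-improving count), helper721

Block B12' of the text of record (doc 1968, section 7, with the selection (S1)-(S3)).
-/

set_option autoImplicit false

open MeasureTheory Set
open scoped ENNReal

noncomputable section

namespace Crest.Agent.R100.Sel721

open Crest.Agent.R100.Mart933

/-- `Ivl k j` is inside `Ivl k' j'` -/
def Sub (k : ℕ) (j : ℤ) (k' : ℕ) (j' : ℤ) : Prop := k' ≤ k ∧ j / 2 ^ (k - k') = j'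

theorem Sub.refl (k : ℕ) (j : ℤ) : Sub k j k j := ⟨le_rfl, by simp⟩

theorem Sub.le {k k' : ℕ} {j j' : ℤ} (h : Sub k j k' j') : k' ≤ k := h.1

theorem ediv_pow_add (j : ℤ) (a b : ℕ) : j / 2 ^ (a + b) = j / 2 ^ a / 2 ^ b := by
  rw [pow_add, Int.ediv_ediv_of_nonneg (by positivity)]

theorem Sub.trans {k k' k'' : ℕ} {j j' j'' : ℤ} (h : Sub k j k' j') (h' : Sub k' j' k'' j'') :
    Sub k j k'' j'' := by
  obtain ⟨h1, h2⟩ := h
  obtain ⟨h3, h4⟩ := h'
  refine ⟨h3.trans h1, ?_⟩
  rw [show k - k'' = (k - k') + (k' - k'') by omega, ediv_pow_add, h2, h4]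

theorem Sub.eq_of_eq {k : ℕ} {j j' : ℤ} (h : Sub k j k j') : j = j' := by
  have := h.2
  simpa using this

/-- two nodes above the same node are nested -/
theorem Sub.nested {k k' k'' : ℕ} {j j' j'' : ℤ} (h : Sub k j k' j') (h' : Sub k j k'' j'')
    (hk : k'' ≤ k') : Sub k' j' k'' j'' := by
  obtain ⟨h1, h2⟩ := h
  obtain ⟨h3, h4⟩ := h'
  refine ⟨hk, ?_⟩
  rw [← h2, ← h4, ← ediv_pow_add]
  congr 2
  omega

/-- the ancestors of a cell of a point -/
theorem fl_sub {k k' : ℕ} (h : k' ≤ k) (x : ℝ) : Sub k (fl k x) k' (fl k' x) := by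
  refine ⟨h, ?_⟩
  induction k, h using Nat.le_induction with
  | base => simp
  | succ k hk ih =>
    rw [show k + 1 - k' = 1 + (k - k') by omega, ediv_pow_add, pow_one, ← fl_half, ih]

theorem mem_of_Sub {k k' : ℕ} {j j' : ℤ} (h : Sub k j k' j') {x : ℝ} (hx : fl k x = j) :
    fl k' x = j' := by
  have h1 := fl_sub h.1 x
  rw [hx] at h1
  rw [← h1.2, h.2]

/-- children of a node -/
theorem Sub_split {k k' : ℕ} {j j' : ℤ} : Sub k j k' j' ↔
    (k = k' ∧ j = j') ∨ Sub k j (k' + 1) (2 * j') ∨ Sub k j (k' + 1) (2 * j' + 1) := by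
  constructor
  · rintro ⟨h1, h2⟩
    rcases h1.eq_or_lt with h | h
    · left
      subst h
      exact ⟨rfl, by simpa using h2⟩
    · right
      have e : k - k' = (k - (k' + 1)) + 1 := by omega
      rw [e, ediv_pow_add, pow_one] at h2
      set q : ℤ := j / 2 ^ (k - (k' + 1)) with hq
      rcases Int.emod_two_eq_zero_or_one q with h3 | h3
      · left
        exact ⟨h, by omega⟩
      · right
        exact ⟨h, by omega⟩
  · rintro (⟨rfl, rfl⟩ | h | h)
    · exact Sub.refl _ _
    · exact h.trans ⟨by omega, by simp⟩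
    · refine h.trans ⟨by omega, ?_⟩
      rw [show k' + 1 - k' = 1 by omega, pow_one]
      omega

theorem Sub_disj {k k' : ℕ} {j j' : ℤ} (h : Sub k j (k' + 1) (2 * j'))
    (h' : Sub k j (k' + 1) (2 * j' + 1)) : False := by
  have := h.2
  have := h'.2
  omega

/-! ## removal of the depth restriction -/

section pack

variable {ι : Type*} (k : ι → ℕ) (j : ι → ℤ) (G : Finset ι)

open Classical in
/-- members at a node -/
def At (k' : ℕ) (j' : ℤ) : Finset ι := G.filter fun t => k t = k' ∧ j t = j'

open Classical in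
/-- total measure of the members inside a node, `d` generations -/
def Tot : ℕ → ℕ → ℤ → ℝ
  | 0, _, _ => 0
  | d + 1, k', j' => (At k j G k' j').card / 2 ^ k' + Tot d (k' + 1) (2 * j') +
      Tot d (k' + 1) (2 * j' + 1)

open Classical in
/-- the same with at most `r` members above every point -/
def Low : ℕ → ℕ → ℤ → ℕ → ℝ
  | 0, _, _, _ => 0
  | d + 1, k', j', r => if (At k j G k' j').card ≤ r then
      (At k j G k' j').card / 2 ^ k' + Low d (k' + 1) (2 * j') (r - (At k j G k' j').card) +
        Low d (k' + 1) (2 * j' + 1) (r - (At k j G k' j').card)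
      else r / 2 ^ k'

open Classical in
/-- measure of the points with more than `r` members -/
def Vol : ℕ → ℕ → ℤ → ℕ → ℝ
  | 0, _, _, _ => 0
  | d + 1, k', j', r => if (At k j G k' j').card ≤ r then
      Vol d (k' + 1) (2 * j') (r - (At k j G k' j').card) +
        Vol d (k' + 1) (2 * j' + 1) (r - (At k j G k' j').card)
      else 1 / 2 ^ k'

variable {k j G}

theorem two_half (k' : ℕ) : (1 : ℝ) / 2 ^ (k' + 1) + 1 / 2 ^ (k' + 1) = 1 / 2 ^ k' := by
  rw [pow_succ]; field_simp; norm_num

theorem Low_nonneg (d : ℕ) : ∀ (k' : ℕ) (j' : ℤ) (r : ℕ), 0 ≤ Low k j G d k' j' r := by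
  induction d with
  | zero => intro k' j' r; exact le_rfl
  | succ d ih =>
    intro k' j' r
    rw [Low]
    split_ifs
    · have := ih (k' + 1) (2 * j') (r - (At k j G k' j').card)
      have := ih (k' + 1) (2 * j' + 1) (r - (At k j G k' j').card)
      positivity
    · positivity

theorem Vol_nonneg (d : ℕ) : ∀ (k' : ℕ) (j' : ℤ) (r : ℕ), 0 ≤ Vol k j G d k' j' r := by
  induction d with
  | zero => intro k' j' r; exact le_rfl
  | succ d ih =>
    intro k' j' r
    rw [Vol]
    split_ifs
    · exact add_nonneg (ih _ _ _) (ih _ _ _)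
    · positivity

theorem Vol_le (d : ℕ) : ∀ (k' : ℕ) (j' : ℤ) (r : ℕ), Vol k j G d k' j' r ≤ 1 / 2 ^ k' := by
  induction d with
  | zero => intro k' j' r; exact (by positivity : (0 : ℝ) ≤ 1 / 2 ^ k')
  | succ d ih =>
    intro k' j' r
    rw [Vol]
    split_ifs
    · rw [← two_half]
      exact add_le_add (ih _ _ _) (ih _ _ _)
    · exact le_rfl

theorem mul_Vol_le (d : ℕ) : ∀ (k' : ℕ) (j' : ℤ) (r : ℕ),
    r * Vol k j G d k' j' r ≤ Low k j G d k' j' r := by
  induction d with
  | zero => intro k' j' r; simp [Vol, Low]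
  | succ d ih =>
    intro k' j' r
    rw [Vol, Low]
    split_ifs with h
    · set c := (At k j G k' j').card
      have h1 := ih (k' + 1) (2 * j') (r - c)
      have h2 := ih (k' + 1) (2 * j' + 1) (r - c)
      have h3 := Vol_le (k := k) (j := j) (G := G) d (k' + 1) (2 * j') (r - c)
      have h4 := Vol_le (k := k) (j := j) (G := G) d (k' + 1) (2 * j' + 1) (r - c)
      have e : ((r - c : ℕ) : ℝ) = (r : ℝ) - c := by push_cast [Nat.cast_sub h]; ring
      rw [e] at h1 h2
      have h5 := two_half k'
      have hc : (0 : ℝ) ≤ c := Nat.cast_nonneg _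
      set V1 := Vol k j G d (k' + 1) (2 * j') (r - c)
      set V2 := Vol k j G d (k' + 1) (2 * j' + 1) (r - c)
      have h6 : (c : ℝ) * (V1 + V2) ≤ c / 2 ^ k' := by
        have : V1 + V2 ≤ 1 / 2 ^ k' := by linarith
        calc (c : ℝ) * (V1 + V2) ≤ c * (1 / 2 ^ k') := by gcongr
          _ = c / 2 ^ k' := by ring
      nlinarith
    · exact le_of_eq (by ring)

open Classical in
/-- `Tot` is the sum over the members inside the node -/
theorem Tot_eq (d : ℕ) : ∀ (k' : ℕ) (j' : ℤ), (∀ t ∈ G, k t < k' + d) →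
    Tot k j G d k' j' = ∑ t ∈ G with Sub (k t) (j t) k' j', (1 : ℝ) / 2 ^ k t := by
  induction d with
  | zero =>
    intro k' j' h
    rw [Tot, eq_comm]
    apply Finset.sum_eq_zero
    intro t ht
    rw [Finset.mem_filter] at ht
    have := h t ht.1
    have := ht.2.le
    omega
  | succ d ih =>
    intro k' j' h
    rw [Tot, ih (k' + 1) _ (fun t ht => by have := h t ht; omega),
      ih (k' + 1) _ (fun t ht => by have := h t ht; omega)]
    have e1 : ((At k j G k' j').card : ℝ) / 2 ^ k' = ∑ t ∈ At k j G k' j', (1 : ℝ) / 2 ^ k t := by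
      rw [Finset.sum_congr rfl (g := fun _ => (1 : ℝ) / 2 ^ k')]
      · rw [Finset.sum_const, nsmul_eq_mul]; ring
      · intro t ht
        rw [At, Finset.mem_filter] at ht
        rw [ht.2.1]
    rw [e1, At, ← Finset.sum_union, ← Finset.sum_union]
    · congr 1
      ext t
      simp only [Finset.mem_union, Finset.mem_filter]
      rw [Sub_split (k := k t) (k' := k') (j := j t) (j' := j')]
      tauto
    · rw [Finset.disjoint_left]
      intro t ht ht'
      simp only [Finset.mem_union, Finset.mem_filter] at ht ht'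
      rcases ht with ht | ht
      · have := ht'.2.le
        omega
      · exact Sub_disj ht.2 ht'.2
    · rw [Finset.disjoint_left]
      intro t ht ht'
      simp only [Finset.mem_filter] at ht ht'
      have := ht'.2.le
      omega

open Classical in
/-- `Low` is realised by a subfamily of depth at most `r` -/
theorem Low_real (d : ℕ) : ∀ (k' : ℕ) (j' : ℤ) (r : ℕ), ∃ S ⊆ G,
    (∀ t ∈ S, Sub (k t) (j t) k' j') ∧
    (∀ t ∈ S, (S.filter fun t' => Sub (k t) (j t) (k t') (j t')).card ≤ r) ∧
    Low k j G d k' j' r = ∑ t ∈ S, (1 : ℝ) / 2 ^ k t := by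
  induction d with
  | zero =>
    intro k' j' r
    exact ⟨∅, by simp, by simp, by simp, by simp [Low]⟩
  | succ d ih =>
    intro k' j' r
    rw [Low]
    split_ifs with h
    · set c := (At k j G k' j').card with hc
      obtain ⟨S1, h1a, h1b, h1c, h1d⟩ := ih (k' + 1) (2 * j') (r - c)
      obtain ⟨S2, h2a, h2b, h2c, h2d⟩ := ih (k' + 1) (2 * j' + 1) (r - c)
      have hA : ∀ t ∈ At k j G k' j', t ∈ G ∧ k t = k' ∧ j t = j' := by
        intro t ht
        rw [At, Finset.mem_filter] at ht
        exact ⟨ht.1, ht.2⟩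
      have d01 : Disjoint (At k j G k' j') S1 := by
        rw [Finset.disjoint_left]
        intro t ht ht'
        have := (h1b t ht').le
        have := (hA t ht).2.1
        omega
      have d02 : Disjoint (At k j G k' j') S2 := by
        rw [Finset.disjoint_left]
        intro t ht ht'
        have := (h2b t ht').le
        have := (hA t ht).2.1
        omega
      have d12 : Disjoint S1 S2 := by
        rw [Finset.disjoint_left]
        intro t ht ht'
        exact Sub_disj (h1b t ht) (h2b t ht')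
      refine ⟨At k j G k' j' ∪ S1 ∪ S2, ?_, ?_, ?_, ?_⟩
      · intro t ht
        simp only [Finset.mem_union] at ht
        rcases ht with (ht | ht) | ht
        · exact (hA t ht).1
        · exact h1a ht
        · exact h2a ht
      · intro t ht
        simp only [Finset.mem_union] at ht
        rw [Sub_split]
        rcases ht with (ht | ht) | ht
        · exact Or.inl (hA t ht).2
        · exact Or.inr (Or.inl (h1b t ht))
        · exact Or.inr (Or.inr (h2b t ht))
      · -- depth
        intro t ht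
        simp only [Finset.mem_union] at ht
        have key : ∀ (S S' : Finset ι) (jc jc' : ℤ), jc ≠ jc' →
            (∀ t ∈ S, Sub (k t) (j t) (k' + 1) jc) → (∀ t ∈ S', Sub (k t) (j t) (k' + 1) jc') →
            (S.filter fun t' => Sub (k t) (j t) (k t') (j t')).card ≤ r - c → t ∈ S →
            ((At k j G k' j' ∪ S ∪ S').filter fun t' => Sub (k t) (j t) (k t') (j t')).card ≤ r := by
          intro S S' jc jc' hne hS hS' hcard htS
          have hsub : ((At k j G k' j' ∪ S ∪ S').filter
              fun t' => Sub (k t) (j t) (k t') (j t')) ⊆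
              At k j G k' j' ∪ (S.filter fun t' => Sub (k t) (j t) (k t') (j t')) := by
            intro t' ht'
            simp only [Finset.mem_union, Finset.mem_filter] at ht' ⊢
            rcases ht'.1 with (h3 | h3) | h3
            · exact Or.inl h3
            · exact Or.inr ⟨h3, ht'.2⟩
            · exfalso
              have h4 := ht'.2.trans (hS' t' h3)
              have h5 := hS t htS
              exact hne (by rw [← h5.2, ← h4.2])
          refine (Finset.card_le_card hsub).trans ((Finset.card_union_le _ _).trans ?_)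
          omega
        rcases ht with (ht | ht) | ht
        · have hsub : ((At k j G k' j' ∪ S1 ∪ S2).filter
              fun t' => Sub (k t) (j t) (k t') (j t')) ⊆ At k j G k' j' := by
            intro t' ht'
            simp only [Finset.mem_union, Finset.mem_filter] at ht'
            have h3 := ht'.2.le
            have h4 := (hA t ht).2.1
            rcases ht'.1 with (h5 | h5) | h5
            · exact h5
            · have := (h1b t' h5).le; omega
            · have := (h2b t' h5).le; omega
          exact (Finset.card_le_card hsub).trans h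
        · exact key S1 S2 (2 * j') (2 * j' + 1) (by omega) h1b h2b (h1c t ht) ht
        · have := key S2 S1 (2 * j' + 1) (2 * j') (by omega) h2b h1b (h2c t ht) ht
          rwa [Finset.union_assoc, Finset.union_comm S2 S1, ← Finset.union_assoc] at this
      · rw [Finset.sum_union (Finset.disjoint_union_left.2 ⟨d02, d12⟩), Finset.sum_union d01,
          ← h1d, ← h2d]
        congr 2
        rw [Finset.sum_congr rfl (g := fun _ => (1 : ℝ) / 2 ^ k')]
        · rw [Finset.sum_const, nsmul_eq_mul]; ring
        · intro t ht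
          rw [(hA t ht).2.1]
    · push Not at h
      obtain ⟨S, hS, hcard⟩ := Finset.exists_subset_card_eq h.le
      have hA : ∀ t ∈ S, t ∈ G ∧ k t = k' ∧ j t = j' := by
        intro t ht
        have := hS ht
        rw [At, Finset.mem_filter] at this
        exact ⟨this.1, this.2⟩
      refine ⟨S, fun t ht => (hA t ht).1, ?_, ?_, ?_⟩
      · intro t ht
        rw [(hA t ht).2.1, (hA t ht).2.2]
        exact Sub.refl _ _
      · intro t ht
        exact (Finset.card_filter_le _ _).trans hcard.le
      · rw [Finset.sum_congr rfl (g := fun _ => (1 : ℝ) / 2 ^ k')]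
        · rw [Finset.sum_const, nsmul_eq_mul, hcard]; ring
        · intro t ht
          rw [(hA t ht).2.1]

open Classical in
/-- **packing without the depth restriction** -/
theorem pack_all {k1 : ℕ} {j1 : ℤ} {D : ℕ} {M : ℝ} (hD : 1 ≤ D) (hMD : 2 * M ≤ D)
    (hP : ∀ (k' : ℕ) (j' : ℤ), Sub k' j' k1 j1 → ∀ S ⊆ G, (∀ t ∈ S, Sub (k t) (j t) k' j') →
      (∀ t ∈ S, (S.filter fun t' => Sub (k t) (j t) (k t') (j t')).card ≤ D) →
      ∑ t ∈ S, (1 : ℝ) / 2 ^ k t ≤ M * (1 / 2 ^ k')) :
    ∀ (k' : ℕ) (j' : ℤ), Sub k' j' k1 j1 →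
      ∑ t ∈ G with Sub (k t) (j t) k' j', (1 : ℝ) / 2 ^ k t ≤ 2 * M * (1 / 2 ^ k') := by
  have hM0 : 0 ≤ M := by
    have := hP k1 j1 (Sub.refl _ _) ∅ (by simp) (by simp) (by simp)
    rw [Finset.sum_empty] at this
    have h2 : (0 : ℝ) < 1 / 2 ^ k1 := by positivity
    exact nonneg_of_mul_nonneg_left this h2
  have hlow : ∀ d k' j', Sub k' j' k1 j1 → Low k j G d k' j' D ≤ M * (1 / 2 ^ k') := by
    intro d k' j' hs
    obtain ⟨S, h1, h2, h3, h4⟩ := Low_real (k := k) (j := j) (G := G) d k' j' D
    rw [h4]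
    exact hP k' j' hs S h1 h2 h3
  -- main induction
  have main : ∀ d, ∀ (k' : ℕ) (j' : ℤ), Sub k' j' k1 j1 →
      Tot k j G d k' j' ≤ 2 * M * (1 / 2 ^ k') := by
    intro d
    induction d using Nat.strong_induction_on with
    | _ d IH =>
    -- inner claim
    have inner : ∀ d' < d, ∀ (k' : ℕ) (j' : ℤ) (r : ℕ), Sub k' j' k1 j1 →
        Tot k j G d' k' j' ≤ Low k j G d' k' j' r + 2 * M * Vol k j G d' k' j' r := by
      intro d'
      induction d' with
      | zero =>
        intro _ k' j' r _
        simp [Tot, Low, Vol]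
      | succ d' ih' =>
        intro hd k' j' r hs
        by_cases hc : (At k j G k' j').card ≤ r
        · rw [Tot, Low, Vol, if_pos hc, if_pos hc]
          have c1 : Sub (k' + 1) (2 * j') k1 j1 :=
            Sub.trans (Sub_split.2 (Or.inr (Or.inl (Sub.refl _ _)))) hs
          have c2 : Sub (k' + 1) (2 * j' + 1) k1 j1 :=
            Sub.trans (Sub_split.2 (Or.inr (Or.inr (Sub.refl _ _)))) hs
          have h1 := ih' (by omega) (k' + 1) (2 * j') (r - (At k j G k' j').card) c1
          have h2 := ih' (by omega) (k' + 1) (2 * j' + 1) (r - (At k j G k' j').card) c2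
          linarith
        · have h1 := IH (d' + 1) hd k' j' hs
          have h2 := Low_nonneg (k := k) (j := j) (G := G) (d' + 1) k' j' r
          have h3 : Vol k j G (d' + 1) k' j' r = 1 / 2 ^ k' := by
            rw [Vol, if_neg hc]
          rw [h3]
          linarith
    intro k' j' hs
    rcases d with _ | d
    · rw [Tot]; positivity
    · have hc : (At k j G k' j').card ≤ D := by
        by_contra hc
        have h1 := hlow 1 k' j' hs
        rw [Low, if_neg hc] at h1
        have h2 : (0 : ℝ) < 1 / 2 ^ k' := by positivity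
        have h3 : (D : ℝ) ≤ M := by
          have : (D : ℝ) * (1 / 2 ^ k') ≤ M * (1 / 2 ^ k') := by
            calc (D : ℝ) * (1 / 2 ^ k') = D / 2 ^ k' := by ring
              _ ≤ _ := h1
          exact le_of_mul_le_mul_right this h2
        have h4 : (1 : ℝ) ≤ D := by exact_mod_cast hD
        linarith
      have hT : Tot k j G (d + 1) k' j' ≤ Low k j G (d + 1) k' j' D +
          2 * M * Vol k j G (d + 1) k' j' D := by
        rw [Tot, Low, Vol, if_pos hc, if_pos hc]
        have c1 : Sub (k' + 1) (2 * j') k1 j1 :=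
          Sub.trans (Sub_split.2 (Or.inr (Or.inl (Sub.refl _ _)))) hs
        have c2 : Sub (k' + 1) (2 * j' + 1) k1 j1 :=
          Sub.trans (Sub_split.2 (Or.inr (Or.inr (Sub.refl _ _)))) hs
        have h1 := inner d (by omega) (k' + 1) (2 * j') (D - (At k j G k' j').card) c1
        have h2 := inner d (by omega) (k' + 1) (2 * j' + 1) (D - (At k j G k' j').card) c2
        linarith
      have h5 := hlow (d + 1) k' j' hs
      have h6 := mul_Vol_le (k := k) (j := j) (G := G) (d + 1) k' j' D
      have h7 := Vol_nonneg (k := k) (j := j) (G := G) (d + 1) k' j' D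
      have h8 : 2 * M * Vol k j G (d + 1) k' j' D ≤ D * Vol k j G (d + 1) k' j' D := by gcongr
      linarith
  intro k' j' hs
  obtain ⟨m, hm⟩ : ∃ m, ∀ t ∈ G, k t < k' + m := by
    refine ⟨G.sup k + 1, fun t ht => ?_⟩
    have := Finset.le_sup (f := k) ht
    omega
  rw [← Tot_eq m k' j' hm]
  exact main m k' j' hs

end pack

/-! ## the selection -/

/-- greedy selection by generation -/
theorem exists_sel {ι : Type*} (R : ι → ι → Prop) (k : ι → ℕ) (T : Finset ι) : ∃ S ⊆ T,
    (∀ t ∈ T, t ∈ S ∨ ∃ t' ∈ S, t ≠ t' ∧ k t' ≤ k t ∧ R t' t) ∧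
    (∀ t ∈ S, ∀ t' ∈ S, t ≠ t' → k t' ≤ k t → ¬ R t' t ∨ (k t' = k t ∧ ¬ R t t')) := by
  classical
  induction T using Finset.induction_on_max_value k with
  | empty => exact ⟨∅, by simp, by simp, by simp⟩
  | insert a s ha hmax ih =>
    obtain ⟨S, hS, h1, h2⟩ := ih
    by_cases hd : ∃ t' ∈ S, R t' a
    · obtain ⟨t', ht', hR⟩ := hd
      refine ⟨S, hS.trans (Finset.subset_insert _ _), ?_, h2⟩
      intro t ht
      rw [Finset.mem_insert] at ht
      rcases ht with rfl | ht
      · exact Or.inr ⟨t', ht', fun h => ha (h ▸ hS ht'), hmax _ (hS ht'), hR⟩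
      · exact h1 t ht
    · push Not at hd
      refine ⟨insert a S, Finset.insert_subset_insert _ hS, ?_, ?_⟩
      · intro t ht
        rw [Finset.mem_insert] at ht
        rcases ht with rfl | ht
        · exact Or.inl (Finset.mem_insert_self _ _)
        · rcases h1 t ht with h | ⟨t', h3, h4⟩
          · exact Or.inl (Finset.mem_insert_of_mem h)
          · exact Or.inr ⟨t', Finset.mem_insert_of_mem h3, h4⟩
      · intro t ht t' ht' hne hk
        rw [Finset.mem_insert] at ht ht'
        rcases ht with rfl | ht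
        · rcases ht' with rfl | ht'
          · exact absurd rfl hne
          · exact Or.inl (hd t' ht')
        · rcases ht' with rfl | ht'
          · right
            exact ⟨le_antisymm hk (hmax _ (hS ht)), hd t ht⟩
          · exact h2 t ht t' ht' hne hk

/-! ## the count -/

section main

variable {ι : Type*} {k : ι → ℕ} {j : ι → ℤ} {w : ι → ℝ} {r : ι → ℕ} {b : ℕ}

/-- `t` is in the family of `t'` -/
def Fam (k : ι → ℕ) (j : ι → ℤ) (w : ι → ℝ) (r : ι → ℕ) (b : ℕ) (t' t : ι) : Prop :=
  Sub (k t) (j t) (k t') (j t') ∧ |w t - w t'| * 2 ^ (b + 1) ≤ 2 ^ r t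

open Classical in
/-- **selection**: total measure of the tops -/
theorem select {s : ℝ → ℕ} {T : Finset ι} {D : ℕ} {M A : ℝ} (hD : 1 ≤ D) (hMD : 2 * M ≤ D)
    (hA : 0 ≤ A) (hs : Measurable s)
    (pack : ∀ t1 ∈ T, ∀ (k' : ℕ) (j' : ℤ), Sub k' j' (k t1) (j t1) → ∀ S ⊆ T,
      (∀ t ∈ S, t ≠ t1 ∧ Fam k j w r b t1 t ∧ Sub (k t) (j t) k' j') →
      (∀ t ∈ S, (S.filter fun t' => Sub (k t) (j t) (k t') (j t')).card ≤ D) →
      ∑ t ∈ S, (1 : ℝ) / 2 ^ k t ≤ M * (1 / 2 ^ k'))
    {C : ι → ℝ → ℝ≥0∞} (hC : ∀ t ∈ T, Measurable (C t))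
    (J : ∀ t ∈ T, ENNReal.ofReal (A / 2 ^ k t) ≤
      ∫⁻ x in {x | fl (k t) x = j t ∧ s x < r t}, C t x)
    {Q : ℝ → ℝ≥0∞}
    (PPZ : ∀ x, ∀ S ⊆ T, (∀ t ∈ S, fl (k t) x = j t ∧ s x < r t) →
      (∀ t ∈ S, ∀ t' ∈ S, t ≠ t' → ⌊w t * 2 ^ b / 2 ^ s x⌋ ≠ ⌊w t' * 2 ^ b / 2 ^ s x⌋) →
      ∑ t ∈ S, C t x ≤ Q x) :
    ENNReal.ofReal (A * ∑ t ∈ T, 1 / 2 ^ k t) ≤ ENNReal.ofReal (1 + 2 * M) * ∫⁻ x, Q x := by
  obtain ⟨S, hST, h1, h2⟩ := exists_sel (Fam k j w r b) k T
  -- packing
  have hpack : ∀ t1 ∈ T, ∑ t ∈ T with (t ≠ t1 ∧ Fam k j w r b t1 t), (1 : ℝ) / 2 ^ k t ≤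
      2 * M * (1 / 2 ^ k t1) := by
    intro t1 ht1
    have := pack_all (k := k) (j := j) (G := T.filter fun t => t ≠ t1 ∧ Fam k j w r b t1 t)
      (k1 := k t1) (j1 := j t1) hD hMD (fun k' j' hk' S hS hS2 hS3 => by
        refine pack t1 ht1 k' j' hk' S (hS.trans (Finset.filter_subset _ _)) ?_ hS3
        intro t ht
        have := (Finset.mem_filter.1 (hS ht)).2
        exact ⟨this.1, this.2, hS2 t ht⟩) (k t1) (j t1) (Sub.refl _ _)
    refine le_trans (le_of_eq ?_) this
    apply Finset.sum_congr _ (fun _ _ => rfl)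
    ext t
    simp only [Finset.mem_filter]
    constructor
    · intro h
      exact ⟨h, h.2.2.1⟩
    · intro h
      exact h.1
  -- the sum over the tops
  have hsum : ∑ t ∈ T, (1 : ℝ) / 2 ^ k t ≤ (1 + 2 * M) * ∑ t ∈ S, 1 / 2 ^ k t := by
    calc ∑ t ∈ T, (1 : ℝ) / 2 ^ k t
        ≤ ∑ t1 ∈ S, (1 / 2 ^ k t1 + ∑ t ∈ T with (t ≠ t1 ∧ Fam k j w r b t1 t),
            (1 : ℝ) / 2 ^ k t) := by
          have e : ∀ t1 ∈ S, ((1 : ℝ) / 2 ^ k t1 + ∑ t ∈ T with (t ≠ t1 ∧ Fam k j w r b t1 t),
              (1 : ℝ) / 2 ^ k t) = ∑ t ∈ T, if t = t1 ∨ (t ≠ t1 ∧ Fam k j w r b t1 t) then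
                (1 : ℝ) / 2 ^ k t else 0 := by
            intro t1 ht1
            rw [← Finset.sum_filter, Finset.filter_or, Finset.sum_union]
            · congr 1
              rw [Finset.filter_eq' T t1, if_pos (hST ht1), Finset.sum_singleton]
            · rw [Finset.disjoint_left]
              intro t ht ht'
              simp only [Finset.mem_filter] at ht ht'
              exact ht'.2.1 ht.2
          rw [Finset.sum_congr rfl e, Finset.sum_comm]
          apply Finset.sum_le_sum
          intro t ht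
          have h0 : ∀ t1 ∈ S, (0 : ℝ) ≤ if t = t1 ∨ (t ≠ t1 ∧ Fam k j w r b t1 t) then
              (1 : ℝ) / 2 ^ k t else 0 := by
            intro t1 _
            split_ifs <;> positivity
          rcases h1 t ht with h3 | ⟨t', h3, h4, _, h5⟩
          · refine le_trans (le_of_eq ?_) (Finset.single_le_sum h0 h3)
            rw [if_pos (Or.inl rfl)]
          · refine le_trans (le_of_eq ?_) (Finset.single_le_sum h0 h3)
            rw [if_pos (Or.inr ⟨h4, h5⟩)]
      _ ≤ ∑ t1 ∈ S, (1 / 2 ^ k t1 + 2 * M * (1 / 2 ^ k t1)) := by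
          apply Finset.sum_le_sum
          intro t1 ht1
          have := hpack t1 (hST ht1)
          linarith
      _ = _ := by
          rw [Finset.mul_sum]
          apply Finset.sum_congr rfl
          intro t _
          ring
  -- the integral
  have hE : ∀ t : ι, MeasurableSet {x : ℝ | fl (k t) x = j t ∧ s x < r t} := by
    intro t
    exact (measurableSet_eq_fun (measurable_fl (k t)) measurable_const).inter
      (measurableSet_lt hs measurable_const)
  have hint : ENNReal.ofReal (A * ∑ t ∈ S, 1 / 2 ^ k t) ≤ ∫⁻ x, Q x := by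
    have e1 : ENNReal.ofReal (A * ∑ t ∈ S, 1 / 2 ^ k t) =
        ∑ t ∈ S, ENNReal.ofReal (A / 2 ^ k t) := by
      rw [← ENNReal.ofReal_sum_of_nonneg (fun t _ => by positivity), Finset.mul_sum]
      congr 1
      apply Finset.sum_congr rfl
      intro t _
      ring
    rw [e1]
    calc ∑ t ∈ S, ENNReal.ofReal (A / 2 ^ k t)
        ≤ ∑ t ∈ S, ∫⁻ x, ({x | fl (k t) x = j t ∧ s x < r t} : Set ℝ).indicator (C t) x := by
          apply Finset.sum_le_sum
          intro t ht
          rw [lintegral_indicator (hE t)]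
          exact J t (hST ht)
      _ = ∫⁻ x, ∑ t ∈ S, ({x | fl (k t) x = j t ∧ s x < r t} : Set ℝ).indicator (C t) x := by
          rw [lintegral_finsetSum]
          intro t ht
          exact (hC t (hST ht)).indicator (hE t)
      _ ≤ ∫⁻ x, Q x := by
          apply lintegral_mono
          intro x
          have e2 : ∑ t ∈ S, ({x | fl (k t) x = j t ∧ s x < r t} : Set ℝ).indicator (C t) x =
              ∑ t ∈ S with (fl (k t) x = j t ∧ s x < r t), C t x := by
            rw [Finset.sum_filter]
            apply Finset.sum_congr rfl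
            intro t _
            rw [Set.indicator_apply]
            congr 1
          change ∑ t ∈ S, ({x | fl (k t) x = j t ∧ s x < r t} : Set ℝ).indicator (C t) x ≤ Q x
          rw [e2]
          refine PPZ x _ ((Finset.filter_subset _ _).trans hST) ?_ ?_
          · intro t ht
            exact (Finset.mem_filter.1 ht).2
          · -- separation
            have hsep : ∀ t ∈ S, ∀ t' ∈ S, (fl (k t) x = j t ∧ s x < r t) →
                (fl (k t') x = j t' ∧ s x < r t') → t ≠ t' → k t' ≤ k t →
                ⌊w t * 2 ^ b / 2 ^ s x⌋ ≠ ⌊w t' * 2 ^ b / 2 ^ s x⌋ := by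
              intro t ht t' ht' hx hx' hne hk hfl
              have habs : |w t - w t'| * 2 ^ b < 2 ^ s x := by
                have h3 := Int.abs_sub_lt_one_of_floor_eq_floor hfl
                have h4 : (0 : ℝ) < 2 ^ s x := by positivity
                have h5 : w t * 2 ^ b / 2 ^ s x - w t' * 2 ^ b / 2 ^ s x =
                    (w t - w t') * (2 ^ b / 2 ^ s x) := by ring
                rw [h5, abs_mul, abs_of_pos (by positivity : (0 : ℝ) < 2 ^ b / 2 ^ s x),
                  mul_div_assoc', div_lt_one h4] at h3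
                exact h3
              have hclose : ∀ u : ι, s x < r u → |w t - w t'| * 2 ^ (b + 1) ≤ 2 ^ r u := by
                intro u hu
                have h6 : (2 : ℝ) ^ (s x + 1) ≤ 2 ^ r u :=
                  pow_le_pow_right₀ (by norm_num) hu
                calc |w t - w t'| * 2 ^ (b + 1) = 2 * (|w t - w t'| * 2 ^ b) := by
                      rw [pow_succ]; ring
                  _ ≤ 2 * 2 ^ s x := by linarith
                  _ = 2 ^ (s x + 1) := by rw [pow_succ]; ring
                  _ ≤ _ := h6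
              have hsub : Sub (k t) (j t) (k t') (j t') := by
                have := fl_sub hk x
                rwa [hx.1, hx'.1] at this
              rcases h2 t ht t' ht' hne hk with h7 | ⟨h7, h8⟩
              · exact h7 ⟨hsub, hclose t hx.2⟩
              · apply h8
                refine ⟨?_, ?_⟩
                · have := fl_sub (k := k t') (k' := k t) h7.ge x
                  rwa [hx.1, hx'.1] at this
                · rw [abs_sub_comm]
                  exact hclose t' hx'.2
            intro t ht t' ht' hne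
            rw [Finset.mem_filter] at ht ht'
            rcases le_total (k t') (k t) with hk | hk
            · exact hsep t ht.1 t' ht'.1 ht.2 ht'.2 hne hk
            · exact (hsep t' ht'.1 t ht.1 ht'.2 ht.2 hne.symm hk).symm
  rcases T.eq_empty_or_nonempty with h0 | ⟨t0, h0⟩
  · subst h0
    simp
  have hM0 : 0 ≤ 1 + 2 * M := by
    have := hpack t0 h0
    have h3 : (0 : ℝ) ≤ ∑ t ∈ T with (t ≠ t0 ∧ Fam k j w r b t0 t), (1 : ℝ) / 2 ^ k t :=
      Finset.sum_nonneg fun t _ => by positivity
    have h4 : (0 : ℝ) < 1 / 2 ^ k t0 := by positivity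
    have h5 : 0 ≤ 2 * M := nonneg_of_mul_nonneg_left (h3.trans this) h4
    linarith
  calc ENNReal.ofReal (A * ∑ t ∈ T, 1 / 2 ^ k t)
      ≤ ENNReal.ofReal ((1 + 2 * M) * (A * ∑ t ∈ S, 1 / 2 ^ k t)) := by
        apply ENNReal.ofReal_le_ofReal
        calc A * ∑ t ∈ T, (1 : ℝ) / 2 ^ k t ≤ A * ((1 + 2 * M) * ∑ t ∈ S, 1 / 2 ^ k t) := by
              gcongr
          _ = _ := by ring
    _ = ENNReal.ofReal (1 + 2 * M) * ENNReal.ofReal (A * ∑ t ∈ S, 1 / 2 ^ k t) :=
        ENNReal.ofReal_mul hM0
    _ ≤ _ := by gcongr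

end main

end Crest.Agent.R100.Sel721
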