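import Crest.Agent.R100.Wide_933

/-!
# R100 / S0132, helper871: stopping antichains

Stopping times `s : ℝ → ℕ` on the dyadic tree (constant on the stopped node), first-hit times of node
predicates, the stopped coefficient `stopc F s w x = coef F w (s x) (fl (s x) x)`, the averaging
identity over the antichain and Jensen's inequality.
-/

set_option autoImplicit false

open MeasureTheory Set
open scoped ENNReal

noncomputable section

namespace Crest.Agent.R100.Stop871

open Crest.Agent.R100.Mart933 Crest.Agent.R100.Wide933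

/-! ## nodes -/

theorem fl_congr {q : ℕ} {x y : ℝ} (h : fl q x = fl q y) : ∀ {k : ℕ}, k ≤ q → fl k x = fl k y := by
  intro k hk
  induction q, hk using Nat.le_induction with
  | base => exact h
  | succ q _ ih =>
    apply ih
    rw [fl_half q x, fl_half q y, h]

theorem Ivl_fl_eq {k : ℕ} {x y : ℝ} (h : fl k y = fl k x) : Ivl k (fl k y) = Ivl k (fl k x) := by
  rw [h]

theorem mem_self (k : ℕ) (x : ℝ) : x ∈ Ivl k (fl k x) := mem_Ivl.2 rfl

/-- a set which depends on the generation `q` node only is measurable -/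
theorem measurableSet_of_fl {q : ℕ} {A : Set ℝ} (hA : ∀ x y, fl q x = fl q y → x ∈ A → y ∈ A) :
    MeasurableSet A := by
  have : A = fl q ⁻¹' (fl q '' A) := by
    ext y
    constructor
    · intro hy; exact ⟨y, hy, rfl⟩
    · rintro ⟨x, hx, hxy⟩
      exact hA x y hxy hx
  rw [this]
  exact measurable_fl q (MeasurableSet.of_discrete)

/-! ## stopping times -/

/-- stopping time with values in the generations -/
def IsStop (s : ℝ → ℕ) : Prop := ∀ x y, fl (s x) y = fl (s x) x → s y = s x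

theorem IsStop.eq_iff {s : ℝ → ℕ} (hs : IsStop s) {q : ℕ} {x y : ℝ} (h : fl q x = fl q y) :
    s x = q ↔ s y = q := by
  constructor
  · rintro rfl
    exact hs x y h.symm
  · rintro rfl
    exact hs y x h

theorem IsStop.le_iff {s : ℝ → ℕ} (hs : IsStop s) {q : ℕ} {x y : ℝ} (h : fl q x = fl q y) :
    s x ≤ q ↔ s y ≤ q := by
  constructor
  · intro hx
    rw [hs x y (fl_congr h.symm hx)]
    exact hx
  · intro hy
    rw [hs y x (fl_congr h hy)]
    exact hy

theorem IsStop.lt_iff {s : ℝ → ℕ} (hs : IsStop s) {q : ℕ} {x y : ℝ} (h : fl q x = fl q y) :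
    q < s x ↔ q < s y := by
  rw [← not_le, ← not_le, hs.le_iff h]

theorem IsStop.measurableSet_eq {s : ℝ → ℕ} (hs : IsStop s) (q : ℕ) :
    MeasurableSet {x | s x = q} :=
  measurableSet_of_fl (q := q) fun _ _ h hx => (hs.eq_iff h).1 hx

theorem IsStop.measurableSet_le {s : ℝ → ℕ} (hs : IsStop s) (q : ℕ) :
    MeasurableSet {x | s x ≤ q} :=
  measurableSet_of_fl (q := q) fun _ _ h hx => (hs.le_iff h).1 hx

theorem IsStop.measurableSet_lt {s : ℝ → ℕ} (hs : IsStop s) (q : ℕ) :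
    MeasurableSet {x | q < s x} :=
  measurableSet_of_fl (q := q) fun _ _ h hx => (hs.lt_iff h).1 hx

theorem IsStop.measurable {s : ℝ → ℕ} (hs : IsStop s) : Measurable s :=
  measurable_to_countable' fun q => hs.measurableSet_eq q

theorem IsStop.min {s s' : ℝ → ℕ} (hs : IsStop s) (hs' : IsStop s') :
    IsStop fun x => min (s x) (s' x) := by
  intro x y h
  rcases le_total (s x) (s' x) with hle | hle
  · simp only [min_eq_left hle] at h ⊢
    have h1 : s y = s x := hs x y h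
    have h2 : s x ≤ s' y := by
      rcases Nat.eq_zero_or_pos (s x) with h0 | h0
      · omega
      · have := (hs'.lt_iff (q := s x - 1) (x := x) (y := y) (fl_congr h.symm (Nat.sub_le _ _))).1
          (by omega)
        omega
    omega
  · simp only [min_eq_right hle] at h ⊢
    have h1 : s' y = s' x := hs' x y h
    have h2 : s' x ≤ s y := by
      rcases Nat.eq_zero_or_pos (s' x) with h0 | h0
      · omega
      · have := (hs.lt_iff (q := s' x - 1) (x := x) (y := y) (fl_congr h.symm (Nat.sub_le _ _))).1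
          (by omega)
        omega
    omega

theorem IsStop.const (m : ℕ) : IsStop fun _ => m := fun _ _ _ => rfl

/-! ## first hits -/

section hit

theorem hit_exists (P : ℕ → ℤ → Prop) (m : ℕ) (x : ℝ) : ∃ k, P k (fl k x) ∨ k = m := ⟨m, Or.inr rfl⟩

open Classical in
/-- the first generation `k ≤ m` with `P k (fl k x)`, or `m` -/
def hit (P : ℕ → ℤ → Prop) (m : ℕ) (x : ℝ) : ℕ := Nat.find (hit_exists P m x)

variable {P : ℕ → ℤ → Prop} {m : ℕ} {x : ℝ}

theorem hit_le : hit P m x ≤ m := by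
  classical
  unfold hit
  exact Nat.find_min' _ (Or.inr rfl)

theorem hit_spec (h : hit P m x < m) : P (hit P m x) (fl (hit P m x) x) := by
  classical
  have h1 := Nat.find_spec (hit_exists P m x)
  rcases h1 with h1 | h1
  · exact h1
  · unfold hit at h
    omega

theorem hit_spec' : P (hit P m x) (fl (hit P m x) x) ∨ hit P m x = m := by
  classical
  exact Nat.find_spec (hit_exists P m x)

theorem not_of_lt_hit {k : ℕ} (h : k < hit P m x) : ¬ P k (fl k x) := by
  classical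
  have h1 := Nat.find_min (hit_exists P m x) h
  exact fun hP => h1 (Or.inl hP)

theorem hit_le_of {k : ℕ} (h : P k (fl k x)) : hit P m x ≤ k := by
  classical
  unfold hit
  exact Nat.find_min' _ (Or.inl h)

theorem lt_hit_iff {k : ℕ} : k < hit P m x ↔ k < m ∧ ∀ l ≤ k, ¬ P l (fl l x) := by
  constructor
  · intro h
    exact ⟨h.trans_le hit_le, fun l hl => not_of_lt_hit (hl.trans_lt h)⟩
  · rintro ⟨h1, h2⟩
    by_contra h
    rw [not_lt] at h
    rcases hit_spec' (P := P) (m := m) (x := x) with h3 | h3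
    · exact h2 _ h h3
    · omega

theorem isStop_hit (P : ℕ → ℤ → Prop) (m : ℕ) : IsStop (hit P m) := by
  intro x y h
  have h1 : ∀ k ≤ hit P m x, fl k y = fl k x := fun k hk => fl_congr h hk
  apply le_antisymm
  · rcases hit_spec' (P := P) (m := m) (x := x) with h2 | h2
    · apply hit_le_of
      rw [h]
      exact h2
    · rw [h2]; exact hit_le
  · by_contra hlt
    rw [not_le] at hlt
    rcases hit_spec' (P := P) (m := m) (x := y) with h2 | h2
    · rw [h1 _ hlt.le] at h2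
      exact not_of_lt_hit hlt h2
    · have := hit_le (P := P) (m := m) (x := x)
      omega

end hit

/-! ## the stopped coefficient -/

/-- stopped coefficient -/
def stopc (F : ℝ → ℂ) (s : ℝ → ℕ) (w : ℝ) (x : ℝ) : ℂ := coef F w (s x) (fl (s x) x)

theorem measurable_comp_stop {β : Type*} [MeasurableSpace β] {s : ℝ → ℕ} (hs : Measurable s)
    (g : ℕ → ℤ → β) : Measurable fun x => g (s x) (fl (s x) x) := by
  have h1 : Measurable fun p : ℕ × ℝ => g p.1 (fl p.1 p.2) :=
    measurable_from_prod_countable_right fun k => measurable_fl_comp k (g k)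
  exact h1.comp (hs.prodMk measurable_id)

theorem measurable_stopc (F : ℝ → ℂ) {s : ℝ → ℕ} (hs : Measurable s) (w : ℝ) :
    Measurable (stopc F s w) := measurable_comp_stop hs (coef F w)

theorem norm_stopc_le (F : ℝ → ℂ) (s : ℝ → ℕ) (w x : ℝ) :
    ‖stopc F s w x‖ ≤ avN F (s x) (fl (s x) x) := norm_coef_le _ _ _ _

theorem avN_le {F : ℝ → ℂ} (hF : Measurable F) {M : ℝ} (hM : ∀ x, ‖F x‖ ≤ M) (k : ℕ) (j : ℤ) :
    avN F k j ≤ M := by
  have h1 : ∫ y in Ivl k j, ‖F y‖ ≤ ∫ _y in Ivl k j, M := by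
    apply setIntegral_mono_on (intOn k j hF.norm (M := M) (fun x => by simpa using hM x))
      (intOn k j measurable_const (M := |M|) (fun x => by simp)) (measurableSet_Ivl _ _)
    intro x _
    exact hM x
  unfold avN
  have h2 : (0 : ℝ) < 2 ^ k := by positivity
  calc (2 : ℝ) ^ k * ∫ y in Ivl k j, ‖F y‖ ≤ 2 ^ k * ∫ _y in Ivl k j, M := by gcongr
    _ = M := by
      rw [setIntegral_const, volume_real_Ivl, smul_eq_mul]
      field_simp

theorem norm_stopc_le' {F : ℝ → ℂ} (hF : Measurable F) {M : ℝ} (hM : ∀ x, ‖F x‖ ≤ M) (s : ℝ → ℕ)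
    (w x : ℝ) : ‖stopc F s w x‖ ≤ M :=
  (norm_stopc_le F s w x).trans (avN_le hF hM _ _)

theorem stopc_congr (F : ℝ → ℂ) {s : ℝ → ℕ} (hs : IsStop s) (w : ℝ) {x y : ℝ}
    (h : fl (s x) y = fl (s x) x) : stopc F s w y = stopc F s w x := by
  unfold stopc
  rw [hs x y h, h]

/-- saturated set: a union of stopped nodes -/
def Sat (s : ℝ → ℕ) (A : Set ℝ) : Prop := ∀ x y, fl (s x) y = fl (s x) x → (x ∈ A ↔ y ∈ A)

theorem Sat.univ (s : ℝ → ℕ) : Sat s Set.univ := fun _ _ _ => by simp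

theorem sat_lt {s : ℝ → ℕ} (hs : IsStop s) (r : ℕ) : Sat s {x | s x < r} := by
  intro x y h
  rw [mem_ofPred_eq, mem_ofPred_eq, hs x y h]

theorem sat_ge {s : ℝ → ℕ} (hs : IsStop s) (r : ℕ) : Sat s {x | r ≤ s x} := by
  intro x y h
  rw [mem_ofPred_eq, mem_ofPred_eq, hs x y h]

theorem sat_pred {s : ℝ → ℕ} (P : ℕ → ℤ → Prop) (hs : IsStop s) : Sat s {x | P (s x) (fl (s x) x)} := by
  intro x y h
  rw [mem_ofPred_eq, mem_ofPred_eq, hs x y h, h]

theorem Sat.compl {s : ℝ → ℕ} {A : Set ℝ} (hA : Sat s A) : Sat s Aᶜ := by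
  intro x y h
  rw [mem_compl_iff, mem_compl_iff, hA x y h]

theorem Sat.inter {s : ℝ → ℕ} {A B : Set ℝ} (hA : Sat s A) (hB : Sat s B) : Sat s (A ∩ B) := by
  intro x y h
  rw [mem_inter_iff, mem_inter_iff, hA x y h, hB x y h]

theorem Sat.mono {s s' : ℝ → ℕ} {A : Set ℝ} (hA : Sat s A) (h : ∀ x, s x ≤ s' x) : Sat s' A := by
  intro x y hxy
  exact hA x y (fl_congr hxy (h x))

theorem Sat.measurableSet {s : ℝ → ℕ} (hs : IsStop s) {A : Set ℝ} (hA : Sat s A) :
    MeasurableSet A := by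
  have : A = ⋃ q : ℕ, (A ∩ {x | s x = q}) := by
    ext x
    simp
  rw [this]
  refine MeasurableSet.iUnion fun q => measurableSet_of_fl (q := q) ?_
  rintro x y h ⟨hx, hq⟩
  rw [mem_ofPred_eq] at hq
  subst hq
  exact ⟨(hA x y h.symm).1 hx, hs x y h.symm⟩

/-- **integral over a union of stopped nodes = integral of the stopped averages** -/
theorem integral_stop_aux {G : ℝ → ℂ} (hG : Measurable G) {M : ℝ} (hM : ∀ x, ‖G x‖ ≤ M)
    {s : ℝ → ℕ} (hs : IsStop s) {A : Set ℝ} (hA : Sat s A) {m : ℕ} :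
    ∀ (d k : ℕ) (j : ℤ), m = k + d → (∀ x ∈ Ivl k j, k ≤ s x) → (∀ x ∈ Ivl k j, s x ≤ m) →
      ∫ x in Ivl k j, A.indicator G x =
        ∫ x in Ivl k j, A.indicator (fun x => (2 : ℂ) ^ (s x) * ∫ y in Ivl (s x) (fl (s x) x), G y) x := by
  have hMA : MeasurableSet A := hA.measurableSet hs
  have hM0 : 0 ≤ M := (norm_nonneg _).trans (hM 0)
  -- the stopped average is bounded and measurable
  have hb : ∀ (k : ℕ) (j : ℤ), ‖(2 : ℂ) ^ k * ∫ y in Ivl k j, G y‖ ≤ M := by
    intro k j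
    rw [norm_mul, norm_pow, Complex.norm_ofNat]
    have h1 : ‖∫ y in Ivl k j, G y‖ ≤ M * volume.real (Ivl k j) := by
      refine norm_setIntegral_le_of_norm_le_const ?_ fun x _ => hM x
      rw [volume_Ivl]; exact ENNReal.ofReal_lt_top
    rw [volume_real_Ivl] at h1
    have h2 : (0 : ℝ) < 2 ^ k := by positivity
    calc (2 : ℝ) ^ k * ‖∫ y in Ivl k j, G y‖ ≤ 2 ^ k * (M * (1 / 2 ^ k)) := by gcongr
      _ = M := by field_simp
  have hmeas : Measurable fun x => (2 : ℂ) ^ (s x) * ∫ y in Ivl (s x) (fl (s x) x), G y :=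
    measurable_comp_stop hs.measurable (fun k j => (2 : ℂ) ^ k * ∫ y in Ivl k j, G y)
  have hi1 : ∀ k j, IntegrableOn (A.indicator G) (Ivl k j) := by
    intro k j
    refine intOn k j (hG.indicator hMA) (M := M) fun x => ?_
    exact (norm_indicator_le_norm_self _ _).trans (hM x)
  have hi2 : ∀ k j, IntegrableOn (A.indicator
      (fun x => (2 : ℂ) ^ (s x) * ∫ y in Ivl (s x) (fl (s x) x), G y)) (Ivl k j) := by
    intro k j
    refine intOn k j (hmeas.indicator hMA) (M := M) fun x => ?_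
    exact (norm_indicator_le_norm_self _ _).trans (hb _ _)
  intro d
  induction d with
  | zero =>
    intro k j hm h1 h2
    have hsx : ∀ x ∈ Ivl k j, s x = k := fun x hx => by
      have := h1 x hx; have := h2 x hx; omega
    have hxj : ∀ x ∈ Ivl k j, fl k x = j := fun x hx => mem_Ivl.1 hx
    have hne : (Ivl k j).Nonempty := by
      refine ⟨(j : ℝ) / 2 ^ k, le_refl _, ?_⟩
      gcongr
      linarith
    obtain ⟨x₀, hx₀⟩ := hne
    have hAll : ∀ x ∈ Ivl k j, (x₀ ∈ A ↔ x ∈ A) := by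
      intro x hx
      apply hA x₀ x
      rw [hsx x₀ hx₀, hxj x hx, hxj x₀ hx₀]
    by_cases hxA : x₀ ∈ A
    · have e1 : ∫ x in Ivl k j, A.indicator G x = ∫ x in Ivl k j, G x :=
        setIntegral_congr_fun (measurableSet_Ivl _ _) fun x hx => by
          simp only [indicator_of_mem ((hAll x hx).1 hxA)]
      have e2 : ∫ x in Ivl k j, A.indicator
          (fun x => (2 : ℂ) ^ (s x) * ∫ y in Ivl (s x) (fl (s x) x), G y) x =
          ∫ _x in Ivl k j, (2 : ℂ) ^ k * ∫ y in Ivl k j, G y :=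
        setIntegral_congr_fun (measurableSet_Ivl _ _) fun x hx => by
          simp only [indicator_of_mem ((hAll x hx).1 hxA)]
          rw [hsx x hx, hxj x hx]
      rw [e1, e2, setIntegral_const, volume_real_Ivl, Complex.real_smul]
      push_cast
      have : (2 : ℂ) ^ k ≠ 0 := pow_ne_zero _ two_ne_zero
      field_simp
    · have hn : ∀ x ∈ Ivl k j, x ∉ A := fun x hx hc => hxA ((hAll x hx).2 hc)
      rw [setIntegral_congr_fun (g := fun _ => (0 : ℂ)) (measurableSet_Ivl _ _) (fun x hx => by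
          simp only [indicator_of_notMem (hn x hx)]),
        setIntegral_congr_fun (g := fun _ => (0 : ℂ)) (f := A.indicator
          (fun x => (2 : ℂ) ^ (s x) * ∫ y in Ivl (s x) (fl (s x) x), G y))
          (measurableSet_Ivl _ _) (fun x hx => by
          simp only [indicator_of_notMem (hn x hx)])]
  | succ d ih =>
    intro k j hm h1 h2
    by_cases hex : ∃ x ∈ Ivl k j, s x = k
    · -- the node itself is stopped
      obtain ⟨x₀, hx₀, hsx₀⟩ := hex
      have hxj : ∀ x ∈ Ivl k j, fl k x = j := fun x hx => mem_Ivl.1 hx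
      have hsx : ∀ x ∈ Ivl k j, s x = k := fun x hx => by
        rw [← hsx₀]
        apply hs x₀ x
        rw [hsx₀, hxj x hx, hxj x₀ hx₀]
      have hAll : ∀ x ∈ Ivl k j, (x₀ ∈ A ↔ x ∈ A) := by
        intro x hx
        apply hA x₀ x
        rw [hsx x₀ hx₀, hxj x hx, hxj x₀ hx₀]
      by_cases hxA : x₀ ∈ A
      · have e1 : ∫ x in Ivl k j, A.indicator G x = ∫ x in Ivl k j, G x :=
          setIntegral_congr_fun (measurableSet_Ivl _ _) fun x hx => by
            simp only [indicator_of_mem ((hAll x hx).1 hxA)]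
        have e2 : ∫ x in Ivl k j, A.indicator
            (fun x => (2 : ℂ) ^ (s x) * ∫ y in Ivl (s x) (fl (s x) x), G y) x =
            ∫ _x in Ivl k j, (2 : ℂ) ^ k * ∫ y in Ivl k j, G y :=
          setIntegral_congr_fun (measurableSet_Ivl _ _) fun x hx => by
            simp only [indicator_of_mem ((hAll x hx).1 hxA)]
            rw [hsx x hx, hxj x hx]
        rw [e1, e2, setIntegral_const, volume_real_Ivl, Complex.real_smul]
        push_cast
        have : (2 : ℂ) ^ k ≠ 0 := pow_ne_zero _ two_ne_zero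
        field_simp
      · have hn : ∀ x ∈ Ivl k j, x ∉ A := fun x hx hc => hxA ((hAll x hx).2 hc)
        rw [setIntegral_congr_fun (g := fun _ => (0 : ℂ)) (measurableSet_Ivl _ _) (fun x hx => by
            simp only [indicator_of_notMem (hn x hx)]),
          setIntegral_congr_fun (g := fun _ => (0 : ℂ)) (f := A.indicator
            (fun x => (2 : ℂ) ^ (s x) * ∫ y in Ivl (s x) (fl (s x) x), G y))
            (measurableSet_Ivl _ _) (fun x hx => by
            simp only [indicator_of_notMem (hn x hx)])]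
    · push Not at hex
      have h1' : ∀ x ∈ Ivl k j, k + 1 ≤ s x := fun x hx => by
        have := h1 x hx; have := hex x hx; omega
      have hsub1 : Ivl (k + 1) (2 * j) ⊆ Ivl k j := by rw [Ivl_split k j]; exact subset_union_left
      have hsub2 : Ivl (k + 1) (2 * j + 1) ⊆ Ivl k j := by
        rw [Ivl_split k j]; exact subset_union_right
      rw [integral_Ivl hi1, integral_Ivl hi2,
        ih (k + 1) (2 * j) (by omega) (fun x hx => h1' x (hsub1 hx)) (fun x hx => h2 x (hsub1 hx)),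
        ih (k + 1) (2 * j + 1) (by omega) (fun x hx => h1' x (hsub2 hx))
          (fun x hx => h2 x (hsub2 hx))]

theorem nonempty_Ivl (k : ℕ) (j : ℤ) : (Ivl k j).Nonempty := by
  refine ⟨(j : ℝ) / 2 ^ k, le_refl _, ?_⟩
  gcongr
  linarith

/-- **the averaging identity**: coefficient of a restriction to a union of stopped nodes -/
theorem coef_ind_stop {F : ℝ → ℂ} (hF : Measurable F) {M : ℝ} (hM : ∀ x, ‖F x‖ ≤ M)
    {s : ℝ → ℕ} (hs : IsStop s) {A : Set ℝ} (hA : Sat s A) {m : ℕ} {k : ℕ} {j : ℤ}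
    (h1 : ∀ x ∈ Ivl k j, k ≤ s x) (h2 : ∀ x ∈ Ivl k j, s x ≤ m) (w : ℝ) :
    coef (A.indicator F) w k j = 2 ^ k * ∫ x in Ivl k j, A.indicator (stopc F s w) x := by
  have hk : k ≤ m := by
    obtain ⟨x, hx⟩ := nonempty_Ivl k j
    exact (h1 x hx).trans (h2 x hx)
  have h := integral_stop_aux (G := fun y => F y * e (-w) y) (hF.mul (measurable_e _)) (M := M)
    (fun x => by rw [norm_mul, norm_e, mul_one]; exact hM x) hs hA (m - k) k j (by omega) h1 h2
  unfold coef
  congr 1
  rw [show (∫ y in Ivl k j, A.indicator F y * e (-w) y) =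
    ∫ y in Ivl k j, A.indicator (fun y => F y * e (-w) y) y by
      congr 1
      ext y
      by_cases hy : y ∈ A
      · rw [indicator_of_mem hy, indicator_of_mem hy]
      · rw [indicator_of_notMem hy, indicator_of_notMem hy, zero_mul], h]
  rfl

theorem coef_eq_stop {F : ℝ → ℂ} (hF : Measurable F) {M : ℝ} (hM : ∀ x, ‖F x‖ ≤ M)
    {s : ℝ → ℕ} (hs : IsStop s) {m : ℕ} {k : ℕ} {j : ℤ}
    (h1 : ∀ x ∈ Ivl k j, k ≤ s x) (h2 : ∀ x ∈ Ivl k j, s x ≤ m) (w : ℝ) :
    coef F w k j = 2 ^ k * ∫ x in Ivl k j, stopc F s w x := by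
  have h := coef_ind_stop hF hM hs (Sat.univ s) h1 h2 w
  simpa using h

/-- the average of `|F|` over a node is the average of the stopped averages -/
theorem avN_ind_stop {F : ℝ → ℂ} (hF : Measurable F) {M : ℝ} (hM : ∀ x, ‖F x‖ ≤ M)
    {s : ℝ → ℕ} (hs : IsStop s) {A : Set ℝ} (hA : Sat s A) {m : ℕ} {k : ℕ} {j : ℤ}
    (h1 : ∀ x ∈ Ivl k j, k ≤ s x) (h2 : ∀ x ∈ Ivl k j, s x ≤ m) :
    avN (A.indicator F) k j =
      2 ^ k * ∫ x in Ivl k j, A.indicator (fun x => avN F (s x) (fl (s x) x)) x := by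
  have hk : k ≤ m := by
    obtain ⟨x, hx⟩ := nonempty_Ivl k j
    exact (h1 x hx).trans (h2 x hx)
  have h := integral_stop_aux (G := fun y => ((‖F y‖ : ℝ) : ℂ))
    (Complex.measurable_ofReal.comp hF.norm) (M := M)
    (fun x => by simpa using hM x) hs hA (m - k) k j (by omega) h1 h2
  unfold avN
  congr 1
  have e1 : (∫ x in Ivl k j, A.indicator (fun y => ((‖F y‖ : ℝ) : ℂ)) x) =
      ((∫ y in Ivl k j, ‖A.indicator F y‖ : ℝ) : ℂ) := by
    rw [← integral_complex_ofReal]
    congr 1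
    ext y
    by_cases hy : y ∈ A
    · rw [indicator_of_mem hy, indicator_of_mem hy]
    · rw [indicator_of_notMem hy, indicator_of_notMem hy]; simp
  have e2 : (∫ x in Ivl k j, A.indicator (fun x => (2 : ℂ) ^ (s x) *
      ∫ y in Ivl (s x) (fl (s x) x), ((‖F y‖ : ℝ) : ℂ)) x) =
      ((∫ x in Ivl k j, A.indicator (fun x => 2 ^ (s x) * ∫ y in Ivl (s x) (fl (s x) x), ‖F y‖) x
        : ℝ) : ℂ) := by
    rw [← integral_complex_ofReal]
    congr 1
    ext y
    by_cases hy : y ∈ A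
    · rw [indicator_of_mem hy, indicator_of_mem hy, integral_complex_ofReal]
      push_cast
      rfl
    · rw [indicator_of_notMem hy, indicator_of_notMem hy]; simp
  rw [e1, e2] at h
  exact_mod_cast h

/-! ## Jensen -/

/-- power mean inequality on a set -/
theorem lintegral_rpow_le {α : Type*} [MeasurableSpace α] {μ : Measure α} {g : α → ℝ≥0∞}
    (hg : AEMeasurable g μ) {p : ℝ} (hp : 1 ≤ p) :
    (∫⁻ x, g x ∂μ) ^ p ≤ μ Set.univ ^ (p - 1) * ∫⁻ x, g x ^ p ∂μ := by
  have hp0 : 0 < p := by linarith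
  have h := ENNReal.lintegral_mul_norm_pow_le (μ := μ) (f := fun x => g x ^ p)
    (g := fun _ => (1 : ℝ≥0∞)) (hg.pow_const p) aemeasurable_const (p := 1 / p) (q := 1 - 1 / p)
    (by positivity) (by rw [sub_nonneg, div_le_one hp0]; exact hp) (by ring)
  simp only [ENNReal.one_rpow, mul_one, lintegral_const, one_mul] at h
  have e1 : ∀ x, (g x ^ p) ^ (1 / p) = g x := by
    intro x
    rw [← ENNReal.rpow_mul, mul_one_div_cancel hp0.ne', ENNReal.rpow_one]
  simp only [e1] at h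
  calc (∫⁻ x, g x ∂μ) ^ p ≤ ((∫⁻ x, g x ^ p ∂μ) ^ (1 / p) * μ Set.univ ^ (1 - 1 / p)) ^ p := by
        gcongr
    _ = μ Set.univ ^ (p - 1) * ∫⁻ x, g x ^ p ∂μ := by
        rw [ENNReal.mul_rpow_of_nonneg _ _ hp0.le, ← ENNReal.rpow_mul, ← ENNReal.rpow_mul,
          one_div_mul_cancel hp0.ne', ENNReal.rpow_one, mul_comm]
        congr 2
        field_simp

theorem ofReal_two_pow_mul (k : ℕ) : ENNReal.ofReal (2 ^ k) * ENNReal.ofReal (1 / 2 ^ k) = 1 := by
  rw [← ENNReal.ofReal_mul (by positivity), mul_one_div_cancel (by positivity), ENNReal.ofReal_one]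

/-- **Jensen over the stopped antichain** -/
theorem jensen_stop {F : ℝ → ℂ} (hF : Measurable F) {M : ℝ} (hM : ∀ x, ‖F x‖ ≤ M)
    {s : ℝ → ℕ} (hs : IsStop s) {A : Set ℝ} (hA : Sat s A) {m : ℕ} {k : ℕ} {j : ℤ}
    (h1 : ∀ x ∈ Ivl k j, k ≤ s x) (h2 : ∀ x ∈ Ivl k j, s x ≤ m) (w : ℝ) {p : ℝ} (hp : 1 ≤ p) :
    ‖coef (A.indicator F) w k j‖ₑ ^ p ≤
      ENNReal.ofReal (2 ^ k) * ∫⁻ x in Ivl k j ∩ A, ‖stopc F s w x‖ₑ ^ p := by
  have hMA : MeasurableSet A := hA.measurableSet hs
  have hp0 : 0 ≤ p := by linarith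
  have hI : MeasurableSet (Ivl k j) := measurableSet_Ivl k j
  have hm : Measurable (stopc F s w) := measurable_stopc F hs.measurable w
  rw [coef_ind_stop hF hM hs hA h1 h2 w, enorm_mul]
  have e2 : ‖(2 : ℂ) ^ k‖ₑ = ENNReal.ofReal (2 ^ k) := by
    rw [← ofReal_norm, norm_pow, Complex.norm_ofNat]
  rw [e2]
  have e3 : ‖∫ x in Ivl k j, A.indicator (stopc F s w) x‖ₑ ≤
      ∫⁻ x in Ivl k j, ‖A.indicator (stopc F s w) x‖ₑ := enorm_integral_le_lintegral_enorm _
  have e4 : ∫⁻ x in Ivl k j ∩ A, ‖stopc F s w x‖ₑ ^ p =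
      ∫⁻ x in Ivl k j, ‖A.indicator (stopc F s w) x‖ₑ ^ p := by
    rw [inter_comm, ← Measure.restrict_restrict hMA, ← lintegral_indicator hMA]
    congr 1
    ext x
    by_cases hx : x ∈ A
    · rw [indicator_of_mem hx, indicator_of_mem hx]
    · rw [indicator_of_notMem hx, indicator_of_notMem hx, enorm_zero,
        ENNReal.zero_rpow_of_pos (by linarith)]
  rw [e4]
  have e5 := lintegral_rpow_le (μ := volume.restrict (Ivl k j))
    (g := fun x => ‖A.indicator (stopc F s w) x‖ₑ) (hm.indicator hMA).enorm.aemeasurable hp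
  rw [Measure.restrict_apply_univ, volume_Ivl] at e5
  calc (ENNReal.ofReal (2 ^ k) * ‖∫ x in Ivl k j, A.indicator (stopc F s w) x‖ₑ) ^ p
      ≤ (ENNReal.ofReal (2 ^ k) * ∫⁻ x in Ivl k j, ‖A.indicator (stopc F s w) x‖ₑ) ^ p := by
        gcongr
    _ = ENNReal.ofReal (2 ^ k) ^ p * (∫⁻ x in Ivl k j, ‖A.indicator (stopc F s w) x‖ₑ) ^ p :=
        ENNReal.mul_rpow_of_nonneg _ _ hp0
    _ ≤ ENNReal.ofReal (2 ^ k) ^ p * (ENNReal.ofReal (1 / 2 ^ k) ^ (p - 1) *
        ∫⁻ x in Ivl k j, ‖A.indicator (stopc F s w) x‖ₑ ^ p) := by gcongr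
    _ = ENNReal.ofReal (2 ^ k) * ∫⁻ x in Ivl k j, ‖A.indicator (stopc F s w) x‖ₑ ^ p := by
        have h3 : ENNReal.ofReal (2 ^ k) ^ p =
            ENNReal.ofReal (2 ^ k) * ENNReal.ofReal (2 ^ k) ^ (p - 1) := by
          have h4 : ENNReal.ofReal (2 ^ k) ≠ 0 := by
            rw [Ne, ENNReal.ofReal_eq_zero, not_le]
            positivity
          have h5 := ENNReal.rpow_add 1 (p - 1) h4 ENNReal.ofReal_ne_top
          rw [ENNReal.rpow_one] at h5
          rw [← h5]
          congr 1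
          ring
        rw [h3, mul_assoc, ← mul_assoc (ENNReal.ofReal (2 ^ k) ^ (p - 1)),
          ← ENNReal.mul_rpow_of_nonneg _ _ (by linarith : (0 : ℝ) ≤ p - 1), ofReal_two_pow_mul,
          ENNReal.one_rpow, one_mul]

/-- Jensen over the antichain, natural powers -/
theorem jensen_stop_nat {F : ℝ → ℂ} (hF : Measurable F) {M : ℝ} (hM : ∀ x, ‖F x‖ ≤ M)
    {s : ℝ → ℕ} (hs : IsStop s) {A : Set ℝ} (hA : Sat s A) {m : ℕ} {k : ℕ} {j : ℤ}
    (h1 : ∀ x ∈ Ivl k j, k ≤ s x) (h2 : ∀ x ∈ Ivl k j, s x ≤ m) (w : ℝ) {p : ℕ} (hp : 1 ≤ p) :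
    ‖coef (A.indicator F) w k j‖ₑ ^ p ≤
      ENNReal.ofReal (2 ^ k) * ∫⁻ x in Ivl k j ∩ A, ‖stopc F s w x‖ₑ ^ p := by
  have h := jensen_stop hF hM hs hA h1 h2 w (p := (p : ℝ)) (by exact_mod_cast hp)
  simpa only [ENNReal.rpow_natCast] using h

end Crest.Agent.R100.Stop871
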