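import Crest.Agent.R100.Grid_279
import Crest.Agent.R100.Stop_871
import Crest.Agent.R100.Tree1_711
import Crest.Agent.R100.Select_721
import Crest.Agent.R100.Pack1_79

/-!
# R100 / S0132, helper279: block B10, second part (tops of one grid index, Jensen, sum over the grid)
-/

set_option autoImplicit false

open MeasureTheory Set
open scoped ENNReal

noncomputable section

namespace Crest.Agent.R100.Grid279

open Crest.Agent.R100.Mart933 Crest.Agent.R100.Wide933 Crest.Agent.R100.Id833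
open Crest.Agent.R100.Tree711
open Crest.Agent.R100.Sel721 (Sub Fam select fl_sub mem_of_Sub)

/-! ## additivity of coefficients -/

theorem coef_add_on {f f₁ f₂ : ℝ → ℂ} (h₁ : Measurable f₁) (h₂ : Measurable f₂) {M : ℝ}
    (hM₁ : ∀ x, ‖f₁ x‖ ≤ M) (hM₂ : ∀ x, ‖f₂ x‖ ≤ M) {k : ℕ} {j : ℤ}
    (h : ∀ y ∈ Ivl k j, f y = f₁ y + f₂ y) (w : ℝ) :
    coef f w k j = coef f₁ w k j + coef f₂ w k j := by
  unfold coef
  rw [← mul_add, ← integral_add (integrable_fe h₁ hM₁ (-w) k j) (integrable_fe h₂ hM₂ (-w) k j)]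
  congr 1
  refine setIntegral_congr_fun (measurableSet_Ivl _ _) fun y hy => ?_
  simp only [h y hy]
  ring

theorem coef_congr_on {f f₁ : ℝ → ℂ} {k : ℕ} {j : ℤ} (h : ∀ y ∈ Ivl k j, f y = f₁ y) (w : ℝ) :
    coef f w k j = coef f₁ w k j := by
  unfold coef
  congr 1
  refine setIntegral_congr_fun (measurableSet_Ivl _ _) fun y hy => ?_
  simp only [h y hy]

theorem cut_eq_Pb (g : ℝ → ℂ) (κ : ℝ → ℕ) (k : ℕ) : cut g κ k = Pb g κ k := by
  ext y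
  unfold cut Pb
  by_cases h : k ≤ κ y
  · simp only [h, if_true]
  · simp only [h, if_false]

theorem XX_eq_XS (g : ℝ → ℂ) (κ : ℝ → ℕ) (k₀ k : ℕ) : XX g κ k₀ k = XS g κ k₀ k := by
  have e : ∀ i, exq g κ i = Tree711.Ex g κ i := by
    intro i
    ext y
    unfold exq Tree711.Ex
    by_cases h : κ y = i
    · simp only [h, if_true]
    · simp only [h, if_false]
  ext x
  unfold XX XS xe zz
  simp_rw [e]

section one

variable {g : ℝ → ℂ} {κ s : ℝ → ℕ} {M : ℝ} {m : ℕ}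

/-- the coefficient of the population alive at the grid -/
theorem coef_Fs_ge (hg : Measurable g) (hM : ∀ x, ‖g x‖ ≤ M) (hκ : Measurable κ)
    (hs : IsStop s m) {k₀ k : ℕ} {j : ℤ} {δ a : ℝ} {w : ℝ} (hk : k₀ ≤ k)
    (hks : ∀ x ∈ Ivl k j, k ≤ s x)
    (hδ : ∀ x ∈ Ivl k j, XX g κ k₀ (s x) x ≤ XX g κ k₀ k x + δ)
    (ha : a ≤ ‖coef (cut g κ k) w k j‖) : a - δ ≤ ‖coef (Fs g κ s) w k j‖ := by
  have h1 : coef (cut g κ k) w k j = coef (Fs g κ s) w k j + coef (Lo g κ s k) w k j := by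
    refine coef_add_on (measurable_Fs hg hκ hs.measurable) (measurable_Lo hg hκ hs.measurable k)
      (fun x => (norm_Fs_le g κ s x).trans (hM x)) (fun x => (norm_Lo_le g κ s k x).trans (hM x))
      (fun y hy => ?_) w
    have h2 := hks y hy
    unfold cut Fs Lo
    by_cases h3 : s y ≤ κ y
    · rw [if_pos (h2.trans h3), if_pos h3, if_neg (fun hc => absurd hc.2 (not_lt.2 h3)), add_zero]
    · rw [if_neg h3, zero_add]
      push Not at h3
      by_cases h4 : k ≤ κ y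
      · rw [if_pos h4, if_pos ⟨h4, h3⟩]
      · rw [if_neg h4, if_neg (fun hc => h4 hc.1)]
  have h2 : ‖coef (Lo g κ s k) w k j‖ ≤ δ :=
    (norm_coef_le _ _ _ _).trans (avN_Lo_le hg hM hκ hs hk hks hδ)
  rw [h1] at ha
  have := norm_add_le (coef (Fs g κ s) w k j) (coef (Lo g κ s k) w k j)
  linarith

/-- first `q` for which the part of `F` with `q ≤ s` has a coefficient `< c` -/
def rr (F : ℝ → ℂ) (s : ℝ → ℕ) (c w : ℝ) (k : ℕ) (j : ℤ) : ℕ :=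
  sInf {q | ‖coef (fun y => if q ≤ s y then F y else 0) w k j‖ < c}

theorem rr_of_lt {F : ℝ → ℂ} {c w : ℝ} {k : ℕ} {j : ℤ} {q : ℕ} (h : q < rr F s c w k j) :
    c ≤ ‖coef (fun y => if q ≤ s y then F y else 0) w k j‖ := by
  by_contra hc
  push Not at hc
  have : rr F s c w k j ≤ q := Nat.sInf_le hc
  omega

theorem rr_spec (hs : IsStop s m) {F : ℝ → ℂ} {c w : ℝ} (hc : 0 < c) (k : ℕ) (j : ℤ) :
    ‖coef (fun y => if rr F s c w k j ≤ s y then F y else 0) w k j‖ < c := by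
  have h : (m + 1) ∈ {q | ‖coef (fun y => if q ≤ s y then F y else 0) w k j‖ < c} := by
    change ‖coef (fun y => if m + 1 ≤ s y then F y else 0) w k j‖ < c
    have e1 : (fun y => if m + 1 ≤ s y then F y else 0) = fun _ => 0 := by
      ext y
      rw [if_neg]
      have := hs.le y
      omega
    rw [e1]
    unfold coef
    simpa using hc
  exact Nat.sInf_mem ⟨m + 1, h⟩

/-- a top of coefficient `≥ c₁` has coefficient `≥ c₁ - c` on the part `s < r` -/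
theorem coef_lt_ge {F : ℝ → ℂ} (hF : Measurable F) (hM : ∀ x, ‖F x‖ ≤ M) (hs : IsStop s m)
    {c c₁ w : ℝ} (hc : 0 < c) {k : ℕ} {j : ℤ} (h : c₁ ≤ ‖coef F w k j‖) :
    c₁ - c ≤ ‖coef ({x | s x < rr F s c w k j}.indicator F) w k j‖ := by
  have hsm := hs.measurable
  have h0 : 0 ≤ M := (norm_nonneg _).trans (hM 0)
  have h1 := rr_spec hs (F := F) (c := c) (w := w) hc k j
  set r := rr F s c w k j with hr
  have h2 : coef F w k j = coef ({x | s x < r}.indicator F) w k j +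
      coef (fun y => if r ≤ s y then F y else 0) w k j := by
    refine coef_add_on (M := M) (hF.indicator (measurableSet_lt hsm measurable_const))
      (Measurable.ite (measurableSet_le measurable_const hsm) hF measurable_const) (fun x => ?_)
      (fun x => ?_) (fun y _ => ?_) w
    · exact (norm_indicator_le_norm_self _ _).trans (hM x)
    · change ‖if r ≤ s x then F x else 0‖ ≤ M
      split_ifs
      · exact hM x
      · rw [norm_zero]; exact h0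
    · by_cases hy : s y < r
      · rw [indicator_of_mem (show y ∈ {x | s x < r} from hy), if_neg (not_le.2 hy), add_zero]
      · rw [indicator_of_notMem (show y ∉ {x | s x < r} from hy), if_pos (not_lt.1 hy), zero_add]
  rw [h2] at h
  have := norm_add_le (coef ({x | s x < r}.indicator F) w k j)
    (coef (fun y => if r ≤ s y then F y else 0) w k j)
  linarith

theorem isStop871 (hs : IsStop s m) : Stop871.IsStop s := fun x y h => hs.stop x y h.symm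

/-- on the exit node the population is the population alive there -/
theorem stopc_Fs (hs : IsStop s m) (w x : ℝ) :
    Stop871.stopc (Fs g κ s) s w x = coef (cut g κ (s x)) w (s x) (fl (s x) x) := by
  unfold Stop871.stopc
  refine coef_congr_on (fun y hy => ?_) w
  have h1 : s y = s x := hs.stop x y (mem_Ivl.1 hy).symm
  unfold Fs cut
  rw [h1]

/-- **(J)** -/
theorem jensen (hg : Measurable g) (hM : ∀ x, ‖g x‖ ≤ M) (hκ : Measurable κ)
    (hs : IsStop s m) {k : ℕ} {j : ℤ} (hks : ∀ x ∈ Ivl k j, k ≤ s x) {c c₁ w : ℝ}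
    (hc : 0 < c) (hcc : c ≤ c₁) (h : c₁ ≤ ‖coef (Fs g κ s) w k j‖) {p : ℝ} (hp : 1 ≤ p) :
    ENNReal.ofReal ((c₁ - c) ^ p / 2 ^ k) ≤
      ∫⁻ x in {x | fl k x = j ∧ s x < rr (Fs g κ s) s c w k j},
        ‖coef (cut g κ (s x)) w (s x) (fl (s x) x)‖ₑ ^ p := by
  have hF := measurable_Fs hg hκ hs.measurable
  have hFM : ∀ x, ‖Fs g κ s x‖ ≤ M := fun x => (norm_Fs_le g κ s x).trans (hM x)
  have h1 := coef_lt_ge hF hFM hs hc h
  set r := rr (Fs g κ s) s c w k j with hr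
  have h2 := Stop871.jensen_stop hF hFM (isStop871 hs) (Stop871.sat_lt (isStop871 hs) r)
    (k := k) (j := j) hks (fun x _ => hs.le x) w hp
  have e1 : Ivl k j ∩ {x | s x < r} = {x | fl k x = j ∧ s x < r} := by
    ext x
    simp only [mem_inter_iff, mem_Ivl, mem_ofPred_eq]
  simp_rw [stopc_Fs hs, e1] at h2
  have h3 : ENNReal.ofReal ((c₁ - c) ^ p) ≤
      ‖coef ({x | s x < r}.indicator (Fs g κ s)) w k j‖ₑ ^ p := by
    rw [← ENNReal.ofReal_rpow_of_nonneg (by linarith) (by linarith), ← ofReal_norm]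
    gcongr
  have h4 := h3.trans h2
  rw [div_eq_mul_one_div, ENNReal.ofReal_mul (by
    exact Real.rpow_nonneg (by linarith) _)]
  calc ENNReal.ofReal ((c₁ - c) ^ p) * ENNReal.ofReal (1 / 2 ^ k)
      ≤ (ENNReal.ofReal (2 ^ k) * ∫⁻ x in {x | fl k x = j ∧ s x < r},
          ‖coef (cut g κ (s x)) w (s x) (fl (s x) x)‖ₑ ^ p) * ENNReal.ofReal (1 / 2 ^ k) := by
        gcongr
    _ = _ := by
        rw [mul_comm, ← mul_assoc, mul_comm (ENNReal.ofReal (1 / 2 ^ k)),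
          Stop871.ofReal_two_pow_mul, one_mul]

end one

/-! ## cells -/

/-- cells of length `2^(l-b)` split into `2^b` families with distinct cells of length `2^l` -/
theorem sum_cells {ι : Type*} (S : Finset ι) (Y : ι → ℝ) (l b : ℕ) (C : ι → ℝ≥0∞) {W : ℝ≥0∞}
    (hW : ∀ S' ⊆ S, (∀ t ∈ S', ∀ t' ∈ S', t ≠ t' → ⌊Y t / 2 ^ l⌋ ≠ ⌊Y t' / 2 ^ l⌋) →
      ∑ t ∈ S', C t ≤ W)
    (hd : ∀ t ∈ S, ∀ t' ∈ S, t ≠ t' → ⌊Y t * 2 ^ b / 2 ^ l⌋ ≠ ⌊Y t' * 2 ^ b / 2 ^ l⌋) :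
    ∑ t ∈ S, C t ≤ 2 ^ b * W := by
  classical
  have hb : (0 : ℤ) < 2 ^ b := by positivity
  have hq : ∀ y : ℝ, ⌊y * 2 ^ b / 2 ^ l⌋ / (2 ^ b : ℤ) = ⌊y / 2 ^ l⌋ := by
    intro y
    have h1 := Int.floor_div_natCast (y * 2 ^ b / 2 ^ l) (2 ^ b)
    push_cast at h1
    rw [← h1]
    congr 1
    have : (2 : ℝ) ^ b ≠ 0 := by positivity
    field_simp
  let ρ : ι → ℕ := fun t => (⌊Y t * 2 ^ b / 2 ^ l⌋ % (2 ^ b : ℤ)).toNat
  have hρ : ∀ t ∈ S, ρ t ∈ Finset.range (2 ^ b) := by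
    intro t _
    rw [Finset.mem_range]
    have h1 := Int.emod_nonneg ⌊Y t * 2 ^ b / 2 ^ l⌋ hb.ne'
    have h2 := Int.emod_lt_of_pos ⌊Y t * 2 ^ b / 2 ^ l⌋ hb
    change (⌊Y t * 2 ^ b / 2 ^ l⌋ % (2 ^ b : ℤ)).toNat < 2 ^ b
    zify
    rw [Int.toNat_of_nonneg h1]
    exact h2
  rw [← Finset.sum_fiberwise_of_maps_to hρ]
  calc ∑ i ∈ Finset.range (2 ^ b), ∑ t ∈ S with ρ t = i, C t
      ≤ ∑ _i ∈ Finset.range (2 ^ b), W := by
        refine Finset.sum_le_sum fun i _ => hW _ (Finset.filter_subset _ _) ?_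
        intro t ht t' ht' htt hc
        rw [Finset.mem_filter] at ht ht'
        apply hd t ht.1 t' ht'.1 htt
        have h1 : ⌊Y t * 2 ^ b / 2 ^ l⌋ % (2 ^ b : ℤ) = ⌊Y t' * 2 ^ b / 2 ^ l⌋ % (2 ^ b : ℤ) := by
          have h2 : ρ t = ρ t' := ht.2.trans ht'.2.symm
          have a1 := Int.emod_nonneg ⌊Y t * 2 ^ b / 2 ^ l⌋ hb.ne'
          have a2 := Int.emod_nonneg ⌊Y t' * 2 ^ b / 2 ^ l⌋ hb.ne'
          have h3 : ((ρ t : ℕ) : ℤ) = (ρ t' : ℕ) := by rw [h2]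
          change (((⌊Y t * 2 ^ b / 2 ^ l⌋ % (2 ^ b : ℤ)).toNat : ℕ) : ℤ) =
            (((⌊Y t' * 2 ^ b / 2 ^ l⌋ % (2 ^ b : ℤ)).toNat : ℕ) : ℤ) at h3
          rwa [Int.toNat_of_nonneg a1, Int.toNat_of_nonneg a2] at h3
        have h4 : ⌊Y t * 2 ^ b / 2 ^ l⌋ / (2 ^ b : ℤ) = ⌊Y t' * 2 ^ b / 2 ^ l⌋ / (2 ^ b : ℤ) := by
          rw [hq, hq, hc]
        rw [← Int.emod_add_mul_ediv ⌊Y t * 2 ^ b / 2 ^ l⌋ (2 ^ b),
          ← Int.emod_add_mul_ediv ⌊Y t' * 2 ^ b / 2 ^ l⌋ (2 ^ b), h1, h4]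
    _ = 2 ^ b * W := by
        rw [Finset.sum_const, Finset.card_range, nsmul_eq_mul]
        push_cast
        rfl

/-- families indexed by their cell -/
theorem sum_of_cells {ι : Type*} (S : Finset ι) (Y : ι → ℝ) (l : ℕ) (G : ℝ → ℝ≥0∞) {W : ℝ≥0∞}
    (hW : ∀ (I : Finset ℤ) (Z : ℤ → ℝ),
      (∀ i ∈ I, (i : ℝ) * 2 ^ l ≤ Z i ∧ Z i < ((i : ℝ) + 1) * 2 ^ l) → ∑ i ∈ I, G (Z i) ≤ W)
    (hd : ∀ t ∈ S, ∀ t' ∈ S, t ≠ t' → ⌊Y t / 2 ^ l⌋ ≠ ⌊Y t' / 2 ^ l⌋) :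
    ∑ t ∈ S, G (Y t) ≤ W := by
  classical
  let f : ι → ℤ := fun t => ⌊Y t / 2 ^ l⌋
  let Z : ℤ → ℝ := fun i => if h : ∃ t ∈ S, f t = i then Y h.choose else 0
  have hZ : ∀ t ∈ S, Z (f t) = Y t := by
    intro t ht
    have hex : ∃ t' ∈ S, f t' = f t := ⟨t, ht, rfl⟩
    change (if h : ∃ t' ∈ S, f t' = f t then Y h.choose else 0) = Y t
    rw [dif_pos hex]
    congr 1
    by_contra hne
    exact hd _ hex.choose_spec.1 t ht hne hex.choose_spec.2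
  have hinj : Set.InjOn f S := by
    intro t ht t' ht' h
    by_contra hne
    exact hd t ht t' ht' hne h
  have h1 := hW (S.image f) Z (by
    intro i hi
    obtain ⟨t, ht, rfl⟩ := Finset.mem_image.1 hi
    rw [hZ t ht]
    have h2 : (0 : ℝ) < 2 ^ l := by positivity
    have a1 := Int.floor_le (Y t / 2 ^ l)
    have a2 := Int.lt_floor_add_one (Y t / 2 ^ l)
    rw [le_div_iff₀ h2] at a1
    rw [div_lt_iff₀ h2] at a2
    exact ⟨a1, a2⟩)
  rw [Finset.sum_image hinj] at h1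
  rw [Finset.sum_congr rfl fun t ht => by rw [← hZ t ht]]
  exact h1

/-! ## total mass of the exits -/

section total

variable {g : ℝ → ℂ} {κ : ℝ → ℕ} {M Q a : ℝ} {k₀ m : ℕ} {j₀ : ℤ}

theorem measurable_XX (k : ℕ) : Measurable (XX g κ k₀ k) := by
  have e : XX g κ k₀ k = fun x => (fun j : ℤ => XX g κ k₀ k ((j : ℝ) / 2 ^ k)) (fl k x) := by
    ext x
    exact XX_congr' (by rw [IsStop.fl_rep])
  rw [e]
  exact measurable_fl_comp k (fun j : ℤ => XX g κ k₀ k ((j : ℝ) / 2 ^ k))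

open Classical in
theorem integral_XX_le (hg : Measurable g) (hM : ∀ x, ‖g x‖ ≤ M) (hκ : Measurable κ)
    (hQ : avN (cut g κ k₀) k₀ j₀ ≤ Q) (k : ℕ) :
    IntegrableOn (XX g κ k₀ k) (Ivl k₀ j₀) ∧
    ∫ x in Ivl k₀ j₀, XX g κ k₀ k x ≤ Q * (1 / 2 ^ k₀) := by
  have hint : ∀ i, ∀ (k : ℕ) (j : ℤ), IntegrableOn (fun y => ‖exq g κ i y‖) (Ivl k j) := fun i k j =>
    intOn k j (measurable_exq hg hκ i).norm (M := M) fun x => by
      simpa using (norm_exq_le g κ i x).trans (hM x)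
  have h1 : ∀ i, k₀ ≤ i → IntegrableOn (fun x => xe g κ i x) (Ivl k₀ j₀) ∧
      ∫ x in Ivl k₀ j₀, xe g κ i x = ∫ x in Ivl k₀ j₀, ‖exq g κ i x‖ := by
    intro i hi
    have h := avg_node' (h := fun y => ‖exq g κ i y‖) (hint i) (fun _ : ℤ => (1 : ℝ)) hi j₀
    simp only [one_smul] at h
    exact ⟨h.2.1, h.2.2⟩
  have h2 : IntegrableOn (XX g κ k₀ k) (Ivl k₀ j₀) := by
    unfold XX
    exact integrable_finsetSum _ fun i hi => (h1 i (Finset.mem_Ico.1 hi).1).1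
  refine ⟨h2, ?_⟩
  have h3 : ∫ x in Ivl k₀ j₀, XX g κ k₀ k x =
      ∫ x in Ivl k₀ j₀, ∑ i ∈ Finset.Ico k₀ k, ‖exq g κ i x‖ := by
    unfold XX
    rw [integral_finsetSum _ fun i hi => (h1 i (Finset.mem_Ico.1 hi).1).1,
      integral_finsetSum _ fun i _ => hint i k₀ j₀]
    exact Finset.sum_congr rfl fun i hi => (h1 i (Finset.mem_Ico.1 hi).1).2
  have h4 : ∀ y, ∑ i ∈ Finset.Ico k₀ k, ‖exq g κ i y‖ ≤ ‖cut g κ k₀ y‖ := by
    intro y
    unfold exq cut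
    by_cases h : κ y ∈ Finset.Ico k₀ k
    · rw [Finset.sum_eq_single_of_mem (κ y) h
        (fun i _ hi => by rw [if_neg (Ne.symm hi), norm_zero]), if_pos rfl,
        if_pos (Finset.mem_Ico.1 h).1]
    · rw [Finset.sum_eq_zero]
      · exact norm_nonneg _
      · intro i hi
        rw [if_neg, norm_zero]
        rintro rfl
        exact h hi
  have h5 : ∫ x in Ivl k₀ j₀, ∑ i ∈ Finset.Ico k₀ k, ‖exq g κ i x‖ ≤
      ∫ x in Ivl k₀ j₀, ‖cut g κ k₀ x‖ := by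
    refine setIntegral_mono_on (integrable_finsetSum _ fun i _ => hint i k₀ j₀) ?_
      (measurableSet_Ivl _ _) fun y _ => h4 y
    exact intOn k₀ j₀ (measurable_cut hg hκ k₀).norm (M := M) fun x => by
      simpa using (norm_cut_le g κ k₀ x).trans (hM x)
  rw [h3]
  refine h5.trans ?_
  unfold avN at hQ
  have h6 : (0 : ℝ) < 2 ^ k₀ := by positivity
  rw [mul_one_div, le_div_iff₀ h6, mul_comm]
  exact hQ

/-- total measure of the levels of the grid -/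
theorem sum_volume_le (hg : Measurable g) (hM : ∀ x, ‖g x‖ ≤ M) (hκ : Measurable κ)
    (ha : 0 < a) (hQ : avN (cut g κ k₀) k₀ j₀ ≤ Q) (k : ℕ) (A : Finset ℕ) :
    ∑ i ∈ A, volume {x | fl k₀ x = j₀ ∧ (i : ℝ) * (a / 10) ≤ XX g κ k₀ k x} ≤
      ENNReal.ofReal ((1 + 10 * Q / a) / 2 ^ k₀) := by
  classical
  have hX := integral_XX_le hg hM hκ hQ k
  have hmX := measurable_XX (g := g) (κ := κ) (k₀ := k₀) k
  have hms : ∀ i : ℕ, MeasurableSet {x | (i : ℝ) * (a / 10) ≤ XX g κ k₀ k x} := fun i =>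
    measurableSet_le measurable_const hmX
  have e1 : ∀ i : ℕ, volume {x | fl k₀ x = j₀ ∧ (i : ℝ) * (a / 10) ≤ XX g κ k₀ k x} =
      ∫⁻ x in Ivl k₀ j₀, {x | (i : ℝ) * (a / 10) ≤ XX g κ k₀ k x}.indicator 1 x := by
    intro i
    rw [lintegral_indicator_one (hms i), Measure.restrict_apply (hms i)]
    congr 1
    ext x
    simp only [mem_inter_iff, mem_Ivl, mem_ofPred_eq]
    exact and_comm
  simp_rw [e1]
  rw [← lintegral_finsetSum _ fun i _ => measurable_one.indicator (hms i)]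
  have h2 : ∀ x, ∑ i ∈ A, {x | (i : ℝ) * (a / 10) ≤ XX g κ k₀ k x}.indicator (1 : ℝ → ℝ≥0∞) x ≤
      ENNReal.ofReal (1 + 10 / a * XX g κ k₀ k x) := by
    intro x
    have h3 : ∑ i ∈ A, {x | (i : ℝ) * (a / 10) ≤ XX g κ k₀ k x}.indicator (1 : ℝ → ℝ≥0∞) x =
        ((A.filter fun i : ℕ => (i : ℝ) * (a / 10) ≤ XX g κ k₀ k x).card : ℝ≥0∞) := by
      rw [Finset.card_filter]
      push_cast
      refine Finset.sum_congr rfl fun i _ => ?_
      by_cases h : (i : ℝ) * (a / 10) ≤ XX g κ k₀ k x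
      · rw [indicator_of_mem (show x ∈ {x | (i : ℝ) * (a / 10) ≤ XX g κ k₀ k x} from h), if_pos h]
        rfl
      · rw [indicator_of_notMem (show x ∉ {x | (i : ℝ) * (a / 10) ≤ XX g κ k₀ k x} from h),
          if_neg h]
    rw [h3]
    have hX0 := XX_nonneg (g := g) (κ := κ) (k₀ := k₀) k x
    have h4 : (A.filter fun i : ℕ => (i : ℝ) * (a / 10) ≤ XX g κ k₀ k x) ⊆
        Finset.range (⌊10 / a * XX g κ k₀ k x⌋₊ + 1) := by
      intro i hi
      have h5 := (Finset.mem_filter.1 hi).2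
      rw [Finset.mem_range, Nat.lt_succ_iff, Nat.le_floor_iff (by positivity)]
      rw [div_mul_eq_mul_div, le_div_iff₀ ha]
      linarith
    have h6 := Finset.card_le_card h4
    rw [Finset.card_range] at h6
    have h7 := Nat.floor_le (show 0 ≤ 10 / a * XX g κ k₀ k x by positivity)
    have h8 : ((A.filter fun i : ℕ => (i : ℝ) * (a / 10) ≤ XX g κ k₀ k x).card : ℝ) ≤
        1 + 10 / a * XX g κ k₀ k x := by
      have : ((A.filter fun i : ℕ => (i : ℝ) * (a / 10) ≤ XX g κ k₀ k x).card : ℝ) ≤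
          ((⌊10 / a * XX g κ k₀ k x⌋₊ + 1 : ℕ) : ℝ) := by exact_mod_cast h6
      push_cast at this
      linarith
    rw [← ENNReal.ofReal_natCast]
    exact ENNReal.ofReal_le_ofReal h8
  refine (lintegral_mono h2).trans ?_
  have hc : IntegrableOn (fun _ : ℝ => (1 : ℝ)) (Ivl k₀ j₀) := by
    refine integrableOn_const ?_
    rw [volume_Ivl]; exact ENNReal.ofReal_ne_top
  have hL := ofReal_integral_eq_lintegral_ofReal (μ := volume.restrict (Ivl k₀ j₀))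
    (f := fun x => 1 + 10 / a * XX g κ k₀ k x) (hc.add (hX.1.const_mul (10 / a)))
    (Filter.Eventually.of_forall fun x => by
      have hX0 := XX_nonneg (g := g) (κ := κ) (k₀ := k₀) k x
      change 0 ≤ 1 + 10 / a * XX g κ k₀ k x
      positivity)
  rw [← hL]
  apply ENNReal.ofReal_le_ofReal
  rw [integral_add hc (hX.1.const_mul (10 / a)), integral_const_mul, setIntegral_const,
    volume_real_Ivl]
  have h9 : (0 : ℝ) < 2 ^ k₀ := by positivity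
  have h10 : 10 / a * ∫ x in Ivl k₀ j₀, XX g κ k₀ k x ≤ 10 / a * (Q * (1 / 2 ^ k₀)) := by
    gcongr
    exact hX.2
  have h11 : (1 + 10 * Q / a) / 2 ^ k₀ = 1 / 2 ^ k₀ * 1 + 10 / a * (Q * (1 / 2 ^ k₀)) := by
    field_simp
  rw [h11]
  simp only [smul_eq_mul]
  linarith

end total

/-! ## one grid index -/

section index

variable {g : ℝ → ℂ} {κ : ℝ → ℕ} {M Q a : ℝ} {k₀ m : ℕ} {j₀ : ℤ}

/-- the stopping time of the grid index `i` -/
def si (g : ℝ → ℂ) (κ : ℝ → ℕ) (k₀ m : ℕ) (a : ℝ) (i : ℕ) : ℝ → ℕ :=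
  sg g κ k₀ m (((i : ℝ) + 1) * (a / 10))

/-- the population alive at the stopping time of index `i` -/
def Fi (g : ℝ → ℂ) (κ : ℝ → ℕ) (k₀ m : ℕ) (a : ℝ) (i : ℕ) : ℝ → ℂ := Fs g κ (si g κ k₀ m a i)

/-- the critical generation of the top `(k, j, w)` -/
def ri (g : ℝ → ℂ) (κ : ℝ → ℕ) (k₀ m : ℕ) (a : ℝ) (i : ℕ) (w : ℝ) (k : ℕ) (j : ℤ) : ℕ :=
  rr (Fi g κ k₀ m a i) (si g κ k₀ m a i) (a / 4) w k j

/-- the grid index of a node -/
def idx (g : ℝ → ℂ) (κ : ℝ → ℕ) (k₀ : ℕ) (a : ℝ) (k : ℕ) (j : ℤ) : ℕ :=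
  ⌊XX g κ k₀ k ((j : ℝ) / 2 ^ k) / (a / 10)⌋₊

theorem isStop_si (i : ℕ) : IsStop (si g κ k₀ m a i) m := isStop_sg

theorem measurable_Fi (hg : Measurable g) (hκ : Measurable κ) (i : ℕ) :
    Measurable (Fi g κ k₀ m a i) := measurable_Fs hg hκ (isStop_si i).measurable

theorem norm_Fi_le (hM : ∀ x, ‖g x‖ ≤ M) (i : ℕ) (x : ℝ) : ‖Fi g κ k₀ m a i x‖ ≤ M :=
  (norm_Fs_le g κ _ x).trans (hM x)

theorem le_XX_of_idx (ha : 0 < a) {k : ℕ} {j : ℤ} {x : ℝ} (hx : fl k x = j) :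
    (idx g κ k₀ a k j : ℝ) * (a / 10) ≤ XX g κ k₀ k x := by
  have e1 : XX g κ k₀ k x = XX g κ k₀ k ((j : ℝ) / 2 ^ k) :=
    XX_congr' (by rw [IsStop.fl_rep, hx])
  have h0 := XX_nonneg (g := g) (κ := κ) (k₀ := k₀) k ((j : ℝ) / 2 ^ k)
  have h1 := Nat.floor_le (show 0 ≤ XX g κ k₀ k ((j : ℝ) / 2 ^ k) / (a / 10) by positivity)
  rw [le_div_iff₀ (by positivity)] at h1
  rw [e1]
  exact h1

theorem XX_lt_of_idx (ha : 0 < a) {k : ℕ} {j : ℤ} {x : ℝ} (hx : fl k x = j) :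
    XX g κ k₀ k x < ((idx g κ k₀ a k j : ℝ) + 1) * (a / 10) := by
  have e1 : XX g κ k₀ k x = XX g κ k₀ k ((j : ℝ) / 2 ^ k) :=
    XX_congr' (by rw [IsStop.fl_rep, hx])
  have h1 := Nat.lt_floor_add_one (XX g κ k₀ k ((j : ℝ) / 2 ^ k) / (a / 10))
  rw [div_lt_iff₀ (by positivity)] at h1
  rw [e1]
  exact h1

theorem le_si (ha : 0 < a) {k : ℕ} {j : ℤ} (hkm : k ≤ m) {x : ℝ} (hx : fl k x = j) :
    k ≤ si g κ k₀ m a (idx g κ k₀ a k j) x :=
  le_sg_of_lt hkm (XX_lt_of_idx ha hx)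

/-- a top of index `i` keeps `9a/10` in the population alive at the grid -/
theorem coef_Fi_ge (hg : Measurable g) (hM : ∀ x, ‖g x‖ ≤ M) (hκ : Measurable κ) (ha : 0 < a)
    {k : ℕ} {j : ℤ} {w : ℝ} (hk : k₀ ≤ k) (hkm : k ≤ m) (h : a ≤ ‖bb g κ w k j‖) :
    a - a / 10 ≤ ‖coef (Fi g κ k₀ m a (idx g κ k₀ a k j)) w k j‖ := by
  refine coef_Fs_ge hg hM hκ (isStop_si _) hk (fun x hx => le_si ha hkm (mem_Ivl.1 hx))
    (fun x hx => ?_) ?_
  · have h1 := le_XX_of_idx (g := g) (κ := κ) (k₀ := k₀) ha (mem_Ivl.1 hx)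
    have h2 := XX_sg_lt (g := g) (κ := κ) (k₀ := k₀) (m := m)
      (τ := ((idx g κ k₀ a k j : ℝ) + 1) * (a / 10)) (by positivity) x
    unfold si
    linarith
  · rw [cut_eq_Pb]; exact h

/-- (HVY) of Pack1_79 -/
theorem ri_heavy {i : ℕ} {w : ℝ} {k : ℕ} {j : ℤ} {q : ℕ} (h : q < ri g κ k₀ m a i w k j) :
    a / 4 ≤ ‖coef (fun y => if q ≤ si g κ k₀ m a i y then Fi g κ k₀ m a i y else 0) w k j‖ :=
  rr_of_lt h

/-- (D) of Pack1_79, inside the node -/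
theorem avN_Fi_le (hg : Measurable g) (hM : ∀ x, ‖g x‖ ≤ M) (hκ : Measurable κ) {i l : ℕ} {x : ℝ}
    (hQ : avN (Pb g κ l) l (fl l x) ≤ Q) (hl : l ≤ si g κ k₀ m a i x) :
    avN (Fi g κ k₀ m a i) l (fl l x) ≤ Q := by
  rw [← cut_eq_Pb] at hQ
  exact (avN_Fs_le hg hM hκ (isStop_si i) hl).trans hQ

/-- (J) for a top -/
theorem jensen_top (hg : Measurable g) (hM : ∀ x, ‖g x‖ ≤ M) (hκ : Measurable κ) (ha : 0 < a)
    {k : ℕ} {j : ℤ} {w : ℝ} (hk : k₀ ≤ k) (hkm : k ≤ m) (h : a ≤ ‖bb g κ w k j‖) {p : ℝ}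
    (hp : 1 ≤ p) {i : ℕ} (hi : idx g κ k₀ a k j = i) :
    ENNReal.ofReal ((a / 2) ^ p / 2 ^ k) ≤
      ∫⁻ x in {x | fl k x = j ∧ si g κ k₀ m a i x < ri g κ k₀ m a i w k j},
        ‖bb g κ w (si g κ k₀ m a i x) (fl (si g κ k₀ m a i x) x)‖ₑ ^ p := by
  subst hi
  have h1 := coef_Fi_ge (m := m) hg hM hκ ha hk hkm h
  have h2 := jensen hg hM hκ (isStop_si (g := g) (κ := κ) (k₀ := k₀) (m := m) (a := a)
    (idx g κ k₀ a k j)) (fun x hx => le_si ha hkm (mem_Ivl.1 hx)) (c := a / 4) (by positivity)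
    (by linarith) h1 hp
  simp_rw [cut_eq_Pb] at h2
  refine le_trans (ENNReal.ofReal_le_ofReal ?_) h2
  have h3 : (a / 2) ^ p ≤ (a - a / 10 - a / 4) ^ p := by
    apply Real.rpow_le_rpow (by positivity) (by linarith) (by linarith)
  gcongr

end index

/-! ## all the tops -/

section tops

variable {g : ℝ → ℂ} {κ : ℝ → ℕ} {M Q a : ℝ} {k₀ m : ℕ} {j₀ : ℤ}
variable {ι : Type*} {k : ι → ℕ} {j : ι → ℤ} {w : ι → ℝ} {T : Finset ι} {b D : ℕ} {M' p : ℝ}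
variable {W : ℝ≥0∞}

open Classical in
/-- **B10**: total measure of the tops of level `a`, from the packing of the families -/
theorem tops_of_pack (hg : Measurable g) (hM : ∀ x, ‖g x‖ ≤ M) (hκ : Measurable κ)
    (hk₀m : k₀ ≤ m) (ha : 0 < a) (hQ : avN (Pb g κ k₀) k₀ j₀ ≤ Q)
    (hT : ∀ t ∈ T, k₀ ≤ k t ∧ k t ≤ m ∧ Sub (k t) (j t) k₀ j₀ ∧ a ≤ ‖bb g κ (w t) (k t) (j t)‖)
    (hp : 1 ≤ p)
    (hW : ∀ l, k₀ ≤ l → ∀ (jj : ℤ) (I : Finset ℤ) (Y : ℤ → ℝ),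
      (∀ i ∈ I, (i : ℝ) * 2 ^ l ≤ Y i ∧ Y i < ((i : ℝ) + 1) * 2 ^ l) →
      ∑ i ∈ I, ‖coef (Pb g κ l) (Y i) l jj‖ₑ ^ p ≤ W)
    (hD : 1 ≤ D) (hMD : 2 * M' ≤ D)
    (pack : ∀ i : ℕ, ∀ t1 ∈ T.filter (fun t => idx g κ k₀ a (k t) (j t) = i), ∀ (k' : ℕ) (j' : ℤ),
      Sub k' j' (k t1) (j t1) → ∀ S ⊆ T.filter (fun t => idx g κ k₀ a (k t) (j t) = i),
      (∀ t ∈ S, t ≠ t1 ∧ Fam k j w (fun t => ri g κ k₀ m a i (w t) (k t) (j t)) b t1 t ∧
        Sub (k t) (j t) k' j') →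
      (∀ t ∈ S, (S.filter fun t' => Sub (k t) (j t) (k t') (j t')).card ≤ D) →
      ∑ t ∈ S, (1 : ℝ) / 2 ^ k t ≤ M' * (1 / 2 ^ k')) :
    ENNReal.ofReal ((a / 2) ^ p * ∑ t ∈ T, 1 / 2 ^ k t) ≤
      ENNReal.ofReal (1 + 2 * M') * (2 ^ b * W) * ENNReal.ofReal ((1 + 10 * Q / a) / 2 ^ k₀) := by
  have hone : ∀ i : ℕ,
      ENNReal.ofReal ((a / 2) ^ p *
        ∑ t ∈ T.filter (fun t => idx g κ k₀ a (k t) (j t) = i), 1 / 2 ^ k t) ≤
      ENNReal.ofReal (1 + 2 * M') * (2 ^ b * W) *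
        volume {x | fl k₀ x = j₀ ∧ (i : ℝ) * (a / 10) ≤ XX g κ k₀ (m + 1) x} := by
    intro i
    have hmX := measurable_XX (g := g) (κ := κ) (k₀ := k₀) (m + 1)
    have hE : MeasurableSet {x | fl k₀ x = j₀ ∧ (i : ℝ) * (a / 10) ≤ XX g κ k₀ (m + 1) x} :=
      ((measurable_fl k₀) (measurableSet_singleton j₀)).inter
        (measurableSet_le measurable_const hmX)
    have h := select (s := si g κ k₀ m a i)
      (T := T.filter (fun t => idx g κ k₀ a (k t) (j t) = i)) (k := k) (j := j) (w := w)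
      (r := fun t => ri g κ k₀ m a i (w t) (k t) (j t)) (b := b) (A := (a / 2) ^ p)
      hD hMD (by positivity) (isStop_si i).measurable (pack i)
      (C := fun t x => ‖bb g κ (w t) (si g κ k₀ m a i x) (fl (si g κ k₀ m a i x) x)‖ₑ ^ p)
      (fun t _ => by
        have h1 : Measurable fun x => bb g κ (w t) (si g κ k₀ m a i x)
            (fl (si g κ k₀ m a i x) x) := by
          have h2 := measurable_Ch (g := g) (κ := κ)
            (isStop_si (g := g) (κ := κ) (k₀ := k₀) (m := m) (a := a) i) (w t)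
          unfold Ch at h2
          simp_rw [cut_eq_Pb] at h2
          exact h2
        exact h1.enorm.pow_const p)
      (fun t ht => by
        obtain ⟨ht1, ht2⟩ := Finset.mem_filter.1 ht
        obtain ⟨h1, h2, h3, h4⟩ := hT t ht1
        exact jensen_top hg hM hκ ha h1 h2 h4 hp ht2)
      (Q := {x | fl k₀ x = j₀ ∧ (i : ℝ) * (a / 10) ≤ XX g κ k₀ (m + 1) x}.indicator
        fun _ => 2 ^ b * W)
      (fun x S hS h1 h2 => by
        rcases S.eq_empty_or_nonempty with hS0 | ⟨t, ht⟩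
        · rw [hS0, Finset.sum_empty]; exact bot_le
        · obtain ⟨ht1, ht2⟩ := Finset.mem_filter.1 (hS ht)
          obtain ⟨a1, a2, a3, a4⟩ := hT t ht1
          have hx : fl (k t) x = j t := (h1 t ht).1
          have hxE : x ∈ {x | fl k₀ x = j₀ ∧ (i : ℝ) * (a / 10) ≤ XX g κ k₀ (m + 1) x} := by
            refine ⟨mem_of_Sub a3 hx, ?_⟩
            have h3 := le_XX_of_idx (g := g) (κ := κ) (k₀ := k₀) ha hx
            rw [ht2] at h3
            exact h3.trans (XX_mono (by omega) x)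
          rw [indicator_of_mem hxE]
          refine sum_cells S w (si g κ k₀ m a i x) b _ (fun S' _ h4 => ?_) h2
          have hsk : k₀ ≤ si g κ k₀ m a i x := le_sg hk₀m x
          exact sum_of_cells S' w (si g κ k₀ m a i x)
            (fun y => ‖bb g κ y (si g κ k₀ m a i x) (fl (si g κ k₀ m a i x) x)‖ₑ ^ p)
            (fun I Z hZ => hW _ hsk _ I Z hZ) h4)
    refine h.trans (le_of_eq ?_)
    rw [lintegral_indicator hE, setLIntegral_const, mul_assoc (ENNReal.ofReal (1 + 2 * M'))]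
  let f : ι → ℕ := fun t => idx g κ k₀ a (k t) (j t)
  have hsum : ∑ t ∈ T, (1 : ℝ) / 2 ^ k t =
      ∑ i ∈ T.image f, ∑ t ∈ T.filter (fun t => idx g κ k₀ a (k t) (j t) = i), 1 / 2 ^ k t :=
    (Finset.sum_fiberwise_of_maps_to (fun t ht => Finset.mem_image_of_mem f ht) _).symm
  rw [hsum, Finset.mul_sum, ENNReal.ofReal_sum_of_nonneg (fun i _ => by positivity)]
  calc ∑ i ∈ T.image f, ENNReal.ofReal ((a / 2) ^ p *
        ∑ t ∈ T.filter (fun t => idx g κ k₀ a (k t) (j t) = i), 1 / 2 ^ k t)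
      ≤ ∑ i ∈ T.image f, ENNReal.ofReal (1 + 2 * M') * (2 ^ b * W) *
        volume {x | fl k₀ x = j₀ ∧ (i : ℝ) * (a / 10) ≤ XX g κ k₀ (m + 1) x} :=
        Finset.sum_le_sum fun i _ => hone i
    _ = ENNReal.ofReal (1 + 2 * M') * (2 ^ b * W) * ∑ i ∈ T.image f,
        volume {x | fl k₀ x = j₀ ∧ (i : ℝ) * (a / 10) ≤ XX g κ k₀ (m + 1) x} := by
        rw [Finset.mul_sum]
    _ ≤ _ := by
        gcongr
        exact sum_volume_le hg hM hκ ha (by rw [cut_eq_Pb]; exact hQ) (m + 1) _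

/-- densities of a function supported in a node -/
theorem avN_coarse_le {F : ℝ → ℂ} (hF : Measurable F) (hM : ∀ x, ‖F x‖ ≤ M)
    (hsupp : ∀ y, fl k₀ y ≠ j₀ → F y = 0) (hQ : avN F k₀ j₀ ≤ Q) {l : ℕ} (hl : l ≤ k₀) (jj : ℤ) :
    avN F l jj ≤ Q := by
  have hint : ∀ (k : ℕ) (j : ℤ), IntegrableOn (fun y => ‖F y‖) (Ivl k j) := fun k j =>
    intOn k j hF.norm (M := M) fun x => by simpa using hM x
  have h1 : ∫ y in Ivl l jj, ‖F y‖ ≤ ∫ y in Ivl k₀ j₀, ‖F y‖ := by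
    have e1 : ∫ y in Ivl l jj, ‖F y‖ = ∫ y in Ivl l jj ∩ Ivl k₀ j₀, ‖F y‖ := by
      refine (setIntegral_eq_of_subset_of_forall_sdiff_eq_zero (f := fun y => ‖F y‖)
        (measurableSet_Ivl l jj) inter_subset_left fun y hy => ?_)
      have : fl k₀ y ≠ j₀ := fun hc => hy.2 ⟨hy.1, mem_Ivl.2 hc⟩
      rw [hsupp y this, norm_zero]
    rw [e1]
    exact setIntegral_mono_set (hint k₀ j₀) (Filter.Eventually.of_forall fun y => norm_nonneg _)
      (inter_subset_right.eventuallyLE)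
  refine le_trans ?_ hQ
  unfold avN
  have h2 : (2 : ℝ) ^ l ≤ 2 ^ k₀ := pow_le_pow_right₀ (by norm_num) hl
  exact mul_le_mul h2 h1 (integral_nonneg fun y => norm_nonneg _) (by positivity)

/-- **B10 + B11 + B12'**: total measure of the tops of level `a` -/
theorem tops (hg : Measurable g) (hM : ∀ x, ‖g x‖ ≤ M) (hκ : Measurable κ)
    (hsupp : ∀ y, fl k₀ y ≠ j₀ → g y = 0) (hk₀m : k₀ ≤ m) (ha : 0 < a)
    (hQ : ∀ l, k₀ ≤ l → ∀ jj : ℤ, avN (Pb g κ l) l jj ≤ Q)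
    (hT : ∀ t ∈ T, k₀ ≤ k t ∧ k t ≤ m ∧ Sub (k t) (j t) k₀ j₀ ∧ a ≤ ‖bb g κ (w t) (k t) (j t)‖)
    (hp : 1 ≤ p)
    (hW : ∀ l, k₀ ≤ l → ∀ (jj : ℤ) (I : Finset ℤ) (Y : ℤ → ℝ),
      (∀ i ∈ I, (i : ℝ) * 2 ^ l ≤ Y i ∧ Y i < ((i : ℝ) + 1) * 2 ^ l) →
      ∑ i ∈ I, ‖coef (Pb g κ l) (Y i) l jj‖ₑ ^ p ≤ W)
    {B : ℝ} (hQb : 52 * Q ≤ a / 4 * 2 ^ b) (hBb : (2 : ℝ) ^ b ≤ B) (hDB : (D : ℝ) ≤ B)
    (sep : ∀ t ∈ T, ∀ t' ∈ T, t ≠ t' → Sub (k t) (j t) (k t') (j t') →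
      B * 2 ^ (k t) < |w t - w t'|)
    (hD : 1 ≤ D) (hMD : 2 * (48 * b * Q ^ 2 / (a / 4) ^ 2) ≤ D) :
    ENNReal.ofReal ((a / 2) ^ p * ∑ t ∈ T, 1 / 2 ^ k t) ≤
      ENNReal.ofReal (1 + 2 * (48 * b * Q ^ 2 / (a / 4) ^ 2)) * (2 ^ b * W) *
        ENNReal.ofReal ((1 + 10 * Q / a) / 2 ^ k₀) := by
  classical
  refine tops_of_pack hg hM hκ hk₀m ha (hQ k₀ le_rfl j₀) hT hp hW hD hMD ?_
  intro i t1 ht1 k' j' hk' S hS h1 h2
  have hst : Pack79.IsStop (si g κ k₀ m a i) := fun z z' h => (isStop_si i).stop z z' h.symm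
  have hF := measurable_Fi (m := m) (k₀ := k₀) (a := a) hg hκ i
  have hFM := norm_Fi_le (κ := κ) (m := m) (k₀ := k₀) (a := a) hM i
  have hsF : ∀ y, fl k₀ y ≠ j₀ → Fi g κ k₀ m a i y = 0 := by
    intro y hy
    unfold Fi Fs
    rw [hsupp y hy, ite_self]
  have hroot : avN (Fi g κ k₀ m a i) k₀ j₀ ≤ Q := by
    have h3 := avN_Fi_le (g := g) (κ := κ) (M := M) (Q := Q) (a := a) (k₀ := k₀) (m := m) hg hM hκ
      (i := i) (l := k₀) (x := (j₀ : ℝ) / 2 ^ k₀) (hQ k₀ le_rfl _) (le_sg hk₀m _)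
    rwa [IsStop.fl_rep] at h3
  refine Pack79.pack (s := si g κ k₀ m a i) hF hFM (isStop_si i).measurable hst
    (fun z => (isStop_si i).le z) (Q := Q) (fun z l hl => ?_) (c := a / 4) (by positivity)
    (B := B) (D := D) hQb hBb hDB
    (T := T.filter (fun t => idx g κ k₀ a (k t) (j t) = i))
    (fun t ht t' ht' hne hsub => sep t (Finset.mem_filter.1 ht).1 t' (Finset.mem_filter.1 ht').1
      hne hsub) (r := fun t => ri g κ k₀ m a i (w t) (k t) (j t))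
    (fun t _ q hq => ri_heavy hq) ht1 hk' hS h1 h2
  rcases le_total l k₀ with hlk | hlk
  · exact avN_coarse_le hF hFM hsF hroot hlk _
  · exact avN_Fi_le hg hM hκ (hQ l hlk _) hl

end tops

end Crest.Agent.R100.Grid279
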