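import Crest.Agent.R100.Id_833

/-!
# R100 / S0132, helper279: block B10 (exit grid and Jensen at the exit nodes)

`cut g κ k` is the population of generation `k` (points that have not exited before `k`), `XX g κ k₀ k x`
the mass of exits at the generations `k₀ ≤ i < k` above `x`, `sg g κ k₀ m τ` the stopping time
"first `k` with `τ ≤ XX (k+1)`" (own exit included), `m` if there is none.
-/

set_option autoImplicit false

open MeasureTheory Set
open scoped ENNReal

noncomputable section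

namespace Crest.Agent.R100.Grid279

open Crest.Agent.R100.Mart933 Crest.Agent.R100.Wide933 Crest.Agent.R100.Id833

/-! ## averaging on nodes -/

/-- conditional expectation against a function of the node of generation `i` -/
theorem avg_node {E : Type*} [NormedAddCommGroup E] [NormedSpace ℝ E] [CompleteSpace E] {h : ℝ → E}
    (hh : ∀ k j, IntegrableOn h (Ivl k j)) (φ : ℤ → ℝ) (d : ℕ) : ∀ (k : ℕ) (j : ℤ),
    IntegrableOn (fun x => φ (fl (k + d) x) • h x) (Ivl k j) ∧
    IntegrableOn (fun x => φ (fl (k + d) x) •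
      ((2 : ℝ) ^ (k + d) • ∫ y in Ivl (k + d) (fl (k + d) x), h y)) (Ivl k j) ∧
    ∫ x in Ivl k j, φ (fl (k + d) x) • ((2 : ℝ) ^ (k + d) • ∫ y in Ivl (k + d) (fl (k + d) x), h y) =
      ∫ x in Ivl k j, φ (fl (k + d) x) • h x := by
  induction d with
  | zero =>
    intro k j
    simp only [Nat.add_zero]
    have h1 : EqOn (fun x => φ (fl k x) • h x) (fun x => φ j • h x) (Ivl k j) := by
      intro x hx
      simp only [mem_Ivl.1 hx]
    have h2 : EqOn (fun x => φ (fl k x) • ((2 : ℝ) ^ k • ∫ y in Ivl k (fl k x), h y))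
        (fun _ => φ j • ((2 : ℝ) ^ k • ∫ y in Ivl k j, h y)) (Ivl k j) := by
      intro x hx
      simp only [mem_Ivl.1 hx]
    refine ⟨?_, ?_, ?_⟩
    · refine IntegrableOn.congr_fun ?_ h1.symm (measurableSet_Ivl _ _)
      exact (hh k j).smul (φ j)
    · refine IntegrableOn.congr_fun ?_ h2.symm (measurableSet_Ivl _ _)
      refine integrableOn_const ?_
      rw [volume_Ivl]; exact ENNReal.ofReal_ne_top
    · rw [setIntegral_congr_fun (measurableSet_Ivl _ _) h1,
        setIntegral_congr_fun (measurableSet_Ivl _ _) h2, setIntegral_const, volume_real_Ivl,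
        integral_smul, smul_comm (φ j), smul_smul, smul_smul]
      congr 1
      have : (2 : ℝ) ^ k ≠ 0 := by positivity
      field_simp
  | succ d ih =>
    intro k j
    have e : k + (d + 1) = (k + 1) + d := by omega
    rw [e]
    obtain ⟨a1, a2, a3⟩ := ih (k + 1) (2 * j)
    obtain ⟨b1, b2, b3⟩ := ih (k + 1) (2 * j + 1)
    rw [Ivl_split k j]
    refine ⟨a1.union b1, a2.union b2, ?_⟩
    rw [setIntegral_union (Ivl_disj _ _) (measurableSet_Ivl _ _) a2 b2,
      setIntegral_union (Ivl_disj _ _) (measurableSet_Ivl _ _) a1 b1, a3, b3]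

theorem avg_node' {E : Type*} [NormedAddCommGroup E] [NormedSpace ℝ E] [CompleteSpace E]
    {h : ℝ → E} (hh : ∀ k j, IntegrableOn h (Ivl k j)) (φ : ℤ → ℝ) {k i : ℕ} (hki : k ≤ i)
    (j : ℤ) :
    IntegrableOn (fun x => φ (fl i x) • h x) (Ivl k j) ∧
    IntegrableOn (fun x => φ (fl i x) • ((2 : ℝ) ^ i • ∫ y in Ivl i (fl i x), h y)) (Ivl k j) ∧
    ∫ x in Ivl k j, φ (fl i x) • ((2 : ℝ) ^ i • ∫ y in Ivl i (fl i x), h y) =
      ∫ x in Ivl k j, φ (fl i x) • h x := by
  obtain ⟨d, rfl⟩ := Nat.exists_eq_add_of_le hki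
  exact avg_node hh φ d k j

/-! ## stopping times -/

/-- stopping times on the dyadic tree, bounded by `m` -/
structure IsStop (s : ℝ → ℕ) (m : ℕ) : Prop where
  le : ∀ x, s x ≤ m
  stop : ∀ x y, fl (s x) x = fl (s x) y → s y = s x

namespace IsStop

variable {s : ℝ → ℕ} {m : ℕ}

theorem lt_congr (hs : IsStop s m) {i : ℕ} {x y : ℝ} (h : fl i x = fl i y) (hx : i < s x) :
    i < s y := by
  by_contra hc
  push Not at hc
  have := hs.stop y x (fl_eq_of_fl_eq hc h.symm)
  omega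

theorem le_congr (hs : IsStop s m) {i : ℕ} {x y : ℝ} (h : fl i x = fl i y) (hx : i ≤ s x) :
    i ≤ s y := by
  by_contra hc
  push Not at hc
  have := hs.stop y x (fl_eq_of_fl_eq hc.le h.symm)
  omega

theorem eq_congr (hs : IsStop s m) {i : ℕ} {x y : ℝ} (h : fl i x = fl i y) (hx : s x = i) :
    s y = i := by
  subst hx
  exact hs.stop x y h

theorem congr (hs : IsStop s m) {x y : ℝ} (h : fl m x = fl m y) : s x = s y :=
  (hs.stop x y (fl_eq_of_fl_eq (hs.le x) h)).symm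

theorem fl_rep (k : ℕ) (j : ℤ) : fl k ((j : ℝ) / 2 ^ k) = j := by
  unfold fl
  have h2 : (2 : ℝ) ^ k ≠ 0 := by positivity
  rw [mul_div_cancel₀ _ h2]
  exact Int.floor_intCast j

theorem measurable (hs : IsStop s m) : Measurable s := by
  have e : s = fun x => (fun j : ℤ => s ((j : ℝ) / 2 ^ m)) (fl m x) := by
    ext x
    exact hs.congr (by rw [fl_rep])
  rw [e]
  exact measurable_fl_comp m (fun j : ℤ => s ((j : ℝ) / 2 ^ m))

end IsStop

/-! ## populations and exits -/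

open Classical in
/-- the population of generation `k` -/
def cut (g : ℝ → ℂ) (κ : ℝ → ℕ) (k : ℕ) (y : ℝ) : ℂ := if k ≤ κ y then g y else 0

open Classical in
/-- the exits of generation `k` -/
def exq (g : ℝ → ℂ) (κ : ℝ → ℕ) (k : ℕ) (y : ℝ) : ℂ := if κ y = k then g y else 0

/-- density of the exits of generation `k` on the node of generation `k` of `x` -/
def xe (g : ℝ → ℂ) (κ : ℝ → ℕ) (k : ℕ) (x : ℝ) : ℝ := avN (exq g κ k) k (fl k x)

/-- accumulated exits at the generations `k₀ ≤ i < k` -/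
def XX (g : ℝ → ℂ) (κ : ℝ → ℕ) (k₀ k : ℕ) (x : ℝ) : ℝ := ∑ i ∈ Finset.Ico k₀ k, xe g κ i x

/-- the exit grid: first `k ≥ k₀` with `τ ≤ XX (k + 1)`, and `m` if there is none -/
def sg (g : ℝ → ℂ) (κ : ℝ → ℕ) (k₀ m : ℕ) (τ : ℝ) (x : ℝ) : ℕ :=
  sInf ({k | k₀ ≤ k ∧ τ ≤ XX g κ k₀ (k + 1) x} ∪ {m})

open Classical in
/-- population alive at the stopping time `s` -/
def Fs (g : ℝ → ℂ) (κ s : ℝ → ℕ) (y : ℝ) : ℂ := if s y ≤ κ y then g y else 0

section basic

variable {g : ℝ → ℂ} {κ : ℝ → ℕ} {M : ℝ} {k₀ m : ℕ} {τ : ℝ}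

theorem measurable_cut (hg : Measurable g) (hκ : Measurable κ) (k : ℕ) :
    Measurable (cut g κ k) := by
  classical
  unfold cut
  exact Measurable.ite (measurableSet_le measurable_const hκ) hg measurable_const

theorem norm_cut_le (g : ℝ → ℂ) (κ : ℝ → ℕ) (k : ℕ) (y : ℝ) : ‖cut g κ k y‖ ≤ ‖g y‖ := by
  classical
  unfold cut
  split_ifs <;> simp

theorem measurable_exq (hg : Measurable g) (hκ : Measurable κ) (k : ℕ) :
    Measurable (exq g κ k) := by
  classical
  unfold exq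
  exact Measurable.ite (hκ (measurableSet_singleton k)) hg measurable_const

theorem norm_exq_le (g : ℝ → ℂ) (κ : ℝ → ℕ) (k : ℕ) (y : ℝ) : ‖exq g κ k y‖ ≤ ‖g y‖ := by
  classical
  unfold exq
  split_ifs <;> simp

theorem measurable_Fs (hg : Measurable g) (hκ : Measurable κ) {s : ℝ → ℕ} (hs : Measurable s) :
    Measurable (Fs g κ s) := by
  classical
  unfold Fs
  exact Measurable.ite (measurableSet_le hs hκ) hg measurable_const

theorem norm_Fs_le (g : ℝ → ℂ) (κ s : ℝ → ℕ) (y : ℝ) : ‖Fs g κ s y‖ ≤ ‖g y‖ := by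
  classical
  unfold Fs
  split_ifs <;> simp

theorem xe_nonneg (k : ℕ) (x : ℝ) : 0 ≤ xe g κ k x := avN_nonneg _ _ _

theorem xe_congr {k : ℕ} {x y : ℝ} (h : fl k x = fl k y) : xe g κ k x = xe g κ k y := by
  unfold xe
  rw [h]

theorem XX_congr {k : ℕ} {x y : ℝ} (h : fl k x = fl k y) :
    XX g κ k₀ (k + 1) x = XX g κ k₀ (k + 1) y := by
  unfold XX
  refine Finset.sum_congr rfl fun i hi => xe_congr (fl_eq_of_fl_eq ?_ h)
  have := (Finset.mem_Ico.1 hi).2
  omega

theorem XX_congr' {k : ℕ} {x y : ℝ} (h : fl k x = fl k y) :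
    XX g κ k₀ k x = XX g κ k₀ k y := by
  unfold XX
  refine Finset.sum_congr rfl fun i hi => xe_congr (fl_eq_of_fl_eq ?_ h)
  have := (Finset.mem_Ico.1 hi).2
  omega

theorem XX_nonneg (k : ℕ) (x : ℝ) : 0 ≤ XX g κ k₀ k x :=
  Finset.sum_nonneg fun i _ => xe_nonneg i x

theorem XX_mono {k k' : ℕ} (h : k ≤ k') (x : ℝ) : XX g κ k₀ k x ≤ XX g κ k₀ k' x := by
  unfold XX
  exact Finset.sum_le_sum_of_subset_of_nonneg (Finset.Ico_subset_Ico le_rfl h)
    fun i _ _ => xe_nonneg i x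

theorem sg_le (x : ℝ) : sg g κ k₀ m τ x ≤ m := Nat.sInf_le (Or.inr rfl)

theorem sg_spec (x : ℝ) : sg g κ k₀ m τ x = m ∨
    (k₀ ≤ sg g κ k₀ m τ x ∧ τ ≤ XX g κ k₀ (sg g κ k₀ m τ x + 1) x) := by
  have h : sg g κ k₀ m τ x ∈ ({k | k₀ ≤ k ∧ τ ≤ XX g κ k₀ (k + 1) x} ∪ {m}) :=
    Nat.sInf_mem ⟨m, Or.inr rfl⟩
  rcases h with h | h
  · exact Or.inr h
  · exact Or.inl h

theorem le_sg (hk : k₀ ≤ m) (x : ℝ) : k₀ ≤ sg g κ k₀ m τ x := by
  rcases sg_spec (g := g) (κ := κ) (k₀ := k₀) (m := m) (τ := τ) x with h | h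
  · rw [h]; exact hk
  · exact h.1

theorem lt_of_lt_sg {k : ℕ} {x : ℝ} (hk : k₀ ≤ k) (h : k < sg g κ k₀ m τ x) :
    XX g κ k₀ (k + 1) x < τ := by
  by_contra hc
  push Not at hc
  have : sg g κ k₀ m τ x ≤ k := Nat.sInf_le (Or.inl ⟨hk, hc⟩)
  omega

theorem isStop_sg : IsStop (sg g κ k₀ m τ) m := by
  refine ⟨sg_le, fun x y h => ?_⟩
  apply le_antisymm
  · rcases sg_spec (g := g) (κ := κ) (k₀ := k₀) (m := m) (τ := τ) x with hx | hx
    · rw [hx]; exact sg_le y
    · refine Nat.sInf_le (Or.inl ⟨hx.1, ?_⟩)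
      rw [← XX_congr h]
      exact hx.2
  · by_contra hc
    push Not at hc
    rcases sg_spec (g := g) (κ := κ) (k₀ := k₀) (m := m) (τ := τ) y with hy | hy
    · have := sg_le (g := g) (κ := κ) (k₀ := k₀) (m := m) (τ := τ) x
      omega
    · have h1 := lt_of_lt_sg hy.1 hc
      rw [XX_congr (fl_eq_of_fl_eq hc.le h)] at h1
      exact absurd hy.2 (not_le.2 h1)

/-- strictly before the grid the accumulated exits are below `τ` -/
theorem XX_sg_lt (hτ : 0 < τ) (x : ℝ) : XX g κ k₀ (sg g κ k₀ m τ x) x < τ := by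
  rcases Nat.lt_or_ge k₀ (sg g κ k₀ m τ x) with h | h
  · obtain ⟨k, hk⟩ : ∃ k, sg g κ k₀ m τ x = k + 1 := ⟨sg g κ k₀ m τ x - 1, by omega⟩
    rw [hk]
    exact lt_of_lt_sg (m := m) (by omega) (by omega)
  · have : XX g κ k₀ (sg g κ k₀ m τ x) x = 0 := by
      unfold XX
      rw [Finset.Ico_eq_empty_of_le h, Finset.sum_empty]
    rw [this]; exact hτ

/-- a node of index `< τ` is above the grid -/
theorem le_sg_of_lt {k : ℕ} {x : ℝ} (hkm : k ≤ m) (h : XX g κ k₀ k x < τ) :
    k ≤ sg g κ k₀ m τ x := by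
  rcases sg_spec (g := g) (κ := κ) (k₀ := k₀) (m := m) (τ := τ) x with hx | hx
  · rw [hx]; exact hkm
  · by_contra hc
    push Not at hc
    have : XX g κ k₀ (sg g κ k₀ m τ x + 1) x ≤ XX g κ k₀ k x := XX_mono (by omega) x
    linarith [hx.2]

end basic

/-! ## integrability -/

section integ

variable {g : ℝ → ℂ} {κ s : ℝ → ℕ} {M : ℝ} {m : ℕ}

theorem intOn_cut (hg : Measurable g) (hM : ∀ x, ‖g x‖ ≤ M) (hκ : Measurable κ) (i : ℕ) (w : ℝ)
    (k : ℕ) (j : ℤ) : IntegrableOn (fun y => cut g κ i y * e w y) (Ivl k j) :=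
  integrable_fe (measurable_cut hg hκ i) (fun x => (norm_cut_le g κ i x).trans (hM x)) w k j

/-- the density at or above the grid -/
theorem avN_Fs_le (hg : Measurable g) (hM : ∀ x, ‖g x‖ ≤ M) (hκ : Measurable κ) (hs : IsStop s m)
    {l : ℕ} {x : ℝ} (hl : l ≤ s x) : avN (Fs g κ s) l (fl l x) ≤ avN (cut g κ l) l (fl l x) := by
  classical
  unfold avN
  refine mul_le_mul_of_nonneg_left ?_ (by positivity)
  refine setIntegral_mono_on
    (intOn l _ (measurable_Fs hg hκ hs.measurable).norm (M := M) fun x => by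
      simpa using (norm_Fs_le g κ s x).trans (hM x))
    (intOn l _ (measurable_cut hg hκ l).norm (M := M) fun x => by
      simpa using (norm_cut_le g κ l x).trans (hM x)) (measurableSet_Ivl _ _) fun y hy => ?_
  have h1 : l ≤ s y := hs.le_congr (mem_Ivl.1 hy).symm hl
  unfold Fs cut
  split_ifs with h2 h3
  · exact le_rfl
  · exact absurd (h1.trans h2) h3
  · simp
  · simp

/-- coefficient of the population at the exit node of `x` -/
def Ch (g : ℝ → ℂ) (κ s : ℝ → ℕ) (w : ℝ) (x : ℝ) : ℂ :=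
  coef (cut g κ (s x)) w (s x) (fl (s x) x)

theorem Ch_congr (hs : IsStop s m) (w : ℝ) {x y : ℝ} (h : fl m x = fl m y) :
    Ch g κ s w x = Ch g κ s w y := by
  unfold Ch
  rw [hs.congr h, fl_eq_of_fl_eq (hs.le y) h]

theorem measurable_Ch (hs : IsStop s m) (w : ℝ) : Measurable (Ch g κ s w) := by
  have e : Ch g κ s w = fun x => (fun j : ℤ => Ch g κ s w ((j : ℝ) / 2 ^ m)) (fl m x) := by
    ext x
    exact Ch_congr hs w (by rw [IsStop.fl_rep])
  rw [e]
  exact measurable_fl_comp m (fun j : ℤ => Ch g κ s w ((j : ℝ) / 2 ^ m))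

theorem norm_Ch_le (hM : ∀ x, ‖g x‖ ≤ M) (w : ℝ) (x : ℝ) : ‖Ch g κ s w x‖ ≤ M := by
  unfold Ch coef
  rw [norm_mul, norm_pow, Complex.norm_ofNat]
  have h2 : (0 : ℝ) < 2 ^ (s x) := by positivity
  have h1 : ‖∫ y in Ivl (s x) (fl (s x) x), cut g κ (s x) y * e (-w) y‖ ≤
      M * volume.real (Ivl (s x) (fl (s x) x)) := by
    refine norm_setIntegral_le_of_norm_le_const ?_ fun y _ => ?_
    · rw [volume_Ivl]; exact ENNReal.ofReal_lt_top
    · rw [norm_mul, norm_e, mul_one]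
      exact (norm_cut_le g κ _ y).trans (hM y)
  rw [volume_real_Ivl] at h1
  calc (2 : ℝ) ^ (s x) * _ ≤ 2 ^ (s x) * (M * (1 / 2 ^ (s x))) := by gcongr
    _ = M := by field_simp

open Classical in
/-- one generation of the identity -/
theorem one_gen (hg : Measurable g) (hM : ∀ x, ‖g x‖ ≤ M) (hκ : Measurable κ) (hs : IsStop s m)
    (w : ℝ) {k i : ℕ} (hki : k ≤ i) (j : ℤ) :
    ∫ y in Ivl k j, (if s y = i then Fs g κ s y * e (-w) y else 0) =
      ∫ x in Ivl k j, (if s x = i then Ch g κ s w x else 0) := by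
  have h1 := (avg_node' (h := fun y => cut g κ i y * e (-w) y)
    (fun k j => intOn_cut hg hM hκ i (-w) k j)
    (fun j' : ℤ => if ∃ y, fl i y = j' ∧ s y = i then (1 : ℝ) else 0) hki j).2.2
  have h2 : ∀ x, (∃ y, fl i y = fl i x ∧ s y = i) ↔ s x = i := fun x =>
    ⟨fun ⟨y, hy, hy'⟩ => hs.eq_congr hy hy', fun hx => ⟨x, rfl, hx⟩⟩
  rw [show (∫ x in Ivl k j, (if s x = i then Ch g κ s w x else 0)) =
      ∫ x in Ivl k j, (if ∃ y, fl i y = fl i x ∧ s y = i then (1 : ℝ) else 0) •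
        ((2 : ℝ) ^ i • ∫ y in Ivl i (fl i x), cut g κ i y * e (-w) y) from ?_, h1]
  · congr 1
    ext y
    by_cases hy : s y = i
    · rw [if_pos hy, if_pos ((h2 y).2 hy), one_smul]
      subst hy
      rfl
    · rw [if_neg hy, if_neg (fun hc => hy ((h2 y).1 hc)), zero_smul]
  · congr 1
    ext x
    by_cases hx : s x = i
    · rw [if_pos hx, if_pos ((h2 x).2 hx), one_smul]
      subst hx
      unfold Ch coef
      rw [Complex.real_smul]
      push_cast
      rfl
    · rw [if_neg hx, if_neg (fun hc => hx ((h2 x).1 hc)), zero_smul]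

open Classical in
/-- **the identity at the exit nodes**: the part of the coefficient carried by the exit nodes of
generation `< q` -/
theorem exit_id (hg : Measurable g) (hM : ∀ x, ‖g x‖ ≤ M) (hκ : Measurable κ) (hs : IsStop s m)
    (w : ℝ) {k : ℕ} {j : ℤ} (q : ℕ) (hks : ∀ x ∈ Ivl k j, k ≤ s x) :
    ∫ y in Ivl k j, (if s y < q then Fs g κ s y * e (-w) y else 0) =
      ∫ x in Ivl k j, (if s x < q then Ch g κ s w x else 0) := by
  have hsm := hs.measurable
  have e1 : ∀ (G : ℝ → ℂ), ∀ x ∈ Ivl k j, (if s x < q then G x else 0) =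
      ∑ i ∈ Finset.Ico k q, if s x = i then G x else 0 := by
    intro G x hx
    rw [Finset.sum_ite_eq]
    by_cases h : s x < q
    · rw [if_pos h, if_pos (Finset.mem_Ico.2 ⟨hks x hx, h⟩)]
    · rw [if_neg h, if_neg (fun hc => h (Finset.mem_Ico.1 hc).2)]
  rw [setIntegral_congr_fun (measurableSet_Ivl _ _)
      (fun x hx => e1 (fun y => Fs g κ s y * e (-w) y) x hx),
    setIntegral_congr_fun (measurableSet_Ivl _ _) (fun x hx => e1 (Ch g κ s w) x hx),
    integral_finsetSum _ (fun i _ => ?_), integral_finsetSum _ (fun i _ => ?_)]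
  · exact Finset.sum_congr rfl fun i hi => one_gen hg hM hκ hs w (Finset.mem_Ico.1 hi).1 j
  · refine intOn k j (Measurable.ite (hsm (measurableSet_singleton i)) (measurable_Ch hs w)
      measurable_const) (M := M) fun x => ?_
    change ‖if s x = i then Ch g κ s w x else 0‖ ≤ M
    split_ifs
    · exact norm_Ch_le hM w x
    · rw [norm_zero]; exact (norm_nonneg _).trans (hM 0)
  · refine intOn k j (Measurable.ite (hsm (measurableSet_singleton i))
      ((measurable_Fs hg hκ hsm).mul (measurable_e _)) measurable_const) (M := M) fun x => ?_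
    change ‖if s x = i then Fs g κ s x * e (-w) x else 0‖ ≤ M
    split_ifs
    · rw [norm_mul, norm_e, mul_one]; exact (norm_Fs_le g κ s x).trans (hM x)
    · rw [norm_zero]; exact (norm_nonneg _).trans (hM 0)

/-! ## exits strictly above the grid -/

open Classical in
/-- the points that exit at a generation `≥ k` strictly above the grid -/
def Lo (g : ℝ → ℂ) (κ s : ℝ → ℕ) (k : ℕ) (y : ℝ) : ℂ := if k ≤ κ y ∧ κ y < s y then g y else 0

theorem measurable_Lo (hg : Measurable g) (hκ : Measurable κ) (hs : Measurable s) (k : ℕ) :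
    Measurable (Lo g κ s k) := by
  classical
  unfold Lo
  exact Measurable.ite ((measurableSet_le measurable_const hκ).inter (measurableSet_lt hκ hs)) hg
    measurable_const

theorem norm_Lo_le (g : ℝ → ℂ) (κ s : ℝ → ℕ) (k : ℕ) (y : ℝ) : ‖Lo g κ s k y‖ ≤ ‖g y‖ := by
  classical
  unfold Lo
  split_ifs <;> simp

open Classical in
theorem lo_gen (hg : Measurable g) (hM : ∀ x, ‖g x‖ ≤ M) (hκ : Measurable κ) (hs : IsStop s m)
    {k i : ℕ} (hki : k ≤ i) (j : ℤ) :
    IntegrableOn (fun y => if i < s y then ‖exq g κ i y‖ else 0) (Ivl k j) ∧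
    IntegrableOn (fun y => if i < s y then xe g κ i y else 0) (Ivl k j) ∧
    ∫ y in Ivl k j, (if i < s y then ‖exq g κ i y‖ else 0) =
      ∫ x in Ivl k j, (if i < s x then xe g κ i x else 0) := by
  have h1 := (avg_node' (h := fun y => ‖exq g κ i y‖)
    (fun k j => intOn k j (measurable_exq hg hκ i).norm (M := M) fun x => by
      simpa using (norm_exq_le g κ i x).trans (hM x))
    (fun j' : ℤ => if ∃ y, fl i y = j' ∧ i < s y then (1 : ℝ) else 0) hki j)
  have h2 : ∀ x, (∃ y, fl i y = fl i x ∧ i < s y) ↔ i < s x := fun x =>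
    ⟨fun ⟨y, hy, hy'⟩ => hs.lt_congr hy hy', fun hx => ⟨x, rfl, hx⟩⟩
  have e1 : (fun y => if i < s y then ‖exq g κ i y‖ else 0) =
      fun x => (if ∃ y, fl i y = fl i x ∧ i < s y then (1 : ℝ) else 0) • ‖exq g κ i x‖ := by
    ext y
    by_cases hy : i < s y
    · rw [if_pos hy, if_pos ((h2 y).2 hy), one_smul]
    · rw [if_neg hy, if_neg (fun hc => hy ((h2 y).1 hc)), zero_smul]
  have e2 : (fun y => if i < s y then xe g κ i y else 0) =
      fun x => (if ∃ y, fl i y = fl i x ∧ i < s y then (1 : ℝ) else 0) •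
        ((2 : ℝ) ^ i • ∫ y in Ivl i (fl i x), ‖exq g κ i y‖) := by
    ext y
    by_cases hy : i < s y
    · rw [if_pos hy, if_pos ((h2 y).2 hy), one_smul]
      rfl
    · rw [if_neg hy, if_neg (fun hc => hy ((h2 y).1 hc)), zero_smul]
  rw [e1, e2]
  exact ⟨h1.1, h1.2.1, h1.2.2.symm⟩

open Classical in
/-- if the accumulated exits grow by at most `δ` between `P` and the grid, the mass of the exits in
between is at most `δ |P|` -/
theorem avN_Lo_le (hg : Measurable g) (hM : ∀ x, ‖g x‖ ≤ M) (hκ : Measurable κ) (hs : IsStop s m)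
    {k₀ k : ℕ} {j : ℤ} {δ : ℝ} (hk : k₀ ≤ k) (hks : ∀ x ∈ Ivl k j, k ≤ s x)
    (hδ : ∀ x ∈ Ivl k j, XX g κ k₀ (s x) x ≤ XX g κ k₀ k x + δ) :
    avN (Lo g κ s k) k j ≤ δ := by
  have e1 : ∀ y, ‖Lo g κ s k y‖ = ∑ i ∈ Finset.Ico k m, if i < s y then ‖exq g κ i y‖ else 0 := by
    intro y
    unfold Lo exq
    by_cases h : k ≤ κ y ∧ κ y < s y
    · rw [if_pos h, Finset.sum_eq_single (κ y)]
      · rw [if_pos h.2, if_pos rfl]
      · intro i _ hi
        rw [if_neg (Ne.symm hi), norm_zero, ite_self]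
      · intro hc
        exact absurd (Finset.mem_Ico.2 ⟨h.1, h.2.trans_le (hs.le y)⟩) hc
    · rw [if_neg h, norm_zero]
      symm
      apply Finset.sum_eq_zero
      intro i hi
      by_cases h1 : i < s y
      · rw [if_pos h1, if_neg, norm_zero]
        rintro rfl
        exact h ⟨(Finset.mem_Ico.1 hi).1, h1⟩
      · rw [if_neg h1]
  have e2 : ∀ x ∈ Ivl k j, ∑ i ∈ Finset.Ico k m, (if i < s x then xe g κ i x else 0) ≤ δ := by
    intro x hx
    have h1 : ∑ i ∈ Finset.Ico k m, (if i < s x then xe g κ i x else 0) =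
        ∑ i ∈ Finset.Ico k (s x), xe g κ i x := by
      rw [← Finset.sum_filter]
      refine Finset.sum_congr ?_ fun _ _ => rfl
      ext i
      simp only [Finset.mem_filter, Finset.mem_Ico]
      have := hs.le x
      constructor
      · rintro ⟨⟨h1, h2⟩, h3⟩; exact ⟨h1, h3⟩
      · rintro ⟨h1, h2⟩; exact ⟨⟨h1, by omega⟩, h2⟩
    have h2 := hδ x hx
    unfold XX at h2
    rw [← Finset.sum_Ico_consecutive _ hk (hks x hx)] at h2
    rw [h1]
    linarith
  unfold avN
  have h3 : ∫ y in Ivl k j, ‖Lo g κ s k y‖ ≤ δ * (1 / 2 ^ k) := by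
    simp_rw [e1]
    rw [integral_finsetSum _ fun i hi => (lo_gen hg hM hκ hs (Finset.mem_Ico.1 hi).1 j).1,
      Finset.sum_congr rfl fun i hi => (lo_gen hg hM hκ hs (Finset.mem_Ico.1 hi).1 j).2.2,
      ← integral_finsetSum _ fun i hi => (lo_gen hg hM hκ hs (Finset.mem_Ico.1 hi).1 j).2.1]
    have h4 : ∫ x in Ivl k j, ∑ i ∈ Finset.Ico k m, (if i < s x then xe g κ i x else 0) ≤
        ∫ _x in Ivl k j, δ := by
      refine setIntegral_mono_on (integrable_finsetSum _ fun i hi =>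
        (lo_gen hg hM hκ hs (Finset.mem_Ico.1 hi).1 j).2.1) ?_ (measurableSet_Ivl _ _) e2
      refine integrableOn_const ?_
      rw [volume_Ivl]; exact ENNReal.ofReal_ne_top
    rw [setIntegral_const, volume_real_Ivl, smul_eq_mul, mul_comm] at h4
    exact h4
  have h2 : (0 : ℝ) < 2 ^ k := by positivity
  calc (2 : ℝ) ^ k * _ ≤ 2 ^ k * (δ * (1 / 2 ^ k)) := by gcongr
    _ = δ := by field_simp

end integ

end Crest.Agent.R100.Grid279
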