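import Mathlib.MeasureTheory.Integral.IntervalIntegral.Basic
import Mathlib.MeasureTheory.Integral.IntervalIntegral.FundThmCalculus
import Mathlib.MeasureTheory.Integral.IntervalIntegral.Periodic
import Mathlib.MeasureTheory.Integral.Prod
import Mathlib.Analysis.SpecialFunctions.Integrals.Basic
import Mathlib.MeasureTheory.Function.Floor

/-!
The dyadic Haar shift kernel and its average over shifts.
`sg v = 1` if the fractional part of `v` is `< 1/2`, `-1` otherwise.
`q a b = sg a * sg (2a) * sg b` if `a`, `b` lie in the same unit cell.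
`A u = ∫_0^1 q v (v-u) dv`.
-/
set_option autoImplicit false
open MeasureTheory Set Filter Topology intervalIntegral

namespace Crest.Agent.R100.Haar403

/-- Rademacher sign -/
noncomputable def sg (v : ℝ) : ℝ := if Int.fract v < 1 / 2 then 1 else -1

/-- the kernel of the Haar shift in one cell -/
noncomputable def q (a b : ℝ) : ℝ := if ⌊a⌋ = ⌊b⌋ then sg a * sg (2 * a) * sg b else 0

lemma abs_sg (v : ℝ) : |sg v| = 1 := by unfold sg; split_ifs <;> simp

lemma sg_add_int (v : ℝ) (n : ℤ) : sg (v + n) = sg v := by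
  unfold sg; rw [Int.fract_add_intCast]

lemma sg_mul_self (v : ℝ) : sg v * sg v = 1 := by unfold sg; split_ifs <;> norm_num

lemma measurable_sg : Measurable sg :=
  Measurable.ite (measurableSet_lt measurable_fract measurable_const) measurable_const
    measurable_const

lemma ii_of_bdd {E : Type*} [NormedAddCommGroup E] [MeasurableSpace E] [BorelSpace E]
    [SecondCountableTopology E] {h : ℝ → E} (hm : Measurable h) {C : ℝ} (hb : ∀ v, ‖h v‖ ≤ C)
    (a b : ℝ) : IntervalIntegrable h volume a b := by
  rw [intervalIntegrable_iff]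
  exact Measure.integrableOn_of_bounded (by simp) hm.aestronglyMeasurable (ae_of_all _ hb)

lemma abs_q_le (a b : ℝ) : |q a b| ≤ 1 := by
  unfold q
  split_ifs
  · rw [abs_mul, abs_mul, abs_sg, abs_sg, abs_sg]; norm_num
  · simp

lemma q_add_int (a b : ℝ) (n : ℤ) : q (a + n) (b + n) = q a b := by
  unfold q
  have e : 2 * (a + n) = 2 * a + ((2 * n : ℤ) : ℝ) := by push_cast; ring
  rw [e, sg_add_int, sg_add_int, sg_add_int, Int.floor_add_intCast, Int.floor_add_intCast]
  simp

lemma measurable_q : Measurable (Function.uncurry q) := by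
  unfold q Function.uncurry
  refine Measurable.ite ?_ ?_ measurable_const
  · exact measurableSet_eq_fun (Int.measurable_floor.comp measurable_fst)
      (Int.measurable_floor.comp measurable_snd)
  · exact ((measurable_sg.comp measurable_fst).mul (measurable_sg.comp
      (measurable_fst.const_mul 2))).mul (measurable_sg.comp measurable_snd)

lemma q_eq_zero_of_le {a b : ℝ} (h : 1 ≤ |a - b|) : q a b = 0 := by
  unfold q
  rw [if_neg]
  intro hfl
  have h1 := Int.abs_sub_lt_one_of_floor_eq_floor hfl
  linarith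

/-- the average of the kernel over shifts -/
noncomputable def A (u : ℝ) : ℝ := ∫ v in (0 : ℝ)..1, q v (v - u)

lemma measurable_qshift : Measurable fun p : ℝ × ℝ => q p.2 (p.2 - p.1) :=
  measurable_q.comp (measurable_snd.prodMk (measurable_snd.sub measurable_fst))

lemma abs_A_le (u : ℝ) : |A u| ≤ 1 := by
  unfold A
  have := intervalIntegral.norm_integral_le_of_norm_le_const (a := 0) (b := 1) (C := 1)
    (f := fun v => q v (v - u)) (fun v _ => abs_q_le _ _)
  simpa using this

lemma A_eq_zero {u : ℝ} (h : 1 ≤ |u|) : A u = 0 := by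
  unfold A
  have : ∀ v, q v (v - u) = 0 := fun v => q_eq_zero_of_le (by simpa using h)
  simp [this]

lemma measurable_A : Measurable A := by
  unfold A
  simp_rw [intervalIntegral.integral_of_le (zero_le_one (α := ℝ))]
  exact (measurable_qshift.stronglyMeasurable.integral_prod_right').measurable

lemma sg_of_mem_left {v : ℝ} (h0 : 0 ≤ v) (h1 : v < 1 / 2) : sg v = 1 := by
  unfold sg
  rw [Int.fract_eq_self.mpr ⟨h0, by linarith⟩, if_pos h1]

lemma sg_of_mem_right {v : ℝ} (h0 : 1 / 2 ≤ v) (h1 : v < 1) : sg v = -1 := by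
  unfold sg
  rw [Int.fract_eq_self.mpr ⟨by linarith, h1⟩, if_neg (by linarith)]

/-- the periodicity average: `∫_0^1 q (a - 2^k σ) (b - 2^k σ) dσ = A (a - b)`. -/
lemma integral_q_shift (a b : ℝ) (k : ℕ) :
    ∫ σ in (0 : ℝ)..1, q (a - 2 ^ k * σ) (b - 2 ^ k * σ) = A (a - b) := by
  -- the 1-periodic function `v ↦ q v (v - (a-b))`
  set h : ℝ → ℝ := fun v => q v (v - (a - b)) with hh
  have hper : Function.Periodic h 1 := by
    intro v
    have := q_add_int v (v - (a - b)) 1
    simp only [Int.cast_one] at this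
    rw [hh]
    simp only
    rw [← this]; congr 1; ring
  have e1 : ∀ σ : ℝ, q (a - 2 ^ k * σ) (b - 2 ^ k * σ) = h (a - 2 ^ k * σ) := by
    intro σ; rw [hh]; congr 1; ring
  simp_rw [e1]
  have hpos : (0 : ℝ) < 2 ^ k := by positivity
  rw [intervalIntegral.integral_comp_sub_mul (f := h) hpos.ne']
  simp only [mul_zero, sub_zero, mul_one, smul_eq_mul]
  have hmeas : Measurable h := measurable_q.comp (measurable_id.prodMk (measurable_id.sub_const _))
  have e2 : ∫ v in (a - 2 ^ k)..a, h v = (2 ^ k : ℝ) * ∫ v in (0 : ℝ)..1, h v := by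
    have h1 := hper.intervalIntegral_add_zsmul_eq (2 ^ k : ℤ) (a - 2 ^ k)
      (fun t₁ t₂ => ii_of_bdd hmeas (C := 1) (fun v => abs_q_le _ _) t₁ t₂)
    rw [hper.intervalIntegral_add_eq (a - 2 ^ k) 0] at h1
    simp only [zsmul_eq_mul, mul_one, Int.cast_pow, Int.cast_ofNat, sub_add_cancel, zero_add] at h1
    exact h1
  rw [e2, ← mul_assoc, inv_mul_cancel₀ hpos.ne', one_mul]
  rfl

end Crest.Agent.R100.Haar403
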