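import Crest.Agent.R100.HaarK_403
import Mathlib.MeasureTheory.Measure.Haar.NormedSpace

/-!
Averaging identity: the integral over dilations `ρ` and shifts `σ` of the dyadic Haar shift is the
integral operator with kernel `K m (x - y)`.
-/
set_option autoImplicit false
open MeasureTheory Set Filter Topology intervalIntegral
open scoped ENNReal

namespace Crest.Agent.R100.Haar403

/-- dilated and shifted function -/
def dil (ρ σ : ℝ) (g : ℝ → ℂ) (y : ℝ) : ℂ := g (ρ * (σ + y))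

/-- the kernel of one scale in the grid `(ρ,σ)`. -/
noncomputable def Q (k : ℕ) (x ρ σ y : ℝ) : ℝ :=
  q (2 ^ k * x / ρ - 2 ^ k * σ) (2 ^ k * y / ρ - 2 ^ k * σ)

lemma abs_Q_le (k : ℕ) (x ρ σ y : ℝ) : |Q k x ρ σ y| ≤ 1 := abs_q_le _ _

lemma Q_eq_zero {k : ℕ} {x ρ σ y : ℝ} (h0 : 0 < ρ) (h1 : ρ ≤ 1) (h : 1 ≤ |x - y|) :
    Q k x ρ σ y = 0 := by
  unfold Q
  refine q_eq_zero_of_le ?_
  have e : 2 ^ k * x / ρ - 2 ^ k * σ - (2 ^ k * y / ρ - 2 ^ k * σ) = 2 ^ k / ρ * (x - y) := by ring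
  rw [e, abs_mul, abs_of_pos (by positivity)]
  have h2 : 1 ≤ (2 : ℝ) ^ k / ρ := by
    rw [le_div_iff₀ h0]; have := one_le_two_pow' k; linarith
  nlinarith [abs_nonneg (x - y)]

lemma measurable_Q (k : ℕ) :
    Measurable fun p : ((ℝ × ℝ) × ℝ) × ℝ => Q k p.1.1.1 p.1.1.2 p.1.2 p.2 := by
  unfold Q
  refine measurable_q.comp (Measurable.prodMk ?_ ?_)
  · exact ((measurable_fst.comp (measurable_fst.comp measurable_fst)).const_mul _ |>.div
      (measurable_snd.comp (measurable_fst.comp measurable_fst))).sub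
      ((measurable_snd.comp measurable_fst).const_mul _)
  · exact ((measurable_snd).const_mul _ |>.div
      (measurable_snd.comp (measurable_fst.comp measurable_fst))).sub
      ((measurable_snd.comp measurable_fst).const_mul _)

lemma locInt_of_bdd {g : ℝ → ℂ} (hg : Measurable g) {B : ℝ} (hB : ∀ y, ‖g y‖ ≤ B) :
    LocallyIntegrable g volume := by
  intro x
  refine ⟨Metric.ball x 1, Metric.ball_mem_nhds x one_pos, ?_⟩
  exact Measure.integrableOn_of_bounded (by simp) hg.aestronglyMeasurable (ae_of_all _ hB)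

lemma measurable_dil {ρ σ : ℝ} {g : ℝ → ℂ} (hg : Measurable g) : Measurable (dil ρ σ g) :=
  hg.comp ((measurable_const.add measurable_id).const_mul ρ)

/-- one scale of the shift in the grid `(ρ,σ)` -/
lemma scale_dil {g : ℝ → ℂ} (hg : Measurable g) {B : ℝ} (hB : ∀ y, ‖g y‖ ≤ B) (k : ℕ)
    {x ρ σ : ℝ} (hρ : 0 < ρ) :
    (sg (2 ^ (k + 1) * (x / ρ - σ)) : ℂ) * D k (dil ρ σ g) (x / ρ - σ) =
      (2 : ℂ) ^ k * (ρ : ℂ)⁻¹ * ∫ y, (Q k x ρ σ y : ℂ) * g y := by
  rw [scale_eq (locInt_of_bdd (measurable_dil hg) (fun y => hB _))]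
  have h1 := MeasureTheory.integral_add_left_eq_self (μ := (volume : Measure ℝ))
    (fun z => (Q k x ρ σ (ρ * z) : ℂ) * g (ρ * z)) σ
  have h2 := MeasureTheory.Measure.integral_comp_mul_left
    (fun z => (Q k x ρ σ z : ℂ) * g z) ρ
  rw [mul_assoc]
  congr 1
  rw [abs_of_pos (inv_pos.mpr hρ)] at h2
  have h3 : (ρ : ℂ)⁻¹ * ∫ y, (Q k x ρ σ y : ℂ) * g y = ρ⁻¹ • ∫ y, (Q k x ρ σ y : ℂ) * g y := by
    rw [Complex.real_smul]; push_cast; rfl
  rw [h3, ← h2, ← h1]
  refine integral_congr_ae (ae_of_all _ fun y => ?_)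
  simp only [dil]
  congr 2
  unfold Q
  congr 1
  · ring
  · field_simp; ring

lemma integrable_Qg {g : ℝ → ℂ} (hg : Measurable g) {B : ℝ} (hB : ∀ y, ‖g y‖ ≤ B) (k : ℕ)
    {x ρ : ℝ} (hρ : 0 < ρ) (hρ1 : ρ ≤ 1) :
    Integrable (fun p : ℝ × ℝ => (Q k x ρ p.1 p.2 : ℂ) * g p.2)
      ((volume.restrict (Ioc (0 : ℝ) 1)).prod volume) := by
  have hB0 : 0 ≤ B := (norm_nonneg _).trans (hB 0)
  have hbound : Integrable (fun p : ℝ × ℝ => (Icc (x - 1) (x + 1)).indicator (fun _ => B) p.2)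
      ((volume.restrict (Ioc (0 : ℝ) 1)).prod volume) := by
    have h1 : Integrable ((Icc (x - 1) (x + 1)).indicator (fun _ => B)) (volume : Measure ℝ) :=
      (integrable_indicator_iff measurableSet_Icc).mpr (integrableOn_const (by simp))
    exact h1.comp_snd (volume.restrict (Ioc (0 : ℝ) 1))
  refine hbound.mono' ?_ (ae_of_all _ fun p => ?_)
  · refine Measurable.aestronglyMeasurable ?_
    refine (Complex.measurable_ofReal.comp ?_).mul (hg.comp measurable_snd)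
    exact (measurable_Q k).comp (((measurable_const.prodMk measurable_const).prodMk
      measurable_fst).prodMk measurable_snd)
  · by_cases hp : p.2 ∈ Icc (x - 1) (x + 1)
    · rw [indicator_of_mem hp, norm_mul, Complex.norm_real, Real.norm_eq_abs]
      calc |Q k x ρ p.1 p.2| * ‖g p.2‖ ≤ 1 * B := by
            gcongr
            · exact abs_Q_le _ _ _ _ _
            · exact hB _
        _ = B := one_mul B
    · rw [indicator_of_notMem hp, Q_eq_zero hρ hρ1]
      · simp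
      · by_contra hcon
        push Not at hcon
        rw [abs_lt] at hcon
        exact hp ⟨by linarith [hcon.2], by linarith [hcon.1]⟩

/-- average over shifts, one scale -/
lemma avg_shift {g : ℝ → ℂ} (hg : Measurable g) {B : ℝ} (hB : ∀ y, ‖g y‖ ≤ B) (k : ℕ)
    {x ρ : ℝ} (hρ : 0 < ρ) (hρ1 : ρ ≤ 1) :
    ∫ σ in (0 : ℝ)..1, (sg (2 ^ (k + 1) * (x / ρ - σ)) : ℂ) * D k (dil ρ σ g) (x / ρ - σ) =
      (2 : ℂ) ^ k * (ρ : ℂ)⁻¹ * ∫ y, (A (2 ^ k * (x - y) / ρ) : ℂ) * g y := by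
  simp_rw [fun σ => scale_dil hg hB k (x := x) (σ := σ) hρ]
  rw [intervalIntegral.integral_const_mul]
  congr 1
  rw [intervalIntegral.integral_of_le zero_le_one,
    MeasureTheory.integral_integral_swap (f := fun σ y => (Q k x ρ σ y : ℂ) * g y)
      (integrable_Qg hg hB k hρ hρ1)]
  refine integral_congr_ae (ae_of_all _ fun y => ?_)
  simp only
  rw [MeasureTheory.integral_mul_const]
  congr 1
  rw [← intervalIntegral.integral_of_le zero_le_one]
  have h1 := integral_q_shift (2 ^ k * x / ρ) (2 ^ k * y / ρ) k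
  have e : 2 ^ k * x / ρ - 2 ^ k * y / ρ = 2 ^ k * (x - y) / ρ := by ring
  rw [e] at h1
  rw [← h1]
  exact intervalIntegral.integral_ofReal

lemma A_arg_eq_zero {k : ℕ} {x ρ y : ℝ} (h0 : 0 < ρ) (h1 : ρ ≤ 1) (h : 1 ≤ |x - y|) :
    A (2 ^ k * (x - y) / ρ) = 0 := by
  refine A_eq_zero ?_
  rw [mul_div_right_comm, abs_mul, abs_of_pos (by positivity)]
  have h2 : 1 ≤ (2 : ℝ) ^ k / ρ := by
    rw [le_div_iff₀ h0]; have := one_le_two_pow' k; linarith
  nlinarith [abs_nonneg (x - y)]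

lemma integrable_Ag {g : ℝ → ℂ} (hg : Measurable g) {B : ℝ} (hB : ∀ y, ‖g y‖ ≤ B) (k : ℕ)
    (x : ℝ) :
    Integrable (fun p : ℝ × ℝ => ((2 ^ k * (p.1 ^ 2)⁻¹ * A (2 ^ k * (x - p.2) / p.1) : ℝ) : ℂ) * g p.2)
      ((volume.restrict (Ioc (1 / 2 : ℝ) 1)).prod volume) := by
  have hB0 : 0 ≤ B := (norm_nonneg _).trans (hB 0)
  have hbound : Integrable (fun p : ℝ × ℝ =>
      (Icc (x - 1) (x + 1)).indicator (fun _ => 2 ^ k * 4 * B) p.2)
      ((volume.restrict (Ioc (1 / 2 : ℝ) 1)).prod volume) := by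
    have h1 : Integrable ((Icc (x - 1) (x + 1)).indicator (fun _ => 2 ^ k * 4 * B))
        (volume : Measure ℝ) :=
      (integrable_indicator_iff measurableSet_Icc).mpr (integrableOn_const (by simp))
    exact h1.comp_snd (volume.restrict (Ioc (1 / 2 : ℝ) 1))
  have hmem : ∀ᵐ p : ℝ × ℝ ∂((volume.restrict (Ioc (1 / 2 : ℝ) 1)).prod volume),
      p.1 ∈ Ioc (1 / 2 : ℝ) 1 := by
    have h1 : ∀ᵐ ρ : ℝ ∂(volume.restrict (Ioc (1 / 2 : ℝ) 1)), ρ ∈ Ioc (1 / 2 : ℝ) 1 :=
      ae_restrict_mem measurableSet_Ioc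
    exact Measure.quasiMeasurePreserving_fst.ae h1
  refine hbound.mono' ?_ ?_
  · refine Measurable.aestronglyMeasurable ?_
    refine (Complex.measurable_ofReal.comp ?_).mul (hg.comp measurable_snd)
    refine ((measurable_fst.pow_const 2).inv.const_mul _).mul (measurable_A.comp ?_)
    exact ((measurable_const.sub measurable_snd).const_mul _).div measurable_fst
  · filter_upwards [hmem] with p hp1
    have hpos : 0 < p.1 := by linarith [hp1.1]
    by_cases hp : p.2 ∈ Icc (x - 1) (x + 1)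
    · rw [indicator_of_mem hp, norm_mul, Complex.norm_real, Real.norm_eq_abs, abs_mul, abs_mul,
        abs_of_pos (two_pow_pos' k), abs_of_pos (by positivity : 0 < (p.1 ^ 2)⁻¹)]
      have h4 : (p.1 ^ 2)⁻¹ ≤ 4 := by
        rw [inv_le_comm₀ (by positivity) (by norm_num)]
        nlinarith [hp1.1]
      calc 2 ^ k * (p.1 ^ 2)⁻¹ * |A (2 ^ k * (x - p.2) / p.1)| * ‖g p.2‖ ≤ 2 ^ k * 4 * 1 * B := by
            gcongr
            · exact abs_A_le _
            · exact hB _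
        _ = 2 ^ k * 4 * B := by ring
    · rw [indicator_of_notMem hp, A_arg_eq_zero hpos hp1.2]
      · simp
      · by_contra hcon
        push Not at hcon
        rw [abs_lt] at hcon
        exact hp ⟨by linarith [hcon.2], by linarith [hcon.1]⟩

/-- average over shifts and dilations, one scale -/
lemma avg_dil {g : ℝ → ℂ} (hg : Measurable g) {B : ℝ} (hB : ∀ y, ‖g y‖ ≤ B) (k : ℕ) (x : ℝ) :
    ∫ ρ in (1 / 2 : ℝ)..1, (ρ : ℂ)⁻¹ * ∫ σ in (0 : ℝ)..1,
      (sg (2 ^ (k + 1) * (x / ρ - σ)) : ℂ) * D k (dil ρ σ g) (x / ρ - σ) =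
      ∫ y, (Kk k (x - y) : ℂ) * g y := by
  rw [intervalIntegral.integral_of_le (by norm_num)]
  have h1 : ∀ ρ ∈ Ioc (1 / 2 : ℝ) 1, (ρ : ℂ)⁻¹ * ∫ σ in (0 : ℝ)..1,
      (sg (2 ^ (k + 1) * (x / ρ - σ)) : ℂ) * D k (dil ρ σ g) (x / ρ - σ) =
      ∫ y, ((2 ^ k * (ρ ^ 2)⁻¹ * A (2 ^ k * (x - y) / ρ) : ℝ) : ℂ) * g y := by
    intro ρ hρ
    have hρ0 : 0 < ρ := by linarith [hρ.1]
    rw [avg_shift hg hB k hρ0 hρ.2, ← mul_assoc, ← MeasureTheory.integral_const_mul]
    refine integral_congr_ae (ae_of_all _ fun y => ?_)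
    simp only
    push_cast
    ring
  rw [setIntegral_congr_fun measurableSet_Ioc h1,
    MeasureTheory.integral_integral_swap (f := fun ρ y =>
      ((2 ^ k * (ρ ^ 2)⁻¹ * A (2 ^ k * (x - y) / ρ) : ℝ) : ℂ) * g y) (integrable_Ag hg hB k x)]
  refine integral_congr_ae (ae_of_all _ fun y => ?_)
  simp only
  rw [MeasureTheory.integral_mul_const]
  congr 1
  unfold Kk
  rw [← intervalIntegral.integral_of_le (by norm_num)]
  exact intervalIntegral.integral_ofReal

lemma norm_scale_le {g : ℝ → ℂ} {B : ℝ} (hB : ∀ y, ‖g y‖ ≤ B) (k : ℕ) (x : ℝ) :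
    ‖(sg (2 ^ (k + 1) * x) : ℂ) * D k g x‖ ≤ 2 * B := by
  rw [norm_mul, Complex.norm_real, Real.norm_eq_abs, abs_sg, one_mul]
  unfold D
  refine (norm_sub_le _ _).trans ?_
  have h1 := norm_Av_le hB (k + 1) x
  have h2 := norm_Av_le hB k x
  linarith

lemma measurable_Qint {g : ℝ → ℂ} (hg : Measurable g) (k : ℕ) (x : ℝ) :
    Measurable fun p : ℝ × ℝ => ∫ y, (Q k x p.1 p.2 y : ℂ) * g y := by
  have h1 : Measurable fun p : (ℝ × ℝ) × ℝ => (Q k x p.1.1 p.1.2 p.2 : ℂ) * g p.2 := by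
    refine (Complex.measurable_ofReal.comp ?_).mul (hg.comp measurable_snd)
    exact (measurable_Q k).comp (((measurable_const.prodMk (measurable_fst.comp
      measurable_fst)).prodMk (measurable_snd.comp measurable_fst)).prodMk measurable_snd)
  exact h1.stronglyMeasurable.integral_prod_right.measurable

lemma measurable_scale {g : ℝ → ℂ} (hg : Measurable g) {B : ℝ} (hB : ∀ y, ‖g y‖ ≤ B) (k : ℕ)
    (x : ℝ) {ρ : ℝ} (hρ : 0 < ρ) :
    Measurable fun σ : ℝ => (sg (2 ^ (k + 1) * (x / ρ - σ)) : ℂ) * D k (dil ρ σ g) (x / ρ - σ) := by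
  simp_rw [fun σ => scale_dil hg hB k (x := x) (σ := σ) hρ]
  exact ((measurable_Qint hg k x).comp (measurable_const.prodMk measurable_id)).const_mul _

lemma ii_scale {g : ℝ → ℂ} (hg : Measurable g) {B : ℝ} (hB : ∀ y, ‖g y‖ ≤ B) (k : ℕ)
    (x : ℝ) {ρ : ℝ} (hρ : 0 < ρ) (a b : ℝ) : IntervalIntegrable
    (fun σ : ℝ => (sg (2 ^ (k + 1) * (x / ρ - σ)) : ℂ) * D k (dil ρ σ g) (x / ρ - σ)) volume a b :=
  ii_of_bdd (measurable_scale hg hB k x hρ) (C := 2 * B)
    (fun σ => norm_scale_le (g := dil ρ σ g) (fun _ => hB _) k _) a b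

/-- the averaging identity -/
theorem avg_H {g : ℝ → ℂ} (hg : Measurable g) {B : ℝ} (hB : ∀ y, ‖g y‖ ≤ B) (m : ℕ) (x : ℝ) :
    -8 * ∫ ρ in (1 / 2 : ℝ)..1, (ρ : ℂ)⁻¹ * ∫ σ in (0 : ℝ)..1, H m (dil ρ σ g) (x / ρ - σ) =
      ∫ y, (K m (x - y) : ℂ) * g y := by
  -- the inner integral
  have h1 : ∀ ρ ∈ Ioo (1 / 2 : ℝ) 1, (ρ : ℂ)⁻¹ * ∫ σ in (0 : ℝ)..1, H m (dil ρ σ g) (x / ρ - σ) =
      ∑ k ∈ Finset.range m, (ρ : ℂ)⁻¹ * ∫ σ in (0 : ℝ)..1,
        (sg (2 ^ (k + 1) * (x / ρ - σ)) : ℂ) * D k (dil ρ σ g) (x / ρ - σ) := by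
    intro ρ hρ
    have hρ0 : 0 < ρ := by linarith [hρ.1]
    unfold H
    rw [intervalIntegral.integral_finsetSum (fun k _ => ii_scale hg hB k x hρ0 0 1),
      Finset.mul_sum]
  rw [integral_congr_Ioo (by norm_num) h1, intervalIntegral.integral_finsetSum]
  · simp_rw [fun k => avg_dil hg hB k x]
    rw [← MeasureTheory.integral_finsetSum, ← MeasureTheory.integral_const_mul]
    · refine integral_congr_ae (ae_of_all _ fun y => ?_)
      simp only
      unfold K
      rw [← Finset.sum_mul]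
      push_cast
      ring
    · intro k _
      -- integrability of the averaged kernel against `g`
      have := (integrable_Ag hg hB k x).integral_prod_right
      refine this.congr (ae_of_all _ fun y => ?_)
      simp only
      rw [MeasureTheory.integral_mul_const]
      congr 1
      unfold Kk
      rw [← intervalIntegral.integral_of_le (by norm_num)]
      exact intervalIntegral.integral_ofReal
  · intro k _
    -- interval integrability in `ρ`
    have hint := (integrable_Ag hg hB k x).integral_prod_left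
    rw [intervalIntegrable_iff_integrableOn_Ioc_of_le (by norm_num)]
    refine hint.congr ?_
    filter_upwards [ae_restrict_mem (measurableSet_Ioc (a := (1 / 2 : ℝ)) (b := 1))] with ρ hρ
    have hρ0 : 0 < ρ := by linarith [hρ.1]
    rw [avg_shift hg hB k hρ0 hρ.2, ← mul_assoc, ← MeasureTheory.integral_const_mul]
    refine integral_congr_ae (ae_of_all _ fun y => ?_)
    simp only
    push_cast
    ring

end Crest.Agent.R100.Haar403
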