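import Crest.Agent.R100.HaarA_403

/-! The two half-line integrals of the averaged kernel `A`. -/
set_option autoImplicit false
open MeasureTheory Set Filter Topology intervalIntegral

namespace Crest.Agent.R100.Haar403

lemma integral_congr_Ioo {E : Type*} [NormedAddCommGroup E] [NormedSpace ℝ E] {a b : ℝ}
    (hab : a ≤ b) {f g : ℝ → E} (h : ∀ x ∈ Ioo a b, f x = g x) :
    ∫ x in a..b, f x = ∫ x in a..b, g x := by
  rw [intervalIntegral.integral_of_le hab, intervalIntegral.integral_of_le hab,
    integral_Ioc_eq_integral_Ioo, integral_Ioc_eq_integral_Ioo]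
  exact setIntegral_congr_fun measurableSet_Ioo h

lemma ii_sg (a b : ℝ) : IntervalIntegrable sg volume a b :=
  ii_of_bdd measurable_sg (C := 1) (fun v => (abs_sg v).le) a b

lemma integral_sg_left {v : ℝ} (h0 : 0 ≤ v) (h1 : v ≤ 1 / 2) : ∫ w in (0 : ℝ)..v, sg w = v := by
  rw [integral_congr_Ioo (g := fun _ => (1 : ℝ)) h0 (fun w hw => sg_of_mem_left hw.1.le
    (hw.2.trans_le h1))]
  simp

lemma integral_sg_right {v : ℝ} (h0 : 1 / 2 ≤ v) (h1 : v ≤ 1) :
    ∫ w in (0 : ℝ)..v, sg w = 1 - v := by
  rw [← intervalIntegral.integral_add_adjacent_intervals (ii_sg 0 (1 / 2)) (ii_sg (1 / 2) v),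
    integral_sg_left (by norm_num) le_rfl,
    integral_congr_Ioo (g := fun _ => (-1 : ℝ)) h0 (fun w hw => sg_of_mem_right hw.1.le
    (hw.2.trans_le h1))]
  simp; ring

lemma floor_zero_of_mem {v : ℝ} (h0 : 0 ≤ v) (h1 : v < 1) : ⌊v⌋ = 0 :=
  Int.floor_eq_zero_iff.mpr ⟨h0, h1⟩

/-- inner integral, `u ∈ (0,1)` -/
lemma inner_pos {v : ℝ} (h0 : 0 ≤ v) (h1 : v < 1) :
    ∫ u in (0 : ℝ)..1, q v (v - u) = sg v * sg (2 * v) * ∫ w in (0 : ℝ)..v, sg w := by
  rw [intervalIntegral.integral_comp_sub_left (fun w => q v w) v]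
  have hq : Measurable fun w => q v w := measurable_q.comp (measurable_const.prodMk measurable_id)
  have hii := ii_of_bdd hq (C := 1) (fun w => abs_q_le v w)
  rw [sub_zero, ← intervalIntegral.integral_add_adjacent_intervals (hii (v - 1) 0) (hii 0 v),
    integral_congr_Ioo (g := fun _ => (0 : ℝ)) (by linarith), integral_congr_Ioo
    (g := fun w => sg v * sg (2 * v) * sg w) h0]
  · simp
  · intro w hw
    unfold q
    rw [if_pos]
    rw [floor_zero_of_mem h0 h1, floor_zero_of_mem hw.1.le (hw.2.trans h1)]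
  · intro w hw
    unfold q
    rw [if_neg]
    rw [floor_zero_of_mem h0 h1]
    intro h
    have := Int.floor_nonneg.mp h.le
    linarith [hw.2]

/-- inner integral, `u ∈ (-1,0)` -/
lemma inner_neg {v : ℝ} (h0 : 0 ≤ v) (h1 : v < 1) :
    ∫ u in (-1 : ℝ)..0, q v (v - u) = sg v * sg (2 * v) * ∫ w in v..1, sg w := by
  rw [intervalIntegral.integral_comp_sub_left (fun w => q v w) v]
  have hq : Measurable fun w => q v w := measurable_q.comp (measurable_const.prodMk measurable_id)
  have hii := ii_of_bdd hq (C := 1) (fun w => abs_q_le v w)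
  rw [sub_zero, ← intervalIntegral.integral_add_adjacent_intervals (hii v 1) (hii 1 (v - -1)),
    integral_congr_Ioo (g := fun _ => (0 : ℝ)) (by linarith) (a := 1), integral_congr_Ioo
    (g := fun w => sg v * sg (2 * v) * sg w) h1.le]
  · simp
  · intro w hw
    unfold q
    rw [if_pos]
    rw [floor_zero_of_mem h0 h1, floor_zero_of_mem (h0.trans hw.1.le) hw.2]
  · intro w hw
    unfold q
    rw [if_neg]
    rw [floor_zero_of_mem h0 h1]
    intro h
    have := (Int.floor_eq_zero_iff.mp h.symm).2
    linarith [hw.1]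

lemma swap_integral (a b : ℝ) (hab : a ≤ b) :
    ∫ u in a..b, A u = ∫ v in (0 : ℝ)..1, ∫ u in a..b, q v (v - u) := by
  unfold A
  simp_rw [intervalIntegral.integral_of_le hab, intervalIntegral.integral_of_le (zero_le_one (α := ℝ))]
  refine MeasureTheory.integral_integral_swap (f := fun u v => q v (v - u)) ?_
  refine Integrable.of_bound measurable_qshift.aestronglyMeasurable 1 (ae_of_all _ fun p => ?_)
  exact abs_q_le _ _

lemma tent_integral : ∫ v in (0 : ℝ)..1, sg v * sg (2 * v) * ∫ w in (0 : ℝ)..v, sg w = -1 / 8 := by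
  set F : ℝ → ℝ := fun v => sg v * sg (2 * v) * ∫ w in (0 : ℝ)..v, sg w with hF
  have hcont : Continuous fun v => ∫ w in (0 : ℝ)..v, sg w :=
    intervalIntegral.continuous_primitive (fun a b => ii_sg a b) 0
  have hFm : Measurable F := (measurable_sg.mul (measurable_sg.comp (measurable_const_mul 2))).mul
    hcont.measurable
  have hii : ∀ a b : ℝ, IntervalIntegrable F volume a b := by
    intro a b
    have h1 : IntervalIntegrable (fun v => ∫ w in (0 : ℝ)..v, sg w) volume a b :=
      hcont.intervalIntegrable a b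
    refine h1.mono_fun hFm.aestronglyMeasurable (ae_of_all _ fun v => ?_)
    rw [hF]
    simp only [norm_mul, Real.norm_eq_abs, abs_sg, one_mul]
    exact le_rfl
  have s1 : ∀ v ∈ Ioo (0 : ℝ) (1 / 4), F v = v := by
    intro v hv
    rw [hF]; simp only
    rw [sg_of_mem_left hv.1.le (by linarith [hv.2]), sg_of_mem_left (by linarith [hv.1])
      (by linarith [hv.2]), integral_sg_left hv.1.le (by linarith [hv.2])]
    ring
  have s2 : ∀ v ∈ Ioo (1 / 4 : ℝ) (1 / 2), F v = -v := by
    intro v hv
    rw [hF]; simp only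
    rw [sg_of_mem_left (by linarith [hv.1]) (by linarith [hv.2]), sg_of_mem_right
      (by linarith [hv.1]) (by linarith [hv.2]), integral_sg_left (by linarith [hv.1])
      (by linarith [hv.2])]
    ring
  have s3 : ∀ v ∈ Ioo (1 / 2 : ℝ) (3 / 4), F v = -(1 - v) := by
    intro v hv
    rw [hF]; simp only
    have e : sg (2 * v) = 1 := by
      have : sg (2 * v - 1 + (1 : ℤ)) = sg (2 * v - 1) := sg_add_int _ 1
      rw [show 2 * v = 2 * v - 1 + ((1 : ℤ) : ℝ) by push_cast; ring, this]
      exact sg_of_mem_left (by linarith [hv.1]) (by linarith [hv.2])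
    rw [e, sg_of_mem_right (by linarith [hv.1]) (by linarith [hv.2]),
      integral_sg_right (by linarith [hv.1]) (by linarith [hv.2])]
    ring
  have s4 : ∀ v ∈ Ioo (3 / 4 : ℝ) 1, F v = 1 - v := by
    intro v hv
    rw [hF]; simp only
    have e : sg (2 * v) = -1 := by
      have : sg (2 * v - 1 + (1 : ℤ)) = sg (2 * v - 1) := sg_add_int _ 1
      rw [show 2 * v = 2 * v - 1 + ((1 : ℤ) : ℝ) by push_cast; ring, this]
      exact sg_of_mem_right (by linarith [hv.1]) (by linarith [hv.2])
    rw [e, sg_of_mem_right (by linarith [hv.1]) (by linarith [hv.2]),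
      integral_sg_right (by linarith [hv.1]) (by linarith [hv.2])]
    ring
  rw [← intervalIntegral.integral_add_adjacent_intervals (hii 0 (3 / 4)) (hii (3 / 4) 1),
    ← intervalIntegral.integral_add_adjacent_intervals (hii 0 (1 / 2)) (hii (1 / 2) (3 / 4)),
    ← intervalIntegral.integral_add_adjacent_intervals (hii 0 (1 / 4)) (hii (1 / 4) (1 / 2)),
    integral_congr_Ioo (by norm_num) s1, integral_congr_Ioo (by norm_num) s2,
    integral_congr_Ioo (by norm_num) s3, integral_congr_Ioo (by norm_num) s4]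
  rw [show (∫ v in (1 / 4 : ℝ)..(1 / 2), -v) = -(∫ v in (1 / 4 : ℝ)..(1 / 2), v) from
    intervalIntegral.integral_neg]
  simp only [intervalIntegral.integral_neg, integral_id]
  rw [intervalIntegral.integral_sub (by simp) (by simp), intervalIntegral.integral_sub (by simp) (by simp)]
  simp only [integral_id, intervalIntegral.integral_const, smul_eq_mul]
  norm_num

theorem integral_A_pos : ∫ u in (0 : ℝ)..1, A u = -1 / 8 := by
  rw [swap_integral 0 1 zero_le_one, integral_congr_Ioo zero_le_one (fun v hv => inner_pos hv.1.le hv.2)]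
  exact tent_integral

theorem integral_A_neg : ∫ u in (-1 : ℝ)..0, A u = 1 / 8 := by
  rw [swap_integral (-1) 0 (by norm_num),
    integral_congr_Ioo zero_le_one (fun v hv => inner_neg hv.1.le hv.2)]
  have h : ∀ v : ℝ, (∫ w in v..1, sg w) = -∫ w in (0 : ℝ)..v, sg w := by
    intro v
    have h1 := intervalIntegral.integral_add_adjacent_intervals (ii_sg 0 v) (ii_sg v 1)
    rw [integral_sg_right (by norm_num) le_rfl] at h1
    linarith
  simp_rw [h, mul_neg]
  rw [intervalIntegral.integral_neg, tent_integral]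
  norm_num

end Crest.Agent.R100.Haar403
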