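import Crest.Agent.R100.HaarModel_403
import Mathlib.MeasureTheory.Function.Jacobian
import Mathlib.MeasureTheory.Measure.Lebesgue.Integral

/-!
The average of the dyadic Haar shift over dilations `ρ ∈ [1/2,1]` and shifts `σ ∈ [0,1]` is the
convolution operator with kernel `K m`, which is `1/t + O(1)` for `2^{-m} ≤ |t| ≤ 1`.
-/
set_option autoImplicit false
open MeasureTheory Set Filter Topology intervalIntegral

namespace Crest.Agent.R100.Haar403

/-- one scale of the averaged kernel -/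
noncomputable def Kk (k : ℕ) (t : ℝ) : ℝ := ∫ ρ in (1 / 2 : ℝ)..1, 2 ^ k * (ρ ^ 2)⁻¹ * A (2 ^ k * t / ρ)

/-- the averaged kernel -/
noncomputable def K (m : ℕ) (t : ℝ) : ℝ := -8 * ∑ k ∈ Finset.range m, Kk k t

lemma ii_A (a b : ℝ) : IntervalIntegrable A volume a b :=
  ii_of_bdd measurable_A (C := 1) (fun v => abs_A_le v) a b

lemma Kk_eq_pos (k : ℕ) {t : ℝ} (ht : 0 < t) :
    Kk k t = t⁻¹ * ∫ u in (2 ^ k * t)..(2 ^ (k + 1) * t), A u := by
  have h0 := two_pow_pos' k
  set f : ℝ → ℝ := fun ρ => 2 ^ k * t / ρ with hf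
  have hderiv : ∀ ρ ∈ Ioo (1 / 2 : ℝ) 1, HasDerivWithinAt f (-(2 ^ k * t) / ρ ^ 2)
      (Ioo (1 / 2 : ℝ) 1) ρ := by
    intro ρ hρ
    have hne : ρ ≠ 0 := by have := hρ.1; positivity
    have h := ((hasDerivAt_inv hne).const_mul (2 ^ k * t)).hasDerivWithinAt (s := Ioo (1 / 2 : ℝ) 1)
    have e : -(2 ^ k * t) / ρ ^ 2 = 2 ^ k * t * (-(ρ ^ 2)⁻¹) := by ring
    rw [e]
    simpa only [hf, div_eq_mul_inv] using h
  have hinj : InjOn f (Ioo (1 / 2 : ℝ) 1) := by
    intro a ha b hb hab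
    have ha0 : 0 < a := by linarith [ha.1]
    have hb0 : 0 < b := by linarith [hb.1]
    rw [hf] at hab
    simp only at hab
    rw [div_eq_div_iff ha0.ne' hb0.ne'] at hab
    have hp : 0 < 2 ^ k * t := by positivity
    exact (mul_left_cancel₀ hp.ne' hab).symm
  have himg : f '' Ioo (1 / 2 : ℝ) 1 = Ioo (2 ^ k * t) (2 ^ (k + 1) * t) := by
    ext u
    constructor
    · rintro ⟨ρ, hρ, rfl⟩
      have hρ0 : 0 < ρ := by linarith [hρ.1]
      have hp : 0 < 2 ^ k * t := by positivity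
      refine ⟨?_, ?_⟩
      · rw [hf]; simp only; rw [lt_div_iff₀ hρ0]; nlinarith [hρ.2]
      · rw [hf]; simp only; rw [div_lt_iff₀ hρ0, pow_succ]; nlinarith [hρ.1]
    · intro hu
      have hp : 0 < 2 ^ k * t := by positivity
      have hu0 : 0 < u := hp.trans hu.1
      refine ⟨2 ^ k * t / u, ⟨?_, ?_⟩, ?_⟩
      · rw [lt_div_iff₀ hu0]; have := hu.2; rw [pow_succ] at this; linarith
      · rw [div_lt_one hu0]; exact hu.1
      · rw [hf]; simp only; field_simp
  have h1 := MeasureTheory.integral_image_eq_integral_abs_deriv_smul measurableSet_Ioo hderiv hinj A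
  rw [himg] at h1
  unfold Kk
  rw [intervalIntegral.integral_of_le (by norm_num), integral_Ioc_eq_integral_Ioo,
    intervalIntegral.integral_of_le (by rw [pow_succ]; nlinarith [mul_pos h0 ht]),
    integral_Ioc_eq_integral_Ioo, h1, ← MeasureTheory.integral_const_mul]
  refine setIntegral_congr_fun measurableSet_Ioo fun ρ hρ => ?_
  have hρ0 : 0 < ρ := by linarith [hρ.1]
  simp only [smul_eq_mul]
  rw [abs_div, abs_neg, abs_of_pos (by positivity : 0 < 2 ^ k * t), abs_of_pos (by positivity : 0 < ρ ^ 2)]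
  have e : A (f ρ) = A (2 ^ k * t / ρ) := rfl
  rw [e]
  field_simp

lemma Kk_eq_neg (k : ℕ) {t : ℝ} (ht : t < 0) :
    Kk k t = t⁻¹ * ∫ u in (2 ^ k * t)..(2 ^ (k + 1) * t), A u := by
  have h0 := two_pow_pos' k
  set f : ℝ → ℝ := fun ρ => 2 ^ k * t / ρ with hf
  have hp : 2 ^ k * t < 0 := by nlinarith
  have hderiv : ∀ ρ ∈ Ioo (1 / 2 : ℝ) 1, HasDerivWithinAt f (-(2 ^ k * t) / ρ ^ 2)
      (Ioo (1 / 2 : ℝ) 1) ρ := by
    intro ρ hρ
    have hne : ρ ≠ 0 := by have := hρ.1; positivity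
    have h := ((hasDerivAt_inv hne).const_mul (2 ^ k * t)).hasDerivWithinAt (s := Ioo (1 / 2 : ℝ) 1)
    have e : -(2 ^ k * t) / ρ ^ 2 = 2 ^ k * t * (-(ρ ^ 2)⁻¹) := by ring
    rw [e]
    simpa only [hf, div_eq_mul_inv] using h
  have hinj : InjOn f (Ioo (1 / 2 : ℝ) 1) := by
    intro a ha b hb hab
    have ha0 : 0 < a := by linarith [ha.1]
    have hb0 : 0 < b := by linarith [hb.1]
    rw [hf] at hab
    simp only at hab
    rw [div_eq_div_iff ha0.ne' hb0.ne'] at hab
    exact (mul_left_cancel₀ hp.ne hab).symm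
  have himg : f '' Ioo (1 / 2 : ℝ) 1 = Ioo (2 ^ (k + 1) * t) (2 ^ k * t) := by
    ext u
    constructor
    · rintro ⟨ρ, hρ, rfl⟩
      have hρ0 : 0 < ρ := by linarith [hρ.1]
      refine ⟨?_, ?_⟩
      · rw [hf]; simp only; rw [lt_div_iff₀ hρ0, pow_succ]; nlinarith [hρ.1]
      · rw [hf]; simp only; rw [div_lt_iff₀ hρ0]; nlinarith [hρ.2]
    · intro hu
      have hu0 : u < 0 := hu.2.trans hp
      refine ⟨2 ^ k * t / u, ⟨?_, ?_⟩, ?_⟩
      · rw [lt_div_iff_of_neg hu0]; have := hu.1; rw [pow_succ] at this; linarith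
      · rw [div_lt_one_of_neg hu0]; exact hu.2
      · rw [hf]; simp only
        rw [div_div_eq_mul_div, mul_comm, mul_div_assoc, div_self hp.ne, mul_one]
  have h1 := MeasureTheory.integral_image_eq_integral_abs_deriv_smul measurableSet_Ioo hderiv hinj A
  rw [himg] at h1
  unfold Kk
  rw [intervalIntegral.integral_of_le (by norm_num), integral_Ioc_eq_integral_Ioo,
    intervalIntegral.integral_symm,
    intervalIntegral.integral_of_le (by rw [pow_succ]; nlinarith),
    integral_Ioc_eq_integral_Ioo, h1, ← MeasureTheory.integral_neg, ← MeasureTheory.integral_const_mul]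
  refine setIntegral_congr_fun measurableSet_Ioo fun ρ hρ => ?_
  have hρ0 : 0 < ρ := by linarith [hρ.1]
  have ht' := ht.ne
  simp only [smul_eq_mul]
  rw [abs_div, abs_neg, abs_of_neg hp, abs_of_pos (by positivity : 0 < ρ ^ 2)]
  have e : A (f ρ) = A (2 ^ k * t / ρ) := rfl
  rw [e]
  field_simp

lemma Kk_eq (k : ℕ) {t : ℝ} (ht : t ≠ 0) :
    Kk k t = t⁻¹ * ∫ u in (2 ^ k * t)..(2 ^ (k + 1) * t), A u := by
  rcases lt_or_gt_of_ne ht with h | h
  · exact Kk_eq_neg k h
  · exact Kk_eq_pos k h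

lemma K_eq (m : ℕ) {t : ℝ} (ht : t ≠ 0) : K m t = -8 * t⁻¹ * ∫ u in t..(2 ^ m * t), A u := by
  unfold K
  have h1 : ∑ k ∈ Finset.range m, Kk k t =
      t⁻¹ * ∑ k ∈ Finset.range m, ∫ u in (2 ^ k * t)..(2 ^ (k + 1) * t), A u := by
    rw [Finset.mul_sum]; exact Finset.sum_congr rfl fun k _ => Kk_eq k ht
  rw [h1, intervalIntegral.sum_integral_adjacent_intervals (a := fun k => 2 ^ k * t)
    (fun k _ => ii_A _ _)]
  simp only [pow_zero, one_mul]
  ring

lemma one_le_two_pow' (m : ℕ) : (1 : ℝ) ≤ 2 ^ m := one_le_pow₀ (by norm_num)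

lemma K_eq_zero (m : ℕ) {t : ℝ} (ht : 1 ≤ |t|) : K m t = 0 := by
  have ht0 : t ≠ 0 := by rintro rfl; simp at ht; linarith
  rw [K_eq m ht0]
  have hm := one_le_two_pow' m
  rcases le_or_gt 0 t with h | h
  · rw [abs_of_nonneg h] at ht
    rw [integral_congr_Ioo (g := fun _ => (0 : ℝ)) (by nlinarith)]
    · simp
    · intro u hu
      refine A_eq_zero ?_
      rw [abs_of_nonneg (by linarith [hu.1])]; linarith [hu.1]
  · rw [abs_of_neg h] at ht
    rw [intervalIntegral.integral_symm, integral_congr_Ioo (g := fun _ => (0 : ℝ)) (by nlinarith)]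
    · simp
    · intro u hu
      refine A_eq_zero ?_
      rw [abs_of_neg (by linarith [hu.2])]; linarith [hu.2]

lemma norm_integral_A_le (a b : ℝ) : |∫ u in a..b, A u| ≤ |b - a| := by
  have := intervalIntegral.norm_integral_le_of_norm_le_const (a := a) (b := b) (C := 1)
    (f := A) (fun v _ => abs_A_le _)
  simpa using this

lemma integral_A_far_pos {a b : ℝ} (ha : 1 ≤ a) (hab : a ≤ b) : ∫ u in a..b, A u = 0 := by
  rw [integral_congr_Ioo (g := fun _ => (0 : ℝ)) hab]
  · simp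
  · intro u hu
    exact A_eq_zero (by rw [abs_of_nonneg (by linarith [hu.1])]; linarith [hu.1])

lemma integral_A_far_neg {a b : ℝ} (hb : b ≤ -1) (hab : a ≤ b) : ∫ u in a..b, A u = 0 := by
  rw [integral_congr_Ioo (g := fun _ => (0 : ℝ)) hab]
  · simp
  · intro u hu
    exact A_eq_zero (by rw [abs_of_neg (by linarith [hu.2])]; linarith [hu.2])

/-- crude bound for the kernel -/
lemma abs_K_le (m : ℕ) {t : ℝ} (ht : t ≠ 0) : |K m t| ≤ 8 * |t|⁻¹ := by
  by_cases h1 : 1 ≤ |t|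
  · rw [K_eq_zero m h1]; simp
  push Not at h1
  rw [K_eq m ht, abs_mul, abs_mul, abs_inv]
  have hm := one_le_two_pow' m
  have key : |∫ u in t..(2 ^ m * t), A u| ≤ 1 := by
    rcases lt_or_gt_of_ne ht with h | h
    · rw [abs_of_neg h] at h1
      by_cases h2 : -1 ≤ 2 ^ m * t
      · refine (norm_integral_A_le _ _).trans ?_
        rw [abs_of_nonpos (by nlinarith)]; linarith
      · push Not at h2
        rw [← intervalIntegral.integral_add_adjacent_intervals (ii_A t (-1)) (ii_A (-1) _),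
          intervalIntegral.integral_symm (2 ^ m * t) (-1), integral_A_far_neg le_rfl h2.le, neg_zero,
          add_zero]
        refine (norm_integral_A_le _ _).trans ?_
        rw [abs_of_nonpos (by linarith)]; linarith
    · rw [abs_of_pos h] at h1
      by_cases h2 : 2 ^ m * t ≤ 1
      · refine (norm_integral_A_le _ _).trans ?_
        rw [abs_of_nonneg (by nlinarith)]; linarith
      · push Not at h2
        rw [← intervalIntegral.integral_add_adjacent_intervals (ii_A t 1) (ii_A 1 _),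
          integral_A_far_pos le_rfl h2.le, add_zero]
        refine (norm_integral_A_le _ _).trans ?_
        rw [abs_of_nonneg (by linarith)]; linarith
  calc |(-8 : ℝ)| * |t|⁻¹ * |∫ u in t..(2 ^ m * t), A u| ≤ |(-8 : ℝ)| * |t|⁻¹ * 1 := by gcongr
    _ = 8 * |t|⁻¹ := by norm_num

/-- the kernel is `1/t` up to a bounded error -/
lemma abs_K_sub_le (m : ℕ) {t : ℝ} (h1 : 1 ≤ 2 ^ m * |t|) (h2 : |t| ≤ 1) :
    |K m t - t⁻¹| ≤ 8 := by
  have ht : t ≠ 0 := by rintro rfl; simp at h1; linarith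
  rw [K_eq m ht]
  rcases lt_or_gt_of_ne ht with h | h
  · rw [abs_of_neg h] at h1 h2
    have e1 : ∫ u in t..(2 ^ m * t), A u = -(1 / 8) + ∫ u in t..(0 : ℝ), A u := by
      have e2 := intervalIntegral.integral_add_adjacent_intervals (ii_A (-1) t) (ii_A t 0)
      rw [integral_A_neg] at e2
      rw [← intervalIntegral.integral_add_adjacent_intervals (ii_A t (-1)) (ii_A (-1) _),
          intervalIntegral.integral_symm (2 ^ m * t) (-1),
          integral_A_far_neg (a := 2 ^ m * t) (b := -1) le_rfl (by linarith),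
          intervalIntegral.integral_symm (-1) t]
      linarith
    have e3 : |∫ u in t..(0 : ℝ), A u| ≤ -t := by
      refine (norm_integral_A_le _ _).trans ?_
      rw [zero_sub, abs_of_pos (by linarith)]
    rw [e1, show -8 * t⁻¹ * (-(1 / 8) + ∫ u in t..(0 : ℝ), A u) - t⁻¹ =
      -8 * t⁻¹ * ∫ u in t..(0 : ℝ), A u by ring, abs_mul, abs_mul, abs_inv, abs_of_neg h]
    calc |(-8 : ℝ)| * (-t)⁻¹ * |∫ u in t..(0 : ℝ), A u| ≤ |(-8 : ℝ)| * (-t)⁻¹ * (-t) := by
          have : 0 ≤ (-t)⁻¹ := inv_nonneg.mpr (by linarith)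
          gcongr
      _ = 8 := by
          rw [mul_assoc, inv_mul_cancel₀ (by linarith)]; norm_num
  · rw [abs_of_pos h] at h1 h2
    have e1 : ∫ u in t..(2 ^ m * t), A u = -1 / 8 - ∫ u in (0 : ℝ)..t, A u := by
      have e2 := intervalIntegral.integral_add_adjacent_intervals (ii_A 0 t) (ii_A t 1)
      rw [integral_A_pos] at e2
      rw [← intervalIntegral.integral_add_adjacent_intervals (ii_A t 1) (ii_A 1 _),
          integral_A_far_pos le_rfl (by linarith)]
      linarith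
    have e3 : |∫ u in (0 : ℝ)..t, A u| ≤ t := by
      refine (norm_integral_A_le _ _).trans ?_
      rw [sub_zero, abs_of_pos h]
    rw [e1, show -8 * t⁻¹ * (-1 / 8 - ∫ u in (0 : ℝ)..t, A u) - t⁻¹ =
      8 * t⁻¹ * ∫ u in (0 : ℝ)..t, A u by ring, abs_mul, abs_mul, abs_inv, abs_of_pos h]
    calc |(8 : ℝ)| * t⁻¹ * |∫ u in (0 : ℝ)..t, A u| ≤ |(8 : ℝ)| * t⁻¹ * t := by gcongr
      _ = 8 := by rw [mul_assoc, inv_mul_cancel₀ h.ne']; norm_num

end Crest.Agent.R100.Haar403
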