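import Crest.Agent.R100.Hunt_933

/-!
# R100 / S0132, helper933: HUNT, final theorem
-/

set_option autoImplicit false

open MeasureTheory Set
open scoped ENNReal

noncomputable section

namespace Crest.Agent.R100.Hunt933

open Crest.Agent.R100.Mart933 Crest.Agent.R100.Wide933

section main

variable {f : ℝ → ℂ} {al ε : ℕ → ℤ → Prop} {n : ℕ}

theorem int_sq_le (hf : Measurable f) (hn : ∀ x, ‖f x‖ ≤ 2 ^ n) (i : ℤ) :
    ∫ x in Ivl 0 i, ‖f x‖ ^ 2 ≤ 2 ^ n * ∫ x in Ivl 0 i, ‖f x‖ := by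
  rw [← integral_const_mul]
  apply integral_mono
  · apply intOn 0 i (hf.norm.pow_const 2) (M := ((2 : ℝ) ^ n) ^ 2)
    intro x
    rw [Real.norm_eq_abs, abs_of_nonneg (by positivity)]
    have := hn x
    gcongr
  · exact (intOn 0 i hf.norm (M := 2 ^ n) (fun x => by simpa using hn x)).const_mul _
  · intro x
    have h1 := hn x
    have h2 := norm_nonneg (f x)
    change ‖f x‖ ^ 2 ≤ 2 ^ n * ‖f x‖
    nlinarith

theorem Bj_pos (n t j : ℕ) : 0 < Bj n t j := by unfold Bj; positivity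

theorem int_cnt_le (hf : Measurable f) (hn : ∀ x, ‖f x‖ ≤ 2 ^ n) (Θ : Finset ℝ) (t j m : ℕ)
    (i : ℤ) : ∫ x in Ivl 0 i, cnt Θ (Hv f (dj j)) (Bj n t j) m x ≤
      8 * 4 ^ j * 2 ^ n * ∫ x in Ivl 0 i, ‖f x‖ := by
  have h1 := bessel (Θ := Θ) (B := Bj n t j) hf hn (δ := dj j) (by unfold dj; positivity)
    (Bj_pos n t j) i m
  refine h1.trans ?_
  have h2 := int_sq_le hf hn i
  have e1 : 2 * (dj j)⁻¹ ^ 2 = 8 * 4 ^ j := by
    unfold dj
    have e2 : (((1 : ℝ) / 2) ^ (j + 1))⁻¹ = 2 ^ (j + 1) := by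
      rw [one_div, inv_pow, inv_inv]
    rw [e2, ← pow_mul, show (4 : ℝ) = 2 ^ 2 by norm_num, ← pow_mul,
      show (j + 1) * 2 = 2 * j + 2 by ring, pow_add]
    ring
  rw [e1]
  calc 8 * 4 ^ j * ∫ x in Ivl 0 i, ‖f x‖ ^ 2 ≤ 8 * 4 ^ j * (2 ^ n * ∫ x in Ivl 0 i, ‖f x‖) := by
        gcongr
    _ = _ := by ring

theorem lint_cnt_le (hf : Measurable f) (hn : ∀ x, ‖f x‖ ≤ 2 ^ n) (Θ : Finset ℝ) (t j m : ℕ)
    (i : ℤ) : ∫⁻ x in Ivl 0 i, ENNReal.ofReal (cnt Θ (Hv f (dj j)) (Bj n t j) m x) ≤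
      ENNReal.ofReal (8 * 4 ^ j * 2 ^ n * ∫ x in Ivl 0 i, ‖f x‖) := by
  rw [← ofReal_integral_eq_lintegral_ofReal (intOn_cnt m 0 i)
    (Filter.Eventually.of_forall fun x => cnt_nonneg m x)]
  exact ENNReal.ofReal_le_ofReal (int_cnt_le hf hn Θ t j m i)

theorem exp_neg_nat_le (k : ℕ) : Real.exp (-(k : ℝ)) ≤ (1 / 2) ^ k := by
  have h1 : Real.exp (-1) ≤ 1 / 2 := by
    rw [Real.exp_neg, inv_le_comm₀ (Real.exp_pos _) (by norm_num)]
    have := Real.add_one_le_exp (1 : ℝ)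
    norm_num at this ⊢
    linarith
  have h2 : Real.exp (-(k : ℝ)) = Real.exp (-1) ^ k := by
    rw [← Real.exp_nat_mul]; congr 1; ring
  rw [h2]
  gcongr

theorem quarter_le_exp (t : ℕ) : ((4 : ℝ) ^ t)⁻¹ ≤ Real.exp (-(t : ℝ)) := by
  have h2 : Real.exp (t : ℝ) = Real.exp 1 ^ t := by
    rw [← Real.exp_nat_mul]; congr 1; ring
  rw [Real.exp_neg, h2]
  have h3 : Real.exp 1 ≤ 4 := by
    have := Real.exp_one_lt_d9
    linarith
  apply inv_anti₀ (by positivity)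
  gcongr

theorem meas_XX (hf : Measurable f) (hn : ∀ x, ‖f x‖ ≤ 2 ^ n) (Θ : Finset ℝ) (t j m : ℕ)
    (i : ℤ) : volume (Ivl 0 i ∩ XX f Θ n t j m) ≤
      ENNReal.ofReal (8 * (1 / 2) ^ j * Real.exp (-t) * ∫ x in Ivl 0 i, ‖f x‖) := by
  have hmeas : Measurable fun x => ENNReal.ofReal (cnt Θ (Hv f (dj j)) (Bj n t j) m x) :=
    (measurable_cnt m).ennreal_ofReal
  have hB0 : (0 : ℝ) < Bj n t j := by exact_mod_cast Bj_pos n t j
  have hM := mul_meas_ge_le_lintegral (μ := volume.restrict (Ivl 0 i)) hmeas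
    (ENNReal.ofReal (Bj n t j))
  have hM2 := hM.trans (lint_cnt_le hf hn Θ t j m i)
  have hsub : volume (Ivl 0 i ∩ XX f Θ n t j m) ≤ (volume.restrict (Ivl 0 i))
      {x | ENNReal.ofReal (Bj n t j) ≤
        ENNReal.ofReal (cnt Θ (Hv f (dj j)) (Bj n t j) m x)} := by
    rw [Measure.restrict_apply (measurableSet_le measurable_const hmeas)]
    apply measure_mono
    rintro x ⟨h1, h2⟩
    exact ⟨ENNReal.ofReal_le_ofReal h2, h1⟩
  have hI : 0 ≤ ∫ x in Ivl 0 i, ‖f x‖ := integral_nonneg fun x => norm_nonneg _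
  set μf := ∫ x in Ivl 0 i, ‖f x‖ with hμf
  have hE : ENNReal.ofReal ((Bj n t j : ℝ)⁻¹) * ENNReal.ofReal (Bj n t j) = 1 := by
    rw [← ENNReal.ofReal_mul (by positivity), inv_mul_cancel₀ hB0.ne', ENNReal.ofReal_one]
  calc volume (Ivl 0 i ∩ XX f Θ n t j m) ≤ _ := hsub
    _ = ENNReal.ofReal ((Bj n t j : ℝ)⁻¹) * (ENNReal.ofReal (Bj n t j) *
        (volume.restrict (Ivl 0 i)) {x | ENNReal.ofReal (Bj n t j) ≤
        ENNReal.ofReal (cnt Θ (Hv f (dj j)) (Bj n t j) m x)}) := by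
        rw [← mul_assoc, hE, one_mul]
    _ ≤ ENNReal.ofReal ((Bj n t j : ℝ)⁻¹) * ENNReal.ofReal (8 * 4 ^ j * 2 ^ n * μf) :=
        mul_le_mul' le_rfl hM2
    _ = ENNReal.ofReal (8 * (1 / 2) ^ j * ((4 : ℝ) ^ t)⁻¹ * μf) := by
        rw [← ENNReal.ofReal_mul (by positivity)]
        congr 1
        unfold Bj
        push_cast
        rw [pow_add, pow_add, pow_mul, pow_mul, one_div_pow]
        norm_num
        have e8 : (8 : ℝ) ^ j = 4 ^ j * 2 ^ j := by rw [← mul_pow]; norm_num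
        rw [e8]
        field_simp
    _ ≤ _ := by
        apply ENNReal.ofReal_le_ofReal
        have := quarter_le_exp t
        gcongr

open Classical in
theorem sum_nw {Θ : Finset ℝ} {H : ℕ → ℤ → ℝ → Prop} {B : ℕ} (m : ℕ) (x : ℝ) :
    ∑ k ∈ Finset.range (m + 1), ((nw Θ H B k (fl k x)).card : ℝ) = cnt Θ H B m x := by
  induction m with
  | zero =>
    simp only [zero_add, Finset.range_one, Finset.sum_singleton, cnt, card_up]
    simp [par]
  | succ m ih =>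
    rw [Finset.sum_range_succ, ih]
    have h1 : cnt Θ H B (m + 1) x = (par Θ H B (m + 1) (fl (m + 1) x)).card +
        (nw Θ H B (m + 1) (fl (m + 1) x)).card := by
      unfold cnt
      rw [card_up]
      push_cast
      rfl
    have h2 : par Θ H B (m + 1) (fl (m + 1) x) = up Θ H B m (fl m x) := by
      rw [fl_half m x]; rfl
    rw [h1, h2]
    rfl

/-- the bad event at the tops of level `k` -/
def Pk (f : ℝ → ℂ) (ε : ℕ → ℤ → Prop) (Θ : Finset ℝ) (n t j m k : ℕ) (x : ℝ) : Prop :=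
  ∃ θ' ∈ nw Θ (Hv f (dj j)) (Bj n t j) k (fl k x), ∃ K, k ≤ K ∧ K ≤ m ∧
    lam n t j < ‖SS (coef f θ') (sw f ε j θ') k K x‖

theorem node_Pk (hf : Measurable f) (hn : ∀ x, ‖f x‖ ≤ 2 ^ n)
    (hcl : ∀ k j, al (k + 1) j → al k (j / 2))
    (hal : ∀ k j, al k j → avN f k j ≤ 1) (hea : ∀ k j, ε k j → al k j)
    (Θ : Finset ℝ) (t j m k : ℕ) (i : ℤ) :
    volume {x ∈ Ivl k i | Pk f ε Θ n t j m k x} ≤
      ∫⁻ x in Ivl k i, ENNReal.ofReal (6 * Real.exp (-(LL n t j))) *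
        ENNReal.ofReal ((nw Θ (Hv f (dj j)) (Bj n t j) k (fl k x)).card : ℝ) := by
  set p := ENNReal.ofReal (6 * Real.exp (-(LL n t j))) with hp
  set N := nw Θ (Hv f (dj j)) (Bj n t j) k i with hN
  have e1 : ∫⁻ x in Ivl k i, p *
        ENNReal.ofReal ((nw Θ (Hv f (dj j)) (Bj n t j) k (fl k x)).card : ℝ) =
      (N.card : ℝ≥0∞) * (p * volume (Ivl k i)) := by
    have : ∀ x ∈ Ivl k i, p *
        ENNReal.ofReal ((nw Θ (Hv f (dj j)) (Bj n t j) k (fl k x)).card : ℝ) =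
        p * (N.card : ℝ≥0∞) := by
      intro x hx
      rw [mem_Ivl] at hx
      rw [hx, ENNReal.ofReal_natCast]
    rw [setLIntegral_congr_fun (measurableSet_Ivl k i) this, setLIntegral_const]
    ring
  rw [e1]
  have hsub : {x ∈ Ivl k i | Pk f ε Θ n t j m k x} ⊆ ⋃ θ' ∈ N,
      {x ∈ Ivl k i | ∃ K, k ≤ K ∧ K ≤ m ∧
        lam n t j < ‖SS (coef f θ') (sw f ε j θ') k K x‖} := by
    rintro x ⟨hx, θ', h1, h2⟩
    have hfl := mem_Ivl.1 hx
    rw [hfl] at h1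
    simp only [mem_iUnion]
    exact ⟨θ', h1, hx, h2⟩
  refine (measure_mono hsub).trans ((measure_biUnion_finset_le _ _).trans ?_)
  have hone : ∀ θ' ∈ N, volume {x ∈ Ivl k i | ∃ K, k ≤ K ∧ K ≤ m ∧
        lam n t j < ‖SS (coef f θ') (sw f ε j θ') k K x‖} ≤ p * volume (Ivl k i) := by
    intro θ' _
    have h := tail_SS_alive (Rj_pos j) (isMart_coef hf hn θ') hcl (bound_children hf hn hal θ')
      (ε := sw f ε j θ') (fun k j h => hea k j h.1) (fun k j h => h.2) k m i (lam_pos n t j)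
    rwa [lam_div] at h
  calc _ ≤ ∑ _θ' ∈ N, p * volume (Ivl k i) := Finset.sum_le_sum hone
    _ = _ := by rw [Finset.sum_const, nsmul_eq_mul]

theorem meas_EE (hf : Measurable f) (hn : ∀ x, ‖f x‖ ≤ 2 ^ n)
    (hcl : ∀ k j, al (k + 1) j → al k (j / 2))
    (hal : ∀ k j, al k j → avN f k j ≤ 1) (hea : ∀ k j, ε k j → al k j)
    (Θ : Finset ℝ) (t j m : ℕ) (i : ℤ) :
    volume (Ivl 0 i ∩ EE f ε Θ n t j m) ≤
      ENNReal.ofReal (48 * (1 / 2) ^ j * Real.exp (-t) * ∫ x in Ivl 0 i, ‖f x‖) := by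
  set p := ENNReal.ofReal (6 * Real.exp (-(LL n t j))) with hp
  set B := Bj n t j with hB
  have hsub : Ivl 0 i ∩ EE f ε Θ n t j m ⊆ ⋃ k ∈ Finset.range (m + 1),
      {x ∈ Ivl 0 i | Pk f ε Θ n t j m k x} := by
    rintro x ⟨hx, k, hk, h⟩
    simp only [mem_iUnion, Finset.mem_range]
    exact ⟨k, by omega, hx, h⟩
  have hlev : ∀ k ∈ Finset.range (m + 1), volume {x ∈ Ivl 0 i | Pk f ε Θ n t j m k x} ≤
      ∫⁻ x in Ivl 0 i, p * ENNReal.ofReal ((nw Θ (Hv f (dj j)) B k (fl k x)).card : ℝ) := by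
    intro k _
    apply node_to_root_meas k 0
    intro i'
    rw [Nat.zero_add]
    exact node_Pk hf hn hcl hal hea Θ t j m k i'
  have hmk : ∀ k, Measurable fun x => p *
      ENNReal.ofReal ((nw Θ (Hv f (dj j)) B k (fl k x)).card : ℝ) := fun k =>
    measurable_fl_comp k (fun i' => p * ENNReal.ofReal ((nw Θ (Hv f (dj j)) B k i').card : ℝ))
  have hI : 0 ≤ ∫ x in Ivl 0 i, ‖f x‖ := integral_nonneg fun x => norm_nonneg _
  calc volume (Ivl 0 i ∩ EE f ε Θ n t j m)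
      ≤ ∑ k ∈ Finset.range (m + 1), volume {x ∈ Ivl 0 i | Pk f ε Θ n t j m k x} :=
        (measure_mono hsub).trans (measure_biUnion_finset_le _ _)
    _ ≤ ∑ k ∈ Finset.range (m + 1), ∫⁻ x in Ivl 0 i, p *
          ENNReal.ofReal ((nw Θ (Hv f (dj j)) B k (fl k x)).card : ℝ) := Finset.sum_le_sum hlev
    _ = ∫⁻ x in Ivl 0 i, ∑ k ∈ Finset.range (m + 1), p *
          ENNReal.ofReal ((nw Θ (Hv f (dj j)) B k (fl k x)).card : ℝ) := by
        rw [lintegral_finsetSum _ (fun k _ => hmk k)]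
    _ = ∫⁻ x in Ivl 0 i, p * ENNReal.ofReal (cnt Θ (Hv f (dj j)) B m x) := by
        apply lintegral_congr
        intro x
        rw [← Finset.mul_sum, ← ENNReal.ofReal_sum_of_nonneg (fun k _ => by positivity), sum_nw]
    _ = p * ∫⁻ x in Ivl 0 i, ENNReal.ofReal (cnt Θ (Hv f (dj j)) B m x) := by
        rw [lintegral_const_mul' _ _ ENNReal.ofReal_ne_top]
    _ ≤ p * ENNReal.ofReal (8 * 4 ^ j * 2 ^ n * ∫ x in Ivl 0 i, ‖f x‖) :=
        mul_le_mul' le_rfl (lint_cnt_le hf hn Θ t j m i)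
    _ ≤ _ := by
        rw [hp, ← ENNReal.ofReal_mul (by positivity)]
        apply ENNReal.ofReal_le_ofReal
        have h1 : Real.exp (-(LL n t j)) ≤ Real.exp (-t) * (1 / 2) ^ (n + 3 * j) := by
          have h2 := exp_neg_nat_le (n + 3 * j)
          calc Real.exp (-(LL n t j)) ≤ Real.exp (-t) * Real.exp (-((n + 3 * j : ℕ) : ℝ)) := by
                rw [← Real.exp_add]
                apply Real.exp_le_exp.2
                unfold LL
                push_cast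
                linarith
            _ ≤ _ := by gcongr
        have h3 : (1 / 2 : ℝ) ^ (n + 3 * j) * (4 ^ j * 2 ^ n) = (1 / 2) ^ j := by
          rw [pow_add, pow_mul, one_div_pow, one_div_pow, one_div_pow, one_div_pow]
          norm_num
          have e8 : (8 : ℝ) ^ j = 4 ^ j * 2 ^ j := by rw [← mul_pow]; norm_num
          rw [e8]
          field_simp
        calc 6 * Real.exp (-(LL n t j)) * (8 * 4 ^ j * 2 ^ n * ∫ x in Ivl 0 i, ‖f x‖)
            ≤ 6 * (Real.exp (-t) * (1 / 2) ^ (n + 3 * j)) *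
              (8 * 4 ^ j * 2 ^ n * ∫ x in Ivl 0 i, ‖f x‖) := by gcongr
          _ = 48 * ((1 / 2 : ℝ) ^ (n + 3 * j) * (4 ^ j * 2 ^ n)) * Real.exp (-t) *
              ∫ x in Ivl 0 i, ‖f x‖ := by ring
          _ = _ := by rw [h3]

/-- potential for the sum of the block bounds -/
def pot (n t j : ℕ) : ℝ := 60 * rr ^ j * (4 * LL n t j + 30)

theorem pot_step (n t j : ℕ) : 60 * rr ^ j * LL n t j + pot n t (j + 1) ≤ pot n t j := by
  unfold pot
  have h1 := rr_le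
  have h2 := rr_pos
  have h3 := one_le_LL n t j
  have h4 : LL n t (j + 1) = LL n t j + 3 := by unfold LL; push_cast; ring
  have h5 : 0 < rr ^ j := pow_pos h2 j
  rw [h4, pow_succ]
  have h6 : rr * (4 * (LL n t j + 3) + 30) ≤ 0.7072 * (4 * (LL n t j + 3) + 30) := by
    apply mul_le_mul_of_nonneg_right h1
    linarith
  have h7 : LL n t j + rr * (4 * (LL n t j + 3) + 30) ≤ 4 * LL n t j + 30 := by linarith
  nlinarith [mul_le_mul_of_nonneg_left h7 h5.le]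

/-- telescoping over the size levels -/
theorem telescope (hf : Measurable f) (hn : ∀ x, ‖f x‖ ≤ 2 ^ n)
    (hal : ∀ k j, al k j → avN f k j ≤ 1) (hea : ∀ k j, ε k j → al k j) {Θ : Finset ℝ}
    {t m j₀ J : ℕ} {x : ℝ} (hX : ∀ j, j₀ ≤ j → j < J → x ∉ XX f Θ n t j m)
    (hE : ∀ j, j₀ ≤ j → j < J → x ∉ EE f ε Θ n t j m) {θ : ℝ} (hθ : θ ∈ Θ) (d : ℕ) :
    ∀ j, j₀ ≤ j → j + d = J → ∀ K ≤ m, (∀ l < K, ε l (fl l x) →
      ‖coef f θ l (fl l x)‖ ≤ 2 * (1 / 2) ^ j ∧ ‖hd (coef f θ) l (fl l x)‖ ≤ 2 * (1 / 2) ^ j) →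
      ‖SS (coef f θ) ε 0 K x‖ ≤ pot n t j + m * (2 * (1 / 2) ^ J) := by
  classical
  induction d with
  | zero =>
    intro j _ hjJ K hK hs
    have hjJ' : j = J := by omega
    subst hjJ'
    have h1 := norm_SS_le_of (coef f θ) (isMart_coef hf hn θ) ε (Nat.zero_le K)
      (x := x) (c := 2 * (1 / 2) ^ j) (by positivity) (fun l _ h2 h3 => (hs l h2 h3).2)
    have h2 : 0 ≤ pot n t j := by
      have := rr_pos
      have := LL_pos n t j
      unfold pot; positivity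
    have h3 : (K : ℝ) ≤ m := by exact_mod_cast hK
    calc ‖SS (coef f θ) ε 0 K x‖ ≤ ((K : ℝ) - (0 : ℕ)) * (2 * (1 / 2) ^ j) := h1
      _ ≤ m * (2 * (1 / 2) ^ j) := by
          apply mul_le_mul_of_nonneg_right _ (by positivity)
          push_cast; linarith
      _ ≤ _ := by linarith
  | succ d ih =>
    intro j hj hjJ K hK hs
    have ih' := ih (j + 1) (by omega) (by omega)
    have hst := pot_step n t j
    have hb0 : 0 ≤ 60 * rr ^ j * LL n t j := by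
      have := rr_pos
      have := LL_pos n t j
      positivity
    by_cases hex : ∃ l, l < K ∧ ε l (fl l x) ∧
        ((1 / 2) ^ j ≤ ‖coef f θ l (fl l x)‖ ∨ (1 / 2) ^ j ≤ ‖hd (coef f θ) l (fl l x)‖)
    · set κ := Nat.find hex with hκ
      obtain ⟨k1, k2, k3⟩ := Nat.find_spec hex
      have kmin : ∀ l < κ, ε l (fl l x) → ‖coef f θ l (fl l x)‖ ≤ 2 * (1 / 2) ^ (j + 1) ∧
          ‖hd (coef f θ) l (fl l x)‖ ≤ 2 * (1 / 2) ^ (j + 1) := by
        intro l hl hε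
        have h1 := Nat.find_min hex hl
        have h2 : ¬ ((1 / 2) ^ j ≤ ‖coef f θ l (fl l x)‖ ∨
            (1 / 2) ^ j ≤ ‖hd (coef f θ) l (fl l x)‖) := fun h => h1 ⟨by omega, hε, h⟩
        push Not at h2
        have e : (2 : ℝ) * (1 / 2) ^ (j + 1) = (1 / 2) ^ j := by rw [pow_succ]; ring
        rw [e]
        exact ⟨h2.1.le, h2.2.le⟩
      have b1 := ih' κ (by omega) kmin
      have b2 := block hf hn hal hea (hX j hj (by omega)) (hE j hj (by omega)) hθ k1 hK k3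
        (fun q _ h2 h3 => hs q h2 h3)
      rw [← SS_add (coef f θ) ε (Nat.zero_le κ) (le_of_lt k1) x]
      refine (norm_add_le _ _).trans ?_
      linarith
    · have h1 : ∀ l < K, ε l (fl l x) → ‖coef f θ l (fl l x)‖ ≤ 2 * (1 / 2) ^ (j + 1) ∧
          ‖hd (coef f θ) l (fl l x)‖ ≤ 2 * (1 / 2) ^ (j + 1) := by
        intro l hl hε
        have h2 : ¬ ((1 / 2) ^ j ≤ ‖coef f θ l (fl l x)‖ ∨
            (1 / 2) ^ j ≤ ‖hd (coef f θ) l (fl l x)‖) := fun h => hex ⟨l, hl, hε, h⟩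
        push Not at h2
        have e : (2 : ℝ) * (1 / 2) ^ (j + 1) = (1 / 2) ^ j := by rw [pow_succ]; ring
        rw [e]
        exact ⟨h2.1.le, h2.2.le⟩
      have b1 := ih' K hK h1
      linarith

/-- **HUNT.** On a fixed dyadic grid, for `|f| ≤ 2^n`, alive nodes (closed under parents) with
averages of `|f|` at most `1`, any predictable switch `ε ⊆ al`, and a finite set of frequencies:
outside a set of measure `≤ 112 e^{-t} ∫|f|`, every partial signed sum along scales where the local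
coefficients are `≤ 2 · 2^{-j₀}` is at most `2041 · 2^{-j₀/2} (n + t + 3 j₀ + 1)`. -/
theorem hunt (hf : Measurable f) (hn : ∀ x, ‖f x‖ ≤ 2 ^ n)
    (hcl : ∀ k j, al (k + 1) j → al k (j / 2))
    (hal : ∀ k j, al k j → avN f k j ≤ 1) (hea : ∀ k j, ε k j → al k j)
    (Θ : Finset ℝ) (i : ℤ) (m t j₀ : ℕ) :
    ∃ E : Set ℝ, MeasurableSet E ∧
      volume E ≤ ENNReal.ofReal (112 * Real.exp (-t) * ∫ x in Ivl 0 i, ‖f x‖) ∧
      ∀ x ∈ Ivl 0 i, x ∉ E → ∀ θ ∈ Θ, ∀ K ≤ m, (∀ l < K, ε l (fl l x) →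
        ‖coef f θ l (fl l x)‖ ≤ 2 * (1 / 2) ^ j₀ ∧
        ‖hd (coef f θ) l (fl l x)‖ ≤ 2 * (1 / 2) ^ j₀) →
        ‖SS (coef f θ) ε 0 K x‖ ≤ 2041 * rr ^ j₀ * (n + t + 3 * j₀ + 1) := by
  classical
  -- choose J
  obtain ⟨J, hJ0, hJ⟩ : ∃ J, j₀ ≤ J ∧ (m : ℝ) * (2 * (1 / 2) ^ J) ≤ rr ^ j₀ := by
    have h1 : Filter.Tendsto (fun J : ℕ => (m : ℝ) * (2 * (1 / 2 : ℝ) ^ J)) Filter.atTop
        (nhds ((m : ℝ) * (2 * 0))) :=
      ((tendsto_pow_atTop_nhds_zero_of_lt_one (by norm_num) (by norm_num)).const_mul 2).const_mul _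
    rw [mul_zero, mul_zero] at h1
    have h2 := h1.eventually (ge_mem_nhds (pow_pos rr_pos j₀))
    obtain ⟨J, h3, h4⟩ := (h2.and (Filter.eventually_ge_atTop j₀)).exists
    exact ⟨J, h4, h3⟩
  have hI : 0 ≤ ∫ x in Ivl 0 i, ‖f x‖ := integral_nonneg fun x => norm_nonneg _
  set μf := ∫ x in Ivl 0 i, ‖f x‖ with hμf
  set E0 : Set ℝ := ⋃ j ∈ Finset.Ico j₀ J,
    ((Ivl 0 i ∩ XX f Θ n t j m) ∪ (Ivl 0 i ∩ EE f ε Θ n t j m)) with hE0
  have hE0m : volume E0 ≤ ENNReal.ofReal (112 * Real.exp (-t) * μf) := by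
    calc volume E0 ≤ ∑ j ∈ Finset.Ico j₀ J,
          volume ((Ivl 0 i ∩ XX f Θ n t j m) ∪ (Ivl 0 i ∩ EE f ε Θ n t j m)) :=
          measure_biUnion_finset_le _ _
      _ ≤ ∑ j ∈ Finset.Ico j₀ J, ENNReal.ofReal (56 * Real.exp (-t) * μf * (1 / 2 ^ j)) := by
          refine Finset.sum_le_sum fun j _ => ?_
          refine (measure_union_le _ _).trans ((add_le_add (meas_XX hf hn Θ t j m i)
            (meas_EE hf hn hcl hal hea Θ t j m i)).trans ?_)
          rw [← ENNReal.ofReal_add (by positivity) (by positivity), one_div_pow]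
          apply ENNReal.ofReal_le_ofReal
          apply le_of_eq
          ring
      _ = ENNReal.ofReal (∑ j ∈ Finset.Ico j₀ J, 56 * Real.exp (-t) * μf * (1 / 2 ^ j)) := by
          rw [ENNReal.ofReal_sum_of_nonneg (fun j _ => by positivity)]
      _ ≤ _ := by
          apply ENNReal.ofReal_le_ofReal
          refine (sum_geom_le (by positivity) _ _).trans ?_
          have h1 : (1 : ℝ) / 2 ^ j₀ ≤ 1 := by
            rw [div_le_one (by positivity)]
            exact one_le_pow₀ (by norm_num)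
          calc 2 * (56 * Real.exp (-t) * μf) * (1 / 2 ^ j₀) ≤
              2 * (56 * Real.exp (-t) * μf) * 1 := by gcongr
            _ = _ := by ring
  refine ⟨toMeasurable volume E0, measurableSet_toMeasurable _ _, ?_, ?_⟩
  · rw [measure_toMeasurable]; exact hE0m
  · intro x hx hxE θ hθ K hK hs
    have hx0 : x ∉ E0 := fun h => hxE (subset_toMeasurable _ _ h)
    have hX : ∀ j, j₀ ≤ j → j < J → x ∉ XX f Θ n t j m := by
      intro j h1 h2 h3
      apply hx0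
      rw [hE0]
      simp only [mem_iUnion, Finset.mem_Ico]
      exact ⟨j, ⟨h1, h2⟩, Or.inl ⟨hx, h3⟩⟩
    have hEE : ∀ j, j₀ ≤ j → j < J → x ∉ EE f ε Θ n t j m := by
      intro j h1 h2 h3
      apply hx0
      rw [hE0]
      simp only [mem_iUnion, Finset.mem_Ico]
      exact ⟨j, ⟨h1, h2⟩, Or.inr ⟨hx, h3⟩⟩
    obtain ⟨d, hd'⟩ := Nat.exists_eq_add_of_le hJ0
    have h1 := telescope hf hn hal hea hX hEE hθ d j₀ le_rfl hd'.symm K hK hs
    refine h1.trans ?_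
    have h2 := one_le_LL n t j₀
    have h3 : 0 < rr ^ j₀ := pow_pos rr_pos j₀
    have e : (n : ℝ) + t + 3 * j₀ + 1 = LL n t j₀ := rfl
    rw [e]
    unfold pot
    have h4 : rr ^ j₀ ≤ rr ^ j₀ * LL n t j₀ := by nlinarith
    nlinarith

end main

end Crest.Agent.R100.Hunt933
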