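import Crest.Agent.R100.WideTops_933

/-!
# R100 / S0132, helper933: HUNT (exponential bound on a fixed grid), leaf M5

The part of the model operator where the local coefficients are `< 2^{1-j₀}` is
`O(2^{-j₀/2} (n + j₀ + t))` outside a set of measure `O(e^{-t} ∫|f|)`.
-/

set_option autoImplicit false

open MeasureTheory Set
open scoped ENNReal

noncomputable section

namespace Crest.Agent.R100.Hunt933

open Crest.Agent.R100.Mart933 Crest.Agent.R100.Wide933

/-! ## comparison of two frequencies -/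

theorem norm_e_sub_le (u x y : ℝ) : ‖e u y - e u x‖ ≤ 2 * Real.pi * |u| * |y - x| := by
  have h1 : e u y - e u x = e u x * (e u (y - x) - 1) := by
    have : e u y = e u x * e u (y - x) := by
      unfold e
      rw [← Complex.exp_add]
      congr 1
      push_cast
      ring
    rw [this]; ring
  rw [h1, norm_mul, norm_e, one_mul]
  have h2 : e u (y - x) = Complex.exp (Complex.I * ((2 * Real.pi * (u * (y - x)) : ℝ) : ℂ)) := by
    unfold e
    rw [mul_comm]
  rw [h2]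
  refine Real.norm_exp_I_mul_ofReal_sub_one_le.trans (le_of_eq ?_)
  rw [Real.norm_eq_abs, abs_mul, abs_of_pos (by positivity : (0 : ℝ) < 2 * Real.pi), abs_mul]
  ring

theorem e_neg_sub (θ θ' y : ℝ) : e (-θ) y = e (-θ') y * e (-(θ - θ')) y := by
  rw [← e_add]; congr 1; ring

theorem dist_Ivl {k : ℕ} {j : ℤ} {x y : ℝ} (hx : x ∈ Ivl k j) (hy : y ∈ Ivl k j) :
    |y - x| ≤ 1 / 2 ^ k := by
  unfold Ivl at hx hy
  rw [mem_Ico] at hx hy
  have h0 : (0 : ℝ) < 2 ^ k := by positivity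
  have e1 : ((j : ℝ) + 1) / 2 ^ k = (j : ℝ) / 2 ^ k + 1 / 2 ^ k := by ring
  rw [e1] at hx hy
  rw [abs_le]
  constructor <;> linarith [hx.1, hx.2, hy.1, hy.2]

/-- comparison of local coefficients at two frequencies -/
theorem coef_compare {f : ℝ → ℂ} (hf : Measurable f) {M : ℝ} (hM : ∀ x, ‖f x‖ ≤ M)
    (θ θ' : ℝ) {k : ℕ} {j : ℤ} {x : ℝ} (hx : x ∈ Ivl k j) :
    ‖coef f θ k j - e (-(θ - θ')) x * coef f θ' k j‖ ≤
      2 * Real.pi * |θ - θ'| * (1 / 2 ^ k) * avN f k j := by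
  set u := θ - θ' with hu
  have h0 : (0 : ℝ) < 2 ^ k := by positivity
  have e1 : coef f θ k j - e (-u) x * coef f θ' k j =
      (2 : ℂ) ^ k * ∫ y in Ivl k j, f y * e (-θ') y * (e (-u) y - e (-u) x) := by
    unfold coef
    have i1 := integrable_fe hf hM (-θ) k j
    have i2 : IntegrableOn (fun y => e (-u) x * (f y * e (-θ') y)) (Ivl k j) :=
      (integrable_fe hf hM (-θ') k j).const_mul _
    have h : ∫ y in Ivl k j, f y * e (-θ') y * (e (-u) y - e (-u) x) =
        (∫ y in Ivl k j, f y * e (-θ) y) - ∫ y in Ivl k j, e (-u) x * (f y * e (-θ') y) := by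
      rw [← integral_sub i1 i2]
      congr 1
      ext y
      rw [e_neg_sub θ θ' y]
      ring
    rw [h, integral_const_mul]
    ring
  rw [e1, norm_mul, norm_pow, Complex.norm_ofNat]
  have h2 : ‖∫ y in Ivl k j, f y * e (-θ') y * (e (-u) y - e (-u) x)‖ ≤
      2 * Real.pi * |u| * (1 / 2 ^ k) * ∫ y in Ivl k j, ‖f y‖ := by
    refine (norm_integral_le_integral_norm _).trans ?_
    rw [← integral_const_mul]
    apply integral_mono_of_nonneg
    · exact Filter.Eventually.of_forall fun y => norm_nonneg _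
    · exact (intOn k j hf.norm (M := M) (fun x => by simpa using hM x)).const_mul _
    · refine (ae_restrict_iff' (measurableSet_Ivl k j)).2 (Filter.Eventually.of_forall ?_)
      intro y hy
      change ‖f y * e (-θ') y * (e (-u) y - e (-u) x)‖ ≤ 2 * Real.pi * |u| * (1 / 2 ^ k) * ‖f y‖
      rw [norm_mul, norm_mul, norm_e, mul_one]
      have h3 := norm_e_sub_le (-u) x y
      rw [abs_neg] at h3
      have h4 := dist_Ivl hx hy
      have hpi := Real.pi_pos
      calc ‖f y‖ * ‖e (-u) y - e (-u) x‖ ≤ ‖f y‖ * (2 * Real.pi * |u| * (1 / 2 ^ k)) := by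
            gcongr
            exact h3.trans (by gcongr)
        _ = _ := by ring
  unfold avN
  calc (2 : ℝ) ^ k * ‖∫ y in Ivl k j, f y * e (-θ') y * (e (-u) y - e (-u) x)‖
      ≤ 2 ^ k * (2 * Real.pi * |u| * (1 / 2 ^ k) * ∫ y in Ivl k j, ‖f y‖) := by gcongr
    _ = _ := by ring

section main

variable {f : ℝ → ℂ} {M : ℝ} {al ε : ℕ → ℤ → Prop}

theorem avN_child_le (hf : Measurable f) (hM : ∀ x, ‖f x‖ ≤ M)
    (hal : ∀ k j, al k j → avN f k j ≤ 1) {k : ℕ} {j : ℤ} (h : al k j) :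
    avN f (k + 1) (2 * j) ≤ 2 ∧ avN f (k + 1) (2 * j + 1) ≤ 2 := by
  have h1 := avN_split hf hM k j
  have h2 := hal k j h
  have h3 := avN_nonneg f (k + 1) (2 * j)
  have h4 := avN_nonneg f (k + 1) (2 * j + 1)
  constructor <;> linarith

theorem avN_succ_le (hf : Measurable f) (hM : ∀ x, ‖f x‖ ≤ M)
    (hal : ∀ k j, al k j → avN f k j ≤ 1) {k : ℕ} {x : ℝ} (h : al k (fl k x)) :
    avN f (k + 1) (fl (k + 1) x) ≤ 2 := by
  have h1 := avN_child_le hf hM hal h
  rcases fl_succ_div k x with h2 | h2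
  · rw [h2]; exact h1.1
  · rw [h2]; exact h1.2

theorem bound_children (hf : Measurable f) (hM : ∀ x, ‖f x‖ ≤ M)
    (hal : ∀ k j, al k j → avN f k j ≤ 1) (θ : ℝ) (k : ℕ) (j : ℤ) (h : al k j) :
    ‖coef f θ k j‖ ≤ 2 ∧ ‖coef f θ (k + 1) (2 * j)‖ ≤ 2 ∧ ‖coef f θ (k + 1) (2 * j + 1)‖ ≤ 2 := by
  have h1 := avN_child_le hf hM hal h
  have h2 := hal k j h
  exact ⟨(norm_coef_le f θ k j).trans (by linarith), (norm_coef_le f θ _ _).trans h1.1,
    (norm_coef_le f θ _ _).trans h1.2⟩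

/-- comparison of the martingale differences at two frequencies -/
theorem dl_compare (hf : Measurable f) (hM : ∀ x, ‖f x‖ ≤ M)
    (hal : ∀ k j, al k j → avN f k j ≤ 1) (θ θ' : ℝ) {k : ℕ} {x : ℝ} (h : al k (fl k x)) :
    ‖dl (coef f θ) k x - e (-(θ - θ')) x * dl (coef f θ') k x‖ ≤
      4 * Real.pi * |θ - θ'| * (1 / 2 ^ k) := by
  have hx : x ∈ Ivl k (fl k x) := mem_Ivl.2 rfl
  have hx' : x ∈ Ivl (k + 1) (fl (k + 1) x) := mem_Ivl.2 rfl
  have c1 := coef_compare hf hM θ θ' hx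
  have c2 := coef_compare hf hM θ θ' hx'
  have a1 := hal _ _ h
  have a2 := avN_succ_le hf hM hal h
  have hpi := Real.pi_pos
  have hu := abs_nonneg (θ - θ')
  have h0 : (0 : ℝ) < 1 / 2 ^ k := by positivity
  have e1 : dl (coef f θ) k x - e (-(θ - θ')) x * dl (coef f θ') k x =
      (coef f θ (k + 1) (fl (k + 1) x) - e (-(θ - θ')) x * coef f θ' (k + 1) (fl (k + 1) x)) -
      (coef f θ k (fl k x) - e (-(θ - θ')) x * coef f θ' k (fl k x)) := by
    unfold dl; ring
  rw [e1]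
  refine (norm_sub_le _ _).trans ?_
  have b1 : 2 * Real.pi * |θ - θ'| * (1 / 2 ^ k) * avN f k (fl k x) ≤
      2 * Real.pi * |θ - θ'| * (1 / 2 ^ k) * 1 := by gcongr
  have b2 : 2 * Real.pi * |θ - θ'| * (1 / 2 ^ (k + 1)) * avN f (k + 1) (fl (k + 1) x) ≤
      2 * Real.pi * |θ - θ'| * (1 / 2 ^ (k + 1)) * 2 := by gcongr
  have e2 : (1 : ℝ) / 2 ^ (k + 1) = 1 / 2 ^ k / 2 := by rw [pow_succ]; field_simp
  rw [e2] at b2 c2
  nlinarith

/-! ## parameters -/

/-- budget of the family of level `j` -/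
def Bj (n t j : ℕ) : ℕ := 2 ^ (2 * t + n + 3 * j)

/-- threshold of the family of level `j` -/
def dj (j : ℕ) : ℝ := (1 / 2) ^ (j + 1)

/-- `√(1/2)` -/
def rr : ℝ := Real.sqrt (1 / 2)

theorem rr_pos : 0 < rr := Real.sqrt_pos.2 (by norm_num)

theorem rr_sq : rr ^ 2 = 1 / 2 := Real.sq_sqrt (by norm_num)

theorem rr_le : rr ≤ 0.7072 := by
  unfold rr
  rw [Real.sqrt_le_left (by norm_num)]
  norm_num

theorem rr_le_one : rr ≤ 1 := rr_le.trans (by norm_num)

/-- linear term -/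
def LL (n t j : ℕ) : ℝ := n + t + 3 * j + 1

theorem LL_pos (n t j : ℕ) : 0 < LL n t j := by unfold LL; positivity

theorem one_le_LL (n t j : ℕ) : 1 ≤ LL n t j := by
  unfold LL
  have h1 : (0 : ℝ) ≤ n := Nat.cast_nonneg n
  have h2 : (0 : ℝ) ≤ t := Nat.cast_nonneg t
  have h3 : (0 : ℝ) ≤ j := Nat.cast_nonneg j
  linarith

/-- the tail level -/
def lam (n t j : ℕ) : ℝ := 24 * rr ^ j * LL n t j

/-- size of the disc -/
def Rj (j : ℕ) : ℝ := 9 * (1 / 2) ^ j

theorem Rj_pos (j : ℕ) : 0 < Rj j := by unfold Rj; positivity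

theorem sqrt_Rj (j : ℕ) : Real.sqrt (Rj j) = 3 * rr ^ j := by
  unfold Rj
  have : (9 : ℝ) * (1 / 2) ^ j = (3 * rr ^ j) ^ 2 := by
    rw [mul_pow, ← pow_mul, mul_comm j 2, pow_mul, rr_sq]; norm_num
  rw [this, Real.sqrt_sq (by have := rr_pos; positivity)]

theorem lam_div (n t j : ℕ) : lam n t j / (8 * Real.sqrt (Rj j)) = LL n t j := by
  rw [sqrt_Rj, lam]
  have := rr_pos
  field_simp
  ring

theorem lam_pos (n t j : ℕ) : 0 < lam n t j := by
  have := rr_pos
  have := LL_pos n t j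
  unfold lam
  positivity

/-- family of tops of level `j` -/
def fam (f : ℝ → ℂ) (Θ : Finset ℝ) (n t j : ℕ) : ℕ → ℤ → Finset ℝ :=
  up Θ (Hv f (dj j)) (Bj n t j)

/-- the switch used for the top frequency `θ'` -/
def sw (f : ℝ → ℂ) (ε : ℕ → ℤ → Prop) (j : ℕ) (θ' : ℝ) (k : ℕ) (i : ℤ) : Prop :=
  ε k i ∧ ‖coef f θ' k i‖ ≤ Rj j / 3 ∧ ‖hd (coef f θ') k i‖ ≤ 2 * Rj j / 3

/-- exceptional points of first kind: the budget is used up -/
def XX (f : ℝ → ℂ) (Θ : Finset ℝ) (n t j m : ℕ) : Set ℝ :=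
  {x | (Bj n t j : ℝ) ≤ cnt Θ (Hv f (dj j)) (Bj n t j) m x}

/-- exceptional points of second kind -/
def EE (f : ℝ → ℂ) (ε : ℕ → ℤ → Prop) (Θ : Finset ℝ) (n t j m : ℕ) : Set ℝ :=
  {x | ∃ k ≤ m, ∃ θ' ∈ nw Θ (Hv f (dj j)) (Bj n t j) k (fl k x), ∃ K, k ≤ K ∧ K ≤ m ∧
    lam n t j < ‖SS (coef f θ') (sw f ε j θ') k K x‖}

theorem SS_add (a : ℕ → ℤ → ℂ) (η : ℕ → ℤ → Prop) {k l K : ℕ} (h1 : k ≤ l) (h2 : l ≤ K) (x : ℝ) :
    SS a η k l x + SS a η l K x = SS a η k K x := by
  classical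
  unfold SS
  exact Finset.sum_Ico_consecutive _ h1 h2

open Classical in
theorem norm_SS_le_of (a : ℕ → ℤ → ℂ) (ha : IsMart a) (η : ℕ → ℤ → Prop) {k K : ℕ} (h : k ≤ K)
    {x c : ℝ} (hc : 0 ≤ c) (hb : ∀ l, k ≤ l → l < K → η l (fl l x) → ‖hd a l (fl l x)‖ ≤ c) :
    ‖SS a η k K x‖ ≤ (K - k) * c := by
  unfold SS
  refine (norm_sum_le _ _).trans ?_
  calc ∑ l ∈ Finset.Ico k K, ‖if η l (fl l x) then (rad (l + 1) x : ℂ) * dl a l x else 0‖
      ≤ ∑ _l ∈ Finset.Ico k K, c := by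
        refine Finset.sum_le_sum fun l hl => ?_
        rw [Finset.mem_Ico] at hl
        split_ifs with hη
        · rw [norm_mul, Complex.norm_real, Real.norm_eq_abs, abs_rad, one_mul, norm_dl ha]
          exact hb l hl.1 hl.2 hη
        · simpa using hc
    _ = (K - k) * c := by
        rw [Finset.sum_const, Nat.card_Ico, nsmul_eq_mul, Nat.cast_sub h]

open Classical in
/-- comparison of the signed sums at two frequencies -/
theorem SS_compare (hf : Measurable f) (hM : ∀ x, ‖f x‖ ≤ M)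
    (hal : ∀ k j, al k j → avN f k j ≤ 1) (hea : ∀ k j, ε k j → al k j) (θ θ' : ℝ)
    {q₀ K : ℕ} {x : ℝ} :
    ‖SS (coef f θ) ε q₀ K x - e (-(θ - θ')) x * SS (coef f θ') ε q₀ K x‖ ≤
      ∑ q ∈ Finset.Ico q₀ K, 4 * Real.pi * |θ - θ'| * (1 / 2 ^ q) := by
  unfold SS
  rw [Finset.mul_sum, ← Finset.sum_sub_distrib]
  refine (norm_sum_le _ _).trans (Finset.sum_le_sum fun q _ => ?_)
  split_ifs with hη
  · have e1 : (rad (q + 1) x : ℂ) * dl (coef f θ) q x -
        e (-(θ - θ')) x * ((rad (q + 1) x : ℂ) * dl (coef f θ') q x) =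
        (rad (q + 1) x : ℂ) * (dl (coef f θ) q x - e (-(θ - θ')) x * dl (coef f θ') q x) := by ring
    rw [e1, norm_mul, Complex.norm_real, Real.norm_eq_abs, abs_rad, one_mul]
    exact dl_compare hf hM hal θ θ' (hea _ _ hη)
  · have hpi := Real.pi_pos
    simp only [mul_zero, sub_zero, norm_zero]
    positivity

theorem sum_geom_le {C : ℝ} (hC : 0 ≤ C) (q₀ K : ℕ) :
    ∑ q ∈ Finset.Ico q₀ K, C * (1 / 2 ^ q) ≤ 2 * C * (1 / 2 ^ q₀) := by
  rcases le_total K q₀ with h | h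
  · rw [Finset.Ico_eq_empty_of_le h]
    simp only [Finset.sum_empty]
    positivity
  · have : ∀ d : ℕ, ∑ q ∈ Finset.Ico q₀ (q₀ + d), C * ((1 : ℝ) / 2 ^ q) =
        2 * C * (1 / 2 ^ q₀) - 2 * C * (1 / 2 ^ (q₀ + d)) := by
      intro d
      induction d with
      | zero => simp
      | succ d ih =>
        have e : q₀ + (d + 1) = (q₀ + d) + 1 := by omega
        rw [e, Finset.sum_Ico_succ_top (by omega), ih, pow_succ]
        field_simp
        ring
    obtain ⟨d, rfl⟩ := Nat.exists_eq_add_of_le h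
    rw [this d]
    have : 0 ≤ 2 * C * (1 / 2 ^ (q₀ + d)) := by positivity
    linarith

/-- **the block estimate** -/
theorem block (hf : Measurable f) (hM : ∀ x, ‖f x‖ ≤ M)
    (hal : ∀ k j, al k j → avN f k j ≤ 1) (hea : ∀ k j, ε k j → al k j) {Θ : Finset ℝ}
    {n t j m : ℕ} {x : ℝ} (hX : x ∉ XX f Θ n t j m) (hE : x ∉ EE f ε Θ n t j m)
    {θ : ℝ} (hθ : θ ∈ Θ) {l K : ℕ} (hlK : l < K) (hKm : K ≤ m) 
    (hbig : (1 / 2) ^ j ≤ ‖coef f θ l (fl l x)‖ ∨ (1 / 2) ^ j ≤ ‖hd (coef f θ) l (fl l x)‖)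
    (hsm : ∀ q, l ≤ q → q < K → ε q (fl q x) →
      ‖coef f θ q (fl q x)‖ ≤ 2 * (1 / 2) ^ j ∧ ‖hd (coef f θ) q (fl q x)‖ ≤ 2 * (1 / 2) ^ j) :
    ‖SS (coef f θ) ε l K x‖ ≤ 60 * rr ^ j * LL n t j := by
  classical
  set c : ℝ := (1 / 2) ^ j with hc
  have hc0 : 0 < c := by positivity
  have ha := isMart_coef hf hM
  set B := Bj n t j with hB
  -- budget not used
  have hcard : ∀ q ≤ m, (up Θ (Hv f (dj j)) B q (fl q x)).card < B := by
    intro q hq
    have h1 : (up Θ (Hv f (dj j)) B q (fl q x)).card ≤ (up Θ (Hv f (dj j)) B m (fl m x)).card :=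
      Finset.card_le_card (up_mono_fl hq x)
    have h2 : ¬ ((B : ℝ) ≤ cnt Θ (Hv f (dj j)) B m x) := hX
    rw [not_le] at h2
    unfold cnt at h2
    have h3 : (up Θ (Hv f (dj j)) B m (fl m x)).card < B := by exact_mod_cast h2
    omega
  -- a heavy node at level l or l+1
  have hheavy : dj j ≤ ‖coef f θ l (fl l x)‖ ∨ dj j ≤ ‖coef f θ (l + 1) (fl (l + 1) x)‖ := by
    have hd2 : dj j = c / 2 := by unfold dj; rw [pow_succ, hc]; ring
    rw [hd2]
    by_cases h1 : c / 2 ≤ ‖coef f θ l (fl l x)‖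
    · exact Or.inl h1
    · right
      push Not at h1
      rcases hbig with h | h
      · linarith
      · have h2 := norm_dl (ha θ) l x
        unfold dl at h2
        have h3 := norm_sub_le (coef f θ (l + 1) (fl (l + 1) x)) (coef f θ l (fl l x))
        rw [h2] at h3
        linarith
  have htop : ∃ θ' ∈ up Θ (Hv f (dj j)) B (l + 1) (fl (l + 1) x), |θ - θ'| ≤ B * 2 ^ (l + 1) := by
    rcases hheavy with h | h
    · obtain ⟨θ', h1, h2⟩ := exhaust (hcard l (by omega)) hθ h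
      refine ⟨θ', up_mono_fl (Nat.le_succ l) x h1, h2.trans ?_⟩
      rw [pow_succ]
      have : (0 : ℝ) ≤ B * 2 ^ l := by positivity
      nlinarith
    · exact exhaust (hcard (l + 1) (by omega)) hθ h
  obtain ⟨θ', hθ', hdist⟩ := htop
  obtain ⟨kT, hkT, hnw⟩ := exists_nw hθ'
  set s : ℕ := n + 4 * j + 4 + 2 * t with hs
  have hs2 : (2 : ℝ) ^ s = B * 16 * 2 ^ j := by
    rw [hB, Bj, hs]
    push_cast
    rw [show (16 : ℝ) = 2 ^ 4 by norm_num, ← pow_add, ← pow_add]
    congr 1; ring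
  set q₀ : ℕ := min (l + 1 + s) K with hq₀
  have hlq : l ≤ q₀ := by rw [hq₀]; exact le_min (by omega) hlK.le
  have hq₀K : q₀ ≤ K := min_le_right _ _
  have hq₀s : q₀ ≤ l + 1 + s := min_le_left _ _
  -- first part
  have part1 : ‖SS (coef f θ) ε l q₀ x‖ ≤ (s + 1) * (2 * c) := by
    refine (norm_SS_le_of _ (ha θ) ε hlq (c := 2 * c) (by positivity) ?_).trans ?_
    · intro q h1 h2 h3
      exact (hsm q h1 (by omega) h3).2
    · have h4 : ((q₀ : ℝ) - l) ≤ s + 1 := by
        have : (q₀ : ℝ) ≤ l + 1 + s := by exact_mod_cast hq₀s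
        linarith
      exact mul_le_mul_of_nonneg_right h4 (by positivity)
  -- second part
  have part2 : ‖SS (coef f θ) ε q₀ K x‖ ≤ 2 * c + 2 * lam n t j := by
    rcases Nat.eq_or_lt_of_le hq₀K with hqK | hqK
    · rw [hqK]
      have : SS (coef f θ) ε K K x = 0 := by unfold SS; simp
      rw [this, norm_zero]
      have := lam_pos n t j
      positivity
    · have hq₀e : q₀ = l + 1 + s := by
        rw [hq₀]
        apply min_eq_left
        by_contra hcon
        push Not at hcon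
        rw [hq₀, min_eq_right hcon.le] at hqK
        omega
      have hkq : kT ≤ q₀ := by omega
      set u := |θ - θ'| with hu
      have hu0 : 0 ≤ u := abs_nonneg _
      have hpi := Real.pi_pos
      have hpi4 := Real.pi_lt_four
      have hpi3 : Real.pi < 3.15 := Real.pi_lt_d2
      -- the error at scale q
      have herr : ∀ q, q₀ ≤ q → u * (1 / 2 ^ q) ≤ 1 / 16 * c := by
        intro q hq
        have h1 : (1 : ℝ) / 2 ^ q ≤ 1 / 2 ^ q₀ := by
          apply one_div_le_one_div_of_le (by positivity)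
          exact pow_le_pow_right₀ (by norm_num) hq
        have h2 : (2 : ℝ) ^ q₀ = 2 ^ (l + 1) * (B * 16 * 2 ^ j) := by
          rw [hq₀e, pow_add, hs2]
        have hB0 : (0 : ℝ) < B := by
          rw [hB, Bj]; positivity
        calc u * (1 / 2 ^ q) ≤ (B * 2 ^ (l + 1)) * (1 / 2 ^ q₀) := by gcongr
          _ = 1 / 16 * (1 / 2 ^ j) := by
              rw [h2]; field_simp
          _ = 1 / 16 * c := by rw [hc, one_div_pow]
      have hcmp := SS_compare (ε := ε) hf hM hal hea θ θ' (q₀ := q₀) (K := K) (x := x)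
      have hsum : ∑ q ∈ Finset.Ico q₀ K, 4 * Real.pi * u * (1 / 2 ^ q) ≤ 2 * c := by
        refine (sum_geom_le (by positivity) q₀ K).trans ?_
        have := herr q₀ le_rfl
        calc 2 * (4 * Real.pi * u) * (1 / 2 ^ q₀) = 8 * Real.pi * (u * (1 / 2 ^ q₀)) := by ring
          _ ≤ 8 * Real.pi * (1 / 16 * c) := by gcongr
          _ ≤ 2 * c := by nlinarith
      -- sizes at θ'
      have hsz : ∀ q, q₀ ≤ q → q < K → ε q (fl q x) → sw f ε j θ' q (fl q x) := by
        intro q h1 h2 h3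
        have hx : x ∈ Ivl q (fl q x) := mem_Ivl.2 rfl
        obtain ⟨s1, s2⟩ := hsm q (by omega) h2 h3
        have c1 := coef_compare hf hM θ θ' hx
        have c2 := dl_compare hf hM hal θ θ' (hea _ _ h3)
        have a1 := hal _ _ (hea _ _ h3)
        have he1 := herr q h1
        have n1 : ‖coef f θ' q (fl q x)‖ = ‖e (-(θ - θ')) x * coef f θ' q (fl q x)‖ := by
          rw [norm_mul, norm_e, one_mul]
        have n2 : ‖hd (coef f θ') q (fl q x)‖ = ‖e (-(θ - θ')) x * dl (coef f θ') q x‖ := by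
          rw [norm_mul, norm_e, one_mul, norm_dl (ha θ')]
        have n3 : ‖hd (coef f θ) q (fl q x)‖ = ‖dl (coef f θ) q x‖ := (norm_dl (ha θ) q x).symm
        have t1 : ‖e (-(θ - θ')) x * coef f θ' q (fl q x)‖ ≤
            ‖coef f θ q (fl q x)‖ + ‖coef f θ q (fl q x) - e (-(θ - θ')) x * coef f θ' q (fl q x)‖ := by
          have := norm_sub_norm_le (e (-(θ - θ')) x * coef f θ' q (fl q x)) (coef f θ q (fl q x))
          rw [norm_sub_rev] at this
          linarith
        have t2 : ‖e (-(θ - θ')) x * dl (coef f θ') q x‖ ≤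
            ‖dl (coef f θ) q x‖ + ‖dl (coef f θ) q x - e (-(θ - θ')) x * dl (coef f θ') q x‖ := by
          have := norm_sub_norm_le (e (-(θ - θ')) x * dl (coef f θ') q x) (dl (coef f θ) q x)
          rw [norm_sub_rev] at this
          linarith
        have b1 : 2 * Real.pi * u * (1 / 2 ^ q) * avN f q (fl q x) ≤ c := by
          calc 2 * Real.pi * u * (1 / 2 ^ q) * avN f q (fl q x) ≤
              2 * Real.pi * u * (1 / 2 ^ q) * 1 := by gcongr
            _ = 2 * Real.pi * (u * (1 / 2 ^ q)) := by ring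
            _ ≤ 2 * Real.pi * (1 / 16 * c) := by gcongr
            _ ≤ c := by nlinarith
        have b2 : 4 * Real.pi * u * (1 / 2 ^ q) ≤ c := by
          calc 4 * Real.pi * u * (1 / 2 ^ q) = 4 * Real.pi * (u * (1 / 2 ^ q)) := by ring
            _ ≤ 4 * Real.pi * (1 / 16 * c) := by gcongr
            _ ≤ c := by nlinarith
        refine ⟨h3, ?_, ?_⟩
        · unfold Rj
          rw [n1]
          have : (9 : ℝ) * (1 / 2) ^ j / 3 = 3 * c := by rw [hc]; ring
          rw [this]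
          linarith
        · unfold Rj
          rw [n2]
          have : 2 * (9 * (1 / 2) ^ j) / 3 = 6 * c := by rw [hc]; ring
          rw [this, ]
          rw [n3] at s2
          linarith
      have hsame : SS (coef f θ') ε q₀ K x = SS (coef f θ') (sw f ε j θ') q₀ K x := by
        unfold SS
        refine Finset.sum_congr rfl fun q hq => ?_
        rw [Finset.mem_Ico] at hq
        by_cases h : ε q (fl q x)
        · rw [if_pos h, if_pos (hsz q hq.1 hq.2 h)]
        · rw [if_neg h, if_neg (fun h' => h h'.1)]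
      have hadd := SS_add (coef f θ') (sw f ε j θ') hkq hq₀K x
      have hEE : ∀ K', kT ≤ K' → K' ≤ m →
          ‖SS (coef f θ') (sw f ε j θ') kT K' x‖ ≤ lam n t j := by
        intro K' h1 h2
        by_contra hcon
        push Not at hcon
        exact hE ⟨kT, by omega, θ', hnw, K', h1, h2, hcon⟩
      have l1 := hEE q₀ hkq (by omega)
      have l2 := hEE K (by omega) hKm
      have l3 : ‖SS (coef f θ') ε q₀ K x‖ ≤ 2 * lam n t j := by
        rw [hsame]
        have : SS (coef f θ') (sw f ε j θ') q₀ K x =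
            SS (coef f θ') (sw f ε j θ') kT K x - SS (coef f θ') (sw f ε j θ') kT q₀ x := by
          rw [← hadd]; ring
        rw [this]
        refine (norm_sub_le _ _).trans (by linarith)
      have l4 : ‖e (-(θ - θ')) x * SS (coef f θ') ε q₀ K x‖ = ‖SS (coef f θ') ε q₀ K x‖ := by
        rw [norm_mul, norm_e, one_mul]
      have l5 := norm_sub_norm_le (SS (coef f θ) ε q₀ K x) (e (-(θ - θ')) x * SS (coef f θ') ε q₀ K x)
      rw [l4] at l5
      linarith
  rw [← SS_add (coef f θ) ε hlq hq₀K x]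
  refine (norm_add_le _ _).trans ?_
  have hcr : c ≤ rr ^ j := by
    have h1 : c = rr ^ j * rr ^ j := by
      rw [hc, ← rr_sq, ← pow_mul, ← pow_add]
      congr 1; ring
    have h2 : rr ^ j ≤ 1 := pow_le_one₀ rr_pos.le rr_le_one
    have h3 : 0 < rr ^ j := pow_pos rr_pos j
    rw [h1]
    nlinarith
  have hr0 : 0 < rr ^ j := pow_pos rr_pos j
  have hscast : ((s : ℕ) : ℝ) = n + 4 * j + 4 + 2 * t := by rw [hs]; push_cast; ring
  have hfin : (s + 1) * (2 * c) + (2 * c + 2 * lam n t j) ≤ 60 * rr ^ j * LL n t j := by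
    rw [hscast]
    unfold lam LL
    have hn0 : (0 : ℝ) ≤ n := Nat.cast_nonneg n
    have ht0 : (0 : ℝ) ≤ t := Nat.cast_nonneg t
    have hj0 : (0 : ℝ) ≤ j := Nat.cast_nonneg j
    have h1 : ((n : ℝ) + 4 * j + 4 + 2 * t + 1) * (2 * c) + 2 * c ≤
        ((n : ℝ) + 4 * j + 4 + 2 * t + 1) * (2 * rr ^ j) + 2 * rr ^ j := by gcongr
    have h2 : ((n : ℝ) + 4 * j + 4 + 2 * t + 1) * (2 * rr ^ j) + 2 * rr ^ j ≤
        12 * rr ^ j * ((n : ℝ) + t + 3 * j + 1) := by
      have : 0 ≤ rr ^ j * (10 * n + 8 * t + 28 * j) := by positivity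
      nlinarith
    nlinarith
  linarith

end main

end Crest.Agent.R100.Hunt933
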