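import Crest.Agent.R100.Wide_933
import Crest.Agent.R081.FrPl

/-!
# R100 / S0132, helper939: multiplicity at one scale (doc 1968, sec 3, (MULT))

`G` supported in a node `Ivl k₀ j₀`, with averages of `|G|` at most `Q` on the nodes of generation
`r`.  Then `∫_{W} |coef G Y k₀ j₀|² dY ≤ (π²/2) Q 2^{k₀} avN G k₀ j₀` for every interval `W` of
length `2^r`.
-/

set_option autoImplicit false

open MeasureTheory Set
open scoped ENNReal FourierTransform

noncomputable section

namespace Crest.Agent.R100.Mult939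

open Crest.Agent.R100.Mart933 Crest.Agent.R100.Wide933

/-! ## Plancherel -/

theorem integral_norm_sq_eq {f : ℝ → ℂ} (h2 : MemLp f 2) :
    ∫ w, ‖f w‖ ^ 2 = ((eLpNorm f 2 volume) ^ 2).toReal := by
  have hm : AEStronglyMeasurable (fun w => ‖f w‖ ^ 2) volume := h2.1.norm.pow 2
  rw [integral_eq_lintegral_of_nonneg_ae (Filter.Eventually.of_forall fun w => by positivity) hm]
  congr 1
  have h := eLpNorm_nnreal_pow_eq_lintegral (f := f) (μ := volume) (p := 2) (by norm_num)
  have h3 : ((2 : NNReal) : ENNReal) = 2 := rfl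
  rw [h3] at h
  have h4 : (eLpNorm f 2 volume) ^ 2 = (eLpNorm f 2 volume) ^ ((2 : NNReal) : ℝ) := by
    norm_num
  rw [h4, h]
  refine lintegral_congr fun w => ?_
  rw [← ofReal_norm]
  norm_num

theorem plancherel {f : ℝ → ℂ} (h1 : Integrable f) (h2 : MemLp f 2) :
    Integrable (fun ξ => ‖𝓕 f ξ‖ ^ 2) ∧ ∫ ξ, ‖𝓕 f ξ‖ ^ 2 = ∫ w, ‖f w‖ ^ 2 := by
  have h3 := Crest.Agent.R081.Fr.memLp_fourier h1 h2
  refine ⟨(memLp_two_iff_integrable_sq_norm h3.1).mp h3, ?_⟩
  rw [integral_norm_sq_eq h3, integral_norm_sq_eq h2, Crest.Agent.R081.Fr.eLpNorm_fourier h1 h2]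

theorem fourier_eq (f : ℝ → ℂ) (Y : ℝ) : 𝓕 f Y = ∫ y, f y * e (-Y) y := by
  rw [Real.fourier_real_eq_integral_exp_smul]
  refine integral_congr_ae (Filter.Eventually.of_forall fun y => ?_)
  simp only [smul_eq_mul, e]
  rw [mul_comm]
  congr 2
  push_cast
  ring

/-! ## the sliding average -/

/-- sliding average over a window of length `2^{-r}` -/
def sl (r : ℕ) (G : ℝ → ℂ) (y : ℝ) : ℂ := 2 ^ r * ∫ u in Ioc (0 : ℝ) (1 / 2 ^ r), G (y + u)

theorem norm_e_sub_one (t : ℝ) (y : ℝ) : ‖e t y - 1‖ = |2 * Real.sin (Real.pi * (t * y))| := by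
  unfold e
  have := Complex.norm_exp_I_mul_ofReal_sub_one (2 * Real.pi * (t * y))
  rw [mul_comm Complex.I] at this
  rw [this, Real.norm_eq_abs]
  congr 3
  ring

/-- the multiplier of the sliding average -/
def mu (r : ℕ) (ξ : ℝ) : ℂ := 2 ^ r * ∫ u in Ioc (0 : ℝ) (1 / 2 ^ r), e ξ u

theorem norm_mu_ge (r : ℕ) {ξ : ℝ} (h : |ξ| ≤ 2 ^ r / 2) : 2 / Real.pi ≤ ‖mu r ξ‖ := by
  have h2 : (0 : ℝ) < 2 ^ r := by positivity
  have hd : (0 : ℝ) ≤ 1 / 2 ^ r := by positivity
  unfold mu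
  by_cases h0 : ξ = 0
  · subst h0
    have : (fun u => e 0 u) = fun _ => 1 := by
      ext u
      simp [e]
    rw [this]
    simp only [integral_const, MeasurableSet.univ, measureReal_restrict_apply, univ_inter,
      Real.volume_real_Ioc_of_le hd]
    simp only [sub_zero, one_div, Complex.real_smul, mul_one]
    push_cast
    rw [mul_inv_cancel₀ (by simp), norm_one]
    rw [div_le_one Real.pi_pos]
    linarith [Real.pi_gt_three]
  · have hpi := Real.pi_pos
    have hc : (2 * Real.pi * ξ : ℂ) * Complex.I ≠ 0 := by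
      simp [h0, Real.pi_ne_zero]
    have e1 : ∫ u in Ioc (0 : ℝ) (1 / 2 ^ r), e ξ u =
        (e ξ (1 / 2 ^ r) - 1) / ((2 * Real.pi * ξ : ℂ) * Complex.I) := by
      rw [← intervalIntegral.integral_of_le hd]
      have e2 : ∀ u : ℝ, e ξ u = Complex.exp (((2 * Real.pi * ξ : ℂ) * Complex.I) * (u : ℂ)) := by
        intro u
        unfold e
        congr 1
        push_cast
        ring
      simp_rw [e2]
      rw [integral_exp_mul_complex hc]
      simp
    rw [e1, norm_mul, norm_div, norm_e_sub_one]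
    have e3 : ‖(2 * Real.pi * ξ : ℂ) * Complex.I‖ = 2 * Real.pi * |ξ| := by
      rw [norm_mul, Complex.norm_I, mul_one, norm_mul, norm_mul, Complex.norm_real,
        Complex.norm_real, Real.norm_eq_abs, Real.norm_eq_abs, abs_of_pos hpi]
      simp
    rw [e3, norm_pow, Complex.norm_ofNat]
    have e4 : |2 * Real.sin (Real.pi * (ξ * (1 / 2 ^ r)))| =
        2 * Real.sin (Real.pi * (|ξ| * (1 / 2 ^ r))) := by
      rw [abs_mul, abs_two]
      congr 1
      have hx0 : 0 ≤ Real.pi * (|ξ| * (1 / 2 ^ r)) := by positivity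
      have hx1 : Real.pi * (|ξ| * (1 / 2 ^ r)) ≤ Real.pi := by
        have : |ξ| * (1 / 2 ^ r) ≤ 1 := by
          rw [mul_one_div, div_le_one h2]
          linarith
        nlinarith
      rcases abs_cases ξ with ⟨h', _⟩ | ⟨h', _⟩
      · rw [h'] at hx0 hx1 ⊢
        rw [abs_of_nonneg (Real.sin_nonneg_of_nonneg_of_le_pi hx0 hx1)]
      · have : Real.pi * (ξ * (1 / 2 ^ r)) = -(Real.pi * (|ξ| * (1 / 2 ^ r))) := by
          rw [h']; ring
        rw [this, Real.sin_neg, abs_neg,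
          abs_of_nonneg (Real.sin_nonneg_of_nonneg_of_le_pi hx0 hx1)]
    rw [e4]
    have hxi : 0 < |ξ| := abs_pos.2 h0
    have h5 : 2 / Real.pi * (Real.pi * (|ξ| * (1 / 2 ^ r))) ≤
        Real.sin (Real.pi * (|ξ| * (1 / 2 ^ r))) := by
      apply Real.mul_le_sin (by positivity)
      have : |ξ| * (1 / 2 ^ r) ≤ 1 / 2 := by
        rw [mul_one_div, div_le_div_iff₀ h2 (by norm_num)]
        linarith
      nlinarith
    have h6 : 2 / Real.pi * (Real.pi * (|ξ| * (1 / 2 ^ r))) = 2 * |ξ| / 2 ^ r := by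
      field_simp
    rw [h6] at h5
    have h7 : 2 / Real.pi = 2 ^ r * (2 * (2 * |ξ| / 2 ^ r) / (2 * Real.pi * |ξ|)) := by
      field_simp
    rw [h7]
    gcongr

variable {G : ℝ → ℂ} {M Q : ℝ}

theorem integrable_of_supp {k : ℕ} {j : ℤ} (hG : Measurable G) (hM : ∀ x, ‖G x‖ ≤ M)
    (hs : ∀ x, x ∉ Ivl k j → G x = 0) : Integrable G := by
  have h1 : IntegrableOn G (Ivl k j) := intOn k j hG hM
  have h2 : (Ivl k j).indicator G = G := by
    ext x
    by_cases hx : x ∈ Ivl k j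
    · rw [indicator_of_mem hx]
    · rw [indicator_of_notMem hx, hs x hx]
  rw [← h2]
  exact h1.integrable_indicator (measurableSet_Ivl k j)

theorem setIntegral_eq_of_supp {E : Type*} [NormedAddCommGroup E] [NormedSpace ℝ E] {F : ℝ → E}
    {k : ℕ} {j : ℤ} (hs : ∀ x, x ∉ Ivl k j → F x = 0) : ∫ x in Ivl k j, F x = ∫ x, F x :=
  setIntegral_eq_integral_of_forall_compl_eq_zero hs

theorem coef_eq {k : ℕ} {j : ℤ} (hs : ∀ x, x ∉ Ivl k j → G x = 0) (Y : ℝ) :
    coef G Y k j = 2 ^ k * 𝓕 G Y := by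
  rw [fourier_eq]
  unfold coef
  rw [setIntegral_eq_of_supp]
  intro x hx
  rw [hs x hx, zero_mul]

theorem avN_eq {k : ℕ} {j : ℤ} (hs : ∀ x, x ∉ Ivl k j → G x = 0) :
    avN G k j = 2 ^ k * ∫ y, ‖G y‖ := by
  unfold avN
  rw [setIntegral_eq_of_supp]
  intro x hx
  rw [hs x hx, norm_zero]

theorem measurable_sl (r : ℕ) (hG : Measurable G) : Measurable (sl r G) := by
  unfold sl
  refine measurable_const.mul ?_
  have : StronglyMeasurable fun p : ℝ × ℝ => G (p.1 + p.2) :=
    (hG.comp (measurable_fst.add measurable_snd)).stronglyMeasurable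
  exact (StronglyMeasurable.integral_prod_right' (ν := volume.restrict _) this).measurable

theorem norm_sl_le_int (r : ℕ) (G : ℝ → ℂ) (y : ℝ) :
    ‖sl r G y‖ ≤ 2 ^ r * ∫ u in Ioc (0 : ℝ) (1 / 2 ^ r), ‖G (y + u)‖ := by
  unfold sl
  rw [norm_mul, norm_pow, Complex.norm_ofNat]
  gcongr
  exact norm_integral_le_integral_norm _

theorem norm_sl_le (r : ℕ) (hG : Measurable G) (hM : ∀ x, ‖G x‖ ≤ M)
    (hQ : ∀ i : ℤ, avN G r i ≤ Q) (y : ℝ) : ‖sl r G y‖ ≤ 2 * Q := by
  refine (norm_sl_le_int r G y).trans ?_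
  have h2 : (0 : ℝ) < 2 ^ r := by positivity
  have hd : (0 : ℝ) ≤ 1 / 2 ^ r := by positivity
  have e1 : ∫ u in Ioc (0 : ℝ) (1 / 2 ^ r), ‖G (y + u)‖ =
      ∫ u in Ioc y (y + 1 / 2 ^ r), ‖G u‖ := by
    rw [← intervalIntegral.integral_of_le hd, ← intervalIntegral.integral_of_le (by linarith)]
    have := intervalIntegral.integral_comp_add_left (a := 0) (b := 1 / 2 ^ r)
      (fun u => ‖G u‖) y
    rw [this, add_zero]
  rw [e1]
  set i := fl r y with hi
  have hsub : Ioc y (y + 1 / 2 ^ r) ⊆ Ivl r i ∪ Ivl r (i + 1) := by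
    intro x hx
    have hy : y ∈ Ivl r i := mem_Ivl.2 rfl
    unfold Ivl at hy ⊢
    rcases lt_or_ge x (((i : ℝ) + 1) / 2 ^ r) with h | h
    · left
      exact ⟨hy.1.trans hx.1.le, h⟩
    · right
      refine ⟨by push_cast; exact h, ?_⟩
      push_cast
      have := hx.2
      have h3 := hy.2
      have : ((i : ℝ) + 1 + 1) / 2 ^ r = ((i : ℝ) + 1) / 2 ^ r + 1 / 2 ^ r := by ring
      rw [this]
      linarith
  have hint : ∀ i, IntegrableOn (fun x => ‖G x‖) (Ivl r i) := fun i =>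
    intOn r i hG.norm (M := M) fun x => by simpa using hM x
  have h3 : ∫ u in Ioc y (y + 1 / 2 ^ r), ‖G u‖ ≤
      (∫ u in Ivl r i, ‖G u‖) + ∫ u in Ivl r (i + 1), ‖G u‖ := by
    have hdis : Disjoint (Ivl r i) (Ivl r (i + 1)) := by
      rw [Set.disjoint_left]
      intro x hx hx'
      rw [mem_Ivl] at hx hx'
      omega
    rw [← setIntegral_union hdis (measurableSet_Ivl _ _) (hint _) (hint _)]
    refine setIntegral_mono_set ((hint _).union (hint _)) ?_ (Filter.Eventually.of_forall hsub)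
    exact Filter.Eventually.of_forall fun x => norm_nonneg _
  calc (2 : ℝ) ^ r * ∫ u in Ioc y (y + 1 / 2 ^ r), ‖G u‖
      ≤ 2 ^ r * ((∫ u in Ivl r i, ‖G u‖) + ∫ u in Ivl r (i + 1), ‖G u‖) := by gcongr
    _ = avN G r i + avN G r (i + 1) := by unfold avN; ring
    _ ≤ 2 * Q := by linarith [hQ i, hQ (i + 1)]

theorem finite_Ioc (r : ℕ) : IsFiniteMeasure (volume.restrict (Ioc (0 : ℝ) (1 / 2 ^ r))) :=
  ⟨by
    rw [Measure.restrict_apply MeasurableSet.univ, univ_inter, Real.volume_Ioc]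
    exact ENNReal.ofReal_lt_top⟩

theorem integrable_shift (r : ℕ) (hG : Measurable G) (hGi : Integrable G) (ξ : ℝ) :
    Integrable (fun p : ℝ × ℝ => G (p.1 + p.2) * e ξ p.1)
      ((volume : Measure ℝ).prod (volume.restrict (Ioc (0 : ℝ) (1 / 2 ^ r)))) := by
  have hfin := finite_Ioc r
  have hm : Measurable fun p : ℝ × ℝ => G (p.1 + p.2) * e ξ p.1 :=
    (hG.comp (measurable_fst.add measurable_snd)).mul ((measurable_e ξ).comp measurable_fst)
  rw [integrable_prod_iff' hm.aestronglyMeasurable]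
  refine ⟨Filter.Eventually.of_forall fun u => ?_, ?_⟩
  · have h1 : Integrable (fun x => G (x + u)) := hGi.comp_add_right u
    refine h1.norm.mono' (hm.comp (measurable_id.prodMk measurable_const)).aestronglyMeasurable
      (Filter.Eventually.of_forall fun x => ?_)
    simp
  · have : (fun u => ∫ x, ‖G (x + u) * e ξ x‖) = fun _ => ∫ x, ‖G x‖ := by
      ext u
      simp only [norm_mul, norm_e, mul_one]
      exact integral_add_right_eq_self (fun x => ‖G x‖) u
    simp only at this ⊢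
    rw [this]
    exact integrable_const _

theorem integrable_sl (r : ℕ) (hG : Measurable G) (hGi : Integrable G) :
    Integrable (sl r G) := by
  have hfin := finite_Ioc r
  have h := (integrable_shift r hG hGi 0).integral_prod_left
  unfold sl
  refine Integrable.const_mul ?_ _
  refine h.congr (Filter.Eventually.of_forall fun x => ?_)
  simp [e]

theorem integral_norm_sl_le (r : ℕ) (hG : Measurable G) (hGi : Integrable G) :
    ∫ y, ‖sl r G y‖ ≤ ∫ y, ‖G y‖ := by
  have hfin := finite_Ioc r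
  have hd : (0 : ℝ) ≤ 1 / 2 ^ r := by positivity
  have h := (integrable_shift r hG hGi 0).norm
  have h1 : ∫ y, ‖sl r G y‖ ≤
      ∫ y, 2 ^ r * ∫ u in Ioc (0 : ℝ) (1 / 2 ^ r), ‖G (y + u) * e 0 y‖ := by
    refine integral_mono (integrable_sl r hG hGi).norm (h.integral_prod_left.const_mul _)
      fun y => ?_
    refine (norm_sl_le_int r G y).trans (le_of_eq ?_)
    simp
  refine h1.trans (le_of_eq ?_)
  rw [integral_const_mul, integral_integral_swap h]
  have : (fun u => ∫ x, ‖G (x + u) * e 0 x‖) = fun _ => ∫ x, ‖G x‖ := by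
    ext u
    simp only [norm_mul, norm_e, mul_one]
    exact integral_add_right_eq_self (fun x => ‖G x‖) u
  rw [this]
  simp only [integral_const, MeasurableSet.univ, measureReal_restrict_apply, univ_inter,
    Real.volume_real_Ioc_of_le hd, smul_eq_mul]
  field_simp
  simp

theorem fourier_sl (r : ℕ) (hG : Measurable G) (hGi : Integrable G) (ξ : ℝ) :
    𝓕 (sl r G) ξ = mu r ξ * 𝓕 G ξ := by
  have hfin := finite_Ioc r
  rw [fourier_eq, fourier_eq]
  have h := integrable_shift r hG hGi (-ξ)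
  have e1 : ∫ y, sl r G y * e (-ξ) y =
      2 ^ r * ∫ y, ∫ u in Ioc (0 : ℝ) (1 / 2 ^ r), G (y + u) * e (-ξ) y := by
    rw [← integral_const_mul]
    refine integral_congr_ae (Filter.Eventually.of_forall fun y => ?_)
    simp only [sl]
    rw [integral_mul_const]
    ring
  rw [e1, integral_integral_swap h]
  have e2 : ∀ u : ℝ, ∫ y, G (y + u) * e (-ξ) y = e ξ u * ∫ y, G y * e (-ξ) y := by
    intro u
    rw [← integral_const_mul]
    rw [← integral_add_right_eq_self (fun y => e ξ u * (G y * e (-ξ) y)) u]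
    refine integral_congr_ae (Filter.Eventually.of_forall fun y => ?_)
    have : e (-ξ) y = e ξ u * e (-ξ) (y + u) := by
      unfold e
      rw [← Complex.exp_add]
      congr 1
      push_cast
      ring
    simp only [this]
    ring
  simp_rw [e2]
  rw [integral_mul_const]
  unfold mu
  ring

/-- **local Bessel at one scale**, for the Fourier transform -/
theorem bessel_window (r : ℕ) {k : ℕ} {j : ℤ} (hG : Measurable G) (hM : ∀ x, ‖G x‖ ≤ M)
    (hs : ∀ x, x ∉ Ivl k j → G x = 0) (hQ : ∀ i : ℤ, avN G r i ≤ Q) (c : ℝ) :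
    ∫ Y in Icc c (c + 2 ^ r), ‖𝓕 G Y‖ ^ 2 ≤ Real.pi ^ 2 / 2 * Q * ∫ y, ‖G y‖ := by
  have h2 : (0 : ℝ) < 2 ^ r := by positivity
  set z : ℝ := c + 2 ^ r / 2 with hz
  set Gz : ℝ → ℂ := fun y => G y * e (-z) y with hGz
  have hGzm : Measurable Gz := hG.mul (measurable_e _)
  have hnorm : ∀ y, ‖Gz y‖ = ‖G y‖ := fun y => by simp [hGz]
  have hGzM : ∀ x, ‖Gz x‖ ≤ M := fun x => (hnorm x).le.trans (hM x)
  have hGzs : ∀ x, x ∉ Ivl k j → Gz x = 0 := fun x hx => by simp [hGz, hs x hx]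
  have hGzi : Integrable Gz := integrable_of_supp hGzm hGzM hGzs
  have hQz : ∀ i : ℤ, avN Gz r i ≤ Q := by
    intro i
    have : avN Gz r i = avN G r i := by
      unfold avN
      simp only [hnorm]
    rw [this]
    exact hQ i
  set H := sl r Gz with hH
  have hHi : Integrable H := integrable_sl r hGzm hGzi
  have hHb : ∀ y, ‖H y‖ ≤ 2 * Q := norm_sl_le r hGzm hGzM hQz
  have hH2 : Integrable (fun y => ‖H y‖ ^ 2) := by
    refine (hHi.norm.const_mul (2 * Q)).mono' (hHi.aestronglyMeasurable.norm.pow 2) ?_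
    refine Filter.Eventually.of_forall fun w => ?_
    rw [Real.norm_of_nonneg (by positivity), sq]
    exact mul_le_mul_of_nonneg_right (hHb w) (norm_nonneg _)
  have hHm : MemLp H 2 := (memLp_two_iff_integrable_sq_norm hHi.aestronglyMeasurable).2 hH2
  obtain ⟨hPi, hP⟩ := plancherel hHi hHm
  have hQ0 : 0 ≤ Q := (avN_nonneg G r 0).trans (hQ 0)
  have h3 : ∫ ξ, ‖𝓕 H ξ‖ ^ 2 ≤ 2 * Q * ∫ y, ‖G y‖ := by
    rw [hP]
    calc ∫ w, ‖H w‖ ^ 2 ≤ ∫ w, 2 * Q * ‖H w‖ := by
          refine integral_mono hH2 (hHi.norm.const_mul _) fun w => ?_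
          simp only [sq]
          exact mul_le_mul_of_nonneg_right (hHb w) (norm_nonneg _)
      _ = 2 * Q * ∫ w, ‖H w‖ := integral_const_mul _ _
      _ ≤ 2 * Q * ∫ w, ‖Gz w‖ :=
          mul_le_mul_of_nonneg_left (integral_norm_sl_le r hGzm hGzi) (by positivity)
      _ = 2 * Q * ∫ y, ‖G y‖ := by simp only [hnorm]
  have hshift : Integrable (fun Y => ‖𝓕 H (Y - z)‖ ^ 2) := hPi.comp_sub_right z
  have hpt : ∀ Y ∈ Icc c (c + 2 ^ r), ‖𝓕 G Y‖ ^ 2 ≤ (Real.pi / 2) ^ 2 * ‖𝓕 H (Y - z)‖ ^ 2 := by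
    intro Y hY
    have h4 : 𝓕 H (Y - z) = mu r (Y - z) * 𝓕 G Y := by
      rw [hH, fourier_sl r hGzm hGzi]
      congr 1
      rw [fourier_eq, fourier_eq]
      refine integral_congr_ae (Filter.Eventually.of_forall fun y => ?_)
      simp only [hGz]
      rw [mul_assoc, ← e_add]
      congr 2
      ring
    have h5 : 2 / Real.pi ≤ ‖mu r (Y - z)‖ := by
      apply norm_mu_ge
      rw [abs_le]
      constructor
      · rw [hz]; linarith [hY.1]
      · rw [hz]; linarith [hY.2]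
    have hpi := Real.pi_pos
    have h6 : ‖𝓕 G Y‖ ≤ Real.pi / 2 * ‖𝓕 H (Y - z)‖ := by
      rw [h4, norm_mul]
      calc ‖𝓕 G Y‖ = Real.pi / 2 * (2 / Real.pi * ‖𝓕 G Y‖) := by field_simp
        _ ≤ Real.pi / 2 * (‖mu r (Y - z)‖ * ‖𝓕 G Y‖) := by gcongr
    calc ‖𝓕 G Y‖ ^ 2 ≤ (Real.pi / 2 * ‖𝓕 H (Y - z)‖) ^ 2 := by gcongr
      _ = _ := by ring
  have hcontG : Continuous (𝓕 G) := by
    have hGi : Integrable G := integrable_of_supp hG hM hs
    simpa using! VectorFourier.fourierIntegral_continuous (V := ℝ) (W := ℝ)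
      Real.continuous_fourierChar (L := innerₗ ℝ) continuous_inner hGi
  calc ∫ Y in Icc c (c + 2 ^ r), ‖𝓕 G Y‖ ^ 2
      ≤ ∫ Y in Icc c (c + 2 ^ r), (Real.pi / 2) ^ 2 * ‖𝓕 H (Y - z)‖ ^ 2 := by
        refine setIntegral_mono_on ?_ (hshift.integrableOn.const_mul _) measurableSet_Icc hpt
        exact (hcontG.norm.pow 2).integrableOn_Icc
    _ = (Real.pi / 2) ^ 2 * ∫ Y in Icc c (c + 2 ^ r), ‖𝓕 H (Y - z)‖ ^ 2 :=
        integral_const_mul _ _
    _ ≤ (Real.pi / 2) ^ 2 * ∫ Y, ‖𝓕 H (Y - z)‖ ^ 2 :=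
        mul_le_mul_of_nonneg_left (setIntegral_le_integral hshift
          (Filter.Eventually.of_forall fun Y => by positivity)) (by positivity)
    _ = (Real.pi / 2) ^ 2 * ∫ ξ, ‖𝓕 H ξ‖ ^ 2 := by
        rw [integral_sub_right_eq_self (fun ξ => ‖𝓕 H ξ‖ ^ 2) z]
    _ ≤ (Real.pi / 2) ^ 2 * (2 * Q * ∫ y, ‖G y‖) := by gcongr
    _ = Real.pi ^ 2 / 2 * Q * ∫ y, ‖G y‖ := by ring

/-- **local Bessel at one scale**, for the coefficients of a node (real integral) -/
theorem coef_window (r : ℕ) {k : ℕ} {j : ℤ} (hG : Measurable G) (hM : ∀ x, ‖G x‖ ≤ M)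
    (hs : ∀ x, x ∉ Ivl k j → G x = 0) (hQ : ∀ i : ℤ, avN G r i ≤ Q) (c : ℝ) :
    ∫ Y in Icc c (c + 2 ^ r), ‖coef G Y k j‖ ^ 2 ≤ 2 ^ k * (Real.pi ^ 2 / 2 * Q * avN G k j) := by
  have e1 : ∀ Y, ‖coef G Y k j‖ ^ 2 = (2 ^ k) ^ 2 * ‖𝓕 G Y‖ ^ 2 := by
    intro Y
    rw [coef_eq hs, norm_mul, norm_pow, Complex.norm_ofNat]
    ring
  simp_rw [e1]
  rw [integral_const_mul, avN_eq hs]
  have h := bessel_window r hG hM hs hQ c
  calc (2 ^ k) ^ 2 * ∫ Y in Icc c (c + 2 ^ r), ‖𝓕 G Y‖ ^ 2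
      ≤ (2 ^ k) ^ 2 * (Real.pi ^ 2 / 2 * Q * ∫ y, ‖G y‖) := by gcongr
    _ = _ := by ring

theorem continuous_coef {k : ℕ} {j : ℤ} (hG : Measurable G) (hM : ∀ x, ‖G x‖ ≤ M) :
    Continuous fun Y => coef G Y k j := by
  unfold coef
  refine continuous_const.mul ?_
  refine continuous_of_dominated (F := fun Y y => G y * e (-Y) y) (bound := fun _ => M) ?_ ?_ ?_ ?_
  · exact fun Y => (hG.mul (measurable_e _)).aestronglyMeasurable
  · refine fun Y => Filter.Eventually.of_forall fun y => ?_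
    simpa using hM y
  · have : IsFiniteMeasure (volume.restrict (Ivl k j)) :=
      ⟨by rw [Measure.restrict_apply MeasurableSet.univ, univ_inter, volume_Ivl]
          exact ENNReal.ofReal_lt_top⟩
    exact integrable_const _
  · refine Filter.Eventually.of_forall fun y => ?_
    unfold e
    fun_prop

/-- **local Bessel at one scale**, for an arbitrary `G` restricted to a node, averages bounded
inside the node only -/
theorem coef_window' (r : ℕ) {k : ℕ} {j : ℤ} (hkr : k ≤ r) (hG : Measurable G)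
    (hM : ∀ x, ‖G x‖ ≤ M) (hQ : ∀ i : ℤ, Ivl r i ⊆ Ivl k j → avN G r i ≤ Q) (c : ℝ) :
    ∫ Y in Icc c (c + 2 ^ r), ‖coef G Y k j‖ ^ 2 ≤ 2 ^ k * (Real.pi ^ 2 / 2 * Q * avN G k j) := by
  classical
  set G' : ℝ → ℂ := (Ivl k j).indicator G with hG'
  have hG'm : Measurable G' := hG.indicator (measurableSet_Ivl k j)
  have hM0 : 0 ≤ M := (norm_nonneg _).trans (hM 0)
  have hG'M : ∀ x, ‖G' x‖ ≤ M := fun x => by
    by_cases hx : x ∈ Ivl k j
    · rw [hG', indicator_of_mem hx]; exact hM x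
    · rw [hG', indicator_of_notMem hx, norm_zero]; exact hM0
  have hs : ∀ x, x ∉ Ivl k j → G' x = 0 := fun x hx => by rw [hG', indicator_of_notMem hx]
  have e1 : ∀ Y, coef G' Y k j = coef G Y k j := by
    intro Y
    unfold coef
    congr 1
    refine setIntegral_congr_fun (measurableSet_Ivl k j) fun y hy => ?_
    simp only [hG', indicator_of_mem hy]
  have e2 : avN G' k j = avN G k j := by
    unfold avN
    congr 1
    refine setIntegral_congr_fun (measurableSet_Ivl k j) fun y hy => ?_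
    simp only [hG', indicator_of_mem hy]
  have hsub : ∀ i : ℤ, Ivl r i ⊆ Ivl k j ∨ Disjoint (Ivl r i) (Ivl k j) := by
    intro i
    by_cases hne : (Ivl r i ∩ Ivl k j).Nonempty
    · left
      obtain ⟨x, hx1, hx2⟩ := hne
      intro y hy
      rw [mem_Ivl] at hx1 hx2 hy ⊢
      rw [← hx2]
      have h4 : ∀ d : ℕ, ∀ x y : ℝ, fl (k + d) x = fl (k + d) y → fl k x = fl k y := by
        intro d
        induction d with
        | zero => exact fun x y h => h
        | succ d ih =>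
          intro x y h
          apply ih
          rw [fl_half, fl_half (k + d) y]
          have h' : fl (k + d + 1) x = fl (k + d + 1) y := h
          rw [h']
      obtain ⟨d, rfl⟩ := Nat.exists_eq_add_of_le hkr
      exact h4 d y x (hy.trans hx1.symm)
    · right
      exact Set.disjoint_iff_inter_eq_empty.2 (Set.not_nonempty_iff_eq_empty.1 hne)
  by_cases hQ0 : 0 ≤ Q
  · rw [← e2]
    simp_rw [← e1]
    refine coef_window r hG'm hG'M hs (fun i => ?_) c
    rcases hsub i with h | h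
    · refine le_trans (le_of_eq ?_) (hQ i h)
      unfold avN
      congr 1
      refine setIntegral_congr_fun (measurableSet_Ivl r i) fun y hy => ?_
      simp only [hG', indicator_of_mem (h hy)]
    · refine le_trans (le_of_eq ?_) hQ0
      unfold avN
      have : ∫ y in Ivl r i, ‖G' y‖ = 0 := by
        rw [setIntegral_congr_fun (g := fun _ => (0 : ℝ)) (measurableSet_Ivl r i)]
        · simp
        · intro y hy
          simp only [hG', indicator_of_notMem (Set.disjoint_left.1 h hy), norm_zero]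
      rw [this, mul_zero]
  · exfalso
    apply hQ0
    -- a node of generation `r` inside `Ivl k j`
    set x : ℝ := (j : ℝ) / 2 ^ k with hx
    have hxm : x ∈ Ivl k j := by
      unfold Ivl
      refine ⟨le_rfl, ?_⟩
      rw [hx]
      gcongr
      linarith
    have hne : (Ivl r (fl r x) ∩ Ivl k j).Nonempty := ⟨x, mem_Ivl.2 rfl, hxm⟩
    rcases hsub (fl r x) with h | h
    · exact (avN_nonneg G r _).trans (hQ _ h)
    · exact absurd (Set.disjoint_iff_inter_eq_empty.1 h) (Set.nonempty_iff_ne_empty.1 hne)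

/-- **(MULT)**: multiplicity of a set of labels with large coefficients in a window of length
`2 ^ r`. -/
theorem mult (r : ℕ) {k : ℕ} {j : ℤ} (hkr : k ≤ r) (hG : Measurable G)
    (hM : ∀ x, ‖G x‖ ≤ M) (hQ : ∀ i : ℤ, Ivl r i ⊆ Ivl k j → avN G r i ≤ Q) {β : ℝ} (hβ : 0 < β)
    {A : Set ℝ} (hA : ∀ Y ∈ A, β ≤ ‖coef G Y k j‖) (c : ℝ) :
    volume (A ∩ Icc c (c + 2 ^ r)) ≤
      ENNReal.ofReal (2 ^ k * (Real.pi ^ 2 / 2 * Q * avN G k j / β ^ 2)) := by
  have hcont : Continuous fun Y => coef G Y k j := continuous_coef hG hM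
  set S : Set ℝ := {Y | β ≤ ‖coef G Y k j‖} with hS
  have hSm : MeasurableSet S := (isClosed_le continuous_const hcont.norm).measurableSet
  have hsub : A ∩ Icc c (c + 2 ^ r) ⊆ S ∩ Icc c (c + 2 ^ r) :=
    inter_subset_inter_left _ hA
  refine (measure_mono hsub).trans ?_
  have hfin : volume (S ∩ Icc c (c + 2 ^ r)) ≠ ⊤ :=
    ne_top_of_le_ne_top (by rw [Real.volume_Icc]; exact ENNReal.ofReal_ne_top)
      (measure_mono inter_subset_right)
  rw [← ENNReal.ofReal_toReal hfin]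
  apply ENNReal.ofReal_le_ofReal
  have h1 := coef_window' r hkr hG hM hQ c
  have hint : IntegrableOn (fun Y => ‖coef G Y k j‖ ^ 2) (Icc c (c + 2 ^ r)) :=
    (hcont.norm.pow 2).integrableOn_Icc
  have h2 : β ^ 2 * (volume (S ∩ Icc c (c + 2 ^ r))).toReal ≤
      ∫ Y in Icc c (c + 2 ^ r), ‖coef G Y k j‖ ^ 2 := by
    calc β ^ 2 * (volume (S ∩ Icc c (c + 2 ^ r))).toReal
        = ∫ Y in S ∩ Icc c (c + 2 ^ r), β ^ 2 := by
          rw [setIntegral_const, smul_eq_mul, mul_comm]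
          rfl
      _ ≤ ∫ Y in S ∩ Icc c (c + 2 ^ r), ‖coef G Y k j‖ ^ 2 := by
          refine setIntegral_mono_on ?_ (hint.mono_set inter_subset_right)
            (hSm.inter measurableSet_Icc) fun Y hY => ?_
          · exact integrableOn_const hfin
          · have : β ≤ ‖coef G Y k j‖ := hY.1
            gcongr
      _ ≤ ∫ Y in Icc c (c + 2 ^ r), ‖coef G Y k j‖ ^ 2 := by
          refine setIntegral_mono_set hint ?_ (Filter.Eventually.of_forall inter_subset_right)
          exact Filter.Eventually.of_forall fun Y => by positivity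
  have hb2 : 0 < β ^ 2 := by positivity
  have h3 := h2.trans h1
  rw [mul_comm, ← le_div_iff₀ hb2] at h3
  refine h3.trans (le_of_eq ?_)
  ring

end Crest.Agent.R100.Mult939
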