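import Crest.Agent.R100.Id_833
import Crest.Agent.R081.FrPl

/-!
# R100 / S0132, helper833: the norm `N(J,g)` and the Plancherel-Polya inequality (B3 of doc 1968)
-/

set_option autoImplicit false

open MeasureTheory Set
open scoped ENNReal FourierTransform

noncomputable section

namespace Crest.Agent.R100.PP833

open Crest.Agent.R100.Mart933 Crest.Agent.R100.Wide933 Crest.Agent.R100.Id833

/-! ## coefficients as functions of the label -/

variable {g : ℝ → ℂ} {M : ℝ}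

theorem coef_eq_fourier (g : ℝ → ℂ) (Y : ℝ) (k : ℕ) (j : ℤ) :
    coef g Y k j = 2 ^ k * 𝓕 ((Ivl k j).indicator g) Y := by
  unfold coef
  rw [Real.fourier_real_eq_integral_exp_smul, ← integral_indicator (measurableSet_Ivl _ _)]
  congr 1
  refine integral_congr_ae (Filter.Eventually.of_forall fun y => ?_)
  by_cases hy : y ∈ Ivl k j
  · simp only [indicator_of_mem hy]
    unfold e
    rw [smul_eq_mul, mul_comm]
    congr 2
    push_cast
    ring
  · simp only [indicator_of_notMem hy, smul_zero]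

theorem integrable_ind (hg : Measurable g) (hM : ∀ x, ‖g x‖ ≤ M) (k : ℕ) (j : ℤ) :
    Integrable ((Ivl k j).indicator g) :=
  (integrable_indicator_iff (measurableSet_Ivl _ _)).2 (intOn k j hg hM)

theorem memLp_ind (hg : Measurable g) (hM : ∀ x, ‖g x‖ ≤ M) (k : ℕ) (j : ℤ) :
    MemLp ((Ivl k j).indicator g) 2 := by
  rw [memLp_indicator_iff_restrict (measurableSet_Ivl _ _)]
  have : IsFiniteMeasure (volume.restrict (Ivl k j)) :=
    ⟨by rw [Measure.restrict_apply_univ, volume_Ivl]; exact ENNReal.ofReal_lt_top⟩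
  exact MemLp.of_bound hg.aestronglyMeasurable M (Filter.Eventually.of_forall hM)

theorem continuous_coef (hg : Measurable g) (hM : ∀ x, ‖g x‖ ≤ M) (k : ℕ) (j : ℤ) :
    Continuous fun Y => coef g Y k j := by
  have h1 : Continuous (𝓕 ((Ivl k j).indicator g)) := by
    have := VectorFourier.fourierIntegral_continuous (μ := (volume : Measure ℝ))
      (e := Real.fourierChar) (L := innerₗ ℝ) Real.continuous_fourierChar continuous_inner
      (integrable_ind hg hM k j)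
    exact this
  simp_rw [coef_eq_fourier]
  exact continuous_const.mul h1

theorem measurable_coef (hg : Measurable g) (hM : ∀ x, ‖g x‖ ≤ M) (k : ℕ) (j : ℤ) :
    Measurable fun Y => coef g Y k j := (continuous_coef hg hM k j).measurable

/-- the `p`-th power of the norm: `|J| ∫ |c_J(g,Y)|^p dY` -/
def Np (p : ℝ) (g : ℝ → ℂ) (k : ℕ) (j : ℤ) : ℝ≥0∞ :=
  ENNReal.ofReal (1 / 2 ^ k) * ∫⁻ Y, ‖coef g Y k j‖ₑ ^ p

/-- **Plancherel** -/
theorem plancherel (hg : Measurable g) (hM : ∀ x, ‖g x‖ ≤ M) (k : ℕ) (j : ℤ) :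
    ∫⁻ Y, ‖coef g Y k j‖ₑ ^ (2 : ℝ) =
      ENNReal.ofReal (2 ^ k) ^ 2 * ∫⁻ y in Ivl k j, ‖g y‖ₑ ^ (2 : ℝ) := by
  have h := Crest.Agent.R081.Fr.eLpNorm_fourier (integrable_ind hg hM k j) (memLp_ind hg hM k j)
  have key : ∀ u : ℝ → ℂ, ∫⁻ y, ‖u y‖ₑ ^ (2 : ℝ) = eLpNorm u 2 volume ^ (2 : ℝ) := by
    intro u
    rw [eLpNorm_eq_lintegral_rpow_enorm_toReal (by norm_num) (by norm_num)]
    simp only [ENNReal.toReal_ofNat]
    rw [← ENNReal.rpow_mul]
    norm_num
  have h1 : ∫⁻ y, ‖𝓕 ((Ivl k j).indicator g) y‖ₑ ^ (2 : ℝ) =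
      ∫⁻ y, ‖(Ivl k j).indicator g y‖ₑ ^ (2 : ℝ) := by
    rw [key, key, h]
  have h2 : ∫⁻ y, ‖(Ivl k j).indicator g y‖ₑ ^ (2 : ℝ) = ∫⁻ y in Ivl k j, ‖g y‖ₑ ^ (2 : ℝ) := by
    rw [← lintegral_indicator (measurableSet_Ivl _ _)]
    refine lintegral_congr fun y => ?_
    by_cases hy : y ∈ Ivl k j
    · rw [indicator_of_mem hy, indicator_of_mem hy]
    · rw [indicator_of_notMem hy, indicator_of_notMem hy]; simp
  have h3 : ∀ Y, ‖coef g Y k j‖ₑ ^ (2 : ℝ) =
      ENNReal.ofReal (2 ^ k) ^ 2 * ‖𝓕 ((Ivl k j).indicator g) Y‖ₑ ^ (2 : ℝ) := by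
    intro Y
    rw [coef_eq_fourier, enorm_mul, ENNReal.mul_rpow_of_nonneg _ _ (by norm_num)]
    congr 1
    rw [← ENNReal.rpow_natCast]
    congr 1
    rw [← ofReal_norm]
    congr 1
    rw [norm_pow, Complex.norm_ofNat]
  simp_rw [h3]
  rw [lintegral_const_mul' _ _ (by finiteness), h1, h2]

/-! ## the kernel `S(t) = ∫_0^1 e^{-2πiut} du` -/

/-- `S(t)` -/
def SK (t : ℝ) : ℂ := ∫ u in (0 : ℝ)..1, e (-u) t

theorem SK_zero : SK 0 = 1 := by
  unfold SK
  have : ∀ u : ℝ, e (-u) 0 = 1 := fun u => by unfold e; simp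
  simp_rw [this]
  simp

theorem SK_eq {t : ℝ} (ht : t ≠ 0) :
    SK t = (Complex.exp (Complex.I * ((-(2 * Real.pi * t) : ℝ) : ℂ)) - 1) /
      (Complex.I * ((-(2 * Real.pi * t) : ℝ) : ℂ)) := by
  have hc : (Complex.I * ((-(2 * Real.pi * t) : ℝ) : ℂ)) ≠ 0 := by
    refine mul_ne_zero Complex.I_ne_zero ?_
    rw [Ne, Complex.ofReal_eq_zero, neg_eq_zero]
    have := Real.pi_pos
    positivity
  have h := integral_exp_mul_complex (a := 0) (b := 1) hc
  unfold SK
  have e1 : ∀ u : ℝ, e (-u) t = Complex.exp (Complex.I * ((-(2 * Real.pi * t) : ℝ) : ℂ) * u) := by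
    intro u
    unfold e
    congr 1
    push_cast
    ring
  simp_rw [e1]
  rw [h]
  simp

theorem norm_SK_ge {t : ℝ} (ht : |t| ≤ 1 / 2) : 2 / Real.pi ≤ ‖SK t‖ := by
  have hpi := Real.pi_pos
  by_cases h0 : t = 0
  · rw [h0, SK_zero, norm_one, div_le_one hpi]
    linarith [Real.pi_gt_three]
  · have e0 : ‖Complex.I * ((-(2 * Real.pi * t) : ℝ) : ℂ)‖ = |-(2 * Real.pi * t)| := by
      rw [norm_mul, Complex.norm_I, one_mul, Complex.norm_real, Real.norm_eq_abs]
    rw [SK_eq h0, norm_div, Complex.norm_exp_I_mul_ofReal_sub_one, e0]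
    have e1 : -(2 * Real.pi * t) / 2 = -(Real.pi * t) := by ring
    rw [e1, Real.sin_neg, Real.norm_eq_abs]
    have e2 : |2 * -Real.sin (Real.pi * t)| = 2 * |Real.sin (Real.pi * t)| := by
      rw [abs_mul, abs_neg]; norm_num
    have e3 : |-(2 * Real.pi * t)| = 2 * Real.pi * |t| := by
      rw [abs_neg, abs_mul, abs_of_pos (by positivity)]
    rw [e2, e3]
    have ht0 : 0 < |t| := abs_pos.2 h0
    have h1 : 2 * |t| ≤ |Real.sin (Real.pi * t)| := by
      have h2 := Real.mul_le_sin (x := Real.pi * |t|) (by positivity) (by nlinarith)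
      have h3 : 2 / Real.pi * (Real.pi * |t|) = 2 * |t| := by field_simp
      rw [h3] at h2
      refine h2.trans ?_
      rcases abs_cases t with ⟨ha, _⟩ | ⟨ha, _⟩
      · rw [ha]; exact le_abs_self _
      · rw [ha, mul_neg, Real.sin_neg]; exact neg_le_abs _
    rw [div_le_div_iff₀ hpi (by positivity)]
    nlinarith

theorem measurable_SK : Measurable SK := by
  have : StronglyMeasurable (fun p : ℝ × ℝ => e (-p.2) p.1) :=
    (measurable_e₂ measurable_snd.neg measurable_fst).stronglyMeasurable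
  have h2 := (StronglyMeasurable.integral_prod_right' (ν := volume.restrict (Ioc (0 : ℝ) 1))
    this).measurable
  have e1 : SK = fun t => ∫ u in Ioc (0 : ℝ) 1, e (-u) t := by
    ext t
    unfold SK
    rw [intervalIntegral.integral_of_le zero_le_one]
  rw [e1]
  exact h2

/-- rescaled position in the node -/
def pos (k : ℕ) (j : ℤ) (y : ℝ) : ℝ := (y - (j + 1 / 2) / 2 ^ k) * 2 ^ k

theorem abs_pos_le {k : ℕ} {j : ℤ} {y : ℝ} (hy : y ∈ Ivl k j) : |pos k j y| ≤ 1 / 2 := by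
  have h0 : (0 : ℝ) < 2 ^ k := by positivity
  unfold Ivl at hy
  obtain ⟨h1, h2⟩ := hy
  rw [div_le_iff₀ h0] at h1
  rw [lt_div_iff₀ h0] at h2
  have e1 : pos k j y = y * 2 ^ k - (j + 1 / 2) := by
    unfold pos; rw [sub_mul, div_mul_cancel₀ _ h0.ne']
  rw [e1, abs_le]
  constructor <;> linarith

open Classical in
/-- the multiplier `(2/π)/S` -/
def mu (k : ℕ) (j : ℤ) (y : ℝ) : ℂ :=
  if |pos k j y| ≤ 1 / 2 then ((2 / Real.pi : ℝ) : ℂ) / SK (pos k j y) else 0

theorem norm_mu_le (k : ℕ) (j : ℤ) (y : ℝ) : ‖mu k j y‖ ≤ 1 := by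
  classical
  unfold mu
  split_ifs with h
  · have h1 := norm_SK_ge h
    have hpi := Real.pi_pos
    have h2 : (0 : ℝ) < 2 / Real.pi := by positivity
    rw [norm_div, Complex.norm_real, Real.norm_eq_abs, abs_of_pos h2]
    exact (div_le_one (h2.trans_le h1)).2 h1
  · simp

theorem measurable_mu (k : ℕ) (j : ℤ) : Measurable (mu k j) := by
  classical
  have hp : Measurable (pos k j) := by unfold pos; fun_prop
  unfold mu
  exact Measurable.ite (measurableSet_le hp.abs measurable_const)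
    (measurable_const.div (measurable_SK.comp hp)) measurable_const

theorem mu_mul_SK {k : ℕ} {j : ℤ} {y : ℝ} (hy : y ∈ Ivl k j) :
    mu k j y * SK (pos k j y) = ((2 / Real.pi : ℝ) : ℂ) := by
  classical
  have h := abs_pos_le hy
  have h1 := norm_SK_ge h
  have hpi := Real.pi_pos
  have h2 : (0 : ℝ) < 2 / Real.pi := by positivity
  have h3 : SK (pos k j y) ≠ 0 := by
    rw [← norm_pos_iff]; exact h2.trans_le h1
  unfold mu
  rw [if_pos h, div_mul_cancel₀ _ h3]

theorem norm_mul_mu_le (hM : ∀ x, ‖g x‖ ≤ M) (k : ℕ) (j : ℤ) (x : ℝ) : ‖mu k j x * g x‖ ≤ M := by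
  rw [norm_mul]
  calc ‖mu k j x‖ * ‖g x‖ ≤ 1 * M :=
        mul_le_mul (norm_mu_le k j x) (hM x) (norm_nonneg _) zero_le_one
    _ = M := one_mul _

/-- the reproducing formula -/
theorem repro (hg : Measurable g) (hM : ∀ x, ‖g x‖ ≤ M) (k : ℕ) (j : ℤ) (Y : ℝ) :
    ((2 / Real.pi : ℝ) : ℂ) * coef g Y k j =
      ∫ u in Ioc (0 : ℝ) 1, e (u * 2 ^ k) ((j + 1 / 2) / 2 ^ k) *
        coef (fun y => mu k j y * g y) (Y + u * 2 ^ k) k j := by
  have h0 : (0 : ℝ) < 2 ^ k := by positivity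
  -- rewrite the right side as a double integral
  have e1 : ∀ u : ℝ, e (u * 2 ^ k) ((j + 1 / 2) / 2 ^ k) *
        coef (fun y => mu k j y * g y) (Y + u * 2 ^ k) k j =
      2 ^ k * ∫ y in Ivl k j, mu k j y * g y * e (-Y) y * e (-u) (pos k j y) := by
    intro u
    unfold coef
    rw [← mul_assoc, mul_comm (e _ _) ((2 : ℂ) ^ k), mul_assoc, ← integral_const_mul]
    congr 1
    refine integral_congr_ae (Filter.Eventually.of_forall fun y => ?_)
    have e2 : e (-(Y + u * 2 ^ k)) y = e (-Y) y * e (-(u * 2 ^ k)) y := by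
      rw [← e_add]; congr 1; ring
    have e3 : e (-u) (pos k j y) = e (u * 2 ^ k) ((j + 1 / 2) / 2 ^ k) * e (-(u * 2 ^ k)) y := by
      unfold e pos
      rw [← Complex.exp_add]
      congr 1
      push_cast
      field_simp
      ring
    change e (u * 2 ^ k) ((j + 1 / 2) / 2 ^ k) * (mu k j y * g y * e (-(Y + u * 2 ^ k)) y) =
      mu k j y * g y * e (-Y) y * e (-u) (pos k j y)
    rw [e2, e3]
    ring
  simp_rw [e1]
  rw [integral_const_mul]
  have hfin : volume (Ivl k j) < ⊤ := by rw [volume_Ivl]; exact ENNReal.ofReal_lt_top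
  have : IsFiniteMeasure (volume.restrict (Ivl k j)) := ⟨by simpa using hfin⟩
  have hint : Integrable (fun p : ℝ × ℝ => mu k j p.2 * g p.2 * e (-Y) p.2 *
      e (-p.1) (pos k j p.2)) ((volume.restrict (Ioc (0 : ℝ) 1)).prod
        (volume.restrict (Ivl k j))) := by
    refine Integrable.of_bound (Measurable.aestronglyMeasurable ?_) M
      (Filter.Eventually.of_forall fun p => ?_)
    · have hp : Measurable (pos k j) := by unfold pos; fun_prop
      exact ((((measurable_mu k j).comp measurable_snd).mul (hg.comp measurable_snd)).mul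
        ((measurable_e _).comp measurable_snd)).mul
          (measurable_e₂ measurable_fst.neg (hp.comp measurable_snd))
    · rw [norm_mul, norm_mul, norm_e, norm_e, mul_one, mul_one]
      exact norm_mul_mu_le hM k j p.2
  rw [integral_integral_swap (f := fun u y => mu k j y * g y * e (-Y) y * e (-u) (pos k j y)) hint]
  have e4 : ∫ y in Ivl k j, ∫ u in Ioc (0 : ℝ) 1, mu k j y * g y * e (-Y) y * e (-u) (pos k j y) =
      ∫ y in Ivl k j, ((2 / Real.pi : ℝ) : ℂ) * (g y * e (-Y) y) := by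
    refine setIntegral_congr_fun (measurableSet_Ivl _ _) fun y hy => ?_
    rw [integral_const_mul]
    have : ∫ u in Ioc (0 : ℝ) 1, e (-u) (pos k j y) = SK (pos k j y) := by
      unfold SK
      rw [intervalIntegral.integral_of_le zero_le_one]
    rw [this, ← mu_mul_SK hy]
    ring
  rw [e4, integral_const_mul]
  unfold coef
  ring

/-! ## Plancherel-Polya -/

theorem enorm_coef_le (hg : Measurable g) (hM : ∀ x, ‖g x‖ ≤ M) (k : ℕ) (j : ℤ) (Y : ℝ) :
    ‖coef g Y k j‖ₑ ≤ ENNReal.ofReal (Real.pi / 2) *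
      ∫⁻ u in Ioc (0 : ℝ) 1, ‖coef (fun y => mu k j y * g y) (Y + u * 2 ^ k) k j‖ₑ := by
  have hpi := Real.pi_pos
  have h1 := repro hg hM k j Y
  have h2 : coef g Y k j = ((Real.pi / 2 : ℝ) : ℂ) * (((2 / Real.pi : ℝ) : ℂ) * coef g Y k j) := by
    rw [← mul_assoc, ← Complex.ofReal_mul]
    have : Real.pi / 2 * (2 / Real.pi) = 1 := by field_simp
    rw [this, Complex.ofReal_one, one_mul]
  rw [h2, h1, enorm_mul]
  have h3 : ‖((Real.pi / 2 : ℝ) : ℂ)‖ₑ = ENNReal.ofReal (Real.pi / 2) := by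
    rw [← ofReal_norm, Complex.norm_real, Real.norm_eq_abs, abs_of_pos (by positivity)]
  rw [h3]
  gcongr
  refine (enorm_integral_le_lintegral_enorm _).trans (le_of_eq ?_)
  refine lintegral_congr fun u => ?_
  rw [enorm_mul]
  have : ‖e (u * 2 ^ k) ((j + 1 / 2) / 2 ^ k)‖ₑ = 1 := by
    rw [← ofReal_norm, norm_e, ENNReal.ofReal_one]
  rw [this, one_mul]

/-- Jensen on a probability space, `lintegral` form -/
theorem rpow_lintegral_le {α : Type*} [MeasurableSpace α] (ν : Measure α) [IsProbabilityMeasure ν]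
    {p : ℝ} (hp : 1 ≤ p) {F : α → ℝ≥0∞} (hF : AEMeasurable F ν) :
    (∫⁻ a, F a ∂ν) ^ p ≤ ∫⁻ a, F a ^ p ∂ν := by
  rcases eq_or_lt_of_le hp with h1 | h1
  · rw [← h1]; simp
  · have hpq : p.HolderConjugate (p / (p - 1)) := Real.HolderConjugate.conjExponent h1
    have h := ENNReal.lintegral_mul_le_Lp_mul_Lq ν hpq hF (g := fun _ => 1) aemeasurable_const
    simp only [Pi.mul_apply, mul_one, ENNReal.one_rpow, lintegral_const, measure_univ,
      ENNReal.one_rpow] at h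
    have h0 : (0 : ℝ) < p := by linarith
    calc (∫⁻ a, F a ∂ν) ^ p ≤ ((∫⁻ a, F a ^ p ∂ν) ^ (1 / p)) ^ p := by gcongr
      _ = ∫⁻ a, F a ^ p ∂ν := by
        rw [← ENNReal.rpow_mul, one_div_mul_cancel h0.ne', ENNReal.rpow_one]

/-- affine change of variables -/
theorem lintegral_affine {G : ℝ → ℝ≥0∞} (hG : Measurable G) {a : ℝ} (ha : 0 < a) (b : ℝ) :
    ∫⁻ u, G (a * u + b) = ENNReal.ofReal (1 / a) * ∫⁻ Z, G Z := by
  have h1 : ∫⁻ u, G (a * u + b) = ∫⁻ v, G (v + b) ∂(Measure.map (a * ·) volume) := by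
    have h2 : Measurable fun v => G (v + b) := hG.comp (measurable_id.add_const b)
    exact (lintegral_map (μ := volume) h2 (measurable_const_mul a)).symm
  rw [h1, Real.map_volume_mul_left ha.ne', lintegral_smul_measure,
    lintegral_add_right_eq_self (fun Z => G Z) b, smul_eq_mul, abs_of_pos (inv_pos.2 ha), one_div]

/-- pointwise form: the value at `Y` is controlled by the window `(Y, Y + 2^k]` -/
theorem rpow_coef_le {p : ℝ} (hp : 1 ≤ p) (hg : Measurable g) (hM : ∀ x, ‖g x‖ ≤ M) (k : ℕ)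
    (j : ℤ) (Y : ℝ) :
    ‖coef g Y k j‖ₑ ^ p ≤ ENNReal.ofReal (Real.pi / 2) ^ p * (ENNReal.ofReal (1 / 2 ^ k) *
      ∫⁻ Z in Ioc Y (Y + 2 ^ k), ‖coef (fun y => mu k j y * g y) Z k j‖ₑ ^ p) := by
  have h0 : (0 : ℝ) < 2 ^ k := by positivity
  have hp0 : 0 ≤ p := by linarith
  have hmg : Measurable fun y => mu k j y * g y := (measurable_mu k j).mul hg
  have hmc := measurable_coef hmg (norm_mul_mu_le hM k j) k j
  have : IsProbabilityMeasure (volume.restrict (Ioc (0 : ℝ) 1)) :=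
    ⟨by rw [Measure.restrict_apply_univ, Real.volume_Ioc]; simp⟩
  have hFm : Measurable fun u : ℝ => ‖coef (fun y => mu k j y * g y) (Y + u * 2 ^ k) k j‖ₑ :=
    (hmc.comp (by fun_prop : Measurable fun u : ℝ => Y + u * 2 ^ k)).enorm
  calc ‖coef g Y k j‖ₑ ^ p
      ≤ (ENNReal.ofReal (Real.pi / 2) * ∫⁻ u in Ioc (0 : ℝ) 1,
          ‖coef (fun y => mu k j y * g y) (Y + u * 2 ^ k) k j‖ₑ) ^ p := by
        gcongr
        exact enorm_coef_le hg hM k j Y
    _ = ENNReal.ofReal (Real.pi / 2) ^ p * (∫⁻ u in Ioc (0 : ℝ) 1,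
          ‖coef (fun y => mu k j y * g y) (Y + u * 2 ^ k) k j‖ₑ) ^ p :=
        ENNReal.mul_rpow_of_nonneg _ _ hp0
    _ ≤ ENNReal.ofReal (Real.pi / 2) ^ p * ∫⁻ u in Ioc (0 : ℝ) 1,
          ‖coef (fun y => mu k j y * g y) (Y + u * 2 ^ k) k j‖ₑ ^ p := by
        gcongr
        exact rpow_lintegral_le _ hp hFm.aemeasurable
    _ = _ := by
        congr 1
        -- change of variables
        have hG : Measurable fun Z : ℝ => (Ioc Y (Y + 2 ^ k)).indicator
            (fun Z => ‖coef (fun y => mu k j y * g y) Z k j‖ₑ ^ p) Z :=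
          (hmc.enorm.pow_const p).indicator measurableSet_Ioc
        rw [← lintegral_indicator measurableSet_Ioc, ← lintegral_indicator measurableSet_Ioc]
        have e1 : (fun u : ℝ => (Ioc (0 : ℝ) 1).indicator
            (fun u => ‖coef (fun y => mu k j y * g y) (Y + u * 2 ^ k) k j‖ₑ ^ p) u) =
            fun u => (fun Z : ℝ => (Ioc Y (Y + 2 ^ k)).indicator
              (fun Z => ‖coef (fun y => mu k j y * g y) Z k j‖ₑ ^ p) Z) (2 ^ k * u + Y) := by
          ext u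
          have e2 : (2 : ℝ) ^ k * u + Y = Y + u * 2 ^ k := by ring
          simp only [e2]
          by_cases hu : u ∈ Ioc (0 : ℝ) 1
          · rw [indicator_of_mem hu, indicator_of_mem]
            constructor
            · nlinarith [hu.1]
            · nlinarith [hu.2]
          · rw [indicator_of_notMem hu, indicator_of_notMem]
            rintro ⟨h1, h2⟩
            refine hu ⟨?_, ?_⟩
            · by_contra hc
              push Not at hc
              nlinarith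
            · by_contra hc
              push Not at hc
              nlinarith
        rw [e1]
        exact lintegral_affine hG h0 Y

/-- **Plancherel-Polya**: for values `Y i` in distinct cells `[i 2^k, (i+1) 2^k)`,
`∑ |c_J(g, Y i)|^p ≤ 2 (π/2)^p |J| ∫ |c_J(μ g, Z)|^p dZ`. -/
theorem PP {p : ℝ} (hp : 1 ≤ p) (hg : Measurable g) (hM : ∀ x, ‖g x‖ ≤ M) (k : ℕ) (j : ℤ)
    (I : Finset ℤ) (Y : ℤ → ℝ) (hY : ∀ i ∈ I, (i : ℝ) * 2 ^ k ≤ Y i ∧ Y i < (i + 1) * 2 ^ k) :
    ∑ i ∈ I, ‖coef g (Y i) k j‖ₑ ^ p ≤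
      2 * ENNReal.ofReal (Real.pi / 2) ^ p * Np p (fun y => mu k j y * g y) k j := by
  classical
  have h0 : (0 : ℝ) < 2 ^ k := by positivity
  set G : ℝ → ℝ≥0∞ := fun Z => ‖coef (fun y => mu k j y * g y) Z k j‖ₑ ^ p with hG
  -- the two disjoint families of windows
  have hdis : ∀ s : ℝ, ∑ i ∈ I, ∫⁻ Z in Ico (((i : ℝ) + s) * 2 ^ k) ((i + s + 1) * 2 ^ k), G Z ≤
      ∫⁻ Z, G Z := by
    intro s
    rw [← lintegral_biUnion_finset ?_ (fun i _ => measurableSet_Ico)]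
    · exact setLIntegral_le_lintegral _ _
    · intro i _ i' _ hne
      change Disjoint (Ico _ _) (Ico _ _)
      rw [Set.disjoint_left]
      rintro x ⟨h1, h2⟩ ⟨h3, h4⟩
      have h5 : (i : ℝ) < i' + 1 := by
        by_contra hc; push Not at hc; nlinarith
      have h6 : (i' : ℝ) < i + 1 := by
        by_contra hc; push Not at hc; nlinarith
      have h7 : i < i' + 1 := by exact_mod_cast h5
      have h8 : i' < i + 1 := by exact_mod_cast h6
      exact hne (by omega)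
  have hwin : ∀ i ∈ I, ∫⁻ Z in Ioc (Y i) (Y i + 2 ^ k), G Z ≤
      (∫⁻ Z in Ico (((i : ℝ) + 0) * 2 ^ k) ((i + 0 + 1) * 2 ^ k), G Z) +
        ∫⁻ Z in Ico (((i : ℝ) + 1) * 2 ^ k) ((i + 1 + 1) * 2 ^ k), G Z := by
    intro i hi
    obtain ⟨h1, h2⟩ := hY i hi
    refine le_trans (lintegral_mono_set ?_) (lintegral_union_le _ _ _)
    rintro x ⟨h3, h4⟩
    rcases lt_or_ge x ((i + 1) * 2 ^ k) with h5 | h5
    · left
      exact ⟨by simp only [add_zero]; linarith, by simpa using h5⟩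
    · right
      refine ⟨h5, ?_⟩
      have : ((i : ℝ) + 1 + 1) * 2 ^ k = (i + 1) * 2 ^ k + 2 ^ k := by ring
      rw [this]
      linarith
  calc ∑ i ∈ I, ‖coef g (Y i) k j‖ₑ ^ p
      ≤ ∑ i ∈ I, ENNReal.ofReal (Real.pi / 2) ^ p * (ENNReal.ofReal (1 / 2 ^ k) *
          ∫⁻ Z in Ioc (Y i) (Y i + 2 ^ k), G Z) :=
        Finset.sum_le_sum fun i _ => rpow_coef_le hp hg hM k j (Y i)
    _ ≤ ∑ i ∈ I, ENNReal.ofReal (Real.pi / 2) ^ p * (ENNReal.ofReal (1 / 2 ^ k) *
          ((∫⁻ Z in Ico (((i : ℝ) + 0) * 2 ^ k) ((i + 0 + 1) * 2 ^ k), G Z) +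
            ∫⁻ Z in Ico (((i : ℝ) + 1) * 2 ^ k) ((i + 1 + 1) * 2 ^ k), G Z)) := by
        refine Finset.sum_le_sum fun i hi => ?_
        gcongr
        exact hwin i hi
    _ = ENNReal.ofReal (Real.pi / 2) ^ p * (ENNReal.ofReal (1 / 2 ^ k) *
          ((∑ i ∈ I, ∫⁻ Z in Ico (((i : ℝ) + 0) * 2 ^ k) ((i + 0 + 1) * 2 ^ k), G Z) +
            ∑ i ∈ I, ∫⁻ Z in Ico (((i : ℝ) + 1) * 2 ^ k) ((i + 1 + 1) * 2 ^ k), G Z)) := by
        rw [← Finset.sum_add_distrib, Finset.mul_sum, Finset.mul_sum]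
    _ ≤ ENNReal.ofReal (Real.pi / 2) ^ p * (ENNReal.ofReal (1 / 2 ^ k) *
          ((∫⁻ Z, G Z) + ∫⁻ Z, G Z)) := by
        gcongr
        · exact hdis 0
        · exact hdis 1
    _ = 2 * ENNReal.ofReal (Real.pi / 2) ^ p * Np p (fun y => mu k j y * g y) k j := by
        unfold Np
        rw [← two_mul]
        ring

/-- one value -/
theorem PP_one {p : ℝ} (hp : 1 ≤ p) (hg : Measurable g) (hM : ∀ x, ‖g x‖ ≤ M) (k : ℕ) (j : ℤ)
    (Y : ℝ) :
    ‖coef g Y k j‖ₑ ^ p ≤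
      ENNReal.ofReal (Real.pi / 2) ^ p * Np p (fun y => mu k j y * g y) k j := by
  refine (rpow_coef_le hp hg hM k j Y).trans ?_
  unfold Np
  gcongr
  exact Measure.restrict_le_self

/-- **Plancherel-Polya from near-maximality for all multipliers** -/
theorem PP' {p : ℝ} (hp : 1 ≤ p) (hg : Measurable g) (hM : ∀ x, ‖g x‖ ≤ M) (k : ℕ) (j : ℤ)
    {Λ : ℝ≥0∞} (hΛ : ∀ m : ℝ → ℂ, Measurable m → (∀ x, ‖m x‖ ≤ 1) →
      Np p (fun y => m y * g y) k j ≤ Λ) (I : Finset ℤ) (Y : ℤ → ℝ)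
    (hY : ∀ i ∈ I, (i : ℝ) * 2 ^ k ≤ Y i ∧ Y i < (i + 1) * 2 ^ k) :
    ∑ i ∈ I, ‖coef g (Y i) k j‖ₑ ^ p ≤ 2 * ENNReal.ofReal (Real.pi / 2) ^ p * Λ := by
  refine (PP hp hg hM k j I Y hY).trans ?_
  gcongr
  exact hΛ _ (measurable_mu k j) (norm_mu_le k j)

end Crest.Agent.R100.PP833
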