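import Crest.Agent.R100.Tree1_711

/-!
# R100 / S0132, block B9 (helper711), second part: domination of a level by the trees of the tops,
and the translation substitution `Z = Y + θ(x)`.
-/

set_option autoImplicit false

open MeasureTheory Set
open scoped ENNReal

noncomputable section

namespace Crest.Agent.R100.Tree711

open Crest.Agent.R100.Mart933 Crest.Agent.R100.Wide933 Crest.Agent.R100.Hunt933
open Crest.Agent.R100.Run288

variable {g : ℝ → ℂ} {κ : ℝ → ℕ} {M : ℝ}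

/-! ## death -/

theorem bb_eq_zero {R : ℕ} (hR : ∀ y, g y ≠ 0 → κ y < R) {k : ℕ} (hk : R ≤ k) (Z : ℝ) (j : ℤ) :
    bb g κ Z k j = 0 := by
  have h1 : Pb g κ k = fun _ => 0 := by
    ext y
    unfold Pb
    split_ifs with h
    · by_contra h0
      have := hR y h0
      omega
    · rfl
  unfold bb coef
  rw [h1]
  simp

/-! ## pointwise domination of a level -/

section dom

variable {ι : Type*} {T : Finset ι} {kt : ι → ℕ} {jt : ι → ℤ} {wt : ι → ℝ} {Rt : ι → ℝ → ℝ}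

/-- **POINTWISE DOMINATION.**  `k₁` is a visited node of level `a` (`a ≤ |c⁺|`), the coefficients are
`≤ 2a` on `[k₁, K]` (no condition if `K < k₁`).  Then there is a top `t` above `x` and near `Z` such that
the segment is dominated by `(4β+1)a + R_t(x)`. -/
theorem segment_dom (hg : Measurable g) (hM : ∀ x, ‖g x‖ ≤ M) (hκ : Measurable κ) {R : ℕ}
    (hR : ∀ y, g y ≠ 0 → κ y < R) {k₀ m β : ℕ} {x Q a B C₀ Z : ℝ} (hQ0 : 0 ≤ Q) (ha : 0 < a)
    (hB : 0 ≤ B) (hC₀ : 0 ≤ C₀) (hQ : ∀ l, k₀ ≤ l → l ≤ m → avN (Pb g κ l) l (fl l x) ≤ Q)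
    (hβ : 60 * (B * Q) ≤ a * 2 ^ β)
    (hcov : ∀ k, k₀ ≤ k → k ≤ m → a ≤ ‖bb g κ Z k (fl k x)‖ →
      ∃ t ∈ T, kt t ≤ k ∧ fl (kt t) x = jt t ∧ |Z - wt t| ≤ B * 2 ^ k)
    (hRt0 : ∀ t ∈ T, 0 ≤ Rt t x)
    (hRt : ∀ t ∈ T, fl (kt t) x = jt t → ∀ k' K', kt t ≤ k' → k' ≤ K' → K' ≤ m →
      (∀ l, k' ≤ l → l ≤ K' → ‖bb g κ (wt t) l (fl l x)‖ ≤ 3 * a) →
      ‖TS g κ (wt t) k' K' x‖ ≤ Rt t x + C₀ * XS g κ k' K' x)
    {k₁ K : ℕ} (hk₀ : k₀ ≤ k₁) (hk₁ : k₁ ≤ m) (hKm : K ≤ m) (hvis : a ≤ ‖bb g κ Z k₁ (fl k₁ x)‖)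
    (hs : ∀ l, k₁ ≤ l → l ≤ K → ‖bb g κ Z l (fl l x)‖ ≤ 2 * a) :
    ∃ t ∈ T, fl (kt t) x = jt t ∧ |Z - wt t| ≤ B * 2 ^ (R - 1) ∧
      ‖TS g κ Z k₁ K x‖ - (C₀ + 1) * XS g κ k₁ K x ≤ (4 * β + 1) * a + Rt t x := by
  obtain ⟨t, ht, h1, h2, h3⟩ := hcov k₁ hk₀ hk₁ hvis
  have hkR : k₁ ≤ R - 1 := by
    by_contra hc
    have h0 := bb_eq_zero hR (k := k₁) (by omega) Z (fl k₁ x)
    rw [h0, norm_zero] at hvis
    linarith
  refine ⟨t, ht, h2, h3.trans ?_, ?_⟩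
  · exact mul_le_mul_of_nonneg_left (pow_le_pow_right₀ (by norm_num) hkR) hB
  rcases lt_or_ge K k₁ with hK | hK
  · have e1 : TS g κ Z k₁ K x = 0 := by
      unfold TS; rw [Finset.Ico_eq_empty_of_le hK.le]; simp
    have e2 := XS_nonneg g κ k₁ K x
    have e3 := hRt0 t ht
    have e4 : 0 ≤ (C₀ + 1) * XS g κ k₁ K x := by positivity
    rw [e1, norm_zero]
    have : 0 ≤ (4 * (β : ℝ) + 1) * a := by positivity
    linarith
  · obtain ⟨k', g1, g2, g3, g4⟩ := tree_compare hg hM hκ hK hQ0 ha hB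
      (fun l hl1 hl2 => hQ l (hk₀.trans hl1) (hl2.trans hKm)) hs h3 hβ
    have g5 : ‖TS g κ (wt t) k' K x‖ ≤ Rt t x + C₀ * XS g κ k' K x := by
      rcases g3 with g3 | g3
      · rw [g3]
        have e1 : TS g κ (wt t) K K x = 0 := by unfold TS; simp
        have e2 := XS_nonneg g κ K K x
        have e3 := hRt0 t ht
        rw [e1, norm_zero]
        positivity
      · exact hRt t ht h2 k' K (h1.trans g1) g2 hKm g3
    have g6 := XS_mono g κ g1 (le_refl K) x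
    have g7 : C₀ * XS g κ k' K x ≤ C₀ * XS g κ k₁ K x := by gcongr
    linarith

end dom

/-! ## the substitution -/

section subst

/-- an interval of length `2 B r` is covered by `⌈2B⌉ + 1` intervals of length `r` -/
theorem volume_inter_le {Λ : Set ℝ} {r B : ℝ} (hr : 0 < r) {μ₀ : ℝ≥0∞}
    (hmult : ∀ u : ℝ, volume (Λ ∩ Icc u (u + r)) ≤ μ₀) (c : ℝ) :
    volume (Λ ∩ {Y | |Y - c| ≤ B * r}) ≤ (⌈2 * B⌉₊ + 1 : ℕ) * μ₀ := by
  have hsub : Λ ∩ {Y | |Y - c| ≤ B * r} ⊆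
      ⋃ i ∈ Finset.range (⌈2 * B⌉₊ + 1), Λ ∩ Icc (c - B * r + i * r) (c - B * r + i * r + r) := by
    rintro Y ⟨hY1, hY2⟩
    rw [mem_ofPred_eq, abs_le] at hY2
    have h0 : 0 ≤ (Y - (c - B * r)) / r := div_nonneg (by linarith [hY2.1]) hr.le
    have h1 : (Y - (c - B * r)) / r ≤ 2 * B := by
      rw [div_le_iff₀ hr]; linarith [hY2.2]
    have h2 := Nat.floor_le h0
    have h3 := Nat.lt_floor_add_one ((Y - (c - B * r)) / r)
    have h4 : ⌊(Y - (c - B * r)) / r⌋₊ ≤ ⌈2 * B⌉₊ := by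
      have : (⌊(Y - (c - B * r)) / r⌋₊ : ℝ) ≤ ⌈2 * B⌉₊ := h2.trans (h1.trans (Nat.le_ceil _))
      exact_mod_cast this
    rw [le_div_iff₀ hr] at h2
    rw [div_lt_iff₀ hr] at h3
    refine mem_biUnion (Finset.mem_coe.2 (Finset.mem_range.2 (Nat.lt_succ_of_le h4)))
      ⟨hY1, ?_, ?_⟩
    · linarith
    · have : ((⌊(Y - (c - B * r)) / r⌋₊ : ℝ) + 1) * r =
        ⌊(Y - (c - B * r)) / r⌋₊ * r + r := by ring
      linarith
  refine (measure_mono hsub).trans ((measure_biUnion_finset_le _ _).trans ?_)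
  refine (Finset.sum_le_sum fun i _ => hmult _).trans ?_
  rw [Finset.sum_const, Finset.card_range, nsmul_eq_mul]

variable {ι : Type*} {T : Finset ι} {kt : ι → ℕ} {jt : ι → ℤ} {wt : ι → ℝ}

open Classical in
/-- the dominating function of a level: maximum over the tops above `x` and near `Y + θ(x)` -/
def GG (T : Finset ι) (kt : ι → ℕ) (jt : ι → ℤ) (wt : ι → ℝ) (θ : ℝ → ℝ) (ρ : ℝ)
    (H : ι → ℝ → ℝ≥0∞) (x Y : ℝ) : ℝ≥0∞ :=
  T.sup fun t => if fl (kt t) x = jt t ∧ |Y + θ x - wt t| ≤ ρ then H t x else 0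

theorem le_GG {θ : ℝ → ℝ} {ρ : ℝ} {H : ι → ℝ → ℝ≥0∞} {x Y : ℝ} {t : ι} (ht : t ∈ T)
    (h1 : fl (kt t) x = jt t) (h2 : |Y + θ x - wt t| ≤ ρ) : H t x ≤ GG T kt jt wt θ ρ H x Y := by
  classical
  have h := Finset.le_sup (f := fun t => if fl (kt t) x = jt t ∧ |Y + θ x - wt t| ≤ ρ then H t x
    else 0) ht
  simp only [h1, h2, and_self, if_true] at h
  exact h

theorem GG_pow_le {θ : ℝ → ℝ} {ρ : ℝ} {H : ι → ℝ → ℝ≥0∞} {q : ℕ} (x Y : ℝ) :
    GG T kt jt wt θ ρ H x Y ^ q ≤ ∑ t ∈ T, (Ivl (kt t) (jt t)).indicator (fun x => H t x ^ q) x *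
      ({Y | |Y - (wt t - θ x)| ≤ ρ} : Set ℝ).indicator 1 Y + if q = 0 then 1 else 0 := by
  classical
  by_cases hq : q = 0
  · subst hq
    simp
  rw [if_neg hq, add_zero]
  unfold GG
  rcases T.eq_empty_or_nonempty with hT | hT
  · subst hT; simp [zero_pow hq]
  obtain ⟨t, ht, he⟩ := Finset.exists_mem_eq_sup T hT
    (fun t => if fl (kt t) x = jt t ∧ |Y + θ x - wt t| ≤ ρ then H t x else 0)
  rw [he]
  refine le_trans ?_ (Finset.single_le_sum (f := fun t =>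
    (Ivl (kt t) (jt t)).indicator (fun x => H t x ^ q) x *
      ({Y | |Y - (wt t - θ x)| ≤ ρ} : Set ℝ).indicator 1 Y) (fun _ _ => zero_le) ht)
  split_ifs with hc
  · rw [indicator_of_mem (mem_Ivl.2 hc.1), indicator_of_mem]
    · simp
    · rw [mem_ofPred_eq]
      have : Y - (wt t - θ x) = Y + θ x - wt t := by ring
      rw [this]; exact hc.2
  · rw [zero_pow hq]; exact zero_le

theorem measurable_GG {θ : ℝ → ℝ} (hθ : Measurable θ) {ρ : ℝ} {H : ι → ℝ → ℝ≥0∞}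
    (hH : ∀ t, Measurable (H t)) :
    Measurable fun p : ℝ × ℝ => GG T kt jt wt θ ρ H p.1 p.2 := by
  classical
  unfold GG
  have : (fun p : ℝ × ℝ => T.sup fun t =>
      if fl (kt t) p.1 = jt t ∧ |p.2 + θ p.1 - wt t| ≤ ρ then H t p.1 else 0) =
      T.sup fun t => fun p : ℝ × ℝ =>
        if fl (kt t) p.1 = jt t ∧ |p.2 + θ p.1 - wt t| ≤ ρ then H t p.1 else 0 := by
    ext p
    rw [Finset.sup_apply]
  rw [this]
  refine Finset.sup_induction measurable_const (fun f hf g hg => hf.sup hg) fun t _ => ?_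
  refine Measurable.ite ?_ ((hH t).comp measurable_fst) measurable_const
  refine MeasurableSet.inter ?_ ?_
  · exact measurableSet_eq_fun ((measurable_fl (kt t)).comp measurable_fst) measurable_const
  · have hm : Measurable fun p : ℝ × ℝ => |p.2 + θ p.1 - wt t| :=
      ((measurable_snd.add (hθ.comp measurable_fst)).sub_const (wt t)).norm
    exact measurableSet_le hm measurable_const

/-- **INTEGRATED BOUND** (translation substitution): for every `x`, the set of the labels `Y ∈ Λ` with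
`Y + θ(x)` in the tree of `t` has measure `≤ (⌈2B⌉+1) μ₀`. -/
theorem lint_GG_le {θ : ℝ → ℝ} {Λ : Set ℝ} {r B : ℝ}
    (hr : 0 < r) {μ₀ : ℝ≥0∞} (hmult : ∀ u : ℝ, volume (Λ ∩ Icc u (u + r)) ≤ μ₀)
    {H : ι → ℝ → ℝ≥0∞} (hH : ∀ t, Measurable (H t)) {q : ℕ} (hq : q ≠ 0) {I : Set ℝ} :
    ∫⁻ x in I, ∫⁻ Y in Λ, GG T kt jt wt θ (B * r) H x Y ^ q ≤
      (⌈2 * B⌉₊ + 1 : ℕ) * μ₀ * ∑ t ∈ T, ∫⁻ x in Ivl (kt t) (jt t) ∩ I, H t x ^ q := by
  classical
  have h1 : ∀ x, ∫⁻ Y in Λ, GG T kt jt wt θ (B * r) H x Y ^ q ≤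
      ∑ t ∈ T, (Ivl (kt t) (jt t)).indicator (fun x => H t x ^ q) x *
        ((⌈2 * B⌉₊ + 1 : ℕ) * μ₀) := by
    intro x
    calc ∫⁻ Y in Λ, GG T kt jt wt θ (B * r) H x Y ^ q
        ≤ ∫⁻ Y in Λ, ∑ t ∈ T, (Ivl (kt t) (jt t)).indicator (fun x => H t x ^ q) x *
            ({Y | |Y - (wt t - θ x)| ≤ B * r} : Set ℝ).indicator 1 Y := by
          refine lintegral_mono fun Y => ?_
          have := GG_pow_le (T := T) (kt := kt) (jt := jt) (wt := wt) (θ := θ) (ρ := B * r)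
            (H := H) (q := q) x Y
          rwa [if_neg hq, add_zero] at this
      _ = ∑ t ∈ T, (Ivl (kt t) (jt t)).indicator (fun x => H t x ^ q) x *
            volume (Λ ∩ {Y | |Y - (wt t - θ x)| ≤ B * r}) := by
          have hms : ∀ t, MeasurableSet {Y | |Y - (wt t - θ x)| ≤ B * r} := fun t =>
            measurableSet_le ((measurable_id.sub_const _).norm) measurable_const
          rw [lintegral_finsetSum]
          · refine Finset.sum_congr rfl fun t _ => ?_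
            rw [lintegral_const_mul _ (measurable_one.indicator (hms t)),
              lintegral_indicator_one (hms t), Measure.restrict_apply (hms t), inter_comm]
          · exact fun t _ => (measurable_one.indicator (hms t)).const_mul _
      _ ≤ _ := by
          refine Finset.sum_le_sum fun t _ => ?_
          gcongr
          exact volume_inter_le hr hmult _
  calc ∫⁻ x in I, ∫⁻ Y in Λ, GG T kt jt wt θ (B * r) H x Y ^ q
      ≤ ∫⁻ x in I, ∑ t ∈ T, (Ivl (kt t) (jt t)).indicator (fun x => H t x ^ q) x *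
        ((⌈2 * B⌉₊ + 1 : ℕ) * μ₀) := lintegral_mono h1
    _ = ∑ t ∈ T, ∫⁻ x in I, (Ivl (kt t) (jt t)).indicator (fun x => H t x ^ q) x *
        ((⌈2 * B⌉₊ + 1 : ℕ) * μ₀) := by
        rw [lintegral_finsetSum]
        exact fun t _ => (((hH t).pow_const q).indicator (measurableSet_Ivl _ _)).mul_const _
    _ = _ := by
        rw [Finset.mul_sum]
        refine Finset.sum_congr rfl fun t _ => ?_
        rw [lintegral_mul_const _ (((hH t).pow_const q).indicator (measurableSet_Ivl _ _)),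
          lintegral_indicator (measurableSet_Ivl _ _),
          Measure.restrict_restrict (measurableSet_Ivl _ _), mul_comm]

/-- the same with the integrals in the other order -/
theorem lint_GG_le' {θ : ℝ → ℝ} (hθ : Measurable θ) {Λ : Set ℝ} {r B : ℝ}
    (hr : 0 < r) {μ₀ : ℝ≥0∞} (hmult : ∀ u : ℝ, volume (Λ ∩ Icc u (u + r)) ≤ μ₀)
    {H : ι → ℝ → ℝ≥0∞} (hH : ∀ t, Measurable (H t)) {q : ℕ} (hq : q ≠ 0) {I : Set ℝ} :
    ∫⁻ Y in Λ, ∫⁻ x in I, GG T kt jt wt θ (B * r) H x Y ^ q ≤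
      (⌈2 * B⌉₊ + 1 : ℕ) * μ₀ * ∑ t ∈ T, ∫⁻ x in Ivl (kt t) (jt t) ∩ I, H t x ^ q := by
  rw [lintegral_lintegral_swap]
  · exact lint_GG_le hr hmult hH hq
  · have h1 : Measurable fun p : ℝ × ℝ => GG T kt jt wt θ (B * r) H p.2 p.1 ^ q :=
      ((measurable_GG hθ hH).comp measurable_swap).pow_const q
    exact h1.aemeasurable

end subst

end Crest.Agent.R100.Tree711
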