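import Crest.Agent.R100.Pop_341
import Crest.Agent.R100.Mult_939
import Crest.Agent.R100.PP_833
import Crest.Agent.R100.Tree2_711

/-!
# R100 / S0132, helper905: lower-bound glue (B3 + B4)

From the near-maximiser block (node `k0 j0`, `g`, `κ`, densities `≤ 2`, lower bound for the
`L^p` norm of the labels) to ONE cap `R`, ONE level `b` and ONE set of labels `Λ`.
-/

set_option autoImplicit false

open MeasureTheory Set
open scoped ENNReal

noncomputable section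

namespace Crest.Agent.R100.LB905

open Crest.Agent.R100.Mart933 Crest.Agent.R100.Wide933 Crest.Agent.R100.Id833
open Crest.Agent.R100.Caps341 Crest.Agent.R100.Pop341 Crest.Agent.R100.PP833

variable {g : ℝ → ℂ} {κ : ℝ → ℕ} {M : ℝ}

/-- the labels with small coefficients carry little of the `p`-norm -/
theorem small_labels (hg : Measurable g) (hM : ∀ x, ‖g x‖ ≤ M) (k : ℕ) (j : ℤ) {β p Q : ℝ}
    (hβ : 0 < β) (hp : 2 ≤ p) (hQ : avN g k j ≤ Q) :
    ∫⁻ Y in {Y | ‖coef g Y k j‖ < β}, ‖coef g Y k j‖ₑ ^ p ≤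
      ENNReal.ofReal (2 ^ k * (β ^ (p - 2) * (M * Q))) := by
  have hM0 : 0 ≤ M := (norm_nonneg _).trans (hM 0)
  have h1 : ∀ Y ∈ {Y | ‖coef g Y k j‖ < β}, ‖coef g Y k j‖ₑ ^ p ≤
      ENNReal.ofReal β ^ (p - 2) * ‖coef g Y k j‖ₑ ^ (2 : ℝ) := by
    intro Y hY
    rw [mem_ofPred_eq] at hY
    have e1 : ‖coef g Y k j‖ₑ ^ p = ‖coef g Y k j‖ₑ ^ (p - 2) * ‖coef g Y k j‖ₑ ^ (2 : ℝ) := by
      rw [← ENNReal.rpow_add_of_nonneg _ _ (by linarith) (by norm_num)]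
      congr 1; ring
    rw [e1]
    gcongr
    rw [← ofReal_norm]
    exact ENNReal.ofReal_le_ofReal hY.le
  have hmc : Measurable fun Y => ‖coef g Y k j‖ₑ ^ (2 : ℝ) :=
    (PP833.measurable_coef hg hM k j).enorm.pow_const _
  have h2 : ∫⁻ y in Ivl k j, ‖g y‖ₑ ^ (2 : ℝ) ≤ ENNReal.ofReal (1 / 2 ^ k * (M * Q)) := by
    have h3 : ∀ y, ‖g y‖ₑ ^ (2 : ℝ) ≤ ENNReal.ofReal (M * ‖g y‖) := by
      intro y
      rw [← ofReal_norm, ENNReal.ofReal_rpow_of_nonneg (norm_nonneg _) (by norm_num)]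
      refine ENNReal.ofReal_le_ofReal ?_
      have : ‖g y‖ ^ (2 : ℝ) = ‖g y‖ * ‖g y‖ := by
        rw [show (2 : ℝ) = ((2 : ℕ) : ℝ) by norm_num, Real.rpow_natCast, pow_two]
      rw [this]
      exact mul_le_mul_of_nonneg_right (hM y) (norm_nonneg _)
    refine (lintegral_mono h3).trans ?_
    rw [← ofReal_integral_eq_lintegral_ofReal]
    · refine ENNReal.ofReal_le_ofReal ?_
      rw [integral_const_mul]
      have h4 : ∫ y in Ivl k j, ‖g y‖ = 1 / 2 ^ k * avN g k j := by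
        unfold avN
        rw [← mul_assoc, one_div, inv_mul_cancel₀ (by positivity), one_mul]
      rw [h4]
      calc M * (1 / 2 ^ k * avN g k j) = 1 / 2 ^ k * (M * avN g k j) := by ring
        _ ≤ _ := by gcongr
    · exact (intOn k j hg.norm (M := M) fun x => by simpa using hM x).const_mul M
    · exact Filter.Eventually.of_forall fun y => mul_nonneg hM0 (norm_nonneg _)
  calc ∫⁻ Y in {Y | ‖coef g Y k j‖ < β}, ‖coef g Y k j‖ₑ ^ p
      ≤ ∫⁻ Y in {Y | ‖coef g Y k j‖ < β}, ENNReal.ofReal β ^ (p - 2) * ‖coef g Y k j‖ₑ ^ (2 : ℝ) :=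
        setLIntegral_mono (hmc.const_mul _) h1
    _ ≤ ∫⁻ Y, ENNReal.ofReal β ^ (p - 2) * ‖coef g Y k j‖ₑ ^ (2 : ℝ) :=
        setLIntegral_le_lintegral _ _
    _ = ENNReal.ofReal β ^ (p - 2) * (ENNReal.ofReal (2 ^ k) ^ 2 *
          ∫⁻ y in Ivl k j, ‖g y‖ₑ ^ (2 : ℝ)) := by
        rw [lintegral_const_mul _ hmc, plancherel hg hM]
    _ ≤ ENNReal.ofReal β ^ (p - 2) * (ENNReal.ofReal (2 ^ k) ^ 2 *
          ENNReal.ofReal (1 / 2 ^ k * (M * Q))) := by gcongr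
    _ = _ := by
        rw [ENNReal.ofReal_rpow_of_pos hβ, ← ENNReal.ofReal_pow (by positivity),
          ← ENNReal.ofReal_mul (by positivity), ← ENNReal.ofReal_mul (by positivity)]
        congr 1
        field_simp

/-- the set of labels with large coefficients has finite measure -/
theorem volume_large (hg : Measurable g) (hM : ∀ x, ‖g x‖ ≤ M) (k : ℕ) (j : ℤ) {β : ℝ}
    (hβ : 0 < β) {A : Set ℝ} (hA : ∀ Y ∈ A, β ≤ ‖coef g Y k j‖) : volume A ≠ ⊤ := by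
  have hM0 : 0 ≤ M := (norm_nonneg _).trans (hM 0)
  have hmc : Measurable fun Y => ‖coef g Y k j‖ₑ ^ (2 : ℝ) :=
    (PP833.measurable_coef hg hM k j).enorm.pow_const _
  have hfin : ∫⁻ Y, ‖coef g Y k j‖ₑ ^ (2 : ℝ) ≠ ⊤ := by
    rw [plancherel hg hM]
    refine ENNReal.mul_ne_top (by finiteness) ?_
    have h1 : ∫⁻ y in Ivl k j, ‖g y‖ₑ ^ (2 : ℝ) ≤ ∫⁻ _ in Ivl k j, ENNReal.ofReal M ^ (2 : ℝ) := by
      refine lintegral_mono fun y => ?_
      refine ENNReal.rpow_le_rpow ?_ (by norm_num)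
      rw [← ofReal_norm]
      exact ENNReal.ofReal_le_ofReal (hM y)
    refine ne_top_of_le_ne_top ?_ h1
    rw [setLIntegral_const, volume_Ivl]
    finiteness
  have h1 : A ⊆ {Y | ENNReal.ofReal β ^ (2 : ℝ) ≤ ‖coef g Y k j‖ₑ ^ (2 : ℝ)} := by
    intro Y hY
    rw [mem_ofPred_eq]
    refine ENNReal.rpow_le_rpow ?_ (by norm_num)
    rw [← ofReal_norm]
    exact ENNReal.ofReal_le_ofReal (hA Y hY)
  have h2 := mul_meas_ge_le_lintegral (μ := volume) hmc (ENNReal.ofReal β ^ (2 : ℝ))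
  have h3 : ENNReal.ofReal β ^ (2 : ℝ) ≠ 0 := by
    rw [ENNReal.ofReal_rpow_of_pos hβ]
    exact (ENNReal.ofReal_pos.2 (by positivity)).ne'
  intro hcon
  have h4 : volume {Y | ENNReal.ofReal β ^ (2 : ℝ) ≤ ‖coef g Y k j‖ₑ ^ (2 : ℝ)} = ⊤ :=
    top_unique (hcon ▸ measure_mono h1)
  rw [h4, ENNReal.mul_top h3] at h2
  exact hfin (top_unique h2)

theorem hi_eq (g : ℝ → ℂ) (κ : ℝ → ℕ) (k : ℕ) :
    hi g κ k = fun y => if k ≤ κ y then g y else 0 := rfl

/-- **LB glue.**  `N = Np p g k0 j0`. -/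
theorem lb_glue (hg : Measurable g) (hM : ∀ x, ‖g x‖ ≤ M) (hκ : Measurable κ) {m : ℕ}
    (hm : ∀ y, κ y ≤ m) {k0 : ℕ} {j0 : ℤ} (hgt : ∀ y, k0 < κ y)
    (hd : ∀ k j, avN (fun y => if k ≤ κ y then g y else 0) k j ≤ 2) {p Λ₀ β : ℝ} (hp : 2 ≤ p)
    (hΛ : 0 < Λ₀) (hβ : 0 < β) (hβ1 : β ≤ 1)
    (hlb : ENNReal.ofReal Λ₀ ≤ Np p g k0 j0) (hub : Np p g k0 j0 ≠ ⊤)
    (hnum : β ^ (p - 2) * (M * 2) ≤ Λ₀ / 2) :
    ∃ (R : ℕ) (b : ℝ) (Λ : Set ℝ), MeasurableSet Λ ∧ volume Λ ≠ 0 ∧ volume Λ ≠ ⊤ ∧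
      k0 + 2 ≤ R ∧ 3 / 8 * β ≤ b ∧ b ≤ 2 ∧
      (∀ Y ∈ Λ, b ≤ ‖coef (lo g κ R) Y k0 j0‖) ∧
      Np p g k0 j0 ≤ ENNReal.ofReal (700 / β ^ 2 * (1 / 2 ^ k0)) * volume Λ *
        ENNReal.ofReal (16 / 3 * b) ^ p ∧
      (∀ u : ℝ, volume (Λ ∩ Icc u (u + 2 ^ (R - 1))) ≤
        ENNReal.ofReal (2 ^ k0 * (150 / β ^ 2))) := by
  have hM0 : 0 ≤ M := (norm_nonneg _).trans (hM 0)
  have hk0 : (0 : ℝ) < 2 ^ k0 := by positivity
  have hPb : (fun y => if k0 ≤ κ y then g y else 0) = g := by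
    ext y
    rw [if_pos (hgt y).le]
  have hav : avN g k0 j0 ≤ 2 := by
    have := hd k0 j0
    rwa [hPb] at this
  -- the total
  set T := ∫⁻ Y, ‖coef g Y k0 j0‖ₑ ^ p with hT
  have hNT : Np p g k0 j0 = ENNReal.ofReal (1 / 2 ^ k0) * T := rfl
  have hTN : T = ENNReal.ofReal (2 ^ k0) * Np p g k0 j0 := by
    rw [hNT, ← mul_assoc, ← ENNReal.ofReal_mul hk0.le, mul_one_div_cancel hk0.ne',
      ENNReal.ofReal_one, one_mul]
  have hT0 : T ≠ 0 := by
    intro h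
    rw [hNT, h, mul_zero] at hlb
    exact absurd (nonpos_iff_eq_zero.1 hlb) (ENNReal.ofReal_pos.2 hΛ).ne'
  have hTt : T ≠ ⊤ := by
    rw [hTN]
    exact ENNReal.mul_ne_top ENNReal.ofReal_ne_top hub
  have hsmall : ∫⁻ Y in {Y | ‖coef g Y k0 j0‖ < β}, ‖coef g Y k0 j0‖ₑ ^ p ≤ T / 2 := by
    refine (small_labels hg hM k0 j0 hβ hp hav).trans ?_
    rw [hTN]
    calc ENNReal.ofReal (2 ^ k0 * (β ^ (p - 2) * (M * 2)))
        ≤ ENNReal.ofReal (2 ^ k0 * (Λ₀ / 2)) := by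
          refine ENNReal.ofReal_le_ofReal ?_
          gcongr
      _ = ENNReal.ofReal (2 ^ k0) * ENNReal.ofReal Λ₀ / 2 := by
          rw [ENNReal.ofReal_mul hk0.le, ENNReal.ofReal_div_of_pos (by norm_num),
            ENNReal.ofReal_ofNat, mul_div_assoc]
      _ ≤ _ := by gcongr
  -- number of levels
  set J : ℕ := ⌈16 / (3 * β)⌉₊ with hJ
  have hJ0 : 16 / (3 * β) ≤ J := Nat.le_ceil _
  have hJ1 : (J : ℝ) < 16 / (3 * β) + 1 := Nat.ceil_lt_add_one (by positivity)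
  have hJlt : (J : ℝ) < 2 ^ J := by exact_mod_cast Nat.lt_two_pow_self
  have hJ2 : avN g k0 j0 < 2 ^ J * (3 / 8 * β) := by
    have h1 : 16 / (3 * β) < 2 ^ J := hJ0.trans_lt hJlt
    rw [div_lt_iff₀ (by positivity)] at h1
    nlinarith
  obtain ⟨R, -, hR1, i, hiJ, hpop⟩ := pop hg hM hκ hm k0 j0 hβ hJ2 (by linarith : (0 : ℝ) ≤ p)
    hT0 hTt hsmall
  set b : ℝ := 2 ^ i * (3 / 8 * β) with hb
  have hb0 : 3 / 8 * β ≤ b := by
    have : (1 : ℝ) ≤ 2 ^ i := one_le_pow₀ (by norm_num)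
    nlinarith
  have hbpos : 0 < b := lt_of_lt_of_le (by positivity) hb0
  set Λ := LL g κ k0 j0 β R b with hΛd
  have hvol0 : volume Λ ≠ 0 := by
    intro h
    rw [h, zero_mul, mul_zero] at hpop
    exact hT0 (nonpos_iff_eq_zero.1 hpop)
  have hvolt : volume Λ ≠ ⊤ := volume_large hg hM k0 j0 hβ fun Y hY => hY.1
  obtain ⟨Y₀, hY₀⟩ : Λ.Nonempty := by
    by_contra h
    rw [not_nonempty_iff_eq_empty] at h
    rw [h] at hvol0
    exact hvol0 measure_empty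
  have hR2 : k0 + 2 ≤ R := by
    by_contra hcon
    have hz : lo g κ R = fun _ => 0 := by
      ext y
      unfold lo
      rw [if_neg]
      have := hgt y
      omega
    have h1 := hY₀.2.2.2.1
    rw [hz] at h1
    unfold coef at h1
    simp only [zero_mul, integral_zero, mul_zero, norm_zero] at h1
    linarith
  have hb2 : b ≤ 2 := by
    have h1 := hY₀.2.2.2.1
    have h2 := norm_coef_le (lo g κ R) Y₀ k0 j0
    have h3 := Caps341.avN_mono (measurable_lo hg hκ R)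
      (fun x => (norm_lo_le g κ R x).trans (hM x)) hg hM (norm_lo_le g κ R) k0 j0
    linarith
  refine ⟨R, b, Λ, measurableSet_LL hg hκ k0 j0 β R b, hvol0, hvolt, hR2, hb0, hb2,
    fun Y hY => hY.2.2.2.1, ?_, ?_⟩
  · -- popularity
    rw [hNT]
    have hc : ((2 * (⌊avN g k0 j0 / (β / 8)⌋₊ + 1) * J : ℕ) : ℝ) ≤ 350 / β ^ 2 := by
      have h1 : (⌊avN g k0 j0 / (β / 8)⌋₊ : ℝ) ≤ 16 / β := by
        refine (Nat.floor_le (div_nonneg (avN_nonneg _ _ _) (by positivity))).trans ?_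
        rw [div_le_div_iff₀ (by positivity) hβ]
        nlinarith
      have h2 : (1 : ℝ) ≤ 1 / β := by
        rw [le_div_iff₀ hβ]; linarith
      have h3 : 16 / (3 * β) = 16 / 3 * (1 / β) := by
        field_simp
      have h4 : (16 : ℝ) / β = 16 * (1 / β) := by
        field_simp
      have h5 : (350 : ℝ) / β ^ 2 = 350 * ((1 / β) * (1 / β)) := by
        field_simp
      push_cast
      rw [h3] at hJ1
      rw [h4] at h1
      rw [h5]
      have h6 : (J : ℝ) ≤ 19 / 3 * (1 / β) := by linarith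
      have h7 : (2 : ℝ) * (⌊avN g k0 j0 / (β / 8)⌋₊ + 1) ≤ 34 * (1 / β) := by linarith
      calc 2 * ((⌊avN g k0 j0 / (β / 8)⌋₊ : ℝ) + 1) * J
          ≤ 34 * (1 / β) * (19 / 3 * (1 / β)) := by gcongr
        _ ≤ _ := by
            have : 0 ≤ (1 / β) * (1 / β) := by positivity
            nlinarith
    have hc' : ((2 * (⌊avN g k0 j0 / (β / 8)⌋₊ + 1) * J : ℕ) : ℝ≥0∞) ≤
        ENNReal.ofReal (350 / β ^ 2) := by
      rw [← ENNReal.ofReal_natCast]
      exact ENNReal.ofReal_le_ofReal hc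
    calc ENNReal.ofReal (1 / 2 ^ k0) * T
        ≤ ENNReal.ofReal (1 / 2 ^ k0) * (2 * ENNReal.ofReal (350 / β ^ 2) *
          (volume Λ * ENNReal.ofReal (16 / 3 * b) ^ p)) := by
          gcongr
          refine hpop.trans ?_
          gcongr
      _ = _ := by
          have e1 : ENNReal.ofReal (700 / β ^ 2 * (1 / 2 ^ k0)) =
              ENNReal.ofReal (1 / 2 ^ k0) * (2 * ENNReal.ofReal (350 / β ^ 2)) := by
            have e2 : (700 : ℝ) / β ^ 2 * (1 / 2 ^ k0) = 1 / 2 ^ k0 * (2 * (350 / β ^ 2)) := by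
              ring
            rw [e2, ENNReal.ofReal_mul (by positivity), ENNReal.ofReal_mul (by norm_num),
              ENNReal.ofReal_ofNat]
          rw [e1]
          ring
  · -- multiplicity
    intro u
    have h1 := Mult939.mult (G := hi g κ (R - 1)) (R - 1) (k := k0) (j := j0) (by omega)
      (measurable_hi hg hκ _) (fun x => (norm_hi_le g κ _ x).trans (hM x)) (Q := 2)
      (fun i _ => hd (R - 1) i) (β := 3 / 8 * β) (by positivity) (A := Λ)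
      (fun Y hY => by
        have h2 := hY.2.2.1
        have h3 := hY.1
        linarith) u
    refine h1.trans (ENNReal.ofReal_le_ofReal ?_)
    have h2 : avN (hi g κ (R - 1)) k0 j0 ≤ 2 :=
      (Caps341.avN_mono (measurable_hi hg hκ _)
        (fun x => (norm_hi_le g κ _ x).trans (hM x)) hg hM (norm_hi_le g κ _) k0 j0).trans hav
    have h3 := avN_nonneg (hi g κ (R - 1)) k0 j0
    have hpi : Real.pi ^ 2 ≤ 10 := by
      have := Real.pi_lt_d2
      have := Real.pi_pos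
      nlinarith
    refine mul_le_mul_of_nonneg_left ?_ hk0.le
    rw [div_le_div_iff₀ (by positivity) (by positivity)]
    have h4 : Real.pi ^ 2 / 2 * 2 * avN (hi g κ (R - 1)) k0 j0 ≤ 20 := by
      have := Real.pi_pos
      nlinarith [sq_nonneg Real.pi]
    have h5 : 0 ≤ β ^ 2 := by positivity
    nlinarith

end Crest.Agent.R100.LB905
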