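import Mathlib

/-!
# R100 / S0132, helper710: block B7 of doc 1968 (LEVELS)

Deterministic decomposition of one truncated sum `∑ t k` along the dyadic levels `a` of the running
maximum of `c`.
-/

set_option autoImplicit false

open Finset MeasureTheory

noncomputable section

namespace Crest.Agent.R100.Lev710

/-- `k` is a step strictly inside the level `[a, 2a)` of the running maximum of `c` on `[k0, ·]`:
the running maximum is `≥ a` at time `k` and `< 2a` at time `k + 1` -/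
def On (c : ℕ → ℝ) (k0 : ℕ) (a : ℝ) (k : ℕ) : Prop :=
  (∃ j, k0 ≤ j ∧ j ≤ k ∧ a ≤ c j) ∧ ∀ j, k0 ≤ j → j ≤ k + 1 → c j < 2 * a

/-- the level `a` is reached before time `K` -/
def Vis (c : ℕ → ℝ) (k0 K : ℕ) (a : ℝ) : Prop := ∃ j, k0 ≤ j ∧ j ≤ K ∧ a ≤ c j

open Classical in
/-- the portion of the sum of `t` at level `a` -/
def PSum (c : ℕ → ℝ) (t : ℕ → ℂ) (k0 K : ℕ) (a : ℝ) : ℂ :=
  ∑ k ∈ Ico k0 K, if On c k0 a k then t k else 0

open Classical in
/-- the portion of the sum of `e` at level `a` -/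
def PEx (c e : ℕ → ℝ) (k0 K : ℕ) (a : ℝ) : ℝ :=
  ∑ k ∈ Ico k0 K, if On c k0 a k then e k else 0

open Classical in
/-- the cost of level `a` -/
def Port (c : ℕ → ℝ) (t : ℕ → ℂ) (e : ℕ → ℝ) (C : ℝ) (k0 K : ℕ) (a : ℝ) : ℝ :=
  if Vis c k0 K a then max (‖PSum c t k0 K a‖ - C * PEx c e k0 K a) 0 + 3 * a else 0

theorem Port_nonneg (c : ℕ → ℝ) (t : ℕ → ℂ) (e : ℕ → ℝ) (C : ℝ) (k0 K : ℕ) {a : ℝ} (ha : 0 ≤ a) :
    0 ≤ Port c t e C k0 K a := by
  unfold Port
  split_ifs
  · have := le_max_right (‖PSum c t k0 K a‖ - C * PEx c e k0 K a) 0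
    positivity
  · exact le_rfl

theorem On.vis {c : ℕ → ℝ} {k0 K : ℕ} {a : ℝ} {k : ℕ} (h : On c k0 a k) (hk : k ≤ K) :
    Vis c k0 K a := by
  obtain ⟨⟨j, h1, h2, h3⟩, -⟩ := h
  exact ⟨j, h1, h2.trans hk, h3⟩

theorem On.unique {c : ℕ → ℝ} {k0 : ℕ} {a a' : ℝ} {k : ℕ} (h : On c k0 a k) (h' : On c k0 a' k)
    (haa : 2 * a ≤ a') : False := by
  obtain ⟨-, h2⟩ := h
  obtain ⟨⟨j, h3, h4, h5⟩, -⟩ := h'
  have := h2 j h3 (by omega)
  linarith

/-- the steps of level `a` form an interval -/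
theorem On.ordConnected {c : ℕ → ℝ} {k0 : ℕ} {a : ℝ} {k k' l : ℕ} (h : On c k0 a k)
    (h' : On c k0 a k') (h1 : k ≤ l) (h2 : l ≤ k') : On c k0 a l := by
  obtain ⟨⟨j, h3, h4, h5⟩, -⟩ := h
  obtain ⟨-, h6⟩ := h'
  exact ⟨⟨j, h3, h4.trans h1, h5⟩, fun j hj hj' => h6 j hj (by omega)⟩

open Classical in
/-- the first time the level `a` is reached -/
def k1 (c : ℕ → ℝ) (k0 K : ℕ) (a : ℝ) : ℕ :=
  if h : ∃ j, k0 ≤ j ∧ a ≤ c j ∧ j ≤ K then Nat.find h else K

theorem k1_spec {c : ℕ → ℝ} {k0 K : ℕ} {a : ℝ} (h : Vis c k0 K a) :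
    k0 ≤ k1 c k0 K a ∧ a ≤ c (k1 c k0 K a) ∧ k1 c k0 K a ≤ K := by
  classical
  have h' : ∃ j, k0 ≤ j ∧ a ≤ c j ∧ j ≤ K := by
    obtain ⟨j, h1, h2, h3⟩ := h
    exact ⟨j, h1, h3, h2⟩
  unfold k1
  rw [dif_pos h']
  exact Nat.find_spec h'

theorem lt_of_lt_k1 {c : ℕ → ℝ} {k0 K : ℕ} {a : ℝ} {j : ℕ} (h0 : k0 ≤ j) (hj : j < k1 c k0 K a)
    (hK : j ≤ K) : c j < a := by
  classical
  unfold k1 at hj
  split_ifs at hj with h
  · have := Nat.find_min h hj
    by_contra hc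
    exact this ⟨h0, not_lt.1 hc, hK⟩
  · by_contra hc
    exact h ⟨j, h0, not_lt.1 hc, hK⟩

/-- the portion of level `a` as a sum over an interval of times `[k1, k2)`, where the level is
reached at time `k1` (for the first time) and `c < 2 a` on the closed interval `[k0, k2]` -/
theorem PSum_eq_Ico {c : ℕ → ℝ} (k0 K : ℕ) (a : ℝ) (h : Vis c k0 K a) :
    ∃ k2, k1 c k0 K a ≤ k2 ∧ k2 ≤ K ∧
      (k1 c k0 K a < k2 → ∀ j, k0 ≤ j → j ≤ k2 → c j < 2 * a) ∧
      (∀ t : ℕ → ℂ, PSum c t k0 K a = ∑ k ∈ Ico (k1 c k0 K a) k2, t k) ∧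
      (∀ e : ℕ → ℝ, PEx c e k0 K a = ∑ k ∈ Ico (k1 c k0 K a) k2, e k) := by
  classical
  obtain ⟨hs1, hs2, hs3⟩ := k1_spec h
  set κ := k1 c k0 K a with hκ
  -- the set of steps
  by_cases hne : ∃ k, k < K ∧ On c k0 a k
  · -- maximal such step
    let k' := Nat.findGreatest (fun k => k < K ∧ On c k0 a k) K
    obtain ⟨k, hkK, hk⟩ := hne
    have hspec : k' < K ∧ On c k0 a k' :=
      Nat.findGreatest_spec (P := fun k => k < K ∧ On c k0 a k) hkK.le ⟨hkK, hk⟩
    have hmax : ∀ l, l < K → On c k0 a l → l ≤ k' := fun l hl hl' =>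
      Nat.le_findGreatest (P := fun k => k < K ∧ On c k0 a k) hl.le ⟨hl, hl'⟩
    have hle : κ ≤ k' := by
      by_contra hlt
      push Not at hlt
      obtain ⟨⟨j, h1, h2, h3⟩, -⟩ := hspec.2
      have := lt_of_lt_k1 h1 (lt_of_le_of_lt h2 hlt) (h2.trans hspec.1.le)
      linarith
    have hiff : ∀ l, l ∈ Ico k0 K → (On c k0 a l ↔ l ∈ Ico κ (k' + 1)) := by
      intro l hl
      rw [mem_Ico] at hl ⊢
      constructor
      · intro ho
        refine ⟨?_, Nat.lt_succ_of_le (hmax l hl.2 ho)⟩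
        by_contra hlt
        push Not at hlt
        obtain ⟨⟨j, h1, h2, h3⟩, -⟩ := ho
        have := lt_of_lt_k1 h1 (lt_of_le_of_lt h2 hlt) (h2.trans hl.2.le)
        linarith
      · rintro ⟨h1, h2⟩
        exact ⟨⟨κ, hs1, h1, hs2⟩, fun j hj hj' => hspec.2.2 j hj (by omega)⟩
    have hset : (Ico k0 K).filter (fun l => On c k0 a l) = Ico κ (k' + 1) := by
      ext l
      rw [mem_filter]
      constructor
      · rintro ⟨h1, h2⟩
        exact (hiff l h1).1 h2
      · intro hl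
        have hl' : l ∈ Ico k0 K := by
          rw [mem_Ico] at hl ⊢
          exact ⟨hs1.trans hl.1, by omega⟩
        exact ⟨hl', (hiff l hl').2 hl⟩
    refine ⟨k' + 1, by omega, by omega, fun _ j hj hj' => hspec.2.2 j hj hj', fun t => ?_,
      fun e => ?_⟩
    · rw [PSum, ← sum_filter, hset]
    · rw [PEx, ← sum_filter, hset]
  · push Not at hne
    refine ⟨κ, le_rfl, hs3, fun hh => absurd hh (lt_irrefl _), fun t => ?_, fun e => ?_⟩
    · rw [Ico_self, sum_empty, PSum]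
      refine sum_eq_zero fun k hk => if_neg (hne k (mem_Ico.1 hk).2)
    · rw [Ico_self, sum_empty, PEx]
      refine sum_eq_zero fun k hk => if_neg (hne k (mem_Ico.1 hk).2)

/-- a jump into level `a` at step `k` -/
def Jump (c : ℕ → ℝ) (k0 : ℕ) (a : ℝ) (k : ℕ) : Prop :=
  (∀ j, k0 ≤ j → j ≤ k → c j < a) ∧ a ≤ c (k + 1)

open Classical in
theorem sum_jump_le (c : ℕ → ℝ) (k0 K : ℕ) {a : ℝ} (ha : 0 ≤ a) :
    ∑ k ∈ Ico k0 K, (if Jump c k0 a k then 3 * a else 0) ≤ if Vis c k0 K a then 3 * a else 0 := by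
  by_cases hex : ∃ k ∈ Ico k0 K, Jump c k0 a k
  · obtain ⟨k, hk, hj⟩ := hex
    have hk' := mem_Ico.1 hk
    rw [if_pos (show Vis c k0 K a from ⟨k + 1, by omega, by omega, hj.2⟩)]
    rw [← sum_filter]
    have : (Ico k0 K).filter (fun k => Jump c k0 a k) ⊆ {k} := by
      intro l hl
      rw [mem_filter, mem_Ico] at hl
      rw [mem_singleton]
      obtain ⟨⟨h1, h2⟩, h3⟩ := hl
      rcases lt_trichotomy l k with h | h | h
      · have := hj.1 (l + 1) (by omega) (by omega)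
        have := h3.2
        linarith
      · exact h
      · have := h3.1 (k + 1) (by omega) (by omega)
        have := hj.2
        linarith
    refine (sum_le_sum_of_subset_of_nonneg this fun _ _ _ => by positivity).trans ?_
    simp
  · push Not at hex
    rw [sum_eq_zero fun k hk => if_neg (hex k hk)]
    split_ifs <;> positivity

open Classical in
/-- one step which is not inside any level -/
theorem step_le {c : ℕ → ℝ} {t : ℕ → ℂ} {e : ℕ → ℝ} {k0 K m : ℕ} {a0 : ℝ}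
    (ht : ∀ k, k0 ≤ k → k < K → ‖t k‖ ≤ c k + c (k + 1) + e k) (ha : 0 < a0)
    (hQ : ∀ k, k0 ≤ k → k ≤ K → c k < a0 * 2 ^ m) {k : ℕ} (hk : k ∈ Ico k0 K)
    (hon : ∀ i ∈ range m, ¬ On c k0 (a0 * 2 ^ i) k) :
    ‖t k‖ ≤ ∑ i ∈ range m, (if Jump c k0 (a0 * 2 ^ i) k then 3 * (a0 * 2 ^ i) else 0) + e k
      + 2 * a0 := by
  have hk' := mem_Ico.1 hk
  have h0 := ht k hk'.1 hk'.2
  have hnn : ∀ i ∈ range m,
      (0 : ℝ) ≤ if Jump c k0 (a0 * 2 ^ i) k then 3 * (a0 * 2 ^ i) else 0 := by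
    intro i _
    split_ifs <;> positivity
  by_cases hlow : ∀ j, k0 ≤ j → j ≤ k + 1 → c j < a0
  · have h1 := hlow k hk'.1 (by omega)
    have h2 := hlow (k + 1) (by omega) le_rfl
    have := sum_nonneg hnn
    linarith
  · push Not at hlow
    -- smallest `i` with all values `< a0 * 2 ^ i`
    have hex : ∃ i, ∀ j, k0 ≤ j → j ≤ k + 1 → c j < a0 * 2 ^ i :=
      ⟨m, fun j hj hj' => hQ j hj (by omega)⟩
    have him : Nat.find hex ≤ m := Nat.find_min' hex fun j hj hj' => hQ j hj (by omega)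
    have hi0 : Nat.find hex ≠ 0 := by
      intro h
      have := Nat.find_spec hex
      rw [h] at this
      obtain ⟨j, h1, h2, h3⟩ := hlow
      have := this j h1 h2
      simp only [pow_zero, mul_one] at this
      linarith
    obtain ⟨i, hi⟩ := Nat.exists_eq_succ_of_ne_zero hi0
    have hspec := Nat.find_spec hex
    rw [hi] at hspec
    have hmin := Nat.find_min hex (m := i) (by omega)
    push Not at hmin
    have hir : i ∈ range m := by
      rw [mem_range]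
      omega
    have hup : ∀ j, k0 ≤ j → j ≤ k + 1 → c j < 2 * (a0 * 2 ^ i) := by
      intro j hj hj'
      have := hspec j hj hj'
      rw [pow_succ] at this
      linarith
    have hno := hon i hir
    have hbelow : ∀ j, k0 ≤ j → j ≤ k → c j < a0 * 2 ^ i := by
      intro j hj hj'
      by_contra hcon
      exact hno ⟨⟨j, hj, hj', not_lt.1 hcon⟩, hup⟩
    have hjump : Jump c k0 (a0 * 2 ^ i) k := by
      refine ⟨hbelow, ?_⟩
      obtain ⟨j, h1, h2, h3⟩ := hmin
      rcases Nat.lt_or_ge j (k + 1) with h | h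
      · have := hbelow j h1 (by omega)
        linarith
      · have : j = k + 1 := le_antisymm h2 h
        rwa [this] at h3
    have h1 := hbelow k hk'.1 le_rfl
    have h2 := hup (k + 1) (by omega) le_rfl
    have h3 := single_le_sum hnn hir
    rw [if_pos hjump] at h3
    linarith

open Classical in
/-- **B7 (LEVELS)** -/
theorem levels {c : ℕ → ℝ} {t : ℕ → ℂ} {e : ℕ → ℝ} {k0 K m : ℕ} {a0 C : ℝ}
    (he : ∀ k, 0 ≤ e k) (hC : 0 ≤ C)
    (ht : ∀ k, k0 ≤ k → k < K → ‖t k‖ ≤ c k + c (k + 1) + e k) (ha : 0 < a0)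
    (hQ : ∀ k, k0 ≤ k → k ≤ K → c k < a0 * 2 ^ m) :
    ‖∑ k ∈ Ico k0 K, t k‖ ≤ ∑ i ∈ range m, Port c t e C k0 K (a0 * 2 ^ i)
      + (C + 1) * ∑ k ∈ Ico k0 K, e k + ((K - k0 : ℕ) : ℝ) * (2 * a0) := by
  -- split the sum
  have hcount : ∀ k, ∑ i ∈ range m, (if On c k0 (a0 * 2 ^ i) k then (1 : ℝ) else 0) ≤ 1 := by
    intro k
    rw [← sum_filter, sum_const, nsmul_eq_mul, mul_one]
    have : ((range m).filter fun i => On c k0 (a0 * 2 ^ i) k).card ≤ 1 := by
      rw [card_le_one]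
      intro i hi i' hi'
      rw [mem_filter] at hi hi'
      by_contra hne
      rcases Nat.lt_or_gt_of_ne hne with h | h
      · refine hi.2.unique hi'.2 ?_
        have : (2 : ℝ) ^ (i + 1) ≤ 2 ^ i' := pow_le_pow_right₀ (by norm_num) h
        rw [pow_succ] at this
        nlinarith
      · refine hi'.2.unique hi.2 ?_
        have : (2 : ℝ) ^ (i' + 1) ≤ 2 ^ i := pow_le_pow_right₀ (by norm_num) h
        rw [pow_succ] at this
        nlinarith
    exact_mod_cast this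
  have hsplit : ∀ k, t k = ∑ i ∈ range m, (if On c k0 (a0 * 2 ^ i) k then t k else 0)
      + (if ∀ i ∈ range m, ¬ On c k0 (a0 * 2 ^ i) k then t k else 0) := by
    intro k
    by_cases h : ∀ i ∈ range m, ¬ On c k0 (a0 * 2 ^ i) k
    · rw [if_pos h, sum_eq_zero fun i hi => if_neg (h i hi), zero_add]
    · rw [if_neg h, add_zero]
      push Not at h
      obtain ⟨i, hi, hoi⟩ := h
      rw [sum_eq_single_of_mem i hi, if_pos hoi]
      intro i' hi' hne
      refine if_neg fun ho => ?_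
      rcases Nat.lt_or_gt_of_ne hne with h | h
      · refine ho.unique hoi ?_
        have : (2 : ℝ) ^ (i' + 1) ≤ 2 ^ i := pow_le_pow_right₀ (by norm_num) h
        rw [pow_succ] at this
        nlinarith
      · refine hoi.unique ho ?_
        have : (2 : ℝ) ^ (i + 1) ≤ 2 ^ i' := pow_le_pow_right₀ (by norm_num) h
        rw [pow_succ] at this
        nlinarith
  have h1 : ∑ k ∈ Ico k0 K, t k = ∑ i ∈ range m, PSum c t k0 K (a0 * 2 ^ i)
      + ∑ k ∈ Ico k0 K, (if ∀ i ∈ range m, ¬ On c k0 (a0 * 2 ^ i) k then t k else 0) := by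
    unfold PSum
    rw [sum_comm, ← sum_add_distrib]
    exact sum_congr rfl fun k _ => hsplit k
  -- bound the rest
  have h2 : ‖∑ k ∈ Ico k0 K, (if ∀ i ∈ range m, ¬ On c k0 (a0 * 2 ^ i) k then t k else 0)‖
      ≤ ∑ i ∈ range m, (if Vis c k0 K (a0 * 2 ^ i) then 3 * (a0 * 2 ^ i) else 0)
        + ∑ k ∈ Ico k0 K, e k + ((K - k0 : ℕ) : ℝ) * (2 * a0) := by
    calc ‖∑ k ∈ Ico k0 K, (if ∀ i ∈ range m, ¬ On c k0 (a0 * 2 ^ i) k then t k else 0)‖
        ≤ ∑ k ∈ Ico k0 K, ‖if ∀ i ∈ range m, ¬ On c k0 (a0 * 2 ^ i) k then t k else 0‖ :=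
          norm_sum_le _ _
      _ ≤ ∑ k ∈ Ico k0 K,
            (∑ i ∈ range m, (if Jump c k0 (a0 * 2 ^ i) k then 3 * (a0 * 2 ^ i) else 0) + e k
              + 2 * a0) := by
          refine sum_le_sum fun k hk => ?_
          split_ifs with h
          · exact step_le ht ha hQ hk h
          · rw [norm_zero]
            have : (0 : ℝ) ≤ ∑ i ∈ range m,
                (if Jump c k0 (a0 * 2 ^ i) k then 3 * (a0 * 2 ^ i) else 0) :=
              sum_nonneg fun i _ => by split_ifs <;> positivity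
            have := he k
            linarith
      _ = ∑ i ∈ range m, ∑ k ∈ Ico k0 K,
              (if Jump c k0 (a0 * 2 ^ i) k then 3 * (a0 * 2 ^ i) else 0)
            + ∑ k ∈ Ico k0 K, e k + ((K - k0 : ℕ) : ℝ) * (2 * a0) := by
          rw [sum_add_distrib, sum_add_distrib, sum_comm, sum_const, nsmul_eq_mul, Nat.card_Ico]
      _ ≤ _ := by
          gcongr with i _
          exact sum_jump_le c k0 K (by positivity)
  have h3 : ∑ i ∈ range m, PEx c e k0 K (a0 * 2 ^ i) ≤ ∑ k ∈ Ico k0 K, e k := by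
    unfold PEx
    rw [sum_comm]
    refine sum_le_sum fun k _ => ?_
    calc ∑ i ∈ range m, (if On c k0 (a0 * 2 ^ i) k then e k else 0)
        = (∑ i ∈ range m, (if On c k0 (a0 * 2 ^ i) k then (1 : ℝ) else 0)) * e k := by
          rw [sum_mul]
          exact sum_congr rfl fun i _ => by split_ifs <;> simp
      _ ≤ 1 * e k := by
          gcongr
          · exact he k
          · exact hcount k
      _ = e k := one_mul _
  have h4 : ∀ i ∈ range m, ‖PSum c t k0 K (a0 * 2 ^ i)‖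
      + (if Vis c k0 K (a0 * 2 ^ i) then 3 * (a0 * 2 ^ i) else 0)
      ≤ Port c t e C k0 K (a0 * 2 ^ i) + C * PEx c e k0 K (a0 * 2 ^ i) := by
    intro i _
    unfold Port
    split_ifs with h
    · have := le_max_left (‖PSum c t k0 K (a0 * 2 ^ i)‖ - C * PEx c e k0 K (a0 * 2 ^ i)) 0
      linarith
    · have hz : PSum c t k0 K (a0 * 2 ^ i) = 0 := by
        unfold PSum
        refine sum_eq_zero fun k hk => if_neg fun ho => h ?_
        exact ho.vis (mem_Ico.1 hk).2.le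
      have hz' : 0 ≤ PEx c e k0 K (a0 * 2 ^ i) := by
        unfold PEx
        exact sum_nonneg fun k _ => by split_ifs <;> simp [he k]
      rw [hz, norm_zero]
      have := mul_nonneg hC hz'
      linarith
  calc ‖∑ k ∈ Ico k0 K, t k‖
      ≤ ∑ i ∈ range m, ‖PSum c t k0 K (a0 * 2 ^ i)‖
        + (∑ i ∈ range m, (if Vis c k0 K (a0 * 2 ^ i) then 3 * (a0 * 2 ^ i) else 0)
        + ∑ k ∈ Ico k0 K, e k + ((K - k0 : ℕ) : ℝ) * (2 * a0)) := by
        rw [h1]
        refine (norm_add_le _ _).trans (add_le_add (norm_sum_le _ _) h2)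
    _ = ∑ i ∈ range m, (‖PSum c t k0 K (a0 * 2 ^ i)‖
          + (if Vis c k0 K (a0 * 2 ^ i) then 3 * (a0 * 2 ^ i) else 0))
        + ∑ k ∈ Ico k0 K, e k + ((K - k0 : ℕ) : ℝ) * (2 * a0) := by
        rw [sum_add_distrib]
        ring
    _ ≤ ∑ i ∈ range m, (Port c t e C k0 K (a0 * 2 ^ i) + C * PEx c e k0 K (a0 * 2 ^ i))
        + ∑ k ∈ Ico k0 K, e k + ((K - k0 : ℕ) : ℝ) * (2 * a0) := by
        have := sum_le_sum h4
        linarith
    _ = ∑ i ∈ range m, Port c t e C k0 K (a0 * 2 ^ i)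
        + C * ∑ i ∈ range m, PEx c e k0 K (a0 * 2 ^ i)
        + ∑ k ∈ Ico k0 K, e k + ((K - k0 : ℕ) : ℝ) * (2 * a0) := by
        rw [sum_add_distrib, mul_sum]
    _ ≤ ∑ i ∈ range m, Port c t e C k0 K (a0 * 2 ^ i)
        + C * ∑ k ∈ Ico k0 K, e k
        + ∑ k ∈ Ico k0 K, e k + ((K - k0 : ℕ) : ℝ) * (2 * a0) := by
        gcongr
    _ = _ := by ring

/-! ## measurability in a parameter -/

section Meas

variable {Ω : Type*} [MeasurableSpace Ω]

theorem measurableSet_On {c : Ω → ℕ → ℝ} (hc : ∀ k, Measurable fun ω => c ω k) (k0 : ℕ) (a : ℝ)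
    (k : ℕ) : MeasurableSet {ω | On (c ω) k0 a k} := by
  have : {ω | On (c ω) k0 a k} =
      (⋃ j, ⋃ (_ : k0 ≤ j), ⋃ (_ : j ≤ k), {ω | a ≤ c ω j}) ∩
        ⋂ j, ⋂ (_ : k0 ≤ j), ⋂ (_ : j ≤ k + 1), {ω | c ω j < 2 * a} := by
    ext ω
    simp only [On, Set.mem_ofPred_eq, Set.mem_inter_iff, Set.mem_iUnion, Set.mem_iInter,
      exists_prop]
  rw [this]
  refine MeasurableSet.inter ?_ ?_
  · exact MeasurableSet.iUnion fun j => MeasurableSet.iUnion fun _ => MeasurableSet.iUnion fun _ =>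
      measurableSet_le measurable_const (hc j)
  · exact MeasurableSet.iInter fun j => MeasurableSet.iInter fun _ => MeasurableSet.iInter fun _ =>
      measurableSet_lt (hc j) measurable_const

theorem measurableSet_Vis {c : Ω → ℕ → ℝ} (hc : ∀ k, Measurable fun ω => c ω k) (k0 K : ℕ)
    (a : ℝ) : MeasurableSet {ω | Vis (c ω) k0 K a} := by
  have : {ω | Vis (c ω) k0 K a} = ⋃ j, ⋃ (_ : k0 ≤ j), ⋃ (_ : j ≤ K), {ω | a ≤ c ω j} := by
    ext ω
    simp only [Vis, Set.mem_ofPred_eq, Set.mem_iUnion, exists_prop]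
  rw [this]
  exact MeasurableSet.iUnion fun j => MeasurableSet.iUnion fun _ => MeasurableSet.iUnion fun _ =>
    measurableSet_le measurable_const (hc j)

theorem measurable_PSum {c : Ω → ℕ → ℝ} (hc : ∀ k, Measurable fun ω => c ω k) {t : Ω → ℕ → ℂ}
    (ht : ∀ k, Measurable fun ω => t ω k) (k0 K : ℕ) (a : ℝ) :
    Measurable fun ω => PSum (c ω) (t ω) k0 K a := by
  classical
  unfold PSum
  exact Finset.measurable_sum _ fun k _ =>
    Measurable.ite (measurableSet_On hc k0 a k) (ht k) measurable_const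

theorem measurable_PEx {c : Ω → ℕ → ℝ} (hc : ∀ k, Measurable fun ω => c ω k) {e : Ω → ℕ → ℝ}
    (he : ∀ k, Measurable fun ω => e ω k) (k0 K : ℕ) (a : ℝ) :
    Measurable fun ω => PEx (c ω) (e ω) k0 K a := by
  classical
  unfold PEx
  exact Finset.measurable_sum _ fun k _ =>
    Measurable.ite (measurableSet_On hc k0 a k) (he k) measurable_const

theorem measurable_Port {c : Ω → ℕ → ℝ} (hc : ∀ k, Measurable fun ω => c ω k) {t : Ω → ℕ → ℂ}
    (ht : ∀ k, Measurable fun ω => t ω k) {e : Ω → ℕ → ℝ}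
    (he : ∀ k, Measurable fun ω => e ω k) (C : ℝ) (k0 K : ℕ) (a : ℝ) :
    Measurable fun ω => Port (c ω) (t ω) (e ω) C k0 K a := by
  classical
  unfold Port
  refine Measurable.ite (measurableSet_Vis hc k0 K a) ?_ measurable_const
  exact ((((measurable_PSum hc ht k0 K a).norm).sub
    ((measurable_PEx hc he k0 K a).const_mul C)).max measurable_const).add measurable_const

end Meas

end Crest.Agent.R100.Lev710
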