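import Crest.Agent.R100.HuntLocal_933

/-!
# R100 / S0132, M7a (helper800): the model bounds, rescaling to the nodes, John-Nirenberg

`ModelWeak γ W`: in the unit cell, off a set of probability `γ < 1`, all the truncated model sums
`TL m f θ` are at most `A W(n)`.  This self-improves (John-Nirenberg) to an exponential bound in all
the nodes, with maximal truncations.
-/

set_option autoImplicit false

open MeasureTheory Set
open scoped ENNReal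

noncomputable section

namespace Crest.Agent.R100.M7800

open Crest.Agent.R100.Mart933 Crest.Agent.R100.Wide933 Crest.Agent.R100.Hunt933
open Crest.Agent.R100.Local933 Crest.Agent.R100.Haar403

/-- **strong model bound** (`L¹` bound in the unit cell) -/
def ModelLocal (W : ℕ → ℝ) : Prop :=
  ∃ A : ℝ, 0 ≤ A ∧ ∀ (n : ℕ) (_ : 1 ≤ n) (f : ℝ → ℂ) (_ : Measurable f) (_ : ∀ x, ‖f x‖ ≤ 2 ^ n)
    (θ : ℝ → ℝ) (_ : Measurable θ) (_ : (range θ).Finite) (m : ℕ),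
    ∫⁻ x in Ico (0 : ℝ) 1, ‖TL m f (θ x) x‖ₑ ≤ ENNReal.ofReal (A * W n)

/-- **weak model bound** (off a set of probability `γ`) -/
def ModelWeak (γ : ℝ) (W : ℕ → ℝ) : Prop :=
  ∃ A : ℝ, 0 ≤ A ∧ ∀ (n : ℕ) (_ : 1 ≤ n) (f : ℝ → ℂ) (_ : Measurable f) (_ : ∀ x, ‖f x‖ ≤ 2 ^ n)
    (Θ : Finset ℝ) (m : ℕ),
    volume {x ∈ Ico (0 : ℝ) 1 | ∃ θ ∈ Θ, A * W n < ‖TL m f θ x‖} ≤ ENNReal.ofReal γ

/-! ## running density conditions -/

/-- all the averages between the generations `k0` and `k` are at most `c` -/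
def AL (f : ℝ → ℂ) (c : ℝ) (k0 k : ℕ) (j : ℤ) : Prop :=
  ∀ k', k0 ≤ k' → k' ≤ k → avN f k' (j / 2 ^ (k - k')) ≤ c

theorem AL_fl (f : ℝ → ℂ) (c : ℝ) (k0 k : ℕ) (x : ℝ) :
    AL f c k0 k (fl k x) ↔ ∀ k', k0 ≤ k' → k' ≤ k → avN f k' (fl k' x) ≤ c := by
  unfold AL
  constructor
  · intro h k' h1 h2
    rw [fl_anc h2 x]
    exact h k' h1 h2
  · intro h k' h1 h2
    rw [← fl_anc h2 x]
    exact h k' h1 h2

theorem alive_fl (f : ℝ → ℂ) (k : ℕ) (x : ℝ) :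
    alive f k (fl k x) ↔ ∀ k' ≤ k, avN f k' (fl k' x) ≤ 1 := by
  unfold alive
  constructor
  · intro h k' h2
    rw [fl_anc h2 x]
    exact h k' h2
  · intro h k' h2
    rw [← fl_anc h2 x]
    exact h k' h2

/-! ## rescaling -/

/-- `f` on the node `(k0, i0)` blown up to the unit cell -/
def rs (f : ℝ → ℂ) (k0 : ℕ) (i0 : ℤ) (y : ℝ) : ℂ := f (y / 2 ^ k0 + i0 / 2 ^ k0)

theorem measurable_rs {f : ℝ → ℂ} (hf : Measurable f) (k0 : ℕ) (i0 : ℤ) :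
    Measurable (rs f k0 i0) := by
  unfold rs
  exact hf.comp (by fun_prop)

theorem int_rs {E : Type*} [NormedAddCommGroup E] [NormedSpace ℝ E] (G : ℝ → E) (k0 : ℕ) (i0 : ℤ)
    (k : ℕ) (j : ℤ) :
    ∫ y in Ivl k j, G (y / 2 ^ k0 + i0 / 2 ^ k0) =
      (2 : ℝ) ^ k0 • ∫ x in Ivl (k0 + k) (2 ^ k * i0 + j), G x := by
  rw [integral_Ivl_eq, integral_Ivl_eq,
    intervalIntegral.integral_comp_div_add (fun x => G x) (by positivity : (2 : ℝ) ^ k0 ≠ 0)]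
  congr 2
  · push_cast
    rw [pow_add]
    field_simp
    ring
  · push_cast
    rw [pow_add]
    field_simp
    ring

theorem avN_rs (f : ℝ → ℂ) (k0 : ℕ) (i0 : ℤ) (k : ℕ) (j : ℤ) :
    avN (rs f k0 i0) k j = avN f (k0 + k) (2 ^ k * i0 + j) := by
  unfold avN rs
  rw [int_rs (fun x => ‖f x‖) k0 i0 k j, smul_eq_mul, pow_add]
  ring

theorem coef_rs (f : ℝ → ℂ) (θ : ℝ) (k0 : ℕ) (i0 : ℤ) (k : ℕ) (j : ℤ) :
    coef (rs f k0 i0) (θ / 2 ^ k0) k j =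
      e θ (i0 / 2 ^ k0) * coef f θ (k0 + k) (2 ^ k * i0 + j) := by
  unfold coef rs
  have h : ∀ y : ℝ, f (y / 2 ^ k0 + i0 / 2 ^ k0) * e (-(θ / 2 ^ k0)) y =
      (fun x : ℝ => e θ (i0 / 2 ^ k0) * (f x * e (-θ) x)) (y / 2 ^ k0 + i0 / 2 ^ k0) := by
    intro y
    simp only
    have : e (-(θ / 2 ^ k0)) y = e θ (i0 / 2 ^ k0) * e (-θ) (y / 2 ^ k0 + i0 / 2 ^ k0) := by
      unfold e
      rw [← Complex.exp_add]
      congr 1
      push_cast
      ring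
    rw [this]; ring
  simp_rw [h]
  rw [int_rs (fun x : ℝ => e θ (i0 / 2 ^ k0) * (f x * e (-θ) x)) k0 i0 k j, integral_const_mul,
    pow_add, Complex.real_smul]
  push_cast
  ring

theorem fl_rs (k0 : ℕ) (i0 : ℤ) (k : ℕ) (y : ℝ) :
    fl (k0 + k) (y / 2 ^ k0 + i0 / 2 ^ k0) = 2 ^ k * i0 + fl k y := by
  unfold fl
  have h : (2 : ℝ) ^ (k0 + k) * (y / 2 ^ k0 + i0 / 2 ^ k0) =
      ((2 ^ k * i0 : ℤ) : ℝ) + 2 ^ k * y := by
    push_cast
    rw [pow_add]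
    field_simp
    ring
  rw [h, Int.floor_intCast_add]

theorem dl_rs (f : ℝ → ℂ) (θ : ℝ) (k0 : ℕ) (i0 : ℤ) (k : ℕ) (y : ℝ) :
    dl (coef (rs f k0 i0) (θ / 2 ^ k0)) k y =
      e θ (i0 / 2 ^ k0) * dl (coef f θ) (k0 + k) (y / 2 ^ k0 + i0 / 2 ^ k0) := by
  unfold dl
  rw [coef_rs, coef_rs, fl_rs, add_assoc, fl_rs, ← mul_sub]

theorem rad_rs (k0 : ℕ) (i0 : ℤ) (k : ℕ) (y : ℝ) :
    rad (k0 + k) (y / 2 ^ k0 + i0 / 2 ^ k0) = rad k y := by
  unfold rad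
  rw [add_assoc, fl_rs]
  have : Even ((2 : ℤ) ^ (k + 1) * i0) := by
    rw [pow_succ, mul_assoc, mul_comm, mul_assoc]
    exact even_two_mul _
  simp only [Int.even_add, this, true_iff]

theorem alive_rs (f : ℝ → ℂ) (k0 : ℕ) (i0 : ℤ) (k : ℕ) (y : ℝ) :
    alive (rs f k0 i0) k (fl k y) ↔
      AL f 1 k0 (k0 + k) (fl (k0 + k) (y / 2 ^ k0 + i0 / 2 ^ k0)) := by
  rw [alive_fl, AL_fl]
  constructor
  · intro h k' h1 h2
    obtain ⟨d, rfl⟩ := Nat.exists_eq_add_of_le h1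
    rw [fl_rs, ← avN_rs]
    exact h d (by omega)
  · intro h k' h2
    have := h (k0 + k') (by omega) (by omega)
    rwa [fl_rs, ← avN_rs] at this

theorem SS_rs (f : ℝ → ℂ) (θ : ℝ) (k0 : ℕ) (i0 : ℤ) (K : ℕ) (y : ℝ) :
    SS (coef (rs f k0 i0) (θ / 2 ^ k0)) (alive (rs f k0 i0)) 0 K y =
      e θ (i0 / 2 ^ k0) *
        SS (coef f θ) (AL f 1 k0) k0 (k0 + K) (y / 2 ^ k0 + i0 / 2 ^ k0) := by
  classical
  unfold SS
  rw [Finset.mul_sum, Finset.sum_Ico_eq_sum_range, Finset.sum_Ico_eq_sum_range]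
  rw [Nat.sub_zero, Nat.add_sub_cancel_left]
  refine Finset.sum_congr rfl fun l _ => ?_
  rw [zero_add]
  by_cases h : alive (rs f k0 i0) l (fl l y)
  · rw [if_pos h, if_pos ((alive_rs f k0 i0 l y).1 h), dl_rs]
    rw [add_assoc, rad_rs]
    ring
  · rw [if_neg h, if_neg (fun h' => h ((alive_rs f k0 i0 l y).2 h')), mul_zero]

theorem TL_rs (f : ℝ → ℂ) (θ : ℝ) (k0 : ℕ) (i0 : ℤ) (K : ℕ) (y : ℝ) :
    ‖TL K (rs f k0 i0) (θ / 2 ^ k0) y‖ =
      ‖SS (coef f θ) (AL f 1 k0) k0 (k0 + K) (y / 2 ^ k0 + i0 / 2 ^ k0)‖ := by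
  rw [TL_eq, SS_rs, norm_mul, norm_e, one_mul]

theorem volume_rs (k0 : ℕ) (i0 : ℤ) (P : ℝ → Prop) :
    volume {x ∈ Ivl k0 i0 | P x} =
      ENNReal.ofReal (1 / 2 ^ k0) *
        volume {y ∈ Ico (0 : ℝ) 1 | P (y / 2 ^ k0 + i0 / 2 ^ k0)} := by
  have h2 : (0 : ℝ) < 2 ^ k0 := by positivity
  have h1 : {x ∈ Ivl k0 i0 | P x} = (fun x : ℝ => 2 ^ k0 * x) ⁻¹' ((fun z : ℝ => z + (-i0 : ℝ)) ⁻¹'
      {y ∈ Ico (0 : ℝ) 1 | P (y / 2 ^ k0 + i0 / 2 ^ k0)}) := by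
    ext x
    simp only [mem_preimage, mem_sep_iff]
    have e1 : ((2 : ℝ) ^ k0 * x + -(i0 : ℝ)) / 2 ^ k0 + i0 / 2 ^ k0 = x := by
      field_simp
      ring
    rw [e1]
    refine and_congr_left fun _ => ?_
    unfold Ivl
    rw [mem_Ico, mem_Ico, div_le_iff₀ h2, lt_div_iff₀ h2]
    constructor
    · rintro ⟨h3, h4⟩
      constructor <;> linarith
    · rintro ⟨h3, h4⟩
      constructor <;> linarith
  rw [h1, Real.volume_preimage_mul_left h2.ne', measure_preimage_add_right, abs_of_pos (inv_pos.2 h2),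
    one_div]

/-- the weak bound in the nodes -/
theorem node_weak {γ : ℝ} {W : ℕ → ℝ} {A : ℝ} (hA : ∀ (n : ℕ) (_ : 1 ≤ n) (f : ℝ → ℂ)
    (_ : Measurable f) (_ : ∀ x, ‖f x‖ ≤ 2 ^ n) (Θ : Finset ℝ) (m : ℕ),
    volume {x ∈ Ico (0 : ℝ) 1 | ∃ θ ∈ Θ, A * W n < ‖TL m f θ x‖} ≤ ENNReal.ofReal γ)
    {n : ℕ} (hn : 1 ≤ n) {f : ℝ → ℂ} (hf : Measurable f) (hfn : ∀ x, ‖f x‖ ≤ 2 ^ n)
    (Θ : Finset ℝ) (k0 : ℕ) (i0 : ℤ) (d : ℕ) :
    volume {x ∈ Ivl k0 i0 | ∃ θ ∈ Θ, A * W n < ‖SS (coef f θ) (AL f 1 k0) k0 (k0 + d) x‖} ≤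
      ENNReal.ofReal γ * volume (Ivl k0 i0) := by
  classical
  have h := hA n hn (rs f k0 i0) (measurable_rs hf k0 i0) (fun x => hfn _)
    (Θ.image fun θ => θ / 2 ^ k0) d
  rw [volume_rs, volume_Ivl, mul_comm]
  gcongr
  refine (measure_mono ?_).trans h
  rintro y ⟨hy, θ, hθ, hy2⟩
  refine ⟨hy, θ / 2 ^ k0, Finset.mem_image_of_mem _ hθ, ?_⟩
  rw [TL_rs]
  exact hy2

/-! ## stopping -/

/-- an inequality on the stopping nodes passes to the larger nodes -/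
theorem stop_int {P : ℕ → ℤ → Prop} {F g : ℝ → ℝ≥0∞} (d : ℕ) : ∀ (k : ℕ) (j : ℤ),
    (∀ l, k ≤ l → l ≤ k + d → ∀ i, P l i → ∫⁻ x in Ivl l i, F x ≤ ∫⁻ x in Ivl l i, g x) →
    (∀ x ∈ Ivl k j, F x ≠ 0 → ∃ l, k ≤ l ∧ l ≤ k + d ∧ P l (fl l x)) →
    ∫⁻ x in Ivl k j, F x ≤ ∫⁻ x in Ivl k j, g x := by
  induction d with
  | zero =>
    intro k j h1 h2
    by_cases hP : P k j
    · exact h1 k le_rfl (by omega) j hP
    · have h0 : ∀ x ∈ Ivl k j, F x = 0 := by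
        intro x hx
        by_contra hne
        obtain ⟨l, hl1, hl2, hl3⟩ := h2 x hx hne
        have : l = k := by omega
        subst this
        rw [mem_Ivl.1 hx] at hl3
        exact hP hl3
      rw [setLIntegral_congr_fun (measurableSet_Ivl k j) h0]
      simp
  | succ d ih =>
    intro k j h1 h2
    by_cases hP : P k j
    · exact h1 k le_rfl (by omega) j hP
    · rw [lintegral_Ivl, lintegral_Ivl k j g]
      have key : ∀ i, (∀ x ∈ Ivl (k + 1) i, x ∈ Ivl k j) →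
          ∫⁻ x in Ivl (k + 1) i, F x ≤ ∫⁻ x in Ivl (k + 1) i, g x := by
        intro i hi
        refine ih (k + 1) i (fun l hl1 hl2 => h1 l (by omega) (by omega)) fun x hx hne => ?_
        obtain ⟨l, hl1, hl2, hl3⟩ := h2 x (hi x hx) hne
        rcases Nat.eq_or_lt_of_le hl1 with h | h
        · subst h
          rw [mem_Ivl.1 (hi x hx)] at hl3
          exact absurd hl3 hP
        · exact ⟨l, h, by omega, hl3⟩
      refine add_le_add (key _ fun x hx => ?_) (key _ fun x hx => ?_)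
      · rw [Ivl_split]; exact Or.inl hx
      · rw [Ivl_split]; exact Or.inr hx

/-- the same for measures of sets -/
theorem stop_meas {P : ℕ → ℤ → Prop} {E : Set ℝ} (hE : MeasurableSet E) {g : ℝ → ℝ≥0∞} (d : ℕ)
    (k : ℕ) (j : ℤ)
    (h1 : ∀ l, k ≤ l → l ≤ k + d → ∀ i, P l i → volume (E ∩ Ivl l i) ≤ ∫⁻ x in Ivl l i, g x)
    (h2 : ∀ x ∈ Ivl k j, x ∈ E → ∃ l, k ≤ l ∧ l ≤ k + d ∧ P l (fl l x)) :
    volume (E ∩ Ivl k j) ≤ ∫⁻ x in Ivl k j, g x := by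
  classical
  have e1 : ∀ l i, ∫⁻ x in Ivl l i, E.indicator (fun _ => (1 : ℝ≥0∞)) x = volume (E ∩ Ivl l i) := by
    intro l i
    rw [lintegral_indicator hE, setLIntegral_one, Measure.restrict_apply hE]
  rw [← e1]
  refine stop_int (P := P) d k j (fun l hl1 hl2 i hi => ?_) fun x hx hne => ?_
  · rw [e1]; exact h1 l hl1 hl2 i hi
  · refine h2 x hx ?_
    by_contra hxE
    exact hne (indicator_of_notMem hxE _)

/-! ## structure of the sums -/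

theorem SS_self (a : ℕ → ℤ → ℂ) (η : ℕ → ℤ → Prop) (k : ℕ) (x : ℝ) : SS a η k k x = 0 := by
  unfold SS; simp

theorem fl_eq_of_le {k l : ℕ} (h : k ≤ l) {x y : ℝ} (hxy : fl l x = fl l y) : fl k x = fl k y := by
  rw [fl_anc h x, fl_anc h y, hxy]

theorem SS_const (a : ℕ → ℤ → ℂ) (η : ℕ → ℤ → Prop) {k K l : ℕ} (h : K + 1 ≤ l) {x y : ℝ}
    (hxy : fl l x = fl l y) : SS a η k K x = SS a η k K y := by
  classical
  unfold SS
  refine Finset.sum_congr rfl fun i hi => ?_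
  rw [Finset.mem_Ico] at hi
  have e0 : fl i x = fl i y := fl_eq_of_le (by omega) hxy
  have e1 : fl (i + 1) x = fl (i + 1) y := fl_eq_of_le (by omega) hxy
  have e2 : fl (i + 1 + 1) x = fl (i + 1 + 1) y := fl_eq_of_le (by omega) hxy
  unfold rad dl
  rw [e0, e1, e2]

theorem SS_congr {a : ℕ → ℤ → ℂ} {η η' : ℕ → ℤ → Prop} {k K : ℕ} {x : ℝ}
    (h : ∀ l, k ≤ l → l < K → (η l (fl l x) ↔ η' l (fl l x))) : SS a η k K x = SS a η' k K x := by
  classical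
  unfold SS
  refine Finset.sum_congr rfl fun i hi => ?_
  rw [Finset.mem_Ico] at hi
  simp only [h i hi.1 hi.2]

theorem SS_eq_zero {a : ℕ → ℤ → ℂ} {η : ℕ → ℤ → Prop} {k K : ℕ} {x : ℝ}
    (h : ∀ l, k ≤ l → l < K → ¬ η l (fl l x)) : SS a η k K x = 0 := by
  classical
  unfold SS
  refine Finset.sum_eq_zero fun i hi => ?_
  rw [Finset.mem_Ico] at hi
  rw [if_neg (h i hi.1 hi.2)]

theorem measurable_SS (a : ℕ → ℤ → ℂ) (η : ℕ → ℤ → Prop) (k K : ℕ) : Measurable (SS a η k K) := by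
  classical
  unfold SS
  refine Finset.measurable_sum _ fun l _ => ?_
  have h1 : Measurable fun x => dl a l x := by
    unfold dl
    exact (measurable_fl_comp (l + 1) (a (l + 1))).sub (measurable_fl_comp l (a l))
  refine Measurable.ite ?_ ((Complex.measurable_ofReal.comp (measurable_rad _)).mul h1)
    measurable_const
  exact (measurable_fl l) (MeasurableSpace.measurableSet_top (s := {i | η l i}))

/-- the sum from a later generation -/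
theorem SS_AL_restart {a : ℕ → ℤ → ℂ} (f : ℝ → ℂ) (c : ℝ) {k l K : ℕ} (h : k ≤ l) (x : ℝ) :
    SS a (AL f c k) l K x = SS a (AL f c l) l K x ∨ SS a (AL f c k) l K x = 0 := by
  by_cases hal : ∀ k', k ≤ k' → k' < l → avN f k' (fl k' x) ≤ c
  · left
    refine SS_congr fun i hi1 hi2 => ?_
    rw [AL_fl, AL_fl]
    constructor
    · intro h' k' h1 h2
      exact h' k' (by omega) h2
    · intro h' k' h1 h2
      rcases lt_or_ge k' l with h3 | h3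
      · exact hal k' h1 h3
      · exact h' k' h3 h2
  · right
    refine SS_eq_zero fun i hi1 hi2 hAL => hal fun k' h1 h2 => ?_
    rw [AL_fl] at hAL
    exact hAL k' h1 (by omega)

/-- sizes at the nodes with `AL f 1` -/
theorem AL_sizes {f : ℝ → ℂ} (hf : Measurable f) {M : ℝ} (hM : ∀ x, ‖f x‖ ≤ M) (θ : ℝ) {k0 k : ℕ}
    (hk : k0 ≤ k) (j : ℤ) (h : AL f 1 k0 k j) : ‖coef f θ k j‖ ≤ 1 ∧ ‖hd (coef f θ) k j‖ ≤ 1 := by
  have h1 : avN f k j ≤ 1 := by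
    have := h k hk le_rfl
    simpa using this
  have h2 := avN_split hf hM k j
  have h3 := norm_coef_le f θ (k + 1) (2 * j)
  have h4 := norm_coef_le f θ (k + 1) (2 * j + 1)
  refine ⟨(norm_coef_le f θ k j).trans h1, ?_⟩
  unfold hd
  rw [norm_div, Complex.norm_ofNat]
  have h5 := norm_sub_le (coef f θ (k + 1) (2 * j)) (coef f θ (k + 1) (2 * j + 1))
  linarith

theorem norm_SS_step {f : ℝ → ℂ} (hf : Measurable f) {M : ℝ} (hM : ∀ x, ‖f x‖ ≤ M) (θ : ℝ)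
    {k0 k : ℕ} (hk : k0 ≤ k) (x : ℝ) : ‖SS (coef f θ) (AL f 1 k0) k (k + 1) x‖ ≤ 1 := by
  classical
  unfold SS
  rw [Finset.sum_Ico_succ_top le_rfl]
  simp only [Finset.Ico_self, Finset.sum_empty, zero_add]
  by_cases h : AL f 1 k0 k (fl k x)
  · rw [if_pos h, norm_mul, Complex.norm_real, Real.norm_eq_abs, abs_rad, one_mul,
      norm_dl (isMart_coef hf hM θ)]
    exact (AL_sizes hf hM θ hk _ h).2
  · rw [if_neg h, norm_zero]; norm_num

end Crest.Agent.R100.M7800
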