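import Crest.Agent.R100.M7a_800

/-!
# R100 / S0132, M7b (helper800): John-Nirenberg for the truncated model sums
-/

set_option autoImplicit false

open MeasureTheory Set
open scoped ENNReal

noncomputable section

namespace Crest.Agent.R100.M7800

open Crest.Agent.R100.Mart933 Crest.Agent.R100.Wide933 Crest.Agent.R100.Hunt933
open Crest.Agent.R100.Local933 Crest.Agent.R100.Haar403

variable {f : ℝ → ℂ} {M : ℝ}

/-- one frequency: exponential tail in a node -/
theorem tail_node (hf : Measurable f) (hM : ∀ x, ‖f x‖ ≤ M) (θ : ℝ) (l : ℕ) (i : ℤ) (d : ℕ)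
    {t : ℝ} (ht : 0 < t) :
    volume {x ∈ Ivl l i | t < ‖SS (coef f θ) (AL f 1 l) l (l + d) x‖} ≤
      ENNReal.ofReal (6 * Real.exp (-(t / (8 * Real.sqrt 3)))) * volume (Ivl l i) := by
  have hrs := measurable_rs hf l i
  have hrM : ∀ x, ‖rs f l i x‖ ≤ M := fun x => hM _
  have hal : ∀ k j, alive (rs f l i) k j → avN (rs f l i) k j ≤ 1 := fun k j h => alive_av _ _ _ h
  have h := tail_SS_alive (R := 3) (by norm_num) (isMart_coef hrs hrM (θ / 2 ^ l))
    (al := alive (rs f l i)) (alive_closed _)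
    (fun k j h => bound_children hrs hrM hal (θ / 2 ^ l) k j h)
    (ε := alive (rs f l i)) (fun k j h => h)
    (fun k j h => by
      have h1 := alive_sizes hrs hrM (θ / 2 ^ l) k j h
      constructor
      · linarith [h1.1]
      · linarith [h1.2]) 0 d 0 ht
  rw [volume_rs, volume_Ivl, mul_comm]
  gcongr
  have h01 : volume (Ivl 0 0) = 1 := by
    rw [volume_Ivl]; simp
  rw [h01, mul_one] at h
  refine (measure_mono ?_).trans h
  rintro y ⟨hy, hy2⟩
  refine ⟨?_, d, Nat.zero_le _, le_rfl, ?_⟩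
  · unfold Ivl
    simpa using hy
  · rw [SS_rs, norm_mul, norm_e, one_mul]
    exact hy2

/-- the set where one of the truncated sums is large -/
def EK (f : ℝ → ℂ) (Θ : Finset ℝ) (k0 m : ℕ) (s : ℝ) : Set ℝ :=
  {x | ∃ θ ∈ Θ, ∃ K, k0 ≤ K ∧ K ≤ m ∧ s < ‖SS (coef f θ) (AL f 1 k0) k0 K x‖}

/-- the set where one of the full sums is large -/
def E1 (f : ℝ → ℂ) (Θ : Finset ℝ) (k0 m : ℕ) (s : ℝ) : Set ℝ :=
  {x | ∃ θ ∈ Θ, s < ‖SS (coef f θ) (AL f 1 k0) k0 m x‖}

theorem measurableSet_E1 (f : ℝ → ℂ) (Θ : Finset ℝ) (k0 m : ℕ) (s : ℝ) :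
    MeasurableSet (E1 f Θ k0 m s) := by
  have : E1 f Θ k0 m s = ⋃ θ ∈ Θ, {x | s < ‖SS (coef f θ) (AL f 1 k0) k0 m x‖} := by
    ext x; simp [E1]
  rw [this]
  exact Finset.measurableSet_biUnion _ fun θ _ =>
    measurableSet_lt measurable_const (measurable_SS _ _ _ _).norm

theorem measurableSet_EK (f : ℝ → ℂ) (Θ : Finset ℝ) (k0 m : ℕ) (s : ℝ) :
    MeasurableSet (EK f Θ k0 m s) := by
  have : EK f Θ k0 m s = ⋃ θ ∈ Θ, ⋃ K ∈ Finset.Icc k0 m,
      {x | s < ‖SS (coef f θ) (AL f 1 k0) k0 K x‖} := by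
    ext x
    simp only [EK, mem_ofPred_eq, mem_iUnion, Finset.mem_Icc, exists_prop, and_assoc]
  rw [this]
  exact Finset.measurableSet_biUnion _ fun θ _ => Finset.measurableSet_biUnion _ fun K _ =>
    measurableSet_lt measurable_const (measurable_SS _ _ _ _).norm

theorem SS_trans (a : ℕ → ℤ → ℂ) (η : ℕ → ℤ → Prop) {k l K : ℕ} (h1 : k ≤ l) (h2 : l ≤ K) (x : ℝ) :
    ‖SS a η k K x‖ ≤ ‖SS a η k l x‖ + ‖SS a η l K x‖ := by
  rw [← SS_add a η h1 h2 x]
  exact norm_add_le _ _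

theorem SS_trans' (a : ℕ → ℤ → ℂ) (η : ℕ → ℤ → Prop) {k l K : ℕ} (h1 : k ≤ l) (h2 : l ≤ K) (x : ℝ) :
    ‖SS a η k l x‖ ≤ ‖SS a η k K x‖ + ‖SS a η l K x‖ := by
  have h := SS_add a η h1 h2 x
  have : SS a η k l x = SS a η k K x - SS a η l K x := by rw [← h]; ring
  rw [this]
  exact norm_sub_le _ _

/-- from the full sums to all the truncations -/
theorem max_weak (hf : Measurable f) (hM : ∀ x, ‖f x‖ ≤ M) {Θ : Finset ℝ} {lam γ ε t0 : ℝ}
    (hε0 : 0 < ε) (hε1 : ε < 1) (ht0 : 0 < t0)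
    (ht : 6 * Real.exp (-(t0 / (8 * Real.sqrt 3))) ≤ ε)
    (hw : ∀ (k0 : ℕ) (i0 : ℤ) (d : ℕ),
      volume (E1 f Θ k0 (k0 + d) lam ∩ Ivl k0 i0) ≤ ENNReal.ofReal γ * volume (Ivl k0 i0))
    (k0 : ℕ) (i0 : ℤ) (d : ℕ) :
    volume (EK f Θ k0 (k0 + d) (lam + (t0 + 1)) ∩ Ivl k0 i0) ≤
      ENNReal.ofReal (γ / (1 - ε)) * volume (Ivl k0 i0) := by
  classical
  set m := k0 + d with hm
  set E := EK f Θ k0 m (lam + (t0 + 1)) with hE
  set E0 := E1 f Θ k0 m lam with hE0
  set P : ℕ → ℤ → Prop := fun l i => k0 + 1 ≤ l ∧ l ≤ m + 1 ∧ ∃ θ ∈ Θ, ∀ x ∈ Ivl l i,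
    lam + (t0 + 1) < ‖SS (coef f θ) (AL f 1 k0) k0 (l - 1) x‖ with hP
  have h1e : 0 < 1 - ε := by linarith
  -- the stopping nodes
  have key : ∀ l, k0 ≤ l → l ≤ k0 + (d + 1) → ∀ i, P l i →
      volume (E ∩ Ivl l i) ≤
        ∫⁻ x in Ivl l i, ENNReal.ofReal (1 / (1 - ε)) * E0.indicator (fun _ => (1 : ℝ≥0∞)) x := by
    rintro l - hl2 i ⟨hl1, -, θ, hθ, hx⟩
    obtain ⟨K, rfl⟩ : ∃ K, l = K + 1 := ⟨l - 1, by omega⟩
    rw [Nat.add_sub_cancel] at hx
    rw [lintegral_const_mul' _ _ ENNReal.ofReal_ne_top,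
      lintegral_indicator (measurableSet_E1 _ _ _ _ _), setLIntegral_one,
      Measure.restrict_apply (measurableSet_E1 _ _ _ _ _)]
    have hfin : volume (Ivl (K + 1) i) ≠ ⊤ := by rw [volume_Ivl]; exact ENNReal.ofReal_ne_top
    -- complement of E0 in the node is small
    have hsmall : volume (Ivl (K + 1) i \ E0) ≤ ENNReal.ofReal ε * volume (Ivl (K + 1) i) := by
      have hKm : K ≤ m := by omega
      rcases Nat.eq_or_lt_of_le hKm with h | h
      · have : Ivl (K + 1) i \ E0 = ∅ := by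
          rw [Set.sdiff_eq_empty]
          intro x hx'
          refine ⟨θ, hθ, ?_⟩
          have := hx x hx'
          rw [← h]
          linarith
        rw [this]; simp
      · obtain ⟨d', hd'⟩ := Nat.exists_eq_add_of_le (show K + 1 ≤ m from h)
        have h3 := tail_node hf hM θ (K + 1) i d' ht0
        refine ((measure_mono ?_).trans h3).trans ?_
        · rintro x ⟨hxI, hxE⟩
          refine ⟨hxI, ?_⟩
          have h4 : ‖SS (coef f θ) (AL f 1 k0) k0 m x‖ ≤ lam := by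
            by_contra hcon
            exact hxE ⟨θ, hθ, not_le.1 hcon⟩
          have h5 := hx x hxI
          have h6 := SS_trans' (coef f θ) (AL f 1 k0) (show k0 ≤ K by omega) hKm x
          have h7 := SS_trans (coef f θ) (AL f 1 k0) (show K ≤ K + 1 by omega) h x
          have h8 := norm_SS_step hf hM θ (show k0 ≤ K by omega) x
          have h9 : t0 < ‖SS (coef f θ) (AL f 1 k0) (K + 1) m x‖ := by linarith
          rcases SS_AL_restart (a := coef f θ) f 1 (show k0 ≤ K + 1 by omega) (K := m) x with h10 | h10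
          · rw [← hd', ← h10]; exact h9
          · rw [h10, norm_zero] at h9
            linarith
        · gcongr
    have hsplit : volume (Ivl (K + 1) i) ≤ volume (E0 ∩ Ivl (K + 1) i) +
        ENNReal.ofReal ε * volume (Ivl (K + 1) i) := by
      calc volume (Ivl (K + 1) i) ≤ volume ((E0 ∩ Ivl (K + 1) i) ∪ (Ivl (K + 1) i \ E0)) := by
            apply measure_mono
            intro x hx'
            by_cases h : x ∈ E0
            · exact Or.inl ⟨h, hx'⟩
            · exact Or.inr ⟨hx', h⟩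
        _ ≤ _ := (measure_union_le _ _).trans (add_le_add le_rfl hsmall)
    have hle : ENNReal.ofReal (1 - ε) * volume (Ivl (K + 1) i) ≤ volume (E0 ∩ Ivl (K + 1) i) := by
      rw [ENNReal.ofReal_sub _ hε0.le, ENNReal.ofReal_one, ENNReal.sub_mul (fun _ _ => hfin), one_mul]
      exact tsub_le_iff_right.2 hsplit
    calc volume (E ∩ Ivl (K + 1) i) ≤ volume (Ivl (K + 1) i) := measure_mono inter_subset_right
      _ = ENNReal.ofReal (1 / (1 - ε)) * (ENNReal.ofReal (1 - ε) * volume (Ivl (K + 1) i)) := by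
          rw [← mul_assoc, ← ENNReal.ofReal_mul (by positivity), one_div_mul_cancel h1e.ne']
          simp
      _ ≤ _ := by gcongr
  have hcov : ∀ x ∈ Ivl k0 i0, x ∈ E → ∃ l, k0 ≤ l ∧ l ≤ k0 + (d + 1) ∧ P l (fl l x) := by
    rintro x - ⟨θ, hθ, K, h1, h2, h3⟩
    refine ⟨K + 1, by omega, by omega, by omega, by omega, θ, hθ, fun y hy => ?_⟩
    rw [Nat.add_sub_cancel]
    rw [SS_const (coef f θ) (AL f 1 k0) le_rfl (mem_Ivl.1 hy)]
    exact h3
  have hmain := stop_meas (P := P) (measurableSet_EK f Θ k0 m (lam + (t0 + 1))) (d + 1) k0 i0 key hcov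
  refine hmain.trans ?_
  rw [lintegral_const_mul' _ _ ENNReal.ofReal_ne_top,
      lintegral_indicator (measurableSet_E1 _ _ _ _ _), setLIntegral_one,
      Measure.restrict_apply (measurableSet_E1 _ _ _ _ _)]
  calc ENNReal.ofReal (1 / (1 - ε)) * volume (E0 ∩ Ivl k0 i0)
      ≤ ENNReal.ofReal (1 / (1 - ε)) * (ENNReal.ofReal γ * volume (Ivl k0 i0)) := by
        gcongr
        exact hw k0 i0 d
    _ = _ := by
        rw [← mul_assoc, ← ENNReal.ofReal_mul (by positivity)]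
        congr 2
        ring

/-- **John-Nirenberg** -/
theorem jn (hf : Measurable f) (hM : ∀ x, ‖f x‖ ≤ M) {Θ : Finset ℝ} {L γ : ℝ} (hγ : 0 ≤ γ)
    (hL : 0 ≤ L) (m : ℕ)
    (hw : ∀ (k0 : ℕ) (i0 : ℤ), volume (EK f Θ k0 m L ∩ Ivl k0 i0) ≤
      ENNReal.ofReal γ * volume (Ivl k0 i0)) (r : ℕ) :
    ∀ (k0 : ℕ) (i0 : ℤ), volume (EK f Θ k0 m (r * (L + 2)) ∩ Ivl k0 i0) ≤
      ENNReal.ofReal (γ ^ r) * volume (Ivl k0 i0) := by
  classical
  induction r with
  | zero =>
    intro k0 i0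
    rw [pow_zero, ENNReal.ofReal_one, one_mul]
    exact measure_mono inter_subset_right
  | succ r ih =>
    intro k0 i0
    rcases lt_or_ge m k0 with hmk | hkm
    · have : EK f Θ k0 m (((r + 1 : ℕ) : ℝ) * (L + 2)) = ∅ := by
        ext x
        simp only [EK, mem_ofPred_eq, mem_empty_iff_false, iff_false, not_exists, not_and]
        intro θ _ K h1 h2
        omega
      rw [this]; simp
    obtain ⟨d, hd⟩ := Nat.exists_eq_add_of_le hkm
    set E := EK f Θ k0 m (((r + 1 : ℕ) : ℝ) * (L + 2)) with hE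
    set E0 := EK f Θ k0 m L with hE0
    have hE0m : MeasurableSet E0 := measurableSet_EK _ _ _ _ _
    set P : ℕ → ℤ → Prop := fun l i => k0 + 1 ≤ l ∧ l ≤ m + 1 ∧
      (∃ θ ∈ Θ, ∀ x ∈ Ivl l i, L < ‖SS (coef f θ) (AL f 1 k0) k0 (l - 1) x‖) ∧
      (∀ l', k0 ≤ l' → l' + 1 < l → ∀ θ ∈ Θ, ∀ x ∈ Ivl l i,
        ‖SS (coef f θ) (AL f 1 k0) k0 l' x‖ ≤ L) with hP
    have key : ∀ l, k0 ≤ l → l ≤ k0 + (d + 1) → ∀ i, P l i →
        volume (E ∩ Ivl l i) ≤
          ∫⁻ x in Ivl l i, ENNReal.ofReal (γ ^ r) * E0.indicator (fun _ => (1 : ℝ≥0∞)) x := by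
      rintro l - hl2 i ⟨hl1, -, ⟨θ0, hθ0, hx0⟩, hfirst⟩
      obtain ⟨K, rfl⟩ : ∃ K, l = K + 1 := ⟨l - 1, by omega⟩
      rw [Nat.add_sub_cancel] at hx0
      rw [lintegral_const_mul' _ _ ENNReal.ofReal_ne_top,
        lintegral_indicator hE0m, setLIntegral_one, Measure.restrict_apply hE0m]
      have hin : E0 ∩ Ivl (K + 1) i = Ivl (K + 1) i := by
        apply inter_eq_self_of_subset_right
        intro x hx
        exact ⟨θ0, hθ0, K, by omega, by omega, hx0 x hx⟩
      rw [hin]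
      refine (measure_mono ?_).trans (ih (K + 1) i)
      rintro x ⟨⟨θ, hθ, K', h1, h2, h3⟩, hxI⟩
      refine ⟨?_, hxI⟩
      have hr : ((r + 1 : ℕ) : ℝ) * (L + 2) = r * (L + 2) + (L + 2) := by push_cast; ring
      rw [hr] at h3
      have hrL : 0 ≤ (r : ℝ) * (L + 2) := by positivity
      -- the first part is small
      have hpre : ∀ K'', k0 ≤ K'' → K'' ≤ K + 1 →
          ‖SS (coef f θ) (AL f 1 k0) k0 K'' x‖ ≤ L + 2 := by
        intro K'' h4 h5
        rcases lt_or_ge K'' K with h6 | h6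
        · have := hfirst K'' h4 (by omega) θ hθ x hxI
          linarith
        · -- K'' = K or K + 1
          have hK : ‖SS (coef f θ) (AL f 1 k0) k0 K x‖ ≤ L + 1 := by
            rcases Nat.eq_or_lt_of_le (show k0 ≤ K by omega) with h7 | h7
            · rw [← h7, SS_self, norm_zero]; linarith
            · obtain ⟨K1, rfl⟩ : ∃ K1, K = K1 + 1 := ⟨K - 1, by omega⟩
              have h8 := hfirst K1 (by omega) (by omega) θ hθ x hxI
              have h9 := SS_trans (coef f θ) (AL f 1 k0) (show k0 ≤ K1 by omega)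
                (show K1 ≤ K1 + 1 by omega) x
              have h10 := norm_SS_step hf hM θ (show k0 ≤ K1 by omega) x
              linarith
          rcases Nat.eq_or_lt_of_le h6 with h7 | h7
          · rw [← h7]; linarith
          · have h8 : K'' = K + 1 := by omega
            rw [h8]
            have h9 := SS_trans (coef f θ) (AL f 1 k0) (show k0 ≤ K by omega)
                (show K ≤ K + 1 by omega) x
            have h10 := norm_SS_step hf hM θ (show k0 ≤ K by omega) x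
            linarith
      have hK' : K + 1 ≤ K' := by
        by_contra hcon
        have := hpre K' h1 (by omega)
        linarith
      have h4 := SS_trans (coef f θ) (AL f 1 k0) (show k0 ≤ K + 1 by omega) hK' x
      have h5 := hpre (K + 1) (by omega) le_rfl
      have h6 : (r : ℝ) * (L + 2) < ‖SS (coef f θ) (AL f 1 k0) (K + 1) K' x‖ := by linarith
      refine ⟨θ, hθ, K', hK', h2, ?_⟩
      rcases SS_AL_restart (a := coef f θ) f 1 (show k0 ≤ K + 1 by omega) (K := K') x with h10 | h10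
      · rw [← h10]; exact h6
      · rw [h10, norm_zero] at h6
        linarith
    have hcov : ∀ x ∈ Ivl k0 i0, x ∈ E → ∃ l, k0 ≤ l ∧ l ≤ k0 + (d + 1) ∧ P l (fl l x) := by
      rintro x - ⟨θ, hθ, K, h1, h2, h3⟩
      have hLr : L ≤ ((r + 1 : ℕ) : ℝ) * (L + 2) := by
        push_cast
        have : 0 ≤ (r : ℝ) * (L + 2) := by positivity
        linarith
      have hex : ∃ K, k0 ≤ K ∧ K ≤ m ∧ ∃ θ ∈ Θ, L < ‖SS (coef f θ) (AL f 1 k0) k0 K x‖ :=
        ⟨K, h1, h2, θ, hθ, lt_of_le_of_lt hLr h3⟩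
      set K0 := Nat.find hex with hK0
      obtain ⟨g1, g2, θ0, g3, g4⟩ := Nat.find_spec hex
      rw [← hK0] at g1 g2 g4
      refine ⟨K0 + 1, by omega, by omega, by omega, by omega, ⟨θ0, g3, fun y hy => ?_⟩, ?_⟩
      · rw [Nat.add_sub_cancel]
        rw [SS_const (coef f θ0) (AL f 1 k0) le_rfl (mem_Ivl.1 hy)]
        exact g4
      · intro l' h4 h5 θ' hθ' y hy
        rw [SS_const (coef f θ') (AL f 1 k0) (show l' + 1 ≤ K0 + 1 by omega) (mem_Ivl.1 hy)]
        by_contra hcon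
        exact Nat.find_min hex (m := l') (by omega) ⟨h4, by omega, θ', hθ', not_le.1 hcon⟩
    have hmain := stop_meas (P := P) (measurableSet_EK f Θ k0 m _) (d + 1) k0 i0 key hcov
    refine hmain.trans ?_
    rw [lintegral_const_mul' _ _ ENNReal.ofReal_ne_top,
        lintegral_indicator hE0m, setLIntegral_one, Measure.restrict_apply hE0m]
    calc ENNReal.ofReal (γ ^ r) * volume (E0 ∩ Ivl k0 i0)
        ≤ ENNReal.ofReal (γ ^ r) * (ENNReal.ofReal γ * volume (Ivl k0 i0)) := by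
          gcongr
          exact hw k0 i0
      _ = _ := by
          rw [← mul_assoc, ← ENNReal.ofReal_mul (by positivity), pow_succ]

end Crest.Agent.R100.M7800
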