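import Crest.Agent.R100.M7b_800

/-!
# R100 / S0132, M7c (helper800): density levels
-/

set_option autoImplicit false

open MeasureTheory Set
open scoped ENNReal

noncomputable section

namespace Crest.Agent.R100.M7800

open Crest.Agent.R100.Mart933 Crest.Agent.R100.Wide933 Crest.Agent.R100.Hunt933
open Crest.Agent.R100.Local933 Crest.Agent.R100.Haar403

/-- the exponential bound at height `Λ` for the truncated sums in all the nodes -/
def ExpB (n : ℕ) (Λ : ℝ) : Prop :=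
  ∀ (f : ℝ → ℂ) (_ : Measurable f) (_ : ∀ x, ‖f x‖ ≤ 2 ^ n) (Θ : Finset ℝ) (m r k0 : ℕ) (i0 : ℤ),
    volume (EK f Θ k0 m (r * Λ) ∩ Ivl k0 i0) ≤ ENNReal.ofReal ((1 / 2) ^ r) * volume (Ivl k0 i0)

theorem EK_anti (f : ℝ → ℂ) (Θ : Finset ℝ) (k0 m : ℕ) {s s' : ℝ} (h : s ≤ s') :
    EK f Θ k0 m s' ⊆ EK f Θ k0 m s := by
  rintro x ⟨θ, hθ, K, h1, h2, h3⟩
  exact ⟨θ, hθ, K, h1, h2, lt_of_le_of_lt h h3⟩

/-- **the weak bound self-improves** -/
theorem expB_of_weak {γ : ℝ} (hγ1 : γ < 1) {W : ℕ → ℝ} (hW : ∀ n, 0 ≤ W n) (h : ModelWeak γ W) :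
    ∃ B : ℝ, 0 < B ∧ ∀ n : ℕ, 1 ≤ n → ExpB n (B * (W n + 1)) := by
  classical
  obtain ⟨A, hA0, hA⟩ := h
  set g0 : ℝ := max γ 0 with hg0
  have hg00 : 0 ≤ g0 := le_max_right _ _
  have hg01 : g0 < 1 := max_lt hγ1 one_pos
  set ε : ℝ := (1 - g0) / 2 with hε
  have hε0 : 0 < ε := by rw [hε]; linarith
  have hε1 : ε < 1 := by rw [hε]; linarith
  set g : ℝ := g0 / (1 - ε) with hg
  have hge : 0 < 1 - ε := by linarith
  have hg_0 : 0 ≤ g := by positivity
  have hg_1 : g < 1 := by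
    rw [hg, div_lt_one hge, hε]; linarith
  -- t0
  have hs3 : 0 < 8 * Real.sqrt 3 := by positivity
  set t0 : ℝ := 8 * Real.sqrt 3 * Real.log (6 / ε) with ht0
  have hlog : 0 < Real.log (6 / ε) := by
    apply Real.log_pos
    rw [lt_div_iff₀ hε0]; linarith
  have ht0' : 0 < t0 := by positivity
  have ht : 6 * Real.exp (-(t0 / (8 * Real.sqrt 3))) ≤ ε := by
    rw [ht0, mul_div_cancel_left₀ _ hs3.ne', Real.exp_neg, Real.exp_log (by positivity)]
    rw [inv_div]
    apply le_of_eq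
    field_simp
  -- s
  obtain ⟨s, hs⟩ := exists_pow_lt_of_lt_one (show (0 : ℝ) < 1 / 2 by norm_num) hg_1
  have hgs0 : 0 ≤ g ^ s := pow_nonneg hg_0 s
  have hs0 : s ≠ 0 := by
    rintro rfl
    norm_num at hs
  have hs1 : (1 : ℝ) ≤ s := by exact_mod_cast Nat.one_le_iff_ne_zero.2 hs0
  refine ⟨s * (A + (t0 + 1) + 2), by positivity, fun n hn f hf hfn Θ m r k0 i0 => ?_⟩
  set lam := A * W n with hlam
  have hWn := hW n
  have hlam0 : 0 ≤ lam := by positivity
  have hw : ∀ (k0 : ℕ) (i0 : ℤ) (d : ℕ),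
      volume (E1 f Θ k0 (k0 + d) lam ∩ Ivl k0 i0) ≤ ENNReal.ofReal g0 * volume (Ivl k0 i0) := by
    intro k0 i0 d
    have h1 := node_weak (γ := γ) (W := W) (A := A) hA hn hf hfn Θ k0 i0 d
    refine le_trans (measure_mono ?_) (h1.trans ?_)
    · rintro x ⟨h2, h3⟩
      exact ⟨h3, h2⟩
    · gcongr
      exact le_max_left _ _
  have hm : ∀ (k0 : ℕ) (i0 : ℤ), volume (EK f Θ k0 m (lam + (t0 + 1)) ∩ Ivl k0 i0) ≤
      ENNReal.ofReal g * volume (Ivl k0 i0) := by
    intro k0 i0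
    rcases lt_or_ge m k0 with hmk | hkm
    · have : EK f Θ k0 m (lam + (t0 + 1)) = ∅ := by
        ext x
        simp only [EK, mem_ofPred_eq, mem_empty_iff_false, iff_false, not_exists, not_and]
        intro θ _ K h1 h2
        omega
      rw [this]; simp
    · obtain ⟨d, rfl⟩ := Nat.exists_eq_add_of_le hkm
      exact max_weak hf hfn hε0 hε1 ht0' ht hw k0 i0 d
  have hj := jn hf hfn hg_0 (by positivity : 0 ≤ lam + (t0 + 1)) m hm (s * r) k0 i0
  refine (measure_mono (inter_subset_inter_left _ (EK_anti f Θ k0 m ?_))).trans (hj.trans ?_)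
  · push_cast
    have : lam + (t0 + 1) + 2 ≤ (A + (t0 + 1) + 2) * (W n + 1) := by
      rw [hlam]
      nlinarith
    calc (s : ℝ) * r * (lam + (t0 + 1) + 2) ≤ s * r * ((A + (t0 + 1) + 2) * (W n + 1)) := by gcongr
      _ = _ := by ring
  · gcongr ENNReal.ofReal ?_ * _
    rw [pow_mul]
    exact pow_le_pow_left₀ hgs0 hs.le r

/-! ## homogeneity -/

theorem avN_smul (f : ℝ → ℂ) {c : ℝ} (hc : 0 ≤ c) (k : ℕ) (j : ℤ) :
    avN (fun x => (c : ℂ) * f x) k j = c * avN f k j := by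
  unfold avN
  have : ∀ y, ‖(c : ℂ) * f y‖ = c * ‖f y‖ := by
    intro y
    rw [norm_mul, Complex.norm_real, Real.norm_eq_abs, abs_of_nonneg hc]
  simp_rw [this]
  rw [integral_const_mul]
  ring

theorem coef_smul (f : ℝ → ℂ) (c : ℂ) (θ : ℝ) (k : ℕ) (j : ℤ) :
    coef (fun x => c * f x) θ k j = c * coef f θ k j := by
  unfold coef
  have : ∀ y, c * f y * e (-θ) y = c * (f y * e (-θ) y) := by
    intro y; ring
  simp_rw [this]
  rw [integral_const_mul]
  ring

theorem SS_coef_smul (f : ℝ → ℂ) (c : ℂ) (θ : ℝ) (η : ℕ → ℤ → Prop) (k K : ℕ) (x : ℝ) :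
    SS (coef (fun x => c * f x) θ) η k K x = c * SS (coef f θ) η k K x := by
  classical
  unfold SS
  rw [Finset.mul_sum]
  refine Finset.sum_congr rfl fun l _ => ?_
  by_cases h : η l (fl l x)
  · rw [if_pos h, if_pos h]
    unfold dl
    rw [coef_smul, coef_smul]
    ring
  · rw [if_neg h, if_neg h, mul_zero]

theorem AL_smul (f : ℝ → ℂ) {c : ℝ} (hc : 0 < c) (k0 k : ℕ) (j : ℤ) :
    AL (fun x => ((c⁻¹ : ℝ) : ℂ) * f x) 1 k0 k j ↔ AL f c k0 k j := by
  unfold AL
  refine forall_congr' fun k' => imp_congr_right fun _ => imp_congr_right fun _ => ?_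
  rw [avN_smul f (by positivity), inv_mul_le_iff₀ hc, mul_one]

/-- exponential bound with density threshold `c` -/
theorem expB_c {n : ℕ} {Λ : ℝ} (h : ExpB n Λ) {c : ℝ} (hc : 0 < c) {f : ℝ → ℂ} (hf : Measurable f)
    (hfn : ∀ x, ‖f x‖ ≤ c * 2 ^ n) (Θ : Finset ℝ) (m r k0 : ℕ) (hkm : k0 ≤ m) (i0 : ℤ) :
    volume ({x | ∃ θ ∈ Θ, c * (r * Λ) < ‖SS (coef f θ) (AL f c k0) k0 m x‖} ∩ Ivl k0 i0) ≤
      ENNReal.ofReal ((1 / 2) ^ r) * volume (Ivl k0 i0) := by
  classical
  have h1 := h (fun x => ((c⁻¹ : ℝ) : ℂ) * f x) (hf.const_mul _) (fun x => by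
    rw [norm_mul, Complex.norm_real, Real.norm_eq_abs, abs_of_pos (inv_pos.2 hc),
      inv_mul_le_iff₀ hc]
    exact hfn x) Θ m r k0 i0
  refine (measure_mono (inter_subset_inter_left _ ?_)).trans h1
  rintro x ⟨θ, hθ, hx⟩
  refine ⟨θ, hθ, m, hkm, le_rfl, ?_⟩
  have e1 : AL (fun x => ((c⁻¹ : ℝ) : ℂ) * f x) 1 k0 = AL f c k0 := by
    ext k j
    exact AL_smul f hc k0 k j
  rw [e1, SS_coef_smul, norm_mul, Complex.norm_real, Real.norm_eq_abs, abs_of_pos (inv_pos.2 hc),
    lt_inv_mul_iff₀ hc]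
  exact hx

/-! ## layer cake -/

theorem layer (y : ℝ) (r0 : ℕ) :
    ENNReal.ofReal y ≤ r0 + ∑' r : ℕ, if ((r0 + r : ℕ) : ℝ) < y then (1 : ℝ≥0∞) else 0 := by
  classical
  have h1 : y ≤ (⌈y⌉₊ : ℝ) := Nat.le_ceil y
  rcases le_total ⌈y⌉₊ r0 with h | h
  · calc ENNReal.ofReal y ≤ ENNReal.ofReal (r0 : ℝ) := by
          apply ENNReal.ofReal_le_ofReal
          refine h1.trans ?_
          exact_mod_cast h
      _ = r0 := ENNReal.ofReal_natCast _
      _ ≤ _ := le_self_add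
  · obtain ⟨d, hd⟩ := Nat.exists_eq_add_of_le h
    calc ENNReal.ofReal y ≤ ENNReal.ofReal ((r0 + d : ℕ) : ℝ) := by
          apply ENNReal.ofReal_le_ofReal
          rw [← hd]; exact h1
      _ = r0 + (d : ℝ≥0∞) := by rw [ENNReal.ofReal_natCast]; push_cast; rfl
      _ ≤ _ := by
          gcongr
          calc (d : ℝ≥0∞) = ∑ r ∈ Finset.range d, (1 : ℝ≥0∞) := by simp
            _ ≤ ∑ r ∈ Finset.range d, if ((r0 + r : ℕ) : ℝ) < y then (1 : ℝ≥0∞) else 0 := by
                refine Finset.sum_le_sum fun r hr => ?_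
                rw [Finset.mem_range] at hr
                rw [if_pos]
                have h2 : r0 + r < ⌈y⌉₊ := by omega
                exact Nat.lt_ceil.1 h2
            _ ≤ _ := ENNReal.sum_le_tsum _

/-- integral of an exponentially bounded function over a part of a node -/
theorem int_exp {I G : Set ℝ} (hI : MeasurableSet I) (hG : MeasurableSet G) {Y : ℝ → ℝ} {a : ℝ} (ha : 0 < a)
    {S : ℕ → Set ℝ} (hS : ∀ r, MeasurableSet (S r))
    (hYS : ∀ x ∈ I, ∀ r : ℕ, r * a < Y x → x ∈ S r)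
    (hvol : ∀ r : ℕ, volume (S r ∩ I) ≤ ENNReal.ofReal ((1 / 2) ^ r) * volume I) (r0 : ℕ) :
    ∫⁻ x in I, G.indicator (fun x => ENNReal.ofReal (Y x)) x ≤
      ENNReal.ofReal a * (r0 * volume (G ∩ I) + ENNReal.ofReal (2 * (1 / 2) ^ r0) * volume I) := by
  classical
  have hpt : ∀ x ∈ I, G.indicator (fun x => ENNReal.ofReal (Y x)) x ≤
      ENNReal.ofReal a * (G.indicator (fun _ => (r0 : ℝ≥0∞)) x +
        ∑' r : ℕ, (S (r0 + r)).indicator (fun _ => (1 : ℝ≥0∞)) x) := by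
    intro x hx
    by_cases hxG : x ∈ G
    · rw [indicator_of_mem hxG, indicator_of_mem hxG]
      have h1 := layer (Y x / a) r0
      have h2 : ENNReal.ofReal (Y x) = ENNReal.ofReal a * ENNReal.ofReal (Y x / a) := by
        rw [← ENNReal.ofReal_mul ha.le, mul_div_cancel₀ _ ha.ne']
      rw [h2]
      gcongr
      refine h1.trans ?_
      gcongr with r
      split_ifs with h3
      · rw [indicator_of_mem]
        apply hYS x hx
        rwa [lt_div_iff₀ ha] at h3
      · exact zero_le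
    · rw [indicator_of_notMem hxG]
      exact zero_le
  calc ∫⁻ x in I, G.indicator (fun x => ENNReal.ofReal (Y x)) x
      ≤ ∫⁻ x in I, ENNReal.ofReal a * (G.indicator (fun _ => (r0 : ℝ≥0∞)) x +
        ∑' r : ℕ, (S (r0 + r)).indicator (fun _ => (1 : ℝ≥0∞)) x) :=
        setLIntegral_mono' hI hpt
    _ = ENNReal.ofReal a * (r0 * volume (G ∩ I) + ∑' r : ℕ, volume (S (r0 + r) ∩ I)) := by
        rw [lintegral_const_mul' _ _ ENNReal.ofReal_ne_top, lintegral_add_left
          (measurable_const.indicator hG), lintegral_tsum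
          (fun r => (measurable_const.indicator (hS _)).aemeasurable)]
        congr 2
        · rw [lintegral_indicator hG, lintegral_const, Measure.restrict_restrict hG]
          rw [Measure.restrict_apply MeasurableSet.univ, univ_inter]
        · congr 1
          ext r
          rw [lintegral_indicator (hS _), setLIntegral_one, Measure.restrict_apply (hS _)]
    _ ≤ ENNReal.ofReal a * (r0 * volume (G ∩ I) +
          ∑' r : ℕ, ENNReal.ofReal ((1 / 2) ^ (r0 + r)) * volume I) := by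
        gcongr with r
        exact hvol _
    _ = _ := by
        congr 2
        rw [ENNReal.tsum_mul_right]
        congr 1
        have : ∀ r : ℕ, ENNReal.ofReal ((1 / 2 : ℝ) ^ (r0 + r)) =
            ENNReal.ofReal ((1 / 2) ^ r0) * ENNReal.ofReal (1 / 2) ^ r := by
          intro r
          rw [pow_add, ENNReal.ofReal_mul (by positivity), ENNReal.ofReal_pow (by norm_num : (0:ℝ) ≤ 1 / 2) r]
        simp_rw [this]
        rw [ENNReal.tsum_mul_left, ENNReal.tsum_geometric, mul_comm 2, ENNReal.ofReal_mul (by positivity)]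
        congr 1
        have h3 : (1 : ℝ≥0∞) - ENNReal.ofReal (1 / 2) = ENNReal.ofReal (1 / 2) := by
          rw [← ENNReal.ofReal_one, ← ENNReal.ofReal_sub _ (by norm_num)]
          norm_num
        rw [h3, ← ENNReal.ofReal_inv_of_pos (by norm_num)]
        norm_num

end Crest.Agent.R100.M7800
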