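import Crest.Agent.R100.M7c_800

/-!
# R100 / S0132, M7d (helper800): summation over the density levels in one cell of generation 0
-/

set_option autoImplicit false

open MeasureTheory Set
open scoped ENNReal

noncomputable section

namespace Crest.Agent.R100.M7800

open Crest.Agent.R100.Mart933 Crest.Agent.R100.Wide933 Crest.Agent.R100.Hunt933
open Crest.Agent.R100.Local933 Crest.Agent.R100.Haar403

/-- density level `j` -/
def Lv (f : ℝ → ℂ) (j : ℕ) (k : ℕ) (i : ℤ) : Prop :=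
  AL f ((1 / 2) ^ j) 0 k i ∧ ¬ AL f ((1 / 2) ^ (j + 1)) 0 k i

theorem AL_mono {f : ℝ → ℂ} {c c' : ℝ} (h : c ≤ c') {k0 k : ℕ} {i : ℤ} (hA : AL f c k0 k i) :
    AL f c' k0 k i := fun k' h1 h2 => (hA k' h1 h2).trans h

theorem SS_Lv (a : ℕ → ℤ → ℂ) (f : ℝ → ℂ) (j k K : ℕ) (x : ℝ) :
    SS a (Lv f j) k K x =
      SS a (AL f ((1 / 2) ^ j) 0) k K x - SS a (AL f ((1 / 2) ^ (j + 1)) 0) k K x := by
  classical
  unfold SS
  rw [← Finset.sum_sub_distrib]
  refine Finset.sum_congr rfl fun l _ => ?_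
  have hle : ((1 : ℝ) / 2) ^ (j + 1) ≤ (1 / 2) ^ j := by
    rw [pow_succ]
    have : (0 : ℝ) < (1 / 2) ^ j := by positivity
    linarith
  by_cases h1 : AL f ((1 / 2) ^ (j + 1)) 0 l (fl l x)
  · have h2 : AL f ((1 / 2) ^ j) 0 l (fl l x) := AL_mono hle h1
    have h3 : ¬ Lv f j l (fl l x) := fun h => h.2 h1
    rw [if_neg h3, if_pos h2, if_pos h1, sub_self]
  · by_cases h2 : AL f ((1 / 2) ^ j) 0 l (fl l x)
    · have h3 : Lv f j l (fl l x) := ⟨h2, h1⟩
      rw [if_pos h3, if_pos h2, if_neg h1, sub_zero]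
    · have h3 : ¬ Lv f j l (fl l x) := fun h => h2 h.1
      rw [if_neg h3, if_neg h2, if_neg h1, sub_zero]

theorem SS_levels (a : ℕ → ℤ → ℂ) (f : ℝ → ℂ) (J k K : ℕ) (x : ℝ) :
    ∑ j ∈ Finset.range J, SS a (Lv f j) k K x =
      SS a (AL f 1 0) k K x - SS a (AL f ((1 / 2) ^ J) 0) k K x := by
  simp_rw [SS_Lv]
  have := Finset.sum_range_sub' (fun j => SS a (AL f ((1 / 2) ^ j) 0) k K x) J
  rw [this, pow_zero]

/-- sum over the cells of generation `k`: children averages -/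
theorem avN_zero {f : ℝ → ℂ} (hf : Measurable f) {M : ℝ} (hM : ∀ x, ‖f x‖ ≤ M) {x : ℝ}
    (h0 : avN f 0 (fl 0 x) = 0) (k : ℕ) : avN f k (fl k x) = 0 := by
  induction k with
  | zero => exact h0
  | succ k ih =>
    have h1 := avN_split hf hM k (fl k x)
    have h2 := avN_nonneg f (k + 1) (2 * fl k x)
    have h3 := avN_nonneg f (k + 1) (2 * fl k x + 1)
    rcases fl_succ_div k x with h | h
    · rw [h]; linarith
    · rw [h]; linarith

theorem SS_of_avN_zero {f : ℝ → ℂ} (hf : Measurable f) {M : ℝ} (hM : ∀ x, ‖f x‖ ≤ M) {x : ℝ}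
    (h0 : avN f 0 (fl 0 x) = 0) (θ : ℝ) (η : ℕ → ℤ → Prop) (k K : ℕ) :
    SS (coef f θ) η k K x = 0 := by
  classical
  unfold SS
  refine Finset.sum_eq_zero fun l _ => ?_
  have h1 : ∀ k, coef f θ k (fl k x) = 0 := by
    intro k
    have := norm_coef_le f θ k (fl k x)
    rw [avN_zero hf hM h0 k] at this
    simpa using this
  unfold dl
  rw [h1, h1]
  simp

/-- mass of `f` on a node in terms of the average -/
theorem lint_Ivl {f : ℝ → ℂ} (hf : Measurable f) {M : ℝ} (hM : ∀ x, ‖f x‖ ≤ M) (k : ℕ) (i : ℤ) :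
    ENNReal.ofReal (avN f k i) * volume (Ivl k i) = ∫⁻ x in Ivl k i, ‖f x‖ₑ := by
  rw [← ofReal_integral_norm_eq_lintegral_enorm (intOn k i hf hM), volume_Ivl,
    ← ENNReal.ofReal_mul (avN_nonneg _ _ _)]
  congr 1
  unfold avN
  field_simp

theorem sum_sq (J : ℕ) :
    ∑ j ∈ Finset.range J, ((j : ℝ) + 1) ^ 2 * (1 / 2) ^ j =
      12 - (2 * (J : ℝ) ^ 2 + 8 * J + 12) * (1 / 2) ^ J := by
  induction J with
  | zero => norm_num
  | succ J ih =>
    rw [Finset.sum_range_succ, ih]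
    push_cast
    ring

/-- one density level -/
theorem level {f : ℝ → ℂ} (hf : Measurable f) {n : ℕ} (hfn : ∀ x, ‖f x‖ ≤ 2 ^ n) {j : ℕ} {Λ : ℝ}
    (hΛ : 0 < Λ) (hE : ExpB (n + j) Λ) {Θ : Finset ℝ} {θ : ℝ → ℝ} (hθΘ : ∀ x, θ x ∈ Θ)
    (m : ℕ) {G : Set ℝ} (hG : MeasurableSet G) (i0 : ℤ) :
    ∫⁻ x in Ivl 0 i0, G.indicator (fun x => ‖SS (coef f (θ x)) (Lv f j) 0 m x‖ₑ) x ≤
      ENNReal.ofReal (2 * ((j + 1) * (1 / 2) ^ j) * Λ) *
        ∫⁻ x in Ivl 0 i0, (G.indicator (fun _ => (1 : ℝ≥0∞)) x + ‖f x‖ₑ) := by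
  classical
  set c : ℝ := (1 / 2) ^ j with hc
  have hc0 : 0 < c := by positivity
  set c' : ℝ := (1 / 2) ^ (j + 1) with hc'
  have hcc : c' = c / 2 := by rw [hc', hc, pow_succ]; ring
  set P : ℕ → ℤ → Prop := fun l i => l < m ∧ c' < avN f l i ∧
    ∀ x ∈ Ivl l i, ∀ l' < l, avN f l' (fl l' x) ≤ c' with hP
  rw [← lintegral_const_mul' _ _ ENNReal.ofReal_ne_top]
  have key : ∀ l, 0 ≤ l → l ≤ 0 + m → ∀ i, P l i →
      ∫⁻ x in Ivl l i, G.indicator (fun x => ‖SS (coef f (θ x)) (Lv f j) 0 m x‖ₑ) x ≤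
        ∫⁻ x in Ivl l i, ENNReal.ofReal (2 * ((j + 1) * c) * Λ) *
          (G.indicator (fun _ => (1 : ℝ≥0∞)) x + ‖f x‖ₑ) := by
    rintro l - - i ⟨hlm, hav, hbef⟩
    -- the sum on the node
    have hSS : ∀ x ∈ Ivl l i, ∀ θ', SS (coef f θ') (Lv f j) 0 m x =
        SS (coef f θ') (AL f c l) l m x := by
      intro x hx θ'
      rw [← SS_add (coef f θ') (Lv f j) (Nat.zero_le l) hlm.le x]
      have h1 : SS (coef f θ') (Lv f j) 0 l x = 0 := by
        refine SS_eq_zero fun l' _ h2 h3 => h3.2 ?_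
        rw [AL_fl]
        intro k' _ h4
        exact hbef x hx k' (by omega)
      rw [h1, zero_add]
      refine SS_congr fun l' h2 h3 => ?_
      unfold Lv
      rw [AL_fl, AL_fl, AL_fl]
      constructor
      · rintro ⟨h4, -⟩ k' h5 h6
        exact h4 k' (by omega) h6
      · intro h4
        constructor
        · intro k' _ h6
          rcases lt_or_ge k' l with h7 | h7
          · refine (hbef x hx k' h7).trans ?_
            rw [hcc]
            linarith
          · exact h4 k' h7 h6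
        · intro h5
          have h6 := h5 l (Nat.zero_le l) h2
          rw [mem_Ivl.1 hx] at h6
          linarith
    set S : ℕ → Set ℝ := fun r => {x | ∃ θ' ∈ Θ, c * (r * Λ) <
      ‖SS (coef f θ') (AL f c l) l m x‖} with hS
    have hSm : ∀ r, MeasurableSet (S r) := by
      intro r
      have : S r = ⋃ θ' ∈ Θ, {x | c * (r * Λ) < ‖SS (coef f θ') (AL f c l) l m x‖} := by
        ext x; simp [hS]
      rw [this]
      exact Finset.measurableSet_biUnion _ fun θ _ =>
        measurableSet_lt measurable_const (measurable_SS _ _ _ _).norm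
    have hvol : ∀ r : ℕ, volume (S r ∩ Ivl l i) ≤
        ENNReal.ofReal ((1 / 2) ^ r) * volume (Ivl l i) := by
      intro r
      refine expB_c hE hc0 hf (fun x => ?_) Θ m r l hlm.le i
      have : c * 2 ^ (n + j) = 2 ^ n := by
        rw [hc, pow_add, one_div_pow]
        field_simp
      rw [this]
      exact hfn x
    have h1 := int_exp (measurableSet_Ivl l i) hG
      (Y := fun x => ‖SS (coef f (θ x)) (Lv f j) 0 m x‖) (a := c * Λ) (by positivity) hSm
      (fun x hx r hr => by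
        rw [hSS x hx] at hr
        refine ⟨θ x, hθΘ x, ?_⟩
        calc c * (r * Λ) = r * (c * Λ) := by ring
          _ < _ := hr) hvol (j + 1)
    have h2 : ∀ x, ENNReal.ofReal ‖SS (coef f (θ x)) (Lv f j) 0 m x‖ =
        ‖SS (coef f (θ x)) (Lv f j) 0 m x‖ₑ := fun x => ofReal_norm _
    simp_rw [h2] at h1
    refine h1.trans ?_
    -- right-hand side
    rw [lintegral_const_mul' _ _ ENNReal.ofReal_ne_top,
      lintegral_add_left (measurable_const.indicator hG), lintegral_indicator hG,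
      setLIntegral_one, Measure.restrict_apply hG, ← lint_Ivl hf hfn l i, mul_add, mul_add]
    refine add_le_add ?_ ?_
    · rw [← mul_assoc]
      gcongr
      rw [← ENNReal.ofReal_natCast, ← ENNReal.ofReal_mul (by positivity)]
      apply ENNReal.ofReal_le_ofReal
      push_cast
      have : 0 ≤ c * Λ * (j + 1) := by positivity
      nlinarith
    · rw [← mul_assoc, ← mul_assoc, ← ENNReal.ofReal_mul (by positivity),
        ← ENNReal.ofReal_mul (by positivity)]
      gcongr ENNReal.ofReal ?_ * _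
      have e1 : (2 : ℝ) * (1 / 2) ^ (j + 1) = 2 * c' := by rw [hc']
      rw [e1]
      have h3 : c * Λ * (2 * c') ≤ c * Λ * (2 * avN f l i) := by gcongr
      have h4 : c * Λ * (2 * avN f l i) ≤ 2 * ((j + 1) * c) * Λ * avN f l i := by
        have h5 : 0 ≤ c * Λ * avN f l i := by
          have := avN_nonneg f l i
          positivity
        have h6 : (0 : ℝ) ≤ j := Nat.cast_nonneg j
        nlinarith
      linarith
  refine stop_int (P := P) m 0 i0 key fun x hx hne => ?_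
  have h1 : SS (coef f (θ x)) (Lv f j) 0 m x ≠ 0 := by
    intro h
    apply hne
    by_cases hxG : x ∈ G
    · rw [indicator_of_mem hxG, h, enorm_zero]
    · rw [indicator_of_notMem hxG]
  have h2 : ∃ l < m, Lv f j l (fl l x) := by
    by_contra hcon
    push Not at hcon
    exact h1 (SS_eq_zero fun l _ h3 => hcon l h3)
  obtain ⟨l0, hl0, hA, hB⟩ := h2
  rw [AL_fl] at hA hB
  push Not at hB
  have hex : ∃ k', c' < avN f k' (fl k' x) := by
    obtain ⟨k', -, -, h5⟩ := hB
    exact ⟨k', h5⟩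
  obtain ⟨k', -, h4, h5⟩ := hB
  set l := Nat.find hex with hl
  have hspec := Nat.find_spec hex
  rw [← hl] at hspec
  have hlk : l ≤ k' := Nat.find_min' hex h5
  refine ⟨l, Nat.zero_le _, by omega, by omega, hspec, fun y hy l' hl' => ?_⟩
  rw [fl_eq_of_le hl'.le (mem_Ivl.1 hy)]
  exact not_lt.1 (Nat.find_min hex hl')

/-- **all the levels** in a cell of generation `0` -/
theorem cell_bound {W : ℕ → ℝ} (hW : ∀ n, 0 ≤ W n) {C : ℝ} (hC : 1 ≤ C)
    (hWC : ∀ n j : ℕ, 1 ≤ n → W (n + j) ≤ C * (j + 1) * W n) {B : ℝ} (hB : 0 < B)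
    (hE : ∀ n : ℕ, 1 ≤ n → ExpB n (B * (W n + 1))) {n : ℕ} (hn : 1 ≤ n) {f : ℝ → ℂ}
    (hf : Measurable f) (hfn : ∀ x, ‖f x‖ ≤ 2 ^ n) {Θ : Finset ℝ} {θ : ℝ → ℝ} (hθ : Measurable θ)
    (hθΘ : ∀ x, θ x ∈ Θ) (m : ℕ) {G : Set ℝ} (hG : MeasurableSet G)
    (hGf : ∀ x ∈ G, ∀ k, avN f k (fl k x) ≤ 1) (i0 : ℤ) :
    ∫⁻ x in Ivl 0 i0, G.indicator (fun x => ‖SS (coef f (θ x)) (fun _ _ => True) 0 m x‖ₑ) x ≤
      ENNReal.ofReal (24 * (C * B) * (W n + 1)) *
        ∫⁻ x in Ivl 0 i0, (G.indicator (fun _ => (1 : ℝ≥0∞)) x + ‖f x‖ₑ) := by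
  classical
  rcases (avN_nonneg f 0 i0).eq_or_lt with h0 | h0
  · have hz : ∀ x ∈ Ivl 0 i0, G.indicator (fun x => ‖SS (coef f (θ x)) (fun _ _ => True) 0 m x‖ₑ) x
        = 0 := by
      intro x hx
      by_cases hxG : x ∈ G
      · rw [indicator_of_mem hxG, SS_of_avN_zero hf hfn, enorm_zero]
        rw [mem_Ivl.1 hx]
        exact h0.symm
      · rw [indicator_of_notMem hxG]
    rw [setLIntegral_congr_fun (measurableSet_Ivl _ _) hz]
    simp
  obtain ⟨J, hJ⟩ := exists_pow_lt_of_lt_one h0 (show (1 / 2 : ℝ) < 1 by norm_num)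
  have hpt : ∀ x ∈ Ivl 0 i0, G.indicator (fun x => ‖SS (coef f (θ x)) (fun _ _ => True) 0 m x‖ₑ) x ≤
      ∑ j ∈ Finset.range J, G.indicator (fun x => ‖SS (coef f (θ x)) (Lv f j) 0 m x‖ₑ) x := by
    intro x hx
    by_cases hxG : x ∈ G
    · simp only [indicator_of_mem hxG]
      have h1 := SS_levels (coef f (θ x)) f J 0 m x
      have h2 : SS (coef f (θ x)) (AL f ((1 / 2) ^ J) 0) 0 m x = 0 := by
        refine SS_eq_zero fun l _ _ h3 => ?_
        rw [AL_fl] at h3
        have := h3 0 le_rfl (Nat.zero_le l)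
        rw [mem_Ivl.1 hx] at this
        linarith
      have h3 : SS (coef f (θ x)) (AL f 1 0) 0 m x =
          SS (coef f (θ x)) (fun _ _ => True) 0 m x := by
        refine SS_congr fun l _ _ => ?_
        rw [AL_fl]
        simp only [iff_true]
        intro k' _ _
        exact hGf x hxG k'
      rw [h2, h3, sub_zero] at h1
      rw [← h1]
      exact enorm_sum_le _ _
    · simp only [indicator_of_notMem hxG]
      exact zero_le
  refine (setLIntegral_mono' (measurableSet_Ivl _ _) hpt).trans ?_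
  rw [lintegral_finsetSum' _ (fun j _ => ?_)]
  · have hlev : ∀ j ∈ Finset.range J,
        ∫⁻ x in Ivl 0 i0, G.indicator (fun x => ‖SS (coef f (θ x)) (Lv f j) 0 m x‖ₑ) x ≤
        ENNReal.ofReal ((2 * (C * B) * (W n + 1)) * (((j : ℝ) + 1) ^ 2 * (1 / 2) ^ j)) *
        ∫⁻ x in Ivl 0 i0, (G.indicator (fun _ => (1 : ℝ≥0∞)) x + ‖f x‖ₑ) := by
      intro j _
      have hWn := hW n
      have hWnj := hW (n + j)
      have h1 := level hf hfn (j := j) (Λ := B * (W (n + j) + 1)) (by positivity)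
        (hE (n + j) (by omega)) hθΘ m hG i0
      refine h1.trans ?_
      gcongr ENNReal.ofReal ?_ * _
      have h2 := hWC n j hn
      have h3 : W (n + j) + 1 ≤ C * (j + 1) * (W n + 1) := by
        have : 1 ≤ C * ((j : ℝ) + 1) := by
          have hj : (0 : ℝ) ≤ j := Nat.cast_nonneg j
          nlinarith
        linarith
      calc 2 * (((j : ℝ) + 1) * (1 / 2) ^ j) * (B * (W (n + j) + 1))
          ≤ 2 * (((j : ℝ) + 1) * (1 / 2) ^ j) * (B * (C * (j + 1) * (W n + 1))) := by gcongr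
        _ = _ := by ring
    refine (Finset.sum_le_sum hlev).trans ?_
    rw [← Finset.sum_mul]
    gcongr
    have hWn := hW n
    rw [← ENNReal.ofReal_sum_of_nonneg (fun j _ => by positivity), ← Finset.mul_sum, sum_sq]
    apply ENNReal.ofReal_le_ofReal
    have h4 : 12 - (2 * (J : ℝ) ^ 2 + 8 * J + 12) * (1 / 2) ^ J ≤ 12 := by
      have : 0 ≤ (2 * (J : ℝ) ^ 2 + 8 * J + 12) * (1 / 2) ^ J := by positivity
      linarith
    calc 2 * (C * B) * (W n + 1) * (12 - (2 * (J : ℝ) ^ 2 + 8 * J + 12) * (1 / 2) ^ J)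
        ≤ 2 * (C * B) * (W n + 1) * 12 := by gcongr
      _ = _ := by ring
  · refine (Measurable.indicator ?_ hG).aemeasurable
    apply Measurable.enorm
    -- measurability of the linearised sum
    have : (fun x => SS (coef f (θ x)) (Lv f j) 0 m x) =
        fun x => ∑ θ' ∈ Θ, (θ ⁻¹' {θ'}).indicator (fun x => SS (coef f θ') (Lv f j) 0 m x) x := by
      ext x
      rw [Finset.sum_eq_single (θ x)]
      · rw [indicator_of_mem]
        simp
      · intro b _ hb
        rw [indicator_of_notMem]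
        simp only [mem_preimage, mem_singleton_iff]
        exact fun h => hb h.symm
      · intro h
        exact absurd (hθΘ x) h
    rw [this]
    exact Finset.measurable_sum _ fun θ' _ => (measurable_SS _ _ _ _).indicator
      (hθ (measurableSet_singleton _))

end Crest.Agent.R100.M7800
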