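import Crest.Agent.R100.M7d_800
import Crest.Agent.R100.Glue_403

/-!
# R100 / S0132, M7e (helper800): from the model to the strong local bound on the circle
-/

set_option autoImplicit false

open MeasureTheory Set
open scoped ENNReal NNReal

noncomputable section

namespace Crest.Agent.R100.M7800

open Crest.Agent.R100.Mart933 Crest.Agent.R100.Wide933 Crest.Agent.R100.Hunt933
open Crest.Agent.R100.Local933 Crest.Agent.R100.Haar403

/-! ## the model operator on the line -/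

theorem H_eq_SS (m : ℕ) (f : ℝ → ℂ) (θ x : ℝ) :
    H m (mdl (-θ) f) x = SS (coef f θ) (fun _ _ => True) 0 m x := by
  classical
  unfold H SS
  rw [Finset.range_eq_Ico]
  refine Finset.sum_congr rfl fun k _ => ?_
  rw [if_pos trivial, D_mdl_eq, sg_eq_rad]

section line

variable {W : ℕ → ℝ} {C B : ℝ}

theorem cell_bound4 (hW : ∀ n, 0 ≤ W n) (hC : 1 ≤ C)
    (hWC : ∀ n j : ℕ, 1 ≤ n → W (n + j) ≤ C * (j + 1) * W n) (hB : 0 < B)
    (hE : ∀ n : ℕ, 1 ≤ n → ExpB n (B * (W n + 1))) {n : ℕ} (hn : 1 ≤ n) {f : ℝ → ℂ}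
    (hf : Measurable f) (hfn : ∀ x, ‖f x‖ ≤ 2 ^ n) {Θ : Finset ℝ} {θ : ℝ → ℝ} (hθ : Measurable θ)
    (hθΘ : ∀ x, θ x ∈ Θ) (m : ℕ) {G : Set ℝ} (hG : MeasurableSet G)
    (hGf : ∀ x ∈ G, ∀ k, avN f k (fl k x) ≤ 4) (i0 : ℤ) :
    ∫⁻ x in Ivl 0 i0, G.indicator (fun x => ‖H m (mdl (-(θ x)) f) x‖ₑ) x ≤
      ENNReal.ofReal (96 * (C * B) * (W n + 1)) *
        ∫⁻ x in Ivl 0 i0, (G.indicator (fun _ => (1 : ℝ≥0∞)) x + ‖f x‖ₑ) := by
  classical
  set g : ℝ → ℂ := fun x => ((1 / 4 : ℝ) : ℂ) * f x with hg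
  have hgm : Measurable g := hf.const_mul _
  have hgn : ∀ x, ‖g x‖ = 1 / 4 * ‖f x‖ := by
    intro x
    rw [hg]
    simp only
    rw [norm_mul, Complex.norm_real, Real.norm_eq_abs, abs_of_pos (by norm_num)]
  have hgn' : ∀ x, ‖g x‖ ≤ 2 ^ n := by
    intro x
    rw [hgn]
    have := hfn x
    have := norm_nonneg (f x)
    linarith
  have h := cell_bound hW hC hWC hB hE hn hgm hgn' hθ hθΘ m hG (fun x hx k => by
    rw [hg, avN_smul f (by norm_num)]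
    have := hGf x hx k
    linarith) i0
  have e1 : ∀ x, ‖H m (mdl (-(θ x)) f) x‖ₑ =
      4 * ‖SS (coef g (θ x)) (fun _ _ => True) 0 m x‖ₑ := by
    intro x
    rw [H_eq_SS, hg, SS_coef_smul, enorm_mul, ← mul_assoc]
    have : (4 : ℝ≥0∞) * ‖(((1 / 4 : ℝ) : ℝ) : ℂ)‖ₑ = 1 := by
      rw [← ofReal_norm, Complex.norm_real, Real.norm_eq_abs, abs_of_pos (by norm_num),
        show (4 : ℝ≥0∞) = ENNReal.ofReal 4 by norm_num, ← ENNReal.ofReal_mul (by norm_num)]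
      norm_num
    rw [this, one_mul]
  have e2 : ∀ x, G.indicator (fun x => ‖H m (mdl (-(θ x)) f) x‖ₑ) x =
      4 * G.indicator (fun x => ‖SS (coef g (θ x)) (fun _ _ => True) 0 m x‖ₑ) x := by
    intro x
    by_cases hx : x ∈ G
    · rw [indicator_of_mem hx, indicator_of_mem hx, e1]
    · rw [indicator_of_notMem hx, indicator_of_notMem hx, mul_zero]
  simp_rw [e2]
  rw [lintegral_const_mul' _ _ (by norm_num)]
  have hWn := hW n
  calc 4 * ∫⁻ x in Ivl 0 i0, G.indicator (fun x => ‖SS (coef g (θ x)) (fun _ _ => True) 0 m x‖ₑ) x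
      ≤ 4 * (ENNReal.ofReal (24 * (C * B) * (W n + 1)) *
        ∫⁻ x in Ivl 0 i0, (G.indicator (fun _ => (1 : ℝ≥0∞)) x + ‖g x‖ₑ)) := by gcongr
    _ ≤ 4 * (ENNReal.ofReal (24 * (C * B) * (W n + 1)) *
        ∫⁻ x in Ivl 0 i0, (G.indicator (fun _ => (1 : ℝ≥0∞)) x + ‖f x‖ₑ)) := by
        gcongr with x
        rw [← ofReal_norm, ← ofReal_norm]
        apply ENNReal.ofReal_le_ofReal
        rw [hgn]
        have := norm_nonneg (f x)
        linarith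
    _ = _ := by
        rw [← mul_assoc, show (4 : ℝ≥0∞) = ENNReal.ofReal 4 by norm_num,
          ← ENNReal.ofReal_mul (by norm_num)]
        congr 2
        ring

/-- three cells -/
theorem three_cells : Ico (-1 : ℝ) 2 = (Ivl 0 (-1) ∪ Ivl 0 0) ∪ Ivl 0 1 := by
  unfold Ivl
  ext x
  simp only [mem_Ico, mem_union]
  norm_num
  constructor
  · rintro ⟨h1, h2⟩
    rcases lt_or_ge x 0 with h | h
    · exact Or.inl (Or.inl ⟨h1, h⟩)
    · rcases lt_or_ge x 1 with h3 | h3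
      · exact Or.inl (Or.inr ⟨h, h3⟩)
      · exact Or.inr ⟨h3, h2⟩
  · rintro ((⟨h1, h2⟩ | ⟨h1, h2⟩) | ⟨h1, h2⟩) <;> constructor <;> linarith

theorem disj_cells {i j : ℤ} (h : i ≠ j) : Disjoint (Ivl 0 i) (Ivl 0 j) := by
  rw [Set.disjoint_left]
  intro x h1 h2
  rw [mem_Ivl] at h1 h2
  exact h (h1.symm.trans h2)

theorem lint_three (g : ℝ → ℝ≥0∞) :
    ∫⁻ x in Ico (-1 : ℝ) 2, g x = ((∫⁻ x in Ivl 0 (-1), g x) + ∫⁻ x in Ivl 0 0, g x) +
      ∫⁻ x in Ivl 0 1, g x := by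
  rw [three_cells, lintegral_union (measurableSet_Ivl _ _),
    lintegral_union (measurableSet_Ivl _ _) (disj_cells (by norm_num))]
  rw [Set.disjoint_union_left]
  exact ⟨disj_cells (by norm_num), disj_cells (by norm_num)⟩

theorem line_bound (hW : ∀ n, 0 ≤ W n) (hC : 1 ≤ C)
    (hWC : ∀ n j : ℕ, 1 ≤ n → W (n + j) ≤ C * (j + 1) * W n) (hB : 0 < B)
    (hE : ∀ n : ℕ, 1 ≤ n → ExpB n (B * (W n + 1))) {n : ℕ} (hn : 1 ≤ n) {f : ℝ → ℂ}
    (hf : Measurable f) (hfn : ∀ x, ‖f x‖ ≤ 2 ^ n) {Θ : Finset ℝ} {θ : ℝ → ℝ} (hθ : Measurable θ)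
    (hθΘ : ∀ x, θ x ∈ Θ) (m : ℕ) {G : Set ℝ} (hG : MeasurableSet G)
    (hGf : ∀ x ∈ G, ∀ k, avN f k (fl k x) ≤ 4) :
    ∫⁻ x in Ico (-1 : ℝ) 2, G.indicator (fun x => ‖H m (mdl (-(θ x)) f) x‖ₑ) x ≤
      ENNReal.ofReal (96 * (C * B) * (W n + 1)) *
        ∫⁻ x in Ico (-1 : ℝ) 2, (G.indicator (fun _ => (1 : ℝ≥0∞)) x + ‖f x‖ₑ) := by
  have h := fun i0 => cell_bound4 hW hC hWC hB hE hn hf hfn hθ hθΘ m hG hGf i0
  rw [lint_three, lint_three, mul_add, mul_add]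
  exact add_le_add (add_le_add (h _) (h _)) (h _)

end line

/-! ## dilations -/

theorem lint_dil {ρ : ℝ} (hρ : 0 < ρ) (σ : ℝ) {h : ℝ → ℝ≥0∞} (hh : Measurable h) :
    ∫⁻ y, h (ρ * (σ + y)) = ENNReal.ofReal ρ⁻¹ * ∫⁻ u, h u := by
  have h1 : ∫⁻ y, h (ρ * (σ + y)) = ∫⁻ y, h (ρ * y) := by
    rw [lintegral_add_left_eq_self (fun y => h (ρ * y)) σ]
  rw [h1]
  have h2 := Real.map_volume_mul_left hρ.ne'
  rw [← lintegral_map hh (measurable_const_mul ρ), h2, lintegral_smul_measure,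
    abs_of_pos (inv_pos.2 hρ), smul_eq_mul]

theorem lint_dil_set {ρ : ℝ} (hρ : 0 < ρ) (σ : ℝ) {h : ℝ → ℝ≥0∞} (hh : Measurable h) {S S' : Set ℝ}
    (hS' : MeasurableSet S') (hS : MeasurableSet S) (hSS : ∀ y ∈ S, ρ * (σ + y) ∈ S') :
    ∫⁻ y in S, h (ρ * (σ + y)) ≤ ENNReal.ofReal ρ⁻¹ * ∫⁻ u in S', h u := by
  rw [← lintegral_indicator hS', ← lint_dil hρ σ (hh.indicator hS'), ← lintegral_indicator hS]
  refine lintegral_mono fun y => ?_
  by_cases hy : y ∈ S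
  · rw [indicator_of_mem hy, indicator_of_mem (hSS y hy)]
  · rw [indicator_of_notMem hy]
    exact zero_le

end Crest.Agent.R100.M7800
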