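import Crest.Agent.R100.M7e_800

/-!
# R100 / S0132, M7f (helper800): the weak model bound implies the strong local bound on the circle
and hence the a.e. convergence.
-/

set_option autoImplicit false

open MeasureTheory Set Metric
open scoped ENNReal NNReal

noncomputable section

namespace Crest.Agent.R100.M7800

open Crest.Agent.R100.Mart933 Crest.Agent.R100.Wide933 Crest.Agent.R100.Hunt933
open Crest.Agent.R100.Local933 Crest.Agent.R100.Haar403 Crest.Agent.R100.Glue403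
open Crest.Agent.R100.P1800 Crest.Agent.R100.P2800 Crest.Agent.R100.P2b800
open Crest.Agent.R100.P3800 Crest.Agent.R100.P4800

variable {T : ℝ} [hT : Fact (0 < T)]

local notation "μ" => AddCircle.haarAddCircle (T := T)

theorem lint_two {f : AddCircle T → ℂ} (hf : Measurable f) (a : ℝ) :
    ∫⁻ u in Ioc a (a + 2), ‖lift f u‖ₑ = 2 * ∫⁻ x, ‖f x‖ₑ ∂μ := by
  have h : Ioc a (a + 2) = Ioc a (a + 1) ∪ Ioc (a + 1) (a + 1 + 1) := by
    rw [Ioc_union_Ioc_eq_Ioc (by linarith) (by linarith)]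
    congr 1
    ring
  rw [h, lintegral_union measurableSet_Ioc, lint_lift hf, lint_lift hf, two_mul]
  rw [Set.disjoint_left]
  rintro x ⟨_, h1⟩ ⟨h2, _⟩
  linarith

theorem lint_four {f : AddCircle T → ℂ} (hf : Measurable f) (a : ℝ) :
    ∫⁻ u in Ioc a (a + 4), ‖lift f u‖ₑ = 4 * ∫⁻ x, ‖f x‖ₑ ∂μ := by
  have h : Ioc a (a + 4) = Ioc a (a + 2) ∪ Ioc (a + 2) (a + 2 + 2) := by
    rw [Ioc_union_Ioc_eq_Ioc (by linarith) (by linarith)]
    congr 1
    ring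
  rw [h, lintegral_union measurableSet_Ioc, lint_two hf, lint_two hf, ← add_mul]
  · norm_num
  rw [Set.disjoint_left]
  rintro x ⟨_, h1⟩ ⟨h2, _⟩
  linarith

/-- averages over the cells of the dilated grids at the good points -/
theorem avN_dil_le {f : AddCircle T → ℂ} (hf : Measurable f) {M : ℝ} (hM : ∀ x, ‖f x‖ ≤ M)
    {G : Set (AddCircle T)} (hG : MaxLe f G) {ρ σ : ℝ} (hρ0 : 1 / 2 < ρ) (hρ1 : ρ ≤ 1) {x : ℝ}
    (hx : ph (ρ * (σ + x)) ∈ G) (k : ℕ) : avN (dil ρ σ (lift f)) k (fl k x) ≤ 4 := by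
  have hρ : 0 < ρ := by linarith
  set u : ℝ := ρ * (σ + x) with hu
  set r : ℝ := 1 / 2 ^ k with hr
  have hr0 : 0 < r := by positivity
  have hxI : x ∈ Ivl k (fl k x) := mem_Ivl.2 rfl
  have h1 := lint_Ivl (measurable_dil (ρ := ρ) (σ := σ) (measurable_lift hf)) (fun y => hM _) k (fl k x)
  have h2 : ∫⁻ y in Ivl k (fl k x), ‖dil ρ σ (lift f) y‖ₑ ≤
      ENNReal.ofReal ρ⁻¹ * ∫⁻ v in Icc (u - ρ * r) (u + ρ * r), ‖lift f v‖ₑ := by
    refine lint_dil_set hρ σ (measurable_lift hf).enorm measurableSet_Icc (measurableSet_Ivl _ _)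
      fun y hy => ?_
    have h3 := dist_Ivl hxI hy
    have h4 : |y - x| ≤ r := by
      rw [abs_sub_comm] at h3
      first
        | exact h3
        | (rw [abs_sub_comm]; exact h3)
    rw [abs_le] at h4
    rw [hu]
    constructor
    · nlinarith [h4.1]
    · nlinarith [h4.2]
  have h5 : ENNReal.ofReal ρ⁻¹ * ∫⁻ v in Icc (u - ρ * r) (u + ρ * r), ‖lift f v‖ₑ ≤
      ENNReal.ofReal (4 * r) := by
    by_cases hrr : ρ * r ≤ 1 / 2
    · have h6 := ball_bound hf hG hx (r := ρ * r) (by positivity) hrr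
      calc _ ≤ ENNReal.ofReal ρ⁻¹ * ENNReal.ofReal (2 * (ρ * r)) := by gcongr
        _ = ENNReal.ofReal (2 * r) := by
            rw [← ENNReal.ofReal_mul (by positivity)]
            congr 1
            field_simp
        _ ≤ _ := ENNReal.ofReal_le_ofReal (by linarith)
    · push Not at hrr
      have hk : k = 0 := by
        by_contra hk
        have : r ≤ 1 / 2 := by
          rw [hr]
          have : (2 : ℝ) ≤ 2 ^ k := by
            calc (2 : ℝ) = 2 ^ 1 := (pow_one _).symm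
              _ ≤ 2 ^ k := pow_le_pow_right₀ (by norm_num) (Nat.one_le_iff_ne_zero.2 hk)
          gcongr
        nlinarith
      have hr1 : r = 1 := by rw [hr, hk]; norm_num
      have h7 : ∫⁻ v in Icc (u - ρ * r) (u + ρ * r), ‖lift f v‖ₑ ≤ 2 := by
        rw [setLIntegral_congr (Ioc_ae_eq_Icc (a := u - ρ * r) (b := u + ρ * r)).symm]
        have h8 : Ioc (u - ρ * r) (u + ρ * r) ⊆ Ioc (u - 1) (u - 1 + 2) := by
          refine Ioc_subset_Ioc ?_ ?_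
          · rw [hr1]; linarith
          · rw [hr1]; linarith
        calc _ ≤ ∫⁻ v in Ioc (u - 1) (u - 1 + 2), ‖lift f v‖ₑ := lintegral_mono_set h8
          _ = 2 * ∫⁻ x, ‖f x‖ₑ ∂μ := lint_two hf _
          _ ≤ 2 * 1 := by
              gcongr
              exact total_le_one hG hx
          _ = 2 := mul_one _
      calc _ ≤ ENNReal.ofReal ρ⁻¹ * 2 := by gcongr
        _ = ENNReal.ofReal (ρ⁻¹ * 2) := by
            rw [ENNReal.ofReal_mul (by positivity)]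
            norm_num
        _ ≤ _ := by
            apply ENNReal.ofReal_le_ofReal
            rw [hr1, inv_mul_le_iff₀ hρ]
            linarith
  have h9 := h1.trans_le (h2.trans h5)
  rw [volume_Ivl, ← ENNReal.ofReal_mul (avN_nonneg _ _ _),
    ENNReal.ofReal_le_ofReal_iff (by positivity)] at h9
  exact le_of_mul_le_mul_right h9 hr0

/-- the model operator as a function of all the parameters `((u, ρ), σ)` -/
def hpar (F : ℝ → ℂ) (θ : ℝ → ℝ) (m : ℕ) (p : (ℝ × ℝ) × ℝ) : ℝ≥0∞ :=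
  ‖H m (mdl (p.1.2 * θ p.1.1) (dil p.1.2 p.2 F)) (p.1.1 / p.1.2 - p.2)‖ₑ

theorem measurable_Hpar {F : ℝ → ℂ} (hF : Measurable F) {M : ℝ} (hM : ∀ x, ‖F x‖ ≤ M)
    {θ : ℝ → ℝ} (hθ : Measurable θ) (m : ℕ) :
    Measurable (hpar F θ m) := by
  unfold hpar
  have h := measurable_H_param (G := fun x y => mdl (θ x) F y) ?_ (B := M) ?_ m
  · have e1 : (fun p : (ℝ × ℝ) × ℝ =>
        ‖H m (mdl (p.1.2 * θ p.1.1) (dil p.1.2 p.2 F)) (p.1.1 / p.1.2 - p.2)‖ₑ) =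
        fun p : (ℝ × ℝ) × ℝ =>
        ‖H m (dil p.1.2 p.2 (mdl (θ p.1.1) F)) (p.1.1 / p.1.2 - p.2)‖ₑ := by
      ext p
      rw [enorm_H_dil_mdl]
    rw [e1]
    exact h.enorm
  · unfold Function.uncurry mdl ee
    have h1 : Measurable fun a : ℝ × ℝ => θ a.1 := hθ.comp measurable_fst
    have h2 : Measurable fun a : ℝ × ℝ => F a.2 := hF.comp measurable_snd
    fun_prop
  · intro x y
    rw [norm_mdl]
    exact hM y

section main

variable {W : ℕ → ℝ} {C B : ℝ}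

theorem fixed_grid (hW : ∀ n, 0 ≤ W n) (hC : 1 ≤ C)
    (hWC : ∀ n j : ℕ, 1 ≤ n → W (n + j) ≤ C * (j + 1) * W n) (hB : 0 < B)
    (hE : ∀ n : ℕ, 1 ≤ n → ExpB n (B * (W n + 1))) {n : ℕ} (hn : 1 ≤ n)
    {f : AddCircle T → ℂ} (hf : Measurable f) (hfn : ∀ x, ‖f x‖ ≤ 2 ^ n)
    {G : Set (AddCircle T)} (hGm : MeasurableSet G) (hG : MaxLe f G)
    {Θ : Finset ℝ} {θ : ℝ → ℝ} (hθ : Measurable θ) (hθΘ : ∀ x, θ x ∈ Θ) (m : ℕ)
    {ρ σ : ℝ} (hρ0 : 1 / 2 < ρ) (hρ1 : ρ ≤ 1) (hσ0 : 0 < σ) (hσ1 : σ ≤ 1) :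
    ∫⁻ u in GR G, ‖H m (mdl (ρ * θ u) (dil ρ σ (lift f))) (u / ρ - σ)‖ₑ ≤
      ENNReal.ofReal (96 * (C * B) * (W n + 1)) *
        (volume (GR G) + 4 * ∫⁻ x, ‖f x‖ₑ ∂μ) := by
  classical
  have hρ : 0 < ρ := by linarith
  have hGR : MeasurableSet (GR G) := measurableSet_Ioc.inter (measurable_ph hGm)
  set F : ℝ → ℂ := lift f with hF
  have hFm : Measurable F := measurable_lift hf
  have hFn : ∀ x, ‖F x‖ ≤ 2 ^ n := fun x => hfn _
  have hm1 : Measurable fun u : ℝ => hpar F θ m ((u, ρ), σ) :=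
    (measurable_Hpar hFm hFn hθ m).comp ((measurable_id.prodMk measurable_const).prodMk
      measurable_const)
  have hpe : ∀ u, hpar F θ m ((u, ρ), σ) =
      ‖H m (mdl (ρ * θ u) (dil ρ σ F)) (u / ρ - σ)‖ₑ := fun u => rfl
  simp_rw [hpe] at hm1
  set h : ℝ → ℝ≥0∞ := (GR G).indicator
    (fun u => ‖H m (mdl (ρ * θ u) (dil ρ σ F)) (u / ρ - σ)‖ₑ) with hh
  have hhm : Measurable h := hm1.indicator hGR
  rw [← lintegral_indicator hGR]
  have h1 : ∫⁻ u, h u = ENNReal.ofReal ρ * ∫⁻ y, h (ρ * (σ + y)) := by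
    rw [lint_dil hρ σ hhm, ← mul_assoc, ← ENNReal.ofReal_mul hρ.le, mul_inv_cancel₀ hρ.ne']
    simp
  rw [h1]
  set G' : Set ℝ := {y | ρ * (σ + y) ∈ GR G} with hG'
  have hlin : Measurable fun y : ℝ => ρ * (σ + y) := by fun_prop
  have hG'm : MeasurableSet G' := hlin hGR
  set θ' : ℝ → ℝ := fun y => -(ρ * θ (ρ * (σ + y))) with hθ'
  have hθ'm : Measurable θ' := ((hθ.comp hlin).const_mul ρ).neg
  have hθ'Θ : ∀ y, θ' y ∈ Θ.image fun t => -(ρ * t) := fun y =>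
    Finset.mem_image_of_mem (fun t => -(ρ * t)) (hθΘ _)
  have hF'm : Measurable (dil ρ σ F) := measurable_dil hFm
  have hF'n : ∀ x, ‖dil ρ σ F x‖ ≤ 2 ^ n := fun x => hFn _
  have hline := line_bound hW hC hWC hB hE hn hF'm hF'n hθ'm hθ'Θ m hG'm
    (fun x hx k => avN_dil_le hf hfn hG hρ0 hρ1 hx.2 k)
  have e1 : ∀ y, h (ρ * (σ + y)) = (Ico (-1 : ℝ) 2).indicator
      (G'.indicator (fun x => ‖H m (mdl (-(θ' x)) (dil ρ σ F)) x‖ₑ)) y := by
    intro y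
    by_cases hy : y ∈ G'
    · have hy' : ρ * (σ + y) ∈ GR G := hy
      have hyI : y ∈ Ico (-1 : ℝ) 2 := by
        obtain ⟨⟨a1, a2⟩, -⟩ := hy'
        have a3 : 0 < σ + y := by
          by_contra hcon
          push Not at hcon
          nlinarith
        have a4 : σ + y < 2 := by
          by_contra hcon
          push Not at hcon
          nlinarith
        constructor <;> linarith
      rw [indicator_of_mem hyI, indicator_of_mem hy, hh, indicator_of_mem hy']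
      have e2 : ρ * (σ + y) / ρ - σ = y := by field_simp; ring
      have e3 : -(θ' y) = ρ * θ (ρ * (σ + y)) := by simp [hθ']
      rw [e2, e3]
    · have hy' : ρ * (σ + y) ∉ GR G := hy
      rw [hh, indicator_of_notMem hy']
      by_cases hyI : y ∈ Ico (-1 : ℝ) 2
      · rw [indicator_of_mem hyI, indicator_of_notMem hy]
      · rw [indicator_of_notMem hyI]
  simp_rw [e1]
  rw [lintegral_indicator measurableSet_Ico]
  -- the right-hand side
  have h2 : ∫⁻ x in Ico (-1 : ℝ) 2, (G'.indicator (fun _ => (1 : ℝ≥0∞)) x + ‖dil ρ σ F x‖ₑ) ≤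
      ENNReal.ofReal ρ⁻¹ * (volume (GR G) + 4 * ∫⁻ x, ‖f x‖ₑ ∂μ) := by
    rw [lintegral_add_left (measurable_const.indicator hG'm), mul_add]
    refine add_le_add ?_ ?_
    · calc ∫⁻ x in Ico (-1 : ℝ) 2, G'.indicator (fun _ => (1 : ℝ≥0∞)) x
          ≤ ∫⁻ x, G'.indicator (fun _ => (1 : ℝ≥0∞)) x := setLIntegral_le_lintegral _ _
        _ = ∫⁻ x, (GR G).indicator (fun _ => (1 : ℝ≥0∞)) (ρ * (σ + x)) := rfl
        _ = ENNReal.ofReal ρ⁻¹ * ∫⁻ x, (GR G).indicator (fun _ => (1 : ℝ≥0∞)) x :=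
            lint_dil hρ σ (measurable_const.indicator hGR)
        _ = _ := by rw [lintegral_indicator hGR, setLIntegral_one]
    · rw [← lint_four hf (-1)]
      refine lint_dil_set hρ σ hFm.enorm measurableSet_Ioc measurableSet_Ico fun y hy => ?_
      constructor
      · nlinarith [hy.1]
      · nlinarith [hy.2]
  calc ENNReal.ofReal ρ * ∫⁻ x in Ico (-1 : ℝ) 2,
        G'.indicator (fun x => ‖H m (mdl (-(θ' x)) (dil ρ σ F)) x‖ₑ) x
      ≤ ENNReal.ofReal ρ * (ENNReal.ofReal (96 * (C * B) * (W n + 1)) *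
        (ENNReal.ofReal ρ⁻¹ * (volume (GR G) + 4 * ∫⁻ x, ‖f x‖ₑ ∂μ))) := by
        gcongr
        exact hline.trans (by gcongr)
    _ = (ENNReal.ofReal ρ * ENNReal.ofReal ρ⁻¹) * (ENNReal.ofReal (96 * (C * B) * (W n + 1)) *
        (volume (GR G) + 4 * ∫⁻ x, ‖f x‖ₑ ∂μ)) := by ring
    _ = _ := by
        rw [← ENNReal.ofReal_mul hρ.le, mul_inv_cancel₀ hρ.ne', ENNReal.ofReal_one, one_mul]

/-- the average over the grids -/
theorem avg_bound (hW : ∀ n, 0 ≤ W n) (hC : 1 ≤ C)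
    (hWC : ∀ n j : ℕ, 1 ≤ n → W (n + j) ≤ C * (j + 1) * W n) (hB : 0 < B)
    (hE : ∀ n : ℕ, 1 ≤ n → ExpB n (B * (W n + 1))) {n : ℕ} (hn : 1 ≤ n)
    {f : AddCircle T → ℂ} (hf : Measurable f) (hfn : ∀ x, ‖f x‖ ≤ 2 ^ n)
    {G : Set (AddCircle T)} (hGm : MeasurableSet G) (hG : MaxLe f G)
    {Θ : Finset ℝ} {θ : ℝ → ℝ} (hθ : Measurable θ) (hθΘ : ∀ x, θ x ∈ Θ) (m : ℕ) :
    ∫⁻ u in GR G, AvH m (θ u) (lift f) u ≤
      ENNReal.ofReal (96 * (C * B) * (W n + 1)) *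
        (volume (GR G) + 4 * ∫⁻ x, ‖f x‖ₑ ∂μ) := by
  have hFm : Measurable (lift f) := measurable_lift hf
  have hFn : ∀ x, ‖lift f x‖ ≤ 2 ^ n := fun x => hfn _
  have hm3 := measurable_Hpar hFm hFn hθ m
  unfold AvH
  have hsw : ∫⁻ u in GR G, ∫⁻ ρ in Ioc (1 / 2 : ℝ) 1, ∫⁻ σ in Ioc (0 : ℝ) 1,
        ‖H m (mdl (ρ * θ u) (dil ρ σ (lift f))) (u / ρ - σ)‖ₑ =
      ∫⁻ ρ in Ioc (1 / 2 : ℝ) 1, ∫⁻ u in GR G, ∫⁻ σ in Ioc (0 : ℝ) 1,
        ‖H m (mdl (ρ * θ u) (dil ρ σ (lift f))) (u / ρ - σ)‖ₑ := by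
    have h2 : Measurable fun p : ℝ × ℝ => ∫⁻ σ in Ioc (0 : ℝ) 1, hpar (lift f) θ m (p, σ) :=
      hm3.lintegral_prod_right'
    exact lintegral_lintegral_swap
      (f := fun u ρ => ∫⁻ σ in Ioc (0 : ℝ) 1, hpar (lift f) θ m ((u, ρ), σ)) h2.aemeasurable
  rw [hsw]
  · have h1 : ∀ ρ : ℝ, ∫⁻ u in GR G, ∫⁻ σ in Ioc (0 : ℝ) 1,
        ‖H m (mdl (ρ * θ u) (dil ρ σ (lift f))) (u / ρ - σ)‖ₑ =
        ∫⁻ σ in Ioc (0 : ℝ) 1, ∫⁻ u in GR G,
        ‖H m (mdl (ρ * θ u) (dil ρ σ (lift f))) (u / ρ - σ)‖ₑ := by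
      intro ρ
      have h2 : Measurable fun p : ℝ × ℝ => hpar (lift f) θ m ((p.1, ρ), p.2) :=
        hm3.comp ((measurable_fst.prodMk measurable_const).prodMk measurable_snd)
      exact lintegral_lintegral_swap (f := fun u σ => hpar (lift f) θ m ((u, ρ), σ))
        h2.aemeasurable
    simp_rw [h1]
    set K := ENNReal.ofReal (96 * (C * B) * (W n + 1)) *
        (volume (GR G) + 4 * ∫⁻ x, ‖f x‖ₑ ∂μ) with hK
    calc ∫⁻ ρ in Ioc (1 / 2 : ℝ) 1, ∫⁻ σ in Ioc (0 : ℝ) 1, ∫⁻ u in GR G,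
        ‖H m (mdl (ρ * θ u) (dil ρ σ (lift f))) (u / ρ - σ)‖ₑ
        ≤ ∫⁻ ρ in Ioc (1 / 2 : ℝ) 1, ∫⁻ σ in Ioc (0 : ℝ) 1, K := by
          refine setLIntegral_mono' measurableSet_Ioc fun ρ hρ => ?_
          refine setLIntegral_mono' measurableSet_Ioc fun σ hσ => ?_
          exact fixed_grid hW hC hWC hB hE hn hf hfn hGm hG hθ hθΘ m hρ.1 hρ.2 hσ.1 hσ.2
      _ = ENNReal.ofReal (1 / 2) * K := by
          rw [setLIntegral_const, setLIntegral_const, Real.volume_Ioc, Real.volume_Ioc]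
          norm_num
          rw [mul_comm]
      _ ≤ 1 * K := by
          gcongr
          rw [← ENNReal.ofReal_one]
          exact ENNReal.ofReal_le_ofReal (by norm_num)
      _ = K := one_mul K

end main

end Crest.Agent.R100.M7800
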