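import Crest.Agent.R100.P3_800

/-!
# R100 / S0132, part P3b (helper800): `StrongLocalR → StrongLocal T`.
-/

set_option autoImplicit false

open MeasureTheory Filter Set Topology Metric
open scoped ENNReal NNReal

noncomputable section

namespace Crest.Agent.R100.P3b800

open Crest.Agent.R100.P1800 Crest.Agent.R100.P2800 Crest.Agent.R100.P2b800
open Crest.Agent.R100.P3800

variable {T : ℝ} [hT : Fact (0 < T)]

local notation "μ" => AddCircle.haarAddCircle (T := T)

lemma norm_exp_I (a : ℝ) : ‖Complex.exp (-(a : ℂ) * Complex.I)‖ = 1 := by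
  have : -(a : ℂ) * Complex.I = ((-a : ℝ) : ℂ) * Complex.I := by push_cast; ring
  rw [this, Complex.norm_exp_ofReal_mul_I]

/-- integrability of the kernel integrand -/
lemma integrable_CR {F : ℝ → ℂ} (hF : Integrable F) {ε : ℝ} (hε : 0 < ε) (N : ℤ) (x : ℝ) :
    IntegrableOn (fun y : ℝ => Complex.exp (-(2 * Real.pi * N * y) * Complex.I) * F y / (x - y))
      {y : ℝ | ε < |x - y|} := by
  have hD : MeasurableSet {y : ℝ | ε < |x - y|} :=
    measurableSet_lt measurable_const (measurable_const.sub measurable_id).norm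
  have h1 : IntegrableOn F {y : ℝ | ε < |x - y|} := hF.integrableOn
  refine (h1.norm.const_mul (1 / ε)).mono' ?_ ?_
  · refine AEStronglyMeasurable.mul (AEStronglyMeasurable.mul ?_ h1.aestronglyMeasurable) ?_
    · have : Continuous (fun y : ℝ => Complex.exp (-(2 * Real.pi * N * y) * Complex.I)) := by
        fun_prop
      exact this.aestronglyMeasurable
    · have : Measurable (fun y : ℝ => ((x : ℂ) - (y : ℂ))⁻¹) :=
        (measurable_const.sub Complex.measurable_ofReal).inv
      exact this.aestronglyMeasurable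
  · refine (ae_restrict_iff' hD).2 (Eventually.of_forall fun y hy => ?_)
    have hy' : ε < |x - y| := hy
    have e1 : ‖Complex.exp (-(2 * Real.pi * N * y) * Complex.I)‖ = 1 := by
      have := norm_exp_I (2 * Real.pi * N * y)
      push_cast at this
      exact this
    rw [norm_div, norm_mul, e1, one_mul, ← Complex.ofReal_sub, Complex.norm_real,
      Real.norm_eq_abs, div_eq_mul_inv, mul_comm, one_div]
    gcongr

lemma sin_eq (N : ℕ) (u v : ℝ) :
    (Real.sin (2 * Real.pi * N * (u - v)) : ℂ) * (2 * Complex.I)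
      = Complex.exp ((2 * Real.pi * N * u) * Complex.I) *
          Complex.exp (-(2 * Real.pi * N * v) * Complex.I)
        - Complex.exp (-(2 * Real.pi * N * u) * Complex.I) *
          Complex.exp (-(2 * Real.pi * (-(N : ℂ)) * v) * Complex.I) := by
  rw [Complex.ofReal_sin, Complex.sin, ← Complex.exp_add, ← Complex.exp_add]
  have e1 : Complex.exp (-((2 * Real.pi * N * (u - v) : ℝ) : ℂ) * Complex.I)
      = Complex.exp (-(2 * Real.pi * N * u) * Complex.I +
          -(2 * Real.pi * (-(N : ℂ)) * v) * Complex.I) := by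
    congr 1; push_cast; ring
  have e2 : Complex.exp (((2 * Real.pi * N * (u - v) : ℝ) : ℂ) * Complex.I)
      = Complex.exp ((2 * Real.pi * N * u) * Complex.I +
          -(2 * Real.pi * N * v) * Complex.I) := by
    congr 1; push_cast; ring
  rw [e1, e2]
  have hI : Complex.I * Complex.I = -1 := Complex.I_mul_I
  linear_combination (-(Complex.exp ((2 * Real.pi * N * u) * Complex.I +
          -(2 * Real.pi * N * v) * Complex.I)) + Complex.exp (-(2 * Real.pi * N * u) * Complex.I +
          -(2 * Real.pi * (-(N : ℂ)) * v) * Complex.I)) * hI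

/-- the main term -/
lemma main_term {F : ℝ → ℂ} (hF : Integrable F) {ε : ℝ} (hε : 0 < ε) (N : ℕ) (u : ℝ) :
    ‖∫ v in {v : ℝ | ε < |u - v|},
      ((Real.sin (2 * Real.pi * N * (u - v)) / (Real.pi * (u - v)) : ℝ) : ℂ) * (2 * F v)‖
      ≤ ‖CR F ε N u‖ + ‖CR F ε (-N) u‖ := by
  have hD : MeasurableSet {y : ℝ | ε < |u - y|} :=
    measurableSet_lt measurable_const (measurable_const.sub measurable_id).norm
  have hpi := Real.pi_pos
  have h1 : ∫ v in {v : ℝ | ε < |u - v|},
      ((Real.sin (2 * Real.pi * N * (u - v)) / (Real.pi * (u - v)) : ℝ) : ℂ) * (2 * F v)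
      = (1 / (Real.pi * Complex.I)) * (Complex.exp ((2 * Real.pi * N * u) * Complex.I) * CR F ε N u
        - Complex.exp (-(2 * Real.pi * N * u) * Complex.I) * CR F ε (-N) u) := by
    unfold CR
    rw [← integral_const_mul, ← integral_const_mul, ← integral_sub, ← integral_const_mul]
    · refine setIntegral_congr_fun hD fun v hv => ?_
      have hv' : ε < |u - v| := hv
      have hne : (u : ℂ) - v ≠ 0 := by
        rw [← Complex.ofReal_sub]
        have : u - v ≠ 0 := by
          intro h
          rw [h, abs_zero] at hv'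
          linarith
        exact_mod_cast this
      have hpi' : (Real.pi : ℂ) ≠ 0 := by exact_mod_cast hpi.ne'
      have hI : Complex.I ≠ 0 := Complex.I_ne_zero
      have hs := sin_eq N u v
      push_cast at hs ⊢
      generalize Complex.exp (2 * ↑Real.pi * ↑N * ↑u * Complex.I) = E1 at hs ⊢
      generalize Complex.exp (-(2 * ↑Real.pi * ↑N * ↑v) * Complex.I) = E2 at hs ⊢
      generalize Complex.exp (-(2 * ↑Real.pi * ↑N * ↑u) * Complex.I) = E3 at hs ⊢
      generalize Complex.exp (-(2 * ↑Real.pi * -↑N * ↑v) * Complex.I) = E4 at hs ⊢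
      generalize Complex.sin (2 * ↑Real.pi * ↑N * (↑u - ↑v)) = Sn at hs ⊢
      field_simp
      linear_combination (F v) * hs
    · exact (integrable_CR hF hε N u).const_mul _
    · exact (integrable_CR hF hε (-N) u).const_mul _
  rw [h1, norm_mul]
  have h2 : ‖(1 / (Real.pi * Complex.I) : ℂ)‖ ≤ 1 := by
    rw [norm_div, norm_mul, Complex.norm_I, mul_one, norm_one, Complex.norm_real,
      Real.norm_eq_abs, abs_of_pos hpi]
    rw [div_le_one hpi]
    linarith [Real.pi_gt_three]
  have e1 : ‖Complex.exp ((2 * Real.pi * N * u) * Complex.I)‖ = 1 := by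
    have := norm_exp_I (-(2 * Real.pi * N * u))
    push_cast at this
    rwa [neg_neg] at this
  have e2 : ‖Complex.exp (-(2 * Real.pi * N * u) * Complex.I)‖ = 1 := by
    have := norm_exp_I (2 * Real.pi * N * u)
    push_cast at this
    exact this
  calc ‖(1 / (Real.pi * Complex.I) : ℂ)‖ * ‖Complex.exp ((2 * Real.pi * N * u) * Complex.I) *
        CR F ε N u - Complex.exp (-(2 * Real.pi * N * u) * Complex.I) * CR F ε (-N) u‖
      ≤ 1 * (‖Complex.exp ((2 * Real.pi * N * u) * Complex.I) * CR F ε N u‖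
        + ‖Complex.exp (-(2 * Real.pi * N * u) * Complex.I) * CR F ε (-N) u‖) := by
        gcongr
        exact norm_sub_le _ _
    _ = _ := by rw [one_mul, norm_mul, norm_mul, e1, e2, one_mul, one_mul]

lemma integrable_FF {f : AddCircle T → ℂ} (hf : Measurable f) {B : ℝ} (hB : ∀ x, ‖f x‖ ≤ B) :
    Integrable (FF f) := by
  refine ⟨(measurable_FF hf).aestronglyMeasurable, ?_⟩
  unfold HasFiniteIntegral
  rw [lint_FF hf]
  calc ∫⁻ x, ‖f x‖ₑ ∂μ ≤ ∫⁻ _x : AddCircle T, ENNReal.ofReal B ∂μ := by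
        refine lintegral_mono fun x => ?_
        rw [← ofReal_norm]
        exact ENNReal.ofReal_le_ofReal (hB x)
    _ = ENNReal.ofReal B := by simp
    _ < ⊤ := ENNReal.ofReal_lt_top

/-- pointwise estimate -/
lemma pointwise {f : AddCircle T → ℂ} (hf : Measurable f) {B : ℝ} (hB : ∀ x, ‖f x‖ ≤ B)
    {G : Set (AddCircle T)} (hG : MaxLe f G) {u : ℝ} (hu : u ∈ GR G) {ε : ℝ} (hε : 0 < ε)
    (hε4 : ε ≤ 1 / 4) (N : ℕ) :
    ‖S f N (ph u)‖ₑ ≤ ENNReal.ofReal ((2 * N + 1) * (2 * ε)) + 6 * ∫⁻ x, ‖f x‖ₑ ∂μ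
      + ‖CR (FF f) ε N u‖ₑ + ‖CR (FF f) ε (-N) u‖ₑ := by
  obtain ⟨hu1, huG⟩ := hu
  have huG' : ph u ∈ G := huG
  have hpi := Real.pi_pos
  set D : Set ℝ := {v : ℝ | ε < |u - v|} with hDdef
  have hD : MeasurableSet D :=
    measurableSet_lt measurable_const (measurable_const.sub measurable_id).norm
  set I : Set ℝ := Ioc (u - 1 / 2) (u - 1 / 2 + 1) with hIdef
  have hI : MeasurableSet I := measurableSet_Ioc
  have hIsub : I ⊆ Ioc (-(1 / 2) : ℝ) (3 / 2) :=
    Ioc_subset_Ioc (by linarith [hu1.1]) (by linarith [hu1.2])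
  have hlm : Measurable (lift f) := measurable_lift hf
  have hFint := integrable_FF hf hB
  have hliftI : IntegrableOn (lift f) I := by
    refine Integrable.of_bound hlm.aestronglyMeasurable B ?_
    exact Eventually.of_forall fun v => hB _
  have hlF : ∀ v ∈ I, lift f v = 2 * FF f v := by
    intro v hv
    unfold FF
    rw [indicator_of_mem (hIsub hv)]
    ring
  -- kernel
  let Kk : ℝ → ℝ := fun v => Real.sin (2 * Real.pi * N * (u - v)) / (Real.pi * (u - v))
  have hKm : Measurable Kk := by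
    have h1 : Measurable (fun v : ℝ => Real.sin (2 * Real.pi * N * (u - v))) := by fun_prop
    have h2 : Measurable (fun v : ℝ => Real.pi * (u - v)) := by fun_prop
    exact h1.div h2
  have hKD : ∀ v ∈ D, |Kk v| ≤ 1 / ε := by
    intro v hv
    have hv' : ε < |u - v| := hv
    simp only [Kk]
    rw [abs_div, abs_mul, abs_of_pos hpi]
    have h1 := Real.abs_sin_le_one (2 * Real.pi * N * (u - v))
    have h2 : ε ≤ Real.pi * |u - v| := by nlinarith [Real.pi_gt_three]
    exact div_le_div₀ (by norm_num) h1 hε h2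
  have hDrm : Continuous (fun v : ℝ => Dr N (u - v)) := by
    unfold Dr
    fun_prop
  -- decomposition
  rw [S_eq hf hB N u]
  have hint1 : IntegrableOn (fun v => ((Dr N (u - v) : ℝ) : ℂ) * lift f v) I := by
    refine (hliftI.norm.const_mul (2 * N + 1)).mono' ?_ ?_
    · exact ((Complex.continuous_ofReal.comp hDrm).aestronglyMeasurable).mul
        hliftI.aestronglyMeasurable
    · refine Eventually.of_forall fun v => ?_
      rw [norm_mul, Complex.norm_real, Real.norm_eq_abs]
      gcongr
      exact abs_Dr_le N _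
  have hKint : ∀ (g : ℝ → ℂ) (W : Set ℝ), IntegrableOn g W → MeasurableSet W → W ⊆ D →
      IntegrableOn (fun v => ((Kk v : ℝ) : ℂ) * g v) W := by
    intro g W hg hW hWD
    refine (hg.norm.const_mul (1 / ε)).mono' ?_ ?_
    · exact ((Complex.measurable_ofReal.comp hKm).aestronglyMeasurable).mul
        hg.aestronglyMeasurable
    · refine (ae_restrict_iff' hW).2 (Eventually.of_forall fun v hv => ?_)
      rw [norm_mul, Complex.norm_real, Real.norm_eq_abs]
      gcongr
      exact hKD v (hWD hv)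
  -- split I into near and far
  have hsplit : ∫ v in I, ((Dr N (u - v) : ℝ) : ℂ) * lift f v
      = (∫ v in I \ D, ((Dr N (u - v) : ℝ) : ℂ) * lift f v)
        + (∫ v in I ∩ D, ((Dr N (u - v) : ℝ) : ℂ) * lift f v) := by
    rw [add_comm, ← setIntegral_union]
    · rw [inter_union_sdiff]
    · rw [Set.disjoint_left]
      rintro v ⟨_, h1⟩ ⟨_, h2⟩
      exact h2 h1
    · exact hI.diff hD
    · exact hint1.mono_set inter_subset_left
    · exact hint1.mono_set sdiff_subset
  have hsplit2 : ∫ v in I ∩ D, ((Dr N (u - v) : ℝ) : ℂ) * lift f v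
      = (∫ v in I ∩ D, (((Dr N (u - v) - Kk v : ℝ)) : ℂ) * lift f v)
        + ∫ v in I ∩ D, ((Kk v : ℝ) : ℂ) * lift f v := by
    rw [← integral_add]
    · refine integral_congr_ae (Eventually.of_forall fun v => ?_)
      simp only
      push_cast
      ring
    · have h1 := (hint1.mono_set (inter_subset_left (s := I) (t := D))).sub
        (hKint (lift f) (I ∩ D) (hliftI.mono_set inter_subset_left) (hI.inter hD)
          inter_subset_right)
      refine h1.congr (Eventually.of_forall fun v => ?_)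
      simp only [Pi.sub_apply]
      push_cast
      ring
    · exact hKint (lift f) (I ∩ D) (hliftI.mono_set inter_subset_left) (hI.inter hD)
          inter_subset_right
  have hsplit3 : ∫ v in I ∩ D, ((Kk v : ℝ) : ℂ) * lift f v
      = (∫ v in D, ((Kk v : ℝ) : ℂ) * (2 * FF f v))
        - ∫ v in D \ I, ((Kk v : ℝ) : ℂ) * (2 * FF f v) := by
    have h2F : IntegrableOn (fun v => 2 * FF f v) D := (hFint.const_mul 2).integrableOn
    have h3 := hKint (fun v => 2 * FF f v) D h2F hD Subset.rfl
    rw [eq_sub_iff_add_eq]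
    have h4 : ∫ v in I ∩ D, ((Kk v : ℝ) : ℂ) * lift f v
        = ∫ v in D ∩ I, ((Kk v : ℝ) : ℂ) * (2 * FF f v) := by
      rw [inter_comm]
      refine setIntegral_congr_fun (hD.inter hI) fun v hv => ?_
      rw [hlF v hv.2]
    rw [h4, ← setIntegral_union]
    · rw [inter_union_sdiff]
    · rw [Set.disjoint_left]
      rintro v ⟨_, h1⟩ ⟨_, h2⟩
      exact h2 h1
    · exact hD.diff hI
    · exact h3.mono_set inter_subset_left
    · exact h3.mono_set sdiff_subset
  rw [hsplit, hsplit2, hsplit3]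
  -- bounds of the error terms
  have ha : ∫⁻ v in I, ‖lift f v‖ₑ = ∫⁻ x, ‖f x‖ₑ ∂μ := lint_lift hf _
  have hT1 : ‖∫ v in I \ D, ((Dr N (u - v) : ℝ) : ℂ) * lift f v‖ₑ
      ≤ ENNReal.ofReal ((2 * N + 1) * (2 * ε)) := by
    refine (enorm_integral_le_lintegral_enorm _).trans ?_
    calc ∫⁻ v in I \ D, ‖((Dr N (u - v) : ℝ) : ℂ) * lift f v‖ₑ
        ≤ ∫⁻ v in I \ D, ENNReal.ofReal (2 * N + 1) * ‖lift f v‖ₑ := by
          refine lintegral_mono fun v => ?_
          rw [enorm_mul]
          gcongr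
          rw [← ofReal_norm, Complex.norm_real, Real.norm_eq_abs]
          exact ENNReal.ofReal_le_ofReal (abs_Dr_le N _)
      _ = ENNReal.ofReal (2 * N + 1) * ∫⁻ v in I \ D, ‖lift f v‖ₑ :=
          lintegral_const_mul' _ _ ENNReal.ofReal_ne_top
      _ ≤ ENNReal.ofReal (2 * N + 1) * ENNReal.ofReal (2 * ε) := by
          gcongr
          refine le_trans (lintegral_mono_set ?_) (ball_bound hf hG huG' hε (by linarith))
          rintro v ⟨_, hv⟩
          have hv' : |u - v| ≤ ε := not_lt.1 hv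
          rw [abs_le] at hv'
          constructor <;> linarith [hv'.1, hv'.2]
      _ = _ := by rw [← ENNReal.ofReal_mul (by positivity)]
  have hT2 : ‖∫ v in I ∩ D, (((Dr N (u - v) - Kk v : ℝ)) : ℂ) * lift f v‖ₑ
      ≤ 4 * ∫⁻ x, ‖f x‖ₑ ∂μ := by
    refine (enorm_integral_le_lintegral_enorm _).trans ?_
    calc ∫⁻ v in I ∩ D, ‖(((Dr N (u - v) - Kk v : ℝ)) : ℂ) * lift f v‖ₑ
        ≤ ∫⁻ v in I ∩ D, 4 * ‖lift f v‖ₑ := by
          refine setLIntegral_mono' (hI.inter hD) fun v hv => ?_
          rw [enorm_mul]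
          gcongr
          have hv' : ε < |u - v| := hv.2
          have h1 : u - v ≠ 0 := by
            intro h
            rw [h, abs_zero] at hv'
            linarith
          have h2 : |u - v| ≤ 1 / 2 := by
            have := hv.1
            simp only [hIdef, mem_Ioc] at this
            rw [abs_le]; constructor <;> linarith [this.1, this.2]
          have h3 := Dr_bound N h1 h2
          rw [← ofReal_norm, Complex.norm_real, Real.norm_eq_abs,
            show (4 : ℝ≥0∞) = ENNReal.ofReal 4 by norm_num]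
          exact ENNReal.ofReal_le_ofReal h3
      _ = 4 * ∫⁻ v in I ∩ D, ‖lift f v‖ₑ := lintegral_const_mul' _ _ (by norm_num)
      _ ≤ 4 * ∫⁻ v in I, ‖lift f v‖ₑ := by
          gcongr
          exact inter_subset_left
      _ = _ := by rw [ha]
  have hT3 : ‖∫ v in D \ I, ((Kk v : ℝ) : ℂ) * (2 * FF f v)‖ₑ ≤ 2 * ∫⁻ x, ‖f x‖ₑ ∂μ := by
    refine (enorm_integral_le_lintegral_enorm _).trans ?_
    calc ∫⁻ v in D \ I, ‖((Kk v : ℝ) : ℂ) * (2 * FF f v)‖ₑ
        ≤ ∫⁻ v in D \ I, 2 * ‖FF f v‖ₑ := by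
          refine setLIntegral_mono' (hD.diff hI) fun v hv => ?_
          rw [enorm_mul, enorm_mul, ← mul_assoc]
          gcongr
          have h2 : 1 / 2 ≤ |u - v| := by
            have h3 : v ∉ I := hv.2
            simp only [hIdef, mem_Ioc, not_and_or, not_lt, not_le] at h3
            rcases h3 with h3 | h3
            · rw [le_abs]; left; linarith
            · rw [le_abs]; right; linarith
          have h3 : |Kk v| ≤ 1 := by
            simp only [Kk]
            rw [abs_div, abs_mul, abs_of_pos hpi]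
            rw [div_le_one (by positivity)]
            have h1 := Real.abs_sin_le_one (2 * Real.pi * N * (u - v))
            nlinarith [Real.pi_gt_three]
          have h4 : ‖((Kk v : ℝ) : ℂ)‖ₑ ≤ 1 := by
            rw [← ofReal_norm, Complex.norm_real, Real.norm_eq_abs, ← ENNReal.ofReal_one]
            exact ENNReal.ofReal_le_ofReal h3
          have h5 : ‖(2 : ℂ)‖ₑ = 2 := by
            rw [← ofReal_norm]; simp
          rw [h5]
          calc ‖((Kk v : ℝ) : ℂ)‖ₑ * 2 ≤ 1 * 2 := by gcongr
            _ = 2 := one_mul _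
      _ = 2 * ∫⁻ v in D \ I, ‖FF f v‖ₑ := lintegral_const_mul' _ _ (by norm_num)
      _ ≤ 2 * ∫⁻ v, ‖FF f v‖ₑ := by
          gcongr
          exact Measure.restrict_le_self
      _ = _ := by rw [lint_FF hf]
  have hT4 := main_term hFint hε N u
  have hT4' : ‖∫ v in D, ((Kk v : ℝ) : ℂ) * (2 * FF f v)‖ₑ
      ≤ ‖CR (FF f) ε N u‖ₑ + ‖CR (FF f) ε (-N) u‖ₑ := by
    rw [← ofReal_norm, ← ofReal_norm, ← ofReal_norm,
      ← ENNReal.ofReal_add (norm_nonneg _) (norm_nonneg _)]
    exact ENNReal.ofReal_le_ofReal hT4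
  refine (enorm_add_le _ _).trans ?_
  calc ‖∫ v in I \ D, ((Dr N (u - v) : ℝ) : ℂ) * lift f v‖ₑ
      + ‖(∫ v in I ∩ D, (((Dr N (u - v) - Kk v : ℝ)) : ℂ) * lift f v)
        + ((∫ v in D, ((Kk v : ℝ) : ℂ) * (2 * FF f v))
        - ∫ v in D \ I, ((Kk v : ℝ) : ℂ) * (2 * FF f v))‖ₑ
      ≤ ENNReal.ofReal ((2 * N + 1) * (2 * ε)) + (4 * (∫⁻ x, ‖f x‖ₑ ∂μ)
        + ((‖CR (FF f) ε N u‖ₑ + ‖CR (FF f) ε (-N) u‖ₑ) + 2 * ∫⁻ x, ‖f x‖ₑ ∂μ)) := by
        refine add_le_add hT1 ((enorm_add_le _ _).trans (add_le_add hT2 ?_))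
        refine (enorm_sub_le).trans (add_le_add hT4' hT3)
    _ = _ := by ring

lemma half_le_V {n : ℕ} (hn : 1 ≤ n) : 1 / 2 ≤ V n := by
  unfold V
  have hn0 : (1 : ℝ) ≤ n := by exact_mod_cast hn
  have h1 : 0 ≤ Real.log (1 + (n : ℝ)) := Real.log_nonneg (by linarith)
  have h2 : Real.log (1 + Real.log (1 + (n : ℝ))) ≤ Real.log (1 + n) := by
    have := Real.log_le_sub_one_of_pos (show (0 : ℝ) < 1 + Real.log (1 + (n : ℝ)) by linarith)
    linarith
  have h3 : Real.log (1 + (n : ℝ)) ≤ n := by
    have := Real.log_le_sub_one_of_pos (show (0 : ℝ) < 1 + (n : ℝ) by linarith)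
    linarith
  have h4 : 0 ≤ Real.log (1 + Real.log (1 + (n : ℝ))) := Real.log_nonneg (by linarith)
  rw [le_div_iff₀ (by linarith)]
  linarith

lemma measurable_CR_comp {F : ℝ → ℂ} (hF : Measurable F) (ε : ℝ) (N : ℝ → ℤ)
    (hN : Measurable N) : Measurable (fun x => ‖CR F ε (N x) x‖ₑ) := by
  have h1 : Measurable (fun p : ℝ × ℤ => CR F ε p.2 p.1) := by
    refine measurable_from_prod_countable_left fun k => ?_
    unfold CR
    have hset : MeasurableSet {q : ℝ × ℝ | ε < |q.1 - q.2|} :=
      measurableSet_lt measurable_const (measurable_fst.sub measurable_snd).norm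
    have h2 : StronglyMeasurable (fun q : ℝ × ℝ => ({q : ℝ × ℝ | ε < |q.1 - q.2|}).indicator
        (fun q => Complex.exp (-(2 * Real.pi * k * q.2) * Complex.I) * F q.2 / (q.1 - q.2)) q) := by
      refine Measurable.stronglyMeasurable (Measurable.indicator ?_ hset)
      refine Measurable.div (Measurable.mul ?_ (hF.comp measurable_snd)) ?_
      · have : Continuous (fun q : ℝ × ℝ => Complex.exp (-(2 * Real.pi * k * q.2) * Complex.I)) := by
          fun_prop
        exact this.measurable
      · exact (Complex.measurable_ofReal.comp measurable_fst).sub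
          (Complex.measurable_ofReal.comp measurable_snd)
    have h3 := (h2.integral_prod_right' (ν := volume)).measurable
    convert h3 using 1
    funext x
    have hset2 : MeasurableSet {y : ℝ | ε < |x - y|} :=
      measurableSet_lt measurable_const (measurable_const.sub measurable_id).norm
    rw [← integral_indicator hset2]
    rfl
  exact (h1.comp (measurable_id.prodMk hN)).enorm

/-- **P3** -/
theorem StrongLocal_of_R (h : StrongLocalR) : StrongLocal T := by
  obtain ⟨A, hA⟩ := h
  refine ⟨2 + 12 + 2 * A, fun n hn f hf hfb G hGm hG R N hNm hNR => ?_⟩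
  have hT0 := hT.out
  set a : ℝ≥0∞ := ∫⁻ x, ‖f x‖ₑ ∂μ with ha
  have hGRm : MeasurableSet (GR G) := measurableSet_Ioc.inter (measurable_ph hGm)
  have hvolG : volume (GR G) = μ G := by
    have h1 := (measurePreserving_ph (T := T) 0).measure_preimage hGm.nullMeasurableSet
    rw [Measure.restrict_apply (measurable_ph hGm), zero_add] at h1
    unfold GR
    rw [inter_comm]
    exact h1
  set ε : ℝ := 1 / (4 * (R + 1)) with hε
  have hR0 : (0 : ℝ) ≤ R := Nat.cast_nonneg R
  have hε0 : 0 < ε := by positivity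
  have hε4 : ε ≤ 1 / 4 := by
    rw [hε]
    apply one_div_le_one_div_of_le (by norm_num)
    linarith
  -- apply the hypothesis to ± N
  have hFb : ∀ x, ‖FF f x‖ ≤ 2 ^ n := by
    intro x
    unfold FF
    by_cases hx : x ∈ Ioc (-(1 / 2) : ℝ) (3 / 2)
    · rw [indicator_of_mem hx, norm_mul]
      have h1 : ‖lift f x‖ ≤ 2 ^ n := hfb _
      have h2 : ‖(1 / 2 : ℂ)‖ ≤ 1 := by norm_num
      calc ‖(1 / 2 : ℂ)‖ * ‖lift f x‖ ≤ 1 * 2 ^ n := by gcongr
        _ = 2 ^ n := one_mul _
    · rw [indicator_of_notMem hx, norm_zero]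
      positivity
  have hF0 : ∀ x, x ∉ Ioc (-(1 / 2) : ℝ) (3 / 2) → FF f x = 0 := by
    intro x hx
    unfold FF
    rw [indicator_of_notMem hx]
  have hGsub : GR G ⊆ Ioc 0 1 := inter_subset_left
  have hMax := maxLeR_GR hf hG
  let N1 : ℝ → ℤ := fun u => (N (ph u) : ℤ)
  have hN1m : Measurable N1 := by
    have : Measurable (fun u : ℝ => N (ph (T := T) u)) := hNm.comp measurable_ph
    exact (measurable_from_top (f := fun k : ℕ => (k : ℤ))).comp this
  have hN2m : Measurable (fun u => -N1 u) := hN1m.neg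
  have h1 := hA n hn (FF f) (measurable_FF hf) hFb hF0 (GR G) hGRm hGsub hMax R N1 hN1m (by
    intro x
    simp only [N1, Nat.abs_cast]
    exact_mod_cast hNR _) ε hε0 hε4
  have h2 := hA n hn (FF f) (measurable_FF hf) hFb hF0 (GR G) hGRm hGsub hMax R
    (fun u => -N1 u) hN2m (by
    intro x
    simp only [N1, abs_neg, Nat.abs_cast]
    exact_mod_cast hNR _) ε hε0 hε4
  rw [lint_FF hf, ← ha, hvolG] at h1 h2
  -- the left-hand side on the line
  have hSm : Measurable (fun x : AddCircle T => ‖S f (N x) x‖ₑ) := by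
    have h3 : Measurable (fun p : AddCircle T × ℕ => S f p.2 p.1) := by
      refine measurable_from_prod_countable_left fun k => ?_
      exact (continuous_S f k).measurable
    exact (h3.comp (measurable_id.prodMk hNm)).enorm
  have hL : ∫⁻ x in G, ‖S f (N x) x‖ₑ ∂μ
      = ∫⁻ u in GR G, ‖S f (N (ph u)) (ph u)‖ₑ := by
    rw [← lintegral_indicator hGm, lint_ph 0 (hSm.indicator hGm), zero_add]
    unfold GR
    rw [inter_comm, ← setLIntegral_indicator (measurable_ph hGm)]
    refine lintegral_congr fun u => ?_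
    by_cases hu : ph u ∈ G
    · rw [indicator_of_mem hu, indicator_of_mem (show u ∈ ph ⁻¹' G from hu)]
    · rw [indicator_of_notMem hu, indicator_of_notMem (show u ∉ ph ⁻¹' G from hu)]
  rw [hL]
  have hV := half_le_V hn
  have hVn := V_nonneg n
  calc ∫⁻ u in GR G, ‖S f (N (ph u)) (ph u)‖ₑ
      ≤ ∫⁻ u in GR G, ((1 + 6 * a) + (‖CR (FF f) ε (N1 u) u‖ₑ
        + ‖CR (FF f) ε (-N1 u) u‖ₑ)) := by
        refine setLIntegral_mono' hGRm fun u hu => ?_
        refine (pointwise hf hfb hG hu hε0 hε4 (N (ph u))).trans ?_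
        rw [← ha, ← add_assoc]
        gcongr
        rw [← ENNReal.ofReal_one]
        apply ENNReal.ofReal_le_ofReal
        have hNR' : ((N (ph u) : ℕ) : ℝ) ≤ R := by exact_mod_cast hNR _
        rw [hε]
        rw [mul_div_assoc', mul_div_assoc', div_le_one (by positivity)]
        nlinarith
    _ = (1 + 6 * a) * μ G + ((∫⁻ u in GR G, ‖CR (FF f) ε (N1 u) u‖ₑ)
        + ∫⁻ u in GR G, ‖CR (FF f) ε (-N1 u) u‖ₑ) := by
        rw [lintegral_add_left measurable_const, setLIntegral_const, hvolG,
          lintegral_add_left (measurable_CR_comp (measurable_FF hf) ε N1 hN1m)]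
    _ ≤ (1 + 6 * a) * μ G + (A * ENNReal.ofReal (V n) * (μ G + a)
        + A * ENNReal.ofReal (V n) * (μ G + a)) := by
        exact add_le_add le_rfl (add_le_add h1 h2)
    _ ≤ 7 * (μ G + a) + 2 * (A * ENNReal.ofReal (V n) * (μ G + a)) := by
        rw [← two_mul]
        refine add_le_add ?_ le_rfl
        have hG1 : μ G ≤ 1 := prob_le_one
        calc (1 + 6 * a) * μ G = μ G + 6 * (a * μ G) := by ring
          _ ≤ μ G + 6 * (a * 1) := by gcongr
          _ ≤ 7 * (μ G + a) := by
              rw [mul_one, mul_add]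
              gcongr
              · calc μ G = 1 * μ G := (one_mul _).symm
                  _ ≤ 7 * μ G := by gcongr; norm_num
              · norm_num
    _ ≤ 14 * (ENNReal.ofReal (V n) * (μ G + a)) + 2 * (A * ENNReal.ofReal (V n) * (μ G + a)) := by
        refine add_le_add ?_ le_rfl
        rw [← mul_assoc]
        refine mul_le_mul_left ?_ _
        rw [show (7 : ℝ≥0∞) = ENNReal.ofReal 7 by norm_num,
          show (14 : ℝ≥0∞) = ENNReal.ofReal 14 by norm_num, ← ENNReal.ofReal_mul (by norm_num)]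
        exact ENNReal.ofReal_le_ofReal (by linarith)
    _ = ((2 + 12 + 2 * A : ℝ≥0) : ℝ≥0∞) * ENNReal.ofReal (V n) * (μ G + a) := by
        push_cast
        ring

end Crest.Agent.R100.P3b800
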