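import Crest.Agent.R100.M7f_800
import Crest.Agent.R100.P3b_800

/-!
# R100 / S0132, M7g (helper800): MAIN REDUCTION

`ModelWeak γ V → StrongLocal T → (S0132)`, `V n = n / (1 + log (1 + log (1 + n)))`, any `γ < 1`:
it is enough to find a constant `A` such that for every `n ≥ 1`, every measurable `f` with
`|f| ≤ 2 ^ n`, every finite set of frequencies and every number `m` of scales, the truncated model
sums `TL m f θ` are all at most `A V(n)` outside a subset of `[0,1)` of measure `γ`.
-/

set_option autoImplicit false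

open MeasureTheory Set Metric Filter Topology
open scoped ENNReal NNReal

noncomputable section

namespace Crest.Agent.R100.M7800

open Crest.Agent.R100.Mart933 Crest.Agent.R100.Wide933 Crest.Agent.R100.Hunt933
open Crest.Agent.R100.Local933 Crest.Agent.R100.Haar403 Crest.Agent.R100.Glue403
open Crest.Agent.R100.P1800 Crest.Agent.R100.P2800 Crest.Agent.R100.P2b800
open Crest.Agent.R100.P3800 Crest.Agent.R100.P4800 Crest.Agent.R100.P3b800

/-- the `L¹` bound implies the weak bound -/
theorem ModelWeak_of_ModelLocal {γ : ℝ} (hγ : 0 < γ) {W : ℕ → ℝ} (hW : ∀ n, 1 ≤ n → 0 < W n)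
    (h : ModelLocal W) : ModelWeak γ W := by
  classical
  obtain ⟨A, hA0, hA⟩ := h
  refine ⟨(A + 1) / γ, by positivity, fun n hn f hf hfn Θ m => ?_⟩
  have hWn := hW n hn
  set lam : ℝ := (A + 1) / γ * W n with hlam
  have hlam0 : 0 < lam := by positivity
  rcases Θ.eq_empty_or_nonempty with h0 | ⟨θ0, hθ0⟩
  · have : {x ∈ Ico (0 : ℝ) 1 | ∃ θ ∈ Θ, lam < ‖TL m f θ x‖} = ∅ := by
      ext x; simp [h0]
    rw [this]; simp
  -- measurability
  have hTm : ∀ θ, Measurable (TL m f θ) := by
    intro θ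
    have : TL m f θ = SS (coef f θ) (alive f) 0 m := by
      ext x; exact TL_eq m f θ x
    rw [this]
    exact measurable_SS _ _ _ _
  -- linearisation by induction on the finite set
  obtain ⟨θ, hθm, hθr, hθ⟩ : ∃ θ : ℝ → ℝ, Measurable θ ∧ (range θ).Finite ∧
      ∀ x, (∃ θ' ∈ Θ, lam < ‖TL m f θ' x‖) → lam < ‖TL m f (θ x) x‖ := by
    clear hθ0
    induction Θ using Finset.induction_on with
    | empty =>
      refine ⟨fun _ => 0, measurable_const, ?_, fun x hx => ?_⟩
      · exact (Set.finite_singleton (0 : ℝ)).subset (by rintro _ ⟨_, rfl⟩; rfl)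
      · simp at hx
    | insert a s has ih =>
      obtain ⟨θ, h1, h2, h3⟩ := ih
      refine ⟨fun x => if lam < ‖TL m f a x‖ then a else θ x, ?_, ?_, fun x hx => ?_⟩
      · exact Measurable.ite (measurableSet_lt measurable_const (hTm a).norm) measurable_const h1
      · refine (h2.insert a).subset ?_
        rintro _ ⟨x, rfl⟩
        simp only
        split_ifs with h
        · exact Or.inl rfl
        · exact Or.inr ⟨x, rfl⟩
      · simp only
        split_ifs with h
        · exact h
        · obtain ⟨θ', h4, h5⟩ := hx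
          rw [Finset.mem_insert] at h4
          rcases h4 with h4 | h4
          · rw [h4] at h5; exact absurd h5 h
          · exact h3 x ⟨θ', h4, h5⟩
  have h1 := hA n hn f hf hfn θ hθm hθr m
  -- measurability of the linearised sum
  have hm2 : Measurable fun x => ‖TL m f (θ x) x‖ₑ := by
    apply Measurable.enorm
    have : (fun x => TL m f (θ x) x) =
        fun x => ∑ θ' ∈ hθr.toFinset, (θ ⁻¹' {θ'}).indicator (fun x => TL m f θ' x) x := by
      ext x
      rw [Finset.sum_eq_single (θ x)]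
      · rw [indicator_of_mem]
        simp
      · intro b _ hb
        rw [indicator_of_notMem]
        simp only [mem_preimage, mem_singleton_iff]
        exact fun h => hb h.symm
      · intro h
        exact absurd (by simp) h
    rw [this]
    exact Finset.measurable_sum _ fun θ' _ => (hTm θ').indicator (hθm (measurableSet_singleton _))
  have h2 := mul_meas_ge_le_lintegral (μ := volume.restrict (Ico (0 : ℝ) 1)) hm2
    (ENNReal.ofReal lam)
  have h3 : {x ∈ Ico (0 : ℝ) 1 | ∃ θ ∈ Θ, lam < ‖TL m f θ x‖} ⊆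
      {x | ENNReal.ofReal lam ≤ ‖TL m f (θ x) x‖ₑ} ∩ Ico (0 : ℝ) 1 := by
    rintro x ⟨hx, hx2⟩
    refine ⟨?_, hx⟩
    rw [mem_ofPred_eq, ← ofReal_norm]
    exact ENNReal.ofReal_le_ofReal (hθ x hx2).le
  have h4 : ENNReal.ofReal lam * volume {x ∈ Ico (0 : ℝ) 1 | ∃ θ ∈ Θ, lam < ‖TL m f θ x‖} ≤
      ENNReal.ofReal lam * ENNReal.ofReal γ := by
    calc _ ≤ ENNReal.ofReal lam *
          (volume.restrict (Ico (0 : ℝ) 1)) {x | ENNReal.ofReal lam ≤ ‖TL m f (θ x) x‖ₑ} := by
          refine mul_le_mul_right ?_ _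
          rw [Measure.restrict_apply (measurableSet_le measurable_const hm2)]
          exact measure_mono h3
      _ ≤ ENNReal.ofReal (A * W n) := h2.trans h1
      _ ≤ ENNReal.ofReal (lam * γ) := by
          apply ENNReal.ofReal_le_ofReal
          rw [hlam]
          have : (A + 1) / γ * W n * γ = (A + 1) * W n := by field_simp
          rw [this]
          nlinarith
      _ = _ := ENNReal.ofReal_mul hlam0.le
  have h5 : ENNReal.ofReal lam ≠ 0 := by
    rw [Ne, ENNReal.ofReal_eq_zero, not_le]; exact hlam0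
  exact (ENNReal.mul_le_mul_iff_right h5 ENNReal.ofReal_ne_top).1 h4

theorem ModelWeak_mono {γ : ℝ} {W W' : ℕ → ℝ} {D : ℝ} (hD : 0 ≤ D)
    (hWW : ∀ n, 1 ≤ n → W n ≤ D * W' n) (h : ModelWeak γ W) : ModelWeak γ W' := by
  obtain ⟨A, hA0, hA⟩ := h
  refine ⟨A * D, by positivity, fun n hn f hf hfn Θ m => ?_⟩
  refine (measure_mono ?_).trans (hA n hn f hf hfn Θ m)
  rintro x ⟨hx, θ, hθ, hx2⟩
  refine ⟨hx, θ, hθ, lt_of_le_of_lt ?_ hx2⟩
  have := hWW n hn
  calc A * W n ≤ A * (D * W' n) := by gcongr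
    _ = _ := by ring

variable {T : ℝ} [hT : Fact (0 < T)]

local notation "μ" => AddCircle.haarAddCircle (T := T)

/-- **M7** -/
theorem StrongLocal_of_ModelWeak {γ : ℝ} (hγ : γ < 1) (h : ModelWeak γ V) : StrongLocal T := by
  classical
  obtain ⟨B, hB, hE⟩ := expB_of_weak hγ V_nonneg h
  have hVC : ∀ n j : ℕ, 1 ≤ n → V (n + j) ≤ 1 * (j + 1) * V n := by
    intro n j hn
    have := V_le_mul (n := n) (n' := n + j) (K := j + 1) hn (by omega) (by nlinarith)
    push_cast at this
    linarith
  refine ⟨Real.toNNReal (64 * 288 * B + 66), fun n hn f hf hfb G hGm hG R N hNm hNR => ?_⟩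
  set a : ℝ≥0∞ := ∫⁻ x, ‖f x‖ₑ ∂μ with ha
  have hfi : Integrable f μ :=
    Integrable.of_bound hf.aestronglyMeasurable (2 ^ n) (Eventually.of_forall hfb)
  have haI : ENNReal.ofReal (∫ x, ‖f x‖ ∂μ) = a := ofReal_integral_norm_eq_lintegral_enorm hfi
  have hGRm : MeasurableSet (GR G) := measurableSet_Ioc.inter (measurable_ph hGm)
  have hvolG : volume (GR G) = μ G := by
    have h1 := (measurePreserving_ph (T := T) 0).measure_preimage hGm.nullMeasurableSet
    rw [Measure.restrict_apply (measurable_ph hGm), zero_add] at h1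
    unfold GR
    rw [inter_comm]
    exact h1
  -- choice of the number of scales
  obtain ⟨m, hm⟩ : ∃ m : ℕ, 18 * (2 * Real.pi * (R + 1 / 2)) * 2 ^ n * ((2 : ℝ) ^ m)⁻¹ ≤ 1 := by
    obtain ⟨m, hm⟩ := pow_unbounded_of_one_lt (18 * (2 * Real.pi * (R + 1 / 2)) * 2 ^ n)
      (one_lt_two (α := ℝ))
    refine ⟨m, ?_⟩
    rw [← div_eq_mul_inv, div_le_one (by positivity)]
    exact hm.le
  -- the frequencies
  have hN1 : Measurable (fun u : ℝ => ((N (ph (T := T) u) : ℕ) : ℝ)) :=
    (measurable_from_top (f := fun k : ℕ => (k : ℝ))).comp (hNm.comp measurable_ph)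
  set Θ : Finset ℝ := (Finset.range (R + 1)).image (fun k : ℕ => -((k : ℝ) + 1 / 2)) ∪
    (Finset.range (R + 1)).image (fun k : ℕ => ((k : ℝ) + 1 / 2)) with hΘ
  have h1 := avg_bound V_nonneg (le_refl (1 : ℝ)) hVC hB hE hn hf hfb hGm hG (Θ := Θ)
    (θ := fun u => -((N (ph u) : ℝ) + 1 / 2)) ((hN1.add_const _).neg) (fun u => by
      rw [hΘ, Finset.mem_union]
      left
      rw [Finset.mem_image]
      exact ⟨N (ph u), Finset.mem_range.2 (Nat.lt_succ_of_le (hNR _)), rfl⟩) m
  have h2 := avg_bound V_nonneg (le_refl (1 : ℝ)) hVC hB hE hn hf hfb hGm hG (Θ := Θ)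
    (θ := fun u => ((N (ph u) : ℝ) + 1 / 2)) (hN1.add_const _) (fun u => by
      rw [hΘ, Finset.mem_union]
      right
      rw [Finset.mem_image]
      exact ⟨N (ph u), Finset.mem_range.2 (Nat.lt_succ_of_le (hNR _)), rfl⟩) m
  rw [hvolG, ← ha] at h1 h2
  have hVn := V_nonneg n
  have hVh := half_le_V hn
  -- the left-hand side on the line
  have hSm : Measurable (fun x : AddCircle T => ‖S f (N x) x‖ₑ) := by
    have h3 : Measurable (fun p : AddCircle T × ℕ => S f p.2 p.1) := by
      refine measurable_from_prod_countable_left fun k => ?_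
      exact (continuous_S f k).measurable
    exact (h3.comp (measurable_id.prodMk hNm)).enorm
  have hL : ∫⁻ x in G, ‖S f (N x) x‖ₑ ∂μ
      = ∫⁻ u in GR G, ‖S f (N (ph u)) (ph u)‖ₑ := by
    rw [← lintegral_indicator hGm, lint_ph 0 (hSm.indicator hGm), zero_add]
    unfold GR
    rw [inter_comm, ← setLIntegral_indicator (measurable_ph hGm)]
    refine lintegral_congr fun u => ?_
    by_cases hu : ph u ∈ G
    · rw [indicator_of_mem hu, indicator_of_mem (show u ∈ ph ⁻¹' G from hu)]
    · rw [indicator_of_notMem hu, indicator_of_notMem (show u ∉ ph ⁻¹' G from hu)]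
  have hAm : Measurable fun u : ℝ => AvH m (-((N (ph (T := T) u) : ℝ) + 1 / 2)) (lift f) u := by
    have hm3 := measurable_Hpar (measurable_lift hf) (fun x => hfb _)
      (θ := fun u => -((N (ph (T := T) u) : ℝ) + 1 / 2)) ((hN1.add_const _).neg) m
    have h4 : Measurable fun p : ℝ × ℝ => ∫⁻ σ in Ioc (0 : ℝ) 1,
        hpar (lift f) (fun u => -((N (ph (T := T) u) : ℝ) + 1 / 2)) m (p, σ) :=
      hm3.lintegral_prod_right'
    exact h4.lintegral_prod_right'
  rw [hL]
  set K : ℝ≥0∞ := ENNReal.ofReal (96 * (1 * B) * (V n + 1)) with hK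
  have hG1 : μ G ≤ 1 := prob_le_one
  calc ∫⁻ u in GR G, ‖S f (N (ph u)) (ph u)‖ₑ
      ≤ ∫⁻ u in GR G, (8 * (AvH m (-((N (ph u) : ℝ) + 1 / 2)) (lift f) u +
          AvH m ((N (ph u) : ℝ) + 1 / 2) (lift f) u) + (33 * a + 1)) := by
        refine setLIntegral_mono' hGRm fun u hu => ?_
        refine (enorm_S_le hf hfb (N (ph u)) m u).trans ?_
        gcongr
        rw [ENNReal.ofReal_add (by positivity) (by positivity), ENNReal.ofReal_mul (by norm_num),
          haI]
        refine add_le_add (by norm_num) ?_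
        rw [← ENNReal.ofReal_one]
        apply ENNReal.ofReal_le_ofReal
        refine le_trans ?_ hm
        have hNR' : ((N (ph (T := T) u) : ℕ) : ℝ) ≤ R := by exact_mod_cast hNR _
        gcongr
    _ = 8 * ((∫⁻ u in GR G, AvH m (-((N (ph u) : ℝ) + 1 / 2)) (lift f) u) +
          ∫⁻ u in GR G, AvH m ((N (ph u) : ℝ) + 1 / 2) (lift f) u) + (33 * a + 1) * μ G := by
        rw [lintegral_add_right _ measurable_const, setLIntegral_const, hvolG,
          lintegral_const_mul' _ _ (by norm_num), lintegral_add_left hAm]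
    _ ≤ 8 * (K * (μ G + 4 * a) + K * (μ G + 4 * a)) + (33 * a + 1) * μ G := by
        gcongr
    _ ≤ 64 * K * (μ G + a) + 33 * (μ G + a) := by
        refine add_le_add ?_ ?_
        · calc 8 * (K * (μ G + 4 * a) + K * (μ G + 4 * a)) = 16 * K * (μ G + 4 * a) := by ring
            _ ≤ 16 * K * (4 * μ G + 4 * a) := by
                gcongr
                calc μ G = 1 * μ G := (one_mul _).symm
                  _ ≤ 4 * μ G := by gcongr; norm_num
            _ = _ := by ring
        · calc (33 * a + 1) * μ G = 33 * (a * μ G) + μ G := by ring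
            _ ≤ 33 * (a * 1) + 33 * μ G := by
                gcongr
                calc μ G = 1 * μ G := (one_mul _).symm
                  _ ≤ 33 * μ G := by gcongr; norm_num
            _ = _ := by ring
    _ ≤ ENNReal.ofReal (64 * 288 * B + 66) * ENNReal.ofReal (V n) * (μ G + a) := by
        rw [← add_mul]
        gcongr
        rw [hK, show (64 : ℝ≥0∞) = ENNReal.ofReal 64 by norm_num,
          show (33 : ℝ≥0∞) = ENNReal.ofReal 33 by norm_num, ← ENNReal.ofReal_mul (by norm_num),
          ← ENNReal.ofReal_add (by positivity) (by norm_num), ← ENNReal.ofReal_mul (by positivity)]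
        apply ENNReal.ofReal_le_ofReal
        have h5 : V n + 1 ≤ 3 * V n := by linarith
        calc 64 * (96 * (1 * B) * (V n + 1)) + 33 ≤ 64 * (96 * (1 * B) * (3 * V n)) + 66 * V n := by
              gcongr
              linarith
          _ = _ := by ring
    _ = _ := rfl

/-- **everything together**: the weak model bound implies S0132 -/
theorem ae_tendsto_of_ModelWeak {γ : ℝ} (hγ : γ < 1) (h : ModelWeak γ V) (f : AddCircle T → ℂ)
    (hf : AEStronglyMeasurable f μ)
    (hlog : ∫⁻ x, ‖f x‖ₑ * ENNReal.ofReal (Real.log (2 + ‖f x‖)) ∂μ < ⊤) :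
    ∀ᵐ x ∂μ, Tendsto (fun N : ℕ => ∑ k ∈ Finset.Icc (-(N : ℤ)) N, fourierCoeff f k • fourier k x)
      atTop (𝓝 (f x)) :=
  ae_tendsto_of_StrongLocal (StrongLocal_of_ModelWeak hγ h) f hf hlog

end Crest.Agent.R100.M7800
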