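import Crest.Agent.R100.M7g_800

/-!
# R100 / S0132, MM (helper800): the MULTI-LEVEL model bound implies the multi-level bound on the
circle.

`ModelMulti`: `∫ |TL m f θ(x)| ≤ A (n ∫ |f| + n / (1 + log n)^2)` for `|f| ≤ 2 ^ n`.
`StrongMulti T`: `∫_G |S f (N x)| ≤ A (n ∫ |f| + n / (1 + log n)^2)` for `|f| ≤ 2 ^ n` and
`Mf ≤ 1` on `G`.
-/

set_option autoImplicit false

open MeasureTheory Set Metric Filter Topology
open scoped ENNReal NNReal

noncomputable section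

namespace Crest.Agent.R100.MM800

open Crest.Agent.R100.Mart933 Crest.Agent.R100.Wide933 Crest.Agent.R100.Hunt933
open Crest.Agent.R100.Local933 Crest.Agent.R100.Haar403 Crest.Agent.R100.Glue403
open Crest.Agent.R100.P1800 Crest.Agent.R100.P2800 Crest.Agent.R100.P2b800
open Crest.Agent.R100.P3800 Crest.Agent.R100.P4800 Crest.Agent.R100.P3b800
open Crest.Agent.R100.M7800

/-- **multi-level model bound** -/
def ModelMulti : Prop :=
  ∃ A : ℝ, 0 ≤ A ∧ ∀ (n : ℕ) (_ : 1 ≤ n) (f : ℝ → ℂ) (_ : Measurable f) (_ : ∀ x, ‖f x‖ ≤ 2 ^ n)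
    (θ : ℝ → ℝ) (_ : Measurable θ) (_ : (range θ).Finite) (m : ℕ),
    ∫⁻ x in Ico (0 : ℝ) 1, ‖TL m f (θ x) x‖ₑ ≤
      ENNReal.ofReal (A * n) * (∫⁻ x in Ico (0 : ℝ) 1, ‖f x‖ₑ) +
        ENNReal.ofReal (A * n / (1 + Real.log n) ^ 2)

/-- **multi-level bound on the circle** -/
def StrongMulti (T : ℝ) [hT : Fact (0 < T)] : Prop :=
  ∃ A : ℝ≥0, ∀ (n : ℕ) (_ : 1 ≤ n) (f : AddCircle T → ℂ) (_ : Measurable f)
    (_ : ∀ x, ‖f x‖ ≤ 2 ^ n) (G : Set (AddCircle T)) (_ : MeasurableSet G) (_ : MaxLe f G)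
    (R : ℕ) (N : AddCircle T → ℕ) (_ : Measurable N) (_ : ∀ x, N x ≤ R),
    ∫⁻ x in G, ‖S f (N x) x‖ₑ ∂(AddCircle.haarAddCircle (T := T))
      ≤ A * (n * (∫⁻ x, ‖f x‖ₑ ∂(AddCircle.haarAddCircle (T := T))) +
        ENNReal.ofReal (n / (1 + Real.log n) ^ 2))

/-! ## one cell -/

/-- the model inequality at one `n`, with general constants -/
def MB (K1 K2 : ℝ≥0∞) (n : ℕ) : Prop :=
  ∀ (f : ℝ → ℂ) (_ : Measurable f) (_ : ∀ x, ‖f x‖ ≤ 2 ^ n)
    (θ : ℝ → ℝ) (_ : Measurable θ) (_ : (range θ).Finite) (m : ℕ),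
    ∫⁻ x in Ico (0 : ℝ) 1, ‖TL m f (θ x) x‖ₑ ≤ K1 * (∫⁻ x in Ico (0 : ℝ) 1, ‖f x‖ₑ) + K2

theorem lint_cell (h : ℝ → ℝ≥0∞) (i0 : ℤ) :
    ∫⁻ x in Ivl 0 i0, h x = ∫⁻ y in Ico (0 : ℝ) 1, h (y + i0) := by
  rw [← lintegral_indicator (measurableSet_Ivl _ _), ← lintegral_indicator measurableSet_Ico,
    ← lintegral_add_right_eq_self _ (i0 : ℝ)]
  refine lintegral_congr fun y => ?_
  have e : y + (i0 : ℝ) ∈ Ivl 0 i0 ↔ y ∈ Ico (0 : ℝ) 1 := by
    unfold Ivl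
    simp only [mem_Ico, pow_zero, div_one]
    constructor
    · rintro ⟨h1, h2⟩; constructor <;> linarith
    · rintro ⟨h1, h2⟩; constructor <;> linarith
  by_cases hy : y ∈ Ico (0 : ℝ) 1
  · rw [indicator_of_mem hy, indicator_of_mem (e.2 hy)]
  · rw [indicator_of_notMem hy, indicator_of_notMem (fun h' => hy (e.1 h'))]

theorem cell_mm {K1 K2 : ℝ≥0∞} {n : ℕ} (hA : MB K1 K2 n) {f : ℝ → ℂ}
    (hf : Measurable f) (hfn : ∀ x, ‖f x‖ ≤ 2 ^ n) {θ : ℝ → ℝ} (hθ : Measurable θ)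
    (hθr : (range θ).Finite) (m : ℕ) {G : Set ℝ}
    (hGf : ∀ x ∈ G, ∀ k, avN f k (fl k x) ≤ 4) (i0 : ℤ) :
    ∫⁻ x in Ivl 0 i0, G.indicator (fun x => ‖H m (mdl (-(θ x)) f) x‖ₑ) x ≤
      K1 * (∫⁻ x in Ivl 0 i0, ‖f x‖ₑ) + 4 * K2 := by
  classical
  set g : ℝ → ℂ := fun x => ((1 / 4 : ℝ) : ℂ) * f x with hg
  have hgm : Measurable g := hf.const_mul _
  have hgn : ∀ x, ‖g x‖ = 1 / 4 * ‖f x‖ := by
    intro x
    rw [hg]
    simp only
    rw [norm_mul, Complex.norm_real, Real.norm_eq_abs, abs_of_pos (by norm_num)]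
  have hgn' : ∀ x, ‖g x‖ ≤ 2 ^ n := by
    intro x
    rw [hgn]
    have := hfn x
    have := norm_nonneg (f x)
    linarith
  have hge : ∀ x, 4 * ‖g x‖ₑ = ‖f x‖ₑ := by
    intro x
    rw [← ofReal_norm, ← ofReal_norm, hgn, show (4 : ℝ≥0∞) = ENNReal.ofReal 4 by norm_num,
      ← ENNReal.ofReal_mul (by norm_num)]
    congr 1
    ring
  set g' : ℝ → ℂ := rs g 0 i0 with hg'
  have hg'm : Measurable g' := measurable_rs hgm 0 i0
  have h := hA g' hg'm (fun x => hgn' _) (fun y => θ (y + i0)) (hθ.comp (measurable_add_const _))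
    (hθr.subset (by rintro _ ⟨y, rfl⟩; exact ⟨_, rfl⟩)) m
  rw [lint_cell, lint_cell]
  have e1 : ∀ y : ℝ, G.indicator (fun x => ‖H m (mdl (-(θ x)) f) x‖ₑ) (y + i0) ≤
      4 * ‖TL m g' (θ (y + i0)) y‖ₑ := by
    intro y
    by_cases hy : y + (i0 : ℝ) ∈ G
    · rw [indicator_of_mem hy]
      have e2 : ‖H m (mdl (-(θ (y + i0))) f) (y + i0)‖ₑ =
          4 * ‖SS (coef g (θ (y + i0))) (fun _ _ => True) 0 m (y + i0)‖ₑ := by
        rw [H_eq_SS, hg, SS_coef_smul, enorm_mul, ← mul_assoc]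
        have : (4 : ℝ≥0∞) * ‖(((1 / 4 : ℝ) : ℝ) : ℂ)‖ₑ = 1 := by
          rw [← ofReal_norm, Complex.norm_real, Real.norm_eq_abs, abs_of_pos (by norm_num),
            show (4 : ℝ≥0∞) = ENNReal.ofReal 4 by norm_num, ← ENNReal.ofReal_mul (by norm_num)]
          norm_num
        rw [this, one_mul]
      have e3 : SS (coef g (θ (y + i0))) (fun _ _ => True) 0 m (y + i0) =
          SS (coef g (θ (y + i0))) (AL g 1 0) 0 m (y + i0) := by
        refine SS_congr fun l _ _ => ?_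
        rw [AL_fl]
        refine ⟨fun _ k' _ _ => ?_, fun _ => trivial⟩
        rw [hg, avN_smul f (by norm_num)]
        have := hGf _ hy k'
        linarith
      have e4 := TL_rs g (θ (y + i0)) 0 i0 m y
      rw [pow_zero, div_one, div_one, div_one, zero_add] at e4
      rw [e2, e3]
      apply le_of_eq
      congr 1
      rw [← ofReal_norm, ← ofReal_norm, ← e4]
    · rw [indicator_of_notMem hy]
      exact zero_le
  calc ∫⁻ y in Ico (0 : ℝ) 1, G.indicator (fun x => ‖H m (mdl (-(θ x)) f) x‖ₑ) (y + i0)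
      ≤ ∫⁻ y in Ico (0 : ℝ) 1, 4 * ‖TL m g' (θ (y + i0)) y‖ₑ := lintegral_mono fun y => e1 y
    _ = 4 * ∫⁻ y in Ico (0 : ℝ) 1, ‖TL m g' (θ (y + i0)) y‖ₑ :=
        lintegral_const_mul' _ _ (by norm_num)
    _ ≤ 4 * (K1 * (∫⁻ y in Ico (0 : ℝ) 1, ‖g' y‖ₑ) + K2) := by gcongr
    _ = K1 * (∫⁻ y in Ico (0 : ℝ) 1, 4 * ‖g' y‖ₑ) + 4 * K2 := by
        rw [lintegral_const_mul' _ _ (by norm_num)]
        ring
    _ = _ := by
        congr 2
        refine lintegral_congr fun y => ?_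
        rw [hg']
        unfold rs
        rw [hge, pow_zero, div_one, div_one]

theorem line_mm {K1 K2 : ℝ≥0∞} {n : ℕ} (hA : MB K1 K2 n) {f : ℝ → ℂ}
    (hf : Measurable f) (hfn : ∀ x, ‖f x‖ ≤ 2 ^ n) {θ : ℝ → ℝ} (hθ : Measurable θ)
    (hθr : (range θ).Finite) (m : ℕ) {G : Set ℝ}
    (hGf : ∀ x ∈ G, ∀ k, avN f k (fl k x) ≤ 4) :
    ∫⁻ x in Ico (-1 : ℝ) 2, G.indicator (fun x => ‖H m (mdl (-(θ x)) f) x‖ₑ) x ≤
      K1 * (∫⁻ x in Ico (-1 : ℝ) 2, ‖f x‖ₑ) + 12 * K2 := by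
  have h := fun i0 => cell_mm hA hf hfn hθ hθr m hGf i0
  rw [lint_three, lint_three]
  refine (add_le_add (add_le_add (h (-1)) (h 0)) (h 1)).trans (le_of_eq ?_)
  ring

variable {T : ℝ} [hT : Fact (0 < T)]

local notation "μ" => AddCircle.haarAddCircle (T := T)

theorem fixed_grid_mm {K1 K2 : ℝ≥0∞} {n : ℕ} (hA : MB K1 K2 n)
    {f : AddCircle T → ℂ} (hf : Measurable f) (hfn : ∀ x, ‖f x‖ ≤ 2 ^ n)
    {G : Set (AddCircle T)} (hGm : MeasurableSet G) (hG : MaxLe f G)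
    {θ : ℝ → ℝ} (hθ : Measurable θ) (hθr : (range θ).Finite) (m : ℕ)
    {ρ σ : ℝ} (hρ0 : 1 / 2 < ρ) (hρ1 : ρ ≤ 1) (hσ0 : 0 < σ) (hσ1 : σ ≤ 1) :
    ∫⁻ u in GR G, ‖H m (mdl (ρ * θ u) (dil ρ σ (lift f))) (u / ρ - σ)‖ₑ ≤
      4 * K1 * (∫⁻ x, ‖f x‖ₑ ∂μ) + 12 * K2 := by
  classical
  have hρ : 0 < ρ := by linarith
  have hGR : MeasurableSet (GR G) := measurableSet_Ioc.inter (measurable_ph hGm)
  set F : ℝ → ℂ := lift f with hF
  have hFm : Measurable F := measurable_lift hf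
  have hFn : ∀ x, ‖F x‖ ≤ 2 ^ n := fun x => hfn _
  have hm1 : Measurable fun u : ℝ => hpar F θ m ((u, ρ), σ) :=
    (measurable_Hpar hFm hFn hθ m).comp ((measurable_id.prodMk measurable_const).prodMk
      measurable_const)
  have hpe : ∀ u, hpar F θ m ((u, ρ), σ) =
      ‖H m (mdl (ρ * θ u) (dil ρ σ F)) (u / ρ - σ)‖ₑ := fun u => rfl
  simp_rw [hpe] at hm1
  set h : ℝ → ℝ≥0∞ := (GR G).indicator
    (fun u => ‖H m (mdl (ρ * θ u) (dil ρ σ F)) (u / ρ - σ)‖ₑ) with hh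
  have hhm : Measurable h := hm1.indicator hGR
  rw [← lintegral_indicator hGR]
  have h1 : ∫⁻ u, h u = ENNReal.ofReal ρ * ∫⁻ y, h (ρ * (σ + y)) := by
    rw [lint_dil hρ σ hhm, ← mul_assoc, ← ENNReal.ofReal_mul hρ.le, mul_inv_cancel₀ hρ.ne']
    simp
  rw [h1]
  set G' : Set ℝ := {y | ρ * (σ + y) ∈ GR G} with hG'
  have hlin : Measurable fun y : ℝ => ρ * (σ + y) := by fun_prop
  set θ' : ℝ → ℝ := fun y => -(ρ * θ (ρ * (σ + y))) with hθ'
  have hθ'm : Measurable θ' := ((hθ.comp hlin).const_mul ρ).neg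
  have hθ'r : (range θ').Finite := by
    refine (hθr.image fun t => -(ρ * t)).subset ?_
    rintro _ ⟨y, rfl⟩
    exact ⟨_, ⟨_, rfl⟩, rfl⟩
  have hF'm : Measurable (dil ρ σ F) := measurable_dil hFm
  have hF'n : ∀ x, ‖dil ρ σ F x‖ ≤ 2 ^ n := fun x => hFn _
  have hline := line_mm hA hF'm hF'n hθ'm hθ'r m (G := G')
    (fun x hx k => avN_dil_le hf hfn hG hρ0 hρ1 hx.2 k)
  have e1 : ∀ y, h (ρ * (σ + y)) = (Ico (-1 : ℝ) 2).indicator
      (G'.indicator (fun x => ‖H m (mdl (-(θ' x)) (dil ρ σ F)) x‖ₑ)) y := by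
    intro y
    by_cases hy : y ∈ G'
    · have hy' : ρ * (σ + y) ∈ GR G := hy
      have hyI : y ∈ Ico (-1 : ℝ) 2 := by
        obtain ⟨⟨a1, a2⟩, -⟩ := hy'
        have a3 : 0 < σ + y := by
          by_contra hcon
          push Not at hcon
          nlinarith
        have a4 : σ + y < 2 := by
          by_contra hcon
          push Not at hcon
          nlinarith
        constructor <;> linarith
      rw [indicator_of_mem hyI, indicator_of_mem hy, hh, indicator_of_mem hy']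
      have e2 : ρ * (σ + y) / ρ - σ = y := by field_simp; ring
      have e3 : -(θ' y) = ρ * θ (ρ * (σ + y)) := by simp [hθ']
      rw [e2, e3]
    · have hy' : ρ * (σ + y) ∉ GR G := hy
      rw [hh, indicator_of_notMem hy']
      by_cases hyI : y ∈ Ico (-1 : ℝ) 2
      · rw [indicator_of_mem hyI, indicator_of_notMem hy]
      · rw [indicator_of_notMem hyI]
  simp_rw [e1]
  rw [lintegral_indicator measurableSet_Ico]
  -- the right-hand side
  have h2 : ∫⁻ x in Ico (-1 : ℝ) 2, ‖dil ρ σ F x‖ₑ ≤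
      ENNReal.ofReal ρ⁻¹ * (4 * ∫⁻ x, ‖f x‖ₑ ∂μ) := by
    rw [← lint_four hf (-1)]
    refine lint_dil_set hρ σ hFm.enorm measurableSet_Ioc measurableSet_Ico fun y hy => ?_
    constructor
    · nlinarith [hy.1]
    · nlinarith [hy.2]
  calc ENNReal.ofReal ρ * ∫⁻ x in Ico (-1 : ℝ) 2,
        G'.indicator (fun x => ‖H m (mdl (-(θ' x)) (dil ρ σ F)) x‖ₑ) x
      ≤ ENNReal.ofReal ρ * (K1 * (ENNReal.ofReal ρ⁻¹ * (4 * ∫⁻ x, ‖f x‖ₑ ∂μ)) + 12 * K2) := by
        gcongr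
        exact hline.trans (by gcongr)
    _ = (ENNReal.ofReal ρ * ENNReal.ofReal ρ⁻¹) * (4 * K1 * ∫⁻ x, ‖f x‖ₑ ∂μ) +
        ENNReal.ofReal ρ * (12 * K2) := by ring
    _ ≤ 1 * (4 * K1 * ∫⁻ x, ‖f x‖ₑ ∂μ) + 1 * (12 * K2) := by
        gcongr
        · rw [← ENNReal.ofReal_mul hρ.le, mul_inv_cancel₀ hρ.ne', ENNReal.ofReal_one]
        · rw [← ENNReal.ofReal_one]
          exact ENNReal.ofReal_le_ofReal hρ1
    _ = _ := by rw [one_mul, one_mul]

/-- the average over the grids -/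
theorem avg_mm {K1 K2 : ℝ≥0∞} {n : ℕ} (hA : MB K1 K2 n)
    {f : AddCircle T → ℂ} (hf : Measurable f) (hfn : ∀ x, ‖f x‖ ≤ 2 ^ n)
    {G : Set (AddCircle T)} (hGm : MeasurableSet G) (hG : MaxLe f G)
    {θ : ℝ → ℝ} (hθ : Measurable θ) (hθr : (range θ).Finite) (m : ℕ) :
    ∫⁻ u in GR G, AvH m (θ u) (lift f) u ≤ 4 * K1 * (∫⁻ x, ‖f x‖ₑ ∂μ) + 12 * K2 := by
  have hFm : Measurable (lift f) := measurable_lift hf
  have hFn : ∀ x, ‖lift f x‖ ≤ 2 ^ n := fun x => hfn _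
  have hm3 := measurable_Hpar hFm hFn hθ m
  unfold AvH
  have hsw : ∫⁻ u in GR G, ∫⁻ ρ in Ioc (1 / 2 : ℝ) 1, ∫⁻ σ in Ioc (0 : ℝ) 1,
        ‖H m (mdl (ρ * θ u) (dil ρ σ (lift f))) (u / ρ - σ)‖ₑ =
      ∫⁻ ρ in Ioc (1 / 2 : ℝ) 1, ∫⁻ u in GR G, ∫⁻ σ in Ioc (0 : ℝ) 1,
        ‖H m (mdl (ρ * θ u) (dil ρ σ (lift f))) (u / ρ - σ)‖ₑ := by
    have h2 : Measurable fun p : ℝ × ℝ => ∫⁻ σ in Ioc (0 : ℝ) 1, hpar (lift f) θ m (p, σ) :=
      hm3.lintegral_prod_right'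
    exact lintegral_lintegral_swap
      (f := fun u ρ => ∫⁻ σ in Ioc (0 : ℝ) 1, hpar (lift f) θ m ((u, ρ), σ)) h2.aemeasurable
  rw [hsw]
  have h1 : ∀ ρ : ℝ, ∫⁻ u in GR G, ∫⁻ σ in Ioc (0 : ℝ) 1,
      ‖H m (mdl (ρ * θ u) (dil ρ σ (lift f))) (u / ρ - σ)‖ₑ =
      ∫⁻ σ in Ioc (0 : ℝ) 1, ∫⁻ u in GR G,
      ‖H m (mdl (ρ * θ u) (dil ρ σ (lift f))) (u / ρ - σ)‖ₑ := by
    intro ρ
    have h2 : Measurable fun p : ℝ × ℝ => hpar (lift f) θ m ((p.1, ρ), p.2) :=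
      hm3.comp ((measurable_fst.prodMk measurable_const).prodMk measurable_snd)
    exact lintegral_lintegral_swap (f := fun u σ => hpar (lift f) θ m ((u, ρ), σ))
      h2.aemeasurable
  simp_rw [h1]
  set K := 4 * K1 * (∫⁻ x, ‖f x‖ₑ ∂μ) + 12 * K2 with hK
  calc ∫⁻ ρ in Ioc (1 / 2 : ℝ) 1, ∫⁻ σ in Ioc (0 : ℝ) 1, ∫⁻ u in GR G,
      ‖H m (mdl (ρ * θ u) (dil ρ σ (lift f))) (u / ρ - σ)‖ₑ
      ≤ ∫⁻ ρ in Ioc (1 / 2 : ℝ) 1, ∫⁻ σ in Ioc (0 : ℝ) 1, K := by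
        refine setLIntegral_mono' measurableSet_Ioc fun ρ hρ => ?_
        refine setLIntegral_mono' measurableSet_Ioc fun σ hσ => ?_
        exact fixed_grid_mm hA hf hfn hGm hG hθ hθr m hρ.1 hρ.2 hσ.1 hσ.2
    _ = ENNReal.ofReal (1 / 2) * K := by
        rw [setLIntegral_const, setLIntegral_const, Real.volume_Ioc, Real.volume_Ioc]
        norm_num
        rw [mul_comm]
    _ ≤ 1 * K := by
        gcongr
        rw [← ENNReal.ofReal_one]
        exact ENNReal.ofReal_le_ofReal (by norm_num)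
    _ = K := one_mul K

/-- `n / (1 + log n)^2 ≥ 1/4` -/
theorem err_ge {n : ℕ} (hn : 1 ≤ n) : (1 / 4 : ℝ) ≤ n / (1 + Real.log n) ^ 2 := by
  have h1 : (1 : ℝ) ≤ n := by exact_mod_cast hn
  have h0 : 0 ≤ Real.log n := Real.log_nonneg h1
  have h2 : (1 + Real.log n) ≤ 2 * Real.sqrt n := by
    have h3 : Real.log n = 2 * Real.log (Real.sqrt n) := by
      rw [Real.log_sqrt (by positivity)]
      ring
    have h4 : Real.log (Real.sqrt n) ≤ Real.sqrt n - 1 :=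
      Real.log_le_sub_one_of_pos (Real.sqrt_pos.2 (by linarith))
    rw [h3]
    linarith
  rw [div_le_div_iff₀ (by norm_num) (by positivity)]
  calc 1 * (1 + Real.log n) ^ 2 ≤ 1 * (2 * Real.sqrt n) ^ 2 := by gcongr
    _ = (n : ℝ) * 4 := by
        rw [mul_pow, Real.sq_sqrt (by positivity)]
        ring

/-- **SH2** -/
theorem StrongMulti_of_ModelMulti (h : ModelMulti) : StrongMulti T := by
  classical
  obtain ⟨B, hB, hE⟩ := h
  refine ⟨Real.toNNReal (256 * B + 136), fun n hn f hf hfb G hGm hG R N hNm hNR => ?_⟩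
  set a : ℝ≥0∞ := ∫⁻ x, ‖f x‖ₑ ∂μ with ha
  have hfi : Integrable f μ :=
    Integrable.of_bound hf.aestronglyMeasurable (2 ^ n) (Eventually.of_forall hfb)
  have haI : ENNReal.ofReal (∫ x, ‖f x‖ ∂μ) = a := ofReal_integral_norm_eq_lintegral_enorm hfi
  have hGRm : MeasurableSet (GR G) := measurableSet_Ioc.inter (measurable_ph hGm)
  have hvolG : volume (GR G) = μ G := by
    have h1 := (measurePreserving_ph (T := T) 0).measure_preimage hGm.nullMeasurableSet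
    rw [Measure.restrict_apply (measurable_ph hGm), zero_add] at h1
    unfold GR
    rw [inter_comm]
    exact h1
  -- choice of the number of scales
  obtain ⟨m, hm⟩ : ∃ m : ℕ, 18 * (2 * Real.pi * (R + 1 / 2)) * 2 ^ n * ((2 : ℝ) ^ m)⁻¹ ≤ 1 := by
    obtain ⟨m, hm⟩ := pow_unbounded_of_one_lt (18 * (2 * Real.pi * (R + 1 / 2)) * 2 ^ n)
      (one_lt_two (α := ℝ))
    refine ⟨m, ?_⟩
    rw [← div_eq_mul_inv, div_le_one (by positivity)]
    exact hm.le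
  -- the frequencies
  have hN1 : Measurable (fun u : ℝ => ((N (ph (T := T) u) : ℕ) : ℝ)) :=
    (measurable_from_top (f := fun k : ℕ => (k : ℝ))).comp (hNm.comp measurable_ph)
  set K1 : ℝ≥0∞ := ENNReal.ofReal (B * n) with hK1
  set K2 : ℝ≥0∞ := ENNReal.ofReal (B * n / (1 + Real.log n) ^ 2) with hK2
  have hMB : MB K1 K2 n := fun f hf hfn θ hθ hθr m => hE n hn f hf hfn θ hθ hθr m
  have h1 := avg_mm hMB hf hfb hGm hG
    (θ := fun u => -((N (ph u) : ℝ) + 1 / 2)) ((hN1.add_const _).neg) (by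
      refine ((Finset.range (R + 1)).image (fun k : ℕ => -((k : ℝ) + 1 / 2))).finite_toSet.subset ?_
      rintro _ ⟨u, rfl⟩
      rw [Finset.mem_coe, Finset.mem_image]
      exact ⟨N (ph u), Finset.mem_range.2 (Nat.lt_succ_of_le (hNR _)), rfl⟩) m
  have h2 := avg_mm hMB hf hfb hGm hG
    (θ := fun u => ((N (ph u) : ℝ) + 1 / 2)) (hN1.add_const _) (by
      refine ((Finset.range (R + 1)).image (fun k : ℕ => ((k : ℝ) + 1 / 2))).finite_toSet.subset ?_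
      rintro _ ⟨u, rfl⟩
      rw [Finset.mem_coe, Finset.mem_image]
      exact ⟨N (ph u), Finset.mem_range.2 (Nat.lt_succ_of_le (hNR _)), rfl⟩) m
  rw [← ha] at h1 h2
  -- the left-hand side on the line
  have hSm : Measurable (fun x : AddCircle T => ‖S f (N x) x‖ₑ) := by
    have h3 : Measurable (fun p : AddCircle T × ℕ => S f p.2 p.1) := by
      refine measurable_from_prod_countable_left fun k => ?_
      exact (continuous_S f k).measurable
    exact (h3.comp (measurable_id.prodMk hNm)).enorm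
  have hL : ∫⁻ x in G, ‖S f (N x) x‖ₑ ∂μ
      = ∫⁻ u in GR G, ‖S f (N (ph u)) (ph u)‖ₑ := by
    rw [← lintegral_indicator hGm, lint_ph 0 (hSm.indicator hGm), zero_add]
    unfold GR
    rw [inter_comm, ← setLIntegral_indicator (measurable_ph hGm)]
    refine lintegral_congr fun u => ?_
    by_cases hu : ph u ∈ G
    · rw [indicator_of_mem hu, indicator_of_mem (show u ∈ ph ⁻¹' G from hu)]
    · rw [indicator_of_notMem hu, indicator_of_notMem (show u ∉ ph ⁻¹' G from hu)]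
  have hAm : Measurable fun u : ℝ => AvH m (-((N (ph (T := T) u) : ℝ) + 1 / 2)) (lift f) u := by
    have hm3 := measurable_Hpar (measurable_lift hf) (fun x => hfb _)
      (θ := fun u => -((N (ph (T := T) u) : ℝ) + 1 / 2)) ((hN1.add_const _).neg) m
    have h4 : Measurable fun p : ℝ × ℝ => ∫⁻ σ in Ioc (0 : ℝ) 1,
        hpar (lift f) (fun u => -((N (ph (T := T) u) : ℝ) + 1 / 2)) m (p, σ) :=
      hm3.lintegral_prod_right'
    exact h4.lintegral_prod_right'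
  rw [hL]
  have hG1 : μ G ≤ 1 := prob_le_one
  have hn1 : (1 : ℝ) ≤ n := by exact_mod_cast hn
  set E : ℝ≥0∞ := ENNReal.ofReal (n / (1 + Real.log n) ^ 2) with hEr
  have hE1 : (1 : ℝ≥0∞) ≤ 4 * E := by
    rw [hEr, show (4 : ℝ≥0∞) = ENNReal.ofReal 4 by norm_num, ← ENNReal.ofReal_mul (by norm_num),
      ← ENNReal.ofReal_one]
    apply ENNReal.ofReal_le_ofReal
    have := err_ge hn
    linarith
  have hK1' : K1 = ENNReal.ofReal B * n := by
    rw [hK1, ENNReal.ofReal_mul hB, ENNReal.ofReal_natCast]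
  have hK2' : K2 = ENNReal.ofReal B * E := by
    rw [hK2, mul_div_assoc, ENNReal.ofReal_mul hB]
  have hna : (1 : ℝ≥0∞) ≤ (n : ℝ≥0∞) := by exact_mod_cast hn
  calc ∫⁻ u in GR G, ‖S f (N (ph u)) (ph u)‖ₑ
      ≤ ∫⁻ u in GR G, (8 * (AvH m (-((N (ph u) : ℝ) + 1 / 2)) (lift f) u +
          AvH m ((N (ph u) : ℝ) + 1 / 2) (lift f) u) + (33 * a + 1)) := by
        refine setLIntegral_mono' hGRm fun u hu => ?_
        refine (enorm_S_le hf hfb (N (ph u)) m u).trans ?_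
        gcongr
        rw [ENNReal.ofReal_add (by positivity) (by positivity), ENNReal.ofReal_mul (by norm_num),
          haI]
        refine add_le_add (by norm_num) ?_
        rw [← ENNReal.ofReal_one]
        apply ENNReal.ofReal_le_ofReal
        refine le_trans ?_ hm
        have hNR' : ((N (ph (T := T) u) : ℕ) : ℝ) ≤ R := by exact_mod_cast hNR _
        gcongr
    _ = 8 * ((∫⁻ u in GR G, AvH m (-((N (ph u) : ℝ) + 1 / 2)) (lift f) u) +
          ∫⁻ u in GR G, AvH m ((N (ph u) : ℝ) + 1 / 2) (lift f) u) + (33 * a + 1) * μ G := by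
        rw [lintegral_add_right _ measurable_const, setLIntegral_const, hvolG,
          lintegral_const_mul' _ _ (by norm_num), lintegral_add_left hAm]
    _ ≤ 8 * ((4 * K1 * a + 12 * K2) + (4 * K1 * a + 12 * K2)) + (33 * a + 1) * 1 := by
        gcongr
    _ = 64 * K1 * a + 192 * K2 + 33 * a + 1 := by ring
    _ ≤ 64 * K1 * a + 192 * K2 + 33 * (n * a) + 4 * E := by
        gcongr
        calc a = 1 * a := (one_mul _).symm
          _ ≤ n * a := by gcongr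
    _ = (64 * ENNReal.ofReal B + 33) * (n * a) + (192 * ENNReal.ofReal B + 4) * E := by
        rw [hK1', hK2']
        ring
    _ ≤ (256 * ENNReal.ofReal B + 136) * (n * a) + (256 * ENNReal.ofReal B + 136) * E := by
        gcongr <;> norm_num
    _ = (256 * ENNReal.ofReal B + 136) * (n * a + E) := by ring
    _ = _ := by
        congr 1
        rw [← ENNReal.ofReal_coe_nnreal, Real.coe_toNNReal _ (by positivity),
          ENNReal.ofReal_add (by positivity) (by norm_num), ENNReal.ofReal_mul (by norm_num)]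
        norm_num

end Crest.Agent.R100.MM800
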