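import Mathlib

/-!
# R100 / S0132, leaf M1 (helper933): exponential bounds for dyadic martingales near the origin

Dyadic model: the node `(k, j)` is the interval `Ivl k j = [j 2^{-k}, (j+1) 2^{-k})`, `fl k x = ⌊2^k x⌋`.
-/

set_option autoImplicit false

open MeasureTheory Set
open scoped ENNReal

noncomputable section

namespace Crest.Agent.R100.Mart933

/-! ## the dyadic grid -/

/-- index of the dyadic interval of level `k` containing `x` -/
def fl (k : ℕ) (x : ℝ) : ℤ := ⌊(2 : ℝ) ^ k * x⌋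

/-- dyadic interval -/
def Ivl (k : ℕ) (j : ℤ) : Set ℝ := Ico ((j : ℝ) / 2 ^ k) (((j : ℝ) + 1) / 2 ^ k)

theorem mem_Ivl {k : ℕ} {j : ℤ} {x : ℝ} : x ∈ Ivl k j ↔ fl k x = j := by
  unfold Ivl fl
  have h2 : (0 : ℝ) < 2 ^ k := by positivity
  rw [Int.floor_eq_iff, mem_Ico, div_le_iff₀ h2, lt_div_iff₀ h2]
  constructor
  · rintro ⟨h, h'⟩
    exact ⟨by linarith, by linarith⟩
  · rintro ⟨h, h'⟩
    exact ⟨by linarith, by linarith⟩

theorem measurable_fl (k : ℕ) : Measurable (fl k) :=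
  Int.measurable_floor.comp (measurable_const.mul measurable_id)

theorem measurable_fl_comp {β : Type*} [MeasurableSpace β] (k : ℕ) (g : ℤ → β) :
    Measurable fun x => g (fl k x) :=
  (measurable_from_top (f := g)).comp (measurable_fl k)

theorem measurableSet_Ivl (k : ℕ) (j : ℤ) : MeasurableSet (Ivl k j) := measurableSet_Ico

theorem volume_Ivl (k : ℕ) (j : ℤ) : volume (Ivl k j) = ENNReal.ofReal (1 / 2 ^ k) := by
  unfold Ivl
  rw [Real.volume_Ico]
  congr 1
  ring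

theorem fl_succ_div (k : ℕ) (x : ℝ) : fl (k + 1) x = 2 * fl k x ∨ fl (k + 1) x = 2 * fl k x + 1 := by
  unfold fl
  set y : ℝ := 2 ^ k * x with hy
  have e : (2 : ℝ) ^ (k + 1) * x = 2 * y := by rw [hy]; ring
  rw [e]
  have h1 := Int.floor_le y
  have h2 := Int.lt_floor_add_one y
  rcases lt_or_ge (y) ((⌊y⌋ : ℝ) + 1 / 2) with h | h
  · left
    rw [Int.floor_eq_iff]
    push_cast
    constructor <;> linarith
  · right
    rw [Int.floor_eq_iff]
    push_cast
    constructor <;> linarith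

theorem fl_half (k : ℕ) (x : ℝ) : fl k x = fl (k + 1) x / 2 := by
  rcases fl_succ_div k x with h | h <;> omega

theorem Ivl_split (k : ℕ) (j : ℤ) : Ivl k j = Ivl (k + 1) (2 * j) ∪ Ivl (k + 1) (2 * j + 1) := by
  ext x
  simp only [mem_union, mem_Ivl]
  rcases fl_succ_div k x with h | h <;> omega

theorem Ivl_disj (k : ℕ) (j : ℤ) : Disjoint (Ivl (k + 1) (2 * j)) (Ivl (k + 1) (2 * j + 1)) := by
  rw [Set.disjoint_left]
  intro x h1 h2
  rw [mem_Ivl] at h1 h2
  omega

theorem volume_Ivl_succ (k : ℕ) (j j' : ℤ) :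
    volume (Ivl (k + 1) j') = volume (Ivl k j) / 2 := by
  rw [volume_Ivl, volume_Ivl, ← ENNReal.ofReal_ofNat 2, ← ENNReal.ofReal_div_of_pos (by norm_num)]
  congr 1
  rw [pow_succ]
  field_simp

theorem lintegral_Ivl (k : ℕ) (j : ℤ) (f : ℝ → ℝ≥0∞) :
    ∫⁻ x in Ivl k j, f x = (∫⁻ x in Ivl (k + 1) (2 * j), f x) + ∫⁻ x in Ivl (k + 1) (2 * j + 1), f x := by
  rw [Ivl_split, lintegral_union (measurableSet_Ivl _ _) (Ivl_disj _ _)]

/-! ## the convex function `U` -/

/-- `|z|²` inside the disc of radius `R`, `2R|z| - R²` outside -/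
def U (R : ℝ) (z : ℂ) : ℝ := 2 * min ‖z‖ R * ‖z‖ - (min ‖z‖ R) ^ 2

theorem U_ge {R s : ℝ} (z : ℂ) (hs : s ≤ R) : 2 * s * ‖z‖ - s ^ 2 ≤ U R z := by
  unfold U
  rcases le_total ‖z‖ R with h | h
  · rw [min_eq_left h]
    nlinarith [sq_nonneg (‖z‖ - s)]
  · rw [min_eq_right h]
    nlinarith [mul_nonneg (sub_nonneg.2 hs) (sub_nonneg.2 h), sq_nonneg (R - s)]

theorem U_of_le {R : ℝ} {z : ℂ} (h : ‖z‖ ≤ R) : U R z = ‖z‖ ^ 2 := by
  unfold U
  rw [min_eq_left h]; ring

theorem U_nonneg {R : ℝ} (hR : 0 ≤ R) (z : ℂ) : 0 ≤ U R z := by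
  have := U_ge (R := R) (s := 0) z hR
  simpa using this

theorem U_le {R : ℝ} (hR : 0 ≤ R) {z : ℂ} {B : ℝ} (hz : ‖z‖ ≤ B) : U R z ≤ 2 * R * B := by
  unfold U
  have h0 : 0 ≤ min ‖z‖ R := le_min (norm_nonneg z) hR
  have h1 : min ‖z‖ R ≤ R := min_le_right _ _
  have h2 : min ‖z‖ R * ‖z‖ ≤ R * B := mul_le_mul h1 hz (norm_nonneg z) hR
  nlinarith [sq_nonneg (min ‖z‖ R)]

theorem U_mid {R : ℝ} (hR : 0 ≤ R) (a h : ℂ) : U R a ≤ (U R (a + h) + U R (a - h)) / 2 := by
  set s := min ‖a‖ R with hs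
  have h0 : 0 ≤ s := le_min (norm_nonneg a) hR
  have h1 : s ≤ R := min_le_right _ _
  have e1 := U_ge (R := R) (a + h) h1
  have e2 := U_ge (R := R) (a - h) h1
  have e3 : U R a = 2 * s * ‖a‖ - s ^ 2 := rfl
  have e4 : 2 * ‖a‖ ≤ ‖a + h‖ + ‖a - h‖ := by
    have : (2 : ℂ) * a = (a + h) + (a - h) := by ring
    calc 2 * ‖a‖ = ‖(2 : ℂ) * a‖ := by simp
      _ = ‖(a + h) + (a - h)‖ := by rw [this]
      _ ≤ _ := norm_add_le _ _
  rw [e3]
  nlinarith [mul_le_mul_of_nonneg_left e4 h0]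

theorem U_step {R : ℝ} {a h : ℂ} (ha : ‖a‖ ≤ R / 3) (hh : ‖h‖ ≤ 2 * R / 3) :
    U R a + ‖h‖ ^ 2 = (U R (a + h) + U R (a - h)) / 2 := by
  have hR : 0 ≤ R := by
    have := norm_nonneg a
    linarith
  have h1 : ‖a‖ ≤ R := by linarith
  have h2 : ‖a + h‖ ≤ R := (norm_add_le _ _).trans (by linarith)
  have h3 : ‖a - h‖ ≤ R := (norm_sub_le _ _).trans (by linarith)
  rw [U_of_le h1, U_of_le h2, U_of_le h3]
  have := parallelogram_law_with_norm ℝ a h
  nlinarith [this]

/-- the key numerical inequality -/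
theorem exp_step {R x u : ℝ} (hR : 0 < R) (hx : 0 ≤ x) (hu : 0 ≤ u) :
    Real.exp (x / (8 * R)) * (8 * R - (u + x)) ≤ 8 * R - u := by
  have h8 : 0 < 8 * R := by positivity
  set c := 8 * R with hc
  have h1 : Real.exp (x / c) * (1 - x / c) ≤ 1 := by
    have := Real.add_one_le_exp (-(x / c))
    have h2 : Real.exp (x / c) * (1 - x / c) ≤ Real.exp (x / c) * Real.exp (-(x / c)) := by
      apply mul_le_mul_of_nonneg_left _ (Real.exp_pos _).le
      linarith
    rw [← Real.exp_add] at h2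
    simpa using h2
  have h3 : Real.exp (x / c) * (c - x) ≤ c := by
    have : Real.exp (x / c) * (c - x) = c * (Real.exp (x / c) * (1 - x / c)) := by
      field_simp
    rw [this]
    nlinarith
  have h4 : (1 : ℝ) ≤ Real.exp (x / c) := Real.one_le_exp (by positivity)
  nlinarith

/-! ## quadratic variation -/

/-- dyadic martingale (values on nodes) -/
def IsMart (a : ℕ → ℤ → ℂ) : Prop :=
  ∀ k j, a k j = (a (k + 1) (2 * j) + a (k + 1) (2 * j + 1)) / 2

/-- half difference of the children -/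
def hd (a : ℕ → ℤ → ℂ) (k : ℕ) (j : ℤ) : ℂ := (a (k + 1) (2 * j) - a (k + 1) (2 * j + 1)) / 2

theorem IsMart.left {a : ℕ → ℤ → ℂ} (ha : IsMart a) (k : ℕ) (j : ℤ) :
    a (k + 1) (2 * j) = a k j + hd a k j := by
  rw [ha k j, hd]; ring

theorem IsMart.right {a : ℕ → ℤ → ℂ} (ha : IsMart a) (k : ℕ) (j : ℤ) :
    a (k + 1) (2 * j + 1) = a k j - hd a k j := by
  rw [ha k j, hd]; ring

/-- martingale difference `Δ_k(x)` -/
def dl (a : ℕ → ℤ → ℂ) (k : ℕ) (x : ℝ) : ℂ := a (k + 1) (fl (k + 1) x) - a k (fl k x)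

theorem norm_dl {a : ℕ → ℤ → ℂ} (ha : IsMart a) (k : ℕ) (x : ℝ) :
    ‖dl a k x‖ = ‖hd a k (fl k x)‖ := by
  unfold dl
  rcases fl_succ_div k x with h | h
  · rw [h, ha.left]; simp
  · rw [h, ha.right]; simp

open Classical in
/-- the switched quadratic variation over the levels `k ≤ l < m` -/
def QV (a : ℕ → ℤ → ℂ) (ε : ℕ → ℤ → Prop) (k m : ℕ) (x : ℝ) : ℝ :=
  ∑ l ∈ Finset.Ico k m, if ε l (fl l x) then ‖hd a l (fl l x)‖ ^ 2 else 0

open Classical in
theorem QV_nonneg (a : ℕ → ℤ → ℂ) (ε : ℕ → ℤ → Prop) (k m : ℕ) (x : ℝ) : 0 ≤ QV a ε k m x := by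
  unfold QV
  refine Finset.sum_nonneg fun l _ => ?_
  split_ifs <;> positivity

open Classical in
theorem QV_mono (a : ℕ → ℤ → ℂ) (ε : ℕ → ℤ → Prop) (k : ℕ) {m m' : ℕ} (h : m ≤ m') (x : ℝ) :
    QV a ε k m x ≤ QV a ε k m' x := by
  unfold QV
  apply Finset.sum_le_sum_of_subset_of_nonneg
  · exact Finset.Ico_subset_Ico_right h
  · intro l _ _
    split_ifs <;> positivity

theorem measurable_QV (a : ℕ → ℤ → ℂ) (ε : ℕ → ℤ → Prop) (k m : ℕ) :
    Measurable (QV a ε k m) := by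
  classical
  unfold QV
  refine Finset.measurable_sum _ fun l _ => ?_
  exact measurable_fl_comp l (fun j => if ε l j then ‖hd a l j‖ ^ 2 else 0)

/-- **M1a**, supermartingale form. -/
theorem exp_QV_aux {R : ℝ} (hR : 0 < R) {a : ℕ → ℤ → ℂ} (ha : IsMart a)
    (hb : ∀ k j, ‖a k j‖ ≤ 2) (ε : ℕ → ℤ → Prop)
    (hε : ∀ k j, ε k j → ‖a k j‖ ≤ R / 3 ∧ ‖hd a k j‖ ≤ 2 * R / 3) (d : ℕ) :
    ∀ (k : ℕ) (j : ℤ), ∫⁻ x in Ivl k j, ENNReal.ofReal (Real.exp (QV a ε k (k + d) x / (8 * R)) *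
        (8 * R - U R (a (k + d) (fl (k + d) x)))) ≤
      ENNReal.ofReal (8 * R - U R (a k j)) * volume (Ivl k j) := by
  classical
  induction d with
  | zero =>
    intro k j
    have : ∀ x ∈ Ivl k j, ENNReal.ofReal (Real.exp (QV a ε k (k + 0) x / (8 * R)) *
        (8 * R - U R (a (k + 0) (fl (k + 0) x)))) = ENNReal.ofReal (8 * R - U R (a k j)) := by
      intro x hx
      rw [mem_Ivl] at hx
      simp [QV, hx]
    rw [setLIntegral_congr_fun (measurableSet_Ivl k j) this]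
    simp
  | succ d ih =>
    intro k j
    -- value of the first term
    set q : ℝ := if ε k j then ‖hd a k j‖ ^ 2 else 0 with hq
    have hq0 : 0 ≤ q := by rw [hq]; split_ifs <;> positivity
    have hsplit : ∀ x ∈ Ivl k j, ENNReal.ofReal (Real.exp (QV a ε k (k + (d + 1)) x / (8 * R)) *
        (8 * R - U R (a (k + (d + 1)) (fl (k + (d + 1)) x)))) =
        ENNReal.ofReal (Real.exp (q / (8 * R))) *
          ENNReal.ofReal (Real.exp (QV a ε (k + 1) (k + 1 + d) x / (8 * R)) *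
            (8 * R - U R (a (k + 1 + d) (fl (k + 1 + d) x)))) := by
      intro x hx
      rw [mem_Ivl] at hx
      have e1 : QV a ε k (k + (d + 1)) x = q + QV a ε (k + 1) (k + 1 + d) x := by
        unfold QV
        rw [Finset.sum_eq_sum_Ico_succ_bot (by omega), hx]
        congr 2
        congr 1
        omega
      have e2 : k + (d + 1) = k + 1 + d := by omega
      rw [e1, e2, ← ENNReal.ofReal_mul (Real.exp_pos _).le, add_div, Real.exp_add]
      congr 1
      ring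
    rw [setLIntegral_congr_fun (measurableSet_Ivl k j) hsplit,
      lintegral_const_mul' _ _ ENNReal.ofReal_ne_top, lintegral_Ivl]
    have i1 := ih (k + 1) (2 * j)
    have i2 := ih (k + 1) (2 * j + 1)
    have p1 : 0 ≤ 8 * R - U R (a (k + 1) (2 * j)) := by
      have := U_le hR.le (hb (k + 1) (2 * j))
      linarith
    have p2 : 0 ≤ 8 * R - U R (a (k + 1) (2 * j + 1)) := by
      have := U_le hR.le (hb (k + 1) (2 * j + 1))
      linarith
    have hkey : Real.exp (q / (8 * R)) * (((8 * R - U R (a (k + 1) (2 * j))) +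
        (8 * R - U R (a (k + 1) (2 * j + 1)))) / 2) ≤ 8 * R - U R (a k j) := by
      rw [ha.left, ha.right]
      by_cases he : ε k j
      · obtain ⟨h1, h2⟩ := hε k j he
        have hs := U_step h1 h2
        have hq' : q = ‖hd a k j‖ ^ 2 := by rw [hq, if_pos he]
        have hx := exp_step (x := q) hR hq0 (U_nonneg hR.le (a k j))
        have e : ((8 * R - U R (a k j + hd a k j)) + (8 * R - U R (a k j - hd a k j))) / 2 =
            8 * R - (U R (a k j) + q) := by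
          rw [hq']
          linarith
        rw [e]
        exact hx
      · have hq' : q = 0 := by rw [hq, if_neg he]
        have hm := U_mid hR.le (a k j) (hd a k j)
        rw [hq']
        simp only [zero_div, Real.exp_zero, one_mul]
        linarith
    calc ENNReal.ofReal (Real.exp (q / (8 * R))) * (_ + _)
        ≤ ENNReal.ofReal (Real.exp (q / (8 * R))) *
          (ENNReal.ofReal (8 * R - U R (a (k + 1) (2 * j))) * volume (Ivl (k + 1) (2 * j)) +
           ENNReal.ofReal (8 * R - U R (a (k + 1) (2 * j + 1))) * volume (Ivl (k + 1) (2 * j + 1))) := by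
          gcongr
      _ = ENNReal.ofReal (Real.exp (q / (8 * R)) * (((8 * R - U R (a (k + 1) (2 * j))) +
          (8 * R - U R (a (k + 1) (2 * j + 1)))) / 2)) * volume (Ivl k j) := by
          rw [volume_Ivl_succ k j (2 * j), volume_Ivl_succ k j (2 * j + 1), ← add_mul,
            ← ENNReal.ofReal_add p1 p2, ← mul_assoc, ← ENNReal.ofReal_mul (Real.exp_pos _).le,
            ENNReal.div_eq_inv_mul, ← mul_assoc]
          congr 1
          rw [← ENNReal.ofReal_ofNat 2, ← ENNReal.ofReal_inv_of_pos (by norm_num),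
            ← ENNReal.ofReal_mul (mul_nonneg (Real.exp_pos _).le (add_nonneg p1 p2))]
          congr 1
          ring
      _ ≤ _ := by
          gcongr

/-- **M1a**: exponential integrability of the quadratic variation spent near the origin. -/
theorem exp_QV {R : ℝ} (hR : 0 < R) {a : ℕ → ℤ → ℂ} (ha : IsMart a)
    (hb : ∀ k j, ‖a k j‖ ≤ 2) (ε : ℕ → ℤ → Prop)
    (hε : ∀ k j, ε k j → ‖a k j‖ ≤ R / 3 ∧ ‖hd a k j‖ ≤ 2 * R / 3) (k m : ℕ) (j : ℤ) :
    ∫⁻ x in Ivl k j, ENNReal.ofReal (Real.exp (QV a ε k m x / (8 * R))) ≤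
      2 * volume (Ivl k j) := by
  classical
  rcases le_total k m with hkm | hkm
  · obtain ⟨d, rfl⟩ := Nat.exists_eq_add_of_le hkm
    have h := exp_QV_aux hR ha hb ε hε d k j
    have h1 : ∀ x, ENNReal.ofReal (4 * R) * ENNReal.ofReal (Real.exp (QV a ε k (k + d) x / (8 * R))) ≤
        ENNReal.ofReal (Real.exp (QV a ε k (k + d) x / (8 * R)) *
        (8 * R - U R (a (k + d) (fl (k + d) x)))) := by
      intro x
      rw [← ENNReal.ofReal_mul (by positivity)]
      apply ENNReal.ofReal_le_ofReal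
      have := U_le hR.le (hb (k + d) (fl (k + d) x))
      have h2 : 4 * R ≤ 8 * R - U R (a (k + d) (fl (k + d) x)) := by linarith
      calc 4 * R * Real.exp (QV a ε k (k + d) x / (8 * R)) =
          Real.exp (QV a ε k (k + d) x / (8 * R)) * (4 * R) := by ring
        _ ≤ _ := mul_le_mul_of_nonneg_left h2 (Real.exp_pos _).le
    have h2 : ENNReal.ofReal (4 * R) * ∫⁻ x in Ivl k j,
        ENNReal.ofReal (Real.exp (QV a ε k (k + d) x / (8 * R))) ≤
        ENNReal.ofReal (8 * R) * volume (Ivl k j) := by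
      rw [← lintegral_const_mul' _ _ ENNReal.ofReal_ne_top]
      refine (lintegral_mono h1).trans (h.trans ?_)
      gcongr
      have := U_nonneg hR.le (a k j)
      linarith
    have h3 : ENNReal.ofReal (8 * R) = ENNReal.ofReal (4 * R) * 2 := by
      rw [← ENNReal.ofReal_ofNat 2, ← ENNReal.ofReal_mul (by positivity)]
      congr 1; ring
    rw [h3, mul_assoc] at h2
    have h4 : ENNReal.ofReal (4 * R) ≠ 0 := by
      rw [Ne, ENNReal.ofReal_eq_zero, not_le]; positivity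
    exact (ENNReal.mul_le_mul_iff_right h4 ENNReal.ofReal_ne_top).1 h2
  · have : ∀ x, QV a ε k m x = 0 := by
      intro x
      unfold QV
      rw [Finset.Ico_eq_empty_of_le hkm]
      simp
    simp only [this, zero_div, Real.exp_zero, ENNReal.ofReal_one, lintegral_const, one_mul]
    rw [Measure.restrict_apply MeasurableSet.univ, univ_inter]
    nth_rewrite 1 [← one_mul (volume (Ivl k j))]
    gcongr
    norm_num

/-- tail bound of the quadratic variation -/
theorem tail_QV {R : ℝ} (hR : 0 < R) {a : ℕ → ℤ → ℂ} (ha : IsMart a)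
    (hb : ∀ k j, ‖a k j‖ ≤ 2) (ε : ℕ → ℤ → Prop)
    (hε : ∀ k j, ε k j → ‖a k j‖ ≤ R / 3 ∧ ‖hd a k j‖ ≤ 2 * R / 3) (k m : ℕ) (j : ℤ) (q : ℝ) :
    volume {x ∈ Ivl k j | q ≤ QV a ε k m x} ≤
      ENNReal.ofReal (2 * Real.exp (-(q / (8 * R)))) * volume (Ivl k j) := by
  have h := exp_QV hR ha hb ε hε k m j
  have hmeas : Measurable fun x => ENNReal.ofReal (Real.exp (QV a ε k m x / (8 * R))) :=
    ((measurable_QV a ε k m).div_const _).exp.ennreal_ofReal
  have hM := mul_meas_ge_le_lintegral (μ := volume.restrict (Ivl k j)) hmeas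
    (ENNReal.ofReal (Real.exp (q / (8 * R))))
  have hsub : {x ∈ Ivl k j | q ≤ QV a ε k m x} ⊆
      {x | ENNReal.ofReal (Real.exp (q / (8 * R))) ≤
        ENNReal.ofReal (Real.exp (QV a ε k m x / (8 * R)))} ∩ Ivl k j := by
    rintro x ⟨hx, hx'⟩
    refine ⟨?_, hx⟩
    apply ENNReal.ofReal_le_ofReal
    apply Real.exp_le_exp.2
    gcongr
  have hle : volume {x ∈ Ivl k j | q ≤ QV a ε k m x} ≤
      (volume.restrict (Ivl k j)) {x | ENNReal.ofReal (Real.exp (q / (8 * R))) ≤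
        ENNReal.ofReal (Real.exp (QV a ε k m x / (8 * R)))} := by
    refine (measure_mono hsub).trans ?_
    rw [Measure.restrict_apply (measurableSet_le measurable_const hmeas)]
  have hE : ENNReal.ofReal (Real.exp (q / (8 * R))) *
      ENNReal.ofReal (Real.exp (-(q / (8 * R)))) = 1 := by
    rw [← ENNReal.ofReal_mul (Real.exp_pos _).le, ← Real.exp_add]
    simp
  calc volume {x ∈ Ivl k j | q ≤ QV a ε k m x}
      ≤ _ := hle
    _ = (ENNReal.ofReal (Real.exp (-(q / (8 * R))))) * (ENNReal.ofReal (Real.exp (q / (8 * R))) *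
        (volume.restrict (Ivl k j)) {x | ENNReal.ofReal (Real.exp (q / (8 * R))) ≤
        ENNReal.ofReal (Real.exp (QV a ε k m x / (8 * R)))}) := by
        rw [← mul_assoc, mul_comm (ENNReal.ofReal (Real.exp (-(q / (8 * R))))), hE, one_mul]
    _ ≤ (ENNReal.ofReal (Real.exp (-(q / (8 * R))))) * (2 * volume (Ivl k j)) := by
        exact mul_le_mul' le_rfl (hM.trans h)
    _ = _ := by
        rw [ENNReal.ofReal_mul (by norm_num), ENNReal.ofReal_ofNat]
        ring

/-! ## signed sums -/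

/-- Rademacher function: `+1` on the left child, `-1` on the right child of `I_k(x)` -/
def rad (k : ℕ) (x : ℝ) : ℝ := if Even (fl (k + 1) x) then 1 else -1

theorem rad_of_left {k : ℕ} {j : ℤ} {x : ℝ} (h : x ∈ Ivl (k + 1) (2 * j)) : rad k x = 1 := by
  rw [mem_Ivl] at h
  simp [rad, h]

theorem rad_of_right {k : ℕ} {j : ℤ} {x : ℝ} (h : x ∈ Ivl (k + 1) (2 * j + 1)) :
    rad k x = -1 := by
  rw [mem_Ivl] at h
  rw [rad, h, if_neg (by simp)]

theorem abs_rad (k : ℕ) (x : ℝ) : |rad k x| = 1 := by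
  unfold rad; split_ifs <;> simp

theorem rad_sq (k : ℕ) (x : ℝ) : rad k x ^ 2 = 1 := by
  unfold rad; split_ifs <;> simp

theorem measurable_rad (k : ℕ) : Measurable (rad k) :=
  measurable_fl_comp (k + 1) (fun j => if Even j then (1 : ℝ) else -1)

theorem cosh_le' (s : ℝ) : (Real.exp (s - s ^ 2 / 2) + Real.exp (-s - s ^ 2 / 2)) / 2 ≤ 1 := by
  have h := Real.cosh_le_exp_half_sq s
  rw [Real.cosh_eq] at h
  have e1 : Real.exp (s - s ^ 2 / 2) = Real.exp s * Real.exp (-(s ^ 2 / 2)) := by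
    rw [← Real.exp_add]; congr 1
  have e2 : Real.exp (-s - s ^ 2 / 2) = Real.exp (-s) * Real.exp (-(s ^ 2 / 2)) := by
    rw [← Real.exp_add]; congr 1
  have e3 : Real.exp (s ^ 2 / 2) * Real.exp (-(s ^ 2 / 2)) = 1 := by
    rw [← Real.exp_add]; simp
  rw [e1, e2, ← add_mul]
  calc (Real.exp s + Real.exp (-s)) * Real.exp (-(s ^ 2 / 2)) / 2
      = (Real.exp s + Real.exp (-s)) / 2 * Real.exp (-(s ^ 2 / 2)) := by ring
    _ ≤ Real.exp (s ^ 2 / 2) * Real.exp (-(s ^ 2 / 2)) :=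
        mul_le_mul_of_nonneg_right h (Real.exp_pos _).le
    _ = 1 := e3

/-- exponent of the exponential supermartingale; `v l` lives on the nodes of level `l+1` -/
def Ex (v : ℕ → ℤ → ℝ) (k K : ℕ) (x : ℝ) : ℝ :=
  ∑ l ∈ Finset.Ico k K, (v l (fl (l + 1) x) * rad (l + 1) x - v l (fl (l + 1) x) ^ 2 / 2)

/-- maximal exponential inequality -/
theorem max_exp (v : ℕ → ℤ → ℝ) (d : ℕ) : ∀ (k : ℕ) (j : ℤ) (s : ℝ),
    volume {x ∈ Ivl (k + 1) j | ∃ K, k ≤ K ∧ K ≤ k + d ∧ s < Ex v k K x} ≤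
      ENNReal.ofReal (Real.exp (-s)) * volume (Ivl (k + 1) j) := by
  induction d with
  | zero =>
    intro k j s
    rcases lt_or_ge s 0 with hs | hs
    · calc volume {x ∈ Ivl (k + 1) j | ∃ K, k ≤ K ∧ K ≤ k + 0 ∧ s < Ex v k K x}
          ≤ 1 * volume (Ivl (k + 1) j) := by
            rw [one_mul]; exact measure_mono (sep_subset _ _)
        _ ≤ _ := by
            gcongr
            rw [← ENNReal.ofReal_one]
            apply ENNReal.ofReal_le_ofReal
            exact Real.one_le_exp (by linarith)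
    · have : {x ∈ Ivl (k + 1) j | ∃ K, k ≤ K ∧ K ≤ k + 0 ∧ s < Ex v k K x} = ∅ := by
        ext x
        simp only [mem_ofPred_eq, mem_empty_iff_false, iff_false, not_and, not_exists]
        rintro _ K h1 h2 h3
        have : K = k := by omega
        subst this
        simp [Ex] at h3
        linarith
      rw [this]; simp
  | succ d ih =>
    intro k j s
    rcases lt_or_ge s 0 with hs | hs
    · calc volume {x ∈ Ivl (k + 1) j | ∃ K, k ≤ K ∧ K ≤ k + (d + 1) ∧ s < Ex v k K x}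
          ≤ 1 * volume (Ivl (k + 1) j) := by
            rw [one_mul]; exact measure_mono (sep_subset _ _)
        _ ≤ _ := by
            gcongr
            rw [← ENNReal.ofReal_one]
            apply ENNReal.ofReal_le_ofReal
            exact Real.one_le_exp (by linarith)
    · set w : ℝ := v k j with hw
      set s1 : ℝ := s - (w - w ^ 2 / 2) with hs1
      set s2 : ℝ := s - (-w - w ^ 2 / 2) with hs2
      have hsub : {x ∈ Ivl (k + 1) j | ∃ K, k ≤ K ∧ K ≤ k + (d + 1) ∧ s < Ex v k K x} ⊆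
          {x ∈ Ivl (k + 1 + 1) (2 * j) | ∃ K, k + 1 ≤ K ∧ K ≤ k + 1 + d ∧ s1 < Ex v (k + 1) K x} ∪
          {x ∈ Ivl (k + 1 + 1) (2 * j + 1) | ∃ K, k + 1 ≤ K ∧ K ≤ k + 1 + d ∧
            s2 < Ex v (k + 1) K x} := by
        rintro x ⟨hx, K, h1, h2, h3⟩
        have hKk : k < K := by
          rcases Nat.eq_or_lt_of_le h1 with h | h
          · subst h
            simp [Ex] at h3
            linarith
          · exact h
        have e : Ex v k K x = (v k (fl (k + 1) x) * rad (k + 1) x - v k (fl (k + 1) x) ^ 2 / 2) +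
            Ex v (k + 1) K x := by
          unfold Ex
          rw [Finset.sum_eq_sum_Ico_succ_bot hKk]
        have hfl : fl (k + 1) x = j := mem_Ivl.1 hx
        rw [e, hfl] at h3
        rw [Ivl_split] at hx
        rcases hx with hx | hx
        · left
          refine ⟨hx, K, hKk, by omega, ?_⟩
          rw [rad_of_left hx] at h3
          rw [hs1]
          linarith
        · right
          refine ⟨hx, K, hKk, by omega, ?_⟩
          rw [rad_of_right hx] at h3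
          rw [hs2]
          linarith
      refine (measure_mono hsub).trans ((measure_union_le _ _).trans ?_)
      refine (add_le_add (ih (k + 1) (2 * j) s1) (ih (k + 1) (2 * j + 1) s2)).trans ?_
      rw [volume_Ivl_succ (k + 1) j (2 * j), volume_Ivl_succ (k + 1) j (2 * j + 1), ← add_mul,
        ← ENNReal.ofReal_add (Real.exp_pos _).le (Real.exp_pos _).le, ENNReal.div_eq_inv_mul,
        ← mul_assoc]
      gcongr
      rw [← ENNReal.ofReal_ofNat 2, ← ENNReal.ofReal_inv_of_pos (by norm_num),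
        ← ENNReal.ofReal_mul (by positivity)]
      apply ENNReal.ofReal_le_ofReal
      have hc := cosh_le' w
      have e1 : Real.exp (-s1) = Real.exp (-s) * Real.exp (w - w ^ 2 / 2) := by
        rw [← Real.exp_add]; congr 1; rw [hs1]; ring
      have e2 : Real.exp (-s2) = Real.exp (-s) * Real.exp (-w - w ^ 2 / 2) := by
        rw [← Real.exp_add]; congr 1; rw [hs2]; ring
      rw [e1, e2]
      calc (Real.exp (-s) * Real.exp (w - w ^ 2 / 2) + Real.exp (-s) * Real.exp (-w - w ^ 2 / 2)) *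
            2⁻¹ = Real.exp (-s) * ((Real.exp (w - w ^ 2 / 2) + Real.exp (-w - w ^ 2 / 2)) / 2) := by
            ring
        _ ≤ Real.exp (-s) * 1 := mul_le_mul_of_nonneg_left hc (Real.exp_pos _).le
        _ = _ := mul_one _

open Classical in
/-- the signed sum `∑_{k ≤ l < K} ε_l r_{l+1} Δ_l` -/
def SS (a : ℕ → ℤ → ℂ) (ε : ℕ → ℤ → Prop) (k K : ℕ) (x : ℝ) : ℂ :=
  ∑ l ∈ Finset.Ico k K, if ε l (fl l x) then (rad (l + 1) x : ℂ) * dl a l x else 0

open Classical in
/-- real component in direction `w` of `ε_l Δ_l`, as a function on the nodes of level `l+1` -/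
def vw (a : ℕ → ℤ → ℂ) (ε : ℕ → ℤ → Prop) (w : ℂ) (l : ℕ) (j : ℤ) : ℝ :=
  if ε l (j / 2) then (w * (a (l + 1) j - a l (j / 2))).re else 0

theorem re_SS (a : ℕ → ℤ → ℂ) (ε : ℕ → ℤ → Prop) (w : ℂ) (k K : ℕ) (x : ℝ) :
    (w * SS a ε k K x).re = ∑ l ∈ Finset.Ico k K, vw a ε w l (fl (l + 1) x) * rad (l + 1) x := by
  classical
  unfold SS
  rw [Finset.mul_sum, Complex.re_sum]
  refine Finset.sum_congr rfl fun l _ => ?_
  unfold vw
  rw [← fl_half]
  by_cases h : ε l (fl l x)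
  · rw [if_pos h, if_pos h]
    have : w * ((rad (l + 1) x : ℂ) * dl a l x) = (rad (l + 1) x : ℂ) * (w * dl a l x) := by ring
    rw [this, Complex.re_ofReal_mul, mul_comm]
    rfl
  · rw [if_neg h, if_neg h]; simp

theorem vw_sq_le {a : ℕ → ℤ → ℂ} (ha : IsMart a) (ε : ℕ → ℤ → Prop) {w : ℂ} (hw : ‖w‖ ≤ 1)
    (k K : ℕ) (x : ℝ) :
    ∑ l ∈ Finset.Ico k K, vw a ε w l (fl (l + 1) x) ^ 2 ≤ QV a ε k K x := by
  classical
  unfold QV
  refine Finset.sum_le_sum fun l _ => ?_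
  unfold vw
  rw [← fl_half]
  by_cases h : ε l (fl l x)
  · rw [if_pos h, if_pos h]
    have h1 : |(w * (a (l + 1) (fl (l + 1) x) - a l (fl l x))).re| ≤ ‖hd a l (fl l x)‖ := by
      refine (Complex.abs_re_le_norm _).trans ?_
      rw [norm_mul]
      have h2 := norm_dl ha l x
      unfold dl at h2
      rw [h2]
      nlinarith [norm_nonneg (hd a l (fl l x)), norm_nonneg w]
    rw [← sq_abs]
    gcongr
  · rw [if_neg h, if_neg h]; simp

/-- one-directional tail bound -/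
theorem tail_dir {a : ℕ → ℤ → ℂ} (ha : IsMart a) (ε : ℕ → ℤ → Prop) {w : ℂ} (hw : ‖w‖ ≤ 1)
    {q t : ℝ} (hq : 0 < q) (ht : 0 < t) (k m : ℕ) (j : ℤ) :
    volume {x ∈ Ivl (k + 1) j | QV a ε k m x < q ∧ ∃ K, k ≤ K ∧ K ≤ m ∧
        t < (w * SS a ε k K x).re} ≤
      ENNReal.ofReal (Real.exp (-(t ^ 2 / (2 * q)))) * volume (Ivl (k + 1) j) := by
  classical
  rcases lt_or_ge m k with hmk | hkm
  · have : {x ∈ Ivl (k + 1) j | QV a ε k m x < q ∧ ∃ K, k ≤ K ∧ K ≤ m ∧
        t < (w * SS a ε k K x).re} = ∅ := by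
      ext x
      simp only [mem_ofPred_eq, mem_empty_iff_false, iff_false, not_and, not_exists]
      intro _ _ K h1 h2
      omega
    rw [this]; simp
  obtain ⟨d, rfl⟩ := Nat.exists_eq_add_of_le hkm
  set lam : ℝ := t / q with hlam
  have hlam0 : 0 < lam := by positivity
  have h := max_exp (fun l j => lam * vw a ε w l j) d k j (t ^ 2 / (2 * q))
  refine (measure_mono ?_).trans h
  rintro x ⟨hx, hQ, K, h1, h2, h3⟩
  refine ⟨hx, K, h1, h2, ?_⟩
  have e : Ex (fun l j => lam * vw a ε w l j) k K x =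
      lam * (w * SS a ε k K x).re - lam ^ 2 / 2 *
        ∑ l ∈ Finset.Ico k K, vw a ε w l (fl (l + 1) x) ^ 2 := by
    rw [re_SS]
    unfold Ex
    rw [Finset.sum_sub_distrib, Finset.mul_sum, Finset.mul_sum]
    congr 1
    · refine Finset.sum_congr rfl fun l _ => ?_
      ring
    · refine Finset.sum_congr rfl fun l _ => ?_
      ring
  rw [e]
  have hv := vw_sq_le ha ε hw k K x
  have hm := QV_mono a ε k h2 x
  have hb : ∑ l ∈ Finset.Ico k K, vw a ε w l (fl (l + 1) x) ^ 2 < q := by linarith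
  have e2 : t ^ 2 / (2 * q) = lam * t - lam ^ 2 / 2 * q := by
    rw [hlam]; field_simp; ring
  rw [e2]
  have i1 : lam * t < lam * (w * SS a ε k K x).re := mul_lt_mul_of_pos_left h3 hlam0
  have i2 : lam ^ 2 / 2 * ∑ l ∈ Finset.Ico k K, vw a ε w l (fl (l + 1) x) ^ 2 ≤ lam ^ 2 / 2 * q :=
    mul_le_mul_of_nonneg_left hb.le (by positivity)
  linarith

/-- the same on `Ivl k j` -/
theorem tail_dir' {a : ℕ → ℤ → ℂ} (ha : IsMart a) (ε : ℕ → ℤ → Prop) {w : ℂ} (hw : ‖w‖ ≤ 1)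
    {q t : ℝ} (hq : 0 < q) (ht : 0 < t) (k m : ℕ) (j : ℤ) :
    volume {x ∈ Ivl k j | QV a ε k m x < q ∧ ∃ K, k ≤ K ∧ K ≤ m ∧
        t < (w * SS a ε k K x).re} ≤
      ENNReal.ofReal (Real.exp (-(t ^ 2 / (2 * q)))) * volume (Ivl k j) := by
  have h1 := tail_dir ha ε hw hq ht k m (2 * j)
  have h2 := tail_dir ha ε hw hq ht k m (2 * j + 1)
  have hsub : {x ∈ Ivl k j | QV a ε k m x < q ∧ ∃ K, k ≤ K ∧ K ≤ m ∧
        t < (w * SS a ε k K x).re} ⊆
      {x ∈ Ivl (k + 1) (2 * j) | QV a ε k m x < q ∧ ∃ K, k ≤ K ∧ K ≤ m ∧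
        t < (w * SS a ε k K x).re} ∪
      {x ∈ Ivl (k + 1) (2 * j + 1) | QV a ε k m x < q ∧ ∃ K, k ≤ K ∧ K ≤ m ∧
        t < (w * SS a ε k K x).re} := by
    rintro x ⟨hx, hx'⟩
    rw [Ivl_split] at hx
    rcases hx with hx | hx
    · left; exact ⟨hx, hx'⟩
    · right; exact ⟨hx, hx'⟩
  refine (measure_mono hsub).trans ((measure_union_le _ _).trans ((add_le_add h1 h2).trans ?_))
  rw [volume_Ivl_succ k j (2 * j), volume_Ivl_succ k j (2 * j + 1), ← mul_add, ENNReal.add_halves]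

/-- **M1b**: subexponential tail of the maximal switched signed sum near the origin. -/
theorem tail_SS {R : ℝ} (hR : 0 < R) {a : ℕ → ℤ → ℂ} (ha : IsMart a)
    (hb : ∀ k j, ‖a k j‖ ≤ 2) (ε : ℕ → ℤ → Prop)
    (hε : ∀ k j, ε k j → ‖a k j‖ ≤ R / 3 ∧ ‖hd a k j‖ ≤ 2 * R / 3) (k m : ℕ) (j : ℤ)
    {t : ℝ} (ht : 0 < t) :
    volume {x ∈ Ivl k j | ∃ K, k ≤ K ∧ K ≤ m ∧ t < ‖SS a ε k K x‖} ≤
      ENNReal.ofReal (6 * Real.exp (-(t / (8 * Real.sqrt R)))) * volume (Ivl k j) := by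
  have hsR : 0 < Real.sqrt R := Real.sqrt_pos.2 hR
  set q : ℝ := t * Real.sqrt R with hq
  have hq0 : 0 < q := by positivity
  set p : ℝ := Real.exp (-(t / (8 * Real.sqrt R))) with hp
  have hp0 : 0 < p := Real.exp_pos _
  have e1 : q / (8 * R) = t / (8 * Real.sqrt R) := by
    rw [hq]
    nth_rewrite 2 [← Real.mul_self_sqrt hR.le]
    field_simp
  have e2 : (t / 2) ^ 2 / (2 * q) = t / (8 * Real.sqrt R) := by
    rw [hq]
    field_simp
    ring
  have hQ := tail_QV hR ha hb ε hε k m j q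
  rw [e1] at hQ
  have hdir : ∀ w : ℂ, ‖w‖ ≤ 1 → volume {x ∈ Ivl k j | QV a ε k m x < q ∧ ∃ K, k ≤ K ∧ K ≤ m ∧
        t / 2 < (w * SS a ε k K x).re} ≤ ENNReal.ofReal p * volume (Ivl k j) := by
    intro w hw
    have := tail_dir' ha ε hw hq0 (half_pos ht) k m j
    rwa [e2] at this
  have hsub : {x ∈ Ivl k j | ∃ K, k ≤ K ∧ K ≤ m ∧ t < ‖SS a ε k K x‖} ⊆
      {x ∈ Ivl k j | q ≤ QV a ε k m x} ∪
      (({x ∈ Ivl k j | QV a ε k m x < q ∧ ∃ K, k ≤ K ∧ K ≤ m ∧ t / 2 < (1 * SS a ε k K x).re} ∪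
      {x ∈ Ivl k j | QV a ε k m x < q ∧ ∃ K, k ≤ K ∧ K ≤ m ∧ t / 2 < (-1 * SS a ε k K x).re}) ∪
      ({x ∈ Ivl k j | QV a ε k m x < q ∧ ∃ K, k ≤ K ∧ K ≤ m ∧
          t / 2 < (Complex.I * SS a ε k K x).re} ∪
      {x ∈ Ivl k j | QV a ε k m x < q ∧ ∃ K, k ≤ K ∧ K ≤ m ∧
          t / 2 < (-Complex.I * SS a ε k K x).re})) := by
    rintro x ⟨hx, K, h1, h2, h3⟩
    rcases le_or_gt q (QV a ε k m x) with hh | hh
    · left; exact ⟨hx, hh⟩
    · right
      have h4 := Complex.norm_le_abs_re_add_abs_im (SS a ε k K x)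
      have h5 : t / 2 < |(SS a ε k K x).re| ∨ t / 2 < |(SS a ε k K x).im| := by
        by_contra hcon
        push Not at hcon
        linarith [hcon.1, hcon.2]
      rcases h5 with h5 | h5
      · left
        rcases lt_abs.1 h5 with h6 | h6
        · left
          exact ⟨hx, hh, K, h1, h2, by simpa using h6⟩
        · right
          exact ⟨hx, hh, K, h1, h2, by simpa using h6⟩
      · right
        rcases lt_abs.1 h5 with h6 | h6
        · right
          exact ⟨hx, hh, K, h1, h2, by simpa using h6⟩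
        · left
          exact ⟨hx, hh, K, h1, h2, by simpa using h6⟩
  have c1 := hdir 1 (by simp)
  have c2 := hdir (-1) (by simp)
  have c3 := hdir Complex.I (by simp)
  have c4 := hdir (-Complex.I) (by simp)
  refine (measure_mono hsub).trans ((measure_union_le _ _).trans ?_)
  refine (add_le_add hQ ((measure_union_le _ _).trans (add_le_add
    ((measure_union_le _ _).trans (add_le_add c1 c2))
    ((measure_union_le _ _).trans (add_le_add c3 c4))))).trans ?_
  rw [← add_mul, ← add_mul, ← add_mul, ← ENNReal.ofReal_add hp0.le hp0.le,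
    ← ENNReal.ofReal_add (by positivity) (by positivity),
    ← ENNReal.ofReal_add (by positivity) (by positivity)]
  gcongr
  linarith

/-! ## version with stopping -/

open Classical in
/-- the martingale stopped at the first dead node -/
def st (a : ℕ → ℤ → ℂ) (al : ℕ → ℤ → Prop) : ℕ → ℤ → ℂ
  | 0, j => if al 0 j then a 0 j else 0
  | k + 1, j => if al k (j / 2) then a (k + 1) j else st a al k (j / 2)

theorem st_of_alive {a : ℕ → ℤ → ℂ} {al : ℕ → ℤ → Prop}
    (hcl : ∀ k j, al (k + 1) j → al k (j / 2)) {k : ℕ} {j : ℤ} (h : al k j) :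
    st a al k j = a k j := by
  cases k with
  | zero => simp [st, h]
  | succ k => simp [st, hcl k j h]

theorem isMart_st {a : ℕ → ℤ → ℂ} (ha : IsMart a) {al : ℕ → ℤ → Prop}
    (hcl : ∀ k j, al (k + 1) j → al k (j / 2)) : IsMart (st a al) := by
  intro k j
  have e1 : (2 * j) / 2 = j := by omega
  have e2 : (2 * j + 1) / 2 = j := by omega
  by_cases h : al k j
  · rw [st_of_alive hcl h]
    simp only [st, e1, e2, h, if_true]
    exact ha k j
  · simp only [st, e1, e2, h, if_false]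
    ring

theorem norm_st_le {a : ℕ → ℤ → ℂ} {al : ℕ → ℤ → Prop}
    (hb : ∀ k j, al k j → ‖a k j‖ ≤ 2 ∧ ‖a (k + 1) (2 * j)‖ ≤ 2 ∧ ‖a (k + 1) (2 * j + 1)‖ ≤ 2) :
    ∀ (k : ℕ) (j : ℤ), ‖st a al k j‖ ≤ 2 := by
  intro k
  induction k with
  | zero =>
    intro j
    by_cases h : al 0 j
    · simpa [st, h] using (hb 0 j h).1
    · simp [st, h]
  | succ k ih =>
    intro j
    by_cases h : al k (j / 2)
    · have hj : j = 2 * (j / 2) ∨ j = 2 * (j / 2) + 1 := by omega
      have hh := hb k (j / 2) h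
      simp only [st, h, if_true]
      rcases hj with hj | hj
      · rw [hj]; exact hh.2.1
      · rw [hj]; exact hh.2.2
    · simp only [st, h, if_false]
      exact ih _

theorem hd_st {a : ℕ → ℤ → ℂ} {al : ℕ → ℤ → Prop} {k : ℕ} {j : ℤ} (h : al k j) :
    hd (st a al) k j = hd a k j := by
  have e1 : (2 * j) / 2 = j := by omega
  have e2 : (2 * j + 1) / 2 = j := by omega
  simp only [hd, st, e1, e2, h, if_true]

theorem dl_st {a : ℕ → ℤ → ℂ} {al : ℕ → ℤ → Prop}
    (hcl : ∀ k j, al (k + 1) j → al k (j / 2)) {k : ℕ} {x : ℝ} (h : al k (fl k x)) :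
    dl (st a al) k x = dl a k x := by
  unfold dl
  rw [st_of_alive hcl h]
  have h' : al k (fl (k + 1) x / 2) := by rwa [← fl_half]
  simp only [st, h', if_true]

theorem QV_st {a : ℕ → ℤ → ℂ} {al : ℕ → ℤ → Prop} {ε : ℕ → ℤ → Prop}
    (hea : ∀ k j, ε k j → al k j) (k m : ℕ) (x : ℝ) : QV (st a al) ε k m x = QV a ε k m x := by
  classical
  unfold QV
  refine Finset.sum_congr rfl fun l _ => ?_
  by_cases h : ε l (fl l x)
  · rw [if_pos h, if_pos h, hd_st (hea _ _ h)]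
  · rw [if_neg h, if_neg h]

theorem SS_st {a : ℕ → ℤ → ℂ} {al : ℕ → ℤ → Prop}
    (hcl : ∀ k j, al (k + 1) j → al k (j / 2)) {ε : ℕ → ℤ → Prop}
    (hea : ∀ k j, ε k j → al k j) (k m : ℕ) (x : ℝ) : SS (st a al) ε k m x = SS a ε k m x := by
  classical
  unfold SS
  refine Finset.sum_congr rfl fun l _ => ?_
  by_cases h : ε l (fl l x)
  · rw [if_pos h, if_pos h, dl_st hcl (hea _ _ h)]
  · rw [if_neg h, if_neg h]

/-- **M1a with stopping**: the bound `2` is only needed at alive nodes and their children. -/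
theorem exp_QV_alive {R : ℝ} (hR : 0 < R) {a : ℕ → ℤ → ℂ} (ha : IsMart a) {al : ℕ → ℤ → Prop}
    (hcl : ∀ k j, al (k + 1) j → al k (j / 2))
    (hb : ∀ k j, al k j → ‖a k j‖ ≤ 2 ∧ ‖a (k + 1) (2 * j)‖ ≤ 2 ∧ ‖a (k + 1) (2 * j + 1)‖ ≤ 2)
    {ε : ℕ → ℤ → Prop} (hea : ∀ k j, ε k j → al k j)
    (hε : ∀ k j, ε k j → ‖a k j‖ ≤ R / 3 ∧ ‖hd a k j‖ ≤ 2 * R / 3) (k m : ℕ) (j : ℤ) :
    ∫⁻ x in Ivl k j, ENNReal.ofReal (Real.exp (QV a ε k m x / (8 * R))) ≤
      2 * volume (Ivl k j) := by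
  have h := exp_QV hR (isMart_st ha hcl) (norm_st_le hb) ε (fun k j he => by
    rw [st_of_alive hcl (hea k j he), hd_st (hea k j he)]
    exact hε k j he) k m j
  simpa only [QV_st hea] using h

/-- **M1b with stopping**: the bound `2` is only needed at alive nodes and their children. -/
theorem tail_SS_alive {R : ℝ} (hR : 0 < R) {a : ℕ → ℤ → ℂ} (ha : IsMart a) {al : ℕ → ℤ → Prop}
    (hcl : ∀ k j, al (k + 1) j → al k (j / 2))
    (hb : ∀ k j, al k j → ‖a k j‖ ≤ 2 ∧ ‖a (k + 1) (2 * j)‖ ≤ 2 ∧ ‖a (k + 1) (2 * j + 1)‖ ≤ 2)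
    {ε : ℕ → ℤ → Prop} (hea : ∀ k j, ε k j → al k j)
    (hε : ∀ k j, ε k j → ‖a k j‖ ≤ R / 3 ∧ ‖hd a k j‖ ≤ 2 * R / 3) (k m : ℕ) (j : ℤ)
    {t : ℝ} (ht : 0 < t) :
    volume {x ∈ Ivl k j | ∃ K, k ≤ K ∧ K ≤ m ∧ t < ‖SS a ε k K x‖} ≤
      ENNReal.ofReal (6 * Real.exp (-(t / (8 * Real.sqrt R)))) * volume (Ivl k j) := by
  have h := tail_SS hR (isMart_st ha hcl) (norm_st_le hb) ε (fun k j he => by
    rw [st_of_alive hcl (hea k j he), hd_st (hea k j he)]
    exact hε k j he) k m j ht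
  simpa only [SS_st hcl hea] using h

end Crest.Agent.R100.Mart933
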