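import Crest.Agent.R100.UB2_711

/-!
# R100 / S0132, helper711: from the exponential tail of the run maximal function (`runs_tail`) to
`RunMax` (sup over the runs, measurability, moments).
-/

set_option autoImplicit false

open MeasureTheory Set
open scoped ENNReal NNReal

noncomputable section

namespace Crest.Agent.R100.UB711

open Crest.Agent.R100.Mart933 Crest.Agent.R100.Wide933 Crest.Agent.R100.Hunt933
open Crest.Agent.R100.Run288 Crest.Agent.R100.Tree711

/-! ## exponential tail ⇒ exponential moment ⇒ moments -/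

theorem exp_moment {α : Type*} [MeasurableSpace α] {μ : Measure α} {X : α → ℝ}
    (hX : Measurable X) {K : ℝ} (hK : 0 ≤ K)
    (htail : ∀ n : ℕ, μ {x | (n : ℝ) + 1 < X x} ≤ ENNReal.ofReal (K * Real.exp (-n)) * μ univ) :
    ∫⁻ x, ENNReal.ofReal (Real.exp (X x / 2)) ∂μ ≤ ENNReal.ofReal (2 + 9 * K) * μ univ := by
  classical
  have hms : ∀ n : ℕ, MeasurableSet {x | (n : ℝ) + 1 < X x} := fun n =>
    measurableSet_lt measurable_const hX
  -- pointwise
  have hpt : ∀ x, ENNReal.ofReal (Real.exp (X x / 2)) ≤ ENNReal.ofReal 2 +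
      ∑' n : ℕ, ENNReal.ofReal (Real.exp (((n : ℝ) + 2) / 2)) *
        ({x | (n : ℝ) + 1 < X x} : Set α).indicator 1 x := by
    intro x
    rcases le_or_gt (X x) 1 with h | h
    · refine le_add_of_le_of_nonneg (ENNReal.ofReal_le_ofReal ?_) zero_le
      have h1 : Real.exp (X x / 2) ≤ Real.exp (1 / 2) := Real.exp_le_exp.2 (by linarith)
      have h2 : Real.exp (1 / 2) ^ 2 = Real.exp 1 := by
        rw [← Real.exp_nat_mul]; norm_num
      have h3 := Real.exp_one_lt_d9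
      have h4 : Real.exp (1 / 2) ≤ 2 := by
        by_contra hc
        push Not at hc
        nlinarith
      exact h1.trans h4
    · obtain ⟨n, hn1, hn2⟩ : ∃ n : ℕ, (n : ℝ) + 1 < X x ∧ X x ≤ n + 2 := by
        have h0 : 0 ≤ X x - 1 := by linarith
        have h1 : 0 < ⌈X x - 1⌉₊ := Nat.ceil_pos.2 (by linarith)
        refine ⟨⌈X x - 1⌉₊ - 1, ?_, ?_⟩
        · have h2 : ((⌈X x - 1⌉₊ - 1 : ℕ) : ℝ) = ⌈X x - 1⌉₊ - 1 := by
            rw [Nat.cast_sub (by omega)]; simp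
          have h3 := Nat.ceil_lt_add_one h0
          rw [h2]; linarith
        · have h2 : ((⌈X x - 1⌉₊ - 1 : ℕ) : ℝ) = ⌈X x - 1⌉₊ - 1 := by
            rw [Nat.cast_sub (by omega)]; simp
          have h3 := Nat.le_ceil (X x - 1)
          rw [h2]; linarith
      refine le_add_of_nonneg_of_le zero_le ?_
      refine le_trans ?_ (ENNReal.le_tsum n)
      rw [indicator_of_mem (show x ∈ {x | (n : ℝ) + 1 < X x} from hn1), Pi.one_apply, mul_one]
      exact ENNReal.ofReal_le_ofReal (Real.exp_le_exp.2 (by linarith))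
  have hr : Real.exp (-(1 / 2)) ≤ 2 / 3 := by
    have h1 : (3 : ℝ) / 2 ≤ Real.exp (1 / 2) := by
      have := Real.add_one_le_exp (1 / 2 : ℝ)
      linarith
    rw [Real.exp_neg]
    calc (Real.exp (1 / 2))⁻¹ ≤ (3 / 2 : ℝ)⁻¹ := inv_anti₀ (by norm_num) h1
      _ = 2 / 3 := by norm_num
  have hr0 : 0 ≤ Real.exp (-(1 / 2)) := (Real.exp_pos _).le
  calc ∫⁻ x, ENNReal.ofReal (Real.exp (X x / 2)) ∂μ
      ≤ ∫⁻ x, (ENNReal.ofReal 2 + ∑' n : ℕ, ENNReal.ofReal (Real.exp (((n : ℝ) + 2) / 2)) *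
        ({x | (n : ℝ) + 1 < X x} : Set α).indicator 1 x) ∂μ := lintegral_mono hpt
    _ = ENNReal.ofReal 2 * μ univ + ∑' n : ℕ, ENNReal.ofReal (Real.exp (((n : ℝ) + 2) / 2)) *
        μ {x | (n : ℝ) + 1 < X x} := by
        rw [lintegral_add_left measurable_const, lintegral_const, lintegral_tsum]
        · congr 1
          refine tsum_congr fun n => ?_
          rw [lintegral_const_mul _ (measurable_one.indicator (hms n)),
            lintegral_indicator_one (hms n)]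
        · exact fun n => ((measurable_one.indicator (hms n)).const_mul _).aemeasurable
    _ ≤ ENNReal.ofReal 2 * μ univ + ∑' n : ℕ,
        ENNReal.ofReal (K * Real.exp 1 * Real.exp (-(1 / 2)) ^ n) * μ univ := by
        refine add_le_add le_rfl (ENNReal.tsum_le_tsum fun n => ?_)
        calc ENNReal.ofReal (Real.exp (((n : ℝ) + 2) / 2)) * μ {x | (n : ℝ) + 1 < X x}
            ≤ ENNReal.ofReal (Real.exp (((n : ℝ) + 2) / 2)) *
              (ENNReal.ofReal (K * Real.exp (-n)) * μ univ) := by gcongr; exact htail n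
          _ = _ := by
              rw [← mul_assoc, ← ENNReal.ofReal_mul (Real.exp_pos _).le]
              congr 2
              rw [← Real.exp_nat_mul, mul_left_comm, ← Real.exp_add, mul_assoc, ← Real.exp_add]
              congr 2
              ring
    _ = ENNReal.ofReal 2 * μ univ +
        ENNReal.ofReal (K * Real.exp 1 * (1 - Real.exp (-(1 / 2)))⁻¹) * μ univ := by
        have hsum : Summable fun n : ℕ => K * Real.exp 1 * Real.exp (-(1 / 2)) ^ n :=
          (summable_geometric_of_lt_one hr0 (by linarith)).mul_left _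
        rw [ENNReal.tsum_mul_right, ← ENNReal.ofReal_tsum_of_nonneg (fun n => by positivity) hsum,
          tsum_mul_left, tsum_geometric_of_lt_one hr0 (by linarith)]
    _ ≤ _ := by
        rw [← add_mul, ← ENNReal.ofReal_add (by norm_num)]
        · refine mul_le_mul_left (ENNReal.ofReal_le_ofReal ?_) _
          have h1 : (1 - Real.exp (-(1 / 2)))⁻¹ ≤ 3 := by
            calc (1 - Real.exp (-(1 / 2)))⁻¹ ≤ (1 / 3 : ℝ)⁻¹ := inv_anti₀ (by norm_num) (by linarith)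
              _ = 3 := by norm_num
          have h2 := Real.exp_one_lt_d9
          have h3 : K * Real.exp 1 * (1 - Real.exp (-(1 / 2)))⁻¹ ≤ K * 3 * 3 := by
            have h0 : 0 ≤ (1 - Real.exp (-(1 / 2)))⁻¹ := inv_nonneg.2 (by linarith)
            gcongr
            linarith
          linarith
        · have h0 : 0 ≤ (1 - Real.exp (-(1 / 2)))⁻¹ := inv_nonneg.2 (by linarith)
          positivity

theorem pow_moment {α : Type*} [MeasurableSpace α] {μ : Measure α} {R : α → ℝ}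
    (hR : Measurable R) (hR0 : ∀ x, 0 ≤ R x) {K u : ℝ} (hK : 0 ≤ K) (hu : 0 < u)
    (htail : ∀ n : ℕ, μ {x | u * ((n : ℝ) + 1) < R x} ≤
      ENNReal.ofReal (K * Real.exp (-n)) * μ univ) (q : ℕ) :
    ∫⁻ x, ENNReal.ofReal (R x ^ q) ∂μ ≤
      ENNReal.ofReal ((2 * u * q) ^ q * (2 + 9 * K)) * μ univ := by
  have h1 := exp_moment (μ := μ) (X := fun x => R x / u) (hR.div_const u) hK (fun n => by
    refine le_trans (measure_mono fun x hx => ?_) (htail n)
    have hx' : (n : ℝ) + 1 < R x / u := hx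
    rw [lt_div_iff₀ hu] at hx'
    show u * ((n : ℝ) + 1) < R x
    linarith)
  have hpt : ∀ x, ENNReal.ofReal (R x ^ q) ≤
      ENNReal.ofReal ((2 * u * q) ^ q) * ENNReal.ofReal (Real.exp (R x / u / 2)) := by
    intro x
    rw [← ENNReal.ofReal_mul (by positivity)]
    refine ENNReal.ofReal_le_ofReal ?_
    have h2 : 0 ≤ R x / u / 2 := by have := hR0 x; positivity
    have h3 := Real.pow_div_factorial_le_exp (R x / u / 2) h2 q
    have h4 : ((Nat.factorial q : ℕ) : ℝ) ≤ (q : ℝ) ^ q := by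
      exact_mod_cast Nat.factorial_le_pow q
    have hf : (0 : ℝ) < (Nat.factorial q : ℕ) := by exact_mod_cast Nat.factorial_pos q
    rw [div_le_iff₀ hf] at h3
    have h5 : R x ^ q = (2 * u) ^ q * (R x / u / 2) ^ q := by
      rw [← mul_pow]
      congr 1
      field_simp
    rw [h5, mul_pow (2 * u), mul_assoc]
    refine mul_le_mul_of_nonneg_left ?_ (by positivity)
    calc (R x / u / 2) ^ q ≤ Real.exp (R x / u / 2) * (Nat.factorial q : ℕ) := h3
      _ ≤ Real.exp (R x / u / 2) * (q : ℝ) ^ q := by gcongr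
      _ = _ := by ring
  calc ∫⁻ x, ENNReal.ofReal (R x ^ q) ∂μ
      ≤ ∫⁻ x, ENNReal.ofReal ((2 * u * q) ^ q) * ENNReal.ofReal (Real.exp (R x / u / 2)) ∂μ :=
        lintegral_mono hpt
    _ = ENNReal.ofReal ((2 * u * q) ^ q) * ∫⁻ x, ENNReal.ofReal (Real.exp (R x / u / 2)) ∂μ := by
        rw [lintegral_const_mul' _ _ ENNReal.ofReal_ne_top]
    _ ≤ ENNReal.ofReal ((2 * u * q) ^ q) * (ENNReal.ofReal (2 + 9 * K) * μ univ) := by gcongr
    _ = _ := by
        rw [← mul_assoc, ← ENNReal.ofReal_mul (by positivity)]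

/-! ## the sup over the runs -/

variable {g : ℝ → ℂ} {κ : ℝ → ℕ} {M : ℝ}

/-- the path of `x` is in a run of level `a` on `[k1, k2]` -/
def InRun (g : ℝ → ℂ) (κ : ℝ → ℕ) (w a : ℝ) (k1 k2 : ℕ) (x : ℝ) : Prop :=
  ∀ l, k1 ≤ l → l ≤ k2 → ‖bb g κ w l (fl l x)‖ ≤ 3 * a

theorem measurableSet_InRun (g : ℝ → ℂ) (κ : ℝ → ℕ) (w a : ℝ) (k1 k2 : ℕ) :
    MeasurableSet {x | InRun g κ w a k1 k2 x} := by
  have : {x | InRun g κ w a k1 k2 x} =
      ⋂ l, ⋂ (_ : k1 ≤ l), ⋂ (_ : l ≤ k2), {x | ‖bb g κ w l (fl l x)‖ ≤ 3 * a} := by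
    ext x
    simp only [InRun, mem_ofPred_eq, mem_iInter]
  rw [this]
  refine MeasurableSet.iInter fun l => MeasurableSet.iInter fun _ => MeasurableSet.iInter fun _ =>
    measurableSet_le ?_ measurable_const
  exact (measurable_fl_comp l (bb g κ w l)).norm

theorem measurable_TSx (g : ℝ → ℂ) (κ : ℝ → ℕ) (w : ℝ) (k1 k2 : ℕ) :
    Measurable fun x => TS g κ w k1 k2 x := by
  unfold TS dx
  refine Finset.measurable_sum _ fun l _ => ?_
  exact (Complex.measurable_ofReal.comp (measurable_rad (l + 1))).mul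
    ((measurable_fl_comp (l + 1) (bb g κ w (l + 1))).sub (measurable_fl_comp l (aa g κ w l)))

theorem measurable_XSx (g : ℝ → ℂ) (κ : ℝ → ℕ) (k1 k2 : ℕ) :
    Measurable fun x => XS g κ k1 k2 x := by
  unfold XS
  exact Finset.measurable_sum _ fun l _ => measurable_fl_comp l (zz g κ l)

open Classical in
/-- the run maximal function with values in `ℝ≥0` -/
def Rn (C₀ : ℝ) (g : ℝ → ℂ) (κ : ℝ → ℕ) (w a : ℝ) (k m : ℕ) (x : ℝ) : ℝ≥0 :=
  ((Finset.range (m + 1)) ×ˢ (Finset.range (m + 1))).sup fun p =>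
    if k ≤ p.1 ∧ p.1 ≤ p.2 ∧ InRun g κ w a p.1 p.2 x then
      Real.toNNReal (‖TS g κ w p.1 p.2 x‖ - C₀ * XS g κ p.1 p.2 x) else 0

theorem measurable_Rn (C₀ : ℝ) (g : ℝ → ℂ) (κ : ℝ → ℕ) (w a : ℝ) (k m : ℕ) :
    Measurable (Rn C₀ g κ w a k m) := by
  classical
  have : Rn C₀ g κ w a k m = ((Finset.range (m + 1)) ×ˢ (Finset.range (m + 1))).sup fun p =>
      fun x => if k ≤ p.1 ∧ p.1 ≤ p.2 ∧ InRun g κ w a p.1 p.2 x then
        Real.toNNReal (‖TS g κ w p.1 p.2 x‖ - C₀ * XS g κ p.1 p.2 x) else 0 := by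
    ext x
    rw [Finset.sup_apply]
    rfl
  rw [this]
  refine Finset.sup_induction measurable_const (fun f hf g hg => hf.sup hg) fun p _ => ?_
  refine Measurable.ite ?_ ?_ measurable_const
  · by_cases h : k ≤ p.1 ∧ p.1 ≤ p.2
    · simp only [h.1, h.2, true_and]
      exact measurableSet_InRun g κ w a p.1 p.2
    · have : {x | k ≤ p.1 ∧ p.1 ≤ p.2 ∧ InRun g κ w a p.1 p.2 x} = ∅ := by
        ext x
        simp only [mem_ofPred_eq, mem_empty_iff_false, iff_false]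
        exact fun hc => h ⟨hc.1, hc.2.1⟩
      rw [this]
      exact MeasurableSet.empty
  · exact (((measurable_TSx g κ w p.1 p.2).norm).sub
      ((measurable_XSx g κ p.1 p.2).const_mul C₀)).real_toNNReal

theorem le_Rn {C₀ w a : ℝ} {k m k1 k2 : ℕ} {x : ℝ} (h1 : k ≤ k1) (h2 : k1 ≤ k2) (h3 : k2 ≤ m)
    (hr : InRun g κ w a k1 k2 x) :
    ‖TS g κ w k1 k2 x‖ ≤ Rn C₀ g κ w a k m x + C₀ * XS g κ k1 k2 x := by
  classical
  have h := Finset.le_sup (s := (Finset.range (m + 1)) ×ˢ (Finset.range (m + 1)))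
    (f := fun p : ℕ × ℕ => if k ≤ p.1 ∧ p.1 ≤ p.2 ∧ InRun g κ w a p.1 p.2 x then
      Real.toNNReal (‖TS g κ w p.1 p.2 x‖ - C₀ * XS g κ p.1 p.2 x) else 0)
    (show (k1, k2) ∈ _ from Finset.mem_product.2
      ⟨Finset.mem_range.2 (by simp; omega), Finset.mem_range.2 (by simp; omega)⟩)
  simp only [h1, h2, hr, and_self, if_true] at h
  have h' : ((Real.toNNReal (‖TS g κ w k1 k2 x‖ - C₀ * XS g κ k1 k2 x) : ℝ≥0) : ℝ) ≤
      Rn C₀ g κ w a k m x := by exact_mod_cast h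
  have h4 := Real.le_coe_toNNReal (‖TS g κ w k1 k2 x‖ - C₀ * XS g κ k1 k2 x)
  linarith

theorem exists_of_lt_Rn {C₀ w a s : ℝ} {k m : ℕ} {x : ℝ} (hs : 0 ≤ s)
    (h : s < Rn C₀ g κ w a k m x) : ∃ k1 k2, k ≤ k1 ∧ k1 ≤ k2 ∧ k2 ≤ m ∧
      InRun g κ w a k1 k2 x ∧ s + C₀ * XS g κ k1 k2 x < ‖TS g κ w k1 k2 x‖ := by
  classical
  have h' : Real.toNNReal s < Rn C₀ g κ w a k m x := by
    rw [← NNReal.coe_lt_coe, Real.coe_toNNReal s hs]
    exact h
  unfold Rn at h'
  rw [Finset.lt_sup_iff] at h'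
  obtain ⟨⟨k1, k2⟩, hp, h2⟩ := h'
  rw [Finset.mem_product, Finset.mem_range, Finset.mem_range] at hp
  split_ifs at h2 with hc
  · refine ⟨k1, k2, hc.1, hc.2.1, by have := hp.2; simp at this; omega, hc.2.2, ?_⟩
    have h3 := (Real.toNNReal_lt_toNNReal_iff' ).1 h2
    have := h3.1
    simp only at this
    linarith
  · exact absurd h2 (not_lt.2 zero_le)

/-- **`runs_tail` ⇒ `RunMax`** -/
theorem runMax_of_tail {C₀ c₁ c₂ Q : ℝ} (hc₁ : 0 < c₁) (hc₂ : 0 ≤ c₂) {k₀ m : ℕ}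
    (htail : ∀ a, 0 < a → a ≤ Q → ∀ (k : ℕ) (j : ℤ) (w : ℝ), k₀ ≤ k → ∀ lam : ℝ, 0 ≤ lam →
      volume {x | x ∈ Ivl k j ∧ ∃ k1 k2, k ≤ k1 ∧ k1 ≤ k2 ∧ k2 ≤ m ∧ InRun g κ w a k1 k2 x ∧
        c₁ * a * (lam + 1) + C₀ * XS g κ k1 k2 x < ‖TS g κ w k1 k2 x‖} ≤
      ENNReal.ofReal (c₂ * (Q / a) ^ 2 * Real.exp (-lam)) * volume (Ivl k j)) :
    RunMax C₀ (2 * c₁) (2 + 9 * c₂) 2 g κ Q k₀ m := by
  intro a ha haQ k j w hk
  have hQ : 0 < Q := ha.trans_le haQ
  have hr : 1 ≤ Q / a := (one_le_div ha).2 haQ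
  have hm : Measurable fun x => ((Rn C₀ g κ w a k m x : ℝ≥0) : ℝ) :=
    (measurable_Rn C₀ g κ w a k m).coe_nnreal_real
  refine ⟨fun x => Rn C₀ g κ w a k m x, hm, fun x => (Rn C₀ g κ w a k m x).2,
    fun x _ k' K' h1 h2 h3 h4 => le_Rn h1 h2 h3 h4, fun q hq => ?_⟩
  have h1 := pow_moment (μ := volume.restrict (Ivl k j)) hm
    (fun x => (Rn C₀ g κ w a k m x).2) (K := c₂ * (Q / a) ^ 2) (u := c₁ * a) (by positivity)
    (by positivity) (fun n => by
      rw [Measure.restrict_apply_univ, Measure.restrict_apply (measurableSet_lt measurable_const hm)]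
      refine le_trans (measure_mono ?_) (htail a ha haQ k j w hk n n.cast_nonneg)
      rintro x ⟨hx1, hx2⟩
      exact ⟨hx2, exists_of_lt_Rn (by positivity) hx1⟩) q
  rw [Measure.restrict_apply_univ] at h1
  refine h1.trans (mul_le_mul_left (ENNReal.ofReal_le_ofReal ?_) _)
  have e1 : 2 * (c₁ * a) * (q : ℝ) = 2 * c₁ * q * a := by ring
  rw [e1]
  refine mul_le_mul_of_nonneg_left ?_ (by positivity)
  have : 1 ≤ (Q / a) ^ 2 := one_le_pow₀ hr
  nlinarith

end Crest.Agent.R100.UB711
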