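import Crest.Agent.R100.OneLevelFinal_403
import Crest.Agent.R100.MM_800

/-!
# R100 / S0132, new outer shell, part 1 (helper701): the strong multi-level bound on the circle
implies the a.e. convergence for `L log L`.

`StrongMulti T`: for `|f| ≤ 2^n` and `Mf ≤ 1` on `G`,
`∫_G |S_{N(x)} f(x)| ≤ A (n ∫ |f| + n / (1 + log n)^2)`.
No weak type loss: the pieces `f_j = f 1_{2^{2^j} < |f| ≤ 2^{2^{j+1}}}` are summed in `L¹(G)`.
-/

set_option autoImplicit false

open MeasureTheory Set Filter Topology Metric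
open scoped ENNReal NNReal

noncomputable section

namespace Crest.Agent.R100.Multi701

open Crest.Agent.R100.OneLevel403 Crest.Agent.R100.P2b800

variable {T : ℝ} [hT : Fact (0 < T)]

local notation "μ" => AddCircle.haarAddCircle (T := T)

/-- the error function of the multi-level bound -/
def er (n : ℕ) : ℝ := n / (1 + Real.log n) ^ 2

/-- **strong multi-level bound on the circle** (`= MM800.StrongMulti T`) -/
def StrongMulti (T : ℝ) [hT : Fact (0 < T)] : Prop :=
  ∃ A : ℝ≥0, ∀ (n : ℕ) (_ : 1 ≤ n) (f : AddCircle T → ℂ) (_ : Measurable f)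
    (_ : ∀ x, ‖f x‖ ≤ 2 ^ n) (G : Set (AddCircle T)) (_ : MeasurableSet G) (_ : MaxLe f G)
    (R : ℕ) (N : AddCircle T → ℕ) (_ : Measurable N) (_ : ∀ x, N x ≤ R),
    ∫⁻ x in G, ‖S f (N x) x‖ₑ ∂(AddCircle.haarAddCircle (T := T))
      ≤ A * (n * ∫⁻ x, ‖f x‖ₑ ∂(AddCircle.haarAddCircle (T := T)) + ENNReal.ofReal (er n))

theorem StrongMulti_iff : MM800.StrongMulti T ↔ StrongMulti T := Iff.rfl

lemma er_nonneg (n : ℕ) : 0 ≤ er n := by
  unfold er; positivity

/-- a measurable selection of the largest partial sum among the first ones -/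
def sel (f : AddCircle T → ℂ) : ℕ → AddCircle T → ℕ
  | 0 => fun _ => 0
  | R + 1 => fun x => if ‖S f (sel f R x) x‖ < ‖S f (R + 1) x‖ then R + 1 else sel f R x

lemma measurable_S_comp (f : AddCircle T → ℂ) {N : AddCircle T → ℕ} (hN : Measurable N) :
    Measurable fun x => S f (N x) x := by
  have h3 : Measurable (fun p : AddCircle T × ℕ => S f p.2 p.1) := by
    refine measurable_from_prod_countable_left fun k => ?_
    exact (continuous_S f k).measurable
  have h4 : Measurable (fun x : AddCircle T => (x, N x)) := measurable_id.prodMk hN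
  have h5 := h3.comp h4
  simpa only [Function.comp_def] using h5

lemma sel_le (f : AddCircle T → ℂ) (R : ℕ) (x : AddCircle T) : sel f R x ≤ R := by
  induction R with
  | zero => exact le_rfl
  | succ R ih =>
    unfold sel
    split_ifs with h
    · exact le_rfl
    · exact ih.trans (Nat.le_succ R)

lemma measurable_sel (f : AddCircle T → ℂ) (R : ℕ) : Measurable (sel f R) := by
  induction R with
  | zero => exact measurable_const
  | succ R ih =>
    unfold sel
    refine Measurable.ite ?_ measurable_const ih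
    exact measurableSet_lt (measurable_S_comp f ih).norm (continuous_S f (R + 1)).measurable.norm

lemma S_sel_succ (f : AddCircle T → ℂ) (R : ℕ) (x : AddCircle T) :
    ‖S f (sel f (R + 1) x) x‖ = max ‖S f (sel f R x) x‖ ‖S f (R + 1) x‖ := by
  have : sel f (R + 1) x =
    if ‖S f (sel f R x) x‖ < ‖S f (R + 1) x‖ then R + 1 else sel f R x := rfl
  rw [this]
  split_ifs with h
  · rw [max_eq_right h.le]
  · rw [max_eq_left (not_lt.1 h)]

lemma S_le_sel (f : AddCircle T → ℂ) {N R : ℕ} (h : N ≤ R) (x : AddCircle T) :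
    ‖S f N x‖ ≤ ‖S f (sel f R x) x‖ := by
  induction R with
  | zero =>
    have : N = 0 := by omega
    subst this
    exact le_rfl
  | succ R ih =>
    rw [S_sel_succ]
    rcases Nat.lt_or_ge N (R + 1) with h1 | h1
    · exact (ih (by omega)).trans (le_max_left _ _)
    · have : N = R + 1 := by omega
      subst this
      exact le_max_right _ _

lemma C_eq_iSup_sel (f : AddCircle T → ℂ) (x : AddCircle T) :
    C f x = ⨆ R : ℕ, ‖S f (sel f R x) x‖ₑ := by
  unfold C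
  refine le_antisymm (iSup_le fun N => ?_) (iSup_le fun R => ?_)
  · refine le_trans ?_ (le_iSup (fun R => ‖S f (sel f R x) x‖ₑ) N)
    rw [← ofReal_norm, ← ofReal_norm]
    exact ENNReal.ofReal_le_ofReal (S_le_sel f le_rfl x)
  · exact le_iSup (fun N => ‖S f N x‖ₑ) (sel f R x)

/-- the maximal function form -/
lemma lint_C_le {f : AddCircle T → ℂ} {G : Set (AddCircle T)} {K : ℝ≥0∞}
    (h : ∀ (R : ℕ) (N : AddCircle T → ℕ) (_ : Measurable N) (_ : ∀ x, N x ≤ R),
      ∫⁻ x in G, ‖S f (N x) x‖ₑ ∂μ ≤ K) :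
    ∫⁻ x in G, C f x ∂μ ≤ K := by
  have h1 : ∫⁻ x in G, C f x ∂μ = ∫⁻ x in G, ⨆ R : ℕ, ‖S f (sel f R x) x‖ₑ ∂μ :=
    lintegral_congr fun x => C_eq_iSup_sel f x
  rw [h1, lintegral_iSup (fun R => (measurable_S_comp f (measurable_sel f R)).enorm)]
  · exact iSup_le fun R => h R _ (measurable_sel f R) (sel_le f R)
  · refine monotone_nat_of_le_succ fun R x => ?_
    simp only
    rw [← ofReal_norm, ← ofReal_norm]
    apply ENNReal.ofReal_le_ofReal
    rw [S_sel_succ]
    exact le_max_left _ _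

lemma maxLe_smul {f : AddCircle T → ℂ} {t : ℝ} (ht : 0 < t) {x : AddCircle T}
    (hx : ∀ r : ℝ, 0 < r → ∫⁻ y in closedBall x r, ‖f y‖ₑ ∂μ ≤
      ENNReal.ofReal t⁻¹ * μ (closedBall x r)) (r : ℝ) (hr : 0 < r) :
    ∫⁻ y in closedBall x r, ‖((t : ℝ) : ℂ) * f y‖ₑ ∂μ ≤ μ (closedBall x r) := by
  have hge : ∀ y, ‖((t : ℝ) : ℂ) * f y‖ₑ = ENNReal.ofReal t * ‖f y‖ₑ := by
    intro y
    rw [enorm_mul, ← ofReal_norm ((t : ℝ) : ℂ), Complex.norm_real, Real.norm_of_nonneg ht.le]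
  simp only [hge]
  rw [lintegral_const_mul' _ _ ENNReal.ofReal_ne_top]
  calc ENNReal.ofReal t * ∫⁻ y in closedBall x r, ‖f y‖ₑ ∂μ
      ≤ ENNReal.ofReal t * (ENNReal.ofReal t⁻¹ * μ (closedBall x r)) := by
        gcongr
        exact hx r hr
    _ = μ (closedBall x r) := by
        rw [← mul_assoc, ← ENNReal.ofReal_mul ht.le, mul_inv_cancel₀ ht.ne']
        simp

/-- scaled form of the multi-level bound -/
lemma scaled {A : ℝ≥0} (hA : ∀ (n : ℕ) (_ : 1 ≤ n) (f : AddCircle T → ℂ) (_ : Measurable f)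
    (_ : ∀ x, ‖f x‖ ≤ 2 ^ n) (G : Set (AddCircle T)) (_ : MeasurableSet G) (_ : MaxLe f G)
    (R : ℕ) (N : AddCircle T → ℕ) (_ : Measurable N) (_ : ∀ x, N x ≤ R),
    ∫⁻ x in G, ‖S f (N x) x‖ₑ ∂μ ≤ A * (n * ∫⁻ x, ‖f x‖ₑ ∂μ + ENNReal.ofReal (er n)))
    {n : ℕ} (hn : 1 ≤ n) {f : AddCircle T → ℂ} (hf : Measurable f) {B : ℝ} (hB : ∀ x, ‖f x‖ ≤ B)
    {t : ℝ} (ht : 0 < t) (htB : t * B ≤ 2 ^ n) :
    ∃ G : Set (AddCircle T), MeasurableSet G ∧
      μ Gᶜ ≤ ENNReal.ofReal (5 * (t * ∫ x, ‖f x‖ ∂μ)) ∧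
      ∫⁻ x in G, C f x ∂μ ≤ ENNReal.ofReal (A * (n * ∫ x, ‖f x‖ ∂μ + er n / t)) := by
  set a : ℝ := ∫ x, ‖f x‖ ∂μ with ha
  have hfi : Integrable f μ := integrable_of_bdd hf hB
  have haI : ENNReal.ofReal a = ∫⁻ x, ‖f x‖ₑ ∂μ := ofReal_integral_norm_eq_lintegral_enorm hfi
  have ha0 : 0 ≤ a := integral_nonneg fun _ => norm_nonneg _
  set E' : Set (AddCircle T) := {x | ∃ r : ℝ, 0 < r ∧
    ENNReal.ofReal t⁻¹ * μ (closedBall x r) < ∫⁻ y in closedBall x r, ‖f y‖ₑ ∂μ} with hE'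
  have hw := weak_type f (ENNReal.ofReal t⁻¹)
  rw [← hE', ← haI] at hw
  refine ⟨(toMeasurable μ E')ᶜ, (measurableSet_toMeasurable _ _).compl, ?_, ?_⟩
  · rw [compl_compl, measure_toMeasurable]
    calc μ E' = ENNReal.ofReal t * (ENNReal.ofReal t⁻¹ * μ E') := by
          rw [← mul_assoc, ← ENNReal.ofReal_mul ht.le, mul_inv_cancel₀ ht.ne']
          simp
      _ ≤ ENNReal.ofReal t * (5 * ENNReal.ofReal a) := by gcongr
      _ = ENNReal.ofReal (5 * (t * a)) := by
          rw [show (5 : ℝ≥0∞) = ENNReal.ofReal 5 by norm_num, ← ENNReal.ofReal_mul (by norm_num),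
            ← ENNReal.ofReal_mul ht.le]
          congr 1; ring
  · refine lint_C_le fun R N hN hNR => ?_
    set G : Set (AddCircle T) := (toMeasurable μ E')ᶜ with hG
    have hGm : MeasurableSet G := (measurableSet_toMeasurable _ _).compl
    have hMax : MaxLe (fun y => ((t : ℝ) : ℂ) * f y) G := by
      intro x hx r hr
      refine maxLe_smul ht (fun r hr => ?_) r hr
      by_contra hcon
      exact hx (subset_toMeasurable _ _ ⟨r, hr, not_le.1 hcon⟩)
    have hnorm : ∀ x, ‖((t : ℝ) : ℂ) * f x‖ = t * ‖f x‖ := by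
      intro x
      rw [norm_mul, Complex.norm_real, Real.norm_of_nonneg ht.le]
    have h1 := hA n hn (fun y => ((t : ℝ) : ℂ) * f y) (hf.const_mul _) (fun x => by
      rw [hnorm]
      calc t * ‖f x‖ ≤ t * B := by gcongr; exact hB x
        _ ≤ 2 ^ n := htB) G hGm hMax R N hN hNR
    have e1 : ∀ x, ‖S (fun y => ((t : ℝ) : ℂ) * f y) (N x) x‖ₑ =
        ENNReal.ofReal t * ‖S f (N x) x‖ₑ := by
      intro x
      rw [S_const_smul, enorm_mul, ← ofReal_norm ((t : ℝ) : ℂ), Complex.norm_real,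
        Real.norm_of_nonneg ht.le]
    have e2 : ∀ x, ‖((t : ℝ) : ℂ) * f x‖ₑ = ENNReal.ofReal t * ‖f x‖ₑ := by
      intro x
      rw [enorm_mul, ← ofReal_norm ((t : ℝ) : ℂ), Complex.norm_real, Real.norm_of_nonneg ht.le]
    simp only [e1, e2] at h1
    rw [lintegral_const_mul' _ _ ENNReal.ofReal_ne_top,
      lintegral_const_mul' _ _ ENNReal.ofReal_ne_top, ← haI] at h1
    calc ∫⁻ x in G, ‖S f (N x) x‖ₑ ∂μ
        = ENNReal.ofReal t⁻¹ * (ENNReal.ofReal t * ∫⁻ x in G, ‖S f (N x) x‖ₑ ∂μ) := by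
          rw [← mul_assoc, ← ENNReal.ofReal_mul (inv_pos.2 ht).le, inv_mul_cancel₀ ht.ne']
          simp
      _ ≤ ENNReal.ofReal t⁻¹ * (A * (n * (ENNReal.ofReal t * ENNReal.ofReal a) +
            ENNReal.ofReal (er n))) := by gcongr
      _ = ENNReal.ofReal (A * (n * a + er n / t)) := by
          have her := er_nonneg n
          rw [show (A : ℝ≥0∞) = ENNReal.ofReal (A : ℝ) by simp,
            show (n : ℝ≥0∞) = ENNReal.ofReal (n : ℝ) by simp,
            ← ENNReal.ofReal_mul ht.le, ← ENNReal.ofReal_mul (by positivity),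
            ← ENNReal.ofReal_add (by positivity) her, ← ENNReal.ofReal_mul (by positivity),
            ← ENNReal.ofReal_mul (by positivity)]
          congr 1
          field_simp

/-- weights of the levels -/
def cw (f : AddCircle T → ℂ) (j : ℕ) : ℝ := 2 ^ j * anorm f j + 1 / ((j : ℝ) + 1) ^ 2

lemma cw_nonneg (f : AddCircle T → ℂ) (j : ℕ) : 0 ≤ cw f j := by
  unfold cw
  have := anorm_nonneg f j
  positivity

lemma tsum_cw {f : AddCircle T → ℂ} (hf : Measurable f)
    (hlog : ∫⁻ x, ‖f x‖ₑ * ENNReal.ofReal (Real.log (2 + ‖f x‖)) ∂μ < ⊤) :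
    ∑' j, ENNReal.ofReal (cw f j) ≠ ∞ := by
  have h0 : ∀ j, ENNReal.ofReal (cw f j) = ENNReal.ofReal (2 ^ j * anorm f j) +
      ENNReal.ofReal (1 / ((j : ℝ) + 1) ^ 2) := by
    intro j
    unfold cw
    rw [← ENNReal.ofReal_add (mul_nonneg (by positivity) (anorm_nonneg f j)) (by positivity)]
  simp_rw [h0]
  rw [ENNReal.tsum_add]
  refine ENNReal.add_ne_top.mpr ⟨tsum_anorm hf hlog, ?_⟩
  have hs : Summable fun j : ℕ => 1 / ((j : ℝ) + 1) ^ 2 := by
    have h1 : Summable fun j : ℕ => 1 / (j : ℝ) ^ 2 := Real.summable_one_div_nat_pow.2 (by norm_num)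
    have h2 := (summable_nat_add_iff 1).2 h1
    refine h2.congr fun j => ?_
    push_cast
    rfl
  rw [← ENNReal.ofReal_tsum_of_nonneg (fun j => by positivity) hs]
  exact ENNReal.ofReal_ne_top

lemma er_level (j : ℕ) : er (3 * 2 ^ j) / 2 ^ j ≤ 12 / ((j : ℝ) + 1) ^ 2 := by
  unfold er
  have h1 : ((j : ℝ) + 1) / 2 ≤ 1 + Real.log ((3 * 2 ^ j : ℕ) : ℝ) := by
    push_cast
    rw [Real.log_mul (by norm_num) (by positivity), Real.log_pow]
    have h2 := Real.log_two_gt_d9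
    have h3 : 0 ≤ Real.log 3 := Real.log_nonneg (by norm_num)
    have h4 : (0 : ℝ) ≤ j := Nat.cast_nonneg j
    nlinarith
  have h5 : (0 : ℝ) < ((j : ℝ) + 1) / 2 := by positivity
  have h6 : (((j : ℝ) + 1) / 2) ^ 2 ≤ (1 + Real.log ((3 * 2 ^ j : ℕ) : ℝ)) ^ 2 := by gcongr
  have h7 : (0 : ℝ) < (((j : ℝ) + 1) / 2) ^ 2 := by positivity
  rw [div_div]
  have h8 : (0 : ℝ) < 2 ^ j := by positivity
  calc ((3 * 2 ^ j : ℕ) : ℝ) / ((1 + Real.log ((3 * 2 ^ j : ℕ) : ℝ)) ^ 2 * 2 ^ j)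
      ≤ ((3 * 2 ^ j : ℕ) : ℝ) / ((((j : ℝ) + 1) / 2) ^ 2 * 2 ^ j) := by gcongr
    _ = 12 / ((j : ℝ) + 1) ^ 2 := by
        push_cast
        field_simp
        norm_num

/-- the maximal function of the part above level `j0` is small. -/
lemma measure_C_top_le {A : ℝ≥0} (hA : ∀ (n : ℕ) (_ : 1 ≤ n) (f : AddCircle T → ℂ)
    (_ : Measurable f)
    (_ : ∀ x, ‖f x‖ ≤ 2 ^ n) (G : Set (AddCircle T)) (_ : MeasurableSet G) (_ : MaxLe f G)
    (R : ℕ) (N : AddCircle T → ℕ) (_ : Measurable N) (_ : ∀ x, N x ≤ R),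
    ∫⁻ x in G, ‖S f (N x) x‖ₑ ∂μ ≤ A * (n * ∫⁻ x, ‖f x‖ₑ ∂μ + ENNReal.ofReal (er n)))
    {f : AddCircle T → ℂ} (hf : Measurable f)
    (hlog : ∫⁻ x, ‖f x‖ₑ * ENNReal.ofReal (Real.log (2 + ‖f x‖)) ∂μ < ⊤)
    (j0 : ℕ) (t : ℝ≥0∞) (ht0 : t ≠ 0) (htt : t ≠ ∞) :
    μ {x | t < C (top f j0) x} ≤
      (5 + ENNReal.ofReal (12 * A) / t) * ∑' i, ENNReal.ofReal (cw f (i + j0)) := by
  have hint : ∀ i, Integrable (part f (j0 + i)) μ := fun i =>
    integrable_of_bdd (measurable_part hf _) (norm_part_le f _)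
  have hsum : Summable fun i => ∫ x, ‖part f (j0 + i) x‖ ∂μ := by
    have h1 : Summable fun j => 2 ^ j * anorm f j := by
      have h2 := tsum_anorm hf hlog
      have h3 := ENNReal.summable_toReal h2
      refine h3.congr fun j => ?_
      exact ENNReal.toReal_ofReal (mul_nonneg (by positivity) (anorm_nonneg f j))
    have h4 : Summable fun i => 2 ^ (j0 + i) * anorm f (j0 + i) :=
      h1.comp_injective (add_right_injective j0)
    refine Summable.of_nonneg_of_le (fun i => anorm_nonneg f (j0 + i)) (fun i => ?_) h4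
    have h5 : (1 : ℝ) ≤ 2 ^ (j0 + i) := one_le_pow₀ (by norm_num)
    exact le_mul_of_one_le_left (anorm_nonneg f (j0 + i)) h5
  have hlev : ∀ i, ∃ G : Set (AddCircle T), MeasurableSet G ∧
      μ Gᶜ ≤ 5 * ENNReal.ofReal (cw f (i + j0)) ∧
      ∫⁻ x in G, C (part f (j0 + i)) x ∂μ ≤
        ENNReal.ofReal (12 * A) * ENNReal.ofReal (cw f (i + j0)) := by
    intro i
    set j := j0 + i with hj
    have hji : i + j0 = j := by omega
    rw [hji]
    have hj1 : j ≤ 2 ^ j := Nat.lt_two_pow_self.le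
    obtain ⟨G, hG, h1, h2⟩ := scaled hA (n := 3 * 2 ^ j) (by
      have : 0 < 2 ^ j := by positivity
      omega) (measurable_part hf j) (norm_part_le f j) (t := 2 ^ j) (by positivity) (by
      rw [← pow_add]
      refine pow_le_pow_right₀ (by norm_num) ?_
      rw [pow_succ]; omega)
    change μ Gᶜ ≤ ENNReal.ofReal (5 * (2 ^ j * anorm f j)) at h1
    change _ ≤ ENNReal.ofReal (A * (((3 * 2 ^ j : ℕ) : ℝ) * anorm f j + er (3 * 2 ^ j) / 2 ^ j)) at h2
    have han := anorm_nonneg f j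
    refine ⟨G, hG, h1.trans ?_, h2.trans ?_⟩
    · rw [show (5 : ℝ≥0∞) = ENNReal.ofReal 5 by norm_num, ← ENNReal.ofReal_mul (by norm_num)]
      apply ENNReal.ofReal_le_ofReal
      unfold cw
      have : (0 : ℝ) ≤ 1 / ((j : ℝ) + 1) ^ 2 := by positivity
      linarith
    · rw [← ENNReal.ofReal_mul (by positivity)]
      apply ENNReal.ofReal_le_ofReal
      have h3 := er_level j
      have hA0 : (0 : ℝ) ≤ A := A.coe_nonneg
      calc (A : ℝ) * (((3 * 2 ^ j : ℕ) : ℝ) * anorm f j + er (3 * 2 ^ j) / 2 ^ j)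
          ≤ A * (((3 * 2 ^ j : ℕ) : ℝ) * anorm f j + 12 / ((j : ℝ) + 1) ^ 2) := by gcongr
        _ ≤ A * (12 * (2 ^ j * anorm f j) + 12 / ((j : ℝ) + 1) ^ 2) := by
            refine mul_le_mul_of_nonneg_left (add_le_add ?_ le_rfl) hA0
            push_cast
            have : (0 : ℝ) ≤ 2 ^ j * anorm f j := by positivity
            nlinarith
        _ = 12 * A * cw f j := by unfold cw; ring
  choose G hG hG1 hG2 using hlev
  set H : Set (AddCircle T) := ⋂ i, G i with hH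
  have hHm : MeasurableSet H := MeasurableSet.iInter hG
  set Sc := ∑' i, ENNReal.ofReal (cw f (i + j0)) with hSc
  have hHc : μ Hᶜ ≤ 5 * Sc := by
    rw [hH, compl_iInter]
    refine (measure_iUnion_le _).trans ?_
    rw [hSc, ← ENNReal.tsum_mul_left]
    exact ENNReal.tsum_le_tsum hG1
  have hHi : ∫⁻ x in H, C (top f j0) x ∂μ ≤ ENNReal.ofReal (12 * A) * Sc := by
    calc ∫⁻ x in H, C (top f j0) x ∂μ ≤ ∫⁻ x in H, ∑' i, C (part f (j0 + i)) x ∂μ := by
          refine lintegral_mono fun x => ?_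
          have := C_tsum_le hint hsum x
          have he : (fun y => ∑' i, part f (j0 + i) y) = top f j0 := by
            ext y; exact tsum_part f j0 y
          rwa [he] at this
      _ = ∑' i, ∫⁻ x in H, C (part f (j0 + i)) x ∂μ :=
          lintegral_tsum fun i => (measurable_C _).aemeasurable
      _ ≤ ∑' i, ∫⁻ x in G i, C (part f (j0 + i)) x ∂μ :=
          ENNReal.tsum_le_tsum fun i => lintegral_mono_set (iInter_subset _ i)
      _ ≤ ∑' i, ENNReal.ofReal (12 * A) * ENNReal.ofReal (cw f (i + j0)) :=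
          ENNReal.tsum_le_tsum hG2
      _ = _ := ENNReal.tsum_mul_left
  have hsub : {x | t < C (top f j0) x} ⊆ Hᶜ ∪ {x | t ≤ H.indicator (C (top f j0)) x} := by
    intro x hx
    by_cases hxH : x ∈ H
    · right
      rw [mem_ofPred_eq, indicator_of_mem hxH]
      exact (show t < C (top f j0) x from hx).le
    · exact Or.inl hxH
  refine (measure_mono hsub).trans ((measure_union_le _ _).trans ?_)
  rw [add_mul]
  refine add_le_add hHc ?_
  refine (meas_ge_le_lintegral_div ((measurable_C _).indicator hHm).aemeasurable ht0 htt).trans ?_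
  rw [lintegral_indicator hHm, ENNReal.div_le_iff ht0 htt]
  refine hHi.trans (le_of_eq ?_)
  rw [mul_right_comm, ENNReal.div_mul_cancel ht0 htt]

/-- bounded functions are approximated by trigonometric polynomials with small maximal function -/
lemma exists_good_poly_bdd {A : ℝ≥0} (hA : ∀ (n : ℕ) (_ : 1 ≤ n) (f : AddCircle T → ℂ)
    (_ : Measurable f)
    (_ : ∀ x, ‖f x‖ ≤ 2 ^ n) (G : Set (AddCircle T)) (_ : MeasurableSet G) (_ : MaxLe f G)
    (R : ℕ) (N : AddCircle T → ℕ) (_ : Measurable N) (_ : ∀ x, N x ≤ R),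
    ∫⁻ x in G, ‖S f (N x) x‖ₑ ∂μ ≤ A * (n * ∫⁻ x, ‖f x‖ₑ ∂μ + ENNReal.ofReal (er n)))
    {g : AddCircle T → ℂ} (hg : Measurable g) {R : ℝ} (hR : 0 < R) (hb : ∀ x, ‖g x‖ ≤ R)
    (ε δ : ℝ≥0∞) (hε0 : ε ≠ 0) (hε : ε ≠ ∞) (hδ0 : δ ≠ 0) :
    ∃ P : C(AddCircle T, ℂ), P ∈ Submodule.span ℂ (range (@fourier T)) ∧
      μ {x | ε < C (fun y => g y - P y) x} ≤ δ ∧
      ∫⁻ x, ‖g x - P x‖ₑ ∂μ ≤ δ := by
  set M : ℝ := 2 * R + 1 with hM
  have hMpos : 0 < M := by positivity
  have h01 : Tendsto (fun k : ℕ => (k : ℝ) * (1 / 2) ^ k) atTop (𝓝 0) :=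
    tendsto_self_mul_const_pow_of_lt_one (by norm_num) (by norm_num)
  have h02 : Tendsto (fun k : ℕ => ((1 / 2 : ℝ)) ^ k) atTop (𝓝 0) :=
    tendsto_pow_atTop_nhds_zero_of_lt_one (by norm_num) (by norm_num)
  have hlim : Tendsto (fun k : ℕ => (2 * A * M * (k * (1 / 2) ^ k) : ℝ)) atTop (𝓝 0) := by
    simpa using h01.const_mul (2 * A * M : ℝ)
  have hlim1 : Tendsto (fun k : ℕ => (5 * (1 / 2) ^ k : ℝ)) atTop (𝓝 0) := by
    simpa using h02.const_mul (5 : ℝ)
  have hlim2 : Tendsto (fun k : ℕ => (M * (1 / 2) ^ k : ℝ)) atTop (𝓝 0) := by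
    simpa using h02.const_mul M
  have ev : ∀ (u : ℕ → ℝ) (c : ℝ≥0∞), c ≠ 0 → Tendsto u atTop (𝓝 0) →
      ∀ᶠ k in atTop, ENNReal.ofReal (u k) ≤ c := by
    intro u c hc hu
    have h := (ENNReal.tendsto_ofReal hu)
    rw [ENNReal.ofReal_zero] at h
    exact (h.eventually (gt_mem_nhds (pos_iff_ne_zero.mpr hc))).mono fun k hk => le_of_lt hk
  have hδ2 : δ / 2 ≠ 0 := ENNReal.div_ne_zero.mpr ⟨hδ0, by norm_num⟩
  have hδε : δ / 2 * ε ≠ 0 := mul_ne_zero hδ2 hε0
  obtain ⟨k, hk1, hk2, hk3, hk4⟩ := ((ev _ _ hδε hlim).and ((ev _ _ hδ2 hlim1).and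
    ((ev _ _ hδ0 hlim2).and (eventually_ge_atTop 1)))).exists
  set η : ℝ := M * (1 / 4) ^ k with hη
  have hηpos : 0 < η := by positivity
  have hηle : η ≤ M * (1 / 2) ^ k := by
    rw [hη]
    gcongr
    norm_num
  obtain ⟨P, hP, hPb, hPi⟩ := exists_trig_approx hg hR hb hηpos
  have hmeas : Measurable fun y => g y - P y := hg.sub P.continuous.measurable
  refine ⟨P, hP, ?_, ?_⟩
  · set h : AddCircle T → ℂ := fun y => g y - P y with hh
    have h2k : (0 : ℝ) < 2 ^ k := by positivity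
    obtain ⟨G, hG, hG1, hG2⟩ := scaled hA (n := k) hk4 hmeas (B := M) (fun x => hPb x)
      (t := 2 ^ k / M) (by positivity) (by
        rw [div_mul_cancel₀ _ hMpos.ne'])
    have ha0 : 0 ≤ ∫ x, ‖g x - P x‖ ∂μ := integral_nonneg fun _ => norm_nonneg _
    have e24 : (2 : ℝ) ^ k * (1 / 4) ^ k = (1 / 2) ^ k := by
      rw [← mul_pow]; norm_num
    have hc1 : μ Gᶜ ≤ δ / 2 := by
      refine hG1.trans ((ENNReal.ofReal_le_ofReal ?_).trans hk2)
      calc 5 * (2 ^ k / M * ∫ x, ‖g x - P x‖ ∂μ) ≤ 5 * (2 ^ k / M * η) := by gcongr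
        _ = 5 * (2 ^ k * (1 / 4) ^ k) := by rw [hη]; field_simp
        _ = 5 * (1 / 2) ^ k := by rw [e24]
    have hk0 : (1 : ℝ) ≤ k := by exact_mod_cast hk4
    have herk : er k ≤ k := by
      unfold er
      have hl : 0 ≤ Real.log k := Real.log_nonneg hk0
      refine div_le_self (by linarith) ?_
      nlinarith
    have hc2 : ∫⁻ x in G, C h x ∂μ ≤ δ / 2 * ε := by
      refine hG2.trans ((ENNReal.ofReal_le_ofReal ?_).trans hk1)
      have hA0 : (0 : ℝ) ≤ A := A.coe_nonneg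
      calc (A : ℝ) * (k * (∫ x, ‖g x - P x‖ ∂μ) + er k / (2 ^ k / M))
          ≤ A * (k * (M * (1 / 2) ^ k) + k / (2 ^ k / M)) := by
            gcongr
            exact hPi.trans hηle
        _ = 2 * A * M * (k * (1 / 2) ^ k) := by
            have : (k : ℝ) / (2 ^ k / M) = M * (k * (1 / 2) ^ k) := by
              rw [one_div_pow]; field_simp
            rw [this]; ring
    have hsub : {x | ε < C h x} ⊆ Gᶜ ∪ {x | ε ≤ G.indicator (C h) x} := by
      intro x hx
      by_cases hxG : x ∈ G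
      · right
        rw [mem_ofPred_eq, indicator_of_mem hxG]
        exact (show ε < C h x from hx).le
      · exact Or.inl hxG
    refine (measure_mono hsub).trans ((measure_union_le _ _).trans ?_)
    calc _ ≤ δ / 2 + δ / 2 := by
          refine add_le_add hc1 ?_
          refine (meas_ge_le_lintegral_div ((measurable_C _).indicator hG).aemeasurable
            hε0 hε).trans ?_
          rw [lintegral_indicator hG, ENNReal.div_le_iff hε0 hε]
          exact hc2
      _ = δ := ENNReal.add_halves δ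
  · refine le_trans (le_of_eq ?_) ((ENNReal.ofReal_le_ofReal (hPi.trans hηle)).trans hk3)
    rw [ofReal_integral_norm_eq_lintegral_enorm (integrable_of_bdd hmeas hPb)]

lemma lintegral_top_le {f : AddCircle T → ℂ} (hf : Measurable f) (j0 : ℕ) :
    ∫⁻ x, ‖top f j0 x‖ₑ ∂μ ≤ ∑' i, ENNReal.ofReal (cw f (i + j0)) := by
  calc ∫⁻ x, ‖top f j0 x‖ₑ ∂μ
      ≤ ∫⁻ x, ∑' i, ‖part f (j0 + i) x‖ₑ ∂μ := by
        refine lintegral_mono fun x => ?_
        rw [← tsum_part]
        exact enorm_tsum_le_tsum_enorm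
    _ = ∑' i, ∫⁻ x, ‖part f (j0 + i) x‖ₑ ∂μ :=
        lintegral_tsum fun i => (measurable_part hf _).enorm.aemeasurable
    _ ≤ ∑' i, ENNReal.ofReal (cw f (i + j0)) := by
        refine ENNReal.tsum_le_tsum fun i => ?_
        rw [← ofReal_integral_norm_eq_lintegral_enorm (integrable_of_bdd (measurable_part hf _)
          (norm_part_le f _))]
        refine ENNReal.ofReal_le_ofReal ?_
        change anorm f (j0 + i) ≤ _
        unfold cw
        rw [add_comm i j0]
        have ha := anorm_nonneg f (j0 + i)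
        have h5 : (1 : ℝ) ≤ 2 ^ (j0 + i) := one_le_pow₀ (by norm_num)
        have h6 : (0 : ℝ) ≤ 1 / (((j0 + i : ℕ) : ℝ) + 1) ^ 2 := by positivity
        nlinarith

/-- `L log L` functions are approximated by trigonometric polynomials with small maximal
function -/
lemma exists_good_poly (hSM : StrongMulti T) {f : AddCircle T → ℂ} (hf : Measurable f)
    (hlog : ∫⁻ x, ‖f x‖ₑ * ENNReal.ofReal (Real.log (2 + ‖f x‖)) ∂μ < ⊤)
    (hfi : Integrable f μ)
    (ε δ : ℝ≥0∞) (hε0 : ε ≠ 0) (hε : ε ≠ ∞) (hδ0 : δ ≠ 0) (hδ : δ ≠ ∞) :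
    ∃ P : C(AddCircle T, ℂ), P ∈ Submodule.span ℂ (range (@fourier T)) ∧
      μ {x | ε < C (fun y => f y - P y) x} ≤ δ ∧
      μ {x | ε ≤ ‖f x - P x‖ₑ} ≤ δ := by
  obtain ⟨A, hA⟩ := hSM
  have hcc := tsum_cw hf hlog
  have hε2 : ε / 2 ≠ 0 := ENNReal.div_ne_zero.mpr ⟨hε0, by norm_num⟩
  have hε2t : ε / 2 ≠ ∞ := ENNReal.div_ne_top hε (by norm_num)
  have hδ2 : δ / 2 ≠ 0 := ENNReal.div_ne_zero.mpr ⟨hδ0, by norm_num⟩
  have hδ2t : δ / 2 ≠ ∞ := ENNReal.div_ne_top hδ (by norm_num)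
  -- choose the level
  have htail := ENNReal.tendsto_sum_nat_add (fun j => ENNReal.ofReal (cw f j)) hcc
  have hKt : (5 : ℝ≥0∞) + ENNReal.ofReal (12 * A) / (ε / 2) ≠ ⊤ :=
    ENNReal.add_ne_top.2 ⟨by norm_num, ENNReal.div_ne_top ENNReal.ofReal_ne_top hε2⟩
  have htail' : Tendsto (fun j0 => ((5 : ℝ≥0∞) + ENNReal.ofReal (12 * A) / (ε / 2)) *
      ∑' i, ENNReal.ofReal (cw f (i + j0))) atTop (𝓝 0) := by
    have := ENNReal.Tendsto.const_mul (a := (5 : ℝ≥0∞) + ENNReal.ofReal (12 * A) / (ε / 2)) htail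
      (Or.inr hKt)
    simpa only [mul_zero] using this
  have hpos1 : 0 < (δ / 2) * (ε / 2) := pos_iff_ne_zero.mpr (mul_ne_zero hδ2 hε2)
  obtain ⟨j0, hj1, hj2⟩ := ((htail'.eventually (gt_mem_nhds (pos_iff_ne_zero.2 hδ2))).and
    (htail.eventually (gt_mem_nhds hpos1))).exists
  set R : ℝ := 2 ^ (2 ^ j0) with hR
  have hRpos : 0 < R := by positivity
  set s : Set (AddCircle T) := {x | R < ‖f x‖} with hs
  have hsm : MeasurableSet s := measurableSet_lt measurable_const hf.norm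
  set g : AddCircle T → ℂ := sᶜ.indicator f with hg
  have hgm : Measurable g := hf.indicator hsm.compl
  have hgb : ∀ x, ‖g x‖ ≤ R := by
    intro x
    rw [hg]
    by_cases hx : x ∈ s
    · rw [indicator_of_notMem (by simpa using hx), norm_zero]; exact hRpos.le
    · rw [indicator_of_mem (by simpa using hx)]
      exact not_lt.mp hx
  have hfg : ∀ x, f x = top f j0 x + g x := by
    intro x
    have := congrFun (indicator_self_add_compl s f) x
    simpa [top, hg, hs, hR] using this.symm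
  set δ' : ℝ≥0∞ := min (δ / 2) ((δ / 2) * (ε / 2)) with hδ'
  have hδ'0 : δ' ≠ 0 := by
    rw [hδ']
    exact (lt_min (pos_iff_ne_zero.mpr hδ2) hpos1).ne'
  obtain ⟨P, hP, hP1, hP2⟩ := exists_good_poly_bdd hA hgm hRpos hgb (ε / 2) δ' hε2 hε2t hδ'0
  have htopi : Integrable (top f j0) μ := hfi.indicator hsm
  have hgi : Integrable g μ := integrable_of_bdd hgm hgb
  have hPi : Integrable (fun x => P x) μ :=
    P.continuous.integrable_of_hasCompactSupport (HasCompactSupport.of_compactSpace _)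
  refine ⟨P, hP, ?_, ?_⟩
  · have hsub : {x | ε < C (fun y => f y - P y) x} ⊆
        {x | ε / 2 < C (top f j0) x} ∪ {x | ε / 2 < C (fun y => g y - P y) x} := by
      intro x hx
      rw [mem_ofPred_eq] at hx
      by_contra hcon
      rw [mem_union, not_or, mem_ofPred_eq, mem_ofPred_eq, not_lt, not_lt] at hcon
      have h1 := C_add_le htopi (hgi.sub hPi) x
      have h2 : (fun y => top f j0 y + (g - fun x => P x) y) = fun y => f y - P y := by
        ext y
        rw [hfg y]; simp only [Pi.sub_apply]; ring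
      rw [h2] at h1
      have h3 : C (fun y => f y - P y) x ≤ ε / 2 + ε / 2 := h1.trans (add_le_add hcon.1 hcon.2)
      rw [ENNReal.add_halves] at h3
      exact absurd hx (not_lt.mpr h3)
    refine (measure_mono hsub).trans ((measure_union_le _ _).trans ?_)
    calc _ ≤ δ / 2 + δ / 2 := by
          refine add_le_add ?_ (hP1.trans (min_le_left _ _))
          exact (measure_C_top_le hA hf hlog j0 (ε / 2) hε2 hε2t).trans hj1.le
      _ = δ := ENNReal.add_halves δ
  · have hsub : {x | ε ≤ ‖f x - P x‖ₑ} ⊆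
        {x | ε / 2 ≤ ‖top f j0 x‖ₑ} ∪ {x | ε / 2 ≤ ‖g x - P x‖ₑ} := by
      intro x hx
      rw [mem_ofPred_eq] at hx
      by_contra hcon
      rw [mem_union, not_or, mem_ofPred_eq, mem_ofPred_eq, not_le, not_le] at hcon
      have h1 : ‖f x - P x‖ₑ ≤ ‖top f j0 x‖ₑ + ‖g x - P x‖ₑ := by
        have : f x - P x = top f j0 x + (g x - P x) := by rw [hfg x]; ring
        rw [this]; exact enorm_add_le _ _
      have h3 : ‖f x - P x‖ₑ < ε / 2 + ε / 2 := h1.trans_lt (ENNReal.add_lt_add hcon.1 hcon.2)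
      rw [ENNReal.add_halves] at h3
      exact absurd hx (not_le.mpr h3)
    refine (measure_mono hsub).trans ((measure_union_le _ _).trans ?_)
    have htm : Measurable (top f j0) := hf.indicator hsm
    calc _ ≤ δ / 2 + δ / 2 := by
          refine add_le_add ?_ ?_
          · refine (meas_ge_le_lintegral_div htm.enorm.aemeasurable hε2 hε2t).trans ?_
            rw [ENNReal.div_le_iff hε2 hε2t]
            exact (lintegral_top_le hf j0).trans hj2.le
          · refine (meas_ge_le_lintegral_div (hgm.sub P.continuous.measurable).enorm.aemeasurable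
              hε2 hε2t).trans ?_
            rw [ENNReal.div_le_iff hε2 hε2t]
            exact hP2.trans (min_le_right _ _)
      _ = δ := ENNReal.add_halves δ

/-- a.e. convergence, measurable version. -/
theorem ae_tendsto_of_StrongMulti' (hSM : StrongMulti T) {f : AddCircle T → ℂ} (hf : Measurable f)
    (hlog : ∫⁻ x, ‖f x‖ₑ * ENNReal.ofReal (Real.log (2 + ‖f x‖)) ∂μ < ⊤) :
    ∀ᵐ x ∂μ, Tendsto (fun N : ℕ => S f N x) atTop (𝓝 (f x)) := by
  have hfi : Integrable f μ := by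
    refine ⟨hf.aestronglyMeasurable, ?_⟩
    have hl2 : (0 : ℝ) < Real.log 2 := Real.log_pos (by norm_num)
    have h1 : ENNReal.ofReal (Real.log 2) * ∫⁻ x, ‖f x‖ₑ ∂μ < ⊤ := by
      rw [← lintegral_const_mul _ hf.enorm]
      refine lt_of_le_of_lt (lintegral_mono fun x => ?_) hlog
      rw [mul_comm]
      gcongr
      linarith [norm_nonneg (f x)]
    rw [HasFiniteIntegral]
    by_contra hcon
    rw [not_lt, top_le_iff] at hcon
    rw [hcon, ENNReal.mul_top (by simpa using hl2)] at h1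
    exact lt_irrefl _ h1
  have key : ∀ m : ℕ, μ {x | ∃ᶠ N : ℕ in atTop,
      ((m : ℝ≥0∞) + 1)⁻¹ + ((m : ℝ≥0∞) + 1)⁻¹ < ‖S f N x - f x‖ₑ} = 0 := by
    intro m
    set ε : ℝ≥0∞ := ((m : ℝ≥0∞) + 1)⁻¹ with hε
    have hε0 : ε ≠ 0 := ENNReal.inv_ne_zero.mpr (by
      exact ENNReal.add_ne_top.mpr ⟨ENNReal.natCast_ne_top m, ENNReal.one_ne_top⟩)
    have hεt : ε ≠ ∞ := ENNReal.inv_ne_top.mpr (by simp)
    have hle : ∀ δ : ℝ≥0∞, δ ≠ 0 → δ ≠ ∞ → μ {x | ∃ᶠ N : ℕ in atTop,
        ε + ε < ‖S f N x - f x‖ₑ} ≤ δ + δ := by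
      intro δ hδ0 hδ
      obtain ⟨P, hP, hP1, hP2⟩ := exists_good_poly hSM hf hlog hfi ε δ hε0 hεt hδ0 hδ
      refine (measure_mono ?_).trans ((measure_union_le _ _).trans (add_le_add hP1 hP2))
      intro x hx
      rw [mem_ofPred_eq] at hx
      by_contra hcon
      rw [mem_union, not_or, mem_ofPred_eq, mem_ofPred_eq, not_lt, not_le] at hcon
      refine hx ?_
      filter_upwards [S_span hP] with N hN
      rw [not_lt]
      have hPi : Integrable (fun x => P x) μ :=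
        P.continuous.integrable_of_hasCompactSupport (HasCompactSupport.of_compactSpace _)
      have h1 : S f N x = S (fun y => f y - P y) N x + P x := by
        have h2 := S_add (hfi.sub hPi) hPi N x
        have h3 : (fun y => (f - fun x => P x) y + P y) = f := by
          ext y; simp
        rw [h3] at h2
        rw [h2]
        congr 1
        exact hN x
      have h4 : S f N x - f x = S (fun y => f y - P y) N x - (f x - P x) := by rw [h1]; ring
      rw [h4]
      calc ‖S (fun y => f y - P y) N x - (f x - P x)‖ₑ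
          ≤ ‖S (fun y => f y - P y) N x‖ₑ + ‖f x - P x‖ₑ := enorm_sub_le
        _ ≤ ε + ε := add_le_add ((le_iSup (fun N => ‖S (fun y => f y - P y) N x‖ₑ) N).trans
            hcon.1) hcon.2.le
    refine le_antisymm (ENNReal.le_of_forall_pos_le_add fun r hr _ => ?_) bot_le
    have := hle (r / 2 : ℝ≥0) (by
      have : (0 : ℝ≥0) < r / 2 := by positivity
      exact_mod_cast this.ne') ENNReal.coe_ne_top
    rw [zero_add]
    refine this.trans (le_of_eq ?_)
    rw [← ENNReal.coe_add, add_halves]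
  have hall : ∀ᵐ x ∂μ, ∀ m : ℕ, ¬ ∃ᶠ N : ℕ in atTop,
      ((m : ℝ≥0∞) + 1)⁻¹ + ((m : ℝ≥0∞) + 1)⁻¹ < ‖S f N x - f x‖ₑ := by
    rw [ae_all_iff]
    intro m
    exact measure_eq_zero_iff_ae_notMem.mp (key m)
  filter_upwards [hall] with x hx
  rw [EMetric.tendsto_nhds]
  intro r hr
  obtain ⟨m, hm⟩ := ENNReal.exists_inv_nat_lt (a := r / 2)
    (ENNReal.div_ne_zero.mpr ⟨hr.ne', by norm_num⟩)
  have h1 := hx m
  rw [not_frequently] at h1
  filter_upwards [h1] with N hN
  rw [not_lt] at hN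
  rw [edist_eq_enorm_sub]
  have h2 : ((m : ℝ≥0∞) + 1)⁻¹ < r / 2 := by
    refine lt_of_le_of_lt ?_ hm
    exact ENNReal.inv_le_inv.mpr le_self_add
  calc ‖S f N x - f x‖ₑ ≤ ((m : ℝ≥0∞) + 1)⁻¹ + ((m : ℝ≥0∞) + 1)⁻¹ := hN
    _ < r / 2 + r / 2 := ENNReal.add_lt_add h2 h2
    _ = r := ENNReal.add_halves r

/-- **SH1**: the conclusion of S0132 from the strong multi-level bound. -/
theorem result_of_StrongMulti (hSM' : MM800.StrongMulti T) (f : AddCircle T → ℂ)
    (hf : AEStronglyMeasurable f μ)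
    (hlog : ∫⁻ x, ‖f x‖ₑ * ENNReal.ofReal (Real.log (2 + ‖f x‖)) ∂μ < ⊤) :
    ∀ᵐ x ∂μ, Tendsto
      (fun N : ℕ => ∑ k ∈ Finset.Icc (-(N : ℤ)) N, fourierCoeff f k • fourier k x)
      atTop (𝓝 (f x)) := by
  have hSM : StrongMulti T := StrongMulti_iff.1 hSM'
  have hae := hf.ae_eq_mk
  have hm : Measurable (hf.mk f) := hf.stronglyMeasurable_mk.measurable
  have hlog' : ∫⁻ x, ‖hf.mk f x‖ₑ * ENNReal.ofReal (Real.log (2 + ‖hf.mk f x‖)) ∂μ < ⊤ := by
    refine lt_of_le_of_lt (le_of_eq ?_) hlog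
    refine lintegral_congr_ae ?_
    filter_upwards [hae] with x hx
    rw [hx]
  filter_upwards [ae_tendsto_of_StrongMulti' hSM hm hlog', hae] with x hx hfx
  rw [hfx]
  have hco : fourierCoeff f = fourierCoeff (hf.mk f) := fourierCoeff_congr_ae hae
  simp_rw [hco]
  exact hx

/-- **the whole shell**: the conclusion of S0132 from the multi-level model bound. -/
theorem result_of_ModelMulti (hM : MM800.ModelMulti) (f : AddCircle T → ℂ)
    (hf : AEStronglyMeasurable f μ)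
    (hlog : ∫⁻ x, ‖f x‖ₑ * ENNReal.ofReal (Real.log (2 + ‖f x‖)) ∂μ < ⊤) :
    ∀ᵐ x ∂μ, Tendsto
      (fun N : ℕ => ∑ k ∈ Finset.Icc (-(N : ℤ)) N, fourierCoeff f k • fourier k x)
      atTop (𝓝 (f x)) :=
  result_of_StrongMulti (MM800.StrongMulti_of_ModelMulti hM) f hf hlog

end Crest.Agent.R100.Multi701
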