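import Mathlib.Analysis.SpecialFunctions.Pow.Asymptotics
import Mathlib.Analysis.SpecialFunctions.Log.Basic
import Mathlib.Analysis.Complex.ExponentialBounds
import Mathlib.Analysis.SpecialFunctions.Pow.Real

/-!
# R100 / S0132, helper801: choice of the parameters (pure real analysis)

`p = 2 h`, `v = C2 p`, `V = (6 C2 + 1) n`, `mu = n ^ (-1/200)`, `bmin = n ^ (-1/10)`,
`h = ⌊50 n / log n⌋`.
-/

set_option autoImplicit false

open Filter

namespace Crest.Agent.R100.Num801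

/-- the growth facts used below -/
theorem growth (K : ℝ) : ∀ᶠ x : ℝ in atTop, 600 ≤ Real.log x ∧ Real.log x ≤ x ^ (1 / 10 : ℝ) ∧
    K ≤ x ^ (1 / 10 : ℝ) ∧ 1000 ≤ x := by
  have h1 : ∀ᶠ x : ℝ in atTop, 600 ≤ Real.log x :=
    Real.tendsto_log_atTop.eventually (eventually_ge_atTop 600)
  have h2 : ∀ᶠ x : ℝ in atTop, ‖Real.log x‖ ≤ 1 * ‖x ^ (1 / 10 : ℝ)‖ :=
    (isLittleO_log_rpow_atTop (by norm_num : (0 : ℝ) < 1 / 10)).bound one_pos
  have h3 : ∀ᶠ x : ℝ in atTop, K ≤ x ^ (1 / 10 : ℝ) :=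
    (tendsto_rpow_atTop (by norm_num : (0 : ℝ) < 1 / 10)).eventually (eventually_ge_atTop K)
  filter_upwards [h1, h2, h3, eventually_ge_atTop (1000 : ℝ)] with x a b c d
  refine ⟨a, ?_, c, d⟩
  rw [one_mul, Real.norm_eq_abs, Real.norm_eq_abs, abs_of_nonneg (by linarith),
    abs_of_nonneg (Real.rpow_nonneg (by linarith) _)] at b
  exact b

/-- the list of numeric side conditions -/
structure Good (C2 K : ℝ) (κ n h : ℕ) (p v V mu bmin lam : ℝ) : Prop where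
  two_le : 2 ≤ h
  κ_le : κ ≤ h
  p_eq : p = 2 * h
  v_eq : v = C2 * p
  V_eq : V = (6 * C2 + 1) * n
  mu_eq : mu = (n : ℝ) ^ (-(1 / 200) : ℝ)
  bmin_eq : bmin = (n : ℝ) ^ (-(1 / 10) : ℝ)
  lam_eq : lam = mu / 4 * Real.exp (-(V + 3) / v)
  four_le_p : 4 ≤ p
  p_le_v : p ≤ v
  V_pos : 0 < V
  mu_pos : 0 < mu
  mu_le : mu ≤ 1
  bmin_pos : 0 < bmin
  bmin_le : bmin ≤ 1
  lam_pos : 0 < lam
  hnum : v * (4 + Real.log (4 / mu)) + v / p * (n + 3) + 2 < V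
  hnum' : bmin ^ (p - 2) * (2 ^ n * 2) ≤ 1 / 4 * lam ^ p
  loss : K * (1 / bmin) ^ κ ≤ 2 ^ h
  gain : K ≤ v * bmin
  gain' : K ≤ 2 * h * bmin
  exJ : ∃ J : ℕ, 2 < 2 ^ J * (3 / 8 * bmin) ∧ (J : ℝ) ≤ 16 / bmin

theorem exJ {bmin : ℝ} (h0 : 0 < bmin) (h1 : bmin ≤ 1) :
    ∃ J : ℕ, 2 < 2 ^ J * (3 / 8 * bmin) ∧ (J : ℝ) ≤ 16 / bmin := by
  obtain ⟨N, hN1, hN2⟩ := exists_nat_pow_near (x := 16 / (3 * bmin)) (y := (2 : ℝ))
    (by rw [le_div_iff₀ (by positivity)]; linarith) (by norm_num)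
  refine ⟨N + 1, ?_, ?_⟩
  · rw [div_lt_iff₀ (by positivity)] at hN2
    nlinarith
  · have h2 : ((N + 1 : ℕ) : ℝ) ≤ 2 ^ N := by
      exact_mod_cast (Nat.lt_two_pow_self (n := N))
    refine h2.trans (hN1.trans ?_)
    rw [div_le_div_iff₀ (by positivity) h0]
    nlinarith

theorem log_four_le : Real.log 4 ≤ 1.4 := by
  have h1 : Real.log 4 = 2 * Real.log 2 := by
    rw [show (4 : ℝ) = 2 ^ 2 by norm_num, Real.log_pow]; norm_num
  have := Real.log_two_lt_d9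
  rw [h1]; linarith

theorem log_four_nonneg : 0 ≤ Real.log 4 := Real.log_nonneg (by norm_num)

/-- `h ≈ 50 x / L` -/
theorem h_facts {x L t : ℝ} (hL : 600 ≤ L) (hLt : L ≤ t) (ht10 : t ^ 10 = x) :
    L ≤ x / 100 ∧ (⌊50 * x / L⌋₊ : ℝ) * L ≤ 50 * x ∧ 49 * x ≤ (⌊50 * x / L⌋₊ : ℝ) * L ∧
      49 * t ^ 9 ≤ (⌊50 * x / L⌋₊ : ℝ) := by
  have hL0 : 0 < L := by linarith
  have ht0 : 0 < t := by linarith
  have hx0 : 0 < x := by rw [← ht10]; positivity
  have hh1 : (⌊50 * x / L⌋₊ : ℝ) ≤ 50 * x / L := Nat.floor_le (by positivity)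
  have hh2 : 50 * x / L < (⌊50 * x / L⌋₊ : ℝ) + 1 := Nat.lt_floor_add_one _
  rw [le_div_iff₀ hL0] at hh1
  rw [div_lt_iff₀ hL0] at hh2
  have hLx' : L ≤ x / 100 := by
    have h2 : (1000 : ℝ) ≤ t ^ 9 := by
      calc (1000 : ℝ) ≤ 600 ^ 9 := by norm_num
        _ ≤ t ^ 9 := by gcongr; linarith
    have h3 : t * 1000 ≤ t * t ^ 9 := by gcongr
    have h4 : t * t ^ 9 = x := by rw [← ht10]; ring
    linarith
  have h5 : 49 * x ≤ (⌊50 * x / L⌋₊ : ℝ) * L := by linarith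
  refine ⟨hLx', hh1, h5, ?_⟩
  have h6 : 49 * t ^ 9 * L ≤ (⌊50 * x / L⌋₊ : ℝ) * L := by
    refine le_trans ?_ h5
    have h7 : 49 * t ^ 9 * L ≤ 49 * t ^ 9 * t := by gcongr
    have h8 : 49 * t ^ 9 * t = 49 * x := by rw [← ht10]; ring
    linarith
  exact le_of_mul_le_mul_right h6 hL0

theorem ratio_le {C2 x L H : ℝ} (hC2 : 1 ≤ C2) (hx : 1000 ≤ x) (hL : 0 < L) (hH : 0 < H)
    (h : 49 * x ≤ H * L) :
    ((6 * C2 + 1) * x + 3) / (C2 * (2 * H)) ≤ 0.0735 * L := by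
  have hC0 : 0 < C2 := by linarith
  rw [div_le_iff₀ (by positivity)]
  have h1 : 0.0735 * L * (C2 * (2 * H)) = C2 * (0.147 * (H * L)) := by ring
  have h2 : C2 * (0.147 * (49 * x)) ≤ C2 * (0.147 * (H * L)) := by gcongr
  have h3 : (6 * C2 + 1) * x + 3 ≤ C2 * (7.2 * x) := by
    have h4 : x ≤ C2 * x := by nlinarith
    have h5 : (3 : ℝ) ≤ C2 * (0.2 * x) := by nlinarith
    linarith
  have h6 : C2 * (0.147 * (49 * x)) = C2 * (7.203 * x) := by ring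
  have h7 : C2 * (7.2 * x) ≤ C2 * (7.203 * x) := by gcongr; norm_num
  linarith

theorem num1 {C2 x L H : ℝ} (hC2 : 1 ≤ C2) (hx : 1000 ≤ x) (hL : 600 ≤ L) (hH : 0 < H)
    (h : H * L ≤ 50 * x) :
    C2 * (2 * H) * (4 + (Real.log 4 + L / 200)) + C2 * (x + 3) + 2 < (6 * C2 + 1) * x := by
  have hC0 : 0 < C2 := by linarith
  have h3 : H ≤ x / 12 := by nlinarith
  have e1 : C2 * (2 * H) * (4 + (Real.log 4 + L / 200)) =
      C2 * (2 * H * (4 + Real.log 4)) + C2 * (H * L / 100) := by ring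
  have e2 : C2 * (2 * H * (4 + Real.log 4)) ≤ C2 * x := by
    apply mul_le_mul_of_nonneg_left _ hC0.le
    have := log_four_le
    nlinarith
  have e3 : C2 * (H * L / 100) ≤ C2 * (x / 2) := by
    apply mul_le_mul_of_nonneg_left _ hC0.le
    linarith
  have e4 : C2 * 3 ≤ C2 * x := by
    apply mul_le_mul_of_nonneg_left _ hC0.le
    linarith
  have e5 : C2 * (x + 3) = C2 * x + C2 * 3 := by ring
  have e6 : C2 * (x / 2) = C2 * x / 2 := by ring
  have e7 : 1000 ≤ C2 * x := by nlinarith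
  rw [e1, e5]
  linarith

theorem num2 {x L H r : ℝ} (hx : 1000 ≤ x) (hL : 600 ≤ L) (hH : 0 < H) (hLx : L ≤ x / 100)
    (h : 49 * x ≤ H * L) (hr : r ≤ 0.0735 * L) :
    -(L / 10) * (2 * H - 2) + (x + 1) * Real.log 2 ≤
      -Real.log 4 + 2 * H * (-(L / 200) - Real.log 4 - r) := by
  have h4 := log_four_le
  have h2 : Real.log 2 ≤ 0.7 := by
    have := Real.log_two_lt_d9; linarith
  have e1 : (x + 1) * Real.log 2 ≤ (x + 1) * 0.7 := by
    apply mul_le_mul_of_nonneg_left h2 (by linarith)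
  have e2 : 2 * H * (L / 200 + Real.log 4 + r) ≤ 2 * H * (0.081 * L) := by
    apply mul_le_mul_of_nonneg_left _ (by linarith)
    linarith
  have e3 : 2 * H * (0.081 * L) = 0.162 * (H * L) := by ring
  have e4 : -(L / 10) * (2 * H - 2) = -(0.2 * (H * L)) + 0.2 * L := by ring
  have e5 : 2 * H * (-(L / 200) - Real.log 4 - r) = -(2 * H * (L / 200 + Real.log 4 + r)) := by
    ring
  rw [e4, e5]
  linarith

theorem num3 {K t : ℝ} {κ h : ℕ} (ht : 600 ≤ t) (hK : K ≤ t) (hκ : (κ : ℝ) ≤ t / 2)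
    (hh : 49 * t ^ 9 ≤ h) : K * t ^ κ ≤ 2 ^ h := by
  have ht0 : 0 < t := by linarith
  set m : ℕ := ⌈t⌉₊ with hm
  have hm1 : t ≤ m := Nat.le_ceil _
  have hm2 : (m : ℝ) < t + 1 := Nat.ceil_lt_add_one ht0.le
  have h2 : t ≤ 2 ^ m := hm1.trans (by exact_mod_cast (Nat.lt_two_pow_self (n := m)).le)
  have h3 : m * (κ + 1) ≤ h := by
    have : (m : ℝ) * (κ + 1) ≤ h := by
      have h4 : (m : ℝ) * (κ + 1) ≤ (t + 1) * (t / 2 + 1) := by gcongr
      have h5 : (t + 1) * (t / 2 + 1) ≤ 49 * t ^ 9 := by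
        have h6 : t ^ 2 ≤ t ^ 9 := pow_le_pow_right₀ (by linarith) (by norm_num)
        nlinarith
      linarith
    exact_mod_cast this
  calc K * t ^ κ ≤ t * t ^ κ := by gcongr
    _ = t ^ (κ + 1) := by ring
    _ ≤ (2 ^ m) ^ (κ + 1) := by gcongr
    _ = 2 ^ (m * (κ + 1)) := by rw [pow_mul]
    _ ≤ 2 ^ h := pow_le_pow_right₀ (by norm_num) h3

theorem num4 {C2 K t H : ℝ} (hC2 : 1 ≤ C2) (ht : 600 ≤ t) (hK : K ≤ t) (hh : 49 * t ^ 9 ≤ H) :
    K ≤ C2 * (2 * H) * (1 / t) := by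
  have ht0 : 0 < t := by linarith
  rw [mul_one_div, le_div_iff₀ ht0]
  have h1 : t ^ 2 ≤ t ^ 9 := pow_le_pow_right₀ (by linarith) (by norm_num)
  have h2 : K * t ≤ t * t := by gcongr
  have h3 : 0 ≤ H := le_trans (by positivity) hh
  have h4 : 1 * (2 * H) ≤ C2 * (2 * H) := by gcongr
  nlinarith

theorem params (C2 : ℝ) (hC2 : 1 ≤ C2) (K : ℝ) (κ : ℕ) :
    ∃ n₀ : ℕ, ∀ n ≥ n₀, ∃ h : ℕ, Good C2 K κ n h (2 * h) (C2 * (2 * h)) ((6 * C2 + 1) * n)
      ((n : ℝ) ^ (-(1 / 200) : ℝ)) ((n : ℝ) ^ (-(1 / 10) : ℝ))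
      ((n : ℝ) ^ (-(1 / 200) : ℝ) / 4 *
        Real.exp (-((6 * C2 + 1) * n + 3) / (C2 * (2 * h)))) := by
  obtain ⟨n₀, hn₀⟩ := eventually_atTop.1
    (tendsto_natCast_atTop_atTop (R := ℝ) |>.eventually (growth (K ^ 2 + 2 * κ + 10)))
  refine ⟨n₀, fun n hn => ?_⟩
  obtain ⟨hL, hLt, hKt, hx1000⟩ := hn₀ n hn
  have hx0 : (0 : ℝ) < n := by linarith
  have ht10 : ((n : ℝ) ^ (1 / 10 : ℝ)) ^ 10 = n := by
    rw [← Real.rpow_natCast, ← Real.rpow_mul hx0.le]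
    norm_num
  obtain ⟨hLx, hhL, hhL', hht⟩ := h_facts hL hLt ht10
  have hmu : (n : ℝ) ^ (-(1 / 200) : ℝ) = Real.exp (-(Real.log n / 200)) := by
    rw [Real.rpow_def_of_pos hx0]; congr 1; ring
  have hbm : (n : ℝ) ^ (-(1 / 10) : ℝ) = Real.exp (-(Real.log n / 10)) := by
    rw [Real.rpow_def_of_pos hx0]; congr 1; ring
  have hbt : (n : ℝ) ^ (-(1 / 10) : ℝ) = 1 / (n : ℝ) ^ (1 / 10 : ℝ) := by
    rw [Real.rpow_neg hx0.le, ← one_div]
  have ht0 : 0 < (n : ℝ) ^ (1 / 10 : ℝ) := by linarith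
  refine ⟨⌊50 * (n : ℝ) / Real.log n⌋₊, ?_⟩
  generalize hH : ⌊50 * (n : ℝ) / Real.log n⌋₊ = h at *
  generalize hmud : (n : ℝ) ^ (-(1 / 200) : ℝ) = mu at *
  generalize hbd : (n : ℝ) ^ (-(1 / 10) : ℝ) = bmin at *
  generalize htd : (n : ℝ) ^ (1 / 10 : ℝ) = t at *
  generalize hLd : Real.log n = L at *
  generalize hxd : (n : ℝ) = x at *
  have hκ0 : (0 : ℝ) ≤ κ := Nat.cast_nonneg κ
  have ht600 : 600 ≤ t := hL.trans hLt
  have ht9 : t ≤ t ^ 9 := le_self_pow₀ (by linarith) (by norm_num)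
  have hh600 : 600 ≤ (h : ℝ) := by linarith
  have hh0 : (0 : ℝ) < h := by linarith
  have hC20 : 0 < C2 := by linarith
  have hmu0 : 0 < mu := by rw [hmu]; exact Real.exp_pos _
  have hmu1 : mu ≤ 1 := by rw [hmu]; exact Real.exp_le_one_iff.2 (by linarith)
  have hb0 : 0 < bmin := by rw [hbm]; exact Real.exp_pos _
  have hb1 : bmin ≤ 1 := by rw [hbm]; exact Real.exp_le_one_iff.2 (by linarith)
  have hκt : (κ : ℝ) ≤ t / 2 := by nlinarith [sq_nonneg K]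
  have hK1 : K ≤ t := by nlinarith [sq_nonneg (K - 1)]
  have hv0 : 0 < C2 * (2 * (h : ℝ)) := by positivity
  have hratio := ratio_le hC2 hx1000 (by linarith : 0 < L) hh0 hhL'
  have h2h : 2 ≤ h := by
    have : (2 : ℝ) ≤ h := by linarith
    exact_mod_cast this
  have hκh : κ ≤ h := by
    have : (κ : ℝ) ≤ h := by linarith
    exact_mod_cast this
  refine
    { two_le := h2h
      κ_le := hκh
      p_eq := rfl
      v_eq := rfl
      V_eq := by rw [hxd]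
      mu_eq := by rw [hxd, hmud]
      bmin_eq := by rw [hxd, hbd]
      lam_eq := rfl
      four_le_p := by linarith
      p_le_v := by nlinarith
      V_pos := by positivity
      mu_pos := hmu0
      mu_le := hmu1
      bmin_pos := hb0
      bmin_le := hb1
      lam_pos := by positivity
      hnum := ?_
      hnum' := ?_
      loss := ?_
      gain := ?_
      gain' := ?_
      exJ := exJ hb0 hb1 }
  · have h1 : Real.log (4 / mu) = Real.log 4 + L / 200 := by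
      rw [Real.log_div (by norm_num) hmu0.ne', hmu, Real.log_exp]; ring
    have h2 : C2 * (2 * (h : ℝ)) / (2 * h) = C2 := by field_simp
    rw [h1, h2, hxd]
    exact num1 hC2 hx1000 hL hh0 hhL
  · have h1 := num2 hx1000 hL hh0 hLx hhL' hratio
    have h2 : bmin ^ (2 * (h : ℝ) - 2) * (2 ^ n * 2) =
        Real.exp (-(L / 10) * (2 * h - 2) + (x + 1) * Real.log 2) := by
      rw [Real.exp_add, hbm, ← Real.exp_mul]
      congr 1
      rw [add_mul, Real.exp_add, one_mul, Real.exp_log (by norm_num), ← hxd,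
        mul_comm (n : ℝ) (Real.log 2), Real.exp_mul, Real.exp_log (by norm_num), Real.rpow_natCast]
    have h3 : (1 : ℝ) / 4 * (mu / 4 * Real.exp (-((6 * C2 + 1) * x + 3) / (C2 * (2 * h)))) ^
        (2 * (h : ℝ)) = Real.exp (-Real.log 4 + 2 * h * (-(L / 200) - Real.log 4 -
          ((6 * C2 + 1) * x + 3) / (C2 * (2 * h)))) := by
      rw [Real.exp_add, Real.exp_neg, Real.exp_log (by norm_num), mul_comm (2 * (h : ℝ)) (_ - _),
        Real.exp_mul, Real.exp_sub, Real.exp_sub, Real.exp_log (by norm_num), hmu, neg_div,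
        Real.exp_neg ((((6 * C2 + 1) * x + 3)) / _)]
      congr 1
      norm_num
    rw [h2, h3]
    exact Real.exp_le_exp.2 h1
  · have h1 : (1 / bmin) = t := by rw [hbt]; field_simp
    rw [h1]
    exact num3 ht600 hK1 hκt hht
  · rw [hbt]
    exact num4 hC2 ht600 hK1 hht
  · rw [hbt]
    have := num4 (C2 := 1) le_rfl ht600 hK1 hht
    linarith

end Crest.Agent.R100.Num801
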