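import Crest.Agent.R100.OneLevel_403

/-!
From the one-level bound `OL` to a.e. convergence for `L log L`: the final assembly.
-/
set_option autoImplicit false
set_option linter.unusedSectionVars false
open MeasureTheory Set Filter Topology AddCircle
open scoped ENNReal NNReal

namespace Crest.Agent.R100.OneLevel403
open Crest.Agent.R100.WeakSum403

variable {T : ℝ} [hT : Fact (0 < T)]

/-- doubly exponential levels -/
def lev (f : AddCircle T → ℂ) (j : ℕ) : Set (AddCircle T) :=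
  {x | (2 : ℝ) ^ (2 ^ j) < ‖f x‖ ∧ ‖f x‖ ≤ 2 ^ (2 ^ (j + 1))}

/-- restriction to a level -/
noncomputable def part (f : AddCircle T → ℂ) (j : ℕ) : AddCircle T → ℂ := (lev f j).indicator f

/-- `L¹` norm of a level -/
noncomputable def anorm (f : AddCircle T → ℂ) (j : ℕ) : ℝ := ∫ x, ‖part f j x‖ ∂haarAddCircle

lemma measurableSet_lev {f : AddCircle T → ℂ} (hf : Measurable f) (j : ℕ) :
    MeasurableSet (lev f j) :=
  (measurableSet_lt measurable_const hf.norm).inter (measurableSet_le hf.norm measurable_const)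

lemma measurable_part {f : AddCircle T → ℂ} (hf : Measurable f) (j : ℕ) :
    Measurable (part f j) := hf.indicator (measurableSet_lev hf j)

lemma norm_part_le (f : AddCircle T → ℂ) (j : ℕ) (x : AddCircle T) :
    ‖part f j x‖ ≤ 2 ^ (2 ^ (j + 1)) := by
  unfold part
  by_cases hx : x ∈ lev f j
  · rw [indicator_of_mem hx]; exact hx.2
  · rw [indicator_of_notMem hx, norm_zero]; positivity

lemma pow_pow_mono {i j : ℕ} (h : i ≤ j) : (2 : ℝ) ^ (2 ^ i) ≤ 2 ^ (2 ^ j) :=
  pow_le_pow_right₀ (by norm_num) (Nat.pow_le_pow_right (by norm_num) h)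

lemma lev_disjoint (f : AddCircle T → ℂ) : Pairwise (Function.onFun Disjoint (lev f)) := by
  have key : ∀ i j : ℕ, i < j → Disjoint (lev f i) (lev f j) := by
    intro i j hij
    rw [Set.disjoint_left]
    intro x hx hx'
    exact absurd (hx'.1.trans_le (hx.2.trans (pow_pow_mono hij))) (lt_irrefl _)
  intro i j hij
  rcases lt_or_gt_of_ne hij with h | h
  · exact key i j h
  · exact (key j i h).symm

lemma exists_lev (f : AddCircle T → ℂ) (j0 : ℕ) (x : AddCircle T)
    (hx : (2 : ℝ) ^ (2 ^ j0) < ‖f x‖) : ∃ i, x ∈ lev f (j0 + i) := by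
  classical
  have hex : ∃ i, ‖f x‖ ≤ (2 : ℝ) ^ (2 ^ (j0 + i + 1)) := by
    obtain ⟨n, hn⟩ := pow_unbounded_of_one_lt ‖f x‖ (one_lt_two : (1 : ℝ) < 2)
    refine ⟨n, hn.le.trans (pow_le_pow_right₀ (by norm_num) ?_)⟩
    calc n ≤ 2 ^ n := Nat.lt_two_pow_self.le
      _ ≤ 2 ^ (j0 + n + 1) := Nat.pow_le_pow_right (by norm_num) (by omega)
  refine ⟨Nat.find hex, ?_, Nat.find_spec hex⟩
  rcases Nat.eq_zero_or_pos (Nat.find hex) with h | h
  · rw [h]; simpa using hx
  · have := Nat.find_min hex (Nat.sub_one_lt_of_lt h)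
    push Not at this
    have e : j0 + (Nat.find hex - 1) + 1 = j0 + Nat.find hex := by omega
    rwa [e] at this

/-- the part of `f` above the level `j0` -/
noncomputable def top (f : AddCircle T → ℂ) (j0 : ℕ) : AddCircle T → ℂ :=
  {x | (2 : ℝ) ^ (2 ^ j0) < ‖f x‖}.indicator f

lemma tsum_part (f : AddCircle T → ℂ) (j0 : ℕ) (x : AddCircle T) :
    ∑' i, part f (j0 + i) x = top f j0 x := by
  unfold top
  by_cases hx : (2 : ℝ) ^ (2 ^ j0) < ‖f x‖
  · obtain ⟨i, hi⟩ := exists_lev f j0 x hx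
    rw [tsum_eq_single i, indicator_of_mem (show x ∈ {x | (2 : ℝ) ^ (2 ^ j0) < ‖f x‖} from hx),
      part, indicator_of_mem hi]
    intro i' hi'
    rw [part, indicator_of_notMem]
    intro h
    have hd := lev_disjoint f (show j0 + i' ≠ j0 + i by omega)
    exact Set.disjoint_left.mp hd h hi
  · rw [indicator_of_notMem (show x ∉ {x | (2 : ℝ) ^ (2 ^ j0) < ‖f x‖} from hx)]
    convert tsum_zero with i
    rw [part, indicator_of_notMem]
    intro h
    exact hx ((pow_pow_mono (Nat.le_add_right j0 i)).trans_lt h.1)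

lemma anorm_nonneg (f : AddCircle T → ℂ) (j : ℕ) : 0 ≤ anorm f j :=
  integral_nonneg fun _ => norm_nonneg _

lemma ofReal_anorm {f : AddCircle T → ℂ} (hf : Measurable f) (j : ℕ) :
    ENNReal.ofReal (anorm f j) = ∫⁻ x in lev f j, ‖f x‖ₑ ∂haarAddCircle := by
  unfold anorm
  rw [ofReal_integral_norm_eq_lintegral_enorm (integrable_of_bdd (measurable_part hf j)
    (norm_part_le f j)), ← lintegral_indicator (measurableSet_lev hf j)]
  refine lintegral_congr fun x => ?_
  unfold part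
  by_cases hx : x ∈ lev f j
  · simp [indicator_of_mem hx]
  · simp [indicator_of_notMem hx]

/-- weights of the levels -/
noncomputable def cc (f : AddCircle T → ℂ) (j : ℕ) : ℝ := 2 ^ j * (anorm f j + (2 ^ (2 ^ j))⁻¹)

lemma cc_nonneg (f : AddCircle T → ℂ) (j : ℕ) : 0 ≤ cc f j := by
  unfold cc
  have := anorm_nonneg f j
  positivity

lemma tsum_anorm {f : AddCircle T → ℂ} (hf : Measurable f)
    (hlog : ∫⁻ x, ‖f x‖ₑ * ENNReal.ofReal (Real.log (2 + ‖f x‖)) ∂haarAddCircle < ⊤) :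
    ∑' j, ENNReal.ofReal (2 ^ j * anorm f j) ≠ ∞ := by
  have h1 : ∀ j, ENNReal.ofReal (2 ^ j * anorm f j) ≤
      ENNReal.ofReal 2 * ∫⁻ x in lev f j, ‖f x‖ₑ * ENNReal.ofReal (Real.log (2 + ‖f x‖))
        ∂haarAddCircle := by
    intro j
    rw [ENNReal.ofReal_mul (by positivity), ofReal_anorm hf]
    rw [← lintegral_const_mul _ hf.enorm]
    rw [← lintegral_const_mul]
    · refine setLIntegral_mono' (measurableSet_lev hf j) fun x hx => ?_
      have h2 : (2 : ℝ) ^ j ≤ 2 * Real.log (2 + ‖f x‖) := by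
        have h3 : Real.log ((2 : ℝ) ^ (2 ^ j)) ≤ Real.log (2 + ‖f x‖) := by
          refine Real.log_le_log (by positivity) ?_
          linarith [hx.1]
        rw [Real.log_pow] at h3
        have h4 := Real.log_two_gt_d9
        push_cast at h3
        have h5 : (0 : ℝ) < 2 ^ j := by positivity
        nlinarith
      calc ENNReal.ofReal (2 ^ j) * ‖f x‖ₑ
          ≤ ENNReal.ofReal (2 * Real.log (2 + ‖f x‖)) * ‖f x‖ₑ := by
            gcongr
        _ = ENNReal.ofReal 2 * (‖f x‖ₑ * ENNReal.ofReal (Real.log (2 + ‖f x‖))) := by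
            rw [ENNReal.ofReal_mul (by norm_num)]; ring
    · exact hf.enorm.mul (Real.measurable_log.comp (measurable_const.add hf.norm)).ennreal_ofReal
  refine ne_top_of_le_ne_top ?_ (ENNReal.tsum_le_tsum h1)
  rw [ENNReal.tsum_mul_left, ← lintegral_iUnion (fun j => measurableSet_lev hf j) (lev_disjoint f)]
  refine ENNReal.mul_ne_top ENNReal.ofReal_ne_top (ne_top_of_le_ne_top hlog.ne ?_)
  exact setLIntegral_le_lintegral _ _

lemma two_mul_le_pow (j : ℕ) : 2 * j ≤ 2 ^ j := by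
  induction j with
  | zero => norm_num
  | succ j ih =>
    rcases Nat.eq_zero_or_pos j with h | h
    · subst h; norm_num
    · rw [pow_succ]; omega

lemma tsum_tiny : ∑' j : ℕ, ENNReal.ofReal (2 ^ j * (2 ^ (2 ^ j))⁻¹) ≠ ∞ := by
  have h1 : ∀ j : ℕ, (2 : ℝ) ^ j * (2 ^ (2 ^ j))⁻¹ ≤ (1 / 2) ^ j := by
    intro j
    have h2 : (2 : ℝ) ^ (2 * j) ≤ 2 ^ (2 ^ j) :=
      pow_le_pow_right₀ (by norm_num) (two_mul_le_pow j)
    rw [one_div_pow, ← div_eq_mul_inv, div_le_div_iff₀ (by positivity) (by positivity), one_mul,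
      ← pow_add, ← two_mul]
    exact h2
  have hs : Summable fun j : ℕ => (1 / 2 : ℝ) ^ j := summable_geometric_two
  refine ne_top_of_le_ne_top ?_ (ENNReal.tsum_le_tsum fun j => ENNReal.ofReal_le_ofReal (h1 j))
  rw [← ENNReal.ofReal_tsum_of_nonneg (fun j => by positivity) hs]
  exact ENNReal.ofReal_ne_top

lemma tsum_cc {f : AddCircle T → ℂ} (hf : Measurable f)
    (hlog : ∫⁻ x, ‖f x‖ₑ * ENNReal.ofReal (Real.log (2 + ‖f x‖)) ∂haarAddCircle < ⊤) :
    ∑' j, ENNReal.ofReal (cc f j) ≠ ∞ := by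
  have : ∀ j, ENNReal.ofReal (cc f j) = ENNReal.ofReal (2 ^ j * anorm f j) +
      ENNReal.ofReal (2 ^ j * (2 ^ (2 ^ j))⁻¹) := by
    intro j
    rw [← ENNReal.ofReal_add (mul_nonneg (by positivity) (anorm_nonneg f j)) (by positivity)]
    unfold cc; congr 1; ring
  simp_rw [this]
  rw [ENNReal.tsum_add]
  exact ENNReal.add_ne_top.mpr ⟨tsum_anorm hf hlog, tsum_tiny⟩

lemma ell_pos (n : ℕ) : 1 ≤ ell n := by
  unfold ell
  have h1 : 0 ≤ Real.log (1 + (n : ℝ)) := Real.log_nonneg (by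
    have : (0 : ℝ) ≤ n := Nat.cast_nonneg n
    linarith)
  have h2 : 0 ≤ Real.log (1 + Real.log (1 + (n : ℝ))) := Real.log_nonneg (by linarith)
  linarith

lemma ell_lower (j : ℕ) : 0.3 * (1 + Real.log (1 + j)) ≤ ell (3 * 2 ^ j) := by
  unfold ell
  push_cast
  have hj : (0 : ℝ) ≤ j := Nat.cast_nonneg j
  have h1 : (j : ℝ) * Real.log 2 ≤ Real.log (1 + 3 * 2 ^ j) := by
    rw [← Real.log_pow]
    refine Real.log_le_log (by positivity) ?_
    have : (0 : ℝ) < 2 ^ j := by positivity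
    linarith
  have h2 := Real.log_two_gt_d9
  have h2' := Real.log_two_lt_d9
  have h3 : (1 + (j : ℝ)) / 2 ≤ 1 + Real.log (1 + 3 * 2 ^ j) := by nlinarith
  have h4 := Real.log_le_log (by positivity) h3
  rw [Real.log_div (by positivity) (by norm_num)] at h4
  have h5 : 0 ≤ Real.log (1 + (j : ℝ)) := Real.log_nonneg (by linarith)
  nlinarith

lemma key_bound {i j : ℕ} (hij : i ≤ j) :
    ((3 * 2 ^ j : ℕ) : ℝ) / ell (3 * 2 ^ j) * (1 + 4 * (wt i : ℝ)) ≤ 400 * 2 ^ j := by
  have h1 := wt_le i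
  have h2 := ell_lower j
  have h3 : Real.log (1 + (i : ℝ)) ≤ Real.log (1 + (j : ℝ)) := by
    refine Real.log_le_log (by positivity) ?_
    have : (i : ℝ) ≤ j := by exact_mod_cast hij
    linarith
  have hpos : 0 < ell (3 * 2 ^ j) := zero_lt_one.trans_le (ell_pos _)
  rw [div_mul_eq_mul_div, div_le_iff₀ hpos]
  push_cast
  have h4 : (1 + 4 * (wt i : ℝ)) ≤ 40 * (1 + Real.log (1 + j)) := by linarith
  have h5 : (0 : ℝ) < 2 ^ j := by positivity
  calc 3 * (2 : ℝ) ^ j * (1 + 4 * (wt i : ℝ)) ≤ 3 * 2 ^ j * (40 * (1 + Real.log (1 + j))) := by gcongr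
    _ = 400 * 2 ^ j * (0.3 * (1 + Real.log (1 + j))) := by ring
    _ ≤ 400 * 2 ^ j * ell (3 * 2 ^ j) := by gcongr

/-- the maximal function of the part above level `j0` is small. -/
lemma measure_C_top_le {A : ℝ} (hA : 0 ≤ A)
    (hOL : ∀ n : ℕ, 1 ≤ n → ∀ f : AddCircle T → ℂ, Measurable f →
    (∀ x, ‖f x‖ ≤ 2 ^ n) → ∫ x, ‖f x‖ ∂haarAddCircle ≤ 1 → ∀ lam : ℝ, 0 < lam →
    haarAddCircle {x | ∃ N : ℕ, lam < ‖S f N x‖} ≤ ENNReal.ofReal (A * (n / ell n) / lam))
    {f : AddCircle T → ℂ} (hf : Measurable f)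
    (hlog : ∫⁻ x, ‖f x‖ₑ * ENNReal.ofReal (Real.log (2 + ‖f x‖)) ∂haarAddCircle < ⊤)
    (j0 : ℕ) (t : ℝ≥0∞) (ht0 : t ≠ 0) (htt : t ≠ ∞) :
    haarAddCircle {x | t < C (top f j0) x} ≤
      ENNReal.ofReal (400 * A) * (∑' i, ENNReal.ofReal (cc f (i + j0))) / t := by
  have hint : ∀ i, Integrable (part f (j0 + i)) haarAddCircle := fun i =>
    integrable_of_bdd (measurable_part hf _) (norm_part_le f _)
  have hsum : Summable fun i => ∫ x, ‖part f (j0 + i) x‖ ∂haarAddCircle := by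
    have h1 : Summable fun j => 2 ^ j * anorm f j := by
      have h2 := tsum_anorm hf hlog
      have h3 := ENNReal.summable_toReal h2
      refine h3.congr fun j => ?_
      exact ENNReal.toReal_ofReal (mul_nonneg (by positivity) (anorm_nonneg f j))
    have h4 : Summable fun i => 2 ^ (j0 + i) * anorm f (j0 + i) :=
      h1.comp_injective (add_right_injective j0)
    refine Summable.of_nonneg_of_le (fun i => anorm_nonneg f (j0 + i)) (fun i => ?_) h4
    have h5 : (1 : ℝ) ≤ 2 ^ (j0 + i) := one_le_pow₀ (by norm_num)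
    exact le_mul_of_one_le_left (anorm_nonneg f (j0 + i)) h5
  have hsub : {x | t < C (top f j0) x} ⊆ {x | t < ∑' i, C (part f (j0 + i)) x} := by
    intro x hx
    rw [mem_ofPred_eq] at hx ⊢
    refine lt_of_lt_of_le hx ?_
    have := C_tsum_le hint hsum x
    have he : (fun y => ∑' i, part f (j0 + i) y) = top f j0 := by
      ext y; exact tsum_part f j0 y
    rwa [he] at this
  refine (measure_mono hsub).trans ?_
  set b : ℕ → ℝ≥0∞ := fun i => ENNReal.ofReal (A * (((3 * 2 ^ (j0 + i) : ℕ) : ℝ) /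
    ell (3 * 2 ^ (j0 + i))) * (anorm f (j0 + i) + (2 ^ (2 ^ (j0 + i)))⁻¹)) with hbdef
  have hb : ∀ i, ∀ s : ℝ≥0∞, s ≠ 0 → s ≠ ∞ →
      haarAddCircle {x | s < C (part f (j0 + i)) x} ≤ b i / s := by
    intro i s hs0 hst
    have ha := anorm_nonneg f (j0 + i)
    refine ol_scaled hOL (n := 3 * 2 ^ (j0 + i)) (by
      have : 0 < 2 ^ (j0 + i) := by positivity
      omega) (measurable_part hf _) (by positivity) (fun x => ?_) ?_ s hs0 hst
    · refine (norm_part_le f _ x).trans ?_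
      have h1 : (2 : ℝ) ^ (2 ^ (j0 + i + 1)) =
          2 ^ (3 * 2 ^ (j0 + i)) * (2 ^ (2 ^ (j0 + i)))⁻¹ := by
        rw [eq_mul_inv_iff_mul_eq₀ (by positivity), ← pow_add]
        congr 1
        rw [pow_succ]; ring
      rw [h1]
      gcongr
      linarith
    · have : 0 ≤ ((2 : ℝ) ^ (2 ^ (j0 + i)))⁻¹ := by positivity
      change anorm f (j0 + i) ≤ _
      linarith
  have hmain := measure_tsum_lt (μ := haarAddCircle) (fun i => C (part f (j0 + i)))
    (fun i => measurable_C _) b hb wt tsum_wt_le t ht0 htt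
  refine hmain.trans ?_
  gcongr
  rw [← ENNReal.tsum_mul_left]
  refine ENNReal.tsum_le_tsum fun i => ?_
  have h1 : (1 + 4 * (wt i : ℝ≥0∞)) = ENNReal.ofReal (1 + 4 * (wt i : ℝ)) := by
    rw [ENNReal.ofReal_add (by norm_num) (by positivity), ENNReal.ofReal_mul (by norm_num),
      ENNReal.ofReal_natCast]
    simp
  rw [hbdef]
  simp only
  have ha := anorm_nonneg f (j0 + i)
  have hell : 0 < ell (3 * 2 ^ (j0 + i)) := zero_lt_one.trans_le (ell_pos _)
  rw [h1, ← ENNReal.ofReal_mul (by positivity), ← ENNReal.ofReal_mul (by positivity)]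
  refine ENNReal.ofReal_le_ofReal ?_
  have h2 := key_bound (Nat.le_add_left i j0)
  calc A * (((3 * 2 ^ (j0 + i) : ℕ) : ℝ) / ell (3 * 2 ^ (j0 + i))) *
        (anorm f (j0 + i) + (2 ^ 2 ^ (j0 + i))⁻¹) * (1 + 4 * (wt i : ℝ))
      = A * ((((3 * 2 ^ (j0 + i) : ℕ) : ℝ) / ell (3 * 2 ^ (j0 + i))) * (1 + 4 * (wt i : ℝ))) *
        (anorm f (j0 + i) + (2 ^ 2 ^ (j0 + i))⁻¹) := by ring
    _ ≤ A * (400 * 2 ^ (j0 + i)) * (anorm f (j0 + i) + (2 ^ 2 ^ (j0 + i))⁻¹) := by
        gcongr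
    _ = 400 * A * cc f (i + j0) := by
        unfold cc; rw [add_comm i j0]; ring

/-- bounded functions are approximated by trigonometric polynomials with small maximal function -/
lemma exists_good_poly_bdd {A : ℝ} (hA : 0 ≤ A)
    (hOL : ∀ n : ℕ, 1 ≤ n → ∀ f : AddCircle T → ℂ, Measurable f →
    (∀ x, ‖f x‖ ≤ 2 ^ n) → ∫ x, ‖f x‖ ∂haarAddCircle ≤ 1 → ∀ lam : ℝ, 0 < lam →
    haarAddCircle {x | ∃ N : ℕ, lam < ‖S f N x‖} ≤ ENNReal.ofReal (A * (n / ell n) / lam))
    {g : AddCircle T → ℂ} (hg : Measurable g) {R : ℝ} (hR : 0 < R) (hb : ∀ x, ‖g x‖ ≤ R)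
    (ε δ : ℝ≥0∞) (hε0 : ε ≠ 0) (hε : ε ≠ ∞) (hδ0 : δ ≠ 0) :
    ∃ P : C(AddCircle T, ℂ), P ∈ Submodule.span ℂ (range (@fourier T)) ∧
      haarAddCircle {x | ε < C (fun y => g y - P y) x} ≤ δ ∧
      ∫⁻ x, ‖g x - P x‖ₑ ∂haarAddCircle ≤ δ := by
  set M : ℝ := 2 * R + 1 with hM
  have hMpos : 0 < M := by positivity
  have hlim : Tendsto (fun k : ℕ => (A * (k * (1 / 2) ^ k) * M : ℝ)) atTop (𝓝 0) := by
    have h1 : Tendsto (fun k : ℕ => (k : ℝ) * (1 / 2) ^ k) atTop (𝓝 0) :=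
      tendsto_self_mul_const_pow_of_lt_one (by norm_num) (by norm_num)
    simpa using (h1.const_mul A).mul_const M
  have hlim2 : Tendsto (fun k : ℕ => ((1 / 2) ^ k * M : ℝ)) atTop (𝓝 0) := by
    simpa using (tendsto_pow_atTop_nhds_zero_of_lt_one (show (0 : ℝ) ≤ 1 / 2 by norm_num)
      (by norm_num)).mul_const M
  have hδε : δ * ε ≠ 0 := mul_ne_zero hδ0 hε0
  have e1 : ∀ᶠ k : ℕ in atTop, ENNReal.ofReal (A * (k * (1 / 2) ^ k) * M) ≤ δ * ε := by
    have h := (ENNReal.tendsto_ofReal hlim)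
    rw [ENNReal.ofReal_zero] at h
    exact (h.eventually (gt_mem_nhds (pos_iff_ne_zero.mpr hδε))).mono fun k hk => le_of_lt hk
  have e2 : ∀ᶠ k : ℕ in atTop, ENNReal.ofReal ((1 / 2) ^ k * M) ≤ δ := by
    have h := (ENNReal.tendsto_ofReal hlim2)
    rw [ENNReal.ofReal_zero] at h
    exact (h.eventually (gt_mem_nhds (pos_iff_ne_zero.mpr hδ0))).mono fun k hk => le_of_lt hk
  obtain ⟨k, hk1, hk2, hk3⟩ := (e1.and (e2.and (eventually_ge_atTop 1))).exists
  set η : ℝ := (1 / 2) ^ k * M with hη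
  have hηpos : 0 < η := by positivity
  obtain ⟨P, hP, hPb, hPi⟩ := exists_trig_approx hg hR hb hηpos
  have hmeas : Measurable fun y => g y - P y := hg.sub P.continuous.measurable
  refine ⟨P, hP, ?_, ?_⟩
  · have h1 := ol_scaled hOL hk3 hmeas hηpos (fun x => by
      refine (hPb x).trans (le_of_eq ?_)
      rw [hη, ← mul_assoc, ← mul_pow]; norm_num [hM]) hPi ε hε0 hε
    refine h1.trans ?_
    rw [ENNReal.div_le_iff hε0 hε]
    refine (ENNReal.ofReal_le_ofReal ?_).trans hk1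
    have h2 : (k : ℝ) / ell k ≤ k := div_le_self (Nat.cast_nonneg k) (ell_pos k)
    calc A * (k / ell k) * η ≤ A * k * η := by gcongr
      _ = A * (k * (1 / 2) ^ k) * M := by rw [hη]; ring
  · refine le_trans (le_of_eq ?_) ((ENNReal.ofReal_le_ofReal hPi).trans hk2)
    rw [ofReal_integral_norm_eq_lintegral_enorm (integrable_of_bdd hmeas hPb)]

lemma lintegral_top_le {f : AddCircle T → ℂ} (hf : Measurable f) (j0 : ℕ) :
    ∫⁻ x, ‖top f j0 x‖ₑ ∂haarAddCircle ≤ ∑' i, ENNReal.ofReal (cc f (i + j0)) := by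
  calc ∫⁻ x, ‖top f j0 x‖ₑ ∂haarAddCircle
      ≤ ∫⁻ x, ∑' i, ‖part f (j0 + i) x‖ₑ ∂haarAddCircle := by
        refine lintegral_mono fun x => ?_
        rw [← tsum_part]
        exact enorm_tsum_le_tsum_enorm
    _ = ∑' i, ∫⁻ x, ‖part f (j0 + i) x‖ₑ ∂haarAddCircle :=
        lintegral_tsum fun i => (measurable_part hf _).enorm.aemeasurable
    _ ≤ ∑' i, ENNReal.ofReal (cc f (i + j0)) := by
        refine ENNReal.tsum_le_tsum fun i => ?_
        rw [← ofReal_integral_norm_eq_lintegral_enorm (integrable_of_bdd (measurable_part hf _)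
          (norm_part_le f _))]
        refine ENNReal.ofReal_le_ofReal ?_
        change anorm f (j0 + i) ≤ _
        unfold cc
        rw [add_comm i j0]
        have ha := anorm_nonneg f (j0 + i)
        have h5 : (1 : ℝ) ≤ 2 ^ (j0 + i) := one_le_pow₀ (by norm_num)
        have h6 : (0 : ℝ) ≤ (2 ^ 2 ^ (j0 + i))⁻¹ := by positivity
        nlinarith

/-- `L log L` functions are approximated by trigonometric polynomials with small maximal
function -/
lemma exists_good_poly (hOL : OL T) {f : AddCircle T → ℂ} (hf : Measurable f)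
    (hlog : ∫⁻ x, ‖f x‖ₑ * ENNReal.ofReal (Real.log (2 + ‖f x‖)) ∂haarAddCircle < ⊤)
    (hfi : Integrable f haarAddCircle)
    (ε δ : ℝ≥0∞) (hε0 : ε ≠ 0) (hε : ε ≠ ∞) (hδ0 : δ ≠ 0) (hδ : δ ≠ ∞) :
    ∃ P : C(AddCircle T, ℂ), P ∈ Submodule.span ℂ (range (@fourier T)) ∧
      haarAddCircle {x | ε < C (fun y => f y - P y) x} ≤ δ ∧
      haarAddCircle {x | ε ≤ ‖f x - P x‖ₑ} ≤ δ := by
  obtain ⟨A, hA, hOL⟩ := hOL
  have hcc := tsum_cc hf hlog
  have hε2 : ε / 2 ≠ 0 := ENNReal.div_ne_zero.mpr ⟨hε0, by norm_num⟩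
  have hε2t : ε / 2 ≠ ∞ := ENNReal.div_ne_top hε (by norm_num)
  have hδ2 : δ / 2 ≠ 0 := ENNReal.div_ne_zero.mpr ⟨hδ0, by norm_num⟩
  have hδ2t : δ / 2 ≠ ∞ := ENNReal.div_ne_top hδ (by norm_num)
  -- choose the level
  have htail := ENNReal.tendsto_sum_nat_add (fun j => ENNReal.ofReal (cc f j)) hcc
  have htail' : Tendsto (fun j0 => ENNReal.ofReal (400 * A) *
      ∑' i, ENNReal.ofReal (cc f (i + j0))) atTop (𝓝 0) := by
    have := ENNReal.Tendsto.const_mul (a := ENNReal.ofReal (400 * A)) htail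
      (Or.inr ENNReal.ofReal_ne_top)
    simpa only [mul_zero] using this
  have hpos1 : 0 < (δ / 2) * (ε / 2) := pos_iff_ne_zero.mpr (mul_ne_zero hδ2 hε2)
  obtain ⟨j0, hj1, hj2⟩ := ((htail'.eventually (gt_mem_nhds hpos1)).and
    (htail.eventually (gt_mem_nhds hpos1))).exists
  set R : ℝ := 2 ^ (2 ^ j0) with hR
  have hRpos : 0 < R := by positivity
  set s : Set (AddCircle T) := {x | R < ‖f x‖} with hs
  have hsm : MeasurableSet s := measurableSet_lt measurable_const hf.norm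
  set g : AddCircle T → ℂ := sᶜ.indicator f with hg
  have hgm : Measurable g := hf.indicator hsm.compl
  have hgb : ∀ x, ‖g x‖ ≤ R := by
    intro x
    rw [hg]
    by_cases hx : x ∈ s
    · rw [indicator_of_notMem (by simpa using hx), norm_zero]; exact hRpos.le
    · rw [indicator_of_mem (by simpa using hx)]
      exact not_lt.mp hx
  have hfg : ∀ x, f x = top f j0 x + g x := by
    intro x
    have := congrFun (indicator_self_add_compl s f) x
    simpa [top, hg, hs, hR] using this.symm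
  set δ' : ℝ≥0∞ := min (δ / 2) ((δ / 2) * (ε / 2)) with hδ'
  have hδ'0 : δ' ≠ 0 := by
    rw [hδ']
    exact (lt_min (pos_iff_ne_zero.mpr hδ2) hpos1).ne'
  obtain ⟨P, hP, hP1, hP2⟩ := exists_good_poly_bdd hA hOL hgm hRpos hgb (ε / 2) δ' hε2 hε2t hδ'0
  have htopi : Integrable (top f j0) haarAddCircle := hfi.indicator hsm
  have hgi : Integrable g haarAddCircle := integrable_of_bdd hgm hgb
  have hPi : Integrable (fun x => P x) haarAddCircle :=
    P.continuous.integrable_of_hasCompactSupport (HasCompactSupport.of_compactSpace _)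
  refine ⟨P, hP, ?_, ?_⟩
  · have hsub : {x | ε < C (fun y => f y - P y) x} ⊆
        {x | ε / 2 < C (top f j0) x} ∪ {x | ε / 2 < C (fun y => g y - P y) x} := by
      intro x hx
      rw [mem_ofPred_eq] at hx
      by_contra hcon
      rw [mem_union, not_or, mem_ofPred_eq, mem_ofPred_eq, not_lt, not_lt] at hcon
      have h1 := C_add_le htopi (hgi.sub hPi) x
      have h2 : (fun y => top f j0 y + (g - fun x => P x) y) = fun y => f y - P y := by
        ext y
        rw [hfg y]; simp only [Pi.sub_apply]; ring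
      rw [h2] at h1
      have h3 : C (fun y => f y - P y) x ≤ ε / 2 + ε / 2 := h1.trans (add_le_add hcon.1 hcon.2)
      rw [ENNReal.add_halves] at h3
      exact absurd hx (not_lt.mpr h3)
    refine (measure_mono hsub).trans ((measure_union_le _ _).trans ?_)
    calc _ ≤ δ / 2 + δ / 2 := by
          refine add_le_add ?_ (hP1.trans (min_le_left _ _))
          refine (measure_C_top_le hA hOL hf hlog j0 (ε / 2) hε2 hε2t).trans ?_
          rw [ENNReal.div_le_iff hε2 hε2t]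
          exact hj1.le
      _ = δ := ENNReal.add_halves δ
  · have hsub : {x | ε ≤ ‖f x - P x‖ₑ} ⊆
        {x | ε / 2 ≤ ‖top f j0 x‖ₑ} ∪ {x | ε / 2 ≤ ‖g x - P x‖ₑ} := by
      intro x hx
      rw [mem_ofPred_eq] at hx
      by_contra hcon
      rw [mem_union, not_or, mem_ofPred_eq, mem_ofPred_eq, not_le, not_le] at hcon
      have h1 : ‖f x - P x‖ₑ ≤ ‖top f j0 x‖ₑ + ‖g x - P x‖ₑ := by
        have : f x - P x = top f j0 x + (g x - P x) := by rw [hfg x]; ring
        rw [this]; exact enorm_add_le _ _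
      have h3 : ‖f x - P x‖ₑ < ε / 2 + ε / 2 := h1.trans_lt (ENNReal.add_lt_add hcon.1 hcon.2)
      rw [ENNReal.add_halves] at h3
      exact absurd hx (not_le.mpr h3)
    refine (measure_mono hsub).trans ((measure_union_le _ _).trans ?_)
    have htm : Measurable (top f j0) := hf.indicator hsm
    calc _ ≤ δ / 2 + δ / 2 := by
          refine add_le_add ?_ ?_
          · refine (meas_ge_le_lintegral_div htm.enorm.aemeasurable hε2 hε2t).trans ?_
            rw [ENNReal.div_le_iff hε2 hε2t]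
            exact (lintegral_top_le hf j0).trans hj2.le
          · refine (meas_ge_le_lintegral_div (hgm.sub P.continuous.measurable).enorm.aemeasurable
              hε2 hε2t).trans ?_
            rw [ENNReal.div_le_iff hε2 hε2t]
            exact hP2.trans (min_le_right _ _)
      _ = δ := ENNReal.add_halves δ

/-- a.e. convergence, measurable version. -/
theorem ae_tendsto_of_OL (hOL : OL T) {f : AddCircle T → ℂ} (hf : Measurable f)
    (hlog : ∫⁻ x, ‖f x‖ₑ * ENNReal.ofReal (Real.log (2 + ‖f x‖)) ∂haarAddCircle < ⊤) :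
    ∀ᵐ x ∂haarAddCircle, Tendsto (fun N : ℕ => S f N x) atTop (𝓝 (f x)) := by
  have hfi : Integrable f haarAddCircle := by
    refine ⟨hf.aestronglyMeasurable, ?_⟩
    have hl2 : (0 : ℝ) < Real.log 2 := Real.log_pos (by norm_num)
    have h1 : ENNReal.ofReal (Real.log 2) * ∫⁻ x, ‖f x‖ₑ ∂haarAddCircle < ⊤ := by
      rw [← lintegral_const_mul _ hf.enorm]
      refine lt_of_le_of_lt (lintegral_mono fun x => ?_) hlog
      rw [mul_comm]
      gcongr
      linarith [norm_nonneg (f x)]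
    rw [HasFiniteIntegral]
    by_contra hcon
    rw [not_lt, top_le_iff] at hcon
    rw [hcon, ENNReal.mul_top (by simpa using hl2)] at h1
    exact lt_irrefl _ h1
  have key : ∀ m : ℕ, haarAddCircle {x | ∃ᶠ N : ℕ in atTop,
      ((m : ℝ≥0∞) + 1)⁻¹ + ((m : ℝ≥0∞) + 1)⁻¹ < ‖S f N x - f x‖ₑ} = 0 := by
    intro m
    set ε : ℝ≥0∞ := ((m : ℝ≥0∞) + 1)⁻¹ with hε
    have hε0 : ε ≠ 0 := ENNReal.inv_ne_zero.mpr (by
      exact ENNReal.add_ne_top.mpr ⟨ENNReal.natCast_ne_top m, ENNReal.one_ne_top⟩)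
    have hεt : ε ≠ ∞ := ENNReal.inv_ne_top.mpr (by simp)
    have hle : ∀ δ : ℝ≥0∞, δ ≠ 0 → δ ≠ ∞ → haarAddCircle {x | ∃ᶠ N : ℕ in atTop,
        ε + ε < ‖S f N x - f x‖ₑ} ≤ δ + δ := by
      intro δ hδ0 hδ
      obtain ⟨P, hP, hP1, hP2⟩ := exists_good_poly hOL hf hlog hfi ε δ hε0 hεt hδ0 hδ
      refine (measure_mono ?_).trans ((measure_union_le _ _).trans (add_le_add hP1 hP2))
      intro x hx
      rw [mem_ofPred_eq] at hx
      by_contra hcon
      rw [mem_union, not_or, mem_ofPred_eq, mem_ofPred_eq, not_lt, not_le] at hcon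
      refine hx ?_
      filter_upwards [S_span hP] with N hN
      rw [not_lt]
      have hPi : Integrable (fun x => P x) haarAddCircle :=
        P.continuous.integrable_of_hasCompactSupport (HasCompactSupport.of_compactSpace _)
      have h1 : S f N x = S (fun y => f y - P y) N x + P x := by
        have h2 := S_add (hfi.sub hPi) hPi N x
        have h3 : (fun y => (f - fun x => P x) y + P y) = f := by
          ext y; simp
        rw [h3] at h2
        rw [h2]
        congr 1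
        exact hN x
      have h4 : S f N x - f x = S (fun y => f y - P y) N x - (f x - P x) := by rw [h1]; ring
      rw [h4]
      calc ‖S (fun y => f y - P y) N x - (f x - P x)‖ₑ
          ≤ ‖S (fun y => f y - P y) N x‖ₑ + ‖f x - P x‖ₑ := enorm_sub_le
        _ ≤ ε + ε := add_le_add ((le_iSup (fun N => ‖S (fun y => f y - P y) N x‖ₑ) N).trans
            hcon.1) hcon.2.le
    refine le_antisymm (ENNReal.le_of_forall_pos_le_add fun r hr _ => ?_) bot_le
    have := hle (r / 2 : ℝ≥0) (by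
      have : (0 : ℝ≥0) < r / 2 := by positivity
      exact_mod_cast this.ne') ENNReal.coe_ne_top
    rw [zero_add]
    refine this.trans (le_of_eq ?_)
    rw [← ENNReal.coe_add, add_halves]
  have hall : ∀ᵐ x ∂haarAddCircle, ∀ m : ℕ, ¬ ∃ᶠ N : ℕ in atTop,
      ((m : ℝ≥0∞) + 1)⁻¹ + ((m : ℝ≥0∞) + 1)⁻¹ < ‖S f N x - f x‖ₑ := by
    rw [ae_all_iff]
    intro m
    exact measure_eq_zero_iff_ae_notMem.mp (key m)
  filter_upwards [hall] with x hx
  rw [EMetric.tendsto_nhds]
  intro r hr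
  obtain ⟨m, hm⟩ := ENNReal.exists_inv_nat_lt (a := r / 2)
    (ENNReal.div_ne_zero.mpr ⟨hr.ne', by norm_num⟩)
  have h1 := hx m
  rw [not_frequently] at h1
  filter_upwards [h1] with N hN
  rw [not_lt] at hN
  rw [edist_eq_enorm_sub]
  have h2 : ((m : ℝ≥0∞) + 1)⁻¹ < r / 2 := by
    refine lt_of_le_of_lt ?_ hm
    exact ENNReal.inv_le_inv.mpr le_self_add
  calc ‖S f N x - f x‖ₑ ≤ ((m : ℝ≥0∞) + 1)⁻¹ + ((m : ℝ≥0∞) + 1)⁻¹ := hN
    _ < r / 2 + r / 2 := ENNReal.add_lt_add h2 h2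
    _ = r := ENNReal.add_halves r

/-- **Final reduction**: S0132 from the one-level bound. -/
theorem result_of_OL (hOL : OL T) (f : AddCircle T → ℂ)
    (hf : AEStronglyMeasurable f haarAddCircle)
    (hlog : ∫⁻ x, ‖f x‖ₑ * ENNReal.ofReal (Real.log (2 + ‖f x‖)) ∂haarAddCircle < ⊤) :
    ∀ᵐ x ∂haarAddCircle, Tendsto
      (fun N : ℕ => ∑ k ∈ Finset.Icc (-(N : ℤ)) N, fourierCoeff f k • fourier k x)
      atTop (𝓝 (f x)) := by
  have hae := hf.ae_eq_mk
  have hm : Measurable (hf.mk f) := hf.stronglyMeasurable_mk.measurable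
  have hlog' : ∫⁻ x, ‖hf.mk f x‖ₑ * ENNReal.ofReal (Real.log (2 + ‖hf.mk f x‖))
      ∂haarAddCircle < ⊤ := by
    refine lt_of_le_of_lt (le_of_eq ?_) hlog
    refine lintegral_congr_ae ?_
    filter_upwards [hae] with x hx
    rw [hx]
  filter_upwards [ae_tendsto_of_OL hOL hm hlog', hae] with x hx hfx
  rw [hfx]
  have hco : fourierCoeff f = fourierCoeff (hf.mk f) := fourierCoeff_congr_ae hae
  simp_rw [hco]
  exact hx

end Crest.Agent.R100.OneLevel403
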