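import Mathlib.MeasureTheory.Integral.Lebesgue.Markov
import Mathlib.MeasureTheory.Integral.Lebesgue.Countable
import Mathlib.MeasureTheory.Integral.Lebesgue.Add
import Mathlib.Data.Nat.Size
import Mathlib.Analysis.SpecialFunctions.Log.Basic
import Mathlib.Analysis.Complex.ExponentialBounds

/-!
Summation of weak-`L¹` functions (Stein–N. Weiss, Kalton), in `ℝ≥0∞`.
-/
set_option autoImplicit false
open MeasureTheory Set
open scoped ENNReal NNReal

namespace Crest.Agent.R100.WeakSum403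

variable {X : Type*} [MeasurableSpace X] {μ : Measure X}

/-- dyadic layer decomposition of a number `g ≤ lam`. -/
lemma dyadic_layers (g lam : ℝ≥0∞) (h : g ≤ lam) (m : ℕ) :
    g ≤ lam / 2 ^ m + ∑ i ∈ Finset.range m, (if lam / 2 ^ (i + 1) < g then lam / 2 ^ i else 0) := by
  induction m with
  | zero => simpa using h
  | succ m ih =>
    rw [Finset.sum_range_succ]
    by_cases hg : lam / 2 ^ (m + 1) < g
    · simp only [hg, if_true]
      calc g ≤ lam / 2 ^ m + ∑ i ∈ Finset.range m,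
            (if lam / 2 ^ (i + 1) < g then lam / 2 ^ i else 0) := ih
        _ ≤ lam / 2 ^ (m + 1) + (∑ i ∈ Finset.range m,
            (if lam / 2 ^ (i + 1) < g then lam / 2 ^ i else 0) + lam / 2 ^ m) := by
            rw [add_comm (lam / 2 ^ m)]
            exact le_add_self
    · exact (not_lt.mp hg).trans le_self_add

/-- Summation lemma for weak `L¹` functions. -/
theorem measure_tsum_lt (g : ℕ → X → ℝ≥0∞) (hg : ∀ j, Measurable (g j)) (b : ℕ → ℝ≥0∞)
    (hb : ∀ j, ∀ t : ℝ≥0∞, t ≠ 0 → t ≠ ∞ → μ {x | t < g j x} ≤ b j / t)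
    (m : ℕ → ℕ) (hm : ∑' j, (2 : ℝ≥0∞)⁻¹ ^ (m j) ≤ 2⁻¹) (lam : ℝ≥0∞) (h0 : lam ≠ 0)
    (hl : lam ≠ ∞) :
    μ {x | lam < ∑' j, g j x} ≤ (∑' j, b j * (1 + 4 * m j)) / lam := by
  have hpow0 : ∀ i : ℕ, (2 : ℝ≥0∞) ^ i ≠ 0 := fun i => by positivity
  have hpowt : ∀ i : ℕ, (2 : ℝ≥0∞) ^ i ≠ ∞ := fun i => ENNReal.pow_ne_top (by norm_num)
  set v : ℕ → X → ℝ≥0∞ := fun j x => ∑ i ∈ Finset.range (m j),
    (if lam / 2 ^ (i + 1) < g j x then lam / 2 ^ i else 0) with hv
  have hvm : ∀ j, Measurable (v j) := by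
    intro j
    refine Finset.measurable_sum _ fun i _ => ?_
    exact Measurable.ite (measurableSet_lt measurable_const (hg j)) measurable_const
      measurable_const
  have hvi : ∀ j, ∫⁻ x, v j x ∂μ ≤ b j * (2 * m j) := by
    intro j
    rw [lintegral_finsetSum]
    · calc ∑ i ∈ Finset.range (m j), ∫⁻ x, (if lam / 2 ^ (i + 1) < g j x then lam / 2 ^ i else 0) ∂μ
          ≤ ∑ i ∈ Finset.range (m j), b j * 2 := by
            refine Finset.sum_le_sum fun i _ => ?_
            have : (fun x => if lam / 2 ^ (i + 1) < g j x then lam / 2 ^ i else 0) =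
                indicator {x | lam / 2 ^ (i + 1) < g j x} (fun _ => lam / 2 ^ i) := by
              ext x; simp [indicator]
            rw [this, lintegral_indicator_const (measurableSet_lt measurable_const (hg j))]
            have ht0 : lam / 2 ^ (i + 1) ≠ 0 := ENNReal.div_ne_zero.mpr ⟨h0, hpowt _⟩
            have htt : lam / 2 ^ (i + 1) ≠ ∞ := ENNReal.div_ne_top hl (hpow0 _)
            calc lam / 2 ^ i * μ {x | lam / 2 ^ (i + 1) < g j x}
                ≤ lam / 2 ^ i * (b j / (lam / 2 ^ (i + 1))) := by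
                  gcongr; exact hb j _ ht0 htt
              _ = b j * ((lam / 2 ^ i) / (lam / 2 ^ (i + 1))) := by
                  rw [ENNReal.div_eq_inv_mul (a := b j), ENNReal.div_eq_inv_mul
                    (a := lam / 2 ^ i) (b := lam / 2 ^ (i + 1))]
                  ring
              _ = b j * 2 := by
                  congr 1
                  have e : lam / 2 ^ i = 2 * (lam / 2 ^ (i + 1)) := by
                    rw [pow_succ, ENNReal.div_eq_inv_mul,
                      ENNReal.div_eq_inv_mul, ENNReal.mul_inv (Or.inl (hpow0 _)) (Or.inl (hpowt _))]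
                    rw [show (2 : ℝ≥0∞) * ((2 ^ i)⁻¹ * 2⁻¹ * lam) = (2 * 2⁻¹) * ((2 ^ i)⁻¹ * lam) by
                      ring, ENNReal.mul_inv_cancel (by norm_num) (by norm_num), one_mul]
                  rw [e, ENNReal.mul_div_cancel_right ht0 htt]
        _ = b j * (2 * m j) := by
            rw [Finset.sum_const, Finset.card_range, nsmul_eq_mul]; ring
    · intro i _
      exact Measurable.ite (measurableSet_lt measurable_const (hg j)) measurable_const
        measurable_const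
  have hsub : {x | lam < ∑' j, g j x} ⊆ (⋃ j, {x | lam < g j x}) ∪ {x | lam / 2 ≤ ∑' j, v j x} := by
    intro x hx
    by_cases hbad : ∃ j, lam < g j x
    · exact Or.inl (mem_iUnion.mpr hbad)
    · right
      push Not at hbad
      simp only [mem_ofPred_eq] at hx ⊢
      by_contra hcon
      push Not at hcon
      have h1 : ∑' j, g j x ≤ ∑' j, (lam * 2⁻¹ ^ (m j) + v j x) := by
        refine ENNReal.tsum_le_tsum fun j => ?_
        have := dyadic_layers (g j x) lam (hbad j) (m j)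
        rwa [div_eq_mul_inv, ENNReal.inv_pow] at this
      rw [ENNReal.tsum_add, ENNReal.tsum_mul_left] at h1
      have h2 : lam * ∑' j, (2 : ℝ≥0∞)⁻¹ ^ (m j) ≤ lam / 2 := by
        rw [div_eq_mul_inv]; gcongr
      have h3 : ∑' j, g j x ≤ lam / 2 + ∑' j, v j x := h1.trans (by gcongr)
      have h4 : lam / 2 + ∑' j, v j x < lam / 2 + lam / 2 :=
        ENNReal.add_lt_add_left (ENNReal.div_ne_top hl (by norm_num)) hcon
      rw [ENNReal.add_halves] at h4
      exact absurd (hx.trans_le (h3.trans h4.le)) (lt_irrefl _)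
  have hl2 : lam / 2 ≠ 0 := ENNReal.div_ne_zero.mpr ⟨h0, by norm_num⟩
  have hl2t : lam / 2 ≠ ∞ := ENNReal.div_ne_top hl (by norm_num)
  calc μ {x | lam < ∑' j, g j x}
      ≤ μ (⋃ j, {x | lam < g j x}) + μ {x | lam / 2 ≤ ∑' j, v j x} :=
        (measure_mono hsub).trans (measure_union_le _ _)
    _ ≤ ∑' j, b j / lam + (∑' j, b j * (2 * m j)) / (lam / 2) := by
        refine add_le_add ((measure_iUnion_le _).trans
          (ENNReal.tsum_le_tsum fun j => hb j lam h0 hl)) ?_
        refine (meas_ge_le_lintegral_div (Measurable.ennreal_tsum hvm).aemeasurable hl2 hl2t).trans ?_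
        gcongr
        rw [lintegral_tsum fun j => (hvm j).aemeasurable]
        exact ENNReal.tsum_le_tsum hvi
    _ = (∑' j, b j * (1 + 4 * m j)) / lam := by
        have e1 : (lam / 2)⁻¹ = 2 * lam⁻¹ := by
          rw [div_eq_mul_inv, ENNReal.mul_inv (Or.inl h0) (Or.inl hl), inv_inv, mul_comm]
        rw [div_eq_mul_inv (∑' j, b j * (2 * m j)), e1]
        simp_rw [div_eq_mul_inv]
        rw [ENNReal.tsum_mul_right, ← mul_assoc, mul_comm _ (2 : ℝ≥0∞), ← add_mul,
          ← ENNReal.tsum_mul_left, ← ENNReal.tsum_add]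
        congr 2
        ext j
        ring

/-- weights `m j` with `∑ 2^{-m j} ≤ 1/2` and logarithmic size. -/
def wt (j : ℕ) : ℕ := 2 * Nat.size (j + 1) + 1

lemma sum_telescope (n : ℕ) :
    ∑ j ∈ Finset.range n, (1 / (2 * ((j : ℝ) + 1) * (j + 2))) = 1 / 2 - 1 / (2 * ((n : ℝ) + 1)) := by
  induction n with
  | zero => norm_num
  | succ n ih =>
    rw [Finset.sum_range_succ, ih]
    push_cast
    field_simp
    ring

lemma tsum_wt_le : ∑' j, (2 : ℝ≥0∞)⁻¹ ^ (wt j) ≤ 2⁻¹ := by
  have h1 : ∀ j : ℕ, (2 : ℝ≥0∞)⁻¹ ^ (wt j) ≤ ENNReal.ofReal (1 / (2 * ((j : ℝ) + 1) * (j + 2))) := by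
    intro j
    have h2 : j + 2 ≤ 2 ^ Nat.size (j + 1) := Nat.lt_size_self (j + 1)
    have h3 : ((j : ℝ) + 2) ≤ 2 ^ Nat.size (j + 1) := by exact_mod_cast h2
    have h4 : (2 : ℝ≥0∞)⁻¹ ^ (wt j) = ENNReal.ofReal ((1 / 2) ^ (wt j)) := by
      rw [ENNReal.ofReal_pow (by norm_num), one_div, ENNReal.ofReal_inv_of_pos (by norm_num)]
      simp
    rw [h4]
    refine ENNReal.ofReal_le_ofReal ?_
    rw [one_div_pow]
    refine one_div_le_one_div_of_le (by positivity) ?_
    rw [wt, pow_succ, pow_mul']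
    have : (0 : ℝ) ≤ j := Nat.cast_nonneg j
    nlinarith [h3]
  calc ∑' j, (2 : ℝ≥0∞)⁻¹ ^ (wt j) ≤ ∑' j : ℕ, ENNReal.ofReal (1 / (2 * ((j : ℝ) + 1) * (j + 2))) :=
        ENNReal.tsum_le_tsum h1
    _ ≤ 2⁻¹ := by
        rw [ENNReal.tsum_eq_iSup_nat]
        refine iSup_le fun n => ?_
        rw [← ENNReal.ofReal_sum_of_nonneg (fun j _ => by positivity), sum_telescope]
        calc ENNReal.ofReal (1 / 2 - 1 / (2 * ((n : ℝ) + 1))) ≤ ENNReal.ofReal (1 / 2) := by
              apply ENNReal.ofReal_le_ofReal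
              have : (0 : ℝ) ≤ 1 / (2 * ((n : ℝ) + 1)) := by positivity
              linarith
          _ = 2⁻¹ := by
              rw [one_div, ENNReal.ofReal_inv_of_pos (by norm_num)]; simp

/-- size of the weights: `1 + 4 * wt j ≤ 20 * (1 + log (1+j))`. -/
lemma wt_le (j : ℕ) : (1 + 4 * (wt j) : ℝ) ≤ 40 * (1 + Real.log (1 + j)) := by
  have h1 : 2 ^ (Nat.size (j + 1) - 1) ≤ j + 1 := by
    have h : Nat.size (j + 1) - 1 < Nat.size (j + 1) := by
      have : 0 < Nat.size (j + 1) := Nat.size_pos.mpr (Nat.succ_pos j)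
      omega
    exact Nat.lt_size.mp h
  have h2 : ((2 : ℝ) ^ (Nat.size (j + 1) - 1)) ≤ 1 + j := by
    have : ((2 ^ (Nat.size (j + 1) - 1) : ℕ) : ℝ) ≤ ((j + 1 : ℕ) : ℝ) := by exact_mod_cast h1
    push_cast at this; linarith
  have h3 := Real.log_le_log (by positivity) h2
  rw [Real.log_pow] at h3
  have h4 : (Nat.size (j + 1) : ℝ) ≤ ((Nat.size (j + 1) - 1 : ℕ) : ℝ) + 1 := by
    have : Nat.size (j + 1) ≤ (Nat.size (j + 1) - 1) + 1 := by omega
    exact_mod_cast this
  have h5 := Real.log_two_gt_d9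
  have h6 : ((Nat.size (j + 1) - 1 : ℕ) : ℝ) ≤ 2 * Real.log (1 + j) := by
    have : (0 : ℝ) ≤ ((Nat.size (j + 1) - 1 : ℕ) : ℝ) := Nat.cast_nonneg _
    nlinarith
  have h7 : (0 : ℝ) ≤ Real.log (1 + j) := Real.log_nonneg (by
    have : (0 : ℝ) ≤ j := Nat.cast_nonneg j
    linarith)
  rw [wt]; push_cast
  nlinarith

end Crest.Agent.R100.WeakSum403
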