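import Mathlib.Analysis.Fourier.AddCircle
import Mathlib.MeasureTheory.Function.ContinuousMapDense
import Mathlib.Analysis.SpecificLimits.Normed
import Crest.Agent.R100.WeakSum_403

/-!
From a one-level weak-type bound for the Carleson maximal operator to a.e. convergence for
`L log L` functions.
-/
set_option autoImplicit false
open MeasureTheory Set Filter Topology AddCircle
open scoped ENNReal NNReal

namespace Crest.Agent.R100.OneLevel403

variable {T : ℝ} [hT : Fact (0 < T)]

/-- symmetric partial sums -/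
noncomputable def S (f : AddCircle T → ℂ) (N : ℕ) (x : AddCircle T) : ℂ :=
  ∑ k ∈ Finset.Icc (-(N : ℤ)) N, fourierCoeff f k • fourier k x

/-- maximal function, `ℝ≥0∞`-valued -/
noncomputable def C (f : AddCircle T → ℂ) (x : AddCircle T) : ℝ≥0∞ := ⨆ N : ℕ, ‖S f N x‖ₑ

/-- the saving `1 + log (1 + log (1 + n))`. -/
noncomputable def ell (n : ℕ) : ℝ := 1 + Real.log (1 + Real.log (1 + n))

/-- One level bound for the Carleson maximal operator. -/
def OL (T : ℝ) [Fact (0 < T)] : Prop :=
  ∃ A : ℝ, 0 ≤ A ∧ ∀ n : ℕ, 1 ≤ n → ∀ f : AddCircle T → ℂ, Measurable f → (∀ x, ‖f x‖ ≤ 2 ^ n) →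
    ∫ x, ‖f x‖ ∂haarAddCircle ≤ 1 → ∀ lam : ℝ, 0 < lam →
    haarAddCircle {x | ∃ N : ℕ, lam < ‖S f N x‖} ≤ ENNReal.ofReal (A * (n / ell n) / lam)

lemma continuous_S (f : AddCircle T → ℂ) (N : ℕ) : Continuous (S f N) := by
  unfold S
  refine continuous_finsetSum _ fun k _ => ?_
  exact (show Continuous fun x : AddCircle T => fourierCoeff f k • (fourier k x : ℂ) from
    (continuous_const.mul (map_continuous (@fourier T k))))

lemma measurable_C (f : AddCircle T → ℂ) : Measurable (C f) := by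
  unfold C
  exact Measurable.iSup fun N => (continuous_S f N).measurable.enorm

lemma lt_C_iff (f : AddCircle T → ℂ) (x : AddCircle T) (t : ℝ≥0∞) :
    t < C f x ↔ ∃ N, t < ‖S f N x‖ₑ := by
  unfold C; exact lt_iSup_iff

lemma S_const_smul (f : AddCircle T → ℂ) (c : ℂ) (N : ℕ) (x : AddCircle T) :
    S (fun y => c * f y) N x = c * S f N x := by
  unfold S
  rw [Finset.mul_sum]
  refine Finset.sum_congr rfl fun k _ => ?_
  rw [fourierCoeff.const_mul]
  simp only [smul_eq_mul]; ring

lemma fourierCoeff_add' {f g : AddCircle T → ℂ} (hf : Integrable f haarAddCircle)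
    (hg : Integrable g haarAddCircle) (k : ℤ) :
    fourierCoeff (fun x => f x + g x) k = fourierCoeff f k + fourierCoeff g k := by
  exact congrFun (fourierCoeff.add hf hg) k

lemma S_add {f g : AddCircle T → ℂ} (hf : Integrable f haarAddCircle)
    (hg : Integrable g haarAddCircle) (N : ℕ) (x : AddCircle T) :
    S (fun y => f y + g y) N x = S f N x + S g N x := by
  unfold S
  rw [← Finset.sum_add_distrib]
  refine Finset.sum_congr rfl fun k _ => ?_
  rw [fourierCoeff_add' hf hg, add_smul]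

lemma C_add_le {f g : AddCircle T → ℂ} (hf : Integrable f haarAddCircle)
    (hg : Integrable g haarAddCircle) (x : AddCircle T) :
    C (fun y => f y + g y) x ≤ C f x + C g x := by
  unfold C
  refine iSup_le fun N => ?_
  rw [S_add hf hg]
  exact (enorm_add_le _ _).trans (add_le_add (le_iSup (fun N => ‖S f N x‖ₑ) N)
    (le_iSup (fun N => ‖S g N x‖ₑ) N))

lemma integrable_of_bdd {f : AddCircle T → ℂ} (hf : Measurable f) {M : ℝ} (hb : ∀ x, ‖f x‖ ≤ M) :
    Integrable f haarAddCircle :=
  Integrable.of_bound hf.aestronglyMeasurable M (ae_of_all _ hb)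

/-- scaled form of the one-level bound. -/
lemma ol_scaled {A : ℝ} (hOL : ∀ n : ℕ, 1 ≤ n → ∀ f : AddCircle T → ℂ, Measurable f →
    (∀ x, ‖f x‖ ≤ 2 ^ n) → ∫ x, ‖f x‖ ∂haarAddCircle ≤ 1 → ∀ lam : ℝ, 0 < lam →
    haarAddCircle {x | ∃ N : ℕ, lam < ‖S f N x‖} ≤ ENNReal.ofReal (A * (n / ell n) / lam))
    {n : ℕ} (hn : 1 ≤ n) {f : AddCircle T → ℂ} (hf : Measurable f) {a : ℝ} (ha : 0 < a)
    (hb : ∀ x, ‖f x‖ ≤ 2 ^ n * a) (hi : ∫ x, ‖f x‖ ∂haarAddCircle ≤ a)
    (t : ℝ≥0∞) (ht0 : t ≠ 0) (htt : t ≠ ∞) :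
    haarAddCircle {x | t < C f x} ≤ ENNReal.ofReal (A * (n / ell n) * a) / t := by
  have hτ : 0 < t.toReal := ENNReal.toReal_pos ht0 htt
  have h1 := hOL n hn (fun x => (a⁻¹ : ℝ) * f x) (hf.const_mul _) (fun x => by
    rw [norm_mul, Complex.norm_real, Real.norm_of_nonneg (inv_pos.mpr ha).le]
    calc a⁻¹ * ‖f x‖ ≤ a⁻¹ * (2 ^ n * a) := by gcongr; exact hb x
      _ = 2 ^ n := by field_simp) (by
    have : (fun x => ‖((a⁻¹ : ℝ) : ℂ) * f x‖) = fun x => a⁻¹ * ‖f x‖ := by
      ext x
      rw [norm_mul, Complex.norm_real, Real.norm_of_nonneg (inv_pos.mpr ha).le]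
    rw [this, integral_const_mul]
    calc a⁻¹ * ∫ x, ‖f x‖ ∂haarAddCircle ≤ a⁻¹ * a := by gcongr
      _ = 1 := by field_simp) (t.toReal / a) (by positivity)
  have hset : {x | t < C f x} = {x | ∃ N : ℕ, t.toReal / a <
      ‖S (fun x => ((a⁻¹ : ℝ) : ℂ) * f x) N x‖} := by
    ext x
    simp only [mem_ofPred_eq, lt_C_iff]
    refine exists_congr fun N => ?_
    rw [S_const_smul, norm_mul, Complex.norm_real, Real.norm_of_nonneg (inv_pos.mpr ha).le,
      ← ENNReal.toReal_lt_toReal htt enorm_ne_top, toReal_enorm, div_lt_iff₀ ha,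
      mul_comm a⁻¹, mul_assoc, inv_mul_cancel₀ ha.ne', mul_one]
  rw [hset]
  refine h1.trans (le_of_eq ?_)
  have : t = ENNReal.ofReal t.toReal := (ENNReal.ofReal_toReal htt).symm
  conv_rhs => rw [this, ← ENNReal.ofReal_div_of_pos hτ]
  congr 1
  field_simp

/-- countable subadditivity of the maximal function. -/
lemma C_tsum_le {F : ℕ → AddCircle T → ℂ} (hF : ∀ i, Integrable (F i) haarAddCircle)
    (hsum : Summable fun i => ∫ x, ‖F i x‖ ∂haarAddCircle) (x : AddCircle T) :
    C (fun y => ∑' i, F i y) x ≤ ∑' i, C (F i) x := by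
  have hco : ∀ k : ℤ, HasSum (fun i => fourierCoeff (F i) k)
      (fourierCoeff (fun y => ∑' i, F i y) k) := by
    intro k
    have h1 := hasSum_integral_of_summable_integral_norm
      (F := fun i t => fourier (-k) t • F i t) (μ := haarAddCircle)
      (fun i => (hF i).fourier_smul (-k)) (by
        refine hsum.congr fun i => ?_
        refine integral_congr_ae (ae_of_all _ fun t => ?_)
        simp only [norm_smul, fourier_apply, Circle.norm_coe, one_mul])
    have h2 : (fun t => ∑' i, fourier (-k) t • F i t) =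
        fun t => fourier (-k) t • ∑' i, F i t := by
      ext t
      simp only [smul_eq_mul]
      rw [tsum_mul_left]
    simp only [h2] at h1
    exact h1
  unfold C
  refine iSup_le fun N => ?_
  have hS : HasSum (fun i => S (F i) N x) (S (fun y => ∑' i, F i y) N x) := by
    unfold S
    exact hasSum_sum fun k _ => (hco k).smul_const _
  rw [← hS.tsum_eq]
  refine enorm_tsum_le_tsum_enorm.trans (ENNReal.tsum_le_tsum fun i => ?_)
  exact le_iSup (fun N => ‖S (F i) N x‖ₑ) N

/-- trigonometric polynomials are eventually reproduced. -/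
lemma S_span {P : C(AddCircle T, ℂ)} (hP : P ∈ Submodule.span ℂ (range (@fourier T))) :
    ∀ᶠ N : ℕ in atTop, ∀ x, S P N x = P x := by
  induction hP using Submodule.span_induction with
  | mem P hP =>
    obtain ⟨k, rfl⟩ := hP
    filter_upwards [eventually_ge_atTop k.natAbs] with N hN x
    unfold S
    rw [Finset.sum_eq_single k]
    · rw [fourierCoeff_fourier]; simp
    · intro m _ hm
      rw [fourierCoeff_fourier, Pi.single_eq_of_ne hm, zero_smul]
    · intro hk
      exfalso
      apply hk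
      rw [Finset.mem_Icc]
      omega
  | zero =>
    refine Eventually.of_forall fun N x => ?_
    unfold S
    simp [fourierCoeff]
  | add P Q _ _ hP hQ =>
    filter_upwards [hP, hQ] with N h1 h2 x
    have := S_add (f := P) (g := Q) (P.continuous.integrable_of_hasCompactSupport
      (HasCompactSupport.of_compactSpace _)) (Q.continuous.integrable_of_hasCompactSupport
      (HasCompactSupport.of_compactSpace _)) N x
    simp only [ContinuousMap.coe_add]
    rw [show ((P : AddCircle T → ℂ) + (Q : AddCircle T → ℂ)) = fun y => P y + Q y from rfl, this,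
      h1 x, h2 x]
  | smul c P _ hP =>
    filter_upwards [hP] with N h1 x
    simp only [ContinuousMap.coe_smul]
    rw [show (c • (P : AddCircle T → ℂ)) = fun y => c * P y from rfl, S_const_smul, h1 x]

/-- radial clamp. -/
noncomputable def clamp (R : ℝ) (z : ℂ) : ℂ := ((R / max R ‖z‖ : ℝ) : ℂ) * z

lemma continuous_clamp {R : ℝ} (hR : 0 < R) : Continuous (clamp R) := by
  unfold clamp
  refine Continuous.mul ?_ continuous_id
  refine Complex.continuous_ofReal.comp ?_
  refine Continuous.div continuous_const (continuous_const.max continuous_norm) fun z => ?_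
  exact (lt_max_of_lt_left hR).ne'

lemma norm_clamp_le {R : ℝ} (hR : 0 < R) (z : ℂ) : ‖clamp R z‖ ≤ R := by
  unfold clamp
  have hpos : 0 < max R ‖z‖ := lt_max_of_lt_left hR
  rw [norm_mul, Complex.norm_real, Real.norm_of_nonneg (by positivity), div_mul_eq_mul_div,
    div_le_iff₀ hpos]
  gcongr
  exact le_max_right _ _

lemma norm_sub_clamp_le {R : ℝ} (hR : 0 < R) (w z : ℂ) (hw : ‖w‖ ≤ R) :
    ‖w - clamp R z‖ ≤ 2 * ‖w - z‖ := by
  rcases le_or_gt ‖z‖ R with hz | hz
  · have : clamp R z = z := by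
      unfold clamp
      rw [max_eq_left hz, div_self hR.ne']; simp
    rw [this]
    linarith [norm_nonneg (w - z)]
  · have h1 : ‖z - clamp R z‖ = ‖z‖ - R := by
      unfold clamp
      rw [max_eq_right hz.le]
      have hz0 : 0 < ‖z‖ := hR.trans hz
      rw [show z - ((R / ‖z‖ : ℝ) : ℂ) * z = ((1 - R / ‖z‖ : ℝ) : ℂ) * z by push_cast; ring,
        norm_mul, Complex.norm_real, Real.norm_of_nonneg]
      · field_simp
      · rw [sub_nonneg, div_le_one hz0]; exact hz.le
    calc ‖w - clamp R z‖ = ‖(w - z) + (z - clamp R z)‖ := by ring_nf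
      _ ≤ ‖w - z‖ + ‖z - clamp R z‖ := norm_add_le _ _
      _ ≤ ‖w - z‖ + ‖w - z‖ := by
          rw [h1]
          have : ‖z‖ ≤ ‖w‖ + ‖w - z‖ := by
            calc ‖z‖ = ‖w - (w - z)‖ := by ring_nf
              _ ≤ ‖w‖ + ‖w - z‖ := norm_sub_le _ _
          linarith
      _ = 2 * ‖w - z‖ := by ring

/-- Approximation of bounded functions by trigonometric polynomials with control of the sup norm. -/
lemma exists_trig_approx {g : AddCircle T → ℂ} (hg : Measurable g) {R : ℝ} (hR : 0 < R)
    (hb : ∀ x, ‖g x‖ ≤ R) {η : ℝ} (hη : 0 < η) :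
    ∃ P : C(AddCircle T, ℂ), P ∈ Submodule.span ℂ (range (@fourier T)) ∧
      (∀ x, ‖g x - P x‖ ≤ 2 * R + 1) ∧ ∫ x, ‖g x - P x‖ ∂haarAddCircle ≤ η := by
  have hgi := integrable_of_bdd hg hb
  obtain ⟨u0, hu0, hu0i⟩ := hgi.exists_boundedContinuous_integral_sub_le
    (show (0 : ℝ) < η / 4 by positivity)
  let u : C(AddCircle T, ℂ) := ⟨fun x => clamp R (u0 x), (continuous_clamp hR).comp u0.continuous⟩
  have hclos := @span_fourier_closure_eq_top T hT
  have hu : u ∈ (Submodule.span ℂ (range (@fourier T))).topologicalClosure := by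
    rw [hclos]; trivial
  obtain ⟨P, hP, hPu⟩ := Metric.mem_closure_iff.mp (show u ∈ closure
    ((Submodule.span ℂ (range (@fourier T)) : Submodule ℂ C(AddCircle T, ℂ)) :
      Set C(AddCircle T, ℂ)) from hu) (min (η / 2) 1) (by positivity)
  have hPx : ∀ x, ‖u x - P x‖ ≤ min (η / 2) 1 := by
    intro x
    have h1 := (ContinuousMap.dist_apply_le_dist (f := u) (g := P) x).trans hPu.le
    rwa [dist_eq_norm] at h1
  have hgu : ∀ x, ‖g x - u x‖ ≤ 2 * ‖g x - u0 x‖ := fun x => norm_sub_clamp_le hR _ _ (hb x)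
  refine ⟨P, hP, fun x => ?_, ?_⟩
  · calc ‖g x - P x‖ = ‖g x - u x + (u x - P x)‖ := by ring_nf
      _ ≤ ‖g x - u x‖ + ‖u x - P x‖ := norm_add_le _ _
      _ ≤ (‖g x‖ + ‖u x‖) + 1 := by
          gcongr
          · exact norm_sub_le _ _
          · exact (hPx x).trans (min_le_right _ _)
      _ ≤ (R + R) + 1 := by
          gcongr
          · exact hb x
          · exact norm_clamp_le hR _
      _ = 2 * R + 1 := by ring
  · have hi : Integrable (fun x => g x - u0 x) haarAddCircle := hgi.sub hu0i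
    calc ∫ x, ‖g x - P x‖ ∂haarAddCircle
        ≤ ∫ x, (2 * ‖g x - u0 x‖ + η / 2) ∂haarAddCircle := by
          refine integral_mono_of_nonneg (ae_of_all _ fun x => norm_nonneg _)
            ((hi.norm.const_mul 2).add (integrable_const _)) (ae_of_all _ fun x => ?_)
          calc ‖g x - P x‖ = ‖g x - u x + (u x - P x)‖ := by ring_nf
            _ ≤ ‖g x - u x‖ + ‖u x - P x‖ := norm_add_le _ _
            _ ≤ 2 * ‖g x - u0 x‖ + η / 2 := by
              gcongr
              · exact hgu x
              · exact (hPx x).trans (min_le_left _ _)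
      _ = 2 * ∫ x, ‖g x - u0 x‖ ∂haarAddCircle + η / 2 := by
          rw [integral_add (hi.norm.const_mul 2) (integrable_const _), integral_const_mul]
          simp
      _ ≤ 2 * (η / 4) + η / 2 := by gcongr
      _ = η := by ring

end Crest.Agent.R100.OneLevel403
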