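import Mathlib

/-!
# R100 / S0132, part P1 (helper800)

Reduction of a.e. convergence of Fourier series in `L log L` to a maximal inequality for bounded
measurable functions.
-/

set_option autoImplicit false

open MeasureTheory Filter Set Topology
open scoped ENNReal NNReal

noncomputable section

namespace Crest.Agent.R100.P1800

variable {T : ℝ} [hT : Fact (0 < T)]

/-- symmetric partial sum of the Fourier series -/
def S (f : AddCircle T → ℂ) (N : ℕ) (x : AddCircle T) : ℂ :=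
  ∑ k ∈ Finset.Icc (-(N : ℤ)) N, fourierCoeff f k • fourier k x

/-- the Young function `t log (2 + t)` -/
def φ (t : ℝ) : ℝ := t * Real.log (2 + t)

/-- the modular `∫ |f| log (2 + |f|)` -/
def Phi (f : AddCircle T → ℂ) : ℝ≥0∞ :=
  ∫⁻ x, ENNReal.ofReal (φ ‖f x‖) ∂(AddCircle.haarAddCircle (T := T))

/-- **maximal inequality** for bounded measurable functions (finitely many partial sums). -/
def MI (T : ℝ) [hT : Fact (0 < T)] : Prop :=
  ∃ A : ℝ≥0, ∀ (f : AddCircle T → ℂ) (_ : Measurable f) (B : ℝ) (_ : ∀ x, ‖f x‖ ≤ B) (R : ℕ),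
    AddCircle.haarAddCircle {x | ∃ N ≤ R, 1 < ‖S f N x‖} ≤ A * Phi f

/-! ## the function `φ` -/

lemma log_nonneg' {t : ℝ} (ht : 0 ≤ t) : 0 ≤ Real.log (2 + t) := Real.log_nonneg (by linarith)

lemma phi_nonneg {t : ℝ} (ht : 0 ≤ t) : 0 ≤ φ t := mul_nonneg ht (log_nonneg' ht)

lemma phi_mono {s t : ℝ} (hs : 0 ≤ s) (hst : s ≤ t) : φ s ≤ φ t := by
  unfold φ
  have h1 : Real.log (2 + s) ≤ Real.log (2 + t) := Real.log_le_log (by linarith) (by linarith)
  exact mul_le_mul hst h1 (log_nonneg' hs) (hs.trans hst)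

lemma log_two_half : (1 / 2 : ℝ) ≤ Real.log 2 := by
  have := Real.log_two_gt_d9
  linarith

lemma half_le_phi {t : ℝ} (ht : 0 ≤ t) : t / 2 ≤ φ t := by
  unfold φ
  have h1 : (1 / 2 : ℝ) ≤ Real.log (2 + t) :=
    log_two_half.trans (Real.log_le_log (by norm_num) (by linarith))
  nlinarith

/-- `φ (c t) ≤ c (c + 2) φ t`-type bound, for `c ≥ 1` -/
lemma phi_mul_le {c t : ℝ} (hc : 1 ≤ c) (ht : 0 ≤ t) : φ (c * t) ≤ c * (2 * c) * φ t := by
  unfold φ
  have h0 : 0 ≤ c * t := by positivity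
  -- 2 + c t ≤ c (2 + t), log ≤ log c + log (2 + t) ≤ c + ..
  have h1 : Real.log (2 + c * t) ≤ Real.log c + Real.log (2 + t) := by
    rw [← Real.log_mul (by linarith) (by linarith)]
    exact Real.log_le_log (by linarith) (by nlinarith)
  have h2 : Real.log c ≤ c - 1 := Real.log_le_sub_one_of_pos (by linarith)
  have h3 : (1 / 2 : ℝ) ≤ Real.log (2 + t) :=
    log_two_half.trans (Real.log_le_log (by norm_num) (by linarith))
  have h4 : Real.log (2 + c * t) ≤ 2 * c * Real.log (2 + t) := by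
    nlinarith
  calc c * t * Real.log (2 + c * t) ≤ c * t * (2 * c * Real.log (2 + t)) :=
        mul_le_mul_of_nonneg_left h4 h0
    _ = c * (2 * c) * (t * Real.log (2 + t)) := by ring

lemma phi_add_le {a b : ℝ} (ha : 0 ≤ a) (hb : 0 ≤ b) : φ (a + b) ≤ φ (2 * a) + φ (2 * b) := by
  rcases le_total a b with h | h
  · calc φ (a + b) ≤ φ (2 * b) := phi_mono (by linarith) (by linarith)
      _ ≤ _ := by linarith [phi_nonneg (show 0 ≤ 2 * a by linarith)]
  · calc φ (a + b) ≤ φ (2 * a) := phi_mono (by linarith) (by linarith)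
      _ ≤ _ := by linarith [phi_nonneg (show 0 ≤ 2 * b by linarith)]

lemma phi_le_sq {t : ℝ} (ht : 0 ≤ t) : φ t ≤ t + t ^ 2 := by
  unfold φ
  have h1 : Real.log (2 + t) ≤ 1 + t := by
    have := Real.log_le_sub_one_of_pos (show (0 : ℝ) < 2 + t by linarith)
    linarith
  nlinarith

lemma continuous_phi : ContinuousOn φ (Ici 0) := by
  unfold φ
  apply ContinuousOn.mul continuousOn_id
  apply ContinuousOn.log (by fun_prop)
  intro x hx
  have : (0 : ℝ) ≤ x := hx
  positivity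

lemma measurable_phi_norm {α : Type*} [MeasurableSpace α] {f : α → ℂ} (hf : Measurable f) :
    Measurable (fun x => φ ‖f x‖) := by
  unfold φ
  fun_prop

lemma aemeasurable_phi_norm {α : Type*} [MeasurableSpace α] {μ : Measure α} {f : α → ℂ}
    (hf : AEMeasurable f μ) :
    AEMeasurable (fun x => ENNReal.ofReal (φ ‖f x‖)) μ := by
  unfold φ
  fun_prop

/-! ## basic facts on `S` -/

local notation "μ" => AddCircle.haarAddCircle (T := T)

lemma S_sub {f g : AddCircle T → ℂ} (hf : Integrable f μ) (hg : Integrable g μ) (N : ℕ)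
    (x : AddCircle T) : S (fun y => f y - g y) N x = S f N x - S g N x := by
  unfold S
  rw [← Finset.sum_sub_distrib]
  refine Finset.sum_congr rfl fun k _ => ?_
  have h1 : (fun y => f y - g y) = f + (fun y => (-1 : ℂ) • g y) := by
    funext y; simp [sub_eq_add_neg]
  have h2 : Integrable (fun y => (-1 : ℂ) • g y) μ := hg.smul (-1 : ℂ)
  have h3 := congrFun (fourierCoeff.add hf h2) k
  rw [h1, h3]
  have h4 := fourierCoeff.const_smul g (-1 : ℂ) k
  have h5 : fourierCoeff (fun y => (-1 : ℂ) • g y) k = (-1 : ℂ) • fourierCoeff g k := h4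
  simp only [Pi.add_apply, h5]
  simp only [smul_eq_mul]
  ring

lemma S_congr {f g : AddCircle T → ℂ} (h : f =ᵐ[μ] g) (N : ℕ) (x : AddCircle T) :
    S f N x = S g N x := by
  unfold S
  refine Finset.sum_congr rfl fun k _ => ?_
  rw [fourierCoeff_congr_ae h]

lemma continuous_S (f : AddCircle T → ℂ) (N : ℕ) : Continuous (S f N) := by
  unfold S
  refine continuous_finsetSum _ fun k _ => ?_
  have h : Continuous (fun x : AddCircle T => fourier k x) := map_continuous (fourier k)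
  simp only [smul_eq_mul]
  exact continuous_const.mul h

/-- convergence of the coefficients under domination -/
lemma S_tendsto {f : AddCircle T → ℂ} {g : ℕ → AddCircle T → ℂ} {h : AddCircle T → ℝ}
    (hg : ∀ j, AEStronglyMeasurable (g j) μ) (hh : Integrable h μ)
    (hgh : ∀ j, ∀ᵐ x ∂μ, ‖g j x‖ ≤ h x)
    (hlim : ∀ᵐ x ∂μ, Tendsto (fun j => g j x) atTop (𝓝 (f x))) (N : ℕ) (x : AddCircle T) :
    Tendsto (fun j => S (g j) N x) atTop (𝓝 (S f N x)) := by
  unfold S
  refine tendsto_finsetSum _ fun k _ => ?_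
  refine Tendsto.smul_const ?_ _
  unfold fourierCoeff
  refine tendsto_integral_of_dominated_convergence h ?_ hh ?_ ?_
  · intro j
    exact ((map_continuous (fourier (-k))).aestronglyMeasurable).smul (hg j)
  · intro j
    filter_upwards [hgh j] with y hy
    rw [norm_smul]
    have : ‖fourier (-k) y‖ = 1 := by
      rw [fourier_apply]
      exact Circle.norm_coe _
    rw [this, one_mul]
    exact hy
  · filter_upwards [hlim] with y hy
    exact hy.const_smul _

/-- measurability of the sets of large maximal function -/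
lemma measurableSet_max (f : AddCircle T → ℂ) (R : ℕ) (c : ℝ) :
    MeasurableSet {x | ∃ N ≤ R, c < ‖S f N x‖} := by
  have : {x | ∃ N ≤ R, c < ‖S f N x‖} = ⋃ N ∈ Finset.range (R + 1), {x | c < ‖S f N x‖} := by
    ext x; simp
  rw [this]
  refine Finset.measurableSet_biUnion _ fun N _ => ?_
  exact measurableSet_lt measurable_const (continuous_S f N).norm.measurable

lemma phi_le_integrable {f : AddCircle T → ℂ} (hf : AEStronglyMeasurable f μ)
    (hP : Phi f < ⊤) : Integrable f μ := by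
  refine ⟨hf, ?_⟩
  unfold HasFiniteIntegral
  have h1 : ∫⁻ x, ‖f x‖ₑ ∂μ ≤ ∫⁻ x, 2 * ENNReal.ofReal (φ ‖f x‖) ∂μ := by
    refine lintegral_mono fun x => ?_
    have h2 := half_le_phi (norm_nonneg (f x))
    rw [← ofReal_norm]
    calc ENNReal.ofReal ‖f x‖ ≤ ENNReal.ofReal (2 * φ ‖f x‖) :=
          ENNReal.ofReal_le_ofReal (by linarith)
      _ = 2 * ENNReal.ofReal (φ ‖f x‖) := by
          rw [ENNReal.ofReal_mul (by norm_num)]; norm_num
  refine h1.trans_lt ?_
  rw [lintegral_const_mul' _ _ (by norm_num)]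
  exact ENNReal.mul_lt_top (by norm_num) hP

lemma Phi_mono_norm {f g : AddCircle T → ℂ} (h : ∀ᵐ x ∂μ, ‖f x‖ ≤ ‖g x‖) : Phi f ≤ Phi g := by
  refine lintegral_mono_ae ?_
  filter_upwards [h] with x hx
  exact ENNReal.ofReal_le_ofReal (phi_mono (norm_nonneg _) hx)

/-- the maximal inequality extends to all functions with finite modular, all partial sums -/
lemma max_general {A : ℝ≥0} (hA : ∀ (f : AddCircle T → ℂ) (_ : Measurable f) (B : ℝ)
      (_ : ∀ x, ‖f x‖ ≤ B) (R : ℕ), μ {x | ∃ N ≤ R, 1 < ‖S f N x‖} ≤ A * Phi f)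
    {f : AddCircle T → ℂ} (hf : AEStronglyMeasurable f μ) (hP : Phi f < ⊤) :
    μ {x | ∃ N, 1 < ‖S f N x‖} ≤ A * Phi f := by
  -- first a measurable representative
  set f' := hf.mk f with hf'
  have hff' : f =ᵐ[μ] f' := hf.ae_eq_mk
  have hm : Measurable f' := hf.stronglyMeasurable_mk.measurable
  have hint : Integrable f μ := phi_le_integrable hf hP
  have hint' : Integrable f' μ := hint.congr hff'
  -- truncations
  let g : ℕ → AddCircle T → ℂ := fun j x => if ‖f' x‖ ≤ j then f' x else 0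
  have hgm : ∀ j, Measurable (g j) := fun j =>
    Measurable.ite (measurableSet_le hm.norm measurable_const) hm measurable_const
  have hgle : ∀ j x, ‖g j x‖ ≤ ‖f' x‖ := by
    intro j x
    simp only [g]
    split_ifs
    · exact le_rfl
    · simp
  have hgb : ∀ j x, ‖g j x‖ ≤ (j : ℝ) := by
    intro j x
    simp only [g]
    split_ifs with h
    · exact h
    · simp
  have hglim : ∀ x, Tendsto (fun j => g j x) atTop (𝓝 (f' x)) := by
    intro x
    refine tendsto_const_nhds.congr' ?_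
    obtain ⟨n, hn⟩ := exists_nat_ge ‖f' x‖
    filter_upwards [eventually_ge_atTop n] with j hj
    simp only [g]
    rw [if_pos (hn.trans (by exact_mod_cast hj))]
  have hS : ∀ N x, Tendsto (fun j => S (g j) N x) atTop (𝓝 (S f N x)) := by
    intro N x
    rw [S_congr hff' N x]
    exact S_tendsto (fun j => (hgm j).aestronglyMeasurable) hint'.norm
      (fun j => Eventually.of_forall (hgle j)) (Eventually.of_forall hglim) N x
  have hPg : ∀ j, Phi (g j) ≤ Phi f := by
    intro j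
    refine Phi_mono_norm ?_
    filter_upwards [hff'] with x hx
    rw [hx]
    exact hgle j x
  have hR : ∀ R : ℕ, μ {x | ∃ N ≤ R, 1 < ‖S f N x‖} ≤ A * Phi f := by
    intro R
    have hsub : {x | ∃ N ≤ R, 1 < ‖S f N x‖} ⊆
        ⋃ i : ℕ, ⋂ j : ℕ, ⋂ (_ : i ≤ j), {x | ∃ N ≤ R, 1 < ‖S (g j) N x‖} := by
      rintro x ⟨N, hN, hx⟩
      have h1 : Tendsto (fun j => ‖S (g j) N x‖) atTop (𝓝 ‖S f N x‖) := (hS N x).norm
      have h2 := h1.eventually (lt_mem_nhds hx)
      obtain ⟨i, hi⟩ := eventually_atTop.1 h2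
      refine mem_iUnion.2 ⟨i, mem_iInter.2 fun j => mem_iInter.2 fun hij => ?_⟩
      exact ⟨N, hN, hi j hij⟩
    refine (measure_mono hsub).trans ?_
    have hmono : Monotone (fun i : ℕ => ⋂ j : ℕ, ⋂ (_ : i ≤ j),
        {x | ∃ N ≤ R, 1 < ‖S (g j) N x‖}) := by
      intro i i' hii' x hx
      simp only [mem_iInter] at hx ⊢
      exact fun j hj => hx j (hii'.trans hj)
    rw [hmono.measure_iUnion]
    refine iSup_le fun i => ?_
    calc μ (⋂ j : ℕ, ⋂ (_ : i ≤ j), {x | ∃ N ≤ R, 1 < ‖S (g j) N x‖})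
        ≤ μ {x | ∃ N ≤ R, 1 < ‖S (g i) N x‖} :=
          measure_mono (fun x hx => by simp only [mem_iInter] at hx; exact hx i le_rfl)
      _ ≤ A * Phi (g i) := hA (g i) (hgm i) i (hgb i) R
      _ ≤ A * Phi f := by gcongr; exact hPg i
  have hU : {x | ∃ N, 1 < ‖S f N x‖} = ⋃ R : ℕ, {x | ∃ N ≤ R, 1 < ‖S f N x‖} := by
    ext x
    simp only [mem_ofPred_eq, mem_iUnion]
    constructor
    · rintro ⟨N, hN⟩; exact ⟨N, N, le_rfl, hN⟩
    · rintro ⟨R, N, _, hN⟩; exact ⟨N, hN⟩
  rw [hU]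
  have hmono : Monotone (fun R : ℕ => {x | ∃ N ≤ R, 1 < ‖S f N x‖}) := by
    rintro R R' h x ⟨N, hN, hx⟩
    exact ⟨N, hN.trans h, hx⟩
  rw [hmono.measure_iUnion]
  exact iSup_le hR

/-! ## approximation by trigonometric polynomials -/

/-- the trigonometric polynomials reproduce themselves under `S_N` for large `N` -/
lemma S_fourier (k : ℤ) (N : ℕ) (hN : k.natAbs ≤ N) (x : AddCircle T) :
    S (fun y => fourier k y) N x = fourier k x := by
  unfold S
  have h1 : ∀ n : ℤ, fourierCoeff (fun y : AddCircle T => fourier k y) n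
      = if n = k then 1 else 0 := by
    intro n
    have h := fourierCoeff_fourier (T := T) k
    have h2 := congrFun h n
    have h3 : fourierCoeff (fun y : AddCircle T => fourier k y) n
      = fourierCoeff (⇑(fourier (T := T) k)) n := rfl
    rw [h3, h2]
    simp [Pi.single_apply]
  simp only [h1]
  rw [Finset.sum_eq_single k]
  · simp
  · intro n _ hn
    simp [hn]
  · intro hk
    exfalso
    apply hk
    rw [Finset.mem_Icc]
    omega

lemma S_S (f : AddCircle T → ℂ) (M N : ℕ) (hMN : M ≤ N) (x : AddCircle T) :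
    S (S f M) N x = S f M x := by
  have h1 : ∀ n : ℤ, fourierCoeff (S f M) n
      = if n ∈ Finset.Icc (-(M : ℤ)) M then fourierCoeff f n else 0 := by
    intro n
    have h2 : S f M = ∑ k ∈ Finset.Icc (-(M : ℤ)) M, (fun y : AddCircle T =>
        fourierCoeff f k • fourier k y) := by
      funext y
      simp [S]
    rw [h2]
    have h3 := fourierCoeff.sum (T := T) (Finset.Icc (-(M : ℤ)) M)
      (fun k => (fun y : AddCircle T => fourierCoeff f k • fourier k y)) (by
        intro k _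
        have hc : Continuous (fun y : AddCircle T => fourierCoeff f k • fourier k y) := by
          have h : Continuous (fun x : AddCircle T => fourier k x) := map_continuous (fourier k)
          simp only [smul_eq_mul]
          exact continuous_const.mul h
        exact hc.integrable_of_hasCompactSupport (HasCompactSupport.of_compactSpace _))
    rw [h3, Finset.sum_apply]
    have h4 : ∀ k : ℤ, fourierCoeff (fun y : AddCircle T => fourierCoeff f k • fourier k y) n
        = fourierCoeff f k * (if n = k then 1 else 0) := by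
      intro k
      have h5 := fourierCoeff.const_smul (⇑(fourier (T := T) k)) (fourierCoeff f k) n
      have h6 : (fun y : AddCircle T => fourierCoeff f k • fourier k y)
        = fourierCoeff f k • (⇑(fourier (T := T) k)) := rfl
      rw [h6]
      refine h5.trans ?_
      rw [congrFun (fourierCoeff_fourier (T := T) k) n]
      simp [Pi.single_apply]
    simp only [h4]
    by_cases hn : n ∈ Finset.Icc (-(M : ℤ)) M
    · rw [if_pos hn, Finset.sum_eq_single n]
      · simp
      · intro k _ hk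
        simp [Ne.symm hk]
      · intro h; exact absurd hn h
    · rw [if_neg hn]
      refine Finset.sum_eq_zero fun k hk => ?_
      have : n ≠ k := fun h => hn (h ▸ hk)
      simp [this]
  have hsub : Finset.Icc (-(M : ℤ)) M ⊆ Finset.Icc (-(N : ℤ)) N := by
    apply Finset.Icc_subset_Icc <;> omega
  have e1 : S (S f M) N x = ∑ k ∈ Finset.Icc (-(N : ℤ)) N,
      fourierCoeff (S f M) k • fourier k x := rfl
  have e2 : S f M x = ∑ k ∈ Finset.Icc (-(M : ℤ)) M, fourierCoeff f k • fourier k x := rfl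
  rw [e1, e2, ← Finset.sum_subset hsub]
  · refine Finset.sum_congr rfl fun k hk => ?_
    rw [h1, if_pos hk]
  · intro k _ hk
    rw [h1, if_neg hk, zero_smul]

/-- `S f N → f` in `L²` for bounded measurable `f` -/
lemma tendsto_L2 {f : AddCircle T → ℂ} (hf : MemLp f 2 μ) :
    Tendsto (fun N : ℕ => eLpNorm (fun x => f x - S f N x) 2 μ) atTop (𝓝 0) := by
  set F : Lp ℂ 2 μ := hf.toLp f with hF
  have h1 := hasSum_fourier_series_L2 (T := T) F
  have h2 : Tendsto (fun N : ℕ => ∑ i ∈ Finset.Icc (-(N : ℤ)) N,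
      fourierCoeff F i • fourierLp 2 i) atTop (𝓝 F) := by
    refine h1.comp ?_
    refine tendsto_atTop_finset_of_monotone ?_ ?_
    · intro a b hab
      apply Finset.Icc_subset_Icc <;> omega
    · intro n
      exact ⟨n.natAbs, by rw [Finset.mem_Icc]; omega⟩
  have h3 : Tendsto (fun N : ℕ => ‖F - ∑ i ∈ Finset.Icc (-(N : ℤ)) N,
      fourierCoeff F i • fourierLp 2 i‖) atTop (𝓝 0) := by
    have := (tendsto_const_nhds (x := F)).sub h2
    rw [sub_self] at this
    simpa using this.norm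
  have h4 : ∀ N : ℕ, eLpNorm (fun x => f x - S f N x) 2 μ
      = ENNReal.ofReal ‖F - ∑ i ∈ Finset.Icc (-(N : ℤ)) N,
        fourierCoeff F i • fourierLp 2 i‖ := by
    intro N
    rw [Lp.norm_def, ENNReal.ofReal_toReal (Lp.eLpNorm_ne_top _)]
    refine eLpNorm_congr_ae ?_
    have e1 : (F - ∑ i ∈ Finset.Icc (-(N : ℤ)) N, fourierCoeff F i • fourierLp 2 i : Lp ℂ 2 μ)
        =ᵐ[μ] fun x => F x - (∑ i ∈ Finset.Icc (-(N : ℤ)) N,
          fourierCoeff F i • fourierLp 2 i : Lp ℂ 2 μ) x := Lp.coeFn_sub _ _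
    have e2 : (F : AddCircle T → ℂ) =ᵐ[μ] f := hf.coeFn_toLp
    have e3 : ((∑ i ∈ Finset.Icc (-(N : ℤ)) N, fourierCoeff F i • fourierLp 2 i : Lp ℂ 2 μ) :
        AddCircle T → ℂ) =ᵐ[μ] fun x => ∑ i ∈ Finset.Icc (-(N : ℤ)) N,
          (fourierCoeff F i • fourierLp 2 i : Lp ℂ 2 μ) x := by
      have := Lp.coeFn_finsetSum (Finset.Icc (-(N : ℤ)) N)
        (fun i => (fourierCoeff F i • fourierLp 2 i : Lp ℂ 2 μ))
      filter_upwards [this] with x hx
      rw [hx, Finset.sum_apply]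
    have e4 : ∀ᵐ x ∂μ, ∀ i : ℤ, (fourierCoeff F i • fourierLp 2 i : Lp ℂ 2 μ) x
        = fourierCoeff F i • fourier i x := by
      rw [ae_all_iff]
      intro i
      filter_upwards [Lp.coeFn_smul (fourierCoeff F i) (fourierLp 2 i),
        coeFn_fourierLp (T := T) 2 i] with x hx1 hx2
      rw [hx1, Pi.smul_apply, hx2]
    filter_upwards [e1, e2, e3, e4] with x hx1 hx2 hx3 hx4
    rw [hx1, hx2, hx3]
    congr 1
    unfold S
    refine Finset.sum_congr rfl fun i _ => ?_
    rw [hx4 i, fourierCoeff_congr_ae e2]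
  simp only [h4]
  have := ENNReal.tendsto_ofReal h3
  simpa using this

lemma phi_zero : φ 0 = 0 := by simp [φ]

lemma measurable_phi : Measurable φ := by
  unfold φ
  fun_prop

/-- modular of a function small in `L²` -/
lemma Phi_le_L2 {g : AddCircle T → ℂ} (hg : AEStronglyMeasurable g μ) (c : ℝ) (hc : 0 ≤ c) :
    ∫⁻ x, ENNReal.ofReal (φ (c * ‖g x‖)) ∂μ
      ≤ ENNReal.ofReal c * eLpNorm g 2 μ + ENNReal.ofReal (c ^ 2) * (eLpNorm g 2 μ) ^ 2 := by
  have h1 : ∀ x, ENNReal.ofReal (φ (c * ‖g x‖))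
      ≤ ENNReal.ofReal c * ‖g x‖ₑ + ENNReal.ofReal (c ^ 2) * ‖g x‖ₑ ^ 2 := by
    intro x
    have h2 := phi_le_sq (t := c * ‖g x‖) (by positivity)
    calc ENNReal.ofReal (φ (c * ‖g x‖))
        ≤ ENNReal.ofReal (c * ‖g x‖ + (c * ‖g x‖) ^ 2) := ENNReal.ofReal_le_ofReal h2
      _ = ENNReal.ofReal (c * ‖g x‖) + ENNReal.ofReal ((c * ‖g x‖) ^ 2) :=
          ENNReal.ofReal_add (by positivity) (by positivity)
      _ = _ := by
          rw [ENNReal.ofReal_mul hc, mul_pow, ENNReal.ofReal_mul (by positivity),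
            ENNReal.ofReal_pow (norm_nonneg _), ofReal_norm]
  refine (lintegral_mono h1).trans ?_
  have hm : AEMeasurable (fun x => ‖g x‖ₑ) μ := hg.enorm
  rw [lintegral_add_left' (hm.const_mul _), lintegral_const_mul'' _ hm,
    lintegral_const_mul'' _ (hm.pow_const 2)]
  gcongr
  · have h3 : ∫⁻ x, ‖g x‖ₑ ∂μ = eLpNorm g 1 μ := by
      rw [eLpNorm_one_eq_lintegral_enorm]
    rw [h3]
    exact eLpNorm_le_eLpNorm_of_exponent_le (by norm_num) hg
  · have h3 : ∫⁻ x, ‖g x‖ₑ ^ 2 ∂μ = (eLpNorm g 2 μ) ^ 2 := by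
      have h4 : eLpNorm g ((2 : ℝ≥0) : ℝ≥0∞) μ ^ ((2 : ℝ≥0) : ℝ)
          = ∫⁻ x, ‖g x‖ₑ ^ ((2 : ℝ≥0) : ℝ) ∂μ := eLpNorm_nnreal_pow_eq_lintegral (by norm_num)
      simpa using h4.symm
    exact h3.le

lemma approx {f : AddCircle T → ℂ} (hf : AEStronglyMeasurable f μ) (hP : Phi f < ⊤)
    (c : ℝ) (hc : 1 ≤ c) (δ : ℝ≥0∞) (hδ : 0 < δ) :
    ∃ p : AddCircle T → ℂ, Continuous p ∧ (∃ d : ℕ, ∀ N ≥ d, ∀ x, S p N x = p x) ∧
      ∫⁻ x, ENNReal.ofReal (φ (c * ‖f x - p x‖)) ∂μ ≤ δ := by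
  set f' := hf.mk f with hf'
  have hff' : f =ᵐ[μ] f' := hf.ae_eq_mk
  have hm : Measurable f' := hf.stronglyMeasurable_mk.measurable
  let g : ℕ → AddCircle T → ℂ := fun j x => if ‖f' x‖ ≤ j then f' x else 0
  have hgm : ∀ j, Measurable (g j) := fun j =>
    Measurable.ite (measurableSet_le hm.norm measurable_const) hm measurable_const
  have hgb : ∀ j x, ‖g j x‖ ≤ (j : ℝ) := by
    intro j x
    simp only [g]
    split_ifs with h
    · exact h
    · simp
  have hfg : ∀ j x, ‖f' x - g j x‖ ≤ ‖f' x‖ := by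
    intro j x
    simp only [g]
    split_ifs <;> simp
  -- first part
  have hP' : ∫⁻ x, ENNReal.ofReal (φ (2 * c * ‖f' x‖)) ∂μ ≠ ⊤ := by
    have h1 : ∫⁻ x, ENNReal.ofReal (φ (2 * c * ‖f' x‖)) ∂μ
        ≤ ∫⁻ x, ENNReal.ofReal (2 * c * (2 * (2 * c))) * ENNReal.ofReal (φ ‖f' x‖) ∂μ := by
      refine lintegral_mono fun x => ?_
      rw [← ENNReal.ofReal_mul (by positivity)]
      exact ENNReal.ofReal_le_ofReal (phi_mul_le (by linarith) (norm_nonneg _))
    refine ne_top_of_le_ne_top ?_ h1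
    rw [lintegral_const_mul' _ _ ENNReal.ofReal_ne_top]
    refine ENNReal.mul_ne_top ENNReal.ofReal_ne_top ?_
    have : ∫⁻ x, ENNReal.ofReal (φ ‖f' x‖) ∂μ = Phi f := by
      refine lintegral_congr_ae ?_
      filter_upwards [hff'] with x hx
      rw [hx]
    rw [this]
    exact hP.ne
  have hlim1 : Tendsto (fun j : ℕ => ∫⁻ x, ENNReal.ofReal (φ (2 * c * ‖f' x - g j x‖)) ∂μ)
      atTop (𝓝 0) := by
    have h0 : (0 : ℝ≥0∞) = ∫⁻ _x : AddCircle T, 0 ∂μ := by simp
    rw [h0]
    refine tendsto_lintegral_of_dominated_convergence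
      (fun x => ENNReal.ofReal (φ (2 * c * ‖f' x‖))) ?_ ?_ hP' ?_
    · intro j
      exact ENNReal.measurable_ofReal.comp (measurable_phi.comp
        ((measurable_const).mul (hm.sub (hgm j)).norm))
    · intro j
      refine Eventually.of_forall fun x => ?_
      refine ENNReal.ofReal_le_ofReal (phi_mono (by positivity) ?_)
      exact mul_le_mul_of_nonneg_left (hfg j x) (by positivity)
    · refine Eventually.of_forall fun x => ?_
      refine tendsto_const_nhds.congr' ?_
      obtain ⟨n, hn⟩ := exists_nat_ge ‖f' x‖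
      filter_upwards [eventually_ge_atTop n] with j hj
      have : g j x = f' x := by
        simp only [g]
        rw [if_pos (hn.trans (by exact_mod_cast hj))]
      rw [this]
      simp [phi_zero]
  have hδ2 : 0 < δ / 2 := ENNReal.half_pos hδ.ne'
  obtain ⟨j, hj⟩ := (hlim1.eventually (gt_mem_nhds hδ2)).exists
  -- second part
  have hmem : MemLp (g j) 2 μ := by
    refine MemLp.of_bound (hgm j).aestronglyMeasurable j ?_
    exact Eventually.of_forall (hgb j)
  have hL := tendsto_L2 hmem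
  have hlim2 : Tendsto (fun N : ℕ => ENNReal.ofReal (2 * c) *
      eLpNorm (fun x => g j x - S (g j) N x) 2 μ + ENNReal.ofReal ((2 * c) ^ 2) *
      (eLpNorm (fun x => g j x - S (g j) N x) 2 μ) ^ 2) atTop (𝓝 0) := by
    have h1 : Tendsto (fun N : ℕ => ENNReal.ofReal (2 * c) *
      eLpNorm (fun x => g j x - S (g j) N x) 2 μ) atTop (𝓝 (ENNReal.ofReal (2 * c) * 0)) :=
      ENNReal.Tendsto.const_mul hL (Or.inr ENNReal.ofReal_ne_top)
    have h2 : Tendsto (fun N : ℕ => ENNReal.ofReal ((2 * c) ^ 2) *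
      (eLpNorm (fun x => g j x - S (g j) N x) 2 μ) ^ 2) atTop
        (𝓝 (ENNReal.ofReal ((2 * c) ^ 2) * 0 ^ 2)) :=
      ENNReal.Tendsto.const_mul (ENNReal.Tendsto.pow hL) (Or.inr ENNReal.ofReal_ne_top)
    simpa using h1.add h2
  obtain ⟨N, hN⟩ := (hlim2.eventually (gt_mem_nhds hδ2)).exists
  refine ⟨S (g j) N, continuous_S _ _, ⟨N, fun N' hN' x => S_S _ _ _ hN' x⟩, ?_⟩
  have hle : ∀ᵐ x ∂μ, ENNReal.ofReal (φ (c * ‖f x - S (g j) N x‖))
      ≤ ENNReal.ofReal (φ (2 * c * ‖f' x - g j x‖))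
        + ENNReal.ofReal (φ (2 * c * ‖g j x - S (g j) N x‖)) := by
    filter_upwards [hff'] with x hx
    rw [hx, ← ENNReal.ofReal_add (phi_nonneg (by positivity)) (phi_nonneg (by positivity))]
    refine ENNReal.ofReal_le_ofReal ?_
    have h1 : c * ‖f' x - S (g j) N x‖ ≤ c * ‖f' x - g j x‖ + c * ‖g j x - S (g j) N x‖ := by
      rw [← mul_add]
      refine mul_le_mul_of_nonneg_left ?_ (by linarith)
      exact norm_sub_le_norm_sub_add_norm_sub _ _ _
    calc φ (c * ‖f' x - S (g j) N x‖)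
        ≤ φ (c * ‖f' x - g j x‖ + c * ‖g j x - S (g j) N x‖) :=
          phi_mono (by positivity) h1
      _ ≤ φ (2 * (c * ‖f' x - g j x‖)) + φ (2 * (c * ‖g j x - S (g j) N x‖)) :=
          phi_add_le (by positivity) (by positivity)
      _ = _ := by rw [← mul_assoc, ← mul_assoc]
  have hmeas : Measurable (fun x => ENNReal.ofReal (φ (2 * c * ‖f' x - g j x‖))) :=
    ENNReal.measurable_ofReal.comp (measurable_phi.comp
        ((measurable_const).mul (hm.sub (hgm j)).norm))
  calc ∫⁻ x, ENNReal.ofReal (φ (c * ‖f x - S (g j) N x‖)) ∂μ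
      ≤ ∫⁻ x, (ENNReal.ofReal (φ (2 * c * ‖f' x - g j x‖))
        + ENNReal.ofReal (φ (2 * c * ‖g j x - S (g j) N x‖))) ∂μ := lintegral_mono_ae hle
    _ = ∫⁻ x, ENNReal.ofReal (φ (2 * c * ‖f' x - g j x‖)) ∂μ
        + ∫⁻ x, ENNReal.ofReal (φ (2 * c * ‖g j x - S (g j) N x‖)) ∂μ :=
          lintegral_add_left hmeas _
    _ ≤ δ / 2 + δ / 2 := by
        refine add_le_add hj.le ?_
        refine (Phi_le_L2 ?_ _ (by positivity)).trans hN.le
        exact ((hgm j).sub (continuous_S _ _).measurable).aestronglyMeasurable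
    _ = δ := ENNReal.add_halves δ

/-- **P1**: the maximal inequality implies a.e. convergence -/
theorem ae_tendsto_of_MI (hMI : MI T) (f : AddCircle T → ℂ) (hf : AEStronglyMeasurable f μ)
    (hlog : ∫⁻ x, ‖f x‖ₑ * ENNReal.ofReal (Real.log (2 + ‖f x‖)) ∂μ < ⊤) :
    ∀ᵐ x ∂μ, Tendsto (fun N : ℕ => S f N x) atTop (𝓝 (f x)) := by
  obtain ⟨A, hA⟩ := hMI
  have hP : Phi f < ⊤ := by
    convert hlog using 2
    unfold Phi
    refine lintegral_congr fun x => ?_
    unfold φ
    rw [ENNReal.ofReal_mul (norm_nonneg _), ofReal_norm]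
  have hint : Integrable f μ := phi_le_integrable hf hP
  -- the key estimate
  have key0 : ∀ n : ℕ, ∀ δ : ℝ≥0∞, 0 < δ → δ < ⊤ →
      μ {x | ¬ ∃ d : ℕ, ∀ N ≥ d, ‖S f N x - f x‖ ≤ 2 / (n + 1)} ≤ (A + 2) * δ := by
    intro n δ hδ hδt
    set c : ℝ := n + 1 with hcdef
    have hc : 1 ≤ c := by rw [hcdef]; linarith [(Nat.cast_nonneg n : (0 : ℝ) ≤ n)]
    have hc0 : 0 < c := by linarith
    obtain ⟨p, hp, ⟨d, hd⟩, hpδ⟩ := approx hf hP c hc δ hδ
    let h : AddCircle T → ℂ := fun x => (c : ℂ) • (f x - p x)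
    have hpint : Integrable p μ := hp.integrable_of_hasCompactSupport
      (HasCompactSupport.of_compactSpace _)
    have hpm : AEStronglyMeasurable p μ := hp.aestronglyMeasurable
    have hfpm : AEStronglyMeasurable (fun x => f x - p x) μ := hf.sub hpm
    have hhm : AEStronglyMeasurable h μ := hfpm.const_smul (c : ℂ)
    have hnorm : ∀ x, ‖h x‖ = c * ‖f x - p x‖ := by
      intro x
      simp only [h, norm_smul, Complex.norm_real, Real.norm_eq_abs, abs_of_pos hc0]
    have hPh : Phi h ≤ δ := by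
      unfold Phi
      simp only [hnorm]
      exact hpδ
    have hSh : ∀ N x, S h N x = (c : ℂ) * (S f N x - S p N x) := by
      intro N x
      rw [← S_sub hint hpint]
      unfold S
      rw [Finset.mul_sum]
      refine Finset.sum_congr rfl fun k _ => ?_
      have := fourierCoeff.const_smul (fun x => f x - p x) (c : ℂ) k
      have h2 : h = (c : ℂ) • (fun x => f x - p x) := rfl
      rw [h2, this]
      simp only [smul_eq_mul]
      ring
    have h1 := max_general hA hhm (hPh.trans_lt hδt)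
    have h2 : μ {x | 1 ≤ ‖h x‖} ≤ 2 * Phi h := by
      have h3 : (1 : ℝ≥0∞) * μ {x | (1 : ℝ≥0∞) ≤ 2 * ENNReal.ofReal (φ ‖h x‖)}
          ≤ ∫⁻ x, 2 * ENNReal.ofReal (φ ‖h x‖) ∂μ :=
        mul_meas_ge_le_lintegral₀ ((aemeasurable_phi_norm hhm.aemeasurable).const_mul 2) 1
      rw [one_mul, lintegral_const_mul' _ _ (by norm_num)] at h3
      refine (measure_mono ?_).trans h3
      intro x hx
      have hx' : (1 : ℝ) ≤ ‖h x‖ := hx
      have h4 := half_le_phi (norm_nonneg (h x))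
      change (1 : ℝ≥0∞) ≤ 2 * ENNReal.ofReal (φ ‖h x‖)
      rw [← ENNReal.ofReal_one, show (2 : ℝ≥0∞) = ENNReal.ofReal 2 by norm_num,
        ← ENNReal.ofReal_mul (by norm_num)]
      exact ENNReal.ofReal_le_ofReal (by linarith)
    have hsub : {x | ¬ ∃ d : ℕ, ∀ N ≥ d, ‖S f N x - f x‖ ≤ 2 / c}
        ⊆ {x | ∃ N, 1 < ‖S h N x‖} ∪ {x | 1 ≤ ‖h x‖} := by
      intro x hx
      by_contra hcon
      rw [mem_union, not_or] at hcon
      obtain ⟨hc1, hc2⟩ := hcon
      have hc1' : ∀ N, ‖S h N x‖ ≤ 1 := by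
        intro N
        by_contra hN
        exact hc1 ⟨N, not_le.1 hN⟩
      have hc2' : ‖h x‖ ≤ 1 := by
        by_contra hN
        exact hc2 (le_of_lt (not_le.1 hN))
      apply hx
      refine ⟨d, fun N hN => ?_⟩
      have e1 : S f N x - f x = (S f N x - S p N x) - (f x - p x) := by
        rw [hd N hN x]; ring
      have e2 : c * ‖S f N x - S p N x‖ ≤ 1 := by
        have := hc1' N
        rw [hSh, norm_mul, Complex.norm_real, Real.norm_eq_abs, abs_of_pos hc0] at this
        exact this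
      have e3 : c * ‖f x - p x‖ ≤ 1 := by
        rw [hnorm] at hc2'
        exact hc2'
      rw [e1]
      refine (norm_sub_le _ _).trans ?_
      rw [le_div_iff₀ hc0]
      linarith
    calc μ {x | ¬ ∃ d : ℕ, ∀ N ≥ d, ‖S f N x - f x‖ ≤ 2 / c}
        ≤ μ {x | ∃ N, 1 < ‖S h N x‖} + μ {x | 1 ≤ ‖h x‖} :=
          (measure_mono hsub).trans (measure_union_le _ _)
      _ ≤ A * Phi h + 2 * Phi h := add_le_add h1 h2
      _ = (A + 2) * Phi h := by rw [add_mul]
      _ ≤ (A + 2) * δ := by gcongr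
  have key : ∀ n : ℕ, μ {x | ¬ ∃ d : ℕ, ∀ N ≥ d, ‖S f N x - f x‖ ≤ 2 / (n + 1)} = 0 := by
    intro n
    by_contra hne
    have hpos := pos_iff_ne_zero.2 hne
    set m := μ {x | ¬ ∃ d : ℕ, ∀ N ≥ d, ‖S f N x - f x‖ ≤ 2 / (n + 1)} with hm
    have hmt : m < ⊤ := measure_lt_top _ _
    have hA2 : (A + 2 : ℝ≥0∞) ≠ 0 := by simp
    have hA3 : (A + 2 : ℝ≥0∞) ≠ ⊤ := by simp
    have hlt : m / (2 * (A + 2)) < ⊤ := ENNReal.div_lt_top hmt.ne (by simp)
    have h0 : 0 < m / (2 * (A + 2)) :=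
      ENNReal.div_pos hne (ENNReal.mul_ne_top (by norm_num) hA3)
    have h1 := key0 n _ h0 hlt
    rw [← hm] at h1
    have h2 : (A + 2 : ℝ≥0∞) * (m / (2 * (A + 2))) = m / 2 := by
      rw [ENNReal.div_eq_inv_mul, ENNReal.mul_inv (by norm_num) (by norm_num), ← mul_assoc,
        mul_comm (2 : ℝ≥0∞)⁻¹, ← mul_assoc, ENNReal.mul_inv_cancel hA2 hA3, one_mul,
        ENNReal.div_eq_inv_mul]
    rw [h2] at h1
    exact absurd h1 (not_le.2 (ENNReal.half_lt_self hne hmt.ne))
  have hall : ∀ᵐ x ∂μ, ∀ n : ℕ, ∃ d : ℕ, ∀ N ≥ d, ‖S f N x - f x‖ ≤ 2 / (n + 1) := by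
    rw [ae_all_iff]
    intro n
    exact key n
  filter_upwards [hall] with x hx
  rw [Metric.tendsto_atTop]
  intro ε hε
  obtain ⟨n, hn⟩ := exists_nat_gt (2 / ε)
  obtain ⟨d, hd⟩ := hx n
  refine ⟨d, fun N hN => ?_⟩
  rw [dist_eq_norm]
  refine (hd N hN).trans_lt ?_
  rw [div_lt_iff₀ (by positivity)]
  rw [div_lt_iff₀ hε] at hn
  nlinarith

end Crest.Agent.R100.P1800
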