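import Crest.Agent.R100.P1_800

/-!
# R100 / S0132, part P2 (helper800)

The maximal inequality `MI T` follows from the one-level bound `OL T` (Stein–Weiss summation over
doubly exponential levels).
-/

set_option autoImplicit false

open MeasureTheory Filter Set Topology
open scoped ENNReal NNReal

noncomputable section

namespace Crest.Agent.R100.P2800

open Crest.Agent.R100.P1800

variable {T : ℝ} [hT : Fact (0 < T)]

local notation "μ" => AddCircle.haarAddCircle (T := T)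

/-- the one-level loss `n / (1 + log (1 + log (1 + n)))` -/
def V (n : ℕ) : ℝ := n / (1 + Real.log (1 + Real.log (1 + n)))

/-- **one-level bound** -/
def OL (T : ℝ) [hT : Fact (0 < T)] : Prop :=
  ∃ A : ℝ≥0, ∀ (n : ℕ) (_ : 1 ≤ n) (f : AddCircle T → ℂ) (_ : Measurable f)
    (_ : ∀ x, ‖f x‖ ≤ 2 ^ n) (lam : ℝ) (_ : 0 < lam) (_ : lam ≤ 1) (_ : 1 ≤ 256 * lam * n) (R : ℕ),
    AddCircle.haarAddCircle {x | ∃ N ≤ R, lam < ‖S f N x‖}
      ≤ A * ENNReal.ofReal (V n / lam) * ∫⁻ x, ‖f x‖ₑ ∂(AddCircle.haarAddCircle (T := T))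

/-! ## numerology -/

/-- number of dyadic thresholds used at level `m` -/
def I (m : ℕ) : ℕ := 3 + 2 * Nat.clog 2 (m + 1)

lemma le_pow_clog (m : ℕ) : ((m : ℝ) + 1) ≤ 2 ^ (Nat.clog 2 (m + 1)) := by
  have := Nat.le_pow_clog (b := 2) (by norm_num) (m + 1)
  exact_mod_cast this

lemma w_le (m : ℕ) : (1 / 2 : ℝ) ^ (I m) ≤ 1 / 8 * (1 / ((m : ℝ) + 1) ^ 2) := by
  unfold I
  rw [pow_add, mul_comm 2, pow_mul]
  have h2 : ((1 : ℝ) / 2) ^ Nat.clog 2 (m + 1) ≤ 1 / ((m : ℝ) + 1) := by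
    rw [one_div_pow]
    exact one_div_le_one_div_of_le (by positivity) (le_pow_clog m)
  have h3 : (((1 : ℝ) / 2) ^ Nat.clog 2 (m + 1)) ^ 2 ≤ (1 / ((m : ℝ) + 1)) ^ 2 :=
    pow_le_pow_left₀ (by positivity) h2 2
  calc ((1 : ℝ) / 2) ^ 3 * (((1 : ℝ) / 2) ^ Nat.clog 2 (m + 1)) ^ 2
      ≤ ((1 : ℝ) / 2) ^ 3 * (1 / ((m : ℝ) + 1)) ^ 2 := by gcongr
    _ = _ := by rw [one_div_pow ((m : ℝ) + 1)]; norm_num

lemma sum_w_le' (M : ℕ) :
    ∑ m ∈ Finset.range (M + 1), (1 / 2 : ℝ) ^ (I m) ≤ 1 / 4 - 1 / (8 * (M + 1)) := by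
  induction M with
  | zero =>
    have := w_le 0
    rw [Finset.sum_range_one]
    norm_num at this ⊢
    linarith
  | succ M ih =>
    rw [Finset.sum_range_succ]
    have h1 := w_le (M + 1)
    have h4 : 1 / 8 * (1 / (((M + 1 : ℕ) : ℝ) + 1) ^ 2)
        ≤ 1 / (8 * ((M : ℝ) + 1)) - 1 / (8 * (((M + 1 : ℕ) : ℝ) + 1)) := by
      have hM : (0 : ℝ) ≤ M := Nat.cast_nonneg M
      push_cast
      rw [div_sub_div _ _ (by positivity) (by positivity), one_div, one_div, ← mul_inv,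
        inv_eq_one_div, div_le_div_iff₀ (by positivity) (by positivity)]
      nlinarith
    linarith

lemma sum_w_le (M : ℕ) : ∑ m ∈ Finset.range M, (1 / 2 : ℝ) ^ (I m) ≤ 1 / 4 := by
  cases M with
  | zero => norm_num
  | succ M =>
    have := sum_w_le' M
    have h : (0 : ℝ) ≤ 1 / (8 * ((M : ℝ) + 1)) := by positivity
    linarith

/-- pointwise splitting of a number in `(w, 1]` -/
lemma split_dyadic {F : ℝ} {K : ℕ} (h1 : (1 / 2) ^ K < F) (h2 : F ≤ 1) :
    ∃ i ∈ Finset.range K, (1 / 2 : ℝ) ^ (i + 1) < F ∧ F ≤ (1 / 2) ^ i := by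
  induction K with
  | zero => simp at h1; linarith
  | succ K ih =>
    by_cases h : (1 / 2 : ℝ) ^ K < F
    · obtain ⟨i, hi, h3⟩ := ih h
      exact ⟨i, Finset.mem_range.2 ((Finset.mem_range.1 hi).trans (Nat.lt_succ_self _)), h3⟩
    · exact ⟨K, Finset.mem_range.2 (Nat.lt_succ_self _), h1, not_lt.1 h⟩

/-- the abstract Stein–Weiss step: nonnegative numbers `F m`, `m < M` with sum `> 1` -/
lemma abstract_split (M : ℕ) (F : ℕ → ℝ)
    (hsum : 1 < ∑ m ∈ Finset.range M, F m) (hle : ∀ m < M, F m ≤ 1) :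
    (3 / 4 : ℝ) ≤ ∑ m ∈ Finset.range M, ∑ i ∈ Finset.range (I m),
      (1 / 2) ^ i * (if (1 / 2 : ℝ) ^ (i + 1) < F m then 1 else 0) := by
  have h1 : ∀ m ∈ Finset.range M, F m ≤ (1 / 2) ^ (I m) + ∑ i ∈ Finset.range (I m),
      (1 / 2) ^ i * (if (1 / 2 : ℝ) ^ (i + 1) < F m then 1 else 0) := by
    intro m hm
    have h0 : (0 : ℝ) ≤ ∑ i ∈ Finset.range (I m),
      (1 / 2) ^ i * (if (1 / 2 : ℝ) ^ (i + 1) < F m then 1 else 0) := by
      refine Finset.sum_nonneg fun i _ => ?_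
      split_ifs <;> positivity
    by_cases h : (1 / 2 : ℝ) ^ (I m) < F m
    · obtain ⟨i, hi, h2, h3⟩ := split_dyadic h (hle m (Finset.mem_range.1 hm))
      have h4 : (1 / 2 : ℝ) ^ i * (if (1 / 2 : ℝ) ^ (i + 1) < F m then 1 else 0)
          ≤ ∑ i ∈ Finset.range (I m),
            (1 / 2) ^ i * (if (1 / 2 : ℝ) ^ (i + 1) < F m then 1 else 0) := by
        refine Finset.single_le_sum (f := fun i => (1 / 2 : ℝ) ^ i *
          (if (1 / 2 : ℝ) ^ (i + 1) < F m then 1 else 0)) (fun i _ => ?_) hi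
        split_ifs <;> positivity
      rw [if_pos h2, mul_one] at h4
      have h5 : (0 : ℝ) ≤ (1 / 2) ^ (I m) := by positivity
      linarith
    · have := not_lt.1 h
      linarith
  have h2 := Finset.sum_le_sum h1
  rw [Finset.sum_add_distrib] at h2
  have h3 := sum_w_le M
  linarith

lemma sq_le_pow (m : ℕ) : (m + 1) ^ 2 ≤ 8 * 2 ^ m := by
  induction m with
  | zero => norm_num
  | succ m ih =>
    rcases Nat.lt_or_ge m 2 with h | h
    · interval_cases m <;> norm_num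
    · have h1 : (m + 1 + 1) ^ 2 ≤ 2 * (m + 1) ^ 2 := by nlinarith
      calc (m + 1 + 1) ^ 2 ≤ 2 * (m + 1) ^ 2 := h1
        _ ≤ 2 * (8 * 2 ^ m) := by omega
        _ = 8 * 2 ^ (m + 1) := by ring

lemma pow_clog_le (m : ℕ) : 2 ^ (Nat.clog 2 (m + 1)) ≤ 2 * (m + 1) := by
  rcases Nat.eq_zero_or_pos m with h | h
  · subst h; simp
  · have h1 := Nat.pow_pred_clog_lt_self (b := 2) (by norm_num) (x := m + 1) (by omega)
    have h2 : 0 < Nat.clog 2 (m + 1) := Nat.clog_pos (by norm_num) (by omega)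
    have h3 : (2 : ℕ) ^ (Nat.clog 2 (m + 1)) = 2 * 2 ^ ((Nat.clog 2 (m + 1)).pred) := by
      conv_lhs => rw [← Nat.succ_pred_eq_of_pos h2]
      rw [pow_succ]
      ring
    rw [h3]
    omega

/-- admissibility of the thresholds -/
lemma adm {m i : ℕ} (hi : i < I m) : 1 ≤ 256 * ((1 / 2 : ℝ) ^ (i + 1)) * ((2 ^ m : ℕ) : ℝ) := by
  have h1 : (1 / 2 : ℝ) ^ (I m) ≤ (1 / 2) ^ (i + 1) :=
    pow_le_pow_of_le_one (by norm_num) (by norm_num) hi
  have h2 : (1 : ℝ) ≤ 256 * ((1 / 2 : ℝ) ^ (I m)) * ((2 ^ m : ℕ) : ℝ) := by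
    have h3 : (2 : ℝ) ^ (Nat.clog 2 (m + 1)) ≤ 2 * (m + 1) := by exact_mod_cast pow_clog_le m
    have h4 : ((m : ℝ) + 1) ^ 2 ≤ 8 * 2 ^ m := by exact_mod_cast sq_le_pow m
    have h5 : ((2 : ℝ) ^ (Nat.clog 2 (m + 1))) ^ 2 ≤ 32 * 2 ^ m := by
      calc ((2 : ℝ) ^ (Nat.clog 2 (m + 1))) ^ 2 ≤ (2 * (m + 1)) ^ 2 :=
            pow_le_pow_left₀ (by positivity) h3 2
        _ = 4 * ((m : ℝ) + 1) ^ 2 := by ring
        _ ≤ 32 * 2 ^ m := by linarith
    unfold I
    rw [pow_add, mul_comm 2, pow_mul, one_div_pow, one_div_pow, one_div_pow]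
    push_cast
    have h6 : (0 : ℝ) < ((2 : ℝ) ^ (Nat.clog 2 (m + 1))) ^ 2 := by positivity
    rw [show (256 : ℝ) * (1 / 2 ^ 3 * (1 / (2 ^ Nat.clog 2 (m + 1)) ^ 2)) * 2 ^ m
      = (32 * 2 ^ m) / (2 ^ Nat.clog 2 (m + 1)) ^ 2 by
        field_simp; norm_num]
    rw [le_div_iff₀ h6, one_mul]
    exact h5
  refine h2.trans ?_
  gcongr

lemma loglog_lower (m : ℕ) : Real.log (m + 1) - 2 / 5 ≤ Real.log (1 + Real.log (1 + ((2 ^ m : ℕ) : ℝ))) := by
  have h1 : (m : ℝ) * Real.log 2 ≤ Real.log (1 + ((2 ^ m : ℕ) : ℝ)) := by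
    rw [← Real.log_pow]
    apply Real.log_le_log (by positivity)
    push_cast
    linarith
  have hl2 := Real.log_two_gt_d9
  have hl2' := Real.log_two_lt_d9
  have hm : (0 : ℝ) ≤ m := Nat.cast_nonneg m
  have h2 : ((m : ℝ) + 1) * Real.log 2 ≤ 1 + Real.log (1 + ((2 ^ m : ℕ) : ℝ)) := by
    nlinarith
  have h3 : Real.log (((m : ℝ) + 1) * Real.log 2)
      ≤ Real.log (1 + Real.log (1 + ((2 ^ m : ℕ) : ℝ))) :=
    Real.log_le_log (by positivity) h2
  rw [Real.log_mul (by positivity) (by positivity)] at h3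
  -- log (log 2) ≥ 1 - 1 / log 2 ≥ - 0.45
  have h4 : -(2 / 5 : ℝ) ≤ Real.log (Real.log 2) := by
    -- exp (-2/5) ≤ log 2
    rw [Real.le_log_iff_exp_le (by linarith)]
    have h5 : Real.exp (-(2 / 5 : ℝ)) = 1 / Real.exp (2 / 5) := by
      rw [Real.exp_neg, one_div]
    rw [h5, div_le_iff₀ (Real.exp_pos _)]
    have h6 : (1 : ℝ) + 2 / 5 + (2 / 5) ^ 2 / 2 ≤ Real.exp (2 / 5) :=
      Real.quadratic_le_exp_of_nonneg (by norm_num)
    nlinarith
  linarith

lemma I_le (m : ℕ) :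
    (I m : ℝ) ≤ 10 * (1 + Real.log (1 + Real.log (1 + ((2 ^ m : ℕ) : ℝ)))) := by
  have h1 := loglog_lower m
  have h2 : (Nat.clog 2 (m + 1) : ℝ) * Real.log 2 ≤ Real.log 2 + Real.log (m + 1) := by
    rw [← Real.log_pow, ← Real.log_mul (by norm_num) (by positivity)]
    apply Real.log_le_log (by positivity)
    exact_mod_cast pow_clog_le m
  have hl2 := Real.log_two_gt_d9
  have h3 : (0 : ℝ) ≤ Real.log (m + 1) := Real.log_nonneg (by
    have : (0 : ℝ) ≤ m := Nat.cast_nonneg m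
    linarith)
  have h4 : (Nat.clog 2 (m + 1) : ℝ) ≤ 1 + 3 / 2 * Real.log (m + 1) := by
    by_contra hcon
    push Not at hcon
    nlinarith
  unfold I
  push_cast at h1 ⊢
  linarith

/-! ## the levels of `f` -/

/-- the part of `f` at the doubly exponential level `m` -/
def fm (f : AddCircle T → ℂ) (m : ℕ) (x : AddCircle T) : ℂ :=
  if ‖f x‖ ≤ 2 ^ (2 ^ m) ∧ (m = 0 ∨ (2 : ℝ) ^ (2 ^ (m - 1)) < ‖f x‖) then f x else 0

omit hT in
lemma measurable_fm {f : AddCircle T → ℂ} (hf : Measurable f) (m : ℕ) : Measurable (fm f m) := by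
  unfold fm
  refine Measurable.ite ?_ hf measurable_const
  have h1 : MeasurableSet {x : AddCircle T | ‖f x‖ ≤ 2 ^ (2 ^ m)} :=
    measurableSet_le hf.norm measurable_const
  have h2 : MeasurableSet {x : AddCircle T | (m = 0 ∨ (2 : ℝ) ^ (2 ^ (m - 1)) < ‖f x‖)} := by
    by_cases hm : m = 0
    · simp [hm]
    · simp only [hm, false_or]
      exact measurableSet_lt measurable_const hf.norm
  exact h1.inter h2

omit hT in
lemma norm_fm_le (f : AddCircle T → ℂ) (m : ℕ) (x : AddCircle T) : ‖fm f m x‖ ≤ 2 ^ (2 ^ m) := by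
  unfold fm
  split_ifs with h
  · exact h.1
  · simp

omit hT in
lemma sum_fm (f : AddCircle T → ℂ) (M : ℕ) (x : AddCircle T) :
    ∑ m ∈ Finset.range (M + 1), fm f m x = if ‖f x‖ ≤ 2 ^ (2 ^ M) then f x else 0 := by
  induction M with
  | zero => simp [fm]
  | succ M ih =>
    rw [Finset.sum_range_succ, ih]
    unfold fm
    simp only [Nat.add_sub_cancel, Nat.add_eq_zero_iff, one_ne_zero, and_false, false_or]
    by_cases h : ‖f x‖ ≤ 2 ^ (2 ^ M)
    · have h2 : ‖f x‖ ≤ 2 ^ (2 ^ (M + 1)) :=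
        h.trans (pow_le_pow_right₀ (by norm_num) (Nat.pow_le_pow_right (by norm_num) (by omega)))
      rw [if_pos h, if_pos h2, if_neg (by rintro ⟨_, h3⟩; exact absurd h (not_le.2 h3))]
      simp
    · rw [if_neg h]
      have h3 := not_le.1 h
      simp [h3]

omit hT in
lemma sum_fm_eq {f : AddCircle T → ℂ} {B : ℝ} (hB : ∀ x, ‖f x‖ ≤ B) :
    ∃ M : ℕ, ∀ x, ∑ m ∈ Finset.range M, fm f m x = f x := by
  obtain ⟨n, hn⟩ := pow_unbounded_of_one_lt B (one_lt_two (α := ℝ))
  refine ⟨n + 1, fun x => ?_⟩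
  rw [sum_fm, if_pos]
  have h1 : n ≤ 2 ^ n := Nat.lt_two_pow_self.le
  exact (hB x).trans (hn.le.trans (pow_le_pow_right₀ (by norm_num) h1))

omit hT in
/-- pointwise: `2 ^ m |f_m| ≤ 3 φ(|f|)` on level `m`, and the levels are disjoint -/
lemma level_le (f : AddCircle T → ℂ) (M : ℕ) (x : AddCircle T) :
    ∑ m ∈ Finset.range M, (2 : ℝ) ^ m * ‖fm f m x‖ ≤ 3 * φ ‖f x‖ := by
  have hφ := phi_nonneg (norm_nonneg (f x))
  by_cases hex : ∃ m ∈ Finset.range M, fm f m x ≠ 0
  · obtain ⟨m, hm, hne⟩ := hex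
    have hcond : ‖f x‖ ≤ 2 ^ (2 ^ m) ∧ (m = 0 ∨ (2 : ℝ) ^ (2 ^ (m - 1)) < ‖f x‖) := by
      by_contra hcon
      exact hne (by unfold fm; rw [if_neg hcon])
    rw [Finset.sum_eq_single_of_mem m hm]
    · have hfm : fm f m x = f x := by unfold fm; rw [if_pos hcond]
      rw [hfm]
      unfold φ
      have hl2 := Real.log_two_gt_d9
      rcases hcond.2 with h0 | h1
      · subst h0
        have h2 : Real.log 2 ≤ Real.log (2 + ‖f x‖) :=
          Real.log_le_log (by norm_num) (by linarith [norm_nonneg (f x)])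
        have := norm_nonneg (f x)
        rw [pow_zero, one_mul]
        nlinarith
      · by_cases hm0 : m = 0
        · subst hm0
          have h2 : Real.log 2 ≤ Real.log (2 + ‖f x‖) :=
            Real.log_le_log (by norm_num) (by linarith [norm_nonneg (f x)])
          have := norm_nonneg (f x)
          rw [pow_zero, one_mul]
          nlinarith
        · obtain ⟨k, rfl⟩ := Nat.exists_eq_succ_of_ne_zero hm0
          simp only [Nat.succ_eq_add_one, Nat.add_sub_cancel] at h1 ⊢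
          have h2 : (2 : ℝ) ^ k * Real.log 2 ≤ Real.log (2 + ‖f x‖) := by
            have h3 : ((2 ^ k : ℕ) : ℝ) * Real.log 2 ≤ Real.log (2 + ‖f x‖) := by
              rw [← Real.log_pow]
              apply Real.log_le_log (by positivity)
              linarith
            exact_mod_cast h3
          have h4 : (2 : ℝ) ^ (k + 1) ≤ 3 * Real.log (2 + ‖f x‖) := by
            rw [pow_succ]
            have : (0 : ℝ) < 2 ^ k := by positivity
            nlinarith
          have := norm_nonneg (f x)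
          nlinarith
    · intro m' _ hmm'
      have : fm f m' x = 0 := by
        unfold fm
        rw [if_neg]
        rintro ⟨h1, h2⟩
        rcases Nat.lt_or_gt_of_ne hmm' with h | h
        · -- m' < m
          rcases hcond.2 with h3 | h3
          · omega
          · have h4 : (2 : ℝ) ^ (2 ^ m') ≤ 2 ^ (2 ^ (m - 1)) :=
              pow_le_pow_right₀ (by norm_num) (Nat.pow_le_pow_right (by norm_num) (by omega))
            linarith
        · rcases h2 with h3 | h3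
          · omega
          · have h4 : (2 : ℝ) ^ (2 ^ m) ≤ 2 ^ (2 ^ (m' - 1)) :=
              pow_le_pow_right₀ (by norm_num) (Nat.pow_le_pow_right (by norm_num) (by omega))
            linarith [hcond.1]
      rw [this]; simp
  · push Not at hex
    have : ∑ m ∈ Finset.range M, (2 : ℝ) ^ m * ‖fm f m x‖ = 0 := by
      refine Finset.sum_eq_zero fun m hm => ?_
      rw [hex m hm]; simp
    rw [this]
    linarith

lemma S_sum {ι : Type*} (s : Finset ι) (g : ι → AddCircle T → ℂ)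
    (hg : ∀ i ∈ s, Integrable (g i) μ) (N : ℕ) (x : AddCircle T) :
    S (fun y => ∑ i ∈ s, g i y) N x = ∑ i ∈ s, S (g i) N x := by
  unfold S
  rw [Finset.sum_comm]
  refine Finset.sum_congr rfl fun k _ => ?_
  have h1 : (fun y => ∑ i ∈ s, g i y) = ∑ i ∈ s, g i := by
    funext y; simp
  rw [h1, fourierCoeff.sum s g hg, Finset.sum_apply, Finset.sum_smul]

lemma V_le (n : ℕ) : V n ≤ n := by
  unfold V
  have h1 : (0 : ℝ) ≤ Real.log (1 + n) := Real.log_nonneg (by
    have : (0 : ℝ) ≤ n := Nat.cast_nonneg n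
    linarith)
  have h2 : (0 : ℝ) ≤ Real.log (1 + Real.log (1 + n)) := Real.log_nonneg (by linarith)
  exact div_le_self (Nat.cast_nonneg n) (by linarith)

lemma V_nonneg (n : ℕ) : 0 ≤ V n := by
  unfold V
  have h1 : (0 : ℝ) ≤ Real.log (1 + n) := Real.log_nonneg (by
    have : (0 : ℝ) ≤ n := Nat.cast_nonneg n
    linarith)
  have h2 : (0 : ℝ) ≤ Real.log (1 + Real.log (1 + n)) := Real.log_nonneg (by linarith)
  positivity

lemma I_V_le (m : ℕ) : (I m : ℝ) * V (2 ^ m) ≤ 10 * 2 ^ m := by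
  have h1 := I_le m
  unfold V
  have h0 : (0 : ℝ) ≤ Real.log (1 + ((2 ^ m : ℕ) : ℝ)) := Real.log_nonneg (by
    have : (0 : ℝ) ≤ ((2 ^ m : ℕ) : ℝ) := Nat.cast_nonneg _
    linarith)
  have h2 : (0 : ℝ) ≤ Real.log (1 + Real.log (1 + ((2 ^ m : ℕ) : ℝ))) :=
    Real.log_nonneg (by linarith)
  have h3 : (0 : ℝ) < 1 + Real.log (1 + Real.log (1 + ((2 ^ m : ℕ) : ℝ))) := by linarith
  rw [mul_div_assoc', div_le_iff₀ h3]
  have h4 : (0 : ℝ) ≤ ((2 ^ m : ℕ) : ℝ) := Nat.cast_nonneg _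
  calc (I m : ℝ) * ((2 ^ m : ℕ) : ℝ)
      ≤ (10 * (1 + Real.log (1 + Real.log (1 + ((2 ^ m : ℕ) : ℝ))))) * ((2 ^ m : ℕ) : ℝ) :=
        mul_le_mul_of_nonneg_right h1 h4
    _ = 10 * 2 ^ m * (1 + Real.log (1 + Real.log (1 + ((2 ^ m : ℕ) : ℝ)))) := by
        push_cast; ring

/-- **P2**: the one-level bound implies the maximal inequality -/
theorem MI_of_OL (hOL : OL T) : MI T := by
  obtain ⟨A, hA⟩ := hOL
  refine ⟨123 * A, fun f hf B hB R => ?_⟩
  obtain ⟨M, hM⟩ := sum_fm_eq hB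
  -- sets
  let E : ℕ → ℝ → Set (AddCircle T) := fun m lam => {x | ∃ N ≤ R, lam < ‖S (fm f m) N x‖}
  have hEmeas : ∀ m lam, MeasurableSet (E m lam) := fun m lam => measurableSet_max _ _ _
  let a : ℕ → ℝ≥0∞ := fun m => ∫⁻ x, ‖fm f m x‖ₑ ∂μ
  have hfmint : ∀ m, Integrable (fm f m) μ := by
    intro m
    refine Integrable.of_bound (measurable_fm hf m).aestronglyMeasurable (2 ^ (2 ^ m)) ?_
    exact Eventually.of_forall (norm_fm_le f m)
  have hone : ∀ m, 1 ≤ 2 ^ m := fun m => Nat.one_le_two_pow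
  -- the bound at each threshold
  have hEi : ∀ m i, i < I m → ENNReal.ofReal ((1 / 2) ^ i) * μ (E m ((1 / 2) ^ (i + 1)))
      ≤ A * ENNReal.ofReal (2 * V (2 ^ m)) * a m := by
    intro m i hi
    have h1 := hA (2 ^ m) (hone m) (fm f m) (measurable_fm hf m) (norm_fm_le f m)
      ((1 / 2) ^ (i + 1)) (by positivity) (pow_le_one₀ (by norm_num) (by norm_num))
      (adm hi) R
    calc ENNReal.ofReal ((1 / 2) ^ i) * μ (E m ((1 / 2) ^ (i + 1)))
        ≤ ENNReal.ofReal ((1 / 2) ^ i) *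
          (A * ENNReal.ofReal (V (2 ^ m) / (1 / 2) ^ (i + 1)) * a m) := by gcongr
      _ = A * (ENNReal.ofReal ((1 / 2) ^ i) * ENNReal.ofReal (V (2 ^ m) / (1 / 2) ^ (i + 1)))
            * a m := by ring
      _ = A * ENNReal.ofReal (2 * V (2 ^ m)) * a m := by
          rw [← ENNReal.ofReal_mul (by positivity)]
          have e : ((1 : ℝ) / 2) ^ i * (V (2 ^ m) / (1 / 2) ^ (i + 1)) = 2 * V (2 ^ m) := by
            rw [pow_succ]
            field_simp
          rw [e]
  have hE1 : ∀ m, μ (E m 1) ≤ A * ENNReal.ofReal (2 ^ m) * a m := by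
    intro m
    have h1 := hA (2 ^ m) (hone m) (fm f m) (measurable_fm hf m) (norm_fm_le f m)
      1 one_pos le_rfl (by
        have : (1 : ℝ) ≤ ((2 ^ m : ℕ) : ℝ) := by exact_mod_cast hone m
        linarith) R
    refine h1.trans ?_
    rw [div_one]
    gcongr
    have := V_le (2 ^ m)
    push_cast at this
    exact this
  -- the counting function
  let g : AddCircle T → ℝ≥0∞ := fun x => ∑ m ∈ Finset.range M, ∑ i ∈ Finset.range (I m),
      ENNReal.ofReal ((1 / 2) ^ i) * (E m ((1 / 2) ^ (i + 1))).indicator 1 x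
  have hgint : ∫⁻ x, g x ∂μ ≤ ∑ m ∈ Finset.range M, A * ENNReal.ofReal (20 * 2 ^ m) * a m := by
    have h1 : ∫⁻ x, g x ∂μ = ∑ m ∈ Finset.range M, ∑ i ∈ Finset.range (I m),
        ENNReal.ofReal ((1 / 2) ^ i) * μ (E m ((1 / 2) ^ (i + 1))) := by
      simp only [g]
      rw [lintegral_finsetSum]
      · refine Finset.sum_congr rfl fun m _ => ?_
        rw [lintegral_finsetSum]
        · refine Finset.sum_congr rfl fun i _ => ?_
          rw [lintegral_const_mul' _ _ ENNReal.ofReal_ne_top, lintegral_indicator_one (hEmeas _ _)]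
        · intro i _
          exact (measurable_one.indicator (hEmeas _ _)).const_mul _
      · intro m _
        refine Finset.measurable_sum _ fun i _ => ?_
        exact (measurable_one.indicator (hEmeas _ _)).const_mul _
    rw [h1]
    refine Finset.sum_le_sum fun m _ => ?_
    calc ∑ i ∈ Finset.range (I m), ENNReal.ofReal ((1 / 2) ^ i) * μ (E m ((1 / 2) ^ (i + 1)))
        ≤ ∑ i ∈ Finset.range (I m), A * ENNReal.ofReal (2 * V (2 ^ m)) * a m :=
          Finset.sum_le_sum fun i hi => hEi m i (Finset.mem_range.1 hi)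
      _ = A * (ENNReal.ofReal (I m) * ENNReal.ofReal (2 * V (2 ^ m))) * a m := by
          rw [Finset.sum_const, Finset.card_range, nsmul_eq_mul, ENNReal.ofReal_natCast]
          ring
      _ ≤ A * ENNReal.ofReal (20 * 2 ^ m) * a m := by
          rw [← ENNReal.ofReal_mul (Nat.cast_nonneg _)]
          have e := I_V_le m
          have e2 : (I m : ℝ) * (2 * V (2 ^ m)) ≤ 20 * 2 ^ m := by linarith
          gcongr
  -- inclusion
  have hsub : {x | ∃ N ≤ R, 1 < ‖S f N x‖} ⊆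
      (⋃ m ∈ Finset.range M, E m 1) ∪ {x | ENNReal.ofReal (3 / 4) ≤ g x} := by
    rintro x ⟨N, hN, hx⟩
    by_cases hU : x ∈ ⋃ m ∈ Finset.range M, E m 1
    · exact Or.inl hU
    right
    have hle : ∀ m < M, ‖S (fm f m) N x‖ ≤ 1 := by
      intro m hm
      by_contra hcon
      apply hU
      simp only [mem_iUnion]
      exact ⟨m, Finset.mem_range.2 hm, N, hN, not_le.1 hcon⟩
    have hsum : 1 < ∑ m ∈ Finset.range M, ‖S (fm f m) N x‖ := by
      have h1 : S f N x = ∑ m ∈ Finset.range M, S (fm f m) N x := by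
        rw [← S_sum _ _ (fun m _ => hfmint m)]
        congr 1
        funext y
        exact (hM y).symm
      rw [h1] at hx
      exact hx.trans_le (norm_sum_le _ _)
    have h2 := abstract_split M (fun m => ‖S (fm f m) N x‖) hsum hle
    change ENNReal.ofReal (3 / 4) ≤ g x
    refine (ENNReal.ofReal_le_ofReal h2).trans ?_
    rw [ENNReal.ofReal_sum_of_nonneg]
    · refine Finset.sum_le_sum fun m _ => ?_
      rw [ENNReal.ofReal_sum_of_nonneg]
      · refine Finset.sum_le_sum fun i _ => ?_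
        rw [ENNReal.ofReal_mul (by positivity)]
        gcongr
        split_ifs with h3
        · have : x ∈ E m ((1 / 2) ^ (i + 1)) := ⟨N, hN, h3⟩
          rw [indicator_of_mem this]
          simp
        · simp
      · intro i _
        split_ifs <;> positivity
    · intro m _
      refine Finset.sum_nonneg fun i _ => ?_
      split_ifs <;> positivity
  have hgmeas : Measurable g := by
    refine Finset.measurable_sum _ fun m _ => Finset.measurable_sum _ fun i _ => ?_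
    exact (measurable_one.indicator (hEmeas _ _)).const_mul _
  have hmarkov : μ {x | ENNReal.ofReal (3 / 4) ≤ g x} ≤ 2 * ∫⁻ x, g x ∂μ := by
    have h1 : ENNReal.ofReal (3 / 4) *
        AddCircle.haarAddCircle {x | ENNReal.ofReal (3 / 4) ≤ g x} ≤ ∫⁻ x, g x ∂μ :=
      mul_meas_ge_le_lintegral hgmeas (ENNReal.ofReal (3 / 4))
    calc AddCircle.haarAddCircle {x | ENNReal.ofReal (3 / 4) ≤ g x}
        ≤ 2 * (ENNReal.ofReal (3 / 4) *
          AddCircle.haarAddCircle {x | ENNReal.ofReal (3 / 4) ≤ g x}) := by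
          rw [← mul_assoc]
          refine le_mul_of_one_le_left (zero_le) ?_
          rw [show (2 : ℝ≥0∞) = ENNReal.ofReal 2 by norm_num, ← ENNReal.ofReal_mul (by norm_num),
            ← ENNReal.ofReal_one]
          exact ENNReal.ofReal_le_ofReal (by norm_num)
      _ ≤ _ := by gcongr
  have htotal : ∑ m ∈ Finset.range M, ENNReal.ofReal (2 ^ m) * a m ≤ 3 * Phi f := by
    have h1 : ∑ m ∈ Finset.range M, ENNReal.ofReal (2 ^ m) * a m
        = ∫⁻ x, ∑ m ∈ Finset.range M, ENNReal.ofReal ((2 : ℝ) ^ m * ‖fm f m x‖) ∂μ := by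
      rw [lintegral_finsetSum]
      · refine Finset.sum_congr rfl fun m _ => ?_
        simp only [a]
        rw [← lintegral_const_mul' _ _ ENNReal.ofReal_ne_top]
        refine lintegral_congr fun x => ?_
        rw [ENNReal.ofReal_mul (by positivity), ofReal_norm]
      · intro m _
        exact ENNReal.measurable_ofReal.comp ((measurable_fm hf m).norm.const_mul _)
    rw [h1]
    unfold Phi
    rw [← lintegral_const_mul' _ _ (by norm_num)]
    refine lintegral_mono fun x => ?_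
    rw [← ENNReal.ofReal_sum_of_nonneg (fun m _ => by positivity),
      show (3 : ℝ≥0∞) = ENNReal.ofReal 3 by norm_num, ← ENNReal.ofReal_mul (by norm_num)]
    exact ENNReal.ofReal_le_ofReal (level_le f M x)
  calc μ {x | ∃ N ≤ R, 1 < ‖S f N x‖}
      ≤ μ (⋃ m ∈ Finset.range M, E m 1) + μ {x | ENNReal.ofReal (3 / 4) ≤ g x} :=
        (measure_mono hsub).trans (measure_union_le _ _)
    _ ≤ ∑ m ∈ Finset.range M, A * ENNReal.ofReal (2 ^ m) * a m
        + 2 * ∑ m ∈ Finset.range M, A * ENNReal.ofReal (20 * 2 ^ m) * a m := by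
        refine add_le_add ?_ (hmarkov.trans (by gcongr))
        refine (measure_biUnion_finset_le _ _).trans ?_
        exact Finset.sum_le_sum fun m _ => hE1 m
    _ = 41 * (A * ∑ m ∈ Finset.range M, ENNReal.ofReal (2 ^ m) * a m) := by
        rw [Finset.mul_sum, Finset.mul_sum, Finset.mul_sum, ← Finset.sum_add_distrib]
        refine Finset.sum_congr rfl fun m _ => ?_
        rw [ENNReal.ofReal_mul (by norm_num), show ENNReal.ofReal 20 = 20 by norm_num]
        ring
    _ ≤ 41 * (A * (3 * Phi f)) := by gcongr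
    _ = ((123 * A : ℝ≥0) : ℝ≥0∞) * Phi f := by
        push_cast
        ring

end Crest.Agent.R100.P2800
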