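import Crest.Agent.R100.P2_800

/-!
# R100 / S0132, part P2b (helper800)

Weak (1,1) bound of the centred maximal function on the circle, and the reduction of the one-level
bound `OL T` to the strong local bound `StrongLocal T` off the exceptional set of the maximal
function.
-/

set_option autoImplicit false

open MeasureTheory Filter Set Topology Metric
open scoped ENNReal NNReal

noncomputable section

namespace Crest.Agent.R100.P2b800

open Crest.Agent.R100.P1800 Crest.Agent.R100.P2800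

variable {T : ℝ} [hT : Fact (0 < T)]

local notation "μ" => AddCircle.haarAddCircle (T := T)

/-- `Mf ≤ 1` on `G` (centred maximal function) -/
def MaxLe (f : AddCircle T → ℂ) (G : Set (AddCircle T)) : Prop :=
  ∀ x ∈ G, ∀ r : ℝ, 0 < r →
    ∫⁻ y in closedBall x r, ‖f y‖ₑ ∂(AddCircle.haarAddCircle (T := T))
      ≤ AddCircle.haarAddCircle (T := T) (closedBall x r)

/-- **strong local bound** -/
def StrongLocal (T : ℝ) [hT : Fact (0 < T)] : Prop :=
  ∃ A : ℝ≥0, ∀ (n : ℕ) (_ : 1 ≤ n) (f : AddCircle T → ℂ) (_ : Measurable f)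
    (_ : ∀ x, ‖f x‖ ≤ 2 ^ n) (G : Set (AddCircle T)) (_ : MeasurableSet G) (_ : MaxLe f G)
    (R : ℕ) (N : AddCircle T → ℕ) (_ : Measurable N) (_ : ∀ x, N x ≤ R),
    ∫⁻ x in G, ‖S f (N x) x‖ₑ ∂(AddCircle.haarAddCircle (T := T))
      ≤ A * ENNReal.ofReal (V n) * (AddCircle.haarAddCircle G +
        ∫⁻ x, ‖f x‖ₑ ∂(AddCircle.haarAddCircle (T := T)))

/-! ## weak (1,1) -/

lemma haar_closedBall (x : AddCircle T) (r : ℝ) :
    ENNReal.ofReal T * μ (closedBall x r) = ENNReal.ofReal (min T (2 * r)) := by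
  rw [← AddCircle.volume_closedBall (x := x), AddCircle.volume_eq_smul_haarAddCircle]
  simp

lemma haar_closedBall_five (x : AddCircle T) (r : ℝ) :
    μ (closedBall x (5 * r)) ≤ 5 * μ (closedBall x r) := by
  have hT0 : ENNReal.ofReal T ≠ 0 := by
    rw [Ne, ENNReal.ofReal_eq_zero, not_le]; exact hT.out
  have h1 : ENNReal.ofReal T * μ (closedBall x (5 * r))
      ≤ ENNReal.ofReal T * (5 * μ (closedBall x r)) := by
    rw [mul_left_comm, haar_closedBall, haar_closedBall,
      show (5 : ℝ≥0∞) = ENNReal.ofReal 5 by norm_num, ← ENNReal.ofReal_mul (by norm_num)]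
    apply ENNReal.ofReal_le_ofReal
    have h0 := hT.out
    rcases le_total T (2 * r) with h | h
    · rw [min_eq_left h]
      exact (min_le_left _ _).trans (by linarith)
    · rw [min_eq_right h]
      exact (min_le_right _ _).trans (by linarith)
  exact (ENNReal.mul_le_mul_iff_right hT0 ENNReal.ofReal_ne_top).1 h1

/-- weak type (1,1): the set where the centred maximal function exceeds `t` -/
lemma weak_type (f : AddCircle T → ℂ) (t : ℝ≥0∞) :
    t * μ {x | ∃ r : ℝ, 0 < r ∧ t * μ (closedBall x r) < ∫⁻ y in closedBall x r, ‖f y‖ₑ ∂μ}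
      ≤ 5 * ∫⁻ y, ‖f y‖ₑ ∂μ := by
  set E : Set (AddCircle T) :=
    {x | ∃ r : ℝ, 0 < r ∧ t * μ (closedBall x r) < ∫⁻ y in closedBall x r, ‖f y‖ₑ ∂μ} with hE
  have hT0 := hT.out
  -- bounded radii
  have hbd : ∀ x ∈ E, ∃ r : ℝ, 0 < r ∧ r ≤ T ∧
      t * μ (closedBall x r) < ∫⁻ y in closedBall x r, ‖f y‖ₑ ∂μ := by
    rintro x ⟨r, hr, h⟩
    by_cases hrT : r ≤ T
    · exact ⟨r, hr, hrT, h⟩
    · push Not at hrT
      have e1 : closedBall x r = univ := by
        refine AddCircle.closedBall_eq_univ_of_half_period_le T hT0.ne' x ?_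
        rw [abs_of_pos hT0]; linarith
      have e2 : closedBall x T = univ := by
        refine AddCircle.closedBall_eq_univ_of_half_period_le T hT0.ne' x ?_
        rw [abs_of_pos hT0]; linarith
      refine ⟨T, hT0, le_rfl, ?_⟩
      rw [e2]; rwa [e1] at h
  choose! r hr0 hrT hr using hbd
  obtain ⟨u, huE, hdisj, hcov⟩ := Vitali.exists_disjoint_subfamily_covering_enlargement_closedBall
    E (fun x => x) r T (fun a ha => hrT a ha) 5 (by norm_num)
  have hcount : u.Countable := by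
    refine hdisj.countable_of_nonempty_interior fun x hx => ?_
    refine ⟨x, ?_⟩
    exact ball_subset_interior_closedBall (mem_ball_self (hr0 x (huE hx)))
  have hsub : E ⊆ ⋃ x ∈ u, closedBall x (5 * r x) := by
    intro x hx
    obtain ⟨b, hb, hxb⟩ := hcov x hx
    exact mem_biUnion hb (hxb (mem_closedBall_self (hr0 x hx).le))
  calc t * μ E ≤ t * μ (⋃ x ∈ u, closedBall x (5 * r x)) := by gcongr
    _ ≤ t * ∑' x : u, μ (closedBall (x : AddCircle T) (5 * r x)) := by
        gcongr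
        exact measure_biUnion_le _ hcount _
    _ ≤ t * ∑' x : u, 5 * μ (closedBall (x : AddCircle T) (r x)) := by
        gcongr with x
        exact haar_closedBall_five _ _
    _ = 5 * ∑' x : u, t * μ (closedBall (x : AddCircle T) (r x)) := by
        rw [ENNReal.tsum_mul_left, ENNReal.tsum_mul_left]
        ring
    _ ≤ 5 * ∑' x : u, ∫⁻ y in closedBall (x : AddCircle T) (r x), ‖f y‖ₑ ∂μ := by
        gcongr with x
        exact (hr x (huE x.2)).le
    _ = 5 * ∫⁻ y in ⋃ x ∈ u, closedBall x (r x), ‖f y‖ₑ ∂μ := by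
        rw [lintegral_biUnion hcount (fun x _ => isClosed_closedBall.measurableSet) hdisj]
    _ ≤ 5 * ∫⁻ y, ‖f y‖ₑ ∂μ := by
        gcongr
        exact Measure.restrict_le_self

/-! ## numerology -/

lemma exists_pow_dom (B : ℝ) : ∃ K : ℕ, ∀ d : ℕ, K ≤ d → B * (d : ℝ) ^ 2 * (1 + d) < 2 ^ d := by
  have h1 : Tendsto (fun d : ℕ => (d : ℝ) ^ 3 / 2 ^ d) atTop (𝓝 0) :=
    tendsto_pow_const_div_const_pow_of_one_lt 3 (by norm_num)
  have h2 : Tendsto (fun d : ℕ => (2 * |B| + 1) * ((d : ℝ) ^ 3 / 2 ^ d)) atTop (𝓝 0) := by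
    simpa using h1.const_mul (2 * |B| + 1)
  obtain ⟨K, hK⟩ := eventually_atTop.1 (h2.eventually (gt_mem_nhds one_pos))
  refine ⟨max K 1, fun d hd => ?_⟩
  have h3 := hK d ((le_max_left _ _).trans hd)
  have hd1 : (1 : ℝ) ≤ d := by exact_mod_cast (le_max_right K 1).trans hd
  have h4 : (0 : ℝ) < 2 ^ d := by positivity
  rw [mul_div_assoc', div_lt_one h4] at h3
  have hB := le_abs_self B
  have hB0 := abs_nonneg B
  calc B * (d : ℝ) ^ 2 * (1 + d) ≤ |B| * (d : ℝ) ^ 2 * (1 + d) := by gcongr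
    _ ≤ |B| * (d : ℝ) ^ 2 * (2 * d) := by
        gcongr
        linarith
    _ = (2 * |B|) * (d : ℝ) ^ 3 := by ring
    _ ≤ (2 * |B| + 1) * (d : ℝ) ^ 3 := by
        gcongr
        linarith
    _ < 2 ^ d := h3

lemma V_le_mul {n n' K : ℕ} (hn : 1 ≤ n) (h1 : n ≤ n') (h2 : n' ≤ K * n) : V n' ≤ K * V n := by
  unfold V
  have hn0 : (0 : ℝ) < n := by exact_mod_cast hn
  have hnn : (n : ℝ) ≤ n' := by exact_mod_cast h1
  have hKn : (n' : ℝ) ≤ K * n := by exact_mod_cast h2
  have a1 : 0 ≤ Real.log (1 + (n : ℝ)) := Real.log_nonneg (by linarith)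
  have a2 : Real.log (1 + (n : ℝ)) ≤ Real.log (1 + (n' : ℝ)) :=
    Real.log_le_log (by linarith) (by linarith)
  have a3 : 0 ≤ Real.log (1 + Real.log (1 + (n : ℝ))) := Real.log_nonneg (by linarith)
  have a4 : Real.log (1 + Real.log (1 + (n : ℝ))) ≤ Real.log (1 + Real.log (1 + (n' : ℝ))) :=
    Real.log_le_log (by linarith) (by linarith)
  rw [mul_div_assoc']
  exact div_le_div₀ (by positivity) hKn (by linarith) (by linarith)

/-- numerical core -/
lemma core_num (A : ℝ) (hA : 1 ≤ A) : ∃ K : ℕ, 1 ≤ K ∧ ∀ (n : ℕ), 1 ≤ n → ∀ lam a e : ℝ,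
    0 < lam → lam ≤ 1 → 1 ≤ 256 * lam * n → 0 < a → 0 < e →
    (∀ n' : ℕ, n ≤ n' → (10 * a / e) * 2 ^ n' ≥ 2 ^ n → lam * e ≤ 22 * A * V n' * a) →
    lam * e ≤ 22 * A * (K * V n) * a := by
  obtain ⟨K0, hK0⟩ := exists_pow_dom (1128 * A)
  refine ⟨K0 + 2, by omega, ?_⟩
  intro n hn lam a e hlam hlam1 hadm ha he hmain
  have hn0 : (1 : ℝ) ≤ n := by exact_mod_cast hn
  set t := 10 * a / e with ht
  have ht0 : 0 < t := by positivity
  -- choose the least d with t * 2 ^ d ≥ 1
  obtain ⟨d0, hd0⟩ := pow_unbounded_of_one_lt (1 / t) (one_lt_two (α := ℝ))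
  have hex : ∃ d : ℕ, 1 ≤ t * 2 ^ d := by
    refine ⟨d0, ?_⟩
    rw [div_lt_iff₀ ht0] at hd0
    linarith
  classical
  let d := Nat.find hex
  have hd : 1 ≤ t * 2 ^ d := Nat.find_spec hex
  have h1 := hmain (n + d) (by omega) (by
    rw [pow_add, ge_iff_le]
    have : (0 : ℝ) < 2 ^ n := by positivity
    nlinarith)
  have hVle : V (n + d) ≤ n + d := by
    have := V_le (n + d)
    push_cast at this
    exact this
  have hdK : d ≤ (K0 + 1) * n := by
    by_contra hcon
    push Not at hcon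
    have hdpos : 0 < d := by
      rcases Nat.eq_zero_or_pos d with h | h
      · rw [h] at hcon; omega
      · exact h
    have hmin : t * 2 ^ (d - 1) < 1 := by
      have := Nat.find_min hex (m := d - 1) (by omega)
      exact not_le.1 this
    have h2d : (2 : ℝ) ^ d = 2 * 2 ^ (d - 1) := by
      conv_lhs => rw [← Nat.sub_add_cancel hdpos]
      rw [pow_succ]; ring
    have h3 : (2 : ℝ) ^ d * t < 2 := by rw [h2d]; nlinarith
    -- 2 ^ d < 2 / t = e / (5 a)
    have h4 : (2 : ℝ) ^ d * (5 * a) < e := by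
      rw [ht] at h3
      rw [mul_div_assoc', div_lt_iff₀ he] at h3
      nlinarith
    -- e ≤ 22 A V a / lam
    have hnd : (K0 : ℝ) ≤ d := by
      have : K0 ≤ d := by nlinarith
      exact_mod_cast this
    have hnled : (n : ℝ) ≤ d := by
      have : n ≤ d := by nlinarith
      exact_mod_cast this
    have h5 : lam * ((2 : ℝ) ^ d * (5 * a)) < 22 * A * (n + d) * a := by
      calc lam * ((2 : ℝ) ^ d * (5 * a)) < lam * e := by gcongr
        _ ≤ 22 * A * V (n + d) * a := h1
        _ ≤ 22 * A * (n + d) * a := by gcongr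
    have h6 : lam * ((2 : ℝ) ^ d * 5) < 22 * A * (n + d) := by
      have : (lam * ((2 : ℝ) ^ d * 5)) * a < (22 * A * (n + d)) * a := by
        calc (lam * ((2 : ℝ) ^ d * 5)) * a = lam * ((2 : ℝ) ^ d * (5 * a)) := by ring
          _ < _ := h5
      exact lt_of_mul_lt_mul_right this ha.le
    have h7 : (2 : ℝ) ^ d ≤ 256 * n * (lam * 2 ^ d) := by
      have : (0 : ℝ) < 2 ^ d := by positivity
      nlinarith
    have h8 : (2 : ℝ) ^ d ≤ 1128 * A * (d : ℝ) ^ 2 * (1 + d) := by
      have hn00 : (0 : ℝ) ≤ n := by linarith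
      have hd00 : (0 : ℝ) ≤ d := Nat.cast_nonneg d
      calc (2 : ℝ) ^ d ≤ 256 * n * (lam * 2 ^ d) := h7
        _ ≤ 256 * n * (22 * A * (n + d) / 5) := by
            gcongr
            rw [le_div_iff₀ (by norm_num)]
            linarith
        _ = 1126.4 * A * (n * (n + d)) := by ring
        _ ≤ 1126.4 * A * (n * (n * (1 + d))) := by
            gcongr
            nlinarith
        _ = 1126.4 * A * (n ^ 2 * (1 + d)) := by ring
        _ ≤ 1128 * A * ((d : ℝ) ^ 2 * (1 + d)) := by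
            gcongr
            norm_num
        _ = _ := by ring
    have h9 := hK0 d (by exact_mod_cast hnd)
    linarith
  have hV := V_le_mul (n := n) (n' := n + d) (K := K0 + 2) hn (by omega) (by nlinarith)
  calc lam * e ≤ 22 * A * V (n + d) * a := h1
    _ ≤ 22 * A * (((K0 + 2 : ℕ) : ℝ) * V n) * a := by gcongr

lemma S_smul (f : AddCircle T → ℂ) (c : ℂ) (N : ℕ) (x : AddCircle T) :
    S (fun y => c * f y) N x = c * S f N x := by
  unfold S
  rw [Finset.mul_sum]
  refine Finset.sum_congr rfl fun k _ => ?_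
  have := fourierCoeff.const_mul f c k
  rw [this]
  simp only [smul_eq_mul]
  ring

/-- **P2b** -/
theorem OL_of_StrongLocal (hSL : StrongLocal T) : OL T := by
  obtain ⟨A, hA⟩ := hSL
  obtain ⟨K, hK1, hK⟩ := core_num (max (A : ℝ) 1) (le_max_right _ _)
  set A1 : ℝ := max (A : ℝ) 1 with hA1
  have hA1' : 1 ≤ A1 := le_max_right _ _
  have hAA1 : (A : ℝ) ≤ A1 := le_max_left _ _
  refine ⟨Real.toNNReal (22 * A1 * K), fun n hn f hf hfb lam hlam hlam1 hadm R => ?_⟩
  set E : Set (AddCircle T) := {x | ∃ N ≤ R, lam < ‖S f N x‖} with hE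
  have hEm : MeasurableSet E := measurableSet_max f R lam
  have hfint : Integrable f μ := by
    refine Integrable.of_bound hf.aestronglyMeasurable (2 ^ n) ?_
    exact Eventually.of_forall hfb
  set a : ℝ≥0∞ := ∫⁻ x, ‖f x‖ₑ ∂μ with ha
  have hat : a ≠ ⊤ := hfint.2.ne
  set ar : ℝ := a.toReal with har
  have har0 : 0 ≤ ar := ENNReal.toReal_nonneg
  have haar : a = ENNReal.ofReal ar := (ENNReal.ofReal_toReal hat).symm
  set e : ℝ := (μ E).toReal with he
  have he0 : 0 ≤ e := ENNReal.toReal_nonneg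
  have hμE : μ E = ENNReal.ofReal e := (ENNReal.ofReal_toReal (measure_ne_top _ _)).symm
  -- it is enough to have the real inequality
  suffices hreal : lam * e ≤ 22 * A1 * (K * V n) * ar by
    rw [hμE, haar]
    have h1 : ((Real.toNNReal (22 * A1 * K) : ℝ≥0) : ℝ≥0∞) = ENNReal.ofReal (22 * A1 * K) := rfl
    rw [h1, ← ENNReal.ofReal_mul (by positivity), ← ENNReal.ofReal_mul (by
      have := V_nonneg n; positivity)]
    apply ENNReal.ofReal_le_ofReal
    have h2 : 22 * A1 * K * (V n / lam) * ar = (22 * A1 * (K * V n) * ar) / lam := by ring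
    rw [h2, le_div_iff₀ hlam]
    linarith
  rcases he0.eq_or_lt with he00 | hepos
  · rw [← he00, mul_zero]
    have := V_nonneg n
    positivity
  rcases har0.eq_or_lt with har00 | harpos
  · exfalso
    have h1 : a = 0 := by rw [haar, ← har00]; simp
    have h2 : f =ᵐ[μ] 0 := by
      rw [ha, lintegral_eq_zero_iff hf.enorm] at h1
      filter_upwards [h1] with x hx
      simpa using hx
    have h3 : E = ∅ := by
      rw [eq_empty_iff_forall_notMem]
      rintro x ⟨N, _, hx⟩
      rw [S_congr h2 N x] at hx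
      have : S (0 : AddCircle T → ℂ) N x = 0 := by
        unfold S fourierCoeff
        simp
      rw [this, norm_zero] at hx
      linarith
    rw [he, h3] at hepos
    simp at hepos
  refine hK n hn lam ar e hlam hlam1 hadm harpos hepos ?_
  intro n' hnn' hn'
  set t : ℝ := 10 * ar / e with ht
  have ht0 : 0 < t := by positivity
  -- exceptional set
  set E' : Set (AddCircle T) := {x | ∃ r : ℝ, 0 < r ∧
    ENNReal.ofReal t * μ (closedBall x r) < ∫⁻ y in closedBall x r, ‖f y‖ₑ ∂μ} with hE'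
  have hw := weak_type f (ENNReal.ofReal t)
  rw [← hE', ← ha, haar] at hw
  set m' : ℝ := (μ E').toReal with hm'
  have hμE' : μ E' = ENNReal.ofReal m' := (ENNReal.ofReal_toReal (measure_ne_top _ _)).symm
  have hm'0 : 0 ≤ m' := ENNReal.toReal_nonneg
  have hm'le : m' ≤ e / 2 := by
    rw [hμE', ← ENNReal.ofReal_mul ht0.le, show (5 : ℝ≥0∞) = ENNReal.ofReal 5 by norm_num,
      ← ENNReal.ofReal_mul (by norm_num), ENNReal.ofReal_le_ofReal_iff (by positivity)] at hw
    rw [ht] at hw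
    have h1 : 10 * ar / e * m' = ar * (10 * m' / e) := by ring
    rw [h1] at hw
    have h2 : 10 * m' / e ≤ 5 := by
      by_contra hcon
      push Not at hcon
      nlinarith
    rw [div_le_iff₀ hepos] at h2
    linarith
  -- good set
  set G : Set (AddCircle T) := E \ toMeasurable (AddCircle.haarAddCircle (T := T)) E' with hG
  have hGm : MeasurableSet G := hEm.diff (measurableSet_toMeasurable _ _)
  set mG : ℝ := (μ G).toReal with hmG
  have hμG : μ G = ENNReal.ofReal mG := (ENNReal.ofReal_toReal (measure_ne_top _ _)).symm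
  have hmG0 : 0 ≤ mG := ENNReal.toReal_nonneg
  have hmGe : mG ≤ e := ENNReal.toReal_mono (measure_ne_top _ _) (measure_mono sdiff_subset)
  have hmGl : e / 2 ≤ mG := by
    have h1 : μ E ≤ μ G + μ (toMeasurable (AddCircle.haarAddCircle (T := T)) E') := by
      refine (measure_mono ?_).trans (measure_union_le _ _)
      intro x hx
      by_cases h : x ∈ toMeasurable (AddCircle.haarAddCircle (T := T)) E'
      · exact Or.inr h
      · exact Or.inl ⟨hx, h⟩
    rw [measure_toMeasurable, hμE, hμG, hμE', ← ENNReal.ofReal_add hmG0 hm'0,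
      ENNReal.ofReal_le_ofReal_iff (by positivity)] at h1
    linarith
  -- the rescaled function
  let g : AddCircle T → ℂ := fun y => ((t⁻¹ : ℝ) : ℂ) * f y
  have hgm : Measurable g := hf.const_mul _
  have hgn : ∀ y, ‖g y‖ = t⁻¹ * ‖f y‖ := by
    intro y
    simp only [g, norm_mul, Complex.norm_real, Real.norm_eq_abs, abs_of_pos (inv_pos.2 ht0)]
  have hge : ∀ y, ‖g y‖ₑ = ENNReal.ofReal t⁻¹ * ‖f y‖ₑ := by
    intro y
    rw [← ofReal_norm, hgn, ENNReal.ofReal_mul (inv_pos.2 ht0).le, ofReal_norm]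
  have hgb : ∀ y, ‖g y‖ ≤ 2 ^ n' := by
    intro y
    rw [hgn, inv_mul_le_iff₀ ht0]
    exact (hfb y).trans hn'
  have hMax : MaxLe g G := by
    intro x hx r hr
    have hxE' : x ∉ E' := fun h => hx.2 (subset_toMeasurable _ _ h)
    have h1 : ∫⁻ y in closedBall x r, ‖f y‖ₑ ∂μ ≤ ENNReal.ofReal t * μ (closedBall x r) := by
      by_contra hcon
      exact hxE' ⟨r, hr, not_le.1 hcon⟩
    simp only [hge]
    rw [lintegral_const_mul' _ _ ENNReal.ofReal_ne_top]
    calc ENNReal.ofReal t⁻¹ * ∫⁻ y in closedBall x r, ‖f y‖ₑ ∂μ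
        ≤ ENNReal.ofReal t⁻¹ * (ENNReal.ofReal t * μ (closedBall x r)) := by gcongr
      _ = μ (closedBall x r) := by
          rw [← mul_assoc, ← ENNReal.ofReal_mul (inv_pos.2 ht0).le, inv_mul_cancel₀ ht0.ne']
          simp
  -- linearisation
  classical
  let N : AddCircle T → ℕ := fun x => Nat.findGreatest (fun N => lam < ‖S f N x‖) R
  have hNm : Measurable N := by
    refine measurable_findGreatest (p := fun x N => lam < ‖S f N x‖) fun k _ => ?_
    exact measurableSet_lt measurable_const (continuous_S f k).norm.measurable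
  have hNR : ∀ x, N x ≤ R := fun x => Nat.findGreatest_le R
  have hNE : ∀ x ∈ E, lam < ‖S f (N x) x‖ := by
    rintro x ⟨k, hk, hx⟩
    exact Nat.findGreatest_spec (P := fun N => lam < ‖S f N x‖) hk hx
  have hmain := hA n' (hn.trans hnn') g hgm hgb G hGm hMax R N hNm hNR
  have hlow : ENNReal.ofReal (t⁻¹ * lam) * μ G
      ≤ ∫⁻ x in G, ‖S g (N x) x‖ₑ ∂μ := by
    rw [← setLIntegral_const]
    refine setLIntegral_mono' hGm fun x hx => ?_
    have h1 : S g (N x) x = ((t⁻¹ : ℝ) : ℂ) * S f (N x) x := S_smul f _ _ _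
    rw [h1, ← ofReal_norm, norm_mul, Complex.norm_real, Real.norm_eq_abs,
      abs_of_pos (inv_pos.2 ht0)]
    apply ENNReal.ofReal_le_ofReal
    have := hNE x hx.1
    gcongr
  have hga : ∫⁻ x, ‖g x‖ₑ ∂μ = ENNReal.ofReal (t⁻¹ * ar) := by
    simp only [hge]
    rw [lintegral_const_mul' _ _ ENNReal.ofReal_ne_top, ← ha, haar,
      ← ENNReal.ofReal_mul (inv_pos.2 ht0).le]
  have hVn' := V_nonneg n'
  have h5 := hlow.trans hmain
  rw [hga, hμG, ← ENNReal.ofReal_mul (by positivity), ← ENNReal.ofReal_add hmG0 (by positivity),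
    show (A : ℝ≥0∞) = ENNReal.ofReal (A : ℝ) by simp,
    ← ENNReal.ofReal_mul A.coe_nonneg, ← ENNReal.ofReal_mul (by positivity),
    ENNReal.ofReal_le_ofReal_iff (by positivity)] at h5
  -- real inequality
  have h6 : lam * mG ≤ A * V n' * (t * mG + ar) := by
    have h7 : t * (t⁻¹ * lam * mG) ≤ t * (A * V n' * (mG + t⁻¹ * ar)) :=
      mul_le_mul_of_nonneg_left h5 ht0.le
    have e1 : t * (t⁻¹ * lam * mG) = lam * mG := by field_simp
    have e2 : t * (A * V n' * (mG + t⁻¹ * ar)) = A * V n' * (t * mG + ar) := by field_simp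
    rw [e1, e2] at h7
    exact h7
  have hte : t * e = 10 * ar := by rw [ht]; field_simp
  have h8 : t * mG + ar ≤ 11 * ar := by
    have : t * mG ≤ t * e := by gcongr
    linarith
  have hAV : 0 ≤ (A : ℝ) * V n' := by positivity
  have h9 : lam * mG ≤ A1 * V n' * (11 * ar) := by
    calc lam * mG ≤ A * V n' * (t * mG + ar) := h6
      _ ≤ A * V n' * (11 * ar) := by gcongr
      _ ≤ A1 * V n' * (11 * ar) := by gcongr
  have h10 : lam * (e / 2) ≤ lam * mG := by gcongr
  linarith

/-- everything together: the strong local bound implies a.e. convergence -/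
theorem ae_tendsto_of_StrongLocal (hSL : StrongLocal T) (f : AddCircle T → ℂ)
    (hf : AEStronglyMeasurable f μ)
    (hlog : ∫⁻ x, ‖f x‖ₑ * ENNReal.ofReal (Real.log (2 + ‖f x‖)) ∂μ < ⊤) :
    ∀ᵐ x ∂μ, Tendsto (fun N : ℕ => ∑ k ∈ Finset.Icc (-(N : ℤ)) N, fourierCoeff f k • fourier k x)
      atTop (𝓝 (f x)) :=
  ae_tendsto_of_MI (MI_of_OL (OL_of_StrongLocal hSL)) f hf hlog

end Crest.Agent.R100.P2b800
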