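import Crest.Agent.R100.P2b_800

/-!
# R100 / S0132, part P3 (helper800)

From the circle to the real line: `StrongLocal T` follows from the strong local bound for the
(hard truncated) modulated Hilbert kernel `e^{-2π i N(x) y} / (x - y)` on the real line.
-/

set_option autoImplicit false

open MeasureTheory Filter Set Topology Metric
open scoped ENNReal NNReal

noncomputable section

namespace Crest.Agent.R100.P3800

open Crest.Agent.R100.P1800 Crest.Agent.R100.P2800 Crest.Agent.R100.P2b800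

variable {T : ℝ} [hT : Fact (0 < T)]

local notation "μ" => AddCircle.haarAddCircle (T := T)

/-- `MF ≤ 1` on `G` (real line, centred) -/
def MaxLeR (F : ℝ → ℂ) (G : Set ℝ) : Prop :=
  ∀ x ∈ G, ∀ r : ℝ, 0 < r → ∫⁻ y in Icc (x - r) (x + r), ‖F y‖ₑ ≤ ENNReal.ofReal (2 * r)

/-- hard truncated modulated Hilbert transform (without the unimodular factor in `x`) -/
def CR (F : ℝ → ℂ) (ε : ℝ) (N : ℤ) (x : ℝ) : ℂ :=
  ∫ y in {y : ℝ | ε < |x - y|}, Complex.exp (-(2 * Real.pi * N * y) * Complex.I) * F y / (x - y)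

/-- **strong local bound on the real line** -/
def StrongLocalR : Prop :=
  ∃ A : ℝ≥0, ∀ (n : ℕ) (_ : 1 ≤ n) (F : ℝ → ℂ) (_ : Measurable F) (_ : ∀ x, ‖F x‖ ≤ 2 ^ n)
    (_ : ∀ x, x ∉ Ioc (-(1 / 2) : ℝ) (3 / 2) → F x = 0)
    (G : Set ℝ) (_ : MeasurableSet G) (_ : G ⊆ Ioc 0 1) (_ : MaxLeR F G)
    (R : ℕ) (N : ℝ → ℤ) (_ : Measurable N) (_ : ∀ x, |N x| ≤ R) (ε : ℝ) (_ : 0 < ε)
    (_ : ε ≤ 1 / 4),
    ∫⁻ x in G, ‖CR F ε (N x) x‖ₑ ≤ A * ENNReal.ofReal (V n) * (volume G + ∫⁻ x, ‖F x‖ₑ)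

/-! ## the parametrisation -/

/-- the parametrisation `u ↦ T u` of the circle -/
def ph (u : ℝ) : AddCircle T := ((T * u : ℝ) : AddCircle T)

lemma measurePreserving_ph (a : ℝ) :
    MeasurePreserving (ph (T := T)) (volume.restrict (Ioc a (a + 1))) μ := by
  have hT0 := hT.out
  have h1 := AddCircle.measurePreserving_mk T (T * a)
  have hm : Measurable (fun u : ℝ => T * u) := measurable_const_mul T
  refine ⟨h1.measurable.comp hm, ?_⟩
  have h2 : Measure.map (fun u : ℝ => T * u) (volume.restrict (Ioc a (a + 1)))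
      = ENNReal.ofReal T⁻¹ • volume.restrict (Ioc (T * a) (T * a + T)) := by
    have hpre : (fun u : ℝ => T * u) ⁻¹' (Ioc (T * a) (T * a + T)) = Ioc a (a + 1) := by
      ext u
      simp only [mem_preimage, mem_Ioc]
      constructor
      · rintro ⟨h3, h4⟩
        exact ⟨lt_of_mul_lt_mul_left h3 hT0.le, by
          have : T * u ≤ T * (a + 1) := by linarith
          exact le_of_mul_le_mul_left this hT0⟩
      · rintro ⟨h3, h4⟩
        exact ⟨mul_lt_mul_of_pos_left h3 hT0, by
          have : T * u ≤ T * (a + 1) := mul_le_mul_of_nonneg_left h4 hT0.le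
          linarith⟩
    rw [← hpre, ← Measure.restrict_map hm measurableSet_Ioc]
    have h3 := Real.map_volume_mul_left (a := T) hT0.ne'
    rw [h3, Measure.restrict_smul, abs_of_pos (inv_pos.2 hT0)]
  have h4 : (ph (T := T)) = ((↑) : ℝ → AddCircle T) ∘ (fun u : ℝ => T * u) := rfl
  rw [h4, ← Measure.map_map h1.measurable hm, h2, Measure.map_smul, h1.map_eq,
    AddCircle.volume_eq_smul_haarAddCircle, smul_smul, ← ENNReal.ofReal_mul (by positivity),
    inv_mul_cancel₀ hT0.ne']
  simp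

omit hT in
lemma measurable_ph : Measurable (ph (T := T)) := by
  have h1 : Measurable ((↑) : ℝ → AddCircle T) := AddCircle.measurable_mk'
  exact h1.comp (measurable_const_mul T)

lemma lint_ph (a : ℝ) {g : AddCircle T → ℝ≥0∞} (hg : Measurable g) :
    ∫⁻ x, g x ∂μ = ∫⁻ u in Ioc a (a + 1), g (ph u) :=
  ((measurePreserving_ph (T := T) a).lintegral_comp hg).symm

lemma int_ph (a : ℝ) {g : AddCircle T → ℂ} (hg : AEStronglyMeasurable g μ) :
    ∫ x, g x ∂μ = ∫ u in Ioc a (a + 1), g (ph u) := by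
  have h := measurePreserving_ph (T := T) a
  rw [← h.map_eq, integral_map h.measurable.aemeasurable (by rw [h.map_eq]; exact hg)]

omit hT in
lemma ph_add_one (u : ℝ) : ph (T := T) (u + 1) = ph u := by
  unfold ph
  rw [mul_add, mul_one]
  exact AddCircle.coe_add_period T (T * u)

lemma fourier_ph (k : ℤ) (u : ℝ) :
    (fourier k (ph (T := T) u) : ℂ) = Complex.exp (2 * Real.pi * Complex.I * k * u) := by
  unfold ph
  rw [fourier_coe_apply]
  congr 1
  have : (T : ℂ) ≠ 0 := by exact_mod_cast hT.out.ne'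
  push_cast
  field_simp

/-! ## the Dirichlet kernel -/

/-- real Dirichlet kernel (period 1) -/
def Dr (N : ℕ) (w : ℝ) : ℝ := 1 + ∑ k ∈ Finset.range N, 2 * Real.cos (2 * Real.pi * (k + 1) * w)

lemma Dr_eq (N : ℕ) (w : ℝ) :
    ∑ k ∈ Finset.Icc (-(N : ℤ)) N, Complex.exp (2 * Real.pi * Complex.I * k * w) = (Dr N w : ℂ) := by
  induction N with
  | zero => simp [Dr]
  | succ N ih =>
    have h1 : Finset.Icc (-((N + 1 : ℕ) : ℤ)) ((N + 1 : ℕ) : ℤ)
        = insert (-((N : ℤ) + 1)) (insert ((N : ℤ) + 1) (Finset.Icc (-(N : ℤ)) N)) := by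
      ext k
      simp only [Finset.mem_Icc, Finset.mem_insert]
      push_cast
      omega
    rw [h1, Finset.sum_insert, Finset.sum_insert, ih]
    · unfold Dr
      rw [Finset.sum_range_succ]
      have h2 : Complex.exp (2 * Real.pi * Complex.I * ((-((N : ℤ) + 1) : ℤ) : ℂ) * w)
          + Complex.exp (2 * Real.pi * Complex.I * (((N : ℤ) + 1 : ℤ) : ℂ) * w)
          = 2 * Complex.cos (2 * Real.pi * (N + 1) * w) := by
        rw [Complex.cos]
        push_cast
        rw [mul_div_cancel₀ _ (two_ne_zero)]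
        rw [add_comm]
        congr 1
        · congr 1; ring
        · congr 1; ring
      push_cast at h2 ⊢
      linear_combination h2
    · simp only [Finset.mem_Icc]; omega
    · simp only [Finset.mem_Icc, Finset.mem_insert]; omega

lemma Dr_mul_sin (N : ℕ) (w : ℝ) :
    Real.sin (Real.pi * w) * Dr N w = Real.sin (2 * Real.pi * N * w + Real.pi * w) := by
  induction N with
  | zero => simp [Dr]
  | succ N ih =>
    have h1 : Dr (N + 1) w = Dr N w + 2 * Real.cos (2 * Real.pi * (N + 1) * w) := by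
      unfold Dr
      rw [Finset.sum_range_succ]
      ring
    rw [h1, mul_add, ih]
    have e1 : 2 * Real.pi * (N : ℝ) * w + Real.pi * w
        = 2 * Real.pi * (N + 1) * w - Real.pi * w := by ring
    have e2 : 2 * Real.pi * ((N + 1 : ℕ) : ℝ) * w + Real.pi * w
        = 2 * Real.pi * (N + 1) * w + Real.pi * w := by push_cast; ring
    rw [e1, e2, Real.sin_sub, Real.sin_add]
    ring

lemma abs_Dr_le (N : ℕ) (w : ℝ) : |Dr N w| ≤ 2 * N + 1 := by
  unfold Dr
  have h1 : |∑ k ∈ Finset.range N, 2 * Real.cos (2 * Real.pi * (k + 1) * w)| ≤ 2 * N := by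
    refine (Finset.abs_sum_le_sum_abs _ _).trans ?_
    calc ∑ k ∈ Finset.range N, |2 * Real.cos (2 * Real.pi * (k + 1) * w)|
        ≤ ∑ k ∈ Finset.range N, (2 : ℝ) := by
          refine Finset.sum_le_sum fun k _ => ?_
          rw [abs_mul, abs_two]
          have := Real.abs_cos_le_one (2 * Real.pi * (k + 1) * w)
          linarith
      _ = 2 * N := by simp; ring
  calc |1 + ∑ k ∈ Finset.range N, 2 * Real.cos (2 * Real.pi * (k + 1) * w)|
      ≤ |(1 : ℝ)| + |∑ k ∈ Finset.range N, 2 * Real.cos (2 * Real.pi * (k + 1) * w)| :=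
        abs_add_le _ _
    _ ≤ 2 * N + 1 := by rw [abs_one]; linarith

/-- `|x cos x - sin x| ≤ |x|³` -/
lemma xcos_sub_sin {x : ℝ} (hx : 0 ≤ x) :
    |x * Real.cos x - Real.sin x| ≤ x ^ 2 * x := by
  have h1 : Real.sin x ≤ x := Real.sin_le hx
  have h2 : x - x ^ 3 / 6 ≤ Real.sin x := by
    rcases hx.eq_or_lt with h0 | h0
    · rw [← h0]; simp
    · exact (Real.sin_gt_sub_cube h0).le
  have h3 : 1 - x ^ 2 / 2 ≤ Real.cos x := Real.one_sub_sq_div_two_le_cos
  have h4 : Real.cos x ≤ 1 := Real.cos_le_one x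
  rw [abs_le]
  constructor
  · have h5 : x * (1 - x ^ 2 / 2) ≤ x * Real.cos x := mul_le_mul_of_nonneg_left h3 hx
    nlinarith [pow_nonneg hx 3]
  · have h5 : x * Real.cos x ≤ x * 1 := mul_le_mul_of_nonneg_left h4 hx
    nlinarith [pow_nonneg hx 3]

lemma cot_bound {x : ℝ} (hx : 0 < x) (hx1 : x ≤ Real.pi / 2) :
    |Real.cos x / Real.sin x - 1 / x| ≤ 3 := by
  have hs : 2 / Real.pi * x ≤ Real.sin x := Real.mul_le_sin hx.le hx1
  have hpi := Real.pi_pos
  have hpi4 : Real.pi < 3.15 := Real.pi_lt_d2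
  have hs0 : 0 < Real.sin x := lt_of_lt_of_le (by positivity) hs
  have h1 : Real.cos x / Real.sin x - 1 / x = (x * Real.cos x - Real.sin x) / (x * Real.sin x) := by
    field_simp
  rw [h1, abs_div, abs_of_pos (mul_pos hx hs0), div_le_iff₀ (mul_pos hx hs0)]
  refine (xcos_sub_sin hx.le).trans ?_
  have h2 : x * (2 / Real.pi * x) ≤ x * Real.sin x := mul_le_mul_of_nonneg_left hs hx.le
  have h4 : x ≤ 3 * (2 / Real.pi) := by
    rw [mul_div_assoc', le_div_iff₀ hpi]
    nlinarith
  have h3 : x ^ 2 * x ≤ 3 * (x * (2 / Real.pi * x)) := by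
    have h5 : x ^ 2 * x ≤ x ^ 2 * (3 * (2 / Real.pi)) := mul_le_mul_of_nonneg_left h4 (by positivity)
    calc x ^ 2 * x ≤ x ^ 2 * (3 * (2 / Real.pi)) := h5
      _ = 3 * (x * (2 / Real.pi * x)) := by ring
  linarith

/-- the Dirichlet kernel against the truncated sine kernel -/
lemma Dr_bound (N : ℕ) {w : ℝ} (hw0 : w ≠ 0) (hw : |w| ≤ 1 / 2) :
    |Dr N w - Real.sin (2 * Real.pi * N * w) / (Real.pi * w)| ≤ 4 := by
  -- reduce to w > 0
  wlog hpos : 0 < w generalizing w with H
  · have hneg : 0 < -w := by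
      rcases lt_or_gt_of_ne hw0 with h | h
      · linarith
      · exact absurd h hpos
    have := H (neg_ne_zero.2 hw0) (by rwa [abs_neg]) hneg
    have e1 : Dr N (-w) = Dr N w := by
      unfold Dr
      congr 1
      refine Finset.sum_congr rfl fun k _ => ?_
      rw [mul_neg, Real.cos_neg]
    have e2 : Real.sin (2 * Real.pi * N * (-w)) / (Real.pi * (-w))
        = Real.sin (2 * Real.pi * N * w) / (Real.pi * w) := by
      rw [mul_neg, Real.sin_neg, mul_neg, neg_div_neg_eq]
    rw [e1, e2] at this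
    exact this
  have hpi := Real.pi_pos
  have hw2 : w ≤ 1 / 2 := by rwa [abs_of_pos hpos] at hw
  have hx : 0 < Real.pi * w := by positivity
  have hx1 : Real.pi * w ≤ Real.pi / 2 := by nlinarith
  have hs0 : 0 < Real.sin (Real.pi * w) := Real.sin_pos_of_pos_of_lt_pi hx (by nlinarith)
  have h1 := Dr_mul_sin N w
  have h2 : Dr N w = Real.sin (2 * Real.pi * N * w) * (Real.cos (Real.pi * w) /
      Real.sin (Real.pi * w)) + Real.cos (2 * Real.pi * N * w) := by
    rw [Real.sin_add] at h1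
    field_simp
    linarith
  have h3 : Dr N w - Real.sin (2 * Real.pi * N * w) / (Real.pi * w)
      = Real.sin (2 * Real.pi * N * w) * (Real.cos (Real.pi * w) / Real.sin (Real.pi * w)
        - 1 / (Real.pi * w)) + Real.cos (2 * Real.pi * N * w) := by
    rw [h2]; ring
  rw [h3]
  have h4 := cot_bound hx hx1
  have h5 := Real.abs_sin_le_one (2 * Real.pi * N * w)
  have h6 := Real.abs_cos_le_one (2 * Real.pi * N * w)
  refine (abs_add_le _ _).trans ?_
  rw [abs_mul]
  have h7 : |Real.sin (2 * Real.pi * N * w)| * |Real.cos (Real.pi * w) / Real.sin (Real.pi * w)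
        - 1 / (Real.pi * w)| ≤ 1 * 3 := mul_le_mul h5 h4 (abs_nonneg _) (by norm_num)
  linarith

/-! ## from the circle to the line -/

/-- periodic lift -/
def lift (f : AddCircle T → ℂ) (u : ℝ) : ℂ := f (ph u)

/-- restricted lift -/
def FF (f : AddCircle T → ℂ) (u : ℝ) : ℂ :=
  (Ioc (-(1 / 2) : ℝ) (3 / 2)).indicator (fun v => (1 / 2 : ℂ) * lift f v) u

omit hT in
lemma measurable_lift {f : AddCircle T → ℂ} (hf : Measurable f) : Measurable (lift f) :=
  hf.comp measurable_ph

omit hT in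
lemma measurable_FF {f : AddCircle T → ℂ} (hf : Measurable f) : Measurable (FF f) :=
  ((measurable_lift hf).const_mul _).indicator measurableSet_Ioc

omit hT in
lemma lift_add_one (f : AddCircle T → ℂ) (u : ℝ) : lift f (u + 1) = lift f u := by
  unfold lift
  rw [ph_add_one]

lemma lint_lift {f : AddCircle T → ℂ} (hf : Measurable f) (a : ℝ) :
    ∫⁻ u in Ioc a (a + 1), ‖lift f u‖ₑ = ∫⁻ x, ‖f x‖ₑ ∂μ :=
  (lint_ph a hf.enorm).symm

lemma lint_FF {f : AddCircle T → ℂ} (hf : Measurable f) :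
    ∫⁻ u, ‖FF f u‖ₑ = ∫⁻ x, ‖f x‖ₑ ∂μ := by
  have h1 : ∀ u, ‖FF f u‖ₑ = (Ioc (-(1 / 2) : ℝ) (3 / 2)).indicator
      (fun v => ‖(1 / 2 : ℂ) * lift f v‖ₑ) u := by
    intro u
    unfold FF
    by_cases hu : u ∈ Ioc (-(1 / 2) : ℝ) (3 / 2)
    · rw [indicator_of_mem hu, indicator_of_mem hu]
    · rw [indicator_of_notMem hu, indicator_of_notMem hu, enorm_zero]
  simp only [h1]
  rw [lintegral_indicator measurableSet_Ioc]
  have h2 : ∀ v, ‖(1 / 2 : ℂ) * lift f v‖ₑ = 2⁻¹ * ‖lift f v‖ₑ := by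
    intro v
    rw [enorm_mul]
    congr 1
    rw [← ofReal_norm]
    simp
  simp only [h2]
  rw [lintegral_const_mul' _ _ (by simp)]
  have h3 : Ioc (-(1 / 2) : ℝ) (3 / 2) = Ioc (-(1 / 2) : ℝ) (-(1 / 2) + 1) ∪
      Ioc (1 / 2 : ℝ) (1 / 2 + 1) := by
    rw [show (-(1 / 2) + 1 : ℝ) = 1 / 2 by norm_num, show (1 / 2 + 1 : ℝ) = 3 / 2 by norm_num]
    exact (Ioc_union_Ioc_eq_Ioc (by norm_num) (by norm_num)).symm
  rw [h3, lintegral_union measurableSet_Ioc, lint_lift hf, lint_lift hf, ← two_mul, ← mul_assoc,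
    ENNReal.inv_mul_cancel (by norm_num) (by norm_num), one_mul]
  rw [show (-(1 / 2) + 1 : ℝ) = 1 / 2 by norm_num]
  rw [Set.disjoint_left]
  rintro x ⟨_, hx⟩ ⟨hx2, _⟩
  linarith

lemma dist_ph_le (u v : ℝ) : dist (ph (T := T) v) (ph u) ≤ T * |v - u| := by
  unfold ph
  rw [dist_eq_norm, ← AddCircle.coe_sub, ← mul_sub]
  have h1 : ‖((T * (v - u) : ℝ) : AddCircle T)‖ ≤ ‖T * (v - u)‖ :=
    QuotientAddGroup.norm_mk_le_norm
  rwa [Real.norm_eq_abs, abs_mul, abs_of_pos hT.out] at h1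

lemma ball_bound {f : AddCircle T → ℂ} (hf : Measurable f) {G : Set (AddCircle T)}
    (hG : MaxLe f G) {u : ℝ} (hu : ph u ∈ G) {r : ℝ} (hr : 0 < r) (hr2 : r ≤ 1 / 2) :
    ∫⁻ v in Icc (u - r) (u + r), ‖lift f v‖ₑ ≤ ENNReal.ofReal (2 * r) := by
  have hT0 := hT.out
  have h1 := hG (ph u) hu (T * r) (by positivity)
  have h2 : ∫⁻ v in Icc (u - r) (u + r), ‖lift f v‖ₑ
      ≤ ∫⁻ y in closedBall (ph (T := T) u) (T * r), ‖f y‖ₑ ∂μ := by
    rw [← lintegral_indicator isClosed_closedBall.measurableSet,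
      lint_ph (u - 1 / 2) (hf.enorm.indicator isClosed_closedBall.measurableSet)]
    rw [setLIntegral_congr (Ioc_ae_eq_Icc (a := u - r) (b := u + r)).symm]
    have hsub : Ioc (u - r) (u + r) ⊆ Ioc (u - 1 / 2) (u - 1 / 2 + 1) :=
      Ioc_subset_Ioc (by linarith) (by linarith)
    calc ∫⁻ v in Ioc (u - r) (u + r), ‖lift f v‖ₑ
        ≤ ∫⁻ v in Ioc (u - r) (u + r),
          (closedBall (ph (T := T) u) (T * r)).indicator (fun y => ‖f y‖ₑ) (ph v) := by
          refine setLIntegral_mono' measurableSet_Ioc fun v hv => ?_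
          have hv2 : ph (T := T) v ∈ closedBall (ph u) (T * r) := by
            rw [mem_closedBall]
            refine (dist_ph_le u v).trans ?_
            have : |v - u| ≤ r := by
              rw [abs_le]; constructor <;> linarith [hv.1, hv.2]
            gcongr
          rw [indicator_of_mem hv2]
          exact le_rfl
      _ ≤ _ := lintegral_mono_set hsub
  refine h2.trans (h1.trans ?_)
  have h3 := haar_closedBall (T := T) (ph u) (T * r)
  have hT0' : ENNReal.ofReal T ≠ 0 := by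
    rw [Ne, ENNReal.ofReal_eq_zero, not_le]; exact hT0
  refine (ENNReal.mul_le_mul_iff_right hT0' ENNReal.ofReal_ne_top).1 ?_
  rw [h3, ← ENNReal.ofReal_mul hT0.le]
  apply ENNReal.ofReal_le_ofReal
  refine (min_le_right _ _).trans (le_of_eq (by ring))

lemma total_le_one {f : AddCircle T → ℂ} {G : Set (AddCircle T)}
    (hG : MaxLe f G) {x : AddCircle T} (hx : x ∈ G) : ∫⁻ y, ‖f y‖ₑ ∂μ ≤ 1 := by
  have hT0 := hT.out
  have h1 := hG x hx T hT0
  have e2 : closedBall x T = univ := by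
    refine AddCircle.closedBall_eq_univ_of_half_period_le T hT0.ne' x ?_
    rw [abs_of_pos hT0]; linarith
  rw [e2] at h1
  simpa using h1

/-- the good set on the line -/
def GR (G : Set (AddCircle T)) : Set ℝ := Ioc 0 1 ∩ ph ⁻¹' G

lemma maxLeR_GR {f : AddCircle T → ℂ} (hf : Measurable f) {G : Set (AddCircle T)}
    (hG : MaxLe f G) : MaxLeR (FF f) (GR G) := by
  rintro u ⟨_, huG⟩ r hr
  have huG' : ph u ∈ G := huG
  by_cases hr2 : r ≤ 1 / 2
  · refine le_trans ?_ (ball_bound hf hG huG' hr hr2)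
    refine lintegral_mono fun v => ?_
    unfold FF
    by_cases hv : v ∈ Ioc (-(1 / 2) : ℝ) (3 / 2)
    · rw [indicator_of_mem hv, enorm_mul]
      have : ‖(1 / 2 : ℂ)‖ₑ ≤ 1 := by
        rw [← ofReal_norm]
        simp
      calc ‖(1 / 2 : ℂ)‖ₑ * ‖lift f v‖ₑ ≤ 1 * ‖lift f v‖ₑ := by gcongr
        _ = _ := one_mul _
    · rw [indicator_of_notMem hv, enorm_zero]
      exact zero_le
  · push Not at hr2
    calc ∫⁻ v in Icc (u - r) (u + r), ‖FF f v‖ₑ ≤ ∫⁻ v, ‖FF f v‖ₑ :=
          setLIntegral_le_lintegral _ _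
      _ = ∫⁻ x, ‖f x‖ₑ ∂μ := lint_FF hf
      _ ≤ 1 := total_le_one hG huG'
      _ ≤ ENNReal.ofReal (2 * r) := by
          rw [← ENNReal.ofReal_one]
          exact ENNReal.ofReal_le_ofReal (by linarith)

/-- partial sums as integrals on the line -/
lemma S_eq {f : AddCircle T → ℂ} (hf : Measurable f) {B : ℝ} (hB : ∀ x, ‖f x‖ ≤ B) (N : ℕ)
    (u : ℝ) : S f N (ph u) = ∫ v in Ioc (u - 1 / 2) (u - 1 / 2 + 1), (Dr N (u - v) : ℂ) * lift f v := by
  unfold S
  have hint : ∀ k : ℤ, Integrable (fun v : ℝ => Complex.exp (-(2 * Real.pi * Complex.I * k * v))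
      * lift f v) (volume.restrict (Ioc (u - 1 / 2) (u - 1 / 2 + 1))) := by
    intro k
    refine Integrable.of_bound (C := B) ?_ ?_
    · refine AEStronglyMeasurable.mul ?_ (measurable_lift hf).aestronglyMeasurable
      have : Continuous (fun v : ℝ => Complex.exp (-(2 * Real.pi * Complex.I * k * v))) := by
        fun_prop
      exact this.aestronglyMeasurable
    · refine Eventually.of_forall fun v => ?_
      rw [norm_mul]
      have : ‖Complex.exp (-(2 * Real.pi * Complex.I * k * v))‖ = 1 := by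
        have h : -(2 * Real.pi * Complex.I * k * v) = ((-(2 * Real.pi * k * v) : ℝ) : ℂ)
            * Complex.I := by push_cast; ring
        rw [h, Complex.norm_exp_ofReal_mul_I]
      rw [this, one_mul]
      exact hB _
  have h1 : ∀ k : ℤ, fourierCoeff f k • (fourier k (ph (T := T) u) : ℂ)
      = ∫ v in Ioc (u - 1 / 2) (u - 1 / 2 + 1),
        Complex.exp (2 * Real.pi * Complex.I * k * ((u - v : ℝ) : ℂ)) * lift f v := by
    intro k
    unfold fourierCoeff
    rw [int_ph (u - 1 / 2)]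
    · rw [smul_eq_mul, mul_comm, ← integral_const_mul]
      refine integral_congr_ae (Eventually.of_forall fun v => ?_)
      simp only [smul_eq_mul]
      rw [fourier_ph, fourier_ph, ← mul_assoc, ← Complex.exp_add]
      unfold lift
      congr 2
      push_cast
      ring
    · have : Continuous (fun x : AddCircle T => (fourier (-k) x : ℂ)) :=
        map_continuous (fourier (-k))
      exact this.aestronglyMeasurable.smul hf.aestronglyMeasurable
  simp only [h1]
  rw [← integral_finsetSum]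
  · refine integral_congr_ae (Eventually.of_forall fun v => ?_)
    simp only
    rw [← Finset.sum_mul, Dr_eq]
  · intro k _
    refine ((hint k).const_mul (Complex.exp (2 * Real.pi * Complex.I * k * u))).congr ?_
    refine Eventually.of_forall fun v => ?_
    simp only
    rw [← mul_assoc, ← Complex.exp_add]
    congr 2
    push_cast
    ring

end Crest.Agent.R100.P3800
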