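import Crest.Agent.R100.P3_800

/-!
# R100 / S0132, part P4 (helper800): pointwise kernel formula for the partial sums.

`‖S f N (ph u) - (1/π) ∫_{-1/2}^{1/2} F(u-t) sin((2N+1)πt)/t dt‖ ≤ ∫ ‖f‖`, `F = lift f`.
-/

set_option autoImplicit false

open MeasureTheory Filter Set Topology Metric
open scoped ENNReal NNReal

noncomputable section

namespace Crest.Agent.R100.P4800

open Crest.Agent.R100.P1800 Crest.Agent.R100.P2800 Crest.Agent.R100.P2b800
open Crest.Agent.R100.P3800

variable {T : ℝ} [hT : Fact (0 < T)]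

local notation "μ" => AddCircle.haarAddCircle (T := T)

lemma inv_sin_bound {x : ℝ} (hx : 0 < x) (hx1 : x ≤ Real.pi / 2) :
    |1 / Real.sin x - 1 / x| ≤ 1 := by
  have hs : 2 / Real.pi * x ≤ Real.sin x := Real.mul_le_sin hx.le hx1
  have hpi := Real.pi_pos
  have hpi4 : Real.pi < 3.15 := Real.pi_lt_d2
  have hs0 : 0 < Real.sin x := lt_of_lt_of_le (by positivity) hs
  have h0 : Real.sin x ≤ x := Real.sin_le hx.le
  have h2 : x - x ^ 3 / 6 ≤ Real.sin x := (Real.sin_gt_sub_cube hx).le
  have h1 : 1 / Real.sin x - 1 / x = (x - Real.sin x) / (x * Real.sin x) := by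
    field_simp
  rw [h1, abs_div, abs_of_pos (mul_pos hx hs0), div_le_iff₀ (mul_pos hx hs0), one_mul,
    abs_of_nonneg (by linarith)]
  have h3 : x * (2 / Real.pi * x) ≤ x * Real.sin x := mul_le_mul_of_nonneg_left hs hx.le
  have h4 : x / 6 ≤ 2 / Real.pi := by
    rw [le_div_iff₀ hpi]
    nlinarith
  have h5 : x ^ 3 / 6 ≤ x * (2 / Real.pi * x) := by
    have := mul_le_mul_of_nonneg_left h4 (by positivity : (0 : ℝ) ≤ x ^ 2)
    calc x ^ 3 / 6 = x ^ 2 * (x / 6) := by ring
      _ ≤ x ^ 2 * (2 / Real.pi) := this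
      _ = x * (2 / Real.pi * x) := by ring
  linarith

lemma Dr_bound' (N : ℕ) {w : ℝ} (hw0 : w ≠ 0) (hw : |w| ≤ 1 / 2) :
    |Dr N w - Real.sin ((2 * N + 1) * Real.pi * w) / (Real.pi * w)| ≤ 1 := by
  wlog hpos : 0 < w generalizing w with H
  · have hneg : 0 < -w := by
      rcases lt_or_gt_of_ne hw0 with h | h
      · linarith
      · exact absurd h hpos
    have := H (neg_ne_zero.2 hw0) (by rwa [abs_neg]) hneg
    have e1 : Dr N (-w) = Dr N w := by
      unfold Dr
      congr 1
      refine Finset.sum_congr rfl fun k _ => ?_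
      rw [mul_neg, Real.cos_neg]
    have e2 : Real.sin ((2 * N + 1) * Real.pi * (-w)) / (Real.pi * (-w))
        = Real.sin ((2 * N + 1) * Real.pi * w) / (Real.pi * w) := by
      rw [mul_neg, Real.sin_neg, mul_neg, neg_div_neg_eq]
    rw [e1, e2] at this
    exact this
  have hpi := Real.pi_pos
  have hw2 : w ≤ 1 / 2 := by rwa [abs_of_pos hpos] at hw
  have hx : 0 < Real.pi * w := by positivity
  have hx1 : Real.pi * w ≤ Real.pi / 2 := by nlinarith
  have hs0 : 0 < Real.sin (Real.pi * w) := Real.sin_pos_of_pos_of_lt_pi hx (by nlinarith)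
  have h1 := Dr_mul_sin N w
  have e0 : 2 * Real.pi * N * w + Real.pi * w = (2 * N + 1) * Real.pi * w := by ring
  rw [e0] at h1
  have h2 : Dr N w = Real.sin ((2 * N + 1) * Real.pi * w) * (1 / Real.sin (Real.pi * w)) := by
    field_simp
    linarith
  have h3 : Dr N w - Real.sin ((2 * N + 1) * Real.pi * w) / (Real.pi * w)
      = Real.sin ((2 * N + 1) * Real.pi * w) * (1 / Real.sin (Real.pi * w)
        - 1 / (Real.pi * w)) := by
    rw [h2]; ring
  rw [h3, abs_mul]
  have h4 := inv_sin_bound hx hx1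
  have h5 := Real.abs_sin_le_one ((2 * N + 1) * Real.pi * w)
  calc |Real.sin ((2 * N + 1) * Real.pi * w)| * |1 / Real.sin (Real.pi * w) - 1 / (Real.pi * w)|
      ≤ 1 * 1 := mul_le_mul h5 h4 (abs_nonneg _) (by norm_num)
    _ = 1 := one_mul _

/-- **Pointwise kernel formula**. -/
theorem S_sub_kernel {f : AddCircle T → ℂ} (hf : Measurable f) {B : ℝ} (hB : ∀ x, ‖f x‖ ≤ B)
    (N : ℕ) (u : ℝ) :
    ‖S f N (ph u) - (1 / Real.pi : ℂ) * ∫ t in (-(1 / 2) : ℝ)..(1 / 2),
        lift f (u - t) * ((Real.sin ((2 * N + 1) * Real.pi * t) / t : ℝ) : ℂ)‖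
      ≤ ∫ x, ‖f x‖ ∂μ := by
  have hpi := Real.pi_pos
  have hlm : Measurable (lift f) := measurable_lift hf
  -- rewrite `S` as an interval integral in `t = u - v`
  have h1 : S f N (ph u) = ∫ t in (-(1 / 2) : ℝ)..(1 / 2), (Dr N t : ℂ) * lift f (u - t) := by
    rw [S_eq hf hB N u, ← intervalIntegral.integral_of_le (by linarith)]
    have h2 := intervalIntegral.integral_comp_sub_left
      (a := (-(1 / 2) : ℝ)) (b := 1 / 2) (fun v => (Dr N (u - v) : ℂ) * lift f v) u
    simp only [sub_sub_cancel] at h2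
    rw [h2]
    congr 1
    ring
  have hDrm : Continuous (fun v : ℝ => Dr N v) := by
    unfold Dr
    fun_prop
  have hsm : Measurable (fun t : ℝ => Real.sin ((2 * N + 1) * Real.pi * t) / t) := by
    have h1 : Measurable (fun v : ℝ => Real.sin ((2 * N + 1) * Real.pi * v)) := by fun_prop
    exact h1.div measurable_id
  have hlb : ∀ v, ‖lift f v‖ ≤ B := fun v => hB _
  have hB0 : 0 ≤ B := (norm_nonneg _).trans (hlb 0)
  have hcm : Measurable (fun t : ℝ => lift f (u - t)) := hlm.comp (measurable_const.sub measurable_id)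
  have hi1 : IntervalIntegrable (fun t => (Dr N t : ℂ) * lift f (u - t)) volume
      (-(1 / 2)) (1 / 2) := by
    rw [intervalIntegrable_iff]
    refine Measure.integrableOn_of_bounded (M := (2 * N + 1) * B) (by simp) ?_ (ae_of_all _ ?_)
    · exact ((Complex.continuous_ofReal.comp hDrm).measurable.mul hcm).aestronglyMeasurable
    · intro t
      rw [norm_mul, Complex.norm_real, Real.norm_eq_abs]
      exact mul_le_mul (abs_Dr_le N t) (hlb _) (norm_nonneg _) (by positivity)
  have hsin : ∀ t : ℝ, |Real.sin ((2 * N + 1) * Real.pi * t) / t| ≤ (2 * N + 1) * Real.pi := by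
    intro t
    by_cases ht : t = 0
    · rw [ht]; simp; positivity
    · rw [abs_div, div_le_iff₀ (abs_pos.2 ht)]
      refine Real.abs_sin_le_abs.trans ?_
      rw [abs_mul, abs_of_pos (by positivity : (0 : ℝ) < (2 * N + 1) * Real.pi)]
  have hi2 : IntervalIntegrable (fun t => lift f (u - t) *
      ((Real.sin ((2 * N + 1) * Real.pi * t) / t : ℝ) : ℂ)) volume (-(1 / 2)) (1 / 2) := by
    rw [intervalIntegrable_iff]
    refine Measure.integrableOn_of_bounded (M := B * ((2 * N + 1) * Real.pi)) (by simp) ?_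
      (ae_of_all _ ?_)
    · exact (hcm.mul (Complex.measurable_ofReal.comp hsm)).aestronglyMeasurable
    · intro t
      rw [norm_mul, Complex.norm_real, Real.norm_eq_abs]
      exact mul_le_mul (hlb _) (hsin t) (abs_nonneg _) hB0
  rw [h1, ← intervalIntegral.integral_const_mul, ← intervalIntegral.integral_sub hi1
    (hi2.const_mul _)]
  have h3 : ∫ x, ‖f x‖ ∂μ = ∫ t in (-(1 / 2) : ℝ)..(1 / 2), ‖lift f (u - t)‖ := by
    have h4 := (measurePreserving_ph (T := T) (u - 1 / 2)).map_eq
    have h5 : ∫ x, ‖f x‖ ∂μ = ∫ v in Ioc (u - 1 / 2) (u - 1 / 2 + 1), ‖lift f v‖ := by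
      rw [← h4, integral_map measurable_ph.aemeasurable
        (hf.norm.aestronglyMeasurable)]
      rfl
    rw [h5, ← intervalIntegral.integral_of_le (by linarith)]
    have h2 := intervalIntegral.integral_comp_sub_left
      (a := (-(1 / 2) : ℝ)) (b := 1 / 2) (fun v => ‖lift f v‖) u
    rw [h2]
    congr 1
    ring
  rw [h3]
  refine intervalIntegral.norm_integral_le_of_norm_le (by norm_num) ?_ ?_
  · have h0 : ∀ᵐ t : ℝ, t ≠ 0 := by
      have : (volume : Measure ℝ) {(0 : ℝ)} = 0 := by simp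
      exact compl_mem_ae_iff.2 this
    filter_upwards [h0] with t ht0 ht
    have ht2 : |t| ≤ 1 / 2 := by
      rw [abs_le]; exact ⟨ht.1.le, ht.2⟩
    have h6 := Dr_bound' N ht0 ht2
    have e : (Dr N t : ℂ) * lift f (u - t) - (1 / Real.pi : ℂ) * (lift f (u - t) *
        ((Real.sin ((2 * N + 1) * Real.pi * t) / t : ℝ) : ℂ))
        = ((Dr N t - Real.sin ((2 * N + 1) * Real.pi * t) / (Real.pi * t) : ℝ) : ℂ)
          * lift f (u - t) := by
      have hpi' : (Real.pi : ℂ) ≠ 0 := by exact_mod_cast hpi.ne'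
      have ht' : (t : ℂ) ≠ 0 := by exact_mod_cast ht0
      push_cast
      field_simp
    rw [e, norm_mul, Complex.norm_real, Real.norm_eq_abs]
    calc |Dr N t - Real.sin ((2 * N + 1) * Real.pi * t) / (Real.pi * t)| * ‖lift f (u - t)‖
        ≤ 1 * ‖lift f (u - t)‖ := by gcongr
      _ = _ := one_mul _
  · rw [intervalIntegrable_iff]
    refine Measure.integrableOn_of_bounded (M := B) (by simp) hcm.norm.aestronglyMeasurable
      (ae_of_all _ ?_)
    intro t
    rw [norm_norm]
    exact hlb _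

end Crest.Agent.R100.P4800
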