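import Crest.Agent.R100.Pop_341
import Crest.Agent.R100.PP_833
import Crest.Agent.R100.Mult_939

/-!
# R100 / S0132, block B4 of doc 1968, part 3 (helper341): composition

Input: a bounded `g` on the node `(k, j)`, exits `kap` with `k < kap ≤ m`, densities of the unexited
part at most `Q` at every node.  Output: ONE cap `R`, ONE level `b` and ONE set of labels `Lam` with
the multiplicity bound at the scale `R - 1`.
-/

set_option autoImplicit false

open MeasureTheory Set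
open scoped ENNReal

noncomputable section

namespace Crest.Agent.R100.Pick341

open Crest.Agent.R100.Mart933 Crest.Agent.R100.Wide933 Crest.Agent.R100.Id833
open Crest.Agent.R100.Caps341 Crest.Agent.R100.Pop341 Crest.Agent.R100.PP833

variable {g : ℝ → ℂ} {kap : ℝ → ℕ} {M : ℝ}

theorem lintegral_sq_le (hg : Measurable g) (hM : ∀ x, ‖g x‖ ≤ M) (k : ℕ) (j : ℤ) :
    ∫⁻ y in Ivl k j, ‖g y‖ₑ ^ (2 : ℝ) ≤ ENNReal.ofReal (M * (avN g k j / 2 ^ k)) := by
  have hM0 : 0 ≤ M := (norm_nonneg _).trans (hM 0)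
  have h1 : ∀ y, ‖g y‖ₑ ^ (2 : ℝ) ≤ ENNReal.ofReal M * ENNReal.ofReal ‖g y‖ := by
    intro y
    rw [← ofReal_norm, ENNReal.ofReal_rpow_of_nonneg (norm_nonneg _) (by norm_num),
      ← ENNReal.ofReal_mul hM0]
    refine ENNReal.ofReal_le_ofReal ?_
    rw [Real.rpow_two, sq]
    exact mul_le_mul_of_nonneg_right (hM y) (norm_nonneg _)
  refine (lintegral_mono h1).trans ?_
  rw [lintegral_const_mul _ hg.norm.ennreal_ofReal, ← ofReal_integral_eq_lintegral_ofReal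
    (intOn k j hg.norm (M := M) fun x => by simpa using hM x)
    (Filter.Eventually.of_forall fun y => norm_nonneg _), ← ENNReal.ofReal_mul hM0]
  refine le_of_eq ?_
  congr 2
  unfold avN
  have : (2 : ℝ) ^ k ≠ 0 := by positivity
  field_simp

/-- the small labels carry nothing -/
theorem small_labels (hg : Measurable g) (hM : ∀ x, ‖g x‖ ≤ M) (k : ℕ) (j : ℤ) {p : ℝ}
    (hp : 2 ≤ p) {b : ℝ} (hb : 0 ≤ b) :
    ENNReal.ofReal (1 / 2 ^ k) * ∫⁻ Y in {Y | ‖coef g Y k j‖ < b}, ‖coef g Y k j‖ₑ ^ p ≤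
      ENNReal.ofReal (b ^ (p - 2) * (M * avN g k j)) := by
  have hM0 : 0 ≤ M := (norm_nonneg _).trans (hM 0)
  have h2k : (0 : ℝ) < 2 ^ k := by positivity
  have hms : MeasurableSet {Y | ‖coef g Y k j‖ < b} :=
    measurableSet_lt (measurable_norm_coef hg k j) measurable_const
  have hcm : Measurable fun Y => ‖coef g Y k j‖ₑ ^ (2 : ℝ) :=
    (Pop341.measurable_coef hg k j).enorm.pow_const _
  have h1 : ∀ Y ∈ {Y | ‖coef g Y k j‖ < b},
      ‖coef g Y k j‖ₑ ^ p ≤ ENNReal.ofReal (b ^ (p - 2)) * ‖coef g Y k j‖ₑ ^ (2 : ℝ) := by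
    intro Y hY
    have e1 : p = (p - 2) + 2 := by ring
    nth_rewrite 1 [e1]
    rw [ENNReal.rpow_add_of_nonneg _ _ (by linarith) (by norm_num)]
    refine mul_le_mul_left ?_ _
    rw [← ofReal_norm, ENNReal.ofReal_rpow_of_nonneg (norm_nonneg _) (by linarith)]
    exact ENNReal.ofReal_le_ofReal (Real.rpow_le_rpow (norm_nonneg _) (le_of_lt hY) (by linarith))
  have h2 : ∫⁻ Y in {Y | ‖coef g Y k j‖ < b}, ‖coef g Y k j‖ₑ ^ p ≤
      ENNReal.ofReal (b ^ (p - 2)) *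
        (ENNReal.ofReal (2 ^ k) ^ 2 * ENNReal.ofReal (M * (avN g k j / 2 ^ k))) := by
    refine (setLIntegral_mono (hcm.const_mul _) h1).trans ?_
    refine (setLIntegral_le_lintegral _ _).trans ?_
    rw [lintegral_const_mul _ hcm, plancherel hg hM k j]
    gcongr
    exact lintegral_sq_le hg hM k j
  refine (mul_le_mul_right h2 _).trans (le_of_eq ?_)
  have hb0 : 0 ≤ b ^ (p - 2) := Real.rpow_nonneg hb _
  have hav := avN_nonneg g k j
  rw [← ENNReal.ofReal_pow h2k.le, ← ENNReal.ofReal_mul (by positivity),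
    ← ENNReal.ofReal_mul hb0, ← ENNReal.ofReal_mul (by positivity)]
  congr 1
  field_simp

/-- **B4**: one cap `R`, one level `b`, one set of labels `Lam`. -/
theorem pick (hg : Measurable g) (hM : ∀ x, ‖g x‖ ≤ M) (hk : Measurable kap) {m : ℕ}
    (hm : ∀ y, kap y ≤ m) {k : ℕ} {j : ℤ} (hgt : ∀ y, k < kap y) {Q : ℝ}
    (hQ : ∀ k' j', avN (fun y => if k' ≤ kap y then g y else 0) k' j' ≤ Q)
    {bmin : ℝ} (hb : 0 < bmin) {J : ℕ} (hJ : avN g k j < 2 ^ J * (3 / 8 * bmin)) {p : ℝ}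
    (hp : 2 ≤ p) {lam : ℝ} (hlam : 0 < lam) (hlb : ENNReal.ofReal (1 / 2 * lam ^ p) ≤ Np p g k j)
    (hfin : Np p g k j ≠ ⊤) (hnum : bmin ^ (p - 2) * (M * avN g k j) ≤ 1 / 4 * lam ^ p) :
    ∃ (R : ℕ) (i : ℕ) (b : ℝ) (Lam : Set ℝ), k + 2 ≤ R ∧ R ≤ m + 1 ∧ i < J ∧
      b = 2 ^ i * (3 / 8 * bmin) ∧ MeasurableSet Lam ∧
      (∀ Y ∈ Lam, b ≤ ‖coef (lo g kap R) Y k j‖ ∧ ‖coef (lo g kap R) Y k j‖ < 2 * b) ∧
      (∀ c : ℝ, volume (Lam ∩ Icc c (c + 2 ^ (R - 1))) ≤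
        ENNReal.ofReal (2 ^ k * (Real.pi ^ 2 / 2 * Q * avN g k j / (3 / 8 * bmin) ^ 2))) ∧
      Np p g k j ≤ 2 * ((2 * (⌊avN g k j / (bmin / 8)⌋₊ + 1) * J : ℕ) : ℝ≥0∞) *
        (ENNReal.ofReal (1 / 2 ^ k) * volume Lam * ENNReal.ofReal (16 / 3 * b) ^ p) := by
  have h2k : (0 : ℝ) < 2 ^ k := by positivity
  have hlp : 0 < lam ^ p := Real.rpow_pos_of_pos hlam p
  have hNpos : 0 < Np p g k j :=
    lt_of_lt_of_le (ENNReal.ofReal_pos.2 (by positivity)) hlb
  have hk1 : ENNReal.ofReal (1 / 2 ^ k) ≠ 0 := by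
    rw [Ne, ENNReal.ofReal_eq_zero, not_le]; positivity
  have hk2 : ENNReal.ofReal (1 / 2 ^ k) ≠ ⊤ := ENNReal.ofReal_ne_top
  have hpos : ∫⁻ Y, ‖coef g Y k j‖ₑ ^ p ≠ 0 := by
    intro h
    unfold Np at hNpos
    rw [h, mul_zero] at hNpos
    exact lt_irrefl _ hNpos
  have hfin' : ∫⁻ Y, ‖coef g Y k j‖ₑ ^ p ≠ ⊤ := by
    intro h
    unfold Np at hfin
    rw [h, ENNReal.mul_top hk1] at hfin
    exact hfin rfl
  have hsmall : ∫⁻ Y in {Y | ‖coef g Y k j‖ < bmin}, ‖coef g Y k j‖ₑ ^ p ≤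
      (∫⁻ Y, ‖coef g Y k j‖ₑ ^ p) / 2 := by
    have h1 := small_labels hg hM k j hp hb.le
    have h2 : ENNReal.ofReal (bmin ^ (p - 2) * (M * avN g k j)) ≤ Np p g k j / 2 := by
      refine (ENNReal.ofReal_le_ofReal hnum).trans ?_
      rw [ENNReal.le_div_iff_mul_le (Or.inl (by norm_num)) (Or.inl (by norm_num))]
      refine le_trans (le_of_eq ?_) hlb
      rw [show (2 : ℝ≥0∞) = ENNReal.ofReal 2 by simp, ← ENNReal.ofReal_mul (by positivity)]
      congr 1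
      ring
    have h3 := h1.trans h2
    unfold Np at h3
    rw [mul_div_assoc] at h3
    exact (ENNReal.mul_le_mul_iff_right hk1 hk2).1 h3
  obtain ⟨R, hR, hR1, i, hi, hmain⟩ := pop hg hM hk hm k j hb hJ (by linarith) hpos hfin' hsmall
  set b := 2 ^ i * (3 / 8 * bmin) with hbdef
  have hb0 : 0 < b := by positivity
  set Lam := LL g kap k j bmin R b with hLam
  -- `Lam` is not empty
  have hne : Lam.Nonempty := by
    by_contra hcon
    rw [not_nonempty_iff_eq_empty] at hcon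
    rw [hcon, measure_empty, zero_mul, mul_zero] at hmain
    exact hpos (nonpos_iff_eq_zero.1 hmain)
  obtain ⟨Y₀, hY₀⟩ := hne
  have hRk : k + 2 ≤ R := by
    by_contra hcon
    have h0 : lo g kap R = fun _ => 0 := by
      ext y
      unfold lo
      rw [if_neg]
      have := hgt y
      omega
    have h1 := hY₀.2.2.2.1
    rw [h0] at h1
    simp only [coef, zero_mul, integral_zero, mul_zero, norm_zero] at h1
    linarith
  have hRm : R ≤ m + 1 := by
    by_contra hcon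
    have h0 : Caps341.hi g kap (R - 1) = fun _ => 0 := by
      ext y
      unfold Caps341.hi
      rw [if_neg]
      have := hm y
      omega
    have h1 := hY₀.2.2.1
    have h2 := hY₀.1
    rw [h0] at h1
    simp only [coef, zero_mul, integral_zero, mul_zero, norm_zero] at h1 h2
    linarith
  refine ⟨R, i, b, Lam, hRk, hRm, hi, rfl, measurableSet_LL hg hk k j bmin R b, ?_, ?_, ?_⟩
  · intro Y hY
    exact ⟨hY.2.2.2.1, hY.2.2.2.2⟩
  · intro c
    have hG : Measurable (Caps341.hi g kap (R - 1)) := measurable_hi hg hk (R - 1)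
    have hGM : ∀ x, ‖Caps341.hi g kap (R - 1) x‖ ≤ M :=
      fun x => (norm_hi_le g kap (R - 1) x).trans (hM x)
    have hGQ : ∀ i : ℤ, Ivl (R - 1) i ⊆ Ivl k j → avN (Caps341.hi g kap (R - 1)) (R - 1) i ≤ Q :=
      fun i _ => hQ (R - 1) i
    have hβ : 0 < 3 / 8 * bmin := by positivity
    have hA : ∀ Y ∈ Lam, 3 / 8 * bmin ≤ ‖coef (Caps341.hi g kap (R - 1)) Y k j‖ := by
      intro Y hY
      have h1 := hY.2.2.1
      have h2 := hY.1
      linarith
    refine (Mult939.mult (R - 1) (by omega) hG hGM hGQ hβ hA c).trans ?_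
    refine ENNReal.ofReal_le_ofReal ?_
    have hQ0 : 0 ≤ Q := (avN_nonneg _ 0 0).trans (hQ 0 0)
    have h1 : avN (Caps341.hi g kap (R - 1)) k j ≤ avN g k j :=
      avN_mono hG hGM hg hM (norm_hi_le g kap (R - 1)) k j
    gcongr
  · unfold Np
    calc ENNReal.ofReal (1 / 2 ^ k) * ∫⁻ Y, ‖coef g Y k j‖ₑ ^ p
        ≤ ENNReal.ofReal (1 / 2 ^ k) * (2 * ((2 * (⌊avN g k j / (bmin / 8)⌋₊ + 1) * J : ℕ) : ℝ≥0∞) *
          (volume Lam * ENNReal.ofReal (16 / 3 * b) ^ p)) := by gcongr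
      _ = _ := by ring

end Crest.Agent.R100.Pick341
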