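import Crest.Agent.R100.Caps_341
import Crest.Agent.R100.Id_833

/-!
# R100 / S0132, block B4 of doc 1968, part 2 (helper341): pigeonhole and popular level

From the caps (`Caps341.cap`) and the `L^p` norm of the labels to ONE cap `R` and ONE level `b`.
-/

set_option autoImplicit false

open MeasureTheory Set
open scoped ENNReal

noncomputable section

namespace Crest.Agent.R100.Pop341

open Crest.Agent.R100.Mart933 Crest.Agent.R100.Wide933 Crest.Agent.R100.Id833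
open Crest.Agent.R100.Caps341

variable {g : ℝ → ℂ} {kap : ℝ → ℕ} {M : ℝ}

/-- the local coefficient is a measurable function of the label -/
theorem measurable_coef (hg : Measurable g) (k : ℕ) (j : ℤ) :
    Measurable fun Y : ℝ => coef g Y k j := by
  unfold coef
  refine Measurable.const_mul ?_ _
  have h : StronglyMeasurable fun p : ℝ × ℝ => g p.2 * e (-p.1) p.2 :=
    ((hg.comp measurable_snd).mul (measurable_e₂ measurable_fst.neg
      measurable_snd)).stronglyMeasurable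
  exact (h.integral_prod_right (ν := volume.restrict (Ivl k j))).measurable

theorem measurable_norm_coef (hg : Measurable g) (k : ℕ) (j : ℤ) :
    Measurable fun Y : ℝ => ‖coef g Y k j‖ := (measurable_coef hg k j).norm

/-- the labels of one class: cap `R`, level `b` -/
def LL (g : ℝ → ℂ) (kap : ℝ → ℕ) (k : ℕ) (j : ℤ) (bmin : ℝ) (R : ℕ) (b : ℝ) : Set ℝ :=
  {Y | bmin ≤ ‖coef g Y k j‖ ∧ 3 / 8 * ‖coef g Y k j‖ ≤ ‖coef (lo g kap R) Y k j‖ ∧
    3 / 8 * ‖coef g Y k j‖ ≤ ‖coef (hi g kap (R - 1)) Y k j‖ ∧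
    b ≤ ‖coef (lo g kap R) Y k j‖ ∧ ‖coef (lo g kap R) Y k j‖ < 2 * b}

theorem measurableSet_LL (hg : Measurable g) (hk : Measurable kap) (k : ℕ) (j : ℤ) (bmin : ℝ)
    (R : ℕ) (b : ℝ) : MeasurableSet (LL g kap k j bmin R b) := by
  have h0 := measurable_norm_coef hg k j
  have h1 := measurable_norm_coef (measurable_lo hg hk R) k j
  have h2 := measurable_norm_coef (measurable_hi hg hk (R - 1)) k j
  refine (measurableSet_le measurable_const h0).inter
    ((measurableSet_le (h0.const_mul _) h1).inter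
    ((measurableSet_le (h0.const_mul _) h2).inter
    ((measurableSet_le measurable_const h1).inter (measurableSet_lt h1 measurable_const))))

theorem lintegral_biUnion_le {ι : Type*} (s : Finset ι) (A : ι → Set ℝ) (Φ : ℝ → ℝ≥0∞) :
    ∫⁻ Y in ⋃ i ∈ s, A i, Φ Y ≤ ∑ i ∈ s, ∫⁻ Y in A i, Φ Y := by
  classical
  induction s using Finset.induction_on with
  | empty => simp
  | insert a s ha ih =>
    rw [Finset.sum_insert ha, Finset.set_biUnion_insert]
    exact (lintegral_union_le _ _ _).trans (add_le_add le_rfl ih)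

/-- every label with `|coef g| ≥ bmin` is in one of the classes -/
theorem mem_LL (hg : Measurable g) (hM : ∀ x, ‖g x‖ ≤ M) (hk : Measurable kap) {m : ℕ}
    (hm : ∀ y, kap y ≤ m) (k : ℕ) (j : ℤ) {bmin : ℝ} (hb : 0 < bmin) {J : ℕ}
    (hJ : avN g k j < 2 ^ J * (3 / 8 * bmin)) {Y : ℝ} (hY : bmin ≤ ‖coef g Y k j‖) :
    ∃ R ∈ (grid g kap k j (bmin / 8)).filter (1 ≤ ·), ∃ i ∈ Finset.range J,
      Y ∈ LL g kap k j bmin R (2 ^ i * (3 / 8 * bmin)) := by
  obtain ⟨R, hR, hR1, h1, h2⟩ := cap hg hM hk hm k j hb hY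
  refine ⟨R, Finset.mem_filter.2 ⟨hR, hR1⟩, ?_⟩
  set β := 3 / 8 * bmin with hβ
  have hβ0 : 0 < β := by positivity
  set a := ‖coef (lo g kap R) Y k j‖ with ha
  have ha1 : β ≤ a := by rw [hβ]; linarith
  have ha2 : a < 2 ^ J * β := by
    refine lt_of_le_of_lt ?_ hJ
    refine (norm_coef_le _ _ _ _).trans ?_
    exact mu_le hg hM hk k j R
  classical
  have hex : ∃ i : ℕ, a < 2 ^ (i + 1) * β := by
    refine ⟨J, ha2.trans_le ?_⟩
    have : (2 : ℝ) ^ J ≤ 2 ^ (J + 1) := pow_le_pow_right₀ (by norm_num) (by omega)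
    nlinarith
  set i := Nat.find hex with hi
  have hi1 : a < 2 ^ (i + 1) * β := Nat.find_spec hex
  have hi2 : 2 ^ i * β ≤ a := by
    by_cases h0 : i = 0
    · rw [h0, pow_zero, one_mul]; exact ha1
    · have := Nat.find_min hex (m := i - 1) (by omega)
      rw [not_lt, show i - 1 + 1 = i by omega] at this
      exact this
  have hiJ : i < J := by
    by_contra hcon
    have : (2 : ℝ) ^ J ≤ 2 ^ i := pow_le_pow_right₀ (by norm_num) (by omega)
    nlinarith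
  refine ⟨i, Finset.mem_range.2 hiJ, hY, h1, h2, hi2, ?_⟩
  rw [pow_succ] at hi1
  linarith

/-- on a class the coefficient is at most `16/3 b` -/
theorem norm_coef_of_mem_LL {k : ℕ} {j : ℤ} {bmin : ℝ} {R : ℕ} {b Y : ℝ}
    (h : Y ∈ LL g kap k j bmin R b) : ‖coef g Y k j‖ ≤ 16 / 3 * b := by
  obtain ⟨_, h2, _, _, h5⟩ := h
  linarith

/-- **popular class** -/
theorem pop (hg : Measurable g) (hM : ∀ x, ‖g x‖ ≤ M) (hk : Measurable kap) {m : ℕ}
    (hm : ∀ y, kap y ≤ m) (k : ℕ) (j : ℤ) {bmin : ℝ} (hb : 0 < bmin) {J : ℕ}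
    (hJ : avN g k j < 2 ^ J * (3 / 8 * bmin)) {p : ℝ} (hp : 0 ≤ p)
    (hpos : ∫⁻ Y, ‖coef g Y k j‖ₑ ^ p ≠ 0)
    (hfin : ∫⁻ Y, ‖coef g Y k j‖ₑ ^ p ≠ ⊤)
    (hsmall : ∫⁻ Y in {Y | ‖coef g Y k j‖ < bmin}, ‖coef g Y k j‖ₑ ^ p ≤
      (∫⁻ Y, ‖coef g Y k j‖ₑ ^ p) / 2) :
    ∃ R ∈ grid g kap k j (bmin / 8), 1 ≤ R ∧ ∃ i < J,
      ∫⁻ Y, ‖coef g Y k j‖ₑ ^ p ≤
        2 * ((2 * (⌊avN g k j / (bmin / 8)⌋₊ + 1) * J : ℕ) : ℝ≥0∞) *
          (volume (LL g kap k j bmin R (2 ^ i * (3 / 8 * bmin))) *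
            ENNReal.ofReal (16 / 3 * (2 ^ i * (3 / 8 * bmin))) ^ p) := by
  classical
  set Φ : ℝ → ℝ≥0∞ := fun Y => ‖coef g Y k j‖ₑ ^ p with hΦ
  set T := ∫⁻ Y, Φ Y with hT
  set GR := (grid g kap k j (bmin / 8)).filter (1 ≤ ·) with hGR
  set bb : ℕ → ℝ := fun i => 2 ^ i * (3 / 8 * bmin) with hbb
  have hΦm : Measurable Φ := (measurable_coef hg k j).enorm.pow_const p
  have hms : MeasurableSet {Y | ‖coef g Y k j‖ < bmin} :=
    measurableSet_lt (measurable_norm_coef hg k j) measurable_const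
  -- the large labels
  have hlarge : T / 2 ≤ ∫⁻ Y in {Y | ‖coef g Y k j‖ < bmin}ᶜ, Φ Y := by
    have h1 : (∫⁻ Y in {Y | ‖coef g Y k j‖ < bmin}, Φ Y) +
        (∫⁻ Y in {Y | ‖coef g Y k j‖ < bmin}ᶜ, Φ Y) = T := lintegral_add_compl Φ hms
    have h2 : T ≤ T / 2 + ∫⁻ Y in {Y | ‖coef g Y k j‖ < bmin}ᶜ, Φ Y := by
      calc T = _ := h1.symm
        _ ≤ _ := add_le_add hsmall le_rfl
    have h3 : T / 2 + T / 2 ≤ T / 2 + ∫⁻ Y in {Y | ‖coef g Y k j‖ < bmin}ᶜ, Φ Y := by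
      rwa [ENNReal.add_halves]
    exact (ENNReal.add_le_add_iff_left (ENNReal.div_ne_top hfin (by norm_num))).1 h3
  -- covering
  have hcov : {Y | ‖coef g Y k j‖ < bmin}ᶜ ⊆
      ⋃ q ∈ GR ×ˢ Finset.range J, LL g kap k j bmin q.1 (bb q.2) := by
    intro Y hY
    have hY' : bmin ≤ ‖coef g Y k j‖ := by
      simpa using hY
    obtain ⟨R, hR, i, hi, hmem⟩ := mem_LL hg hM hk hm k j hb hJ hY'
    exact mem_iUnion₂.2 ⟨(R, i), Finset.mem_product.2 ⟨hR, hi⟩, hmem⟩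
  have hclass : ∀ q : ℕ × ℕ, ∫⁻ Y in LL g kap k j bmin q.1 (bb q.2), Φ Y ≤
      volume (LL g kap k j bmin q.1 (bb q.2)) * ENNReal.ofReal (16 / 3 * bb q.2) ^ p := by
    intro q
    have h1 : ∀ Y ∈ LL g kap k j bmin q.1 (bb q.2),
        Φ Y ≤ ENNReal.ofReal (16 / 3 * bb q.2) ^ p := by
      intro Y hY
      refine ENNReal.rpow_le_rpow ?_ hp
      rw [← ofReal_norm]
      exact ENNReal.ofReal_le_ofReal (norm_coef_of_mem_LL hY)
    refine (setLIntegral_mono measurable_const h1).trans (le_of_eq ?_)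
    rw [setLIntegral_const, mul_comm]
  have hsum : T / 2 ≤ ∑ q ∈ GR ×ˢ Finset.range J,
      volume (LL g kap k j bmin q.1 (bb q.2)) * ENNReal.ofReal (16 / 3 * bb q.2) ^ p := by
    refine hlarge.trans ((lintegral_mono_set hcov).trans ?_)
    refine (lintegral_biUnion_le _ _ _).trans ?_
    exact Finset.sum_le_sum fun q _ => hclass q
  -- pigeonhole
  have hne : (GR ×ˢ Finset.range J).Nonempty := by
    by_contra hcon
    rw [Finset.not_nonempty_iff_eq_empty] at hcon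
    rw [hcon, Finset.sum_empty, nonpos_iff_eq_zero, ENNReal.div_eq_zero_iff] at hsum
    rcases hsum with h | h
    · exact hpos h
    · exact absurd h (by norm_num)
  obtain ⟨q, hq, hmax⟩ := Finset.exists_max_image (GR ×ˢ Finset.range J)
    (fun q => volume (LL g kap k j bmin q.1 (bb q.2)) * ENNReal.ofReal (16 / 3 * bb q.2) ^ p) hne
  rw [Finset.mem_product, hGR, Finset.mem_filter, Finset.mem_range] at hq
  refine ⟨q.1, hq.1.1, hq.1.2, q.2, hq.2, ?_⟩
  have hcard : ((GR ×ˢ Finset.range J).card : ℝ≥0∞) ≤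
      ((2 * (⌊avN g k j / (bmin / 8)⌋₊ + 1) * J : ℕ) : ℝ≥0∞) := by
    rw [Finset.card_product, Finset.card_range]
    refine Nat.cast_le.2 (Nat.mul_le_mul_right _ ?_)
    exact (Finset.card_filter_le _ _).trans (card_grid _ _ _ _ _)
  have h4 : T / 2 ≤ ((GR ×ˢ Finset.range J).card : ℝ≥0∞) *
      (volume (LL g kap k j bmin q.1 (bb q.2)) * ENNReal.ofReal (16 / 3 * bb q.2) ^ p) := by
    refine hsum.trans ((Finset.sum_le_card_nsmul _ _ _ hmax).trans (le_of_eq ?_))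
    rw [nsmul_eq_mul]
  have h5 : T = 2 * (T / 2) := by
    rw [ENNReal.mul_div_cancel (by norm_num) (by norm_num)]
  rw [h5, mul_assoc]
  gcongr
  exact h4.trans (mul_le_mul_left hcard _)

end Crest.Agent.R100.Pop341
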