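import Crest.Agent.R100.Run2_288

/-!
# R100 / S0132, block B6 of doc 1968 (helper288): exponential and power moments of the run
maximal function
-/

set_option autoImplicit false

open MeasureTheory Set
open scoped ENNReal

noncomputable section

namespace Crest.Agent.R100.Run288

open Crest.Agent.R100.Mart933

theorem exp_neg_half_le : Real.exp (-(1 / 2)) ≤ 5 / 8 := by
  have h1 : Real.exp (-(1 / 2)) ^ 2 = Real.exp (-1) := by
    rw [← Real.exp_nat_mul]; norm_num
  have h2 : Real.exp (-1) ≤ (5 / 8) ^ 2 := by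
    rw [Real.exp_neg]
    have := Real.exp_one_gt_d9
    rw [inv_le_comm₀ (Real.exp_pos _) (by norm_num)]
    norm_num
    linarith
  have h3 := Real.exp_pos (-(1 / 2) : ℝ)
  rw [← h1] at h2
  exact (pow_le_pow_iff_left₀ h3.le (by norm_num) two_ne_zero).1 h2

/-- layer decomposition of `exp (y/2)` -/
theorem exp_half_le (y : ℝ) : ENNReal.ofReal (Real.exp (y / 2)) ≤ ENNReal.ofReal 2 +
    ∑' n : ℕ, (if (n : ℝ) + 1 < y then ENNReal.ofReal (Real.exp (((n : ℝ) + 2) / 2)) else 0) := by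
  rcases le_or_gt y 1 with hy | hy
  · refine le_add_right (ENNReal.ofReal_le_ofReal ?_)
    have h1 : Real.exp (y / 2) ≤ Real.exp (1 / 2) := Real.exp_le_exp.2 (by linarith)
    refine h1.trans ?_
    have h2 : Real.exp (1 / 2) ^ 2 = Real.exp 1 := by
      rw [← Real.exp_nat_mul]; norm_num
    have h3 := Real.exp_one_lt_d9
    have h4 := Real.exp_pos (1 / 2 : ℝ)
    nlinarith
  · obtain ⟨n, hn⟩ : ∃ n : ℕ, ⌈y⌉₊ = n + 2 := by
      have : 1 < ⌈y⌉₊ := by
        rw [Nat.lt_ceil]; exact_mod_cast hy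
      exact ⟨⌈y⌉₊ - 2, by omega⟩
    have h1 : (n : ℝ) + 1 < y := by
      have := Nat.ceil_lt_add_one (show 0 ≤ y by linarith)
      rw [hn] at this
      push_cast at this
      linarith
    have h2 : y ≤ (n : ℝ) + 2 := by
      have := Nat.le_ceil y
      rw [hn] at this
      exact_mod_cast this
    refine le_add_left ?_
    refine le_trans ?_ (ENNReal.le_tsum n)
    rw [if_pos h1]
    apply ENNReal.ofReal_le_ofReal
    apply Real.exp_le_exp.2
    linarith

/-- **B6, exponential form** -/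
theorem runs_exp {a b : ℕ → ℤ → ℂ} {z : ℕ → ℤ → ℝ} (h : Proc a b z) {α Q : ℝ} (hα : 0 < α)
    (hαQ : α ≤ Q) (hbQ : ∀ k j, ‖b k j‖ ≤ Q) {k0 m : ℕ} {j0 : ℤ}
    (hz : ∫⁻ x in Ivl k0 j0, ENNReal.ofReal (Zg z k0 m x) ≤
      ENNReal.ofReal Q * volume (Ivl k0 j0)) :
    ∫⁻ x in Ivl k0 j0, ENNReal.ofReal (Real.exp (Rg a b z α k0 m x / (600 * α))) ≤
      ENNReal.ofReal (3000 * (Q / α) ^ 2) * volume (Ivl k0 j0) := by
  classical
  set P := Ivl k0 j0 with hP
  have hPm : MeasurableSet P := measurableSet_Ivl _ _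
  set y : ℝ → ℝ := fun x => Rg a b z α k0 m x / (300 * α) with hy
  have hym : Measurable y := (measurable_Rg a b z α k0 m).div_const _
  set A : ℕ → Set ℝ := fun n => {x | (n : ℝ) + 1 < y x} with hA
  have hAm : ∀ n, MeasurableSet (A n) := fun n => measurableSet_lt measurable_const hym
  have hone : 1 ≤ (Q / α) ^ 2 := by
    have : 1 ≤ Q / α := by rw [le_div_iff₀ hα]; linarith
    nlinarith
  have hvol : ∀ n : ℕ, volume (P ∩ A n) ≤
      ENNReal.ofReal (400 * (Q / α) ^ 2 * Real.exp (-(n : ℝ))) * volume P := by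
    intro n
    refine le_trans (measure_mono ?_) (Rg_tail h hα hαQ hbQ hz (Nat.cast_nonneg n))
    rintro x ⟨hx, hx'⟩
    refine ⟨hx, ?_⟩
    have : (n : ℝ) + 1 < Rg a b z α k0 m x / (300 * α) := hx'
    rw [lt_div_iff₀ (by positivity)] at this
    linarith
  have hpt : ∀ x, ENNReal.ofReal (Real.exp (Rg a b z α k0 m x / (600 * α))) ≤
      ENNReal.ofReal 2 + ∑' n : ℕ, (A n).indicator
        (fun _ => ENNReal.ofReal (Real.exp (((n : ℝ) + 2) / 2))) x := by
    intro x
    have e : Rg a b z α k0 m x / (600 * α) = y x / 2 := by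
      simp only [hy]; field_simp; ring
    rw [e]
    refine (exp_half_le (y x)).trans (le_of_eq ?_)
    congr 1
  have hterm : ∀ n : ℕ, ∫⁻ x in P, (A n).indicator
      (fun _ => ENNReal.ofReal (Real.exp (((n : ℝ) + 2) / 2))) x ≤
      ENNReal.ofReal (1088 * (Q / α) ^ 2) * volume P * ENNReal.ofReal (5 / 8) ^ n := by
    intro n
    rw [lintegral_indicator (hAm n), lintegral_const, Measure.restrict_apply MeasurableSet.univ,
      univ_inter, Measure.restrict_apply (hAm n), inter_comm]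
    refine (mul_le_mul' le_rfl (hvol n)).trans ?_
    have e0 : ENNReal.ofReal (1088 * (Q / α) ^ 2) * volume P * ENNReal.ofReal (5 / 8) ^ n =
        ENNReal.ofReal (1088 * (Q / α) ^ 2 * (5 / 8) ^ n) * volume P := by
      rw [← ENNReal.ofReal_pow (by norm_num),
        ENNReal.ofReal_mul (p := 1088 * (Q / α) ^ 2) (by positivity), mul_right_comm]
    rw [← mul_assoc, ← ENNReal.ofReal_mul (Real.exp_pos _).le, e0]
    apply mul_le_mul' _ le_rfl
    apply ENNReal.ofReal_le_ofReal
    have e1 : Real.exp (((n : ℝ) + 2) / 2) * (400 * (Q / α) ^ 2 * Real.exp (-(n : ℝ))) =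
        400 * (Q / α) ^ 2 * Real.exp 1 * Real.exp (-(1 / 2)) ^ n := by
      rw [← Real.exp_nat_mul]
      have : Real.exp (((n : ℝ) + 2) / 2) * Real.exp (-(n : ℝ)) =
          Real.exp 1 * Real.exp ((n : ℝ) * -(1 / 2)) := by
        rw [← Real.exp_add, ← Real.exp_add]; congr 1; ring
      calc _ = 400 * (Q / α) ^ 2 * (Real.exp (((n : ℝ) + 2) / 2) * Real.exp (-(n : ℝ))) := by ring
        _ = _ := by rw [this]; ring
    rw [e1]
    have e2 : Real.exp (-(1 / 2)) ^ n ≤ (5 / 8) ^ n :=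
      pow_le_pow_left₀ (Real.exp_pos _).le exp_neg_half_le n
    have e3 := Real.exp_one_lt_d9
    apply mul_le_mul _ e2 (by positivity) (by positivity)
    nlinarith
  calc ∫⁻ x in P, ENNReal.ofReal (Real.exp (Rg a b z α k0 m x / (600 * α)))
      ≤ ∫⁻ x in P, (ENNReal.ofReal 2 + ∑' n : ℕ, (A n).indicator
        (fun _ => ENNReal.ofReal (Real.exp (((n : ℝ) + 2) / 2))) x) :=
        lintegral_mono fun x => hpt x
    _ = ENNReal.ofReal 2 * volume P + ∑' n : ℕ, ∫⁻ x in P, (A n).indicator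
        (fun _ => ENNReal.ofReal (Real.exp (((n : ℝ) + 2) / 2))) x := by
        rw [lintegral_add_left measurable_const, lintegral_const,
          Measure.restrict_apply MeasurableSet.univ, univ_inter, lintegral_tsum]
        intro n
        exact (measurable_const.indicator (hAm n)).aemeasurable
    _ ≤ ENNReal.ofReal 2 * volume P + ∑' n : ℕ,
        ENNReal.ofReal (1088 * (Q / α) ^ 2) * volume P * ENNReal.ofReal (5 / 8) ^ n :=
        add_le_add le_rfl (ENNReal.tsum_le_tsum hterm)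
    _ = ENNReal.ofReal 2 * volume P +
        ENNReal.ofReal (1088 * (Q / α) ^ 2) * volume P * ENNReal.ofReal (8 / 3) := by
        rw [ENNReal.tsum_mul_left, ENNReal.tsum_geometric]
        congr 2
        rw [← ENNReal.ofReal_one, ← ENNReal.ofReal_sub _ (by norm_num),
          ← ENNReal.ofReal_inv_of_pos (by norm_num)]
        congr 1; norm_num
    _ = ENNReal.ofReal (2 + 1088 * (Q / α) ^ 2 * (8 / 3)) * volume P := by
        rw [mul_right_comm, ← ENNReal.ofReal_mul (by positivity), ← add_mul,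
          ← ENNReal.ofReal_add (by norm_num) (by positivity)]
    _ ≤ _ := by
        gcongr
        nlinarith

/-- **B6, power moments** -/
theorem runs_moment {a b : ℕ → ℤ → ℂ} {z : ℕ → ℤ → ℝ} (h : Proc a b z) {α Q : ℝ} (hα : 0 < α)
    (hαQ : α ≤ Q) (hbQ : ∀ k j, ‖b k j‖ ≤ Q) {k0 m : ℕ} {j0 : ℤ}
    (hz : ∫⁻ x in Ivl k0 j0, ENNReal.ofReal (Zg z k0 m x) ≤
      ENNReal.ofReal Q * volume (Ivl k0 j0)) (p : ℕ) :
    ∫⁻ x in Ivl k0 j0, ENNReal.ofReal (Rg a b z α k0 m x ^ p) ≤
      ENNReal.ofReal ((600 * p * α) ^ p * (3000 * (Q / α) ^ 2)) * volume (Ivl k0 j0) := by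
  have hpt : ∀ x, ENNReal.ofReal (Rg a b z α k0 m x ^ p) ≤ ENNReal.ofReal ((600 * p * α) ^ p) *
      ENNReal.ofReal (Real.exp (Rg a b z α k0 m x / (600 * α))) := by
    intro x
    rw [← ENNReal.ofReal_mul (by positivity)]
    apply ENNReal.ofReal_le_ofReal
    have hR := Rg_nonneg a b z α k0 m x
    set t : ℝ := Rg a b z α k0 m x / (600 * α) with ht
    have ht0 : 0 ≤ t := by positivity
    have e1 : Rg a b z α k0 m x = 600 * α * t := by
      rw [ht]; field_simp
    have e2 := Real.pow_div_factorial_le_exp t ht0 p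
    have e3 : ((p.factorial : ℕ) : ℝ) ≤ (p : ℝ) ^ p := by exact_mod_cast Nat.factorial_le_pow p
    have e4 : (0 : ℝ) < (p.factorial : ℕ) := by exact_mod_cast Nat.factorial_pos p
    rw [div_le_iff₀ e4] at e2
    have e5 : t ^ p ≤ Real.exp t * (p : ℝ) ^ p :=
      e2.trans (mul_le_mul_of_nonneg_left e3 (Real.exp_pos _).le)
    rw [e1, mul_pow]
    calc (600 * α) ^ p * t ^ p ≤ (600 * α) ^ p * (Real.exp t * (p : ℝ) ^ p) :=
          mul_le_mul_of_nonneg_left e5 (by positivity)
      _ = (600 * p * α) ^ p * Real.exp t := by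
          rw [mul_pow, mul_pow, mul_pow]; ring
  refine (lintegral_mono hpt).trans ?_
  rw [lintegral_const_mul' _ _ ENNReal.ofReal_ne_top]
  refine (mul_le_mul' le_rfl (runs_exp h hα hαQ hbQ hz)).trans (le_of_eq ?_)
  rw [← mul_assoc, ← ENNReal.ofReal_mul (by positivity)]

end Crest.Agent.R100.Run288
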