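import Crest.Agent.R100.Wide_933

/-!
# R100 / S0132, helper403: Schur / Bessel inequality for separated sharp tiles of bounded depth
-/

set_option autoImplicit false

open MeasureTheory Set
open scoped ENNReal

noncomputable section

namespace Crest.Agent.R100.Schur403

open Crest.Agent.R100.Mart933 Crest.Agent.R100.Wide933

/-- `Ivl k j ⊆ Ivl k' j'` -/
def Sub (k : ℕ) (j : ℤ) (k' : ℕ) (j' : ℤ) : Prop := k' ≤ k ∧ j / 2 ^ (k - k') = j'

theorem fl_anc {k k' : ℕ} (h : k' ≤ k) (x : ℝ) : fl k' x = fl k x / 2 ^ (k - k') := by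
  obtain ⟨d, rfl⟩ := Nat.exists_eq_add_of_le h
  rw [Nat.add_sub_cancel_left]
  induction d with
  | zero => simp
  | succ d ih =>
    rw [ih (by omega), fl_half (k' + d) x, Int.ediv_ediv_of_nonneg (by norm_num), ← pow_succ']
    rfl

theorem Sub.subset {k : ℕ} {j : ℤ} {k' : ℕ} {j' : ℤ} (h : Sub k j k' j') :
    Ivl k j ⊆ Ivl k' j' := by
  intro x hx
  rw [mem_Ivl] at hx ⊢
  rw [fl_anc h.1, hx, h.2]

theorem sub_of_mem {k : ℕ} {j : ℤ} {k' : ℕ} {j' : ℤ} (hk : k' ≤ k) {x : ℝ} (h : x ∈ Ivl k j)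
    (h' : x ∈ Ivl k' j') : Sub k j k' j' := by
  rw [mem_Ivl] at h h'
  refine ⟨hk, ?_⟩
  rw [← h', fl_anc hk, h]

theorem inter_of_sub {k : ℕ} {j : ℤ} {k' : ℕ} {j' : ℤ} (h : Sub k j k' j') :
    Ivl k j ∩ Ivl k' j' = Ivl k j := inter_eq_left.2 h.subset

theorem inter_empty {k : ℕ} {j : ℤ} {k' : ℕ} {j' : ℤ} (h : ¬ Sub k j k' j')
    (h' : ¬ Sub k' j' k j) : Ivl k j ∩ Ivl k' j' = ∅ := by
  rw [Set.eq_empty_iff_forall_notMem]
  rintro x ⟨h1, h2⟩
  rcases le_total k' k with hk | hk
  · exact h (sub_of_mem hk h1 h2)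
  · exact h' (sub_of_mem hk h2 h1)

theorem norm_int_e_Ivl (k : ℕ) (j : ℤ) (u : ℝ) : ‖∫ x in Ivl k j, e u x‖ ≤ 1 / 2 ^ k := by
  refine (norm_integral_le_integral_norm _).trans ?_
  simp only [norm_e]
  rw [integral_const, smul_eq_mul, mul_one, measureReal_restrict_apply_univ, volume_real_Ivl]

variable {ι : Type*} {k : ι → ℕ} {j : ι → ℤ} {d : ι → ℝ}

/-- one wave packet -/
def wp (k : ι → ℕ) (j : ι → ℤ) (d : ι → ℝ) (t : ι) : ℝ → ℂ := (Ivl (k t) (j t)).indicator (e (d t))

theorem measurable_wp (t : ι) : Measurable (wp k j d t) :=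
  (measurable_e _).indicator (measurableSet_Ivl _ _)

theorem norm_wp_le (t : ι) (x : ℝ) : ‖wp k j d t x‖ ≤ 1 := by
  unfold wp
  by_cases h : x ∈ Ivl (k t) (j t)
  · rw [indicator_of_mem h, norm_e]
  · rw [indicator_of_notMem h, norm_zero]; exact zero_le_one

theorem wp_mul_conj (t t' : ι) : (fun x => wp k j d t x * (starRingEnd ℂ) (wp k j d t' x)) =
    (Ivl (k t) (j t) ∩ Ivl (k t') (j t')).indicator (e (d t - d t')) := by
  ext x
  unfold wp
  by_cases h : x ∈ Ivl (k t) (j t)
  · by_cases h' : x ∈ Ivl (k t') (j t')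
    · have hm : x ∈ Ivl (k t) (j t) ∩ Ivl (k t') (j t') := ⟨h, h'⟩
      rw [indicator_of_mem h, indicator_of_mem h', indicator_of_mem hm, conj_e, ← e_add,
        sub_eq_add_neg]
    · have hm : x ∉ Ivl (k t) (j t) ∩ Ivl (k t') (j t') := fun hh => h' hh.2
      rw [indicator_of_notMem h', indicator_of_notMem hm, map_zero, mul_zero]
  · have hm : x ∉ Ivl (k t) (j t) ∩ Ivl (k t') (j t') := fun hh => h hh.1
    rw [indicator_of_notMem h, indicator_of_notMem hm, zero_mul]

/-- Gram matrix entry -/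
def gr (k : ι → ℕ) (j : ι → ℤ) (d : ι → ℝ) (k' : ℕ) (j' : ℤ) (t t' : ι) : ℂ :=
  ∫ x in Ivl k' j', wp k j d t x * (starRingEnd ℂ) (wp k j d t' x)

theorem gr_eq {k' : ℕ} {j' : ℤ} {t t' : ι} (ht : Sub (k t) (j t) k' j') :
    gr k j d k' j' t t' = ∫ x in Ivl (k t) (j t) ∩ Ivl (k t') (j t'), e (d t - d t') x := by
  unfold gr
  rw [wp_mul_conj, integral_indicator ((measurableSet_Ivl _ _).inter (measurableSet_Ivl _ _)),
    Measure.restrict_restrict ((measurableSet_Ivl _ _).inter (measurableSet_Ivl _ _))]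
  congr 2
  exact inter_eq_left.2 (inter_subset_left.trans ht.subset)

theorem norm_gr_le {k' : ℕ} {j' : ℤ} {t t' : ι} (ht : Sub (k t) (j t) k' j')
    {B : ℝ} (hB : 0 < B)
    (h1 : Sub (k t) (j t) (k t') (j t') → B * 2 ^ (k t) < |d t - d t'|)
    (h2 : Sub (k t') (j t') (k t) (j t) → B * 2 ^ (k t') < |d t - d t'|) [Decidable (Sub (k t) (j t) (k t') (j t'))]
    [Decidable (Sub (k t') (j t') (k t) (j t))] :
    ‖gr k j d k' j' t t'‖ ≤
      (if Sub (k t) (j t) (k t') (j t') then 1 / 2 ^ (k t) / (Real.pi * B) else 0) +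
      (if Sub (k t') (j t') (k t) (j t) then 1 / 2 ^ (k t') / (Real.pi * B) else 0) := by
  rw [gr_eq ht]
  have hpi := Real.pi_pos
  by_cases hs : Sub (k t) (j t) (k t') (j t')
  · have hd := h1 hs
    have hd0 : 0 < |d t - d t'| := lt_of_le_of_lt (by positivity) hd
    rw [inter_of_sub hs, if_pos hs]
    have h3 := norm_integral_e_le (abs_pos.1 hd0) (k t) (j t)
    have h4 : 1 / (Real.pi * |d t - d t'|) ≤ 1 / 2 ^ (k t) / (Real.pi * B) := by
      rw [div_div, one_div_le_one_div (by positivity) (by positivity)]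
      nlinarith
    have h5 : (0 : ℝ) ≤ if Sub (k t') (j t') (k t) (j t) then 1 / 2 ^ (k t') / (Real.pi * B) else 0 := by
      split_ifs <;> positivity
    linarith
  · by_cases hs' : Sub (k t') (j t') (k t) (j t)
    · have hd := h2 hs'
      have hd0 : 0 < |d t - d t'| := lt_of_le_of_lt (by positivity) hd
      rw [inter_comm, inter_of_sub hs', if_pos hs', if_neg hs, zero_add]
      have h3 := norm_integral_e_le (abs_pos.1 hd0) (k t') (j t')
      have h4 : 1 / (Real.pi * |d t - d t'|) ≤ 1 / 2 ^ (k t') / (Real.pi * B) := by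
        rw [div_div, one_div_le_one_div (by positivity) (by positivity)]
        nlinarith
      linarith
    · rw [inter_empty hs hs', if_neg hs, if_neg hs']
      simp

open Classical in
theorem schur (k : ι → ℕ) (j : ι → ℤ) (d : ι → ℝ) (S : Finset ι) {H : ℝ → ℂ}
    (hH : Measurable H) {M0 : ℝ} (hM : ∀ x, ‖H x‖ ≤ M0) {c B : ℝ} {D : ℕ} (hc : 0 ≤ c)
    (hB : 0 < B) (hDB : (D : ℝ) ≤ B) (k' : ℕ) (j' : ℤ)
    (hsub : ∀ t ∈ S, Sub (k t) (j t) k' j')
    (hsep : ∀ t ∈ S, ∀ t' ∈ S, t ≠ t' → Sub (k t) (j t) (k t') (j t') →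
      B * 2 ^ (k t) < |d t - d t'|)
    (hdepth : ∀ t ∈ S, (S.filter fun t' => Sub (k t) (j t) (k t') (j t')).card ≤ D)
    (hhv : ∀ t ∈ S, c ≤ ‖coef H (d t) (k t) (j t)‖) :
    c ^ 2 * ∑ t ∈ S, 1 / 2 ^ (k t) ≤ 2 * ∫ x in Ivl k' j', ‖H x‖ ^ 2 := by
  have hpi := Real.pi_pos
  set N : ℝ := ∑ t ∈ S, 1 / 2 ^ (k t) with hN
  have hN0 : 0 ≤ N := Finset.sum_nonneg fun t _ => by positivity
  set ph : ι → ℂ := fun t => coef H (d t) (k t) (j t) / ‖coef H (d t) (k t) (j t)‖ with hph
  have hph1 : ∀ t, ‖ph t‖ ≤ 1 := by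
    intro t
    rw [hph]
    simp only [norm_div, Complex.norm_real, norm_norm]
    exact div_self_le_one _
  have hphc : ∀ t, (starRingEnd ℂ) (ph t) * coef H (d t) (k t) (j t) =
      (‖coef H (d t) (k t) (j t)‖ : ℂ) := by
    intro t
    rw [hph]
    by_cases h0 : coef H (d t) (k t) (j t) = 0
    · simp [h0]
    · have hne : (‖coef H (d t) (k t) (j t)‖ : ℂ) ≠ 0 := by
        exact_mod_cast (norm_pos_iff.2 h0).ne'
      simp only [map_div₀, Complex.conj_ofReal]
      rw [div_mul_eq_mul_div, mul_comm ((starRingEnd ℂ) _), Complex.mul_conj,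
        Complex.normSq_eq_norm_sq]
      push_cast
      field_simp
  set G : ℝ → ℂ := fun x => ∑ t ∈ S, ph t * wp k j d t x with hG
  have hGm : Measurable G := Finset.measurable_sum _ fun t _ => (measurable_wp t).const_mul _
  have hGb : ∀ x, ‖G x‖ ≤ S.card := by
    intro x
    refine (norm_sum_le _ _).trans ?_
    rw [Finset.card_eq_sum_ones]
    push_cast
    apply Finset.sum_le_sum
    intro t _
    rw [norm_mul]
    exact mul_le_one₀ (hph1 t) (norm_nonneg _) (norm_wp_le t x)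
  -- pairing
  have hpair : c * N ≤ ∫ x in Ivl k' j', ‖H x‖ * ‖G x‖ := by
    have h1 : ∀ t ∈ S, ∫ x in Ivl k' j', H x * (starRingEnd ℂ) (ph t * wp k j d t x) =
        ((1 / 2 ^ (k t) * ‖coef H (d t) (k t) (j t)‖ : ℝ) : ℂ) := by
      intro t ht
      have e1 : (fun x => H x * (starRingEnd ℂ) (ph t * wp k j d t x)) =
          (Ivl (k t) (j t)).indicator (fun x => (starRingEnd ℂ) (ph t) * (H x * e (-(d t)) x)) := by
        ext x
        unfold wp
        by_cases h : x ∈ Ivl (k t) (j t)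
        · rw [indicator_of_mem h, indicator_of_mem h, map_mul, conj_e]; ring
        · rw [indicator_of_notMem h, indicator_of_notMem h, mul_zero, map_zero, mul_zero]
      rw [e1, integral_indicator (measurableSet_Ivl _ _),
        Measure.restrict_restrict (measurableSet_Ivl _ _), inter_eq_left.2 (hsub t ht).subset,
        integral_const_mul]
      have e2 : ∫ y in Ivl (k t) (j t), H y * e (-(d t)) y =
          (1 / 2 ^ (k t) : ℂ) * coef H (d t) (k t) (j t) := by
        unfold coef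
        have h20 : (2 : ℂ) ^ (k t) ≠ 0 := pow_ne_zero _ two_ne_zero
        rw [← mul_assoc, one_div, inv_mul_cancel₀ h20, one_mul]
      rw [e2]
      have e3 := hphc t
      calc (starRingEnd ℂ) (ph t) * (1 / 2 ^ (k t) * coef H (d t) (k t) (j t)) =
          1 / 2 ^ (k t) * ((starRingEnd ℂ) (ph t) * coef H (d t) (k t) (j t)) := by ring
        _ = _ := by rw [e3]; push_cast; ring
    have h2 : ∫ x in Ivl k' j', H x * (starRingEnd ℂ) (G x) =
        ((∑ t ∈ S, 1 / 2 ^ (k t) * ‖coef H (d t) (k t) (j t)‖ : ℝ) : ℂ) := by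
      have e1 : (fun x => H x * (starRingEnd ℂ) (G x)) =
          fun x => ∑ t ∈ S, H x * (starRingEnd ℂ) (ph t * wp k j d t x) := by
        ext x
        rw [hG]
        simp only [map_sum, Finset.mul_sum]
      rw [e1, integral_finsetSum]
      · rw [Finset.sum_congr rfl h1]
        push_cast
        rfl
      · intro t _
        apply intOn k' j' (M := M0)
        · exact hH.mul (Complex.continuous_conj.measurable.comp ((measurable_wp t).const_mul _))
        · intro x
          rw [norm_mul, RCLike.norm_conj, norm_mul]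
          have := norm_wp_le (k := k) (j := j) (d := d) t x
          have h3 : ‖ph t‖ * ‖wp k j d t x‖ ≤ 1 := mul_le_one₀ (hph1 t) (norm_nonneg _) this
          calc ‖H x‖ * (‖ph t‖ * ‖wp k j d t x‖) ≤ M0 * 1 :=
                mul_le_mul (hM x) h3 (by positivity) ((norm_nonneg _).trans (hM x))
            _ = M0 := mul_one _
    have h3 : c * N ≤ ∑ t ∈ S, 1 / 2 ^ (k t) * ‖coef H (d t) (k t) (j t)‖ := by
      rw [hN, Finset.mul_sum]
      apply Finset.sum_le_sum
      intro t ht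
      rw [mul_comm]
      exact mul_le_mul_of_nonneg_left (hhv t ht) (by positivity)
    have h4 : ∑ t ∈ S, 1 / 2 ^ (k t) * ‖coef H (d t) (k t) (j t)‖ =
        ‖∫ x in Ivl k' j', H x * (starRingEnd ℂ) (G x)‖ := by
      rw [h2, Complex.norm_real, Real.norm_eq_abs, abs_of_nonneg]
      exact Finset.sum_nonneg fun t _ => by positivity
    rw [h4] at h3
    refine h3.trans ((norm_integral_le_integral_norm _).trans (le_of_eq ?_))
    congr 1
    ext x
    rw [norm_mul, RCLike.norm_conj]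
  -- Gram
  have hgram : ∫ x in Ivl k' j', ‖G x‖ ^ 2 ≤ 2 * N := by
    have h1 : ((∫ x in Ivl k' j', ‖G x‖ ^ 2 : ℝ) : ℂ) =
        ∑ t ∈ S, ∑ t' ∈ S, ph t * (starRingEnd ℂ) (ph t') * gr k j d k' j' t t' := by
      rw [← integral_complex_ofReal]
      have e1 : (fun x => ((‖G x‖ ^ 2 : ℝ) : ℂ)) = fun x => ∑ t ∈ S, ∑ t' ∈ S,
          ph t * (starRingEnd ℂ) (ph t') * (wp k j d t x * (starRingEnd ℂ) (wp k j d t' x)) := by
        ext x
        rw [← Complex.normSq_eq_norm_sq, ← Complex.mul_conj, hG]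
        simp only [map_sum, Finset.sum_mul_sum, map_mul]
        apply Finset.sum_congr rfl
        intro t _
        apply Finset.sum_congr rfl
        intro t' _
        ring
      rw [e1]
      have hint : ∀ t t', IntegrableOn (fun x => ph t * (starRingEnd ℂ) (ph t') *
          (wp k j d t x * (starRingEnd ℂ) (wp k j d t' x))) (Ivl k' j') := by
        intro t t'
        apply Integrable.const_mul
        apply intOn k' j' (M := 1)
        · exact (measurable_wp t).mul (Complex.continuous_conj.measurable.comp (measurable_wp t'))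
        · intro x
          rw [norm_mul, RCLike.norm_conj]
          exact mul_le_one₀ (norm_wp_le t x) (norm_nonneg _) (norm_wp_le t' x)
      rw [integral_finsetSum _ fun t _ => integrable_finsetSum _ fun t' _ => hint t t']
      apply Finset.sum_congr rfl
      intro t _
      rw [integral_finsetSum _ fun t' _ => hint t t']
      apply Finset.sum_congr rfl
      intro t' _
      rw [integral_const_mul]
      rfl
    have h2 : ∫ x in Ivl k' j', ‖G x‖ ^ 2 ≤ ∑ t ∈ S, ∑ t' ∈ S, ‖gr k j d k' j' t t'‖ := by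
      have h3 : ∫ x in Ivl k' j', ‖G x‖ ^ 2 = ‖((∫ x in Ivl k' j', ‖G x‖ ^ 2 : ℝ) : ℂ)‖ := by
        rw [Complex.norm_real, Real.norm_eq_abs, abs_of_nonneg]
        exact integral_nonneg fun x => by positivity
      rw [h3, h1]
      refine (norm_sum_le _ _).trans (Finset.sum_le_sum fun t _ => ?_)
      refine (norm_sum_le _ _).trans (Finset.sum_le_sum fun t' _ => ?_)
      rw [norm_mul, norm_mul, RCLike.norm_conj]
      have : ‖ph t‖ * ‖ph t'‖ ≤ 1 := mul_le_one₀ (hph1 t) (norm_nonneg _) (hph1 t')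
      exact mul_le_of_le_one_left (norm_nonneg _) this
    refine h2.trans ?_
    set a : ι → ι → ℝ := fun t t' =>
      if Sub (k t) (j t) (k t') (j t') then 1 / 2 ^ (k t) / (Real.pi * B) else 0 with ha
    have h3 : ∀ t ∈ S, ∀ t' ∈ S, ‖gr k j d k' j' t t'‖ ≤
        (if t = t' then 1 / 2 ^ (k t) else 0) + (a t t' + a t' t) := by
      intro t ht t' ht'
      have ha0 : ∀ t t', 0 ≤ a t t' := by
        intro t t'
        rw [ha]
        dsimp only
        split_ifs <;> positivity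
      by_cases hne : t = t'
      · subst hne
        rw [if_pos rfl, gr_eq (hsub t ht), inter_self, sub_self]
        have := norm_int_e_Ivl (k t) (j t) 0
        have h5 := ha0 t t
        linarith
      · rw [if_neg hne, zero_add]
        apply norm_gr_le (hsub t ht) hB (hsep t ht t' ht' hne)
        intro h
        rw [abs_sub_comm]
        exact hsep t' ht' t ht (Ne.symm hne) h
    have h4 : ∀ t ∈ S, ∑ t' ∈ S, a t t' ≤ 1 / 2 ^ (k t) * (1 / Real.pi) := by
      intro t ht
      rw [ha]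
      dsimp only
      rw [← Finset.sum_filter, Finset.sum_const, nsmul_eq_mul]
      have h5 : ((S.filter fun t' => Sub (k t) (j t) (k t') (j t')).card : ℝ) ≤ B :=
        le_trans (by exact_mod_cast hdepth t ht) hDB
      calc ((S.filter fun t' => Sub (k t) (j t) (k t') (j t')).card : ℝ) *
            (1 / 2 ^ (k t) / (Real.pi * B)) ≤ B * (1 / 2 ^ (k t) / (Real.pi * B)) :=
            mul_le_mul_of_nonneg_right h5 (by positivity)
        _ = _ := by field_simp
    have h6 : ∑ t ∈ S, ∑ t' ∈ S, a t t' ≤ N * (1 / Real.pi) := by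
      rw [hN, Finset.sum_mul]
      exact Finset.sum_le_sum h4
    have h7 : ∑ t ∈ S, ∑ t' ∈ S, a t' t ≤ N * (1 / Real.pi) := by
      rw [Finset.sum_comm]
      exact h6
    calc ∑ t ∈ S, ∑ t' ∈ S, ‖gr k j d k' j' t t'‖ ≤
          ∑ t ∈ S, ∑ t' ∈ S, ((if t = t' then 1 / 2 ^ (k t) else 0) + (a t t' + a t' t)) :=
          Finset.sum_le_sum fun t ht => Finset.sum_le_sum fun t' ht' => h3 t ht t' ht'
      _ = N + (∑ t ∈ S, ∑ t' ∈ S, a t t' + ∑ t ∈ S, ∑ t' ∈ S, a t' t) := by
          simp only [Finset.sum_add_distrib]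
          congr 1
          rw [hN]
          apply Finset.sum_congr rfl
          intro t ht
          rw [Finset.sum_ite_eq, if_pos ht]
      _ ≤ N + (N * (1 / Real.pi) + N * (1 / Real.pi)) := by gcongr
      _ ≤ 2 * N := by
          have h8 : 1 / Real.pi ≤ 1 / 2 := by
            rw [one_div_le_one_div hpi (by norm_num)]
            exact Real.two_le_pi
          nlinarith
  -- Cauchy-Schwarz
  have iH : IntegrableOn (fun x => ‖H x‖ ^ 2) (Ivl k' j') := by
    apply intOn k' j' (hH.norm.pow_const 2) (M := M0 ^ 2)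
    intro x
    rw [Real.norm_eq_abs, abs_of_nonneg (by positivity)]
    have := hM x
    gcongr
  have iG : IntegrableOn (fun x => ‖G x‖ ^ 2) (Ivl k' j') := by
    apply intOn k' j' (hGm.norm.pow_const 2) (M := (S.card : ℝ) ^ 2)
    intro x
    rw [Real.norm_eq_abs, abs_of_nonneg (by positivity)]
    have := hGb x
    gcongr
  have iHG : IntegrableOn (fun x => ‖H x‖ * ‖G x‖) (Ivl k' j') := by
    apply intOn k' j' (hH.norm.mul hGm.norm) (M := M0 * S.card)
    intro x
    have h10 : 0 ≤ ‖H x‖ * ‖G x‖ := by positivity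
    change ‖‖H x‖ * ‖G x‖‖ ≤ M0 * S.card
    rw [Real.norm_eq_abs, abs_of_nonneg h10]
    exact mul_le_mul (hM x) (hGb x) (norm_nonneg _) ((norm_nonneg _).trans (hM x))
  have key : c * (∫ x in Ivl k' j', ‖H x‖ * ‖G x‖) ≤
      (∫ x in Ivl k' j', ‖H x‖ ^ 2) + c ^ 2 / 4 * ∫ x in Ivl k' j', ‖G x‖ ^ 2 := by
    rw [← integral_const_mul, ← integral_const_mul, ← integral_add iH (iG.const_mul _)]
    apply integral_mono (iHG.const_mul _) (iH.add (iG.const_mul _))
    intro x
    change c * (‖H x‖ * ‖G x‖) ≤ ‖H x‖ ^ 2 + c ^ 2 / 4 * ‖G x‖ ^ 2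
    nlinarith [sq_nonneg (‖H x‖ - c / 2 * ‖G x‖)]
  have h9 : c ^ 2 * N ≤ (∫ x in Ivl k' j', ‖H x‖ ^ 2) + c ^ 2 / 4 * (2 * N) := by
    calc c ^ 2 * N = c * (c * N) := by ring
      _ ≤ c * ∫ x in Ivl k' j', ‖H x‖ * ‖G x‖ := mul_le_mul_of_nonneg_left hpair hc
      _ ≤ _ := key
      _ ≤ _ := add_le_add le_rfl (mul_le_mul_of_nonneg_left hgram (by positivity))
  nlinarith

end Crest.Agent.R100.Schur403
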