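import Crest.Agent.R100.Wide_933
import Crest.Agent.R138.Fq2_665

/-!
# R100 / S0132, helper43: the SPLIT lemma (trigonometric replacement of the Walsh splitting)

On a dyadic interval `β` a bounded function `F`, whose local Fourier coefficients on the dyadic
sub-intervals (down to `D` generations) have `L^p(dξ)` norm at most `W`, is the sum of a function
`G` supported in `β` with small `L²` norm and of a function all of whose Fourier coefficients
(for *all* real frequencies) over `β` are at most `α / 4`.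
-/

set_option autoImplicit false

open MeasureTheory Set Filter Topology
open scoped ENNReal FourierTransform SchwartzMap ContDiff

noncomputable section

namespace Crest.Agent.R100.Split43

open Crest.Agent.R100.Mart933 Crest.Agent.R100.Wide933

/-! ## the window -/

/-- the bump: `1` on `[0,1]`, `0` outside `(-1/2, 3/2)` -/
def bb : ContDiffBump (1 / 2 : ℝ) := ⟨1 / 2, 1, by norm_num, by norm_num⟩

def wf (y : ℝ) : ℂ := ((bb y : ℝ) : ℂ)

theorem wf_contDiff : ContDiff ℝ ∞ wf := by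
  have h1 : ContDiff ℝ ∞ (bb : ℝ → ℝ) := bb.contDiff
  exact Complex.ofRealCLM.contDiff.comp h1

theorem wf_hcs : HasCompactSupport wf := by
  have h1 : HasCompactSupport (bb : ℝ → ℝ) := bb.hasCompactSupport
  exact h1.comp_left (g := fun x : ℝ => (x : ℂ)) Complex.ofReal_zero

def wS : 𝓢(ℝ, ℂ) := wf_hcs.toSchwartzMap wf_contDiff

theorem wS_apply (y : ℝ) : wS y = wf y := rfl

theorem wf_one {y : ℝ} (h0 : 0 ≤ y) (h1 : y ≤ 1) : wf y = 1 := by
  unfold wf
  have : bb y = 1 := bb.one_of_mem_closedBall (by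
    simp only [bb, Metric.mem_closedBall, Real.dist_eq]
    rw [abs_le]; constructor <;> linarith)
  rw [this]; simp

theorem wf_zero {y : ℝ} (h : y ≤ -(1 / 2) ∨ 3 / 2 ≤ y) : wf y = 0 := by
  unfold wf
  have : bb y = 0 := bb.zero_of_le_dist (by
    simp only [bb, Real.dist_eq]
    rcases h with h | h
    · rw [abs_of_nonpos (by linarith)]; linarith
    · rw [abs_of_nonneg (by linarith)]; linarith)
  rw [this]; simp

theorem norm_wf_le (y : ℝ) : ‖wf y‖ ≤ 1 := by
  unfold wf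
  rw [Complex.norm_real, Real.norm_eq_abs, abs_of_nonneg bb.nonneg]
  exact bb.le_one

theorem continuous_wf : Continuous wf := wf_contDiff.continuous

/-- Fourier transform of the window -/
def kf : 𝓢(ℝ, ℂ) := 𝓕 wS

theorem kf_apply (ζ : ℝ) : kf ζ = ∫ y, wf y * e (-ζ) y := by
  have : (kf : ℝ → ℂ) = 𝓕 (wS : ℝ → ℂ) := SchwartzMap.fourier_coe wS
  rw [this, Real.fourier_real_eq_integral_exp_smul]
  refine integral_congr_ae (Eventually.of_forall fun y => ?_)
  simp only [smul_eq_mul, e, wS_apply]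
  rw [mul_comm]
  congr 2
  push_cast
  ring

theorem kf_inv (y : ℝ) : ∫ ζ, kf ζ * e ζ y = wf y := by
  have h1 : 𝓕⁻ kf = wS := FourierTransform.fourierInv_fourier_eq wS
  have h2 : (𝓕⁻ kf : 𝓢(ℝ, ℂ)) y = 𝓕⁻ (kf : ℝ → ℂ) y := by
    rw [SchwartzMap.fourierInv_coe]
  rw [h1, wS_apply] at h2
  rw [h2, Real.fourierInv_eq']
  refine integral_congr_ae (Eventually.of_forall fun ζ => ?_)
  simp only [smul_eq_mul, e]
  rw [mul_comm]
  congr 2
  simp
  ring

/-- the constant `A₀ = ‖ŵ‖₁` -/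
def A0 : ℝ := ∫ ζ, ‖kf ζ‖

theorem integrable_kf : Integrable (kf : ℝ → ℂ) := kf.integrable

theorem one_le_A0 : 1 ≤ A0 := by
  have h := kf_inv 0
  rw [wf_one le_rfl zero_le_one] at h
  have h2 : ‖∫ ζ, kf ζ * e ζ 0‖ ≤ ∫ ζ, ‖kf ζ * e ζ 0‖ := norm_integral_le_integral_norm _
  rw [h] at h2
  simpa [A0] using h2

theorem A0_pos : 0 < A0 := lt_of_lt_of_le one_pos one_le_A0

theorem integrable_wf : Integrable wf := wS.integrable

theorem norm_kf_le (ζ : ℝ) : ‖kf ζ‖ ≤ 2 := by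
  rw [kf_apply]
  refine (norm_integral_le_integral_norm _).trans ?_
  have h1 : ∀ y, ‖wf y * e (-ζ) y‖ ≤ (Ioc (-(1 / 2) : ℝ) (3 / 2)).indicator (fun _ => (1 : ℝ)) y := by
    intro y
    rw [norm_mul, norm_e, mul_one]
    by_cases hy : y ∈ Ioc (-(1 / 2) : ℝ) (3 / 2)
    · rw [indicator_of_mem hy]; exact norm_wf_le y
    · rw [indicator_of_notMem hy, wf_zero, norm_zero]
      simp only [mem_Ioc, not_and_or, not_lt, not_le] at hy
      rcases hy with hy | hy
      · left; exact hy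
      · right; exact hy.le
  calc ∫ y, ‖wf y * e (-ζ) y‖ ≤ ∫ y, (Ioc (-(1 / 2) : ℝ) (3 / 2)).indicator (fun _ => (1 : ℝ)) y := by
        apply integral_mono_of_nonneg (Eventually.of_forall fun y => norm_nonneg _)
        · rw [integrable_indicator_iff measurableSet_Ioc]
          exact integrableOn_const (by simp)
        · exact Eventually.of_forall h1
    _ = 2 := by
        rw [integral_indicator measurableSet_Ioc]
        simp
        norm_num

/-! ## the scaled window at the node `(l, i)` -/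

/-- window of the node `(l, i)` -/
def ww (l : ℕ) (i : ℤ) (y : ℝ) : ℂ := wf (2 ^ l * y - i)

/-- its Fourier transform -/
def kw (l : ℕ) (i : ℤ) (ζ : ℝ) : ℂ := ((2 : ℝ) ^ l)⁻¹ * e (-(ζ * ((i : ℝ) / 2 ^ l))) 1 * kf (ζ / 2 ^ l)

theorem continuous_kw (l : ℕ) (i : ℤ) : Continuous (kw l i) := by
  unfold kw e
  have h := kf.continuous
  fun_prop

theorem continuous_ww (l : ℕ) (i : ℤ) : Continuous (ww l i) := by
  unfold ww
  exact continuous_wf.comp (by fun_prop)

theorem norm_ww_le (l : ℕ) (i : ℤ) (y : ℝ) : ‖ww l i y‖ ≤ 1 := norm_wf_le _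

theorem norm_kw (l : ℕ) (i : ℤ) (ζ : ℝ) : ‖kw l i ζ‖ = ((2 : ℝ) ^ l)⁻¹ * ‖kf (ζ / 2 ^ l)‖ := by
  unfold kw
  rw [norm_mul, norm_mul, norm_e, mul_one, Complex.norm_real, Real.norm_of_nonneg (by positivity)]

theorem norm_kw_le (l : ℕ) (i : ℤ) (ζ : ℝ) : ‖kw l i ζ‖ ≤ ((2 : ℝ) ^ l)⁻¹ * 2 := by
  rw [norm_kw]
  gcongr
  exact norm_kf_le _

theorem integrable_kw (l : ℕ) (i : ℤ) : Integrable (kw l i) := by
  have h1 : Integrable fun ζ : ℝ => ((2 : ℝ) ^ l)⁻¹ * ‖kf (ζ / 2 ^ l)‖ :=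
    ((integrable_kf.norm).comp_div (by positivity)).const_mul _
  refine h1.mono' (continuous_kw l i).aestronglyMeasurable (Eventually.of_forall fun ζ => ?_)
  rw [norm_kw]

theorem integral_norm_kw (l : ℕ) (i : ℤ) : ∫ ζ, ‖kw l i ζ‖ = A0 := by
  simp_rw [norm_kw]
  rw [integral_const_mul, Measure.integral_comp_div (fun ζ => ‖kf ζ‖) ((2 : ℝ) ^ l),
    abs_of_pos (by positivity), smul_eq_mul, ← mul_assoc, inv_mul_cancel₀ (by positivity), one_mul]
  rfl

theorem e_mul_one (θ y : ℝ) : e θ y = e (θ * y) 1 := by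
  unfold e; rw [mul_one]

theorem e_zero (y : ℝ) : e 0 y = 1 := by simp [e]

theorem e_neg_mul (θ y : ℝ) : e (-θ) y * e θ y = 1 := by
  rw [← e_add]; simp [e_zero]

/-- inversion for the scaled window -/
theorem kw_inv (l : ℕ) (i : ℤ) (y : ℝ) : ∫ ζ, kw l i ζ * e ζ y = ww l i y := by
  unfold ww
  rw [← kf_inv]
  have h2 : (0 : ℝ) < 2 ^ l := by positivity
  have h1 := Measure.integral_comp_div (fun ζ : ℝ => kf ζ * e ζ (2 ^ l * y - i)) ((2 : ℝ) ^ l)
  rw [abs_of_pos h2] at h1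
  have h3 : ∫ ζ, kf ζ * e ζ (2 ^ l * y - i) =
      (((2 : ℝ) ^ l)⁻¹ : ℝ) • ∫ x, kf (x / 2 ^ l) * e (x / 2 ^ l) (2 ^ l * y - i) := by
    rw [h1, smul_smul, inv_mul_cancel₀ h2.ne', one_smul]
  rw [h3, ← integral_smul]
  refine integral_congr_ae (Eventually.of_forall fun ζ => ?_)
  simp only [kw, Complex.real_smul]
  have h4 : e (ζ / 2 ^ l) (2 ^ l * y - i) = e (-(ζ * ((i : ℝ) / 2 ^ l))) 1 * e ζ y := by
    rw [e_mul_one, e_mul_one ζ y, ← e_add]
    congr 1
    field_simp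
    ring
  rw [h4]
  push_cast
  ring

/-! ## reproducing identities -/

/-- `∫ u(η) K(ξ-η) dη = ∫ φ w e_{-ξ}` for `u = φ̂` -/
theorem repro {φ : ℝ → ℂ} (hφ : Integrable φ) (l : ℕ) (i : ℤ) (ξ : ℝ) :
    ∫ η, (∫ y, φ y * e (-η) y) * kw l i (ξ - η) = ∫ y, φ y * ww l i y * e (-ξ) y := by
  have hk : Integrable (fun η => kw l i (ξ - η)) := (integrable_kw l i).comp_sub_left ξ
  have hI : Integrable (fun p : ℝ × ℝ => φ p.2 * e (-p.1) p.2 * kw l i (ξ - p.1))
      (volume.prod volume) := by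
    have h1 : Integrable (fun p : ℝ × ℝ => kw l i (ξ - p.1) * φ p.2) (volume.prod volume) :=
      hk.mul_prod hφ
    have h2 : Continuous (fun p : ℝ × ℝ => e (-p.1) p.2) := by
      unfold e; fun_prop
    refine (h1.bdd_mul (c := 1) h2.aestronglyMeasurable (Eventually.of_forall fun p => ?_)).congr
      (Eventually.of_forall fun p => ?_)
    · rw [norm_e]
    · simp only; ring
  calc ∫ η, (∫ y, φ y * e (-η) y) * kw l i (ξ - η)
      = ∫ η, ∫ y, φ y * e (-η) y * kw l i (ξ - η) := by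
        refine integral_congr_ae (Eventually.of_forall fun η => ?_)
        simp only
        rw [← integral_mul_const]
    _ = ∫ y, ∫ η, φ y * e (-η) y * kw l i (ξ - η) := integral_integral_swap hI
    _ = ∫ y, φ y * ww l i y * e (-ξ) y := by
        refine integral_congr_ae (Eventually.of_forall fun y => ?_)
        simp only
        have h3 : ∫ η, φ y * e (-η) y * kw l i (ξ - η) =
            ∫ ζ, φ y * e (-(ξ - ζ)) y * kw l i ζ := by
          rw [← integral_sub_left_eq_self (fun ζ => φ y * e (-(ξ - ζ)) y * kw l i ζ) volume ξ]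
          refine integral_congr_ae (Eventually.of_forall fun η => ?_)
          simp
        rw [h3, ← kw_inv l i y, ← integral_const_mul, ← integral_mul_const]
        refine integral_congr_ae (Eventually.of_forall fun ζ => ?_)
        simp only
        rw [show -(ξ - ζ) = -ξ + ζ by ring, e_add]
        ring

/-- Fourier transform of `w · IFT(v)` -/
theorem synth {v : ℝ → ℂ} (hv : Integrable v) (l : ℕ) (i : ℤ) (ξ : ℝ) :
    ∫ y, (ww l i y * ∫ η, v η * e η y) * e (-ξ) y = ∫ η, v η * kw l i (ξ - η) := by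
  have hw : Integrable (ww l i) := by
    unfold ww
    have h1 : Integrable fun y : ℝ => wf (y - i) := integrable_wf.comp_sub_right (i : ℝ)
    exact h1.comp_mul_left' (by positivity)
  have hI : Integrable (fun p : ℝ × ℝ => ww l i p.1 * (v p.2 * e p.2 p.1) * e (-ξ) p.1)
      (volume.prod volume) := by
    have h1 : Integrable (fun p : ℝ × ℝ => ww l i p.1 * v p.2) (volume.prod volume) :=
      hw.mul_prod hv
    have h2 : Continuous (fun p : ℝ × ℝ => e p.2 p.1 * e (-ξ) p.1) := by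
      unfold e; fun_prop
    refine (h1.bdd_mul (c := 1) h2.aestronglyMeasurable (Eventually.of_forall fun p => ?_)).congr
      (Eventually.of_forall fun p => ?_)
    · rw [norm_mul, norm_e, norm_e, one_mul]
    · simp only; ring
  calc ∫ y, (ww l i y * ∫ η, v η * e η y) * e (-ξ) y
      = ∫ y, ∫ η, ww l i y * (v η * e η y) * e (-ξ) y := by
        refine integral_congr_ae (Eventually.of_forall fun y => ?_)
        simp only
        rw [← integral_const_mul, ← integral_mul_const]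
    _ = ∫ η, ∫ y, ww l i y * (v η * e η y) * e (-ξ) y := integral_integral_swap hI
    _ = ∫ η, v η * kw l i (ξ - η) := by
        refine integral_congr_ae (Eventually.of_forall fun η => ?_)
        simp only
        have h3 : kw l i (ξ - η) = ∫ y, ww l i y * e (-(ξ - η)) y := by
          unfold kw ww
          rw [kf_apply]
          have h2 : (0 : ℝ) < 2 ^ l := by positivity
          have h5 : ∫ y, wf (2 ^ l * y - i) * e (-(ξ - η)) y =
              (((2 : ℝ) ^ l)⁻¹ : ℝ) • ∫ x, wf (x - i) * e (-(ξ - η)) (x / 2 ^ l) := by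
            have := Measure.integral_comp_mul_left
              (fun x : ℝ => wf (x - i) * e (-(ξ - η)) (x / 2 ^ l)) ((2 : ℝ) ^ l)
            rw [abs_of_pos (inv_pos.2 h2)] at this
            rw [← this]
            refine integral_congr_ae (Eventually.of_forall fun y => ?_)
            simp only
            rw [mul_div_cancel_left₀ _ h2.ne']
          have h6 : ∫ x, wf (x - i) * e (-(ξ - η)) (x / 2 ^ l) =
              ∫ x, wf x * e (-(ξ - η)) ((x + i) / 2 ^ l) := by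
            rw [← integral_add_right_eq_self (fun x => wf (x - i) * e (-(ξ - η)) (x / 2 ^ l)) (i : ℝ)]
            refine integral_congr_ae (Eventually.of_forall fun y => ?_)
            simp
          rw [h5, h6, Complex.real_smul, mul_assoc, ← integral_const_mul]
          congr 1
          symm
          refine integral_congr_ae (Eventually.of_forall fun y => ?_)
          simp only
          have h7 : e (-(ξ - η)) ((y + i) / 2 ^ l) =
              e (-((ξ - η) * ((i : ℝ) / 2 ^ l))) 1 * e (-((ξ - η) / 2 ^ l)) y := by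
            rw [e_mul_one, e_mul_one (-((ξ - η) / 2 ^ l)) y, ← e_add]
            congr 1
            field_simp
            ring
          rw [h7]
          ring
        rw [h3, ← integral_const_mul]
        refine integral_congr_ae (Eventually.of_forall fun y => ?_)
        simp only
        rw [show -(ξ - η) = -ξ + η by ring, e_add]
        ring

/-! ## one node -/

/-- the restriction of `F` to a node -/
def rst (F : ℝ → ℂ) (l : ℕ) (i : ℤ) : ℝ → ℂ := (Ivl l i).indicator F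

theorem integrable_rst {F : ℝ → ℂ} (hF : Measurable F) {M : ℝ} (hM : ∀ x, ‖F x‖ ≤ M) (l : ℕ)
    (i : ℤ) : Integrable (rst F l i) := by
  unfold rst
  rw [integrable_indicator_iff (measurableSet_Ivl _ _)]
  exact intOn l i hF hM

theorem memLp_rst {F : ℝ → ℂ} (hF : Measurable F) {M : ℝ} (hM : ∀ x, ‖F x‖ ≤ M) (l : ℕ)
    (i : ℤ) : MemLp (rst F l i) 2 := by
  have hM0 : 0 ≤ M := (norm_nonneg _).trans (hM 0)
  rw [memLp_two_iff_integrable_sq_norm (integrable_rst hF hM l i).aestronglyMeasurable]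
  refine ((integrable_rst hF hM l i).norm.const_mul M).mono'
    ((integrable_rst hF hM l i).aestronglyMeasurable.norm.pow 2) (Eventually.of_forall fun x => ?_)
  rw [Real.norm_of_nonneg (by positivity), sq]
  refine mul_le_mul_of_nonneg_right ?_ (norm_nonneg _)
  unfold rst
  by_cases hx : x ∈ Ivl l i
  · rw [indicator_of_mem hx]; exact hM x
  · rw [indicator_of_notMem hx, norm_zero]; exact hM0

theorem int_rst (F : ℝ → ℂ) (l : ℕ) (i : ℤ) (η : ℝ) :
    ∫ y, rst F l i y * e (-η) y = ((2 : ℂ) ^ l)⁻¹ * coef F η l i := by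
  unfold coef
  rw [← mul_assoc, inv_mul_cancel₀ (pow_ne_zero _ two_ne_zero), one_mul,
    ← integral_indicator (measurableSet_Ivl _ _)]
  refine integral_congr_ae (Eventually.of_forall fun y => ?_)
  simp only [rst]
  by_cases hy : y ∈ Ivl l i
  · rw [indicator_of_mem hy, indicator_of_mem hy]
  · rw [indicator_of_notMem hy, indicator_of_notMem hy, zero_mul]

theorem fourier_rst (F : ℝ → ℂ) (l : ℕ) (i : ℤ) (η : ℝ) :
    𝓕 (rst F l i) η = ((2 : ℂ) ^ l)⁻¹ * coef F η l i := by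
  rw [← int_rst, Real.fourier_real_eq_integral_exp_smul]
  refine integral_congr_ae (Eventually.of_forall fun y => ?_)
  simp only [smul_eq_mul, e]
  rw [mul_comm]
  congr 2
  push_cast
  ring

theorem continuous_coef {F : ℝ → ℂ} (hF : Measurable F) {M : ℝ} (hM : ∀ x, ‖F x‖ ≤ M) (l : ℕ)
    (i : ℤ) : Continuous fun ξ => coef F ξ l i := by
  have h1 : Continuous (𝓕 (rst F l i)) := by
    simpa using! VectorFourier.fourierIntegral_continuous (V := ℝ) (W := ℝ)
      Real.continuous_fourierChar (L := innerₗ ℝ) continuous_inner (integrable_rst hF hM l i)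
  have h2 : (fun ξ => coef F ξ l i) = fun ξ => (2 : ℂ) ^ l * 𝓕 (rst F l i) ξ := by
    ext ξ
    rw [fourier_rst, ← mul_assoc, mul_inv_cancel₀ (pow_ne_zero _ two_ne_zero), one_mul]
  rw [h2]
  exact continuous_const.mul h1

theorem coef_le {F : ℝ → ℂ} {M : ℝ} (hM : ∀ x, ‖F x‖ ≤ M) (ξ : ℝ) (l : ℕ)
    (i : ℤ) : ‖coef F ξ l i‖ ≤ M := by
  have hM0 : 0 ≤ M := (norm_nonneg _).trans (hM 0)
  unfold coef
  rw [norm_mul, norm_pow, Complex.norm_ofNat]
  have h1 : ‖∫ y in Ivl l i, F y * e (-ξ) y‖ ≤ M * volume.real (Ivl l i) := by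
    apply norm_setIntegral_le_of_norm_le_const
    · rw [volume_Ivl]; exact ENNReal.ofReal_lt_top
    · intro x _
      rw [norm_mul, norm_e, mul_one]
      exact hM x
  rw [volume_real_Ivl] at h1
  calc (2 : ℝ) ^ l * ‖∫ y in Ivl l i, F y * e (-ξ) y‖ ≤ 2 ^ l * (M * (1 / 2 ^ l)) := by gcongr
    _ = M := by field_simp

/-- reproducing formula for the coefficients -/
theorem coef_repro {F : ℝ → ℂ} (hF : Measurable F) {M : ℝ} (hM : ∀ x, ‖F x‖ ≤ M) (l : ℕ)
    (i : ℤ) (ξ : ℝ) : coef F ξ l i = ∫ η, coef F η l i * kw l i (ξ - η) := by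
  have h1 := repro (integrable_rst hF hM l i) l i ξ
  have h2 : ∫ y, rst F l i y * ww l i y * e (-ξ) y = ∫ y, rst F l i y * e (-ξ) y := by
    refine integral_congr_ae (Eventually.of_forall fun y => ?_)
    simp only
    by_cases hy : y ∈ Ivl l i
    · have h3 : ww l i y = 1 := by
        unfold ww
        have h4 := mem_Ivl.1 hy
        unfold fl at h4
        have h5 := Int.floor_le ((2 : ℝ) ^ l * y)
        have h6 := Int.lt_floor_add_one ((2 : ℝ) ^ l * y)
        rw [h4] at h5 h6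
        apply wf_one <;> linarith
      rw [h3, mul_one]
    · unfold rst
      rw [indicator_of_notMem hy]
      simp
  rw [h2, int_rst] at h1
  simp_rw [int_rst] at h1
  have h3 : ∫ η, ((2 : ℂ) ^ l)⁻¹ * coef F η l i * kw l i (ξ - η) =
      ((2 : ℂ) ^ l)⁻¹ * ∫ η, coef F η l i * kw l i (ξ - η) := by
    rw [← integral_const_mul]
    refine integral_congr_ae (Eventually.of_forall fun y => ?_)
    simp only
    ring
  rw [h3] at h1
  exact (mul_left_cancel₀ (inv_ne_zero (pow_ne_zero _ two_ne_zero)) h1).symm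

/-- **one node**: truncation of the Fourier transform at height `a` -/
theorem node_split {F : ℝ → ℂ} (hF : Measurable F) {M : ℝ} (hM : ∀ x, ‖F x‖ ≤ M) (l : ℕ)
    (i : ℤ) {a : ℝ} (ha : 0 < a) :
    ∃ g : ℝ → ℂ, Measurable g ∧ (∃ M', ∀ x, ‖g x‖ ≤ M') ∧
      (∀ y : ℝ, (2 ^ l * y - i ≤ -(1 / 2) ∨ 3 / 2 ≤ 2 ^ l * y - i) → g y = 0) ∧
      ∫⁻ y, ‖g y‖ₑ ^ 2 ≤ ENNReal.ofReal ((((2 : ℝ) ^ l)⁻¹) ^ 2) *
        ∫⁻ ξ in {ξ | a ≤ ‖coef F ξ l i‖}, ‖coef F ξ l i‖ₑ ^ 2 ∧
      ∀ ξ, ‖((2 : ℂ) ^ l)⁻¹ * coef F ξ l i - ∫ y, g y * e (-ξ) y‖ ≤ A0 * (((2 : ℝ) ^ l)⁻¹ * a) := by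
  have hM0 : 0 ≤ M := (norm_nonneg _).trans (hM 0)
  have h2l : (0 : ℝ) < 2 ^ l := by positivity
  set u : ℝ → ℂ := fun η => ((2 : ℂ) ^ l)⁻¹ * coef F η l i with hu
  have hcc := continuous_coef hF hM l i
  have huc : Continuous u := continuous_const.mul hcc
  have hnu : ∀ η, ‖u η‖ = ((2 : ℝ) ^ l)⁻¹ * ‖coef F η l i‖ := by
    intro η
    rw [hu]
    simp only [norm_mul, norm_inv, norm_pow, Complex.norm_ofNat]
  have hu2 : MemLp u 2 := by
    have h1 := Crest.Agent.R138.Fq665.fourier_ae_eq (integrable_rst hF hM l i) (memLp_rst hF hM l i)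
    have h2 := Lp.memLp (𝓕 ((memLp_rst hF hM l i).toLp (rst F l i)) : Lp ℂ 2 (volume : Measure ℝ))
    have h3 := (memLp_congr_ae h1).1 h2
    have h4 : 𝓕 (rst F l i) = u := by
      ext ξ; rw [fourier_rst]
    rwa [h4] at h3
  set S : Set ℝ := {ξ | a ≤ ‖coef F ξ l i‖} with hS
  have hSm : MeasurableSet S := (isClosed_le continuous_const hcc.norm).measurableSet
  set v : ℝ → ℂ := S.indicator u with hv
  have hvm : MemLp v 2 := hu2.indicator hSm
  set h : ℝ := ((2 : ℝ) ^ l)⁻¹ * a with hh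
  have hh0 : 0 < h := by positivity
  have hvi : Integrable v := by
    have h1 : Integrable (fun η => ‖u η‖ ^ 2) := (memLp_two_iff_integrable_sq_norm
      huc.aestronglyMeasurable).1 hu2
    refine (h1.const_mul h⁻¹).mono' (huc.aestronglyMeasurable.indicator hSm)
      (Eventually.of_forall fun η => ?_)
    simp only [hv]
    by_cases hη : η ∈ S
    · rw [indicator_of_mem hη]
      have h3 : h ≤ ‖u η‖ := by
        rw [hnu, hh]
        gcongr
        exact hη
      rw [inv_mul_eq_div, le_div_iff₀ hh0, sq]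
      exact mul_le_mul_of_nonneg_left h3 (norm_nonneg _)
    · rw [indicator_of_notMem hη, norm_zero]; positivity
  have hinv : ∀ y, ∫ η, v η * e η y = 𝓕⁻ v y := by
    intro y
    rw [Real.fourierInv_eq']
    refine integral_congr_ae (Eventually.of_forall fun ζ => ?_)
    simp only [smul_eq_mul, e]
    rw [mul_comm]
    congr 2
    simp
    ring
  have hgc : Continuous fun y => ∫ η, v η * e η y := by
    have h1 : Continuous (𝓕 v) := by
      simpa using! VectorFourier.fourierIntegral_continuous (V := ℝ) (W := ℝ)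
        Real.continuous_fourierChar (L := innerₗ ℝ) continuous_inner hvi
    have h2 : (fun y => ∫ η, v η * e η y) = fun y => 𝓕 v (-y) := by
      ext y; rw [hinv, Real.fourierInv_eq_fourier_neg]
    rw [h2]
    exact h1.comp continuous_neg
  have hgb : ∀ y, ‖∫ η, v η * e η y‖ ≤ ∫ η, ‖v η‖ := by
    intro y
    refine (norm_integral_le_integral_norm _).trans (le_of_eq ?_)
    congr 1; ext η; rw [norm_mul, norm_e, mul_one]
  refine ⟨fun y => ww l i y * ∫ η, v η * e η y, ((continuous_ww l i).mul hgc).measurable,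
    ⟨∫ η, ‖v η‖, fun y => ?_⟩, fun y hy => ?_, ?_, fun ξ => ?_⟩
  · rw [norm_mul]
    calc ‖ww l i y‖ * ‖∫ η, v η * e η y‖ ≤ 1 * ∫ η, ‖v η‖ :=
          mul_le_mul (norm_ww_le _ _ _) (hgb y) (norm_nonneg _) zero_le_one
      _ = _ := one_mul _
  · have : ww l i y = 0 := wf_zero hy
    simp only [this, zero_mul]
  · calc ∫⁻ y, ‖ww l i y * ∫ η, v η * e η y‖ₑ ^ 2 ≤ ∫⁻ y, ‖𝓕⁻ v y‖ₑ ^ 2 := by
          refine lintegral_mono fun y => ?_
          simp only
          rw [enorm_mul, hinv]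
          have h1 : ‖ww l i y‖ₑ ≤ 1 := by
            rw [← ofReal_norm, ← ENNReal.ofReal_one]
            exact ENNReal.ofReal_le_ofReal (norm_ww_le _ _ _)
          gcongr
          calc ‖ww l i y‖ₑ * ‖𝓕⁻ v y‖ₑ ≤ 1 * ‖𝓕⁻ v y‖ₑ := by gcongr
            _ = _ := one_mul _
      _ = ∫⁻ η, ‖v η‖ₑ ^ 2 := Crest.Agent.R138.Fq665.plancherel_inv hvi hvm
      _ = ∫⁻ η in S, ‖u η‖ₑ ^ 2 := by
          rw [← lintegral_indicator hSm]
          refine lintegral_congr fun η => ?_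
          simp only [hv]
          by_cases hη : η ∈ S
          · rw [indicator_of_mem hη, indicator_of_mem hη]
          · rw [indicator_of_notMem hη, indicator_of_notMem hη]; simp
      _ = ∫⁻ η in S, ENNReal.ofReal ((((2 : ℝ) ^ l)⁻¹) ^ 2) * ‖coef F η l i‖ₑ ^ 2 := by
          refine lintegral_congr fun η => ?_
          rw [← ofReal_norm, hnu, ← ofReal_norm, ENNReal.ofReal_mul (by positivity), mul_pow,
            ENNReal.ofReal_pow (by positivity)]
      _ = _ := lintegral_const_mul' _ _ ENNReal.ofReal_ne_top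
  · rw [synth hvi, coef_repro hF hM l i ξ, ← integral_const_mul]
    have hk : Integrable (fun η => kw l i (ξ - η)) := (integrable_kw l i).comp_sub_left ξ
    have i1 : Integrable fun η => u η * kw l i (ξ - η) := by
      refine hk.bdd_mul (c := ((2 : ℝ) ^ l)⁻¹ * M) huc.aestronglyMeasurable
        (Eventually.of_forall fun η => ?_)
      rw [hnu]
      gcongr
      exact coef_le hM η l i
    have i2 : Integrable fun η => v η * kw l i (ξ - η) := by
      refine hk.bdd_mul (c := ((2 : ℝ) ^ l)⁻¹ * M) (huc.aestronglyMeasurable.indicator hSm)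
        (Eventually.of_forall fun η => ?_)
      simp only [hv]
      by_cases hη : η ∈ S
      · rw [indicator_of_mem hη, hnu]
        gcongr
        exact coef_le hM η l i
      · rw [indicator_of_notMem hη, norm_zero]; positivity
    have e1 : ∫ η, ((2 : ℂ) ^ l)⁻¹ * (coef F η l i * kw l i (ξ - η)) =
        ∫ η, u η * kw l i (ξ - η) := by
      refine integral_congr_ae (Eventually.of_forall fun η => ?_)
      simp only [hu]
      ring
    rw [e1, ← integral_sub i1 i2]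
    calc ‖∫ η, (u η * kw l i (ξ - η) - v η * kw l i (ξ - η))‖
        ≤ ∫ η, h * ‖kw l i (ξ - η)‖ := by
          apply norm_integral_le_of_norm_le (hk.norm.const_mul h)
          refine Eventually.of_forall fun η => ?_
          rw [← sub_mul, norm_mul]
          gcongr
          simp only [hv]
          by_cases hη : η ∈ S
          · rw [indicator_of_mem hη, sub_self, norm_zero]; exact hh0.le
          · rw [indicator_of_notMem hη, sub_zero, hnu, hh]
            have : ‖coef F η l i‖ ≤ a := by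
              simp only [hS, mem_ofPred_eq, not_le] at hη
              exact hη.le
            gcongr
      _ = A0 * h := by
          rw [integral_const_mul, integral_sub_left_eq_self (fun ζ => ‖kw l i ζ‖) volume ξ,
            integral_norm_kw]
          ring

/-! ## sup bound and Chebyshev -/

theorem measurable_coef {F : ℝ → ℂ} (hF : Measurable F) {M : ℝ} (hM : ∀ x, ‖F x‖ ≤ M) (l : ℕ)
    (i : ℤ) : Measurable fun ξ => coef F ξ l i := (continuous_coef hF hM l i).measurable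

/-- the sup norm is bounded by the `L^p` norm -/
theorem coef_le_of_energy {F : ℝ → ℂ} (hF : Measurable F) {M : ℝ} (hM : ∀ x, ‖F x‖ ≤ M) {p : ℝ}
    (hp : 2 ≤ p) {W : ℝ} (hW : 0 ≤ W) (l : ℕ) (i : ℤ)
    (h : ∫⁻ ξ, ‖coef F ξ l i‖ₑ ^ p ≤ ENNReal.ofReal (2 ^ l * W ^ p)) (ξ : ℝ) :
    ‖coef F ξ l i‖ ≤ 2 * A0 * W := by
  have hp0 : 0 < p := by linarith
  have hp1 : 1 < p := by linarith
  have h2l : (0 : ℝ) < 2 ^ l := by positivity
  set q : ℝ := p.conjExponent with hq
  have hpq : p.HolderConjugate q := Real.HolderConjugate.conjExponent hp1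
  set f : ℝ → ℝ≥0∞ := fun η => ‖coef F η l i‖ₑ with hf
  set K : ℝ → ℝ≥0∞ := fun η => ‖kw l i (ξ - η)‖ₑ with hK
  have hfm : Measurable f := (measurable_coef hF hM l i).enorm
  have hKm : Measurable K := ((continuous_kw l i).comp (continuous_const.sub continuous_id)).measurable.enorm
  have hKint : ∫⁻ η, K η = ENNReal.ofReal A0 := by
    have h1 : Integrable (fun η => kw l i (ξ - η)) := (integrable_kw l i).comp_sub_left ξ
    have h2 := ofReal_integral_norm_eq_lintegral_enorm h1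
    rw [hK, ← h2, integral_sub_left_eq_self (fun ζ => ‖kw l i ζ‖) volume ξ, integral_norm_kw]
  have h1 : f ξ ≤ ∫⁻ η, f η * K η := by
    rw [hf]
    simp only
    rw [coef_repro hF hM l i ξ]
    refine (enorm_integral_le_lintegral_enorm _).trans (le_of_eq ?_)
    refine lintegral_congr fun η => ?_
    rw [enorm_mul]
  have h2 : ∫⁻ η, f η * K η ≤ (∫⁻ η, f η ^ p * K η) ^ (1 / p) * (∫⁻ η, K η) ^ (1 / q) := by
    have h3 := ENNReal.lintegral_mul_le_Lp_mul_Lq volume hpq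
      (f := fun η => f η * K η ^ (1 / p)) (g := fun η => K η ^ (1 / q))
      (hfm.mul (hKm.pow_const _)).aemeasurable (hKm.pow_const _).aemeasurable
    have e1 : ∀ η, ((fun η => f η * K η ^ (1 / p)) * fun η => K η ^ (1 / q)) η = f η * K η := by
      intro η
      simp only [Pi.mul_apply]
      rw [mul_assoc, ← ENNReal.rpow_add_of_nonneg _ _ (by positivity) (by
        have := hpq.symm.pos; positivity)]
      have : 1 / p + 1 / q = 1 := by
        have := hpq.inv_add_inv_eq_one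
        simpa [one_div] using this
      rw [this, ENNReal.rpow_one]
    have e2 : ∀ η, (f η * K η ^ (1 / p)) ^ p = f η ^ p * K η := by
      intro η
      rw [ENNReal.mul_rpow_of_nonneg _ _ hp0.le, ← ENNReal.rpow_mul, one_div,
        inv_mul_cancel₀ hp0.ne', ENNReal.rpow_one]
    have e3 : ∀ η, (K η ^ (1 / q)) ^ q = K η := by
      intro η
      have hq0 := hpq.symm.pos
      rw [← ENNReal.rpow_mul, one_div, inv_mul_cancel₀ hq0.ne', ENNReal.rpow_one]
    simp only [e1, e2, e3] at h3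
    exact h3
  have h3 : ∫⁻ η, f η ^ p * K η ≤ ENNReal.ofReal (2 * W ^ p) := by
    calc ∫⁻ η, f η ^ p * K η ≤ ∫⁻ η, f η ^ p * ENNReal.ofReal (((2 : ℝ) ^ l)⁻¹ * 2) := by
          refine lintegral_mono fun η => ?_
          simp only
          gcongr
          rw [hK]
          simp only
          rw [← ofReal_norm]
          exact ENNReal.ofReal_le_ofReal (norm_kw_le _ _ _)
      _ = (∫⁻ η, f η ^ p) * ENNReal.ofReal (((2 : ℝ) ^ l)⁻¹ * 2) :=
          lintegral_mul_const' _ _ ENNReal.ofReal_ne_top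
      _ ≤ ENNReal.ofReal (2 ^ l * W ^ p) * ENNReal.ofReal (((2 : ℝ) ^ l)⁻¹ * 2) := by
          gcongr
      _ = ENNReal.ofReal (2 * W ^ p) := by
          rw [← ENNReal.ofReal_mul (by positivity)]
          congr 1
          field_simp
  have h4 : f ξ ^ p ≤ ENNReal.ofReal ((2 * A0 * W) ^ p) := by
    calc f ξ ^ p ≤ ((∫⁻ η, f η ^ p * K η) ^ (1 / p) * (∫⁻ η, K η) ^ (1 / q)) ^ p :=
          ENNReal.rpow_le_rpow (h1.trans h2) hp0.le
      _ = (∫⁻ η, f η ^ p * K η) * (∫⁻ η, K η) ^ (p - 1) := by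
          rw [ENNReal.mul_rpow_of_nonneg _ _ hp0.le, ← ENNReal.rpow_mul, one_div,
            inv_mul_cancel₀ hp0.ne', ENNReal.rpow_one, ← ENNReal.rpow_mul]
          congr 2
          have := hpq.inv_add_inv_eq_one
          have hq0 := hpq.symm.pos
          field_simp at this ⊢
          linarith
      _ ≤ ENNReal.ofReal (2 * W ^ p) * ENNReal.ofReal A0 ^ (p - 1) := by
          rw [hKint]
          gcongr
      _ = ENNReal.ofReal (2 * W ^ p * A0 ^ (p - 1)) := by
          rw [ENNReal.ofReal_rpow_of_nonneg A0_pos.le (by linarith), ← ENNReal.ofReal_mul (by positivity)]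
      _ ≤ _ := by
          apply ENNReal.ofReal_le_ofReal
          have e1 : (2 * A0 * W) ^ p = 2 ^ p * A0 ^ p * W ^ p := by
            rw [Real.mul_rpow (by have := A0_pos; positivity) hW, Real.mul_rpow (by norm_num) A0_pos.le]
          rw [e1]
          have e2 : (2 : ℝ) ≤ 2 ^ p := by
            calc (2 : ℝ) = 2 ^ (1 : ℝ) := (Real.rpow_one 2).symm
              _ ≤ _ := Real.rpow_le_rpow_of_exponent_le (by norm_num) hp1.le
          have e3 : A0 ^ (p - 1) ≤ A0 ^ p :=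
            Real.rpow_le_rpow_of_exponent_le one_le_A0 (by linarith)
          have e4 : 0 ≤ W ^ p := Real.rpow_nonneg hW p
          have e5 : 0 ≤ A0 ^ (p - 1) := Real.rpow_nonneg A0_pos.le _
          calc 2 * W ^ p * A0 ^ (p - 1) = 2 * A0 ^ (p - 1) * W ^ p := by ring
            _ ≤ 2 ^ p * A0 ^ p * W ^ p := by gcongr
  have h5 : f ξ ≤ ENNReal.ofReal (2 * A0 * W) := by
    rw [← ENNReal.ofReal_rpow_of_nonneg (by have := A0_pos; positivity) hp0.le] at h4
    exact (ENNReal.rpow_le_rpow_iff hp0).1 h4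
  rw [hf] at h5
  simp only at h5
  rw [← ofReal_norm] at h5
  exact (ENNReal.ofReal_le_ofReal_iff (by have := A0_pos; positivity)).1 h5

/-- Chebyshev -/
theorem cheb {F : ℝ → ℂ} (hF : Measurable F) {M : ℝ} (hM : ∀ x, ‖F x‖ ≤ M) {p : ℝ} (hp : 2 ≤ p)
    {W : ℝ} (hW : 0 ≤ W) (l : ℕ) (i : ℤ) {a : ℝ}
    (ha : 0 < a) (h : ∫⁻ ξ, ‖coef F ξ l i‖ₑ ^ p ≤ ENNReal.ofReal (2 ^ l * W ^ p)) :
    ENNReal.ofReal ((((2 : ℝ) ^ l)⁻¹) ^ 2) *
        ∫⁻ ξ in {ξ | a ≤ ‖coef F ξ l i‖}, ‖coef F ξ l i‖ₑ ^ 2 ≤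
      ENNReal.ofReal (((2 : ℝ) ^ l)⁻¹ * (a ^ 2 * (W / a) ^ p)) := by
  have hSm : MeasurableSet {ξ | a ≤ ‖coef F ξ l i‖} :=
    (isClosed_le continuous_const (continuous_coef hF hM l i).norm).measurableSet
  have h1 : ∫⁻ ξ in {ξ | a ≤ ‖coef F ξ l i‖}, ‖coef F ξ l i‖ₑ ^ 2 ≤
      ENNReal.ofReal (a ^ (2 - p)) * ENNReal.ofReal (2 ^ l * W ^ p) := by
    calc ∫⁻ ξ in {ξ | a ≤ ‖coef F ξ l i‖}, ‖coef F ξ l i‖ₑ ^ 2
        ≤ ∫⁻ ξ in {ξ | a ≤ ‖coef F ξ l i‖}, ENNReal.ofReal (a ^ (2 - p)) * ‖coef F ξ l i‖ₑ ^ p := by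
          refine setLIntegral_mono' hSm fun ξ hξ => ?_
          have hx : a ≤ ‖coef F ξ l i‖ := hξ
          have hx0 : 0 < ‖coef F ξ l i‖ := ha.trans_le hx
          rw [← ofReal_norm, ENNReal.ofReal_rpow_of_pos hx0, ← ENNReal.ofReal_mul (by positivity),
            ← ENNReal.ofReal_pow (norm_nonneg _)]
          apply ENNReal.ofReal_le_ofReal
          have e1 : ‖coef F ξ l i‖ ^ 2 = ‖coef F ξ l i‖ ^ (2 - p) * ‖coef F ξ l i‖ ^ p := by
            rw [← Real.rpow_add hx0, ← Real.rpow_natCast]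
            congr 1
            push_cast; ring
          rw [e1]
          have e2 : ‖coef F ξ l i‖ ^ (2 - p) ≤ a ^ (2 - p) :=
            Real.rpow_le_rpow_of_nonpos ha hx (by linarith)
          gcongr
      _ = ENNReal.ofReal (a ^ (2 - p)) *
            ∫⁻ ξ in {ξ | a ≤ ‖coef F ξ l i‖}, ‖coef F ξ l i‖ₑ ^ p :=
          lintegral_const_mul' _ _ ENNReal.ofReal_ne_top
      _ ≤ _ := by
          gcongr
          exact (setLIntegral_le_lintegral _ _).trans h
  calc _ ≤ ENNReal.ofReal ((((2 : ℝ) ^ l)⁻¹) ^ 2) *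
        (ENNReal.ofReal (a ^ (2 - p)) * ENNReal.ofReal (2 ^ l * W ^ p)) := by gcongr
    _ = _ := by
        rw [← ENNReal.ofReal_mul (by positivity), ← ENNReal.ofReal_mul (by positivity)]
        congr 1
        rw [Real.div_rpow hW ha.le]
        have e1 : a ^ (2 - p) = a ^ 2 / a ^ p := by
          rw [Real.rpow_sub ha]
          congr 1
          norm_num
        rw [e1]
        field_simp

/-! ## the two chains of Whitney nodes -/

theorem chainL {a : ℕ → ℤ → ℂ} (ha : IsMart a) (l : ℕ) (i : ℤ) (d : ℕ) :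
    a l i = ∑ s ∈ Finset.range d, ((2 : ℂ) ^ (s + 1))⁻¹ * a (l + s + 1) (2 ^ (s + 1) * i + 1) +
      ((2 : ℂ) ^ d)⁻¹ * a (l + d) (2 ^ d * i) := by
  induction d with
  | zero => simp
  | succ d ih =>
    rw [Finset.sum_range_succ, ih, add_assoc]
    congr 1
    rw [ha (l + d) (2 ^ d * i)]
    have e1 : (2 : ℤ) * (2 ^ d * i) = 2 ^ (d + 1) * i := by ring
    rw [e1]
    have h2 : (2 : ℂ) ^ d ≠ 0 := pow_ne_zero _ two_ne_zero
    have e2 : l + (d + 1) = l + d + 1 := by ring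
    rw [e2]
    rw [pow_succ]
    field_simp
    ring

theorem chainR {a : ℕ → ℤ → ℂ} (ha : IsMart a) (l : ℕ) (i : ℤ) (d : ℕ) :
    a l i = ∑ s ∈ Finset.range d,
        ((2 : ℂ) ^ (s + 1))⁻¹ * a (l + s + 1) (2 ^ (s + 1) * i + 2 ^ (s + 1) - 2) +
      ((2 : ℂ) ^ d)⁻¹ * a (l + d) (2 ^ d * i + 2 ^ d - 1) := by
  induction d with
  | zero => simp
  | succ d ih =>
    rw [Finset.sum_range_succ, ih, add_assoc]
    congr 1
    rw [ha (l + d) (2 ^ d * i + 2 ^ d - 1)]
    have e1 : (2 : ℤ) * (2 ^ d * i + 2 ^ d - 1) = 2 ^ (d + 1) * i + 2 ^ (d + 1) - 2 := by ring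
    have e3 : (2 : ℤ) ^ (d + 1) * i + 2 ^ (d + 1) - 2 + 1 = 2 ^ (d + 1) * i + 2 ^ (d + 1) - 1 := by
      ring
    rw [e1, e3]
    have h2 : (2 : ℂ) ^ d ≠ 0 := pow_ne_zero _ two_ne_zero
    have e2 : l + (d + 1) = l + d + 1 := by ring
    rw [e2]
    have e4 : ((2 : ℂ) ^ (d + 1))⁻¹ = ((2 : ℂ) ^ d)⁻¹ / 2 := by
      rw [pow_succ]; field_simp
    rw [e4]
    ring

/-! ## the splitting -/

/-- the threshold at depth `s` -/
def th (α : ℝ) (s : ℕ) : ℝ := (16 * A0)⁻¹ * α * (3 / 2) ^ s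

theorem th_pos {α : ℝ} (hα : 0 < α) (s : ℕ) : 0 < th α s := by
  unfold th
  have := A0_pos
  positivity

theorem sum_geo (r : ℝ) (hr0 : 0 ≤ r) (hr : r < 1) (d : ℕ) : ∑ s ∈ Finset.range d, r ^ s ≤ (1 - r)⁻¹ :=
  (summable_geometric_of_lt_one hr0 hr).sum_le_tsum _ (fun _ _ => by positivity) |>.trans
    (le_of_eq (tsum_geometric_of_lt_one hr0 hr))

theorem th_energy {p : ℝ} (hp : 2 ≤ p) {W α : ℝ} (hW : 0 ≤ W) (hα : 0 < α) (s : ℕ) :
    th α s ^ 2 * (W / th α s) ^ p ≤ th α 0 ^ 2 * (W / th α 0) ^ p := by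
  have h0 := th_pos hα 0
  have hs := th_pos hα s
  have h1 : th α 0 ≤ th α s := by
    unfold th
    have := A0_pos
    have h3 : (1 : ℝ) ≤ (3 / 2) ^ s := one_le_pow₀ (by norm_num)
    rw [pow_zero]
    gcongr
  have e : ∀ a : ℝ, 0 < a → a ^ 2 * (W / a) ^ p = a ^ (2 - p) * W ^ p := by
    intro a ha
    rw [Real.div_rpow hW ha.le, Real.rpow_sub ha]
    have : a ^ (2 : ℝ) = a ^ 2 := by norm_num
    rw [this]
    field_simp
  rw [e _ hs, e _ h0]
  have h2 : th α s ^ (2 - p) ≤ th α 0 ^ (2 - p) :=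
    Real.rpow_le_rpow_of_nonpos h0 h1 (by linarith)
  have h3 : 0 ≤ W ^ p := Real.rpow_nonneg hW p
  gcongr

/-- **SPLIT**. -/
theorem split {F : ℝ → ℂ} (hF : Measurable F) {M : ℝ} (hM : ∀ x, ‖F x‖ ≤ M) {p : ℝ}
    (hp : 2 ≤ p) {W α : ℝ} (hW0 : 0 ≤ W) (hα : 0 < α) (k : ℕ) (j : ℤ) (d : ℕ)
    (hW : ∀ s ≤ d + 1, ∀ i : ℤ, i / 2 ^ s = j →
      ∫⁻ ξ, ‖coef F ξ (k + s) i‖ₑ ^ p ≤ ENNReal.ofReal (2 ^ (k + s) * W ^ p))
    (hd : 16 * A0 * W ≤ α * 2 ^ d) :
    ∃ G : ℝ → ℂ, Measurable G ∧ (∃ M', ∀ x, ‖G x‖ ≤ M') ∧ (∀ y, y ∉ Ivl k j → G y = 0) ∧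
      ∫⁻ y, ‖G y‖ₑ ^ 2 ≤
        ENNReal.ofReal (24 * (((2 : ℝ) ^ k)⁻¹ * (th α 0 ^ 2 * (W / th α 0) ^ p))) ∧
      ∀ ξ, ‖coef F ξ k j - coef G ξ k j‖ ≤ α / 4 := by
  classical
  have hA0 := A0_pos
  -- the nodes
  have hL : ∀ s, ∃ g : ℝ → ℂ, Measurable g ∧ (∃ M', ∀ x, ‖g x‖ ≤ M') ∧
      (∀ y : ℝ, (2 ^ (k + s + 2) * y - ((2 ^ (s + 2) * j + 1 : ℤ) : ℝ) ≤ -(1 / 2) ∨
        3 / 2 ≤ 2 ^ (k + s + 2) * y - ((2 ^ (s + 2) * j + 1 : ℤ) : ℝ)) → g y = 0) ∧
      ∫⁻ y, ‖g y‖ₑ ^ 2 ≤ ENNReal.ofReal ((((2 : ℝ) ^ (k + s + 2))⁻¹) ^ 2) *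
        ∫⁻ ξ in {ξ | th α s ≤ ‖coef F ξ (k + s + 2) (2 ^ (s + 2) * j + 1)‖},
          ‖coef F ξ (k + s + 2) (2 ^ (s + 2) * j + 1)‖ₑ ^ 2 ∧
      ∀ ξ, ‖((2 : ℂ) ^ (k + s + 2))⁻¹ * coef F ξ (k + s + 2) (2 ^ (s + 2) * j + 1) -
        ∫ y, g y * e (-ξ) y‖ ≤ A0 * (((2 : ℝ) ^ (k + s + 2))⁻¹ * th α s) := fun s =>
    node_split hF hM (k + s + 2) (2 ^ (s + 2) * j + 1) (th_pos hα s)
  have hR : ∀ s, ∃ g : ℝ → ℂ, Measurable g ∧ (∃ M', ∀ x, ‖g x‖ ≤ M') ∧
      (∀ y : ℝ, (2 ^ (k + s + 2) * y - ((2 ^ (s + 2) * j + 2 ^ (s + 2) - 2 : ℤ) : ℝ) ≤ -(1 / 2) ∨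
        3 / 2 ≤ 2 ^ (k + s + 2) * y - ((2 ^ (s + 2) * j + 2 ^ (s + 2) - 2 : ℤ) : ℝ)) → g y = 0) ∧
      ∫⁻ y, ‖g y‖ₑ ^ 2 ≤ ENNReal.ofReal ((((2 : ℝ) ^ (k + s + 2))⁻¹) ^ 2) *
        ∫⁻ ξ in {ξ | th α s ≤ ‖coef F ξ (k + s + 2) (2 ^ (s + 2) * j + 2 ^ (s + 2) - 2)‖},
          ‖coef F ξ (k + s + 2) (2 ^ (s + 2) * j + 2 ^ (s + 2) - 2)‖ₑ ^ 2 ∧
      ∀ ξ, ‖((2 : ℂ) ^ (k + s + 2))⁻¹ *
          coef F ξ (k + s + 2) (2 ^ (s + 2) * j + 2 ^ (s + 2) - 2) -
        ∫ y, g y * e (-ξ) y‖ ≤ A0 * (((2 : ℝ) ^ (k + s + 2))⁻¹ * th α s) := fun s =>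
    node_split hF hM (k + s + 2) (2 ^ (s + 2) * j + 2 ^ (s + 2) - 2) (th_pos hα s)
  choose gL gLm gLb gLs gLe gLc using hL
  choose gR gRm gRb gRs gRe gRc using hR
  choose ML hML using gLb
  choose MR hMR using gRb
  set X : ℝ := th α 0 ^ 2 * (W / th α 0) ^ p with hX
  have hX0 : 0 ≤ X := by
    have := Real.rpow_nonneg (div_nonneg hW0 (th_pos hα 0).le) p
    positivity
  -- energies
  have div_help : ∀ (s : ℕ) (r : ℤ), 0 ≤ r → r < 2 ^ (s + 2) → (2 ^ (s + 2) * j + r) / 2 ^ (s + 2) = j := by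
    intro s r h0 h1
    rw [add_comm, Int.add_mul_ediv_left _ _ (by positivity), Int.ediv_eq_zero_of_lt h0 h1, zero_add]
  have four_le : ∀ s : ℕ, (4 : ℤ) ≤ 2 ^ (s + 2) := by
    intro s
    have : (1 : ℤ) ≤ 2 ^ s := one_le_pow₀ (by norm_num)
    rw [pow_add]; linarith
  have eL : ∀ s, s + 2 ≤ d + 1 → ∫⁻ y, ‖gL s y‖ₑ ^ 2 ≤
      ENNReal.ofReal (((2 : ℝ) ^ (k + s + 2))⁻¹ * X) := by
    intro s hs
    refine (gLe s).trans ((cheb hF hM hp hW0 _ _ (th_pos hα s) ?_).trans ?_)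
    · have := hW (s + 2) hs (2 ^ (s + 2) * j + 1) (div_help s 1 (by norm_num)
        (by have := four_le s; linarith))
      rwa [← add_assoc] at this
    · apply ENNReal.ofReal_le_ofReal
      have := th_energy hp hW0 hα s
      gcongr
  have eR : ∀ s, s + 2 ≤ d + 1 → ∫⁻ y, ‖gR s y‖ₑ ^ 2 ≤
      ENNReal.ofReal (((2 : ℝ) ^ (k + s + 2))⁻¹ * X) := by
    intro s hs
    refine (gRe s).trans ((cheb hF hM hp hW0 _ _ (th_pos hα s) ?_).trans ?_)
    · have := hW (s + 2) hs (2 ^ (s + 2) * j + 2 ^ (s + 2) - 2) (by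
        rw [show (2 : ℤ) ^ (s + 2) * j + 2 ^ (s + 2) - 2 = 2 ^ (s + 2) * j + (2 ^ (s + 2) - 2) by ring]
        exact div_help s _ (by have := four_le s; linarith) (by linarith))
      rwa [← add_assoc] at this
    · apply ENNReal.ofReal_le_ofReal
      have := th_energy hp hW0 hα s
      gcongr
  set G : ℝ → ℂ := fun y => ∑ s ∈ Finset.range d, (gL s y + gR s y) with hG
  have hGm : Measurable G := Finset.measurable_sum _ fun s _ => (gLm s).add (gRm s)
  have hGb : ∀ x, ‖G x‖ ≤ ∑ s ∈ Finset.range d, (ML s + MR s) := by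
    intro x
    refine (norm_sum_le _ _).trans (Finset.sum_le_sum fun s _ => ?_)
    exact (norm_add_le _ _).trans (add_le_add (hML s x) (hMR s x))
  have hp2 : ∀ s : ℕ, (2 : ℝ) ^ (k + s + 2) = 2 ^ (s + 2) * 2 ^ k := by
    intro s; rw [← pow_add]; congr 1; ring
  have four_le' : ∀ s : ℕ, (4 : ℝ) ≤ 2 ^ (s + 2) := by
    intro s
    have : (1 : ℝ) ≤ 2 ^ s := one_le_pow₀ (by norm_num)
    rw [pow_add]; linarith
  have hout : ∀ y : ℝ, y ∉ Ivl k j → 2 ^ k * y < j ∨ (j : ℝ) + 1 ≤ 2 ^ k * y := by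
    intro y hy
    have h2k : (0 : ℝ) < 2 ^ k := by positivity
    by_contra hcon
    push Not at hcon
    apply hy
    rw [mem_Ivl]
    unfold fl
    rw [Int.floor_eq_iff]
    exact ⟨hcon.1, hcon.2⟩
  have hLz : ∀ s y, y ∉ Ivl k j → gL s y = 0 := by
    intro s y hy
    apply gLs
    have h4 := four_le' s
    have e1 : (2 : ℝ) ^ (k + s + 2) * y = 2 ^ (s + 2) * (2 ^ k * y) := by rw [hp2]; ring
    rw [e1]
    push_cast
    rcases hout y hy with h | h
    · left
      have : (2 : ℝ) ^ (s + 2) * (2 ^ k * y) ≤ 2 ^ (s + 2) * j := by gcongr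
      linarith
    · right
      have : (2 : ℝ) ^ (s + 2) * ((j : ℝ) + 1) ≤ 2 ^ (s + 2) * (2 ^ k * y) := by gcongr
      linarith
  have hRz : ∀ s y, y ∉ Ivl k j → gR s y = 0 := by
    intro s y hy
    apply gRs
    have h4 := four_le' s
    have e1 : (2 : ℝ) ^ (k + s + 2) * y = 2 ^ (s + 2) * (2 ^ k * y) := by rw [hp2]; ring
    rw [e1]
    push_cast
    rcases hout y hy with h | h
    · left
      have : (2 : ℝ) ^ (s + 2) * (2 ^ k * y) ≤ 2 ^ (s + 2) * j := by gcongr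
      linarith
    · right
      have : (2 : ℝ) ^ (s + 2) * ((j : ℝ) + 1) ≤ 2 ^ (s + 2) * (2 ^ k * y) := by gcongr
      linarith
  have hLi : ∀ s, IntegrableOn (gL s) (Ivl k j) := fun s => intOn k j (gLm s) (hML s)
  have hRi : ∀ s, IntegrableOn (gR s) (Ivl k j) := fun s => intOn k j (gRm s) (hMR s)
  refine ⟨G, hGm, ⟨_, hGb⟩, fun y hy => ?_, ?_, fun ξ => ?_⟩
  · simp only [hG]
    exact Finset.sum_eq_zero fun s _ => by rw [hLz s y hy, hRz s y hy, add_zero]
  · -- the `L²` bound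
    have hpt : ∀ y, ‖G y‖ₑ ^ 2 ≤ ∑ s ∈ Finset.range d,
        ENNReal.ofReal ((32 / 7) * (16 / 9) ^ s) * (‖gL s y‖ₑ ^ 2 + ‖gR s y‖ₑ ^ 2) := by
      intro y
      have h1 : ‖G y‖ ^ 2 ≤ ∑ s ∈ Finset.range d,
          ((32 / 7) * (16 / 9) ^ s) * (‖gL s y‖ ^ 2 + ‖gR s y‖ ^ 2) := by
        have h2 : ‖G y‖ ≤ ∑ s ∈ Finset.range d,
            (3 / 4 : ℝ) ^ s * ((4 / 3) ^ s * (‖gL s y‖ + ‖gR s y‖)) := by
          refine (norm_sum_le _ _).trans (Finset.sum_le_sum fun s _ => ?_)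
          rw [← mul_assoc, ← mul_pow]
          norm_num
          exact norm_add_le _ _
        have h3 := Finset.sum_mul_sq_le_sq_mul_sq (Finset.range d) (fun s => (3 / 4 : ℝ) ^ s)
          (fun s => (4 / 3) ^ s * (‖gL s y‖ + ‖gR s y‖))
        have h4 : ∑ s ∈ Finset.range d, ((3 / 4 : ℝ) ^ s) ^ 2 ≤ 16 / 7 := by
          have := sum_geo (9 / 16) (by norm_num) (by norm_num) d
          refine le_trans (le_of_eq ?_) (this.trans (by norm_num))
          refine Finset.sum_congr rfl fun s _ => ?_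
          rw [← pow_mul, mul_comm, pow_mul]; norm_num
        have h5 : (0 : ℝ) ≤ ∑ s ∈ Finset.range d, ((4 / 3 : ℝ) ^ s * (‖gL s y‖ + ‖gR s y‖)) ^ 2 :=
          Finset.sum_nonneg fun s _ => by positivity
        calc ‖G y‖ ^ 2 ≤ (∑ s ∈ Finset.range d,
              (3 / 4 : ℝ) ^ s * ((4 / 3) ^ s * (‖gL s y‖ + ‖gR s y‖))) ^ 2 := by gcongr
          _ ≤ _ := h3
          _ ≤ (16 / 7) * ∑ s ∈ Finset.range d, ((4 / 3 : ℝ) ^ s * (‖gL s y‖ + ‖gR s y‖)) ^ 2 := by
              gcongr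
          _ ≤ _ := by
              rw [Finset.mul_sum]
              refine Finset.sum_le_sum fun s _ => ?_
              have e1 : ((4 / 3 : ℝ) ^ s * (‖gL s y‖ + ‖gR s y‖)) ^ 2 =
                  (16 / 9) ^ s * (‖gL s y‖ + ‖gR s y‖) ^ 2 := by
                rw [mul_pow, ← pow_mul, mul_comm s 2, pow_mul]; norm_num
              rw [e1]
              have e2 : (‖gL s y‖ + ‖gR s y‖) ^ 2 ≤ 2 * (‖gL s y‖ ^ 2 + ‖gR s y‖ ^ 2) := by
                nlinarith [sq_nonneg (‖gL s y‖ - ‖gR s y‖)]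
              calc (16 / 7 : ℝ) * ((16 / 9) ^ s * (‖gL s y‖ + ‖gR s y‖) ^ 2)
                  ≤ (16 / 7 : ℝ) * ((16 / 9) ^ s * (2 * (‖gL s y‖ ^ 2 + ‖gR s y‖ ^ 2))) := by
                    gcongr
                _ = _ := by ring
      have e3 : ‖G y‖ₑ ^ 2 = ENNReal.ofReal (‖G y‖ ^ 2) := by
        rw [ENNReal.ofReal_pow (norm_nonneg _), ofReal_norm]
      rw [e3]
      refine (ENNReal.ofReal_le_ofReal h1).trans (le_of_eq ?_)
      rw [ENNReal.ofReal_sum_of_nonneg (fun s _ => by positivity)]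
      refine Finset.sum_congr rfl fun s _ => ?_
      rw [ENNReal.ofReal_mul (by positivity), ENNReal.ofReal_add (by positivity) (by positivity),
        ENNReal.ofReal_pow (norm_nonneg _), ENNReal.ofReal_pow (norm_nonneg _), ofReal_norm,
        ofReal_norm]
    calc ∫⁻ y, ‖G y‖ₑ ^ 2 ≤ ∫⁻ y, ∑ s ∈ Finset.range d,
          ENNReal.ofReal ((32 / 7) * (16 / 9) ^ s) * (‖gL s y‖ₑ ^ 2 + ‖gR s y‖ₑ ^ 2) :=
          lintegral_mono hpt
      _ = ∑ s ∈ Finset.range d, ENNReal.ofReal ((32 / 7) * (16 / 9) ^ s) *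
            ((∫⁻ y, ‖gL s y‖ₑ ^ 2) + ∫⁻ y, ‖gR s y‖ₑ ^ 2) := by
          rw [lintegral_finsetSum]
          · refine Finset.sum_congr rfl fun s _ => ?_
            rw [lintegral_const_mul' _ _ ENNReal.ofReal_ne_top,
              lintegral_add_left ((gLm s).enorm.pow_const 2)]
          · intro s _
            exact (((gLm s).enorm.pow_const 2).add ((gRm s).enorm.pow_const 2)).const_mul _
      _ ≤ ∑ s ∈ Finset.range d, ENNReal.ofReal ((32 / 7) * (16 / 9) ^ s) *
            (ENNReal.ofReal (((2 : ℝ) ^ (k + s + 2))⁻¹ * X) +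
              ENNReal.ofReal (((2 : ℝ) ^ (k + s + 2))⁻¹ * X)) := by
          refine Finset.sum_le_sum fun s hs => ?_
          have hs' : s + 2 ≤ d + 1 := by have := Finset.mem_range.1 hs; omega
          have := eL s hs'
          have := eR s hs'
          gcongr
      _ = ENNReal.ofReal (∑ s ∈ Finset.range d, (16 / 7) * (((2 : ℝ) ^ k)⁻¹ * X) * (8 / 9) ^ s) := by
          rw [ENNReal.ofReal_sum_of_nonneg (fun s _ => by positivity)]
          refine Finset.sum_congr rfl fun s _ => ?_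
          rw [← ENNReal.ofReal_add (by positivity) (by positivity),
            ← ENNReal.ofReal_mul (by positivity)]
          congr 1
          have e4 : (8 / 9 : ℝ) ^ s = (16 / 9) ^ s * ((2 : ℝ) ^ s)⁻¹ := by
            rw [← inv_pow, ← mul_pow]; norm_num
          rw [e4, pow_add, pow_add]
          field_simp
          ring
      _ ≤ _ := by
          apply ENNReal.ofReal_le_ofReal
          rw [← Finset.mul_sum]
          have h6 := sum_geo (8 / 9) (by norm_num) (by norm_num) d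
          have h7 : (1 - (8 / 9 : ℝ))⁻¹ = 9 := by norm_num
          rw [h7] at h6
          calc (16 / 7) * (((2 : ℝ) ^ k)⁻¹ * X) * ∑ s ∈ Finset.range d, (8 / 9 : ℝ) ^ s
              ≤ (16 / 7) * (((2 : ℝ) ^ k)⁻¹ * X) * 9 := by gcongr
            _ ≤ 24 * (((2 : ℝ) ^ k)⁻¹ * X) := by
                have : 0 ≤ ((2 : ℝ) ^ k)⁻¹ * X := by positivity
                linarith
  · -- the coefficients
    have hmart := isMart_coef hF hM ξ
    have c1 := chainL hmart (k + 1) (2 * j) d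
    have c2 := chainR hmart (k + 1) (2 * j + 1) d
    have c0 := hmart k j
    have nL : ∀ s, coef F ξ (k + 1 + s + 1) (2 ^ (s + 1) * (2 * j) + 1) =
        coef F ξ (k + s + 2) (2 ^ (s + 2) * j + 1) := by
      intro s
      congr 1
      · ring
      · ring
    have nR : ∀ s, coef F ξ (k + 1 + s + 1) (2 ^ (s + 1) * (2 * j + 1) + 2 ^ (s + 1) - 2) =
        coef F ξ (k + s + 2) (2 ^ (s + 2) * j + 2 ^ (s + 2) - 2) := by
      intro s
      congr 1
      · ring
      · ring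
    simp_rw [nL] at c1
    simp_rw [nR] at c2
    have h2k : (2 : ℂ) ^ k ≠ 0 := pow_ne_zero _ two_ne_zero
    -- coefficient of `G`
    have cG : coef G ξ k j = (2 : ℂ) ^ k * ∑ s ∈ Finset.range d,
        ((∫ y, gL s y * e (-ξ) y) + ∫ y, gR s y * e (-ξ) y) := by
      unfold coef
      congr 1
      have e1 : ∀ g : ℝ → ℂ, (∀ y, y ∉ Ivl k j → g y = 0) →
          ∫ y, g y * e (-ξ) y = ∫ y in Ivl k j, g y * e (-ξ) y := by
        intro g hg
        rw [setIntegral_eq_integral_of_forall_compl_eq_zero]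
        intro y hy
        rw [hg y hy, zero_mul]
      have e2 : ∀ s, (∫ y, gL s y * e (-ξ) y) = ∫ y in Ivl k j, gL s y * e (-ξ) y :=
        fun s => e1 _ (hLz s)
      have e3 : ∀ s, (∫ y, gR s y * e (-ξ) y) = ∫ y in Ivl k j, gR s y * e (-ξ) y :=
        fun s => e1 _ (hRz s)
      simp_rw [e2, e3]
      have i1 : ∀ s, IntegrableOn (fun y => gL s y * e (-ξ) y) (Ivl k j) := fun s =>
        integrable_fe (gLm s) (hML s) (-ξ) k j
      have i2 : ∀ s, IntegrableOn (fun y => gR s y * e (-ξ) y) (Ivl k j) := fun s =>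
        integrable_fe (gRm s) (hMR s) (-ξ) k j
      calc ∫ y in Ivl k j, G y * e (-ξ) y
          = ∫ y in Ivl k j, ∑ s ∈ Finset.range d, (gL s y * e (-ξ) y + gR s y * e (-ξ) y) := by
            congr 1
            ext y
            simp only [hG]
            rw [Finset.sum_mul]
            refine Finset.sum_congr rfl fun s _ => ?_
            ring
        _ = ∑ s ∈ Finset.range d, ∫ y in Ivl k j, (gL s y * e (-ξ) y + gR s y * e (-ξ) y) :=
            integral_finsetSum _ fun s _ => (i1 s).add (i2 s)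
        _ = _ := by
            refine Finset.sum_congr rfl fun s _ => ?_
            exact integral_add (i1 s) (i2 s)
    have key : coef F ξ k j - coef G ξ k j =
        (2 : ℂ) ^ k * ∑ s ∈ Finset.range d,
          ((((2 : ℂ) ^ (k + s + 2))⁻¹ * coef F ξ (k + s + 2) (2 ^ (s + 2) * j + 1) -
            ∫ y, gL s y * e (-ξ) y) +
          (((2 : ℂ) ^ (k + s + 2))⁻¹ * coef F ξ (k + s + 2) (2 ^ (s + 2) * j + 2 ^ (s + 2) - 2) -
            ∫ y, gR s y * e (-ξ) y)) +
        ((2 : ℂ) ^ (d + 1))⁻¹ * (coef F ξ (k + 1 + d) (2 ^ d * (2 * j)) +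
          coef F ξ (k + 1 + d) (2 ^ d * (2 * j + 1) + 2 ^ d - 1)) := by
      rw [c0, c1, c2, cG]
      have e5 : ∀ s : ℕ, ((2 : ℂ) ^ (s + 1))⁻¹ / 2 = (2 : ℂ) ^ k * ((2 : ℂ) ^ (k + s + 2))⁻¹ := by
        intro s
        have : (2 : ℂ) ^ (k + s + 2) = 2 ^ k * (2 ^ (s + 1) * 2) := by
          rw [← pow_succ, ← pow_add]
          congr 1
        rw [this]
        have : (2 : ℂ) ^ (s + 1) ≠ 0 := pow_ne_zero _ two_ne_zero
        field_simp
      have e6 : ((2 : ℂ) ^ d)⁻¹ / 2 = ((2 : ℂ) ^ (d + 1))⁻¹ := by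
        rw [pow_succ]; field_simp
      rw [← e6]
      simp only [Finset.sum_add_distrib, Finset.sum_sub_distrib, mul_add, mul_sub, Finset.mul_sum]
      have e7 : ∀ c : ℕ → ℂ, ∑ s ∈ Finset.range d, (2 : ℂ) ^ k * (((2 : ℂ) ^ (k + s + 2))⁻¹ * c s) =
          (∑ s ∈ Finset.range d, ((2 : ℂ) ^ (s + 1))⁻¹ * c s) / 2 := by
        intro c
        rw [Finset.sum_div]
        refine Finset.sum_congr rfl fun s _ => ?_
        rw [← mul_assoc, ← e5]
        ring
      rw [e7 (fun s => coef F ξ (k + s + 2) (2 ^ (s + 2) * j + 1)),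
        e7 (fun s => coef F ξ (k + s + 2) (2 ^ (s + 2) * j + 2 ^ (s + 2) - 2))]
      ring
    rw [key]
    have hEL : ‖coef F ξ (k + 1 + d) (2 ^ d * (2 * j))‖ ≤ 2 * A0 * W := by
      have hi : (2 ^ d * (2 * j) : ℤ) / 2 ^ (d + 1) = j := by
        rw [pow_succ, show (2 : ℤ) ^ d * (2 * j) = (2 ^ d * 2) * j by ring,
          Int.mul_ediv_cancel_left _ (by positivity)]
      have := hW (d + 1) le_rfl (2 ^ d * (2 * j)) hi
      have e8 : k + 1 + d = k + (d + 1) := by ring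
      rw [e8]
      exact coef_le_of_energy hF hM hp hW0 _ _ this ξ
    have hER : ‖coef F ξ (k + 1 + d) (2 ^ d * (2 * j + 1) + 2 ^ d - 1)‖ ≤ 2 * A0 * W := by
      have h2d : (1 : ℤ) ≤ 2 ^ d := one_le_pow₀ (by norm_num)
      have hi : (2 ^ d * (2 * j + 1) + 2 ^ d - 1 : ℤ) / 2 ^ (d + 1) = j := by
        rw [show (2 : ℤ) ^ d * (2 * j + 1) + 2 ^ d - 1 = (2 ^ (d + 1) - 1) + 2 ^ (d + 1) * j by ring,
          Int.add_mul_ediv_left _ _ (by positivity),
          Int.ediv_eq_zero_of_lt (by rw [pow_succ]; linarith) (by linarith), zero_add]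
      have := hW (d + 1) le_rfl (2 ^ d * (2 * j + 1) + 2 ^ d - 1) hi
      have e8 : k + 1 + d = k + (d + 1) := by ring
      rw [e8]
      exact coef_le_of_energy hF hM hp hW0 _ _ this ξ
    refine (norm_add_le _ _).trans ?_
    have hfirst : ‖(2 : ℂ) ^ k * ∑ s ∈ Finset.range d,
          ((((2 : ℂ) ^ (k + s + 2))⁻¹ * coef F ξ (k + s + 2) (2 ^ (s + 2) * j + 1) -
            ∫ y, gL s y * e (-ξ) y) +
          (((2 : ℂ) ^ (k + s + 2))⁻¹ * coef F ξ (k + s + 2) (2 ^ (s + 2) * j + 2 ^ (s + 2) - 2) -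
            ∫ y, gR s y * e (-ξ) y))‖ ≤ α / 8 := by
      rw [norm_mul, norm_pow, Complex.norm_ofNat]
      calc (2 : ℝ) ^ k * ‖∑ s ∈ Finset.range d, _‖
          ≤ (2 : ℝ) ^ k * ∑ s ∈ Finset.range d, (A0 * (((2 : ℝ) ^ (k + s + 2))⁻¹ * th α s) +
              A0 * (((2 : ℝ) ^ (k + s + 2))⁻¹ * th α s)) := by
            gcongr
            refine (norm_sum_le _ _).trans (Finset.sum_le_sum fun s _ => ?_)
            exact (norm_add_le _ _).trans (add_le_add (gLc s ξ) (gRc s ξ))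
        _ = (α / 32) * ∑ s ∈ Finset.range d, (3 / 4 : ℝ) ^ s := by
            rw [Finset.mul_sum, Finset.mul_sum]
            refine Finset.sum_congr rfl fun s _ => ?_
            unfold th
            have e4 : (3 / 4 : ℝ) ^ s = (3 / 2) ^ s * ((2 : ℝ) ^ s)⁻¹ := by
              rw [← inv_pow, ← mul_pow]; norm_num
            rw [e4, hp2, pow_add]
            field_simp
            ring
        _ ≤ (α / 32) * 4 := by
            have := sum_geo (3 / 4) (by norm_num) (by norm_num) d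
            gcongr
            exact this.trans (by norm_num)
        _ = α / 8 := by ring
    have hsecond : ‖((2 : ℂ) ^ (d + 1))⁻¹ * (coef F ξ (k + 1 + d) (2 ^ d * (2 * j)) +
          coef F ξ (k + 1 + d) (2 ^ d * (2 * j + 1) + 2 ^ d - 1))‖ ≤ α / 8 := by
      rw [norm_mul, norm_inv, norm_pow, Complex.norm_ofNat]
      calc ((2 : ℝ) ^ (d + 1))⁻¹ * ‖_ + _‖ ≤ ((2 : ℝ) ^ (d + 1))⁻¹ * (2 * A0 * W + 2 * A0 * W) := by
            gcongr
            exact (norm_add_le _ _).trans (add_le_add hEL hER)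
        _ ≤ α / 8 := by
            rw [inv_mul_le_iff₀ (by positivity), pow_succ]
            linarith
    linarith

end Crest.Agent.R100.Split43
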