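import Crest.Agent.R100.M7d_800

/-!
# R100 / S0132, THIN (helper800): Hunt's bound for functions of small mass, all density levels,
maximal truncations, parent-closed families of nodes.

`∫ |T_{θ(x)} g| ≤ C n √b`, `b = ∫ |g|`, for `|g| ≤ 2 ^ n`.
-/

set_option autoImplicit false

open MeasureTheory Set
open scoped ENNReal

noncomputable section

namespace Crest.Agent.R100.Thin800

open Crest.Agent.R100.Mart933 Crest.Agent.R100.Wide933 Crest.Agent.R100.Hunt933
open Crest.Agent.R100.Local933 Crest.Agent.R100.Haar403 Crest.Agent.R100.M7800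

theorem alive_eq_AL (f : ℝ → ℂ) : alive f = AL f 1 0 := by
  ext k j
  unfold alive AL
  constructor
  · intro h k' _ h2
    exact h k' h2
  · intro h k' h2
    exact h k' (Nat.zero_le _) h2

/-- Hunt's bound below the density `2 ^ (-j)` -/
theorem hunt_AL {f : ℝ → ℂ} (hf : Measurable f) {n : ℕ} (hn : ∀ x, ‖f x‖ ≤ 2 ^ n)
    (Θ : Finset ℝ) (j m t : ℕ) :
    ∃ E : Set ℝ, MeasurableSet E ∧
      volume E ≤ ENNReal.ofReal (112 * Real.exp (-t) * (2 ^ j * avN f 0 0)) ∧
      ∀ x ∈ Ivl 0 0, x ∉ E → ∀ θ ∈ Θ, ∀ K ≤ m,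
        ‖SS (coef f θ) (AL f ((1 / 2) ^ j) 0) 0 K x‖ ≤ (1 / 2) ^ j * (2041 * (n + j + t + 1)) := by
  set g : ℝ → ℂ := fun x => ((((1 / 2 : ℝ) ^ j)⁻¹ : ℝ) : ℂ) * f x with hg
  have hc0 : (0 : ℝ) < (1 / 2) ^ j := by positivity
  have hgm : Measurable g := hf.const_mul _
  have hgn : ∀ x, ‖g x‖ = 2 ^ j * ‖f x‖ := by
    intro x
    rw [hg]
    simp only
    rw [norm_mul, Complex.norm_real, Real.norm_eq_abs, abs_of_pos (inv_pos.2 hc0), one_div_pow,
      one_div, inv_inv]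
  have hgb : ∀ x, ‖g x‖ ≤ 2 ^ (n + j) := by
    intro x
    rw [hgn, pow_add, mul_comm]
    gcongr
    exact hn x
  obtain ⟨E, h1, h2, h3⟩ := hunt_TL hgm hgb Θ 0 m t
  refine ⟨E, h1, h2.trans (le_of_eq ?_), fun x hx hxE θ hθ K hK => ?_⟩
  · congr 2
    simp_rw [hgn]
    rw [integral_const_mul]
    unfold avN
    rw [pow_zero, one_mul]
  · have h4 := h3 x hx hxE θ hθ K hK
    rw [TL_eq, alive_eq_AL] at h4
    have e1 : AL g 1 0 = AL f ((1 / 2) ^ j) 0 := by
      ext k i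
      exact AL_smul f hc0 0 k i
    rw [e1, hg, SS_coef_smul, norm_mul, Complex.norm_real, Real.norm_eq_abs,
      abs_of_pos (inv_pos.2 hc0), inv_mul_le_iff₀ hc0] at h4
    push_cast at h4
    exact h4

/-- set where some average is larger than `c` -/
def DD (f : ℝ → ℂ) (m : ℕ) (c : ℝ) : Set ℝ := {x | ∃ k < m, c < avN f k (fl k x)}

theorem measurableSet_DD (f : ℝ → ℂ) (m : ℕ) (c : ℝ) : MeasurableSet (DD f m c) := by
  have : DD f m c = ⋃ k ∈ Finset.range m, {x | c < avN f k (fl k x)} := by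
    ext x; simp [DD]
  rw [this]
  refine Finset.measurableSet_biUnion _ fun k _ => ?_
  exact measurableSet_lt measurable_const (measurable_fl_comp k (avN f k))

/-- dyadic weak (1,1) -/
theorem volume_DD {f : ℝ → ℂ} (hf : Measurable f) {M : ℝ} (hM : ∀ x, ‖f x‖ ≤ M) (m : ℕ) {c : ℝ}
    (hc : 0 < c) : volume (DD f m c ∩ Ivl 0 0) ≤ ENNReal.ofReal (c⁻¹ * avN f 0 0) := by
  have h := stop_meas (P := fun l i => c < avN f l i) (measurableSet_DD f m c)
    (g := fun x => ENNReal.ofReal c⁻¹ * ‖f x‖ₑ) m 0 0 (fun l _ _ i hi => ?_) (fun x hx hxD => ?_)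
  · refine h.trans (le_of_eq ?_)
    rw [lintegral_const_mul' _ _ ENNReal.ofReal_ne_top, ← lint_Ivl hf hM, volume_Ivl,
      ← ENNReal.ofReal_mul (avN_nonneg _ _ _), ← ENNReal.ofReal_mul (by positivity)]
    congr 1
    norm_num
  · rw [lintegral_const_mul' _ _ ENNReal.ofReal_ne_top, ← lint_Ivl hf hM, ← mul_assoc,
      ← ENNReal.ofReal_mul (by positivity)]
    calc volume (DD f m c ∩ Ivl l i) ≤ 1 * volume (Ivl l i) := by
          rw [one_mul]; exact measure_mono inter_subset_right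
      _ ≤ _ := by
          gcongr
          rw [← ENNReal.ofReal_one]
          apply ENNReal.ofReal_le_ofReal
          rw [inv_mul_eq_div, one_le_div hc]
          exact (le_of_lt hi)
  · obtain ⟨k, hk, hx2⟩ := hxD
    exact ⟨k, Nat.zero_le _, by omega, hx2⟩

/-- integration of an exponentially bounded function over a set -/
theorem int_layer {I D : Set ℝ} (hI : MeasurableSet I) (hD : MeasurableSet D) {Y : ℝ → ℝ} {a q : ℝ}
    (ha : 0 < a) (hq : 0 ≤ q) (r0 : ℕ) {S : ℕ → Set ℝ} (hS : ∀ t, MeasurableSet (S t))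
    (hYS : ∀ x ∈ I, x ∈ D → ∀ t : ℕ, x ∉ S t → Y x ≤ ((r0 + t : ℕ) : ℝ) * a)
    (hvol : ∀ t : ℕ, volume (S t) ≤ ENNReal.ofReal (q * Real.exp (-t))) :
    ∫⁻ x in I, D.indicator (fun x => ENNReal.ofReal (Y x)) x ≤
      ENNReal.ofReal a * (r0 * volume (D ∩ I) + ENNReal.ofReal (2 * q)) := by
  classical
  have hpt : ∀ x ∈ I, D.indicator (fun x => ENNReal.ofReal (Y x)) x ≤
      ENNReal.ofReal a * (D.indicator (fun _ => (r0 : ℝ≥0∞)) x +
        ∑' t : ℕ, (S t).indicator (fun _ => (1 : ℝ≥0∞)) x) := by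
    intro x hx
    by_cases hxG : x ∈ D
    · rw [indicator_of_mem hxG, indicator_of_mem hxG]
      have h1 := layer (Y x / a) r0
      have h2 : ENNReal.ofReal (Y x) = ENNReal.ofReal a * ENNReal.ofReal (Y x / a) := by
        rw [← ENNReal.ofReal_mul ha.le, mul_div_cancel₀ _ ha.ne']
      rw [h2]
      gcongr
      refine h1.trans ?_
      gcongr with t
      split_ifs with h3
      · by_cases hxS : x ∈ S t
        · rw [indicator_of_mem hxS]
        · exfalso
          have h4 := hYS x hx hxG t hxS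
          rw [lt_div_iff₀ ha] at h3
          exact absurd h3 (not_lt.2 h4)
      · exact zero_le
    · rw [indicator_of_notMem hxG]
      exact zero_le
  calc ∫⁻ x in I, D.indicator (fun x => ENNReal.ofReal (Y x)) x
      ≤ ∫⁻ x in I, ENNReal.ofReal a * (D.indicator (fun _ => (r0 : ℝ≥0∞)) x +
        ∑' t : ℕ, (S t).indicator (fun _ => (1 : ℝ≥0∞)) x) :=
        setLIntegral_mono' hI hpt
    _ = ENNReal.ofReal a * (r0 * volume (D ∩ I) + ∑' t : ℕ, volume (S t ∩ I)) := by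
        rw [lintegral_const_mul' _ _ ENNReal.ofReal_ne_top, lintegral_add_left
          (measurable_const.indicator hD), lintegral_tsum
          (fun r => (measurable_const.indicator (hS _)).aemeasurable)]
        congr 2
        · rw [lintegral_indicator hD, lintegral_const, Measure.restrict_restrict hD]
          rw [Measure.restrict_apply MeasurableSet.univ, univ_inter]
        · congr 1
          ext r
          rw [lintegral_indicator (hS _), setLIntegral_one, Measure.restrict_apply (hS _)]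
    _ ≤ ENNReal.ofReal a * (r0 * volume (D ∩ I) +
          ∑' t : ℕ, ENNReal.ofReal q * ENNReal.ofReal (1 / 2) ^ t) := by
        gcongr with t
        refine (measure_mono inter_subset_left).trans ((hvol t).trans ?_)
        rw [← ENNReal.ofReal_pow (by norm_num : (0 : ℝ) ≤ 1 / 2) t, ← ENNReal.ofReal_mul hq]
        apply ENNReal.ofReal_le_ofReal
        gcongr
        have h1 : Real.exp (-(t : ℝ)) = Real.exp (-1) ^ t := by
          rw [← Real.exp_nat_mul]
          ring_nf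
        rw [h1]
        gcongr
        rw [Real.exp_neg, one_div]
        gcongr
        linarith [Real.add_one_le_exp (1 : ℝ)]
    _ = _ := by
        congr 2
        rw [ENNReal.tsum_mul_left, ENNReal.tsum_geometric]
        have h3 : (1 : ℝ≥0∞) - ENNReal.ofReal (1 / 2) = ENNReal.ofReal (1 / 2) := by
          rw [← ENNReal.ofReal_one, ← ENNReal.ofReal_sub _ (by norm_num)]
          norm_num
        rw [h3, ← ENNReal.ofReal_inv_of_pos (by norm_num), ← ENNReal.ofReal_mul hq]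
        congr 1
        ring

section main

variable {g : ℝ → ℂ} {n : ℕ}

/-- one density level -/
theorem level_thin (hg : Measurable g) (hgn : ∀ x, ‖g x‖ ≤ 2 ^ n) {Θ : Finset ℝ} {θ : ℝ → ℝ}
    (hθΘ : ∀ x, θ x ∈ Θ) {m : ℕ} {K : ℝ → ℕ} (hK : ∀ x, K x ≤ m) (j : ℕ) :
    ∫⁻ x in Ivl 0 0, ‖SS (coef g (θ x)) (Lv g j) 0 (K x) x‖ₑ ≤
      ENNReal.ofReal (10 ^ 7 * (n + j + 1) * avN g 0 0) := by
  classical
  have hb := avN_nonneg g 0 0
  choose E hE1 hE2 hE3 using fun t : ℕ => hunt_AL hg hgn Θ j m t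
  choose E' hE1' hE2' hE3' using fun t : ℕ => hunt_AL hg hgn Θ (j + 1) m t
  set c : ℝ := (1 / 2) ^ j with hc
  have hc0 : 0 < c := by positivity
  have hcc : ((1 : ℝ) / 2) ^ (j + 1) = c / 2 := by rw [hc, pow_succ]; ring
  have h2j : (2 : ℝ) ^ j = c⁻¹ := by rw [hc, one_div_pow, one_div, inv_inv]
  set D : Set ℝ := DD g m (c / 2) with hD
  have h := int_layer (measurableSet_Ivl 0 0) (measurableSet_DD g m (c / 2))
    (Y := fun x => ‖SS (coef g (θ x)) (Lv g j) 0 (K x) x‖) (a := c * 4082)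
    (q := 336 * (c⁻¹ * avN g 0 0)) (by positivity) (by positivity) (n + j + 2)
    (S := fun t => E t ∪ E' t) (fun t => (hE1 t).union (hE1' t)) (fun x hx _ t hxS => ?_)
    (fun t => ?_)
  · -- conclusion
    have e1 : ∀ x, ‖SS (coef g (θ x)) (Lv g j) 0 (K x) x‖ₑ =
        D.indicator (fun x => ENNReal.ofReal ‖SS (coef g (θ x)) (Lv g j) 0 (K x) x‖) x := by
      intro x
      by_cases hx : x ∈ D
      · rw [indicator_of_mem hx, ofReal_norm]
      · rw [indicator_of_notMem hx, SS_eq_zero, enorm_zero]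
        intro l _ hl hLv
        apply hx
        have h5 := hLv.2
        rw [AL_fl] at h5
        push Not at h5
        obtain ⟨k', -, h6, h7⟩ := h5
        rw [hcc] at h7
        exact ⟨k', by have := hK x; omega, h7⟩
    simp_rw [e1]
    refine h.trans ?_
    have h8 := volume_DD hg hgn m (c := c / 2) (by positivity)
    calc ENNReal.ofReal (c * 4082) * (((n + j + 2 : ℕ) : ℝ≥0∞) * volume (D ∩ Ivl 0 0) +
          ENNReal.ofReal (2 * (336 * (c⁻¹ * avN g 0 0))))
        ≤ ENNReal.ofReal (c * 4082) * (((n + j + 2 : ℕ) : ℝ≥0∞) *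
          ENNReal.ofReal ((c / 2)⁻¹ * avN g 0 0) +
          ENNReal.ofReal (2 * (336 * (c⁻¹ * avN g 0 0)))) := by gcongr
      _ = ENNReal.ofReal (c * 4082 * (((n + j + 2 : ℕ) : ℝ) * ((c / 2)⁻¹ * avN g 0 0) +
          2 * (336 * (c⁻¹ * avN g 0 0)))) := by
          rw [← ENNReal.ofReal_natCast, ← ENNReal.ofReal_mul (by positivity),
            ← ENNReal.ofReal_add (by positivity) (by positivity),
            ← ENNReal.ofReal_mul (by positivity)]
      _ ≤ _ := by
          apply ENNReal.ofReal_le_ofReal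
          have e2 : c * 4082 * (((n + j + 2 : ℕ) : ℝ) * ((c / 2)⁻¹ * avN g 0 0) +
              2 * (336 * (c⁻¹ * avN g 0 0))) =
              4082 * (2 * (n + j + 2) + 672) * avN g 0 0 := by
            push_cast
            field_simp
            ring
          rw [e2]
          have h9 : 4082 * (2 * ((n : ℝ) + j + 2) + 672) ≤ 10 ^ 7 * (n + j + 1) := by
            have : (0 : ℝ) ≤ n := Nat.cast_nonneg n
            have : (0 : ℝ) ≤ j := Nat.cast_nonneg j
            nlinarith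
          exact mul_le_mul_of_nonneg_right h9 hb
  · -- pointwise bound
    rw [mem_union, not_or] at hxS
    have h1 := hE3 t x hx hxS.1 (θ x) (hθΘ x) (K x) (hK x)
    have h2 := hE3' t x hx hxS.2 (θ x) (hθΘ x) (K x) (hK x)
    rw [SS_Lv]
    refine (norm_sub_le _ _).trans ((add_le_add h1 h2).trans ?_)
    rw [hcc]
    push_cast
    have h3 : (0 : ℝ) ≤ n := Nat.cast_nonneg n
    have h4 : (0 : ℝ) ≤ j := Nat.cast_nonneg j
    have h5 : (0 : ℝ) ≤ t := Nat.cast_nonneg t
    have e3 : c * (2041 * ((n : ℝ) + j + t + 1)) + c / 2 * (2041 * (n + (j + 1) + t + 1)) =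
        c * (2041 * ((n : ℝ) + j + t + 1) + 2041 / 2 * (n + j + t + 2)) := by ring
    have e4 : ((n : ℝ) + j + 2 + t) * (c * 4082) = c * (4082 * (n + j + t + 2)) := by ring
    rw [e3, e4]
    gcongr
    linarith
  · -- volume
    refine (measure_union_le _ _).trans ((add_le_add (hE2 t) (hE2' t)).trans ?_)
    rw [← ENNReal.ofReal_add (by positivity) (by positivity)]
    apply ENNReal.ofReal_le_ofReal
    rw [pow_succ, h2j]
    apply le_of_eq
    ring

/-- the low densities -/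
theorem low_thin (hg : Measurable g) (hgn : ∀ x, ‖g x‖ ≤ 2 ^ n) {Θ : Finset ℝ} {θ : ℝ → ℝ}
    (hθΘ : ∀ x, θ x ∈ Θ) {m : ℕ} {K : ℝ → ℕ} (hK : ∀ x, K x ≤ m) (J : ℕ) :
    ∫⁻ x in Ivl 0 0, ‖SS (coef g (θ x)) (AL g ((1 / 2) ^ J) 0) 0 (K x) x‖ₑ ≤
      ENNReal.ofReal (2041 * (n + J + 1) * (1 / 2) ^ J + 10 ^ 6 * avN g 0 0) := by
  classical
  have hb := avN_nonneg g 0 0
  choose E hE1 hE2 hE3 using fun t : ℕ => hunt_AL hg hgn Θ J m t
  set c : ℝ := (1 / 2) ^ J with hc
  have hc0 : 0 < c := by positivity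
  have h2j : (2 : ℝ) ^ J = c⁻¹ := by rw [hc, one_div_pow, one_div, inv_inv]
  have h := int_layer (measurableSet_Ivl 0 0) MeasurableSet.univ
    (Y := fun x => ‖SS (coef g (θ x)) (AL g c 0) 0 (K x) x‖) (a := c * 2041)
    (q := 112 * (c⁻¹ * avN g 0 0)) (by positivity) (by positivity) (n + J + 1)
    (S := E) hE1 (fun x hx _ t hxS => ?_) (fun t => ?_)
  · simp_rw [indicator_univ] at h
    have e1 : ∀ x, ENNReal.ofReal ‖SS (coef g (θ x)) (AL g c 0) 0 (K x) x‖ =
        ‖SS (coef g (θ x)) (AL g c 0) 0 (K x) x‖ₑ := fun x => ofReal_norm _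
    simp_rw [e1] at h
    refine h.trans ?_
    rw [univ_inter, volume_Ivl]
    rw [← ENNReal.ofReal_natCast, ← ENNReal.ofReal_mul (by positivity),
      ← ENNReal.ofReal_add (by positivity) (by positivity), ← ENNReal.ofReal_mul (by positivity)]
    apply ENNReal.ofReal_le_ofReal
    have e2 : c * 2041 * (((n + J + 1 : ℕ) : ℝ) * (1 / 2 ^ 0) + 2 * (112 * (c⁻¹ * avN g 0 0))) =
        2041 * (n + J + 1) * c + 457184 * avN g 0 0 := by
      push_cast
      field_simp
      ring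
    rw [e2]
    gcongr
    norm_num
  · have h1 := hE3 t x hx hxS (θ x) (hθΘ x) (K x) (hK x)
    refine h1.trans (le_of_eq ?_)
    push_cast
    ring
  · refine (hE2 t).trans (ENNReal.ofReal_le_ofReal ?_)
    rw [h2j]
    apply le_of_eq
    ring

theorem measurable_lin {F : ℝ → ℝ → ℂ} (hF : ∀ θ, Measurable (F θ)) {θ : ℝ → ℝ} (hθ : Measurable θ)
    {Θ : Finset ℝ} (hθΘ : ∀ x, θ x ∈ Θ) : Measurable fun x => F (θ x) x := by
  classical
  have : (fun x => F (θ x) x) =
      fun x => ∑ θ' ∈ Θ, (θ ⁻¹' {θ'}).indicator (fun x => F θ' x) x := by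
    ext x
    rw [Finset.sum_eq_single (θ x)]
    · rw [indicator_of_mem]
      simp
    · intro b _ hb
      rw [indicator_of_notMem]
      simp only [mem_preimage, mem_singleton_iff]
      exact fun h => hb h.symm
    · intro h
      exact absurd (hθΘ x) h
  rw [this]
  exact Finset.measurable_sum _ fun θ' _ => (hF θ').indicator (hθ (measurableSet_singleton _))

theorem measurable_SSK (a : ℕ → ℤ → ℂ) (η : ℕ → ℤ → Prop) {K : ℝ → ℕ} (hK : Measurable K) {m : ℕ}
    (hKm : ∀ x, K x ≤ m) : Measurable fun x => SS a η 0 (K x) x := by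
  classical
  have : (fun x => SS a η 0 (K x) x) =
      fun x => ∑ k ∈ Finset.range (m + 1), (K ⁻¹' {k}).indicator (fun x => SS a η 0 k x) x := by
    ext x
    rw [Finset.sum_eq_single (K x)]
    · rw [indicator_of_mem]
      simp
    · intro b _ hb
      rw [indicator_of_notMem]
      simp only [mem_preimage, mem_singleton_iff]
      exact fun h => hb h.symm
    · intro h
      exact absurd (Finset.mem_range.2 (Nat.lt_succ_of_le (hKm x))) h
  rw [this]
  exact Finset.measurable_sum _ fun k _ =>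
    (measurable_SS a η 0 k).indicator (hK (measurableSet_singleton _))

/-- all the levels, `J` free -/
theorem thinJ (hg : Measurable g) (hgn : ∀ x, ‖g x‖ ≤ 2 ^ n) {Θ : Finset ℝ} {θ : ℝ → ℝ}
    (hθ : Measurable θ) (hθΘ : ∀ x, θ x ∈ Θ) {m : ℕ} {K : ℝ → ℕ} (hKm : Measurable K)
    (hK : ∀ x, K x ≤ m) (J : ℕ) :
    ∫⁻ x in Ivl 0 0, ‖SS (coef g (θ x)) (alive g) 0 (K x) x‖ₑ ≤
      ENNReal.ofReal (10 ^ 7 * (n + J + 1) * ((J + 1) * avN g 0 0 + (1 / 2) ^ J)) := by
  classical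
  have hb := avN_nonneg g 0 0
  have hmeas : ∀ η : ℕ → ℤ → Prop, Measurable fun x => SS (coef g (θ x)) η 0 (K x) x := fun η =>
    measurable_lin (F := fun θ' x => SS (coef g θ') η 0 (K x) x)
      (fun θ' => measurable_SSK _ _ hKm hK) hθ hθΘ
  have hsum : ∀ x, ‖SS (coef g (θ x)) (alive g) 0 (K x) x‖ₑ ≤
      ∑ j ∈ Finset.range J, ‖SS (coef g (θ x)) (Lv g j) 0 (K x) x‖ₑ +
        ‖SS (coef g (θ x)) (AL g ((1 / 2) ^ J) 0) 0 (K x) x‖ₑ := by
    intro x
    have h1 := SS_levels (coef g (θ x)) g J 0 (K x) x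
    have h2 : SS (coef g (θ x)) (alive g) 0 (K x) x =
        ∑ j ∈ Finset.range J, SS (coef g (θ x)) (Lv g j) 0 (K x) x +
          SS (coef g (θ x)) (AL g ((1 / 2) ^ J) 0) 0 (K x) x := by
      rw [h1, alive_eq_AL]
      ring
    rw [h2]
    refine (enorm_add_le _ _).trans ?_
    gcongr
    exact enorm_sum_le _ _
  calc ∫⁻ x in Ivl 0 0, ‖SS (coef g (θ x)) (alive g) 0 (K x) x‖ₑ
      ≤ ∫⁻ x in Ivl 0 0, (∑ j ∈ Finset.range J, ‖SS (coef g (θ x)) (Lv g j) 0 (K x) x‖ₑ +
        ‖SS (coef g (θ x)) (AL g ((1 / 2) ^ J) 0) 0 (K x) x‖ₑ) := lintegral_mono fun x => hsum x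
    _ = ∑ j ∈ Finset.range J, (∫⁻ x in Ivl 0 0, ‖SS (coef g (θ x)) (Lv g j) 0 (K x) x‖ₑ) +
        ∫⁻ x in Ivl 0 0, ‖SS (coef g (θ x)) (AL g ((1 / 2) ^ J) 0) 0 (K x) x‖ₑ := by
        rw [lintegral_add_right _ (hmeas _).enorm, lintegral_finsetSum _ fun j _ => (hmeas _).enorm]
    _ ≤ ∑ j ∈ Finset.range J, ENNReal.ofReal (10 ^ 7 * (n + J + 1) * avN g 0 0) +
        ENNReal.ofReal (2041 * (n + J + 1) * (1 / 2) ^ J + 10 ^ 6 * avN g 0 0) := by
        refine add_le_add (Finset.sum_le_sum fun j hj => ?_) (low_thin hg hgn hθΘ hK J)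
        refine (level_thin hg hgn hθΘ hK j).trans (ENNReal.ofReal_le_ofReal ?_)
        gcongr
        exact (Finset.mem_range.1 hj).le
    _ = ENNReal.ofReal (J * (10 ^ 7 * (n + J + 1) * avN g 0 0) +
        (2041 * (n + J + 1) * (1 / 2) ^ J + 10 ^ 6 * avN g 0 0)) := by
        rw [Finset.sum_const, Finset.card_range, nsmul_eq_mul, ← ENNReal.ofReal_natCast,
          ← ENNReal.ofReal_mul (by positivity), ← ENNReal.ofReal_add (by positivity) (by positivity)]
    _ ≤ _ := by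
        apply ENNReal.ofReal_le_ofReal
        have h1 : (0 : ℝ) ≤ n := Nat.cast_nonneg n
        have h2 : (0 : ℝ) ≤ J := Nat.cast_nonneg J
        have h3 : (0 : ℝ) < (1 / 2) ^ J := by positivity
        have e1 : 10 ^ 7 * ((n : ℝ) + J + 1) * ((J + 1) * avN g 0 0 + (1 / 2) ^ J) =
            J * (10 ^ 7 * (n + J + 1) * avN g 0 0) + 10 ^ 7 * (n + J + 1) * avN g 0 0 +
              10 ^ 7 * (n + J + 1) * (1 / 2) ^ J := by ring
        rw [e1]
        have h4 : (10 : ℝ) ^ 6 * avN g 0 0 ≤ 10 ^ 7 * (n + J + 1) * avN g 0 0 := by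
          gcongr
          nlinarith
        have h5 : 2041 * ((n : ℝ) + J + 1) * (1 / 2) ^ J ≤ 10 ^ 7 * (n + J + 1) * (1 / 2) ^ J := by
          gcongr
          norm_num
        linarith

theorem pow_aux (J : ℕ) : ((J : ℝ) + 2) ^ 2 ≤ 64 * (5 / 4) ^ J := by
  rcases le_or_gt J 7 with h | h
  · interval_cases J <;> norm_num
  · obtain ⟨d, rfl⟩ := Nat.exists_eq_add_of_lt h
    clear h
    induction d with
    | zero => norm_num
    | succ d ih =>
      have e1 : (7 + (d + 1) + 1 : ℕ) = (7 + d + 1) + 1 := by ring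
      have hd : (0 : ℝ) ≤ d := Nat.cast_nonneg d
      have h3 : ((((7 + d + 1) + 1 : ℕ) : ℝ) + 2) ^ 2 ≤ 5 / 4 * (((7 + d + 1 : ℕ) : ℝ) + 2) ^ 2 := by
        push_cast
        nlinarith
      have h4 : (5 / 4 : ℝ) ^ ((7 + d + 1) + 1) = 5 / 4 * (5 / 4) ^ (7 + d + 1) := by
        rw [pow_succ]; ring
      rw [e1, h4]
      linarith

/-- **THIN** -/
theorem thin_alive (hn : 1 ≤ n) (hg : Measurable g) (hgn : ∀ x, ‖g x‖ ≤ 2 ^ n) {Θ : Finset ℝ}
    {θ : ℝ → ℝ} (hθ : Measurable θ) (hθΘ : ∀ x, θ x ∈ Θ) {m : ℕ} {K : ℝ → ℕ} (hKm : Measurable K)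
    (hK : ∀ x, K x ≤ m) :
    ∫⁻ x in Ivl 0 0, ‖SS (coef g (θ x)) (alive g) 0 (K x) x‖ₑ ≤
      ENNReal.ofReal (10 ^ 10 * n * Real.sqrt (avN g 0 0)) := by
  classical
  set b : ℝ := avN g 0 0 with hbdef
  have hb := avN_nonneg g 0 0
  rw [← hbdef] at hb
  have hn1 : (1 : ℝ) ≤ n := by exact_mod_cast hn
  -- dead root
  rcases lt_or_ge 1 b with hb1 | hb1
  · have h0 : ∀ x ∈ Ivl 0 0, ‖SS (coef g (θ x)) (alive g) 0 (K x) x‖ₑ = 0 := by
      intro x hx
      rw [SS_eq_zero, enorm_zero]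
      intro l _ _ hl
      rw [alive_fl] at hl
      have := hl 0 (Nat.zero_le _)
      rw [mem_Ivl.1 hx] at this
      linarith
    rw [setLIntegral_congr_fun (measurableSet_Ivl 0 0) h0]
    simp
  rcases hb.eq_or_lt with hb0 | hb0
  · have h0 : ∀ x ∈ Ivl 0 0, ‖SS (coef g (θ x)) (alive g) 0 (K x) x‖ₑ = 0 := by
      intro x hx
      rw [SS_of_avN_zero hg hgn (by rw [mem_Ivl.1 hx, ← hbdef, ← hb0]), enorm_zero]
    rw [setLIntegral_congr_fun (measurableSet_Ivl 0 0) h0]
    simp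
  -- choice of `J`
  obtain ⟨J0, hJ0⟩ := exists_pow_lt_of_lt_one hb0 (show (1 : ℝ) / 2 < 1 by norm_num)
  have hex : ∃ J : ℕ, ((1 : ℝ) / 2) ^ J ≤ b := ⟨J0, hJ0.le⟩
  set J := Nat.find hex with hJ
  have hJ1 : ((1 : ℝ) / 2) ^ J ≤ b := Nat.find_spec hex
  have hJ2 : b ≤ 2 * ((1 : ℝ) / 2) ^ J := by
    rcases Nat.eq_zero_or_pos J with h | h
    · rw [h]; norm_num; linarith
    · have h1 := Nat.find_min hex (m := J - 1) (by omega)
      rw [not_le] at h1
      have h2 : ((1 : ℝ) / 2) ^ J = (1 / 2) ^ (J - 1) * (1 / 2) := by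
        rw [← pow_succ, Nat.sub_add_cancel h]
      rw [h2]
      linarith
  refine (thinJ hg hgn hθ hθΘ hKm hK J).trans (ENNReal.ofReal_le_ofReal ?_)
  rw [← hbdef]
  have hJr : (0 : ℝ) ≤ J := Nat.cast_nonneg J
  have h1 : ((n : ℝ) + J + 1) ≤ n * (J + 2) := by nlinarith
  have h2 : ((J : ℝ) + 1) * b + (1 / 2) ^ J ≤ (J + 2) * b := by linarith
  have h3 : ((J : ℝ) + 2) ^ 2 * b ≤ 128 * Real.sqrt b := by
    have hs0 : 0 ≤ Real.sqrt b := Real.sqrt_nonneg b
    have h4 : Real.sqrt b * Real.sqrt b = b := Real.mul_self_sqrt hb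
    have h5 : ((5 : ℝ) / 4) ^ J * Real.sqrt b ≤ 2 := by
      have h6 : (((5 : ℝ) / 4) ^ J * Real.sqrt b) ^ 2 ≤ 2 ^ 2 := by
        rw [mul_pow, Real.sq_sqrt hb, ← pow_mul, mul_comm J 2, pow_mul]
        calc (((5 : ℝ) / 4) ^ 2) ^ J * b ≤ (((5 : ℝ) / 4) ^ 2) ^ J * (2 * (1 / 2) ^ J) := by gcongr
          _ = 2 * (((5 : ℝ) / 4) ^ 2 * (1 / 2)) ^ J := by rw [mul_pow]; ring
          _ ≤ 2 * 1 := by
              gcongr
              exact pow_le_one₀ (by norm_num) (by norm_num)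
          _ ≤ 2 ^ 2 := by norm_num
      exact (abs_le_of_sq_le_sq' h6 (by norm_num)).2
    calc ((J : ℝ) + 2) ^ 2 * b ≤ (64 * (5 / 4) ^ J) * (Real.sqrt b * Real.sqrt b) := by
          rw [h4]
          gcongr
          exact pow_aux J
      _ = 64 * ((5 / 4) ^ J * Real.sqrt b) * Real.sqrt b := by ring
      _ ≤ 64 * 2 * Real.sqrt b := by gcongr
      _ = _ := by norm_num
  calc 10 ^ 7 * ((n : ℝ) + J + 1) * ((J + 1) * b + (1 / 2) ^ J)
      ≤ 10 ^ 7 * (n * (J + 2)) * ((J + 2) * b) := by gcongr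
    _ = 10 ^ 7 * n * ((J + 2) ^ 2 * b) := by ring
    _ ≤ 10 ^ 7 * n * (128 * Real.sqrt b) := by gcongr
    _ ≤ 10 ^ 10 * n * Real.sqrt b := by
        have : 0 ≤ (n : ℝ) * Real.sqrt b := by positivity
        nlinarith

/-- **THIN for parent-closed families of nodes** -/
theorem thin_closed (hn : 1 ≤ n) (hg : Measurable g) (hgn : ∀ x, ‖g x‖ ≤ 2 ^ n) {Θ : Finset ℝ}
    {θ : ℝ → ℝ} (hθ : Measurable θ) (hθΘ : ∀ x, θ x ∈ Θ) {al : ℕ → ℤ → Prop}
    (hcl : ∀ k j, al (k + 1) j → al k (j / 2)) (hal : ∀ k j, al k j → alive g k j)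
    {m : ℕ} {K : ℝ → ℕ} (hKm : Measurable K) (hK : ∀ x, K x ≤ m) :
    ∫⁻ x in Ivl 0 0, ‖SS (coef g (θ x)) al 0 (K x) x‖ₑ ≤
      ENNReal.ofReal (10 ^ 10 * n * Real.sqrt (avN g 0 0)) := by
  classical
  -- stopping time
  have hdesc : ∀ (x : ℝ) (k k' : ℕ), k' ≤ k → al k (fl k x) → al k' (fl k' x) := by
    intro x k k' hk
    induction k with
    | zero => intro h; rwa [Nat.le_zero.1 hk]
    | succ k ih =>
      intro h
      rcases Nat.eq_or_lt_of_le hk with h1 | h1
      · rwa [h1]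
      · refine ih (by omega) ?_
        have := hcl k _ h
        rwa [← fl_half] at this
  let D : ℝ → ℕ := fun x => Nat.findGreatest (fun k => ∀ l < k, al l (fl l x)) m
  have hDm : Measurable D := by
    refine measurable_findGreatest (p := fun x k => ∀ l < k, al l (fl l x)) fun k _ => ?_
    have : {x : ℝ | ∀ l < k, al l (fl l x)} = ⋂ l ∈ Finset.range k, {x : ℝ | al l (fl l x)} := by
      ext x; simp
    rw [this]
    exact Finset.measurableSet_biInter _ fun l _ =>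
      (measurable_fl l) (MeasurableSpace.measurableSet_top (s := {i | al l i}))
  have hDspec : ∀ x, ∀ l < D x, al l (fl l x) := by
    intro x
    exact Nat.findGreatest_spec (P := fun k => ∀ l < k, al l (fl l x)) (Nat.zero_le m)
      (fun l hl => absurd hl (Nat.not_lt_zero l))
  have hDmax : ∀ x, ∀ l, D x ≤ l → l < m → ¬ al l (fl l x) := by
    intro x l h1 h2 h3
    have h4 : ∀ l' < l + 1, al l' (fl l' x) := fun l' hl' => hdesc x l l' (by omega) h3
    have h5 := Nat.le_findGreatest (P := fun k => ∀ l < k, al l (fl l x)) (show l + 1 ≤ m by omega) h4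
    have h6 : l + 1 ≤ D x := h5
    omega
  have hmin : Measurable fun x => min (K x) (D x) := hKm.min hDm
  have h := thin_alive hn hg hgn hθ hθΘ (K := fun x => min (K x) (D x)) hmin
    (fun x => (min_le_left _ _).trans (hK x))
  refine le_trans (le_of_eq ?_) h
  refine lintegral_congr fun x => ?_
  congr 1
  rcases le_total (K x) (D x) with h1 | h1
  · rw [min_eq_left h1]
    refine SS_congr fun l _ hl => ?_
    have h2 := hDspec x l (by omega)
    exact ⟨fun h3 => hal _ _ h3, fun _ => h2⟩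
  · rw [min_eq_right h1, ← SS_add _ al (Nat.zero_le (D x)) h1 x]
    have h2 : SS (coef g (θ x)) al (D x) (K x) x = 0 :=
      SS_eq_zero fun l hl1 hl2 => hDmax x l hl1 (by have := hK x; omega)
    rw [h2, add_zero]
    refine SS_congr fun l _ hl => ?_
    have h2 := hDspec x l hl
    exact ⟨fun h3 => hal _ _ h3, fun _ => h2⟩

end main

end Crest.Agent.R100.Thin800
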