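import Crest.Agent.R100.Tree2_711
import Crest.Agent.R100.Lev_710
import Crest.Agent.R100.Fin_710

/-!
# R100 / S0132, helper711: upper bound (UB), assembly of B7 (levels), B9 (trees), the tops and the
run maximal functions (structural part).
-/

set_option autoImplicit false

open MeasureTheory Set
open scoped ENNReal

noncomputable section

namespace Crest.Agent.R100.UB711

open Crest.Agent.R100.Mart933 Crest.Agent.R100.Wide933 Crest.Agent.R100.Hunt933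
open Crest.Agent.R100.Run288 Crest.Agent.R100.Tree711 Crest.Agent.R100.Lev710

variable {g : ℝ → ℂ} {κ : ℝ → ℕ} {M : ℝ}

/-! ## mass of the exits -/

theorem lintegral_avN {f : ℝ → ℂ} (hf : Measurable f) (hM : ∀ x, ‖f x‖ ≤ M) (d : ℕ) :
    ∀ (k : ℕ) (j : ℤ), ∫⁻ x in Ivl k j, ENNReal.ofReal (avN f (k + d) (fl (k + d) x)) =
      ∫⁻ x in Ivl k j, ‖f x‖ₑ := by
  induction d with
  | zero =>
    intro k j
    have h1 : ∫⁻ x in Ivl k j, ENNReal.ofReal (avN f (k + 0) (fl (k + 0) x)) =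
        ∫⁻ x in Ivl k j, ENNReal.ofReal (avN f k j) := by
      refine setLIntegral_congr_fun (measurableSet_Ivl _ _) fun x hx => ?_
      simp only [add_zero]
      rw [mem_Ivl.1 hx]
    rw [h1, setLIntegral_const, volume_Ivl, ← ENNReal.ofReal_mul (avN_nonneg _ _ _)]
    have hint : Integrable (fun x => f x) (volume.restrict (Ivl k j)) := intOn k j hf hM
    have h2 : avN f k j * (1 / 2 ^ k) = ∫ y in Ivl k j, ‖f y‖ := by
      unfold avN
      field_simp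
    rw [h2, ofReal_integral_norm_eq_lintegral_enorm hint]
  | succ d ih =>
    intro k j
    rw [lintegral_Ivl, lintegral_Ivl k j (fun x => ‖f x‖ₑ)]
    have e1 : k + (d + 1) = k + 1 + d := by omega
    rw [e1, ih (k + 1), ih (k + 1)]

theorem lintegral_avN' {f : ℝ → ℂ} (hf : Measurable f) (hM : ∀ x, ‖f x‖ ≤ M) {k l : ℕ}
    (h : k ≤ l) (j : ℤ) : ∫⁻ x in Ivl k j, ENNReal.ofReal (avN f l (fl l x)) =
      ∫⁻ x in Ivl k j, ‖f x‖ₑ := by
  obtain ⟨d, rfl⟩ := Nat.exists_eq_add_of_le h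
  exact lintegral_avN hf hM d k j

/-- the mass of the exits below a node is at most the mass of the node -/
theorem lint_XS_le (hg : Measurable g) (hM : ∀ x, ‖g x‖ ≤ M) (hκ : Measurable κ) {Q : ℝ} (k : ℕ)
    (j : ℤ) (m : ℕ) (hQ : avN (Pb g κ k) k j ≤ Q) :
    ∫⁻ x in Ivl k j, ENNReal.ofReal (XS g κ k m x) ≤ ENNReal.ofReal Q * volume (Ivl k j) := by
  have hmz : ∀ l, Measurable fun x => zz g κ l (fl l x) := fun l =>
    measurable_fl_comp l (zz g κ l)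
  calc ∫⁻ x in Ivl k j, ENNReal.ofReal (XS g κ k m x)
      = ∫⁻ x in Ivl k j, ∑ l ∈ Finset.Ico k m, ENNReal.ofReal (zz g κ l (fl l x)) := by
        refine lintegral_congr fun x => ?_
        unfold XS
        rw [ENNReal.ofReal_sum_of_nonneg fun l _ => zz_nonneg _ _ _ _]
    _ = ∑ l ∈ Finset.Ico k m, ∫⁻ x in Ivl k j, ENNReal.ofReal (zz g κ l (fl l x)) :=
        lintegral_finsetSum _ fun l _ => (hmz l).ennreal_ofReal
    _ = ∑ l ∈ Finset.Ico k m, ∫⁻ x in Ivl k j, ‖Tree711.Ex g κ l x‖ₑ := by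
        refine Finset.sum_congr rfl fun l hl => ?_
        exact lintegral_avN' (measurable_Ex hg hκ l) (fun x => (norm_Ex_le g κ l x).trans (hM x))
          (Finset.mem_Ico.1 hl).1 j
    _ = ∫⁻ x in Ivl k j, ∑ l ∈ Finset.Ico k m, ‖Tree711.Ex g κ l x‖ₑ :=
        (lintegral_finsetSum _ fun l _ => (measurable_Ex hg hκ l).enorm).symm
    _ ≤ ∫⁻ x in Ivl k j, ‖Pb g κ k x‖ₑ := by
        refine lintegral_mono fun x => ?_
        unfold Tree711.Ex Pb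
        by_cases h : κ x ∈ Finset.Ico k m
        · rw [Finset.sum_eq_single_of_mem (κ x) h]
          · rw [if_pos rfl, if_pos (Finset.mem_Ico.1 h).1]
          · intro l _ hl
            rw [if_neg (Ne.symm hl), enorm_zero]
        · rw [Finset.sum_eq_zero]
          · exact zero_le
          · intro l hl
            rw [if_neg, enorm_zero]
            rintro rfl
            exact h hl
    _ = ENNReal.ofReal (avN (Pb g κ k) k j) * volume (Ivl k j) := by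
        rw [← lintegral_avN' (measurable_Pb hg hκ k) (fun x => (norm_Pb_le g κ k x).trans (hM x))
          (le_refl k) j, ← setLIntegral_const]
        refine setLIntegral_congr_fun (measurableSet_Ivl _ _) fun x hx => ?_
        show ENNReal.ofReal (avN (Pb g κ k) k (fl k x)) = ENNReal.ofReal (avN (Pb g κ k) k j)
        rw [mem_Ivl.1 hx]
    _ ≤ _ := by gcongr

/-! ## one level -/

section level

variable {ι : Type*} {T : Finset ι} {kt : ι → ℕ} {jt : ι → ℤ} {wt : ι → ℝ} {Rt : ι → ℝ → ℝ}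
  {θ : ℝ → ℝ}

/-- the cost of a level is dominated by `GG` -/
theorem port_le (hg : Measurable g) (hM : ∀ x, ‖g x‖ ≤ M) (hκ : Measurable κ) {R : ℕ}
    (hR : ∀ y, g y ≠ 0 → κ y < R) {k₀ m β : ℕ} {x Y Q a B C₀ : ℝ} (hQ0 : 0 ≤ Q) (ha : 0 < a)
    (hB : 0 ≤ B) (hC₀ : 0 ≤ C₀) (hQ : ∀ l, k₀ ≤ l → l ≤ m → avN (Pb g κ l) l (fl l x) ≤ Q)
    (hβ : 60 * (B * Q) ≤ a * 2 ^ β)
    (hcov : ∀ k, k₀ ≤ k → k ≤ m → a ≤ ‖bb g κ (Y + θ x) k (fl k x)‖ →
      ∃ t ∈ T, kt t ≤ k ∧ fl (kt t) x = jt t ∧ |Y + θ x - wt t| ≤ B * 2 ^ k)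
    (hRt0 : ∀ t ∈ T, 0 ≤ Rt t x)
    (hRt : ∀ t ∈ T, fl (kt t) x = jt t → ∀ k' K', kt t ≤ k' → k' ≤ K' → K' ≤ m →
      (∀ l, k' ≤ l → l ≤ K' → ‖bb g κ (wt t) l (fl l x)‖ ≤ 3 * a) →
      ‖TS g κ (wt t) k' K' x‖ ≤ Rt t x + C₀ * XS g κ k' K' x) :
    ENNReal.ofReal (Port (fun k => ‖bb g κ (Y + θ x) k (fl k x)‖)
      (fun k => (rad (k + 1) x : ℂ) * dx (aa g κ (Y + θ x)) (bb g κ (Y + θ x)) k x)
      (fun k => zz g κ k (fl k x)) (C₀ + 1) k₀ m a) ≤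
      GG T kt jt wt θ (B * 2 ^ (R - 1))
        (fun t x => ENNReal.ofReal ((4 * β + 4) * a + Rt t x)) x Y := by
  classical
  set Z := Y + θ x with hZ
  set c : ℕ → ℝ := fun k => ‖bb g κ Z k (fl k x)‖ with hc
  by_cases hv : Vis c k₀ m a
  swap
  · unfold Port
    rw [if_neg hv, ENNReal.ofReal_zero]
    exact zero_le
  obtain ⟨hs1, hs2, hs3⟩ := k1_spec hv
  obtain ⟨k2, h1, h2, h3, h4, h5⟩ := PSum_eq_Ico k₀ m a hv
  set k1' := k1 c k₀ m a with hk1'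
  unfold Port
  rw [if_pos hv, h4, h5]
  have hTS : ∑ k ∈ Finset.Ico k1' k2, (rad (k + 1) x : ℂ) * dx (aa g κ Z) (bb g κ Z) k x =
      TS g κ Z k1' k2 x := rfl
  have hXS : ∑ k ∈ Finset.Ico k1' k2, zz g κ k (fl k x) = XS g κ k1' k2 x := rfl
  rw [hTS, hXS]
  -- the top
  obtain ⟨t, ht, g1, g2, g3⟩ : ∃ t ∈ T, fl (kt t) x = jt t ∧ |Z - wt t| ≤ B * 2 ^ (R - 1) ∧
      ‖TS g κ Z k1' k2 x‖ - (C₀ + 1) * XS g κ k1' k2 x ≤ (4 * β + 1) * a + Rt t x := by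
    rcases lt_or_ge k1' k2 with hlt | hge
    · exact segment_dom hg hM hκ hR hQ0 ha hB hC₀ hQ hβ hcov hRt0 hRt hs1 hs3 h2 hs2
        (fun l hl1 hl2 => (h3 hlt l (hs1.trans hl1) hl2).le)
    · obtain ⟨t, ht, q1, q2, q3⟩ := hcov k1' hs1 hs3 hs2
      have hkR : k1' ≤ R - 1 := by
        by_contra hcc
        have h0 := bb_eq_zero hR (k := k1') (by omega) Z (fl k1' x)
        have hs2' : a ≤ ‖bb g κ Z k1' (fl k1' x)‖ := hs2
        rw [h0, norm_zero] at hs2'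
        linarith
      refine ⟨t, ht, q2, q3.trans ?_, ?_⟩
      · exact mul_le_mul_of_nonneg_left (pow_le_pow_right₀ (by norm_num) hkR) hB
      · have e0 : Finset.Ico k1' k2 = ∅ := Finset.Ico_eq_empty_of_le hge
        have e1 : TS g κ Z k1' k2 x = 0 := by
          unfold TS; rw [e0]; simp
        have e2 : XS g κ k1' k2 x = 0 := by
          unfold XS; rw [e0]; simp
        rw [e1, e2, norm_zero]
        have e3 := hRt0 t ht
        have : 0 ≤ (4 * (β : ℝ) + 1) * a := by positivity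
        linarith
  refine le_trans (ENNReal.ofReal_le_ofReal ?_) (le_GG ht g1 g2)
  have e3 := hRt0 t ht
  have e4 : 0 ≤ (4 * (β : ℝ) + 1) * a := by positivity
  have e5 : max (‖TS g κ Z k1' k2 x‖ - (C₀ + 1) * XS g κ k1' k2 x) 0 ≤
      (4 * β + 1) * a + Rt t x := max_le g3 (by linarith)
  linarith

end level

/-! ## all levels -/

section all

variable {θ : ℝ → ℝ}

/-- pointwise bound of the signed sum by the costs of the levels -/
theorem enorm_TS_le (hg : Measurable g) (hM : ∀ x, ‖g x‖ ≤ M) (hκ : Measurable κ) {k₀ m n : ℕ}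
    {x Q a₀ C₀ Z : ℝ} (ha : 0 < a₀) (hC₀ : 0 ≤ C₀)
    (hQ : ∀ l, k₀ ≤ l → l ≤ m → avN (Pb g κ l) l (fl l x) ≤ Q) (hn : Q < a₀ * 2 ^ n) :
    ‖TS g κ Z k₀ m x‖ₑ ≤ ∑ i ∈ Finset.range n, ENNReal.ofReal (Port
      (fun k => ‖bb g κ Z k (fl k x)‖)
      (fun k => (rad (k + 1) x : ℂ) * dx (aa g κ Z) (bb g κ Z) k x)
      (fun k => zz g κ k (fl k x)) (C₀ + 1) k₀ m (a₀ * 2 ^ i)) +
      (ENNReal.ofReal ((C₀ + 2) * XS g κ k₀ m x) +
        ENNReal.ofReal (((m - k₀ : ℕ) : ℝ) * (2 * a₀))) := by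
  have h := levels (c := fun k => ‖bb g κ Z k (fl k x)‖)
    (t := fun k => (rad (k + 1) x : ℂ) * dx (aa g κ Z) (bb g κ Z) k x)
    (e := fun k => zz g κ k (fl k x)) (k0 := k₀) (K := m) (m := n) (a0 := a₀) (C := C₀ + 1)
    (fun k => zz_nonneg _ _ _ _) (by positivity)
    (fun k _ _ => by
      rw [norm_mul, Complex.norm_real, Real.norm_eq_abs, abs_rad, one_mul]
      have := norm_dx_le hg hM hκ Z k x
      linarith) ha
    (fun k h1 h2 => lt_of_le_of_lt ((norm_bb_le g κ Z k _).trans (hQ k h1 h2)) hn)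
  have hp : ∀ i ∈ Finset.range n, 0 ≤ Port
      (fun k => ‖bb g κ Z k (fl k x)‖)
      (fun k => (rad (k + 1) x : ℂ) * dx (aa g κ Z) (bb g κ Z) k x)
      (fun k => zz g κ k (fl k x)) (C₀ + 1) k₀ m (a₀ * 2 ^ i) := fun i _ =>
    Port_nonneg _ _ _ _ _ _ (by positivity)
  have hx := XS_nonneg g κ k₀ m x
  rw [← ofReal_norm, ← ENNReal.ofReal_sum_of_nonneg hp,
    ← ENNReal.ofReal_add (by positivity) (by positivity),
    ← ENNReal.ofReal_add (Finset.sum_nonneg hp) (by positivity)]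
  refine ENNReal.ofReal_le_ofReal ?_
  have e1 : TS g κ Z k₀ m x =
    ∑ k ∈ Finset.Ico k₀ m, (rad (k + 1) x : ℂ) * dx (aa g κ Z) (bb g κ Z) k x := rfl
  have e2 : XS g κ k₀ m x = ∑ k ∈ Finset.Ico k₀ m, zz g κ k (fl k x) := rfl
  rw [e1, e2]
  refine h.trans (le_of_eq ?_)
  ring

/-- **STRUCTURAL UPPER BOUND** -/
theorem ub_struct (hg : Measurable g) (hM : ∀ x, ‖g x‖ ≤ M) (hκ : Measurable κ)
    (hθ : Measurable θ) {R : ℕ} (hR : ∀ y, g y ≠ 0 → κ y < R) {k₀ m n : ℕ} {j₀ : ℤ}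
    {Q a₀ C₀ : ℝ} (hQ0 : 0 ≤ Q) (ha : 0 < a₀) (hC₀ : 0 ≤ C₀)
    (hQ : ∀ k, k₀ ≤ k → ∀ j, avN (Pb g κ k) k j ≤ Q) (hn : Q < a₀ * 2 ^ n)
    (T : ℕ → Finset (ℕ × ℤ × ℝ)) (B : ℕ → ℝ) (β : ℕ → ℕ) (Rt : ℕ → ℕ × ℤ × ℝ → ℝ → ℝ)
    (hRm : ∀ i t, Measurable (Rt i t)) (hB : ∀ i < n, 0 ≤ B i)
    (hβ : ∀ i < n, 60 * (B i * Q) ≤ a₀ * 2 ^ i * 2 ^ β i)
    (hcov : ∀ i < n, ∀ x ∈ Ivl k₀ j₀, ∀ k, k₀ ≤ k → k ≤ m → ∀ ξ, a₀ * 2 ^ i ≤
      ‖bb g κ ξ k (fl k x)‖ → ∃ t ∈ T i, t.1 ≤ k ∧ x ∈ Ivl t.1 t.2.1 ∧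
        |ξ - t.2.2| ≤ B i * 2 ^ k)
    (hRt0 : ∀ i < n, ∀ t ∈ T i, ∀ x, 0 ≤ Rt i t x)
    (hRt : ∀ i < n, ∀ t ∈ T i, ∀ x ∈ Ivl t.1 t.2.1, ∀ k' K', t.1 ≤ k' → k' ≤ K' → K' ≤ m →
      (∀ l, k' ≤ l → l ≤ K' → ‖bb g κ t.2.2 l (fl l x)‖ ≤ 3 * (a₀ * 2 ^ i)) →
      ‖TS g κ t.2.2 k' K' x‖ ≤ Rt i t x + C₀ * XS g κ k' K' x) (Λ : Set ℝ) :
    ∫⁻ x in Ivl k₀ j₀, ∫⁻ Y in Λ, ‖TS g κ (Y + θ x) k₀ m x‖ₑ ≤
      (∑ i ∈ Finset.range n, ∫⁻ x in Ivl k₀ j₀, ∫⁻ Y in Λ,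
        GG (T i) (fun t => t.1) (fun t => t.2.1) (fun t => t.2.2) θ (B i * 2 ^ (R - 1))
          (fun t x => ENNReal.ofReal ((4 * β i + 4) * (a₀ * 2 ^ i) + Rt i t x)) x Y) +
      ENNReal.ofReal ((C₀ + 2) * Q + ((m - k₀ : ℕ) : ℝ) * (2 * a₀)) *
        (volume (Ivl k₀ j₀) * volume Λ) := by
  set G : ℕ → ℝ → ℝ → ℝ≥0∞ := fun i x Y =>
    GG (T i) (fun t => t.1) (fun t => t.2.1) (fun t => t.2.2) θ (B i * 2 ^ (R - 1))
          (fun t x => ENNReal.ofReal ((4 * β i + 4) * (a₀ * 2 ^ i) + Rt i t x)) x Y with hG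
  have hGm : ∀ i, Measurable fun p : ℝ × ℝ => G i p.1 p.2 := fun i =>
    measurable_GG hθ fun t => ((hRm i t).const_add _).ennreal_ofReal
  have hGx : ∀ i x, Measurable fun Y => G i x Y := fun i x => (hGm i).comp measurable_prodMk_left
  have hGi : ∀ i, Measurable fun x => ∫⁻ Y in Λ, G i x Y := fun i =>
    (hGm i).lintegral_prod_right'
  have hmX : Measurable fun x => XS g κ k₀ m x := by
    unfold XS
    exact Finset.measurable_sum _ fun l _ => measurable_fl_comp l (zz g κ l)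
  calc ∫⁻ x in Ivl k₀ j₀, ∫⁻ Y in Λ, ‖TS g κ (Y + θ x) k₀ m x‖ₑ
      ≤ ∫⁻ x in Ivl k₀ j₀, ∫⁻ Y in Λ, (∑ i ∈ Finset.range n, G i x Y +
          (ENNReal.ofReal ((C₀ + 2) * XS g κ k₀ m x) +
            ENNReal.ofReal (((m - k₀ : ℕ) : ℝ) * (2 * a₀)))) := by
        refine setLIntegral_mono' (measurableSet_Ivl _ _) fun x hx => ?_
        refine lintegral_mono fun Y => ?_
        refine (enorm_TS_le hg hM hκ ha hC₀ (fun l h1 _ => hQ l h1 _) hn).trans ?_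
        refine add_le_add (Finset.sum_le_sum fun i hi => ?_) le_rfl
        rw [Finset.mem_range] at hi
        refine port_le hg hM hκ hR hQ0 (by positivity) (hB i hi) hC₀
          (fun l h1 _ => hQ l h1 _) (hβ i hi) ?_ (fun t ht => hRt0 i hi t ht x) ?_
        · intro k h1 h2 h3
          obtain ⟨t, ht, q1, q2, q3⟩ := hcov i hi x hx k h1 h2 _ h3
          exact ⟨t, ht, q1, mem_Ivl.1 q2, q3⟩
        · intro t ht h1
          exact hRt i hi t ht x (mem_Ivl.2 h1)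
    _ = ∫⁻ x in Ivl k₀ j₀, ((∑ i ∈ Finset.range n, ∫⁻ Y in Λ, G i x Y) +
          (ENNReal.ofReal ((C₀ + 2) * XS g κ k₀ m x) +
            ENNReal.ofReal (((m - k₀ : ℕ) : ℝ) * (2 * a₀))) * volume Λ) := by
        refine lintegral_congr fun x => ?_
        rw [lintegral_add_right _ measurable_const, lintegral_finsetSum _ fun i _ => hGx i x,
          setLIntegral_const]
    _ = (∑ i ∈ Finset.range n, ∫⁻ x in Ivl k₀ j₀, ∫⁻ Y in Λ, G i x Y) +
          (∫⁻ x in Ivl k₀ j₀, (ENNReal.ofReal ((C₀ + 2) * XS g κ k₀ m x) +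
            ENNReal.ofReal (((m - k₀ : ℕ) : ℝ) * (2 * a₀)))) * volume Λ := by
        have hmm : Measurable fun x => ENNReal.ofReal ((C₀ + 2) * XS g κ k₀ m x) +
            ENNReal.ofReal (((m - k₀ : ℕ) : ℝ) * (2 * a₀)) :=
          ((hmX.const_mul _).ennreal_ofReal).add_const _
        rw [lintegral_add_right _ (hmm.mul_const _), lintegral_finsetSum _ fun i _ => hGi i,
          lintegral_mul_const _ hmm]
    _ ≤ _ := by
        refine add_le_add le_rfl ?_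
        rw [← mul_assoc (ENNReal.ofReal ((C₀ + 2) * Q + ((m - k₀ : ℕ) : ℝ) * (2 * a₀)))]
        refine mul_le_mul_left (le_of_eq_of_le (lintegral_add_right _ measurable_const) ?_) _
        rw [setLIntegral_const, ENNReal.ofReal_add (by positivity) (by positivity), add_mul]
        refine add_le_add ?_ le_rfl
        have h1 : ∀ x, ENNReal.ofReal ((C₀ + 2) * XS g κ k₀ m x) =
            ENNReal.ofReal (C₀ + 2) * ENNReal.ofReal (XS g κ k₀ m x) := fun x =>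
          ENNReal.ofReal_mul (by positivity)
        simp_rw [h1]
        rw [lintegral_const_mul _ hmX.ennreal_ofReal, ENNReal.ofReal_mul (by positivity), mul_assoc]
        refine mul_le_mul_right ?_ _
        exact lint_XS_le hg hM hκ k₀ j₀ m (hQ k₀ le_rfl j₀)

end all

end Crest.Agent.R100.UB711
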